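import Vale.Agent.P154.Prog

/-!
The program `psiR`, step by step (generated).
-/

set_option linter.unusedVariables false

namespace Vale.Agent.P154

theorem psiR_form (p : Par) {A B t s D X Y ApB K0 Y2 Y3 D2 YD U2 U3 U4 U5 As Bt gp gq gg ST V2 Bgq Agp v3 w3 V4 E1 E4 X2 kap G1 G2 G3 E3 Pa Pb Pi RA RB R0 Q1 Q2 : ℝ}
    (hX : X = A * B) (hY : Y = 1 - X) (hApB : ApB = A + B) (hK0 : K0 = Y - ApB) (hY2 : Y2 = Y * Y) (hY3 : Y3 = Y2 * Y) (hD2 : D2 = D * D) (hYD : YD = Y * D) (hU2 : U2 = 3 * Y2 - 2 * D) (hU3 : U3 = D2 - 9 * YD + 9 * Y3) (hU4 : U4 = (4 * Y + 6) * D2 - 36 * (Y * YD) + 27 * (Y2 * Y2)) (hU5 : U5 = (15 * Y2 + 45 * Y - 5 * D) * D2 - 135 * (Y2 * YD) + 81 * (Y3 * Y2)) (hAs : As = A * s) (hBt : Bt = B * t) (hgp : gp = B * Bt - As) (hgq : gq = A * As - Bt) (hgg : gg =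 gp + gq) (hST : ST = As + Bt) (hV2 : V2 = ST * D + 3 * (Y * gg)) (hBgq : Bgq = B * gq) (hAgp : Agp = A * gp) (hv3 : v3 = 9 * (Y2 * gp) - (6 * gp + 3 * Bgq) * D) (hw3 : w3 = 9 * (Y2 * gq) - (6 * gq + 3 * Agp) * D) (hV4 : V4 = (gg - 3 * ST) * D2 - 9 * (YD * (3 * gg + Bgq + Agp)) + 27 * (Y3 * gg)) (hE1 : E1 = K0 * Y - gg) (hE4 : E4 = D2 * U2 - D * U3 + K0 * U4 - V4) (hX2 : X2 = 2 * X) (hkap : kap = t * s - D + (1 - 3 * X)) (hG1 : G1 = (1 + 2 * K0 - ApB) * Y - D - 2 * gg) (hG2 : G2 = 2 * V2 + 2 * ((ApB + X - K0) * U2)) (hG3 : G3 = K0 * K0 - ApB + (4 * (X * ApB) - X2) + 2 * kap) (hE3 : E3 = G1 * D2 + G2 * D + G3 * U3 - 2 * (K0 * (v3 + w3)) + (s * w3 + t * v3)) (hPa : Pa = 1 - 3 * A + t) (hPb : Pb = 1 - 3 * B + s) (hPi : Pi = Pa * Pb) (hRA : RA = 2 * p.s0 * A + 4 * p.b2 *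 (A * A) - 2 * p.g2 * (A * t) + p.e2 * (t * t)) (hRB : RB = p.y1 * B + p.y2 * (B * B) - p.y3 * (B * s) + p.y4 * (s * s)) (hR0 : R0 = RA + RB - (2 * p.s0 + 4 * p.b1 - 4 * p.g1 + 4 * p.e1)) (hQ1 : Q1 = ((D * R0 - (-2 * p.s0 - 8 * p.b1 + 10 * p.g1 - 12 * p.e1) * E1) * D2 - (4 * p.b1 - 6 * p.g1 + 9 * p.e1) * E3) * D2) (hQ2 : Q2 = D * ((-2 * p.g1 + 4 * p.e1) * (U2 * D2) + (2 * p.g1 - 6 * p.e1) * E4) + p.e1 * (Pi * U5)) :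
    psiR p A B t s D = Q1 - Pi * Q2 := by
  have k0 : ((1 * 1) : ℝ) = 1 := by norm_num
  have e0 : st0 (· + ·) (· - ·) (· * ·) (fun n : ℤ => (n : ℝ)) p 1 1 1 1 1 A B t s D = st1 (· + ·) (· - ·) (· * ·) (fun n : ℤ => (n : ℝ)) p 1 1 1 1 1 A B t s D 1 :=
    congrArg (fun v : ℝ => st1 (· + ·) (· - ·) (· * ·) (fun n : ℤ => (n : ℝ)) p 1 1 1 1 1 A B t s D v) k0
  have k1 : ((1 * 1) : ℝ) = 1 := by norm_num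
  have e1 : st1 (· + ·) (· - ·) (· * ·) (fun n : ℤ => (n : ℝ)) p 1 1 1 1 1 A B t s D 1 = st2 (· + ·) (· - ·) (· * ·) (fun n : ℤ => (n : ℝ)) p 1 1 1 1 1 A B t s D 1 1 :=
    congrArg (fun v : ℝ => st2 (· + ·) (· - ·) (· * ·) (fun n : ℤ => (n : ℝ)) p 1 1 1 1 1 A B t s D 1 v) k1
  have k2 : ((1 * 1) : ℝ) = 1 := by norm_num
  have e2 : st2 (· + ·) (· - ·) (· * ·) (fun n : ℤ => (n : ℝ)) p 1 1 1 1 1 A B t s D 1 1 = st3 (· + ·) (· - ·) (· * ·) (fun n : ℤ => (n : ℝ)) p 1 1 1 1 1 A B t s D 1 1 1 :=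
    congrArg (fun v : ℝ => st3 (· + ·) (· - ·) (· * ·) (fun n : ℤ => (n : ℝ)) p 1 1 1 1 1 A B t s D 1 1 v) k2
  have k3 : ((1 * 1) : ℝ) = 1 := by norm_num
  have e3 : st3 (· + ·) (· - ·) (· * ·) (fun n : ℤ => (n : ℝ)) p 1 1 1 1 1 A B t s D 1 1 1 = st4 (· + ·) (· - ·) (· * ·) (fun n : ℤ => (n : ℝ)) p 1 1 1 1 1 A B t s D 1 1 1 1 :=
    congrArg (fun v : ℝ => st4 (· + ·) (· - ·) (· * ·) (fun n : ℤ => (n : ℝ)) p 1 1 1 1 1 A B t s D 1 1 1 v) k3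
  have k4 : ((A * B) : ℝ) = X := by first | (rw [hX]; done) | (rw [hX]; push_cast; ring)
  have e4 : st4 (· + ·) (· - ·) (· * ·) (fun n : ℤ => (n : ℝ)) p 1 1 1 1 1 A B t s D 1 1 1 1 = st5 (· + ·) (· - ·) (· * ·) (fun n : ℤ => (n : ℝ)) p 1 1 1 1 1 A B t s D 1 1 1 1 X :=
    congrArg (fun v : ℝ => st5 (· + ·) (· - ·) (· * ·) (fun n : ℤ => (n : ℝ)) p 1 1 1 1 1 A B t s D 1 1 1 1 v) k4
  have k5 : ((1 - X) : ℝ) = Y := by first | (rw [hY]; done) | (rw [hY]; push_cast; ring)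
  have e5 : st5 (· + ·) (· - ·) (· * ·) (fun n : ℤ => (n : ℝ)) p 1 1 1 1 1 A B t s D 1 1 1 1 X = st6 (· + ·) (· - ·) (· * ·) (fun n : ℤ => (n : ℝ)) p 1 1 1 1 1 A B t s D 1 1 1 1 X Y :=
    congrArg (fun v : ℝ => st6 (· + ·) (· - ·) (· * ·) (fun n : ℤ => (n : ℝ)) p 1 1 1 1 1 A B t s D 1 1 1 1 X v) k5
  have k6 : (((A * 1) + (B * 1)) : ℝ) = ApB := by first | (rw [hApB]; done) | (rw [hApB]; push_cast; ring)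
  have e6 : st6 (· + ·) (· - ·) (· * ·) (fun n : ℤ => (n : ℝ)) p 1 1 1 1 1 A B t s D 1 1 1 1 X Y = st7 (· + ·) (· - ·) (· * ·) (fun n : ℤ => (n : ℝ)) p 1 1 1 1 1 A B t s D 1 1 1 1 X Y ApB :=
    congrArg (fun v : ℝ => st7 (· + ·) (· - ·) (· * ·) (fun n : ℤ => (n : ℝ)) p 1 1 1 1 1 A B t s D 1 1 1 1 X Y v) k6
  have k7 : ((Y - ApB) : ℝ) = K0 := by first | (rw [hK0]; done) | (rw [hK0]; push_cast; ring)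
  have e7 : st7 (· + ·) (· - ·) (· * ·) (fun n : ℤ => (n : ℝ)) p 1 1 1 1 1 A B t s D 1 1 1 1 X Y ApB = st8 (· + ·) (· - ·) (· * ·) (fun n : ℤ => (n : ℝ)) p 1 1 1 1 1 A B t s D 1 1 1 1 X Y ApB K0 :=
    congrArg (fun v : ℝ => st8 (· + ·) (· - ·) (· * ·) (fun n : ℤ => (n : ℝ)) p 1 1 1 1 1 A B t s D 1 1 1 1 X Y ApB v) k7
  have k8 : ((Y * Y) : ℝ) = Y2 := by first | (rw [hY2]; done) | (rw [hY2]; push_cast; ring)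
  have e8 : st8 (· + ·) (· - ·) (· * ·) (fun n : ℤ => (n : ℝ)) p 1 1 1 1 1 A B t s D 1 1 1 1 X Y ApB K0 = st9 (· + ·) (· - ·) (· * ·) (fun n : ℤ => (n : ℝ)) p 1 1 1 1 1 A B t s D 1 1 1 1 X Y ApB K0 Y2 :=
    congrArg (fun v : ℝ => st9 (· + ·) (· - ·) (· * ·) (fun n : ℤ => (n : ℝ)) p 1 1 1 1 1 A B t s D 1 1 1 1 X Y ApB K0 v) k8
  have k9 : ((Y2 * Y) : ℝ) = Y3 := by first | (rw [hY3]; done) | (rw [hY3]; push_cast; ring)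
  have e9 : st9 (· + ·) (· - ·) (· * ·) (fun n : ℤ => (n : ℝ)) p 1 1 1 1 1 A B t s D 1 1 1 1 X Y ApB K0 Y2 = st10 (· + ·) (· - ·) (· * ·) (fun n : ℤ => (n : ℝ)) p 1 1 1 1 1 A B t s D 1 1 1 1 X Y ApB K0 Y2 Y3 :=
    congrArg (fun v : ℝ => st10 (· + ·) (· - ·) (· * ·) (fun n : ℤ => (n : ℝ)) p 1 1 1 1 1 A B t s D 1 1 1 1 X Y ApB K0 Y2 v) k9
  have k10 : ((D * D) : ℝ) = D2 := by first | (rw [hD2]; done) | (rw [hD2]; push_cast; ring)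
  have e10 : st10 (· + ·) (· - ·) (· * ·) (fun n : ℤ => (n : ℝ)) p 1 1 1 1 1 A B t s D 1 1 1 1 X Y ApB K0 Y2 Y3 = st11 (· + ·) (· - ·) (· * ·) (fun n : ℤ => (n : ℝ)) p 1 1 1 1 1 A B t s D 1 1 1 1 X Y ApB K0 Y2 Y3 D2 :=
    congrArg (fun v : ℝ => st11 (· + ·) (· - ·) (· * ·) (fun n : ℤ => (n : ℝ)) p 1 1 1 1 1 A B t s D 1 1 1 1 X Y ApB K0 Y2 Y3 v) k10
  have k11 : ((Y * D) : ℝ) = YD := by first | (rw [hYD]; done) | (rw [hYD]; push_cast; ring)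
  have e11 : st11 (· + ·) (· - ·) (· * ·) (fun n : ℤ => (n : ℝ)) p 1 1 1 1 1 A B t s D 1 1 1 1 X Y ApB K0 Y2 Y3 D2 = st12 (· + ·) (· - ·) (· * ·) (fun n : ℤ => (n : ℝ)) p 1 1 1 1 1 A B t s D 1 1 1 1 X Y ApB K0 Y2 Y3 D2 YD :=
    congrArg (fun v : ℝ => st12 (· + ·) (· - ·) (· * ·) (fun n : ℤ => (n : ℝ)) p 1 1 1 1 1 A B t s D 1 1 1 1 X Y ApB K0 Y2 Y3 D2 v) k11
  have k12 : ((((((3 : ℤ)) : ℝ) * (Y2 * 1)) - ((((2 : ℤ)) : ℝ) * (D * 1))) : ℝ) = U2 := by first | (rw [hU2]; done) | (rw [hU2]; push_cast; ring)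
  have e12 : st12 (· + ·) (· - ·) (· * ·) (fun n : ℤ => (n : ℝ)) p 1 1 1 1 1 A B t s D 1 1 1 1 X Y ApB K0 Y2 Y3 D2 YD = st13 (· + ·) (· - ·) (· * ·) (fun n : ℤ => (n : ℝ)) p 1 1 1 1 1 A B t s D 1 1 1 1 X Y ApB K0 Y2 Y3 D2 YD U2 :=
    congrArg (fun v : ℝ => st13 (· + ·) (· - ·) (· * ·) (fun n : ℤ => (n : ℝ)) p 1 1 1 1 1 A B t s D 1 1 1 1 X Y ApB K0 Y2 Y3 D2 YD v) k12
  have k13 : (((1 * (D2 - ((((9 : ℤ)) : ℝ) * (YD * 1)))) + ((((9 : ℤ)) : ℝ) * (Y3 * 1))) : ℝ) = U3 := by first | (rw [hU3]; done) | (rw [hU3]; push_cast; ring)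
  have e13 : st13 (· + ·) (· - ·) (· * ·) (fun n : ℤ => (n : ℝ)) p 1 1 1 1 1 A B t s D 1 1 1 1 X Y ApB K0 Y2 Y3 D2 YD U2 = st14 (· + ·) (· - ·) (· * ·) (fun n : ℤ => (n : ℝ)) p 1 1 1 1 1 A B t s D 1 1 1 1 X Y ApB K0 Y2 Y3 D2 YD U2 U3 :=
    congrArg (fun v : ℝ => st14 (· + ·) (· - ·) (· * ·) (fun n : ℤ => (n : ℝ)) p 1 1 1 1 1 A B t s D 1 1 1 1 X Y ApB K0 Y2 Y3 D2 YD U2 v) k13
  have k14 : ((((((((((4 : ℤ)) : ℝ) * Y) + ((((6 : ℤ)) : ℝ) * 1)) * 1) * D2) - ((((36 : ℤ)) : ℝ) * ((Y * YD) * 1))) + ((((27 : ℤ)) : ℝ) * ((Y2 * Y2) * 1))) : ℝ) = U4 := by first | (rw [hU4]; done) | (rw [hU4]; push_cast; ring)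
  have e14 : st14 (· + ·) (· - ·) (· * ·) (fun n : ℤ => (n : ℝ)) p 1 1 1 1 1 A B t s D 1 1 1 1 X Y ApB K0 Y2 Y3 D2 YD U2 U3 = st15 (· + ·) (· - ·) (· * ·) (fun n : ℤ => (n : ℝ)) p 1 1 1 1 1 A B t s D 1 1 1 1 X Y ApB K0 Y2 Y3 D2 YD U2 U3 U4 :=
    congrArg (fun v : ℝ => st15 (· + ·) (· - ·) (· * ·) (fun n : ℤ => (n : ℝ)) p 1 1 1 1 1 A B t s D 1 1 1 1 X Y ApB K0 Y2 Y3 D2 YD U2 U3 v) k14
  have k15 : (((((((((((15 : ℤ)) : ℝ) * Y2) + ((((45 : ℤ)) : ℝ) * (Y * 1))) * 1) - ((((5 : ℤ)) : ℝ) * (D * (1 * 1)))) * D2) - ((((135 : ℤ)) : ℝ) * ((Y2 * YD) * (1 * 1)))) + ((((81 : ℤ)) : ℝ) * ((Y3 * Y2) * (1 * 1)))) : ℝ) = U5 := by first | (rw [hU5]; done) | (rw [hU5]; push_cast; ring)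
  have e15 : st15 (· + ·) (· - ·) (· * ·) (fun n : ℤ => (n : ℝ)) p 1 1 1 1 1 A B t s D 1 1 1 1 X Y ApB K0 Y2 Y3 D2 YD U2 U3 U4 = st16 (· + ·) (· - ·) (· * ·) (fun n : ℤ => (n : ℝ)) p 1 1 1 1 1 A B t s D 1 1 1 1 X Y ApB K0 Y2 Y3 D2 YD U2 U3 U4 U5 :=
    congrArg (fun v : ℝ => st16 (· + ·) (· - ·) (· * ·) (fun n : ℤ => (n : ℝ)) p 1 1 1 1 1 A B t s D 1 1 1 1 X Y ApB K0 Y2 Y3 D2 YD U2 U3 U4 v) k15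
  have k16 : ((A * s) : ℝ) = As := by first | (rw [hAs]; done) | (rw [hAs]; push_cast; ring)
  have e16 : st16 (· + ·) (· - ·) (· * ·) (fun n : ℤ => (n : ℝ)) p 1 1 1 1 1 A B t s D 1 1 1 1 X Y ApB K0 Y2 Y3 D2 YD U2 U3 U4 U5 = st17 (· + ·) (· - ·) (· * ·) (fun n : ℤ => (n : ℝ)) p 1 1 1 1 1 A B t s D 1 1 1 1 X Y ApB K0 Y2 Y3 D2 YD U2 U3 U4 U5 As :=
    congrArg (fun v : ℝ => st17 (· + ·) (· - ·) (· * ·) (fun n : ℤ => (n : ℝ)) p 1 1 1 1 1 A B t s D 1 1 1 1 X Y ApB K0 Y2 Y3 D2 YD U2 U3 U4 U5 v) k16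
  have k17 : ((B * t) : ℝ) = Bt := by first | (rw [hBt]; done) | (rw [hBt]; push_cast; ring)
  have e17 : st17 (· + ·) (· - ·) (· * ·) (fun n : ℤ => (n : ℝ)) p 1 1 1 1 1 A B t s D 1 1 1 1 X Y ApB K0 Y2 Y3 D2 YD U2 U3 U4 U5 As = st18 (· + ·) (· - ·) (· * ·) (fun n : ℤ => (n : ℝ)) p 1 1 1 1 1 A B t s D 1 1 1 1 X Y ApB K0 Y2 Y3 D2 YD U2 U3 U4 U5 As Bt :=
    congrArg (fun v : ℝ => st18 (· + ·) (· - ·) (· * ·) (fun n : ℤ => (n : ℝ)) p 1 1 1 1 1 A B t s D 1 1 1 1 X Y ApB K0 Y2 Y3 D2 YD U2 U3 U4 U5 As v) k17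
  have k18 : ((((B * Bt) * 1) - ((As * 1) * 1)) : ℝ) = gp := by first | (rw [hgp]; done) | (rw [hgp]; push_cast; ring)
  have e18 : st18 (· + ·) (· - ·) (· * ·) (fun n : ℤ => (n : ℝ)) p 1 1 1 1 1 A B t s D 1 1 1 1 X Y ApB K0 Y2 Y3 D2 YD U2 U3 U4 U5 As Bt = st19 (· + ·) (· - ·) (· * ·) (fun n : ℤ => (n : ℝ)) p 1 1 1 1 1 A B t s D 1 1 1 1 X Y ApB K0 Y2 Y3 D2 YD U2 U3 U4 U5 As Bt gp :=
    congrArg (fun v : ℝ => st19 (· + ·) (· - ·) (· * ·) (fun n : ℤ => (n : ℝ)) p 1 1 1 1 1 A B t s D 1 1 1 1 X Y ApB K0 Y2 Y3 D2 YD U2 U3 U4 U5 As Bt v) k18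
  have k19 : ((((A * As) * 1) - ((Bt * 1) * 1)) : ℝ) = gq := by first | (rw [hgq]; done) | (rw [hgq]; push_cast; ring)
  have e19 : st19 (· + ·) (· - ·) (· * ·) (fun n : ℤ => (n : ℝ)) p 1 1 1 1 1 A B t s D 1 1 1 1 X Y ApB K0 Y2 Y3 D2 YD U2 U3 U4 U5 As Bt gp = st20 (· + ·) (· - ·) (· * ·) (fun n : ℤ => (n : ℝ)) p 1 1 1 1 1 A B t s D 1 1 1 1 X Y ApB K0 Y2 Y3 D2 YD U2 U3 U4 U5 As Bt gp gq :=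
    congrArg (fun v : ℝ => st20 (· + ·) (· - ·) (· * ·) (fun n : ℤ => (n : ℝ)) p 1 1 1 1 1 A B t s D 1 1 1 1 X Y ApB K0 Y2 Y3 D2 YD U2 U3 U4 U5 As Bt gp v) k19
  have k20 : (((gp * 1) + (gq * 1)) : ℝ) = gg := by first | (rw [hgg]; done) | (rw [hgg]; push_cast; ring)
  have e20 : st20 (· + ·) (· - ·) (· * ·) (fun n : ℤ => (n : ℝ)) p 1 1 1 1 1 A B t s D 1 1 1 1 X Y ApB K0 Y2 Y3 D2 YD U2 U3 U4 U5 As Bt gp gq = st21 (· + ·) (· - ·) (· * ·) (fun n : ℤ => (n : ℝ)) p 1 1 1 1 1 A B t s D 1 1 1 1 X Y ApB K0 Y2 Y3 D2 YD U2 U3 U4 U5 As Bt gp gq gg :=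
    congrArg (fun v : ℝ => st21 (· + ·) (· - ·) (· * ·) (fun n : ℤ => (n : ℝ)) p 1 1 1 1 1 A B t s D 1 1 1 1 X Y ApB K0 Y2 Y3 D2 YD U2 U3 U4 U5 As Bt gp gq v) k20
  have k21 : (((As * 1) + (Bt * 1)) : ℝ) = ST := by first | (rw [hST]; done) | (rw [hST]; push_cast; ring)
  have e21 : st21 (· + ·) (· - ·) (· * ·) (fun n : ℤ => (n : ℝ)) p 1 1 1 1 1 A B t s D 1 1 1 1 X Y ApB K0 Y2 Y3 D2 YD U2 U3 U4 U5 As Bt gp gq gg = st22 (· + ·) (· - ·) (· * ·) (fun n : ℤ => (n : ℝ)) p 1 1 1 1 1 A B t s D 1 1 1 1 X Y ApB K0 Y2 Y3 D2 YD U2 U3 U4 U5 gp gq gg ST :=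
    congrArg (fun v : ℝ => st22 (· + ·) (· - ·) (· * ·) (fun n : ℤ => (n : ℝ)) p 1 1 1 1 1 A B t s D 1 1 1 1 X Y ApB K0 Y2 Y3 D2 YD U2 U3 U4 U5 gp gq gg v) k21
  have k22 : ((((ST * D) * 1) + ((((3 : ℤ)) : ℝ) * ((Y * gg) * 1))) : ℝ) = V2 := by first | (rw [hV2]; done) | (rw [hV2]; push_cast; ring)
  have e22 : st22 (· + ·) (· - ·) (· * ·) (fun n : ℤ => (n : ℝ)) p 1 1 1 1 1 A B t s D 1 1 1 1 X Y ApB K0 Y2 Y3 D2 YD U2 U3 U4 U5 gp gq gg ST = st23 (· + ·) (· - ·) (· * ·) (fun n : ℤ => (n : ℝ)) p 1 1 1 1 1 A B t s D 1 1 1 1 X Y ApB K0 Y2 Y3 D2 YD U2 U3 U4 U5 gp gq gg ST V2 :=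
    congrArg (fun v : ℝ => st23 (· + ·) (· - ·) (· * ·) (fun n : ℤ => (n : ℝ)) p 1 1 1 1 1 A B t s D 1 1 1 1 X Y ApB K0 Y2 Y3 D2 YD U2 U3 U4 U5 gp gq gg ST v) k22
  have k23 : ((B * gq) : ℝ) = Bgq := by first | (rw [hBgq]; done) | (rw [hBgq]; push_cast; ring)
  have e23 : st23 (· + ·) (· - ·) (· * ·) (fun n : ℤ => (n : ℝ)) p 1 1 1 1 1 A B t s D 1 1 1 1 X Y ApB K0 Y2 Y3 D2 YD U2 U3 U4 U5 gp gq gg ST V2 = st24 (· + ·) (· - ·) (· * ·) (fun n : ℤ => (n : ℝ)) p 1 1 1 1 1 A B t s D 1 1 1 1 X Y ApB K0 Y2 Y3 D2 YD U2 U3 U4 U5 gp gq gg ST V2 Bgq :=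
    congrArg (fun v : ℝ => st24 (· + ·) (· - ·) (· * ·) (fun n : ℤ => (n : ℝ)) p 1 1 1 1 1 A B t s D 1 1 1 1 X Y ApB K0 Y2 Y3 D2 YD U2 U3 U4 U5 gp gq gg ST V2 v) k23
  have k24 : ((A * gp) : ℝ) = Agp := by first | (rw [hAgp]; done) | (rw [hAgp]; push_cast; ring)
  have e24 : st24 (· + ·) (· - ·) (· * ·) (fun n : ℤ => (n : ℝ)) p 1 1 1 1 1 A B t s D 1 1 1 1 X Y ApB K0 Y2 Y3 D2 YD U2 U3 U4 U5 gp gq gg ST V2 Bgq = st25 (· + ·) (· - ·) (· * ·) (fun n : ℤ => (n : ℝ)) p 1 1 1 1 1 A B t s D 1 1 1 1 X Y ApB K0 Y2 Y3 D2 YD U2 U3 U4 U5 gp gq gg ST V2 Bgq Agp :=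
    congrArg (fun v : ℝ => st25 (· + ·) (· - ·) (· * ·) (fun n : ℤ => (n : ℝ)) p 1 1 1 1 1 A B t s D 1 1 1 1 X Y ApB K0 Y2 Y3 D2 YD U2 U3 U4 U5 gp gq gg ST V2 Bgq v) k24
  have k25 : ((((((9 : ℤ)) : ℝ) * ((Y2 * gp) * 1)) - (((((((6 : ℤ)) : ℝ) * (gp * 1)) + ((((3 : ℤ)) : ℝ) * Bgq)) * D) * 1)) : ℝ) = v3 := by first | (rw [hv3]; done) | (rw [hv3]; push_cast; ring)
  have e25 : st25 (· + ·) (· - ·) (· * ·) (fun n : ℤ => (n : ℝ)) p 1 1 1 1 1 A B t s D 1 1 1 1 X Y ApB K0 Y2 Y3 D2 YD U2 U3 U4 U5 gp gq gg ST V2 Bgq Agp = st26 (· + ·) (· - ·) (· * ·) (fun n : ℤ => (n : ℝ)) p 1 1 1 1 1 A B t s D 1 1 1 1 X Y ApB K0 Y2 Y3 D2 YD U2 U3 U4 U5 gq gg ST V2 Bgq Agp v3 :=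
    congrArg (fun v : ℝ => st26 (· + ·) (· - ·) (· * ·) (fun n : ℤ => (n : ℝ)) p 1 1 1 1 1 A B t s D 1 1 1 1 X Y ApB K0 Y2 Y3 D2 YD U2 U3 U4 U5 gq gg ST V2 Bgq Agp v) k25
  have k26 : ((((((9 : ℤ)) : ℝ) * ((Y2 * gq) * 1)) - (((((((6 : ℤ)) : ℝ) * (gq * 1)) + ((((3 : ℤ)) : ℝ) * Agp)) * D) * 1)) : ℝ) = w3 := by first | (rw [hw3]; done) | (rw [hw3]; push_cast; ring)
  have e26 : st26 (· + ·) (· - ·) (· * ·) (fun n : ℤ => (n : ℝ)) p 1 1 1 1 1 A B t s D 1 1 1 1 X Y ApB K0 Y2 Y3 D2 YD U2 U3 U4 U5 gq gg ST V2 Bgq Agp v3 = st27 (· + ·) (· - ·) (· * ·) (fun n : ℤ => (n : ℝ)) p 1 1 1 1 1 A B t s D 1 1 1 1 X Y ApB K0 Y3 D2 YD U2 U3 U4 U5 gg ST V2 Bgq Agp v3 w3 :=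
    congrArg (fun v : ℝ => st27 (· + ·) (· - ·) (· * ·) (fun n : ℤ => (n : ℝ)) p 1 1 1 1 1 A B t s D 1 1 1 1 X Y ApB K0 Y3 D2 YD U2 U3 U4 U5 gg ST V2 Bgq Agp v3 v) k26
  have k27 : ((((((gg - ((((3 : ℤ)) : ℝ) * (ST * 1))) * 1) * D2) - ((((9 : ℤ)) : ℝ) * ((YD * ((((((3 : ℤ)) : ℝ) * gg) + Bgq) + Agp)) * 1))) + ((((27 : ℤ)) : ℝ) * ((Y3 * gg) * 1))) : ℝ) = V4 := by first | (rw [hV4]; done) | (rw [hV4]; push_cast; ring)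
  have e27 : st27 (· + ·) (· - ·) (· * ·) (fun n : ℤ => (n : ℝ)) p 1 1 1 1 1 A B t s D 1 1 1 1 X Y ApB K0 Y3 D2 YD U2 U3 U4 U5 gg ST V2 Bgq Agp v3 w3 = st28 (· + ·) (· - ·) (· * ·) (fun n : ℤ => (n : ℝ)) p 1 1 1 1 1 A B t s D 1 1 1 1 X Y ApB K0 D2 U2 U3 U4 U5 gg V2 v3 w3 V4 :=
    congrArg (fun v : ℝ => st28 (· + ·) (· - ·) (· * ·) (fun n : ℤ => (n : ℝ)) p 1 1 1 1 1 A B t s D 1 1 1 1 X Y ApB K0 D2 U2 U3 U4 U5 gg V2 v3 w3 v) k27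
  have k28 : ((((K0 * Y) * 1) - gg) : ℝ) = E1 := by first | (rw [hE1]; done) | (rw [hE1]; push_cast; ring)
  have e28 : st28 (· + ·) (· - ·) (· * ·) (fun n : ℤ => (n : ℝ)) p 1 1 1 1 1 A B t s D 1 1 1 1 X Y ApB K0 D2 U2 U3 U4 U5 gg V2 v3 w3 V4 = st29 (· + ·) (· - ·) (· * ·) (fun n : ℤ => (n : ℝ)) p 1 1 1 1 1 A B t s D 1 1 1 1 X Y ApB K0 D2 U2 U3 U4 U5 gg V2 v3 w3 V4 E1 :=
    congrArg (fun v : ℝ => st29 (· + ·) (· - ·) (· * ·) (fun n : ℤ => (n : ℝ)) p 1 1 1 1 1 A B t s D 1 1 1 1 X Y ApB K0 D2 U2 U3 U4 U5 gg V2 v3 w3 V4 v) k28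
  have k29 : (((((((D2 * U2) - (D * U3)) * 1) + ((K0 * U4) * 1)) * 1) - (V4 * 1)) : ℝ) = E4 := by first | (rw [hE4]; done) | (rw [hE4]; push_cast; ring)
  have e29 : st29 (· + ·) (· - ·) (· * ·) (fun n : ℤ => (n : ℝ)) p 1 1 1 1 1 A B t s D 1 1 1 1 X Y ApB K0 D2 U2 U3 U4 U5 gg V2 v3 w3 V4 E1 = st30 (· + ·) (· - ·) (· * ·) (fun n : ℤ => (n : ℝ)) p 1 1 1 1 1 A B t s D 1 1 1 1 X Y ApB K0 D2 U2 U3 U5 gg V2 v3 w3 E1 E4 :=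
    congrArg (fun v : ℝ => st30 (· + ·) (· - ·) (· * ·) (fun n : ℤ => (n : ℝ)) p 1 1 1 1 1 A B t s D 1 1 1 1 X Y ApB K0 D2 U2 U3 U5 gg V2 v3 w3 E1 v) k29
  have k30 : (((((2 : ℤ)) : ℝ) * X) : ℝ) = X2 := by first | (rw [hX2]; done) | (rw [hX2]; push_cast; ring)
  have e30 : st30 (· + ·) (· - ·) (· * ·) (fun n : ℤ => (n : ℝ)) p 1 1 1 1 1 A B t s D 1 1 1 1 X Y ApB K0 D2 U2 U3 U5 gg V2 v3 w3 E1 E4 = st31 (· + ·) (· - ·) (· * ·) (fun n : ℤ => (n : ℝ)) p 1 1 1 1 1 A B t s D 1 1 1 1 X Y ApB K0 D2 U2 U3 U5 gg V2 v3 w3 E1 E4 X2 :=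
    congrArg (fun v : ℝ => st31 (· + ·) (· - ·) (· * ·) (fun n : ℤ => (n : ℝ)) p 1 1 1 1 1 A B t s D 1 1 1 1 X Y ApB K0 D2 U2 U3 U5 gg V2 v3 w3 E1 E4 v) k30
  have k31 : (((((t * s) * 1) - (D * 1)) + (((1 - ((((3 : ℤ)) : ℝ) * X)) * 1) * 1)) : ℝ) = kap := by first | (rw [hkap]; done) | (rw [hkap]; push_cast; ring)
  have e31 : st31 (· + ·) (· - ·) (· * ·) (fun n : ℤ => (n : ℝ)) p 1 1 1 1 1 A B t s D 1 1 1 1 X Y ApB K0 D2 U2 U3 U5 gg V2 v3 w3 E1 E4 X2 = st32 (· + ·) (· - ·) (· * ·) (fun n : ℤ => (n : ℝ)) p 1 1 1 1 1 A B t s D 1 1 1 1 X Y ApB K0 D2 U2 U3 U5 gg V2 v3 w3 E1 E4 X2 kap :=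
    congrArg (fun v : ℝ => st32 (· + ·) (· - ·) (· * ·) (fun n : ℤ => (n : ℝ)) p 1 1 1 1 1 A B t s D 1 1 1 1 X Y ApB K0 D2 U2 U3 U5 gg V2 v3 w3 E1 E4 X2 v) k31
  have k32 : (((((((1 + ((((2 : ℤ)) : ℝ) * K0)) - ApB) * Y) * (1 * 1)) - ((D * 1) * 1)) - ((((2 : ℤ)) : ℝ) * (gg * 1))) : ℝ) = G1 := by first | (rw [hG1]; done) | (rw [hG1]; push_cast; ring)
  have e32 : st32 (· + ·) (· - ·) (· * ·) (fun n : ℤ => (n : ℝ)) p 1 1 1 1 1 A B t s D 1 1 1 1 X Y ApB K0 D2 U2 U3 U5 gg V2 v3 w3 E1 E4 X2 kap = st33 (· + ·) (· - ·) (· * ·) (fun n : ℤ => (n : ℝ)) p 1 1 1 1 1 A B t s D 1 1 1 1 X ApB K0 D2 U2 U3 U5 V2 v3 w3 E1 E4 X2 kap G1 :=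
    congrArg (fun v : ℝ => st33 (· + ·) (· - ·) (· * ·) (fun n : ℤ => (n : ℝ)) p 1 1 1 1 1 A B t s D 1 1 1 1 X ApB K0 D2 U2 U3 U5 V2 v3 w3 E1 E4 X2 kap v) k32
  have k33 : ((((((2 : ℤ)) : ℝ) * V2) + ((((2 : ℤ)) : ℝ) * ((((ApB + X) - K0) * U2) * 1))) : ℝ) = G2 := by first | (rw [hG2]; done) | (rw [hG2]; push_cast; ring)
  have e33 : st33 (· + ·) (· - ·) (· * ·) (fun n : ℤ => (n : ℝ)) p 1 1 1 1 1 A B t s D 1 1 1 1 X ApB K0 D2 U2 U3 U5 V2 v3 w3 E1 E4 X2 kap G1 = st34 (· + ·) (· - ·) (· * ·) (fun n : ℤ => (n : ℝ)) p 1 1 1 1 1 A B t s D 1 1 1 1 X ApB K0 D2 U2 U3 U5 v3 w3 E1 E4 X2 kap G1 G2 :=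
    congrArg (fun v : ℝ => st34 (· + ·) (· - ·) (· * ·) (fun n : ℤ => (n : ℝ)) p 1 1 1 1 1 A B t s D 1 1 1 1 X ApB K0 D2 U2 U3 U5 v3 w3 E1 E4 X2 kap G1 v) k33
  have k34 : ((((((K0 * K0) - (ApB * 1)) + (((((4 : ℤ)) : ℝ) * (X * ApB)) - (X2 * 1))) * (1 * 1)) + ((((2 : ℤ)) : ℝ) * (kap * 1))) : ℝ) = G3 := by first | (rw [hG3]; done) | (rw [hG3]; push_cast; ring)
  have e34 : st34 (· + ·) (· - ·) (· * ·) (fun n : ℤ => (n : ℝ)) p 1 1 1 1 1 A B t s D 1 1 1 1 X ApB K0 D2 U2 U3 U5 v3 w3 E1 E4 X2 kap G1 G2 = st35 (· + ·) (· - ·) (· * ·) (fun n : ℤ => (n : ℝ)) p 1 1 1 1 1 A B t s D 1 1 1 1 K0 D2 U2 U3 U5 v3 w3 E1 E4 G1 G2 G3 :=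
    congrArg (fun v : ℝ => st35 (· + ·) (· - ·) (· * ·) (fun n : ℤ => (n : ℝ)) p 1 1 1 1 1 A B t s D 1 1 1 1 K0 D2 U2 U3 U5 v3 w3 E1 E4 G1 G2 v) k34
  have k35 : ((((((((G1 * D2) * 1) + ((G2 * D) * 1)) + (G3 * U3)) * 1) - (((((2 : ℤ)) : ℝ) * (K0 * ((v3 * 1) + (w3 * 1)))) * (1 * 1))) + ((((s * w3) * 1) + ((t * v3) * 1)) * (1 * 1))) : ℝ) = E3 := by first | (rw [hE3]; done) | (rw [hE3]; push_cast; ring)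
  have e35 : st35 (· + ·) (· - ·) (· * ·) (fun n : ℤ => (n : ℝ)) p 1 1 1 1 1 A B t s D 1 1 1 1 K0 D2 U2 U3 U5 v3 w3 E1 E4 G1 G2 G3 = st36 (· + ·) (· - ·) (· * ·) (fun n : ℤ => (n : ℝ)) p 1 1 1 1 1 A B t s D 1 1 1 D2 U2 U5 E1 E4 E3 :=
    congrArg (fun v : ℝ => st36 (· + ·) (· - ·) (· * ·) (fun n : ℤ => (n : ℝ)) p 1 1 1 1 1 A B t s D 1 1 1 D2 U2 U5 E1 E4 v) k35
  have k36 : ((((1 - ((((3 : ℤ)) : ℝ) * A)) * 1) + t) : ℝ) = Pa := by first | (rw [hPa]; done) | (rw [hPa]; push_cast; ring)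
  have e36 : st36 (· + ·) (· - ·) (· * ·) (fun n : ℤ => (n : ℝ)) p 1 1 1 1 1 A B t s D 1 1 1 D2 U2 U5 E1 E4 E3 = st37 (· + ·) (· - ·) (· * ·) (fun n : ℤ => (n : ℝ)) p 1 1 1 1 1 A B t s D 1 1 1 D2 U2 U5 E1 E4 E3 Pa :=
    congrArg (fun v : ℝ => st37 (· + ·) (· - ·) (· * ·) (fun n : ℤ => (n : ℝ)) p 1 1 1 1 1 A B t s D 1 1 1 D2 U2 U5 E1 E4 E3 v) k36
  have k37 : ((((1 - ((((3 : ℤ)) : ℝ) * B)) * 1) + s) : ℝ) = Pb := by first | (rw [hPb]; done) | (rw [hPb]; push_cast; ring)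
  have e37 : st37 (· + ·) (· - ·) (· * ·) (fun n : ℤ => (n : ℝ)) p 1 1 1 1 1 A B t s D 1 1 1 D2 U2 U5 E1 E4 E3 Pa = st38 (· + ·) (· - ·) (· * ·) (fun n : ℤ => (n : ℝ)) p 1 1 1 1 1 A B t s D 1 1 1 D2 U2 U5 E1 E4 E3 Pa Pb :=
    congrArg (fun v : ℝ => st38 (· + ·) (· - ·) (· * ·) (fun n : ℤ => (n : ℝ)) p 1 1 1 1 1 A B t s D 1 1 1 D2 U2 U5 E1 E4 E3 Pa v) k37
  have k38 : ((Pa * Pb) : ℝ) = Pi := by first | (rw [hPi]; done) | (rw [hPi]; push_cast; ring)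
  have e38 : st38 (· + ·) (· - ·) (· * ·) (fun n : ℤ => (n : ℝ)) p 1 1 1 1 1 A B t s D 1 1 1 D2 U2 U5 E1 E4 E3 Pa Pb = st39 (· + ·) (· - ·) (· * ·) (fun n : ℤ => (n : ℝ)) p 1 1 1 1 1 A B t s D 1 1 1 D2 U2 U5 E1 E4 E3 Pi :=
    congrArg (fun v : ℝ => st39 (· + ·) (· - ·) (· * ·) (fun n : ℤ => (n : ℝ)) p 1 1 1 1 1 A B t s D 1 1 1 D2 U2 U5 E1 E4 E3 v) k38
  have k39 : ((1 * 1) : ℝ) = 1 := by norm_num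
  have e39 : st39 (· + ·) (· - ·) (· * ·) (fun n : ℤ => (n : ℝ)) p 1 1 1 1 1 A B t s D 1 1 1 D2 U2 U5 E1 E4 E3 Pi = st40 (· + ·) (· - ·) (· * ·) (fun n : ℤ => (n : ℝ)) p 1 1 1 1 1 A B t s D 1 1 1 D2 U2 U5 E1 E4 E3 Pi 1 :=
    congrArg (fun v : ℝ => st40 (· + ·) (· - ·) (· * ·) (fun n : ℤ => (n : ℝ)) p 1 1 1 1 1 A B t s D 1 1 1 D2 U2 U5 E1 E4 E3 Pi v) k39
  have k40 : ((1 * 1) : ℝ) = 1 := by norm_num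
  have e40 : st40 (· + ·) (· - ·) (· * ·) (fun n : ℤ => (n : ℝ)) p 1 1 1 1 1 A B t s D 1 1 1 D2 U2 U5 E1 E4 E3 Pi 1 = st41 (· + ·) (· - ·) (· * ·) (fun n : ℤ => (n : ℝ)) p 1 1 1 1 1 A B t s D 1 1 1 D2 U2 U5 E1 E4 E3 Pi 1 1 :=
    congrArg (fun v : ℝ => st41 (· + ·) (· - ·) (· * ·) (fun n : ℤ => (n : ℝ)) p 1 1 1 1 1 A B t s D 1 1 1 D2 U2 U5 E1 E4 E3 Pi 1 v) k40
  have k41 : ((((((((((2 * p.s0) : ℤ)) : ℝ) * (A * 1)) + (((((4 * p.b2) : ℤ)) : ℝ) * (A * A))) * 1) - (((((2 * p.g2) : ℤ)) : ℝ) * ((A * t) * 1))) + ((((p.e2 : ℤ)) : ℝ) * (t * t))) : ℝ) = RA := by first | (rw [hRA]; done) | (rw [hRA]; push_cast; ring)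
  have e41 : st41 (· + ·) (· - ·) (· * ·) (fun n : ℤ => (n : ℝ)) p 1 1 1 1 1 A B t s D 1 1 1 D2 U2 U5 E1 E4 E3 Pi 1 1 = st42 (· + ·) (· - ·) (· * ·) (fun n : ℤ => (n : ℝ)) p 1 1 1 1 1 B s D 1 1 1 D2 U2 U5 E1 E4 E3 Pi 1 RA :=
    congrArg (fun v : ℝ => st42 (· + ·) (· - ·) (· * ·) (fun n : ℤ => (n : ℝ)) p 1 1 1 1 1 B s D 1 1 1 D2 U2 U5 E1 E4 E3 Pi 1 v) k41
  have k42 : (((((((((p.y1 : ℤ)) : ℝ) * (B * 1)) + ((((p.y2 : ℤ)) : ℝ) * (B * B))) * 1) - ((((p.y3 : ℤ)) : ℝ) * ((B * s) * 1))) + ((((p.y4 : ℤ)) : ℝ) * (s * s))) : ℝ) = RB := by first | (rw [hRB]; done) | (rw [hRB]; push_cast; ring)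
  have e42 : st42 (· + ·) (· - ·) (· * ·) (fun n : ℤ => (n : ℝ)) p 1 1 1 1 1 B s D 1 1 1 D2 U2 U5 E1 E4 E3 Pi 1 RA = st43 (· + ·) (· - ·) (· * ·) (fun n : ℤ => (n : ℝ)) p 1 1 1 1 1 D 1 1 1 D2 U2 U5 E1 E4 E3 Pi RA RB :=
    congrArg (fun v : ℝ => st43 (· + ·) (· - ·) (· * ·) (fun n : ℤ => (n : ℝ)) p 1 1 1 1 1 D 1 1 1 D2 U2 U5 E1 E4 E3 Pi RA v) k42
  have k43 : ((1 * 1) : ℝ) = 1 := by norm_num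
  have e43 : st43 (· + ·) (· - ·) (· * ·) (fun n : ℤ => (n : ℝ)) p 1 1 1 1 1 D 1 1 1 D2 U2 U5 E1 E4 E3 Pi RA RB = st44 (· + ·) (· - ·) (· * ·) (fun n : ℤ => (n : ℝ)) p 1 1 1 D 1 1 1 D2 U2 U5 E1 E4 E3 Pi RA RB 1 :=
    congrArg (fun v : ℝ => st44 (· + ·) (· - ·) (· * ·) (fun n : ℤ => (n : ℝ)) p 1 1 1 D 1 1 1 D2 U2 U5 E1 E4 E3 Pi RA RB v) k43
  have k44 : ((1 * 1) : ℝ) = 1 := by norm_num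
  have e44 : st44 (· + ·) (· - ·) (· * ·) (fun n : ℤ => (n : ℝ)) p 1 1 1 D 1 1 1 D2 U2 U5 E1 E4 E3 Pi RA RB 1 = st45 (· + ·) (· - ·) (· * ·) (fun n : ℤ => (n : ℝ)) p 1 D 1 1 1 D2 U2 U5 E1 E4 E3 Pi RA RB 1 1 :=
    congrArg (fun v : ℝ => st45 (· + ·) (· - ·) (· * ·) (fun n : ℤ => (n : ℝ)) p 1 D 1 1 1 D2 U2 U5 E1 E4 E3 Pi RA RB 1 v) k44
  have k45 : ((((RA * (1 * 1)) + (RB * (1 * 1))) - ((((((((2 * p.s0) + (4 * p.b1)) - (4 * p.g1)) + (4 * p.e1)) : ℤ)) : ℝ) * ((1 * 1) * (1 * 1)))) : ℝ) = R0 := by first | (rw [hR0]; done) | (rw [hR0]; push_cast; ring)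
  have e45 : st45 (· + ·) (· - ·) (· * ·) (fun n : ℤ => (n : ℝ)) p 1 D 1 1 1 D2 U2 U5 E1 E4 E3 Pi RA RB 1 1 = st46 (· + ·) (· - ·) (· * ·) (fun n : ℤ => (n : ℝ)) p 1 D 1 1 1 D2 U2 U5 E1 E4 E3 Pi R0 :=
    congrArg (fun v : ℝ => st46 (· + ·) (· - ·) (· * ·) (fun n : ℤ => (n : ℝ)) p 1 D 1 1 1 D2 U2 U5 E1 E4 E3 Pi v) k45
  have k46 : ((((((D * R0) - (((((((((-2) * p.s0) - (8 * p.b1)) + (10 * p.g1)) - (12 * p.e1)) : ℤ)) : ℝ) * (E1 * (1 * 1)))) * D2) - (((((((4 * p.b1) - (6 * p.g1)) + (9 * p.e1)) : ℤ)) : ℝ) * E3)) * D2) : ℝ) = Q1 := by first | (rw [hQ1]; done) | (rw [hQ1]; push_cast; ring)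
  have e46 : st46 (· + ·) (· - ·) (· * ·) (fun n : ℤ => (n : ℝ)) p 1 D 1 1 1 D2 U2 U5 E1 E4 E3 Pi R0 = st47 (· + ·) (· - ·) (· * ·) (fun n : ℤ => (n : ℝ)) p 1 D 1 1 D2 U2 U5 E4 Pi Q1 :=
    congrArg (fun v : ℝ => st47 (· + ·) (· - ·) (· * ·) (fun n : ℤ => (n : ℝ)) p 1 D 1 1 D2 U2 U5 E4 Pi v) k46
  have k47 : (((D * ((((((((-2) * p.g1) + (4 * p.e1)) : ℤ)) : ℝ) * (((U2 * D2) * 1) * 1)) + ((((((2 * p.g1) - (6 * p.e1)) : ℤ)) : ℝ) * E4))) + ((((p.e1 : ℤ)) : ℝ) * ((Pi * U5) * 1))) : ℝ) = Q2 := by first | (rw [hQ2]; done) | (rw [hQ2]; push_cast; ring)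
  have e47 : st47 (· + ·) (· - ·) (· * ·) (fun n : ℤ => (n : ℝ)) p 1 D 1 1 D2 U2 U5 E4 Pi Q1 = st48 (· + ·) (· - ·) (· * ·) (fun n : ℤ => (n : ℝ)) p 1 Pi Q1 Q2 :=
    congrArg (fun v : ℝ => st48 (· + ·) (· - ·) (· * ·) (fun n : ℤ => (n : ℝ)) p 1 Pi Q1 v) k47
  have e48 : st48 (· + ·) (· - ·) (· * ·) (fun n : ℤ => (n : ℝ)) p 1 Pi Q1 Q2 = Q1 - Pi * Q2 := by
    change Q1 - Pi * Q2 * 1 = _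
    ring
  change st0 (· + ·) (· - ·) (· * ·) (fun n : ℤ => (n : ℝ)) p 1 1 1 1 1 A B t s D = _
  rw [e0, e1, e2, e3, e4, e5, e6, e7, e8, e9, e10, e11, e12, e13, e14, e15, e16, e17, e18, e19, e20, e21, e22, e23, e24, e25, e26, e27, e28, e29, e30, e31, e32, e33, e34, e35, e36, e37, e38, e39, e40, e41, e42, e43, e44, e45, e46, e47, e48]

end Vale.Agent.P154
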