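import Vale.Agent.P154.Basic
import Vale.Agent.P154.PsiForm

/-!
The polynomial `psiR` is the (cleared) numerator of the combination inequality.
-/

namespace Vale.Agent.P154

/-- the relations satisfied by one overlap `w` and the mixed moments `p`, `q` -/
structure Rel (A B t s D w p q W : ℝ) : Prop where
  wW : w * W = D
  W2 : W ^ 2 = 3 * (1 - A * B) * W - 3 * D + D * w
  WW : W = (w - 1) ^ 2 - (w - 1) + 1 - 3 * (A * B)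
  rp : (w - 1) * p = A * s + B * q
  rq : (w - 1) * q = B * t + A * p
  pp : p ^ 2 = s * q - B * (w - 1) ^ 2 + 4 * B * (A * B)
  qq : q ^ 2 = t * p - A * (w - 1) ^ 2 + 4 * A * (A * B)
  pq : p * q = t * s - (D - 1 + 3 * (A * B)) + (A * B) * (w - 1)

lemma rel_of (a0 a1 b0 b1 : ℝ) :
    Rel ((a0 ^ 2 + a1 ^ 2 + (-a0 - a1) ^ 2) / 6) ((b0 ^ 2 + b1 ^ 2 + (-b0 - b1) ^ 2) / 6)
      (a0 * a1 * (-a0 - a1)) (b0 * b1 * (-b0 - b1))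
      ((1 + (a0 * b0 + a1 * b1 + (-a0 - a1) * (-b0 - b1)) / 3) *
       (1 + (a0 * b1 + a1 * (-b0 - b1) + (-a0 - a1) * b0) / 3) *
       (1 + (a0 * (-b0 - b1) + a1 * b0 + (-a0 - a1) * b1) / 3))
      (1 + (a0 * b0 + a1 * b1 + (-a0 - a1) * (-b0 - b1)) / 3)
      ((a0 * b0 ^ 2 + a1 * b1 ^ 2 + (-a0 - a1) * (-b0 - b1) ^ 2) / 3)
      ((a0 ^ 2 * b0 + a1 ^ 2 * b1 + (-a0 - a1) ^ 2 * (-b0 - b1)) / 3)
      (((a0 * b0 + a1 * b1 + (-a0 - a1) * (-b0 - b1)) / 3) ^ 2 -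
        (a0 * b0 + a1 * b1 + (-a0 - a1) * (-b0 - b1)) / 3 + 1 -
        3 * (((a0 ^ 2 + a1 ^ 2 + (-a0 - a1) ^ 2) / 6) * ((b0 ^ 2 + b1 ^ 2 + (-b0 - b1) ^ 2) / 6))) := by
  constructor <;> ring

section
variable {A B t s D w p q W : ℝ}

lemma Rel.cubic (h : Rel A B t s D w p q W) :
    W ^ 3 = 3 * (1 - A * B) * W ^ 2 - 3 * D * W + D ^ 2 := by
  linear_combination W * h.W2 + D * h.wW

lemma Rel.pW (h : Rel A B t s D w p q W) :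
    p * W = A * s * (w - 1) + B * (B * t + A * p) - A * s - B * q + (1 - 3 * (A * B)) * p := by
  linear_combination p * h.WW + (w - 1) * h.rp + B * h.rq - h.rp

lemma Rel.qW (h : Rel A B t s D w p q W) :
    q * W = B * t * (w - 1) + A * (A * s + B * q) - B * t - A * p + (1 - 3 * (A * B)) * q := by
  linear_combination q * h.WW + (w - 1) * h.rq + A * h.rp - h.rq

lemma Rel.pW2 (h : Rel A B t s D w p q W) :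
    p * W ^ 2 = 3 * (1 - A * B) * (p * W) - 3 * D * p + D * (p + A * s + B * q) := by
  linear_combination p * h.W2 + D * h.rp

lemma Rel.qW2 (h : Rel A B t s D w p q W) :
    q * W ^ 2 = 3 * (1 - A * B) * (q * W) - 3 * D * q + D * (q + B * t + A * p) := by
  linear_combination q * h.W2 + D * h.rq

end

/-- all three overlaps together -/
structure Rels (A B t s D w0 w1 w2 p0 p1 p2 q0 q1 q2 W0 W1 W2 : ℝ) : Prop where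
  r0 : Rel A B t s D w0 p0 q0 W0
  r1 : Rel A B t s D w1 p1 q1 W1
  r2 : Rel A B t s D w2 p2 q2 W2
  sw : w0 + w1 + w2 = 3
  sp : p0 + p1 + p2 = 0
  sq : q0 + q1 + q2 = 0
  sr : (w0 - 1) ^ 2 + (w1 - 1) ^ 2 + (w2 - 1) ^ 2 = 6 * (A * B)

section
variable {A B t s D w0 w1 w2 p0 p1 p2 q0 q1 q2 W0 W1 W2 : ℝ}

lemma Rels.S1 (h : Rels A B t s D w0 w1 w2 p0 p1 p2 q0 q1 q2 W0 W1 W2) :
    (W0 + W1 + W2) / 3 = 1 - A * B := by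
  linear_combination (h.r0.WW + h.r1.WW + h.r2.WW + h.sr - h.sw) / 3

lemma Rels.S2 (h : Rels A B t s D w0 w1 w2 p0 p1 p2 q0 q1 q2 W0 W1 W2) :
    (W0 ^ 2 + W1 ^ 2 + W2 ^ 2) / 3 = 3 * (1 - A * B) ^ 2 - 2 * D := by
  linear_combination (h.r0.W2 + h.r1.W2 + h.r2.W2 + D * h.sw) / 3 + 3 * (1 - A * B) * h.S1

lemma Rels.S3 (h : Rels A B t s D w0 w1 w2 p0 p1 p2 q0 q1 q2 W0 W1 W2) :
    (W0 ^ 3 + W1 ^ 3 + W2 ^ 3) / 3 = 3 * (1 - A * B) * (3 * (1 - A * B) ^ 2 - 2 * D)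
      - 3 * D * (1 - A * B) + D ^ 2 := by
  linear_combination (h.r0.cubic + h.r1.cubic + h.r2.cubic) / 3 + 3 * (1 - A * B) * h.S2
    - 3 * D * h.S1

lemma Rels.S4 (h : Rels A B t s D w0 w1 w2 p0 p1 p2 q0 q1 q2 W0 W1 W2) {S3 : ℝ}
    (hS3 : (W0 ^ 3 + W1 ^ 3 + W2 ^ 3) / 3 = S3) :
    (W0 ^ 4 + W1 ^ 4 + W2 ^ 4) / 3 = 3 * (1 - A * B) * S3
      - 3 * D * (3 * (1 - A * B) ^ 2 - 2 * D) + D ^ 2 * (1 - A * B) := by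
  linear_combination (W0 * h.r0.cubic + W1 * h.r1.cubic + W2 * h.r2.cubic) / 3
    + 3 * (1 - A * B) * hS3 - 3 * D * h.S2 + D ^ 2 * h.S1

lemma Rels.S5 (h : Rels A B t s D w0 w1 w2 p0 p1 p2 q0 q1 q2 W0 W1 W2) {S3 S4 : ℝ}
    (hS3 : (W0 ^ 3 + W1 ^ 3 + W2 ^ 3) / 3 = S3) (hS4 : (W0 ^ 4 + W1 ^ 4 + W2 ^ 4) / 3 = S4) :
    (W0 ^ 5 + W1 ^ 5 + W2 ^ 5) / 3 = 3 * (1 - A * B) * S4
      - 3 * D * S3 + D ^ 2 * (3 * (1 - A * B) ^ 2 - 2 * D) := by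
  linear_combination (W0 ^ 2 * h.r0.cubic + W1 ^ 2 * h.r1.cubic + W2 ^ 2 * h.r2.cubic) / 3
    + 3 * (1 - A * B) * hS4 - 3 * D * hS3 + D ^ 2 * h.S2

lemma Rels.P1 (h : Rels A B t s D w0 w1 w2 p0 p1 p2 q0 q1 q2 W0 W1 W2) :
    (p0 * W0 + p1 * W1 + p2 * W2) / 3 = B * (B * t) - A * s := by
  linear_combination (h.r0.pW + h.r1.pW + h.r2.pW + A * s * h.sw + (A * B + 1 - 3 * (A * B)) * h.sp
    - B * h.sq) / 3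

lemma Rels.Q1 (h : Rels A B t s D w0 w1 w2 p0 p1 p2 q0 q1 q2 W0 W1 W2) :
    (q0 * W0 + q1 * W1 + q2 * W2) / 3 = A * (A * s) - B * t := by
  linear_combination (h.r0.qW + h.r1.qW + h.r2.qW + B * t * h.sw + (A * B + 1 - 3 * (A * B)) * h.sq
    - A * h.sp) / 3

lemma Rels.P2 (h : Rels A B t s D w0 w1 w2 p0 p1 p2 q0 q1 q2 W0 W1 W2) :
    (p0 * W0 ^ 2 + p1 * W1 ^ 2 + p2 * W2 ^ 2) / 3 =
      3 * (1 - A * B) * (B * (B * t) - A * s) + D * (A * s) := by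
  linear_combination (h.r0.pW2 + h.r1.pW2 + h.r2.pW2 - 2 * D * h.sp + D * B * h.sq) / 3
    + 3 * (1 - A * B) * h.P1

lemma Rels.Q2 (h : Rels A B t s D w0 w1 w2 p0 p1 p2 q0 q1 q2 W0 W1 W2) :
    (q0 * W0 ^ 2 + q1 * W1 ^ 2 + q2 * W2 ^ 2) / 3 =
      3 * (1 - A * B) * (A * (A * s) - B * t) + D * (B * t) := by
  linear_combination (h.r0.qW2 + h.r1.qW2 + h.r2.qW2 - 2 * D * h.sq + D * A * h.sp) / 3
    + 3 * (1 - A * B) * h.Q1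

lemma Rels.P3 (h : Rels A B t s D w0 w1 w2 p0 p1 p2 q0 q1 q2 W0 W1 W2) :
    (p0 * W0 ^ 3 + p1 * W1 ^ 3 + p2 * W2 ^ 3) / 3 =
      3 * (1 - A * B) * (3 * (1 - A * B) * (B * (B * t) - A * s) + D * (A * s))
      - 3 * D * (B * (B * t) - A * s) := by
  linear_combination (p0 * h.r0.cubic + p1 * h.r1.cubic + p2 * h.r2.cubic + D ^ 2 * h.sp) / 3
    + 3 * (1 - A * B) * h.P2 - 3 * D * h.P1

lemma Rels.Q3 (h : Rels A B t s D w0 w1 w2 p0 p1 p2 q0 q1 q2 W0 W1 W2) :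
    (q0 * W0 ^ 3 + q1 * W1 ^ 3 + q2 * W2 ^ 3) / 3 =
      3 * (1 - A * B) * (3 * (1 - A * B) * (A * (A * s) - B * t) + D * (B * t))
      - 3 * D * (A * (A * s) - B * t) := by
  linear_combination (q0 * h.r0.cubic + q1 * h.r1.cubic + q2 * h.r2.cubic + D ^ 2 * h.sq) / 3
    + 3 * (1 - A * B) * h.Q2 - 3 * D * h.Q1

lemma Rels.P4 (h : Rels A B t s D w0 w1 w2 p0 p1 p2 q0 q1 q2 W0 W1 W2) {P3 : ℝ}
    (hP3 : (p0 * W0 ^ 3 + p1 * W1 ^ 3 + p2 * W2 ^ 3) / 3 = P3) :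
    (p0 * W0 ^ 4 + p1 * W1 ^ 4 + p2 * W2 ^ 4) / 3 =
      3 * (1 - A * B) * P3 - 3 * D * (3 * (1 - A * B) * (B * (B * t) - A * s) + D * (A * s))
      + D ^ 2 * (B * (B * t) - A * s) := by
  linear_combination (p0 * W0 * h.r0.cubic + p1 * W1 * h.r1.cubic + p2 * W2 * h.r2.cubic) / 3
    + 3 * (1 - A * B) * hP3 - 3 * D * h.P2 + D ^ 2 * h.P1

lemma Rels.Q4 (h : Rels A B t s D w0 w1 w2 p0 p1 p2 q0 q1 q2 W0 W1 W2) {Q3 : ℝ}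
    (hQ3 : (q0 * W0 ^ 3 + q1 * W1 ^ 3 + q2 * W2 ^ 3) / 3 = Q3) :
    (q0 * W0 ^ 4 + q1 * W1 ^ 4 + q2 * W2 ^ 4) / 3 =
      3 * (1 - A * B) * Q3 - 3 * D * (3 * (1 - A * B) * (A * (A * s) - B * t) + D * (B * t))
      + D ^ 2 * (A * (A * s) - B * t) := by
  linear_combination (q0 * W0 * h.r0.cubic + q1 * W1 * h.r1.cubic + q2 * W2 * h.r2.cubic) / 3
    + 3 * (1 - A * B) * hQ3 - 3 * D * h.Q2 + D ^ 2 * h.Q1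

/-- mean of `e W` -/
lemma Rels.ME1 (h : Rels A B t s D w0 w1 w2 p0 p1 p2 q0 q1 q2 W0 W1 W2) (K0 : ℝ) :
    ((w0 ^ 2 - w0 + K0 - (p0 + q0)) * W0 + (w1 ^ 2 - w1 + K0 - (p1 + q1)) * W1 +
      (w2 ^ 2 - w2 + K0 - (p2 + q2)) * W2) / 3 =
    K0 * (1 - A * B) - ((B * (B * t) - A * s) + (A * (A * s) - B * t)) := by
  linear_combination ((w0 - 1) * h.r0.wW + (w1 - 1) * h.r1.wW + (w2 - 1) * h.r2.wW + D * h.sw) / 3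
    + K0 * h.S1 - h.P1 - h.Q1

/-- mean of `e W^4` -/
lemma Rels.ME4 (h : Rels A B t s D w0 w1 w2 p0 p1 p2 q0 q1 q2 W0 W1 W2) (K0 : ℝ)
    {S3 S4 P4 Q4 : ℝ}
    (hS3 : (W0 ^ 3 + W1 ^ 3 + W2 ^ 3) / 3 = S3) (hS4 : (W0 ^ 4 + W1 ^ 4 + W2 ^ 4) / 3 = S4)
    (hP4 : (p0 * W0 ^ 4 + p1 * W1 ^ 4 + p2 * W2 ^ 4) / 3 = P4)
    (hQ4 : (q0 * W0 ^ 4 + q1 * W1 ^ 4 + q2 * W2 ^ 4) / 3 = Q4) :
    ((w0 ^ 2 - w0 + K0 - (p0 + q0)) * W0 ^ 4 + (w1 ^ 2 - w1 + K0 - (p1 + q1)) * W1 ^ 4 +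
      (w2 ^ 2 - w2 + K0 - (p2 + q2)) * W2 ^ 4) / 3 =
    D ^ 2 * (3 * (1 - A * B) ^ 2 - 2 * D) - D * S3 + K0 * S4 - (P4 + Q4) := by
  have k0 : w0 ^ 2 * W0 ^ 4 = D ^ 2 * W0 ^ 2 := by
    linear_combination (w0 * W0 + D) * W0 ^ 2 * h.r0.wW
  have k1 : w1 ^ 2 * W1 ^ 4 = D ^ 2 * W1 ^ 2 := by
    linear_combination (w1 * W1 + D) * W1 ^ 2 * h.r1.wW
  have k2 : w2 ^ 2 * W2 ^ 4 = D ^ 2 * W2 ^ 2 := by
    linear_combination (w2 * W2 + D) * W2 ^ 2 * h.r2.wW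
  linear_combination (k0 + k1 + k2) / 3 + D ^ 2 * h.S2
    - (W0 ^ 3 * h.r0.wW + W1 ^ 3 * h.r1.wW + W2 ^ 3 * h.r2.wW) / 3 - D * hS3 + K0 * hS4 - hP4 - hQ4

/-- per-overlap form of `e^2 W^3` -/
lemma Rel.e2W3 {A B t s D w p q W : ℝ} (h : Rel A B t s D w p q W) (K0 : ℝ) :
    (w ^ 2 - w + K0 - (p + q)) ^ 2 * W ^ 3 =
      D ^ 3 * w - 2 * D ^ 3 + (1 + 2 * K0) * D ^ 2 * W - 2 * K0 * D * W ^ 2 + K0 ^ 2 * W ^ 3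
      - 2 * (D ^ 2 * (p * W + q * W) - D * (p * W ^ 2 + q * W ^ 2) + K0 * (p * W ^ 3 + q * W ^ 3))
      + (s * (q * W ^ 3) + t * (p * W ^ 3) - (A + B) * (D ^ 2 * W - 2 * D * W ^ 2 + W ^ 3)
        + (4 * (A * B) * (A + B) + 2 * (t * s - (D - 1 + 3 * (A * B)))) * W ^ 3
        + 2 * (A * B) * (D * W ^ 2 - W ^ 3)) := by
  have hw := h.wW
  -- powers of `w` against powers of `W`
  have a1 : w * W ^ 3 = D * W ^ 2 := by linear_combination W ^ 2 * hw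
  have a2 : w ^ 2 * W ^ 3 = D ^ 2 * W := by linear_combination (w * W + D) * W * hw
  have a3 : w ^ 3 * W ^ 3 = D ^ 3 := by
    linear_combination (w ^ 2 * W ^ 2 + D * (w * W) + D ^ 2) * hw
  have a4 : w ^ 4 * W ^ 3 = D ^ 3 * w := by linear_combination w * a3
  linear_combination a4 - 2 * a3 + (1 + 2 * K0) * a2 - 2 * K0 * a1
    - 2 * ((p + q) * a2 - (p + q) * a1)
    + W ^ 3 * (h.pp + h.qq + 2 * h.pq) - (A + B) * (a2 - 2 * a1) + 2 * (A * B) * a1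

/-- mean of `e^2 W^3` -/
lemma Rels.ME3 (h : Rels A B t s D w0 w1 w2 p0 p1 p2 q0 q1 q2 W0 W1 W2) (K0 : ℝ)
    {S3 P3 Q3 : ℝ}
    (hS3 : (W0 ^ 3 + W1 ^ 3 + W2 ^ 3) / 3 = S3)
    (hP3 : (p0 * W0 ^ 3 + p1 * W1 ^ 3 + p2 * W2 ^ 3) / 3 = P3)
    (hQ3 : (q0 * W0 ^ 3 + q1 * W1 ^ 3 + q2 * W2 ^ 3) / 3 = Q3) :
    ((w0 ^ 2 - w0 + K0 - (p0 + q0)) ^ 2 * W0 ^ 3 + (w1 ^ 2 - w1 + K0 - (p1 + q1)) ^ 2 * W1 ^ 3 +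
      (w2 ^ 2 - w2 + K0 - (p2 + q2)) ^ 2 * W2 ^ 3) / 3 =
    -D ^ 3 + (1 + 2 * K0) * D ^ 2 * (1 - A * B) - 2 * K0 * D * (3 * (1 - A * B) ^ 2 - 2 * D)
      + K0 ^ 2 * S3
      - 2 * (D ^ 2 * ((B * (B * t) - A * s) + (A * (A * s) - B * t))
        - D * ((3 * (1 - A * B) * (B * (B * t) - A * s) + D * (A * s)) +
          (3 * (1 - A * B) * (A * (A * s) - B * t) + D * (B * t))) + K0 * (P3 + Q3))
      + (s * Q3 + t * P3 - (A + B) * (D ^ 2 * (1 - A * B) - 2 * D * (3 * (1 - A * B) ^ 2 - 2 * D)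
          + S3)
        + (4 * (A * B) * (A + B) + 2 * (t * s - (D - 1 + 3 * (A * B)))) * S3
        + 2 * (A * B) * (D * (3 * (1 - A * B) ^ 2 - 2 * D) - S3)) := by
  linear_combination (h.r0.e2W3 K0 + h.r1.e2W3 K0 + h.r2.e2W3 K0 + D ^ 3 * h.sw) / 3
    + ((1 + 2 * K0) * D ^ 2 - (A + B) * D ^ 2) * h.S1
    + (-2 * K0 * D + (A + B) * 2 * D + 2 * (A * B) * D) * h.S2
    + (K0 ^ 2 - (A + B) + (4 * (A * B) * (A + B) + 2 * (t * s - (D - 1 + 3 * (A * B))))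
      - 2 * (A * B)) * hS3
    - 2 * D ^ 2 * (h.P1 + h.Q1) + 2 * D * (h.P2 + h.Q2) + (t - 2 * K0) * hP3 + (s - 2 * K0) * hQ3

end

/-- `psiR` in terms of the means over the three overlaps -/
theorem psiR_abs (p : Par) {A B t s D w0 w1 w2 p0 p1 p2 q0 q1 q2 W0 W1 W2 : ℝ}
    (h : Rels A B t s D w0 w1 w2 p0 p1 p2 q0 q1 q2 W0 W1 W2) {e0 e1 e2 : ℝ}
    (he0 : e0 = w0 ^ 2 - w0 + (1 - A - B - A * B) - (p0 + q0))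
    (he1 : e1 = w1 ^ 2 - w1 + (1 - A - B - A * B) - (p1 + q1))
    (he2 : e2 = w2 ^ 2 - w2 + (1 - A - B - A * B) - (p2 + q2)) :
    psiR p A B t s D =
      D ^ 5 * ((2 * p.s0 * A + 4 * p.b2 * (A * A) - 2 * p.g2 * (A * t) + p.e2 * (t * t)) +
        (p.y1 * B + p.y2 * (B * B) - p.y3 * (B * s) + p.y4 * (s * s)))
      - ((2 * p.s0 + 4 * p.b1 - 4 * p.g1 + 4 * p.e1) * ((w0 + w1 + w2) / 3) * D ^ 5
        + (-2 * p.s0 - 8 * p.b1 + 10 * p.g1 - 12 * p.e1) * ((e0 * W0 + e1 * W1 + e2 * W2) / 3) * D ^ 4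
        + (4 * p.b1 - 6 * p.g1 + 9 * p.e1) *
            ((e0 ^ 2 * W0 ^ 3 + e1 ^ 2 * W1 ^ 3 + e2 ^ 2 * W2 ^ 3) / 3) * D ^ 2
        + ((1 - 3 * A + t) * (1 - 3 * B + s)) *
          ((-2 * p.g1 + 4 * p.e1) * ((W0 ^ 2 + W1 ^ 2 + W2 ^ 2) / 3) * D ^ 3 +
           (2 * p.g1 - 6 * p.e1) * ((e0 * W0 ^ 4 + e1 * W1 ^ 4 + e2 * W2 ^ 4) / 3) * D)
        + p.e1 * ((1 - 3 * A + t) * (1 - 3 * B + s)) ^ 2 * ((W0 ^ 5 + W1 ^ 5 + W2 ^ 5) / 3)) := by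
  obtain ⟨X, hX⟩ : ∃ v : ℝ, v = A * B := ⟨_, rfl⟩
  obtain ⟨Y, hY⟩ : ∃ v : ℝ, v = 1 - X := ⟨_, rfl⟩
  obtain ⟨ApB, hApB⟩ : ∃ v : ℝ, v = A + B := ⟨_, rfl⟩
  obtain ⟨K0, hK0⟩ : ∃ v : ℝ, v = Y - ApB := ⟨_, rfl⟩
  obtain ⟨Y2, hY2⟩ : ∃ v : ℝ, v = Y * Y := ⟨_, rfl⟩
  obtain ⟨Y3, hY3⟩ : ∃ v : ℝ, v = Y2 * Y := ⟨_, rfl⟩
  obtain ⟨D2, hD2⟩ : ∃ v : ℝ, v = D * D := ⟨_, rfl⟩
  obtain ⟨YD, hYD⟩ : ∃ v : ℝ, v = Y * D := ⟨_, rfl⟩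
  obtain ⟨U2, hU2⟩ : ∃ v : ℝ, v = 3 * Y2 - 2 * D := ⟨_, rfl⟩
  obtain ⟨U3, hU3⟩ : ∃ v : ℝ, v = D2 - 9 * YD + 9 * Y3 := ⟨_, rfl⟩
  obtain ⟨U4, hU4⟩ : ∃ v : ℝ, v = (4 * Y + 6) * D2 - 36 * (Y * YD) + 27 * (Y2 * Y2) := ⟨_, rfl⟩
  obtain ⟨U5, hU5⟩ : ∃ v : ℝ, v = (15 * Y2 + 45 * Y - 5 * D) * D2 - 135 * (Y2 * YD) + 81 * (Y3 * Y2) := ⟨_, rfl⟩
  obtain ⟨As, hAs⟩ : ∃ v : ℝ, v = A * s := ⟨_, rfl⟩
  obtain ⟨Bt, hBt⟩ : ∃ v : ℝ, v = B * t := ⟨_, rfl⟩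
  obtain ⟨gp, hgp⟩ : ∃ v : ℝ, v = B * Bt - As := ⟨_, rfl⟩
  obtain ⟨gq, hgq⟩ : ∃ v : ℝ, v = A * As - Bt := ⟨_, rfl⟩
  obtain ⟨gg, hgg⟩ : ∃ v : ℝ, v = gp + gq := ⟨_, rfl⟩
  obtain ⟨ST, hST⟩ : ∃ v : ℝ, v = As + Bt := ⟨_, rfl⟩
  obtain ⟨V2, hV2⟩ : ∃ v : ℝ, v = ST * D + 3 * (Y * gg) := ⟨_, rfl⟩
  obtain ⟨Bgq, hBgq⟩ : ∃ v : ℝ, v = B * gq := ⟨_, rfl⟩
  obtain ⟨Agp, hAgp⟩ : ∃ v : ℝ, v = A * gp := ⟨_, rfl⟩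
  obtain ⟨v3, hv3⟩ : ∃ v : ℝ, v = 9 * (Y2 * gp) - (6 * gp + 3 * Bgq) * D := ⟨_, rfl⟩
  obtain ⟨w3, hw3⟩ : ∃ v : ℝ, v = 9 * (Y2 * gq) - (6 * gq + 3 * Agp) * D := ⟨_, rfl⟩
  obtain ⟨V4, hV4⟩ : ∃ v : ℝ, v = (gg - 3 * ST) * D2 - 9 * (YD * (3 * gg + Bgq + Agp)) + 27 * (Y3 * gg) := ⟨_, rfl⟩
  obtain ⟨E1, hE1⟩ : ∃ v : ℝ, v = K0 * Y - gg := ⟨_, rfl⟩
  obtain ⟨E4, hE4⟩ : ∃ v : ℝ, v = D2 * U2 - D * U3 + K0 * U4 - V4 := ⟨_, rfl⟩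
  obtain ⟨X2, hX2⟩ : ∃ v : ℝ, v = 2 * X := ⟨_, rfl⟩
  obtain ⟨kap, hkap⟩ : ∃ v : ℝ, v = t * s - D + (1 - 3 * X) := ⟨_, rfl⟩
  obtain ⟨G1, hG1⟩ : ∃ v : ℝ, v = (1 + 2 * K0 - ApB) * Y - D - 2 * gg := ⟨_, rfl⟩
  obtain ⟨G2, hG2⟩ : ∃ v : ℝ, v = 2 * V2 + 2 * ((ApB + X - K0) * U2) := ⟨_, rfl⟩
  obtain ⟨G3, hG3⟩ : ∃ v : ℝ, v = K0 * K0 - ApB + (4 * (X * ApB) - X2) + 2 * kap := ⟨_, rfl⟩
  obtain ⟨E3, hE3⟩ : ∃ v : ℝ, v = G1 * D2 + G2 * D + G3 * U3 - 2 * (K0 * (v3 + w3)) + (s * w3 + t * v3) := ⟨_, rfl⟩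
  obtain ⟨Pa, hPa⟩ : ∃ v : ℝ, v = 1 - 3 * A + t := ⟨_, rfl⟩
  obtain ⟨Pb, hPb⟩ : ∃ v : ℝ, v = 1 - 3 * B + s := ⟨_, rfl⟩
  obtain ⟨Pi, hPi⟩ : ∃ v : ℝ, v = Pa * Pb := ⟨_, rfl⟩
  obtain ⟨RA, hRA⟩ : ∃ v : ℝ, v = 2 * p.s0 * A + 4 * p.b2 * (A * A) - 2 * p.g2 * (A * t) + p.e2 * (t * t) := ⟨_, rfl⟩
  obtain ⟨RB, hRB⟩ : ∃ v : ℝ, v = p.y1 * B + p.y2 * (B * B) - p.y3 * (B * s) + p.y4 * (s * s) := ⟨_, rfl⟩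
  obtain ⟨R0, hR0⟩ : ∃ v : ℝ, v = RA + RB - (2 * p.s0 + 4 * p.b1 - 4 * p.g1 + 4 * p.e1) := ⟨_, rfl⟩
  obtain ⟨Q1, hQ1⟩ : ∃ v : ℝ, v = ((D * R0 - (-2 * p.s0 - 8 * p.b1 + 10 * p.g1 - 12 * p.e1) * E1) * D2 - (4 * p.b1 - 6 * p.g1 + 9 * p.e1) * E3) * D2 := ⟨_, rfl⟩
  obtain ⟨Q2, hQ2⟩ : ∃ v : ℝ, v = D * ((-2 * p.g1 + 4 * p.e1) * (U2 * D2) + (2 * p.g1 - 6 * p.e1) * E4) + p.e1 * (Pi * U5) := ⟨_, rfl⟩
  rw [psiR_form p hX hY hApB hK0 hY2 hY3 hD2 hYD hU2 hU3 hU4 hU5 hAs hBt hgp hgq hgg hST hV2 hBgq hAgp hv3 hw3 hV4 hE1 hE4 hX2 hkap hG1 hG2 hG3 hE3 hPa hPb hPi hRA hRB hR0 hQ1 hQ2]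
  have hK : 1 - A - B - A * B = K0 := by rw [hK0, hApB, hY, hX]; ring
  rw [hK] at he0 he1 he2
  have mU2 : U2 = (W0 ^ 2 + W1 ^ 2 + W2 ^ 2) / 3 := by
    rw [hU2, hY2, hY, hX]; linear_combination -h.S2
  have mU3 : U3 = (W0 ^ 3 + W1 ^ 3 + W2 ^ 3) / 3 := by
    rw [hU3, hD2, hYD, hY3, hY2, hY, hX]; linear_combination -h.S3
  have mU4 : U4 = (W0 ^ 4 + W1 ^ 4 + W2 ^ 4) / 3 := by
    rw [hU4, hD2, hYD, hY2, hY, hX]; linear_combination -(h.S4 h.S3)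
  have mU5 : U5 = (W0 ^ 5 + W1 ^ 5 + W2 ^ 5) / 3 := by
    rw [hU5, hD2, hYD, hY3, hY2, hY, hX]; linear_combination -(h.S5 h.S3 (h.S4 h.S3))
  have mE1 : E1 = (e0 * W0 + e1 * W1 + e2 * W2) / 3 := by
    rw [he0, he1, he2, hE1, hgg, hgp, hgq, hAs, hBt, hY, hX]
    linear_combination -(h.ME1 K0)
  have mv3 : v3 = (p0 * W0 ^ 3 + p1 * W1 ^ 3 + p2 * W2 ^ 3) / 3 := by
    rw [hv3, hBgq, hgp, hgq, hAs, hBt, hY2, hY, hX]; linear_combination -h.P3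
  have mw3 : w3 = (q0 * W0 ^ 3 + q1 * W1 ^ 3 + q2 * W2 ^ 3) / 3 := by
    rw [hw3, hAgp, hgp, hgq, hAs, hBt, hY2, hY, hX]; linear_combination -h.Q3
  have mE4 : E4 = (e0 * W0 ^ 4 + e1 * W1 ^ 4 + e2 * W2 ^ 4) / 3 := by
    have hV4' : V4 = (p0 * W0 ^ 4 + p1 * W1 ^ 4 + p2 * W2 ^ 4) / 3 +
        (q0 * W0 ^ 4 + q1 * W1 ^ 4 + q2 * W2 ^ 4) / 3 := by
      rw [hV4, hBgq, hAgp, hgg, hST, hgp, hgq, hAs, hBt, hD2, hYD, hY3, hY2, hY, hX]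
      linear_combination -(h.P4 h.P3) - (h.Q4 h.Q3)
    have := h.ME4 K0 mU3.symm mU4.symm rfl rfl
    rw [he0, he1, he2, hE4, hV4', this, hD2, hU2, hY2, hY, hX]
    ring
  have mE3 : E3 = (e0 ^ 2 * W0 ^ 3 + e1 ^ 2 * W1 ^ 3 + e2 ^ 2 * W2 ^ 3) / 3 := by
    have := h.ME3 K0 mU3.symm mv3.symm mw3.symm
    rw [he0, he1, he2, this, hE3, hG1, hG2, hG3, hkap, hX2, hV2, hgg, hST, hgp, hgq, hAs, hBt, hD2,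
      hU2, hApB, hY2, hY, hX]
    ring
  rw [hQ1, hQ2, hR0, hRA, hRB, mU2, mU5, mE1, mE3, mE4, hPi, hPa, hPb, hD2, h.sw]
  ring

/-- one term of the average -/
lemma term_eq {s0 b1 g1 e1 D w v W e P : ℝ} (hv : w * v = 1) (hW : w * W = D) :
    D ^ 5 * (w * (s0 * (2 - 2 * e * v ^ 2) + b1 * (2 - 2 * e * v ^ 2) ^ 2 -
      g1 * ((2 - 2 * e * v ^ 2) * (P * v ^ 3 + 2 - 3 * e * v ^ 2)) +
      e1 * (P * v ^ 3 + 2 - 3 * e * v ^ 2) ^ 2)) =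
    (2 * s0 + 4 * b1 - 4 * g1 + 4 * e1) * w * D ^ 5
      + (-2 * s0 - 8 * b1 + 10 * g1 - 12 * e1) * (e * W) * D ^ 4
      + (4 * b1 - 6 * g1 + 9 * e1) * (e ^ 2 * W ^ 3) * D ^ 2
      + P * ((-2 * g1 + 4 * e1) * W ^ 2 * D ^ 3 + (2 * g1 - 6 * e1) * (e * W ^ 4) * D)
      + e1 * P ^ 2 * W ^ 5 := by
  have hW' : W = D * v := by
    have : W = W * (w * v) := by rw [hv, mul_one]
    rw [this, ← hW]; ring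
  rw [hW']
  linear_combination D ^ 5 * ((-2 * s0 - 8 * b1 + 10 * g1 - 12 * e1) * e * v +
    (4 * b1 - 6 * g1 + 9 * e1) * e ^ 2 * v ^ 3 +
    P * ((-2 * g1 + 4 * e1) * v ^ 2 + (2 * g1 - 6 * e1) * e * v ^ 4) +
    e1 * P ^ 2 * v ^ 5) * hv

lemma sq_comb (z y : Fin 3 → ℝ) {w : ℝ} (hw : mean (fun j => z j * y j) = w) (h0 : w ≠ 0) :
    sq (comb z y) = 2 - 2 * ((z 0 * y 0 * (z 1 * y 1) + z 0 * y 0 * (z 2 * y 2) +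
      z 1 * y 1 * (z 2 * y 2)) / 3) * (w⁻¹) ^ 2 := by
  unfold sq comb
  rw [hw]
  have h1 : z 0 * y 0 + z 1 * y 1 + z 2 * y 2 = 3 * w := by
    rw [← hw]; unfold mean; ring
  have h2 : z 2 * y 2 = 3 * w - z 0 * y 0 - z 1 * y 1 := by linarith
  have hv : w * w⁻¹ = 1 := mul_inv_cancel₀ h0
  simp only [div_eq_mul_inv]
  generalize w⁻¹ = v at *
  generalize z 0 * y 0 = u0 at *
  generalize z 1 * y 1 = u1 at *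
  rw [h2]
  generalize z 2 * y 2 = u2 at *
  linear_combination (3 * (w * v) + 3 - 2) * hv

lemma cu_comb (z y : Fin 3 → ℝ) {w : ℝ} (hw : mean (fun j => z j * y j) = w) (h0 : w ≠ 0) :
    cu (comb z y) = (z 0 * y 0 * (z 1 * y 1) * (z 2 * y 2)) * (w⁻¹) ^ 3 + 2 -
      3 * ((z 0 * y 0 * (z 1 * y 1) + z 0 * y 0 * (z 2 * y 2) +
      z 1 * y 1 * (z 2 * y 2)) / 3) * (w⁻¹) ^ 2 := by
  unfold cu comb
  rw [hw]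
  have h1 : z 0 * y 0 + z 1 * y 1 + z 2 * y 2 = 3 * w := by
    rw [← hw]; unfold mean; ring
  have hv : w * w⁻¹ = 1 := mul_inv_cancel₀ h0
  simp only [div_eq_mul_inv]
  generalize w⁻¹ = v at *
  linear_combination v * h1 + 3 * hv

/-- overlap of two messages -/
lemma rels_of (a0 a1 b0 b1 A B t s D w0 w1 w2 p0 p1 p2 q0 q1 q2 : ℝ)
    (hA : A = (a0 ^ 2 + a1 ^ 2 + (-a0 - a1) ^ 2) / 6)
    (hB : B = (b0 ^ 2 + b1 ^ 2 + (-b0 - b1) ^ 2) / 6)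
    (ht : t = a0 * a1 * (-a0 - a1)) (hs : s = b0 * b1 * (-b0 - b1))
    (hw0 : w0 = 1 + (a0 * b0 + a1 * b1 + (-a0 - a1) * (-b0 - b1)) / 3)
    (hw1 : w1 = 1 + (a0 * b1 + a1 * (-b0 - b1) + (-a0 - a1) * b0) / 3)
    (hw2 : w2 = 1 + (a0 * (-b0 - b1) + a1 * b0 + (-a0 - a1) * b1) / 3)
    (hD : D = w0 * w1 * w2)
    (hp0 : p0 = (a0 * b0 ^ 2 + a1 * b1 ^ 2 + (-a0 - a1) * (-b0 - b1) ^ 2) / 3)
    (hp1 : p1 = (a0 * b1 ^ 2 + a1 * (-b0 - b1) ^ 2 + (-a0 - a1) * b0 ^ 2) / 3)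
    (hp2 : p2 = (a0 * (-b0 - b1) ^ 2 + a1 * b0 ^ 2 + (-a0 - a1) * b1 ^ 2) / 3)
    (hq0 : q0 = (a0 ^ 2 * b0 + a1 ^ 2 * b1 + (-a0 - a1) ^ 2 * (-b0 - b1)) / 3)
    (hq1 : q1 = (a0 ^ 2 * b1 + a1 ^ 2 * (-b0 - b1) + (-a0 - a1) ^ 2 * b0) / 3)
    (hq2 : q2 = (a0 ^ 2 * (-b0 - b1) + a1 ^ 2 * b0 + (-a0 - a1) ^ 2 * b1) / 3) :
    Rels A B t s D w0 w1 w2 p0 p1 p2 q0 q1 q2 ((w0 - 1) ^ 2 - (w0 - 1) + 1 - 3 * (A * B))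
      ((w1 - 1) ^ 2 - (w1 - 1) + 1 - 3 * (A * B)) ((w2 - 1) ^ 2 - (w2 - 1) + 1 - 3 * (A * B)) := by
  subst hD hw0 hw1 hw2 hA hB ht hs hp0 hp1 hp2 hq0 hq1 hq2
  refine ⟨?_, ?_, ?_, ?_, ?_, ?_, ?_⟩
  · have := rel_of a0 a1 b0 b1
    convert this using 1 <;> ring
  · have := rel_of a0 a1 b1 (-b0 - b1)
    convert this using 1 <;> ring
  · have := rel_of a0 a1 (-b0 - b1) b0
    convert this using 1 <;> ring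
  · ring
  · ring
  · ring
  · ring

theorem psiR_eq (p : Par) (z y : Fin 3 → ℝ) (hz : mean z = 1) (hy : mean y = 1)
    (hw : ∀ g, 0 < mean (fun j => z j * rot g y j)) :
    psiR p (sq z / 2) (sq y / 2) (cu z) (cu y)
      (mean (fun j => z j * rot 0 y j) * mean (fun j => z j * rot 1 y j) *
        mean (fun j => z j * rot 2 y j)) =
    (mean (fun j => z j * rot 0 y j) * mean (fun j => z j * rot 1 y j) *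
        mean (fun j => z j * rot 2 y j)) ^ 5 *
      (p.s0 * sq z + p.b2 * sq z ^ 2 - p.g2 * (sq z * cu z) + p.e2 * cu z ^ 2
        + (p.y1 / 2 * sq y + p.y2 / 4 * sq y ^ 2 - p.y3 / 2 * (sq y * cu y) + p.y4 * cu y ^ 2)
        - (∑ g : Fin 3, mean (fun j => z j * rot g y j) *
            (p.s0 * sq (comb z (rot g y)) + p.b1 * sq (comb z (rot g y)) ^ 2
              - p.g1 * (sq (comb z (rot g y)) * cu (comb z (rot g y)))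
              + p.e1 * cu (comb z (rot g y)) ^ 2)) / 3) := by
  have hr00 : rot 0 y 0 = y 0 := rfl
  have hr01 : rot 0 y 1 = y 1 := rfl
  have hr02 : rot 0 y 2 = y 2 := rfl
  have hr10 : rot 1 y 0 = y 1 := rfl
  have hr11 : rot 1 y 1 = y 2 := rfl
  have hr12 : rot 1 y 2 = y 0 := rfl
  have hr20 : rot 2 y 0 = y 2 := rfl
  have hr21 : rot 2 y 1 = y 0 := rfl
  have hr22 : rot 2 y 2 = y 1 := rfl
  obtain ⟨a0, ha0⟩ : ∃ a, z 0 = 1 + a := ⟨z 0 - 1, by ring⟩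
  obtain ⟨a1, ha1⟩ : ∃ a, z 1 = 1 + a := ⟨z 1 - 1, by ring⟩
  obtain ⟨b0, hb0⟩ : ∃ a, y 0 = 1 + a := ⟨y 0 - 1, by ring⟩
  obtain ⟨b1, hb1⟩ : ∃ a, y 1 = 1 + a := ⟨y 1 - 1, by ring⟩
  have ha2 : z 2 = 1 + (-a0 - a1) := by unfold mean at hz; linarith
  have hb2 : y 2 = 1 + (-b0 - b1) := by unfold mean at hy; linarith
  have g0 := hw 0
  have g1 := hw 1
  have g2 := hw 2
  rw [Fin.sum_univ_three]
  obtain ⟨w0, hw0⟩ : ∃ w, w = mean (fun j => z j * rot 0 y j) := ⟨_, rfl⟩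
  obtain ⟨w1, hw1⟩ : ∃ w, w = mean (fun j => z j * rot 1 y j) := ⟨_, rfl⟩
  obtain ⟨w2, hw2⟩ : ∃ w, w = mean (fun j => z j * rot 2 y j) := ⟨_, rfl⟩
  rw [← hw0] at g0
  rw [← hw1] at g1
  rw [← hw2] at g2
  rw [sq_comb z (rot 0 y) hw0.symm g0.ne', cu_comb z (rot 0 y) hw0.symm g0.ne',
    sq_comb z (rot 1 y) hw1.symm g1.ne', cu_comb z (rot 1 y) hw1.symm g1.ne',
    sq_comb z (rot 2 y) hw2.symm g2.ne', cu_comb z (rot 2 y) hw2.symm g2.ne',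
    ← hw0, ← hw1, ← hw2, hr00, hr01, hr02, hr10, hr11, hr12, hr20, hr21, hr22]
  unfold mean at hw0 hw1 hw2
  simp only [hr00, hr01, hr02, hr10, hr11, hr12, hr20, hr21, hr22, ha0, ha1, ha2, hb0, hb1, hb2]
    at hw0 hw1 hw2
  obtain ⟨A, hA⟩ : ∃ A, A = sq z / 2 := ⟨_, rfl⟩
  obtain ⟨B, hB⟩ : ∃ A, A = sq y / 2 := ⟨_, rfl⟩
  obtain ⟨t, ht⟩ : ∃ A, A = cu z := ⟨_, rfl⟩
  obtain ⟨s, hs⟩ : ∃ A, A = cu y := ⟨_, rfl⟩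
  have hA2 : sq z = 2 * A := by rw [hA]; ring
  have hB2 : sq y = 2 * B := by rw [hB]; ring
  rw [← hA, ← hB, hA2, hB2, ← ht, ← hs]
  have hA' : A = (a0 ^ 2 + a1 ^ 2 + (-a0 - a1) ^ 2) / 6 := by
    rw [hA]; unfold sq; rw [ha0, ha1, ha2]; ring
  have hB' : B = (b0 ^ 2 + b1 ^ 2 + (-b0 - b1) ^ 2) / 6 := by
    rw [hB]; unfold sq; rw [hb0, hb1, hb2]; ring
  have ht' : t = a0 * a1 * (-a0 - a1) := by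
    rw [ht]; unfold cu; rw [ha0, ha1, ha2]; ring
  have hs' : s = b0 * b1 * (-b0 - b1) := by
    rw [hs]; unfold cu; rw [hb0, hb1, hb2]; ring
  have hw0' : w0 = 1 + (a0 * b0 + a1 * b1 + (-a0 - a1) * (-b0 - b1)) / 3 := by rw [hw0]; ring
  have hw1' : w1 = 1 + (a0 * b1 + a1 * (-b0 - b1) + (-a0 - a1) * b0) / 3 := by rw [hw1]; ring
  have hw2' : w2 = 1 + (a0 * (-b0 - b1) + a1 * b0 + (-a0 - a1) * b1) / 3 := by rw [hw2]; ring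
  have R := rels_of a0 a1 b0 b1 A B t s (w0 * w1 * w2) w0 w1 w2 _ _ _ _ _ _ hA' hB' ht' hs'
    hw0' hw1' hw2' rfl rfl rfl rfl rfl rfl rfl
  -- the three elementary symmetric functions
  obtain ⟨e0, he0⟩ : ∃ e, e = (z 0 * y 0 * (z 1 * y 1) + z 0 * y 0 * (z 2 * y 2) +
      z 1 * y 1 * (z 2 * y 2)) / 3 := ⟨_, rfl⟩
  obtain ⟨e1, he1⟩ : ∃ e, e = (z 0 * y 1 * (z 1 * y 2) + z 0 * y 1 * (z 2 * y 0) +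
      z 1 * y 2 * (z 2 * y 0)) / 3 := ⟨_, rfl⟩
  obtain ⟨e2, he2⟩ : ∃ e, e = (z 0 * y 2 * (z 1 * y 0) + z 0 * y 2 * (z 2 * y 1) +
      z 1 * y 0 * (z 2 * y 1)) / 3 := ⟨_, rfl⟩
  rw [← he0, ← he1, ← he2]
  have hP0 : z 0 * y 0 * (z 1 * y 1) * (z 2 * y 2) = (1 - 3 * A + t) * (1 - 3 * B + s) := by
    rw [ha0, ha1, ha2, hb0, hb1, hb2, hA', hB', ht', hs']; ring
  have hP1 : z 0 * y 1 * (z 1 * y 2) * (z 2 * y 0) = (1 - 3 * A + t) * (1 - 3 * B + s) := by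
    rw [← hP0]; ring
  have hP2 : z 0 * y 2 * (z 1 * y 0) * (z 2 * y 1) = (1 - 3 * A + t) * (1 - 3 * B + s) := by
    rw [← hP0]; ring
  rw [hP0, hP1, hP2]
  rw [ha0, ha1, ha2, hb0, hb1, hb2] at he0 he1 he2
  rw [psiR_abs p R
    (he0.trans (by rw [hA', hB', hw0']; ring)) (he1.trans (by rw [hA', hB', hw1']; ring))
    (he2.trans (by rw [hA', hB', hw2']; ring))]
  have T0 := term_eq (s0 := p.s0) (b1 := p.b1) (g1 := p.g1) (e1 := p.e1) (e := e0)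
    (P := (1 - 3 * A + t) * (1 - 3 * B + s)) (mul_inv_cancel₀ g0.ne') R.r0.wW
  have T1 := term_eq (s0 := p.s0) (b1 := p.b1) (g1 := p.g1) (e1 := p.e1) (e := e1)
    (P := (1 - 3 * A + t) * (1 - 3 * B + s)) (mul_inv_cancel₀ g1.ne') R.r1.wW
  have T2 := term_eq (s0 := p.s0) (b1 := p.b1) (g1 := p.g1) (e1 := p.e1) (e := e2)
    (P := (1 - 3 * A + t) * (1 - 3 * B + s)) (mul_inv_cancel₀ g2.ne') R.r2.wW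
  generalize (w0 - 1) ^ 2 - (w0 - 1) + 1 - 3 * (A * B) = W0 at *
  generalize (w1 - 1) ^ 2 - (w1 - 1) + 1 - 3 * (A * B) = W1 at *
  generalize (w2 - 1) ^ 2 - (w2 - 1) + 1 - 3 * (A * B) = W2 at *
  generalize (1 - 3 * A + t) * (1 - 3 * B + s) = P at *
  generalize w0⁻¹ = v0 at *
  generalize w1⁻¹ = v1 at *
  generalize w2⁻¹ = v2 at *
  generalize w0 * w1 * w2 = D at *
  linear_combination (T0 + T1 + T2) / 3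

end Vale.Agent.P154
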