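import Vale.Agent.P154.Tree

/-! # P154: Galton–Watson trees -/

namespace Vale.Agent.P154

open Finset Filter Topology
open scoped ENNReal

/-- bijection for the trees of depth `n + 1` -/
def gtreeEquiv (n : ℕ) : (Σ k : ℕ, (Fin k → GTree n)) ≃ GTree (n + 1) where
  toFun x := GTree.node x.1 x.2
  invFun t := match t with
    | GTree.node k t => ⟨k, t⟩
  left_inv x := rfl
  right_inv t := by cases t; rfl

lemma tsum_gtree_succ (n : ℕ) (f : GTree (n + 1) → ℝ≥0∞) :
    ∑' t, f t = ∑' k : ℕ, ∑' t : Fin k → GTree n, f (GTree.node k t) := by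
  rw [← Equiv.tsum_eq (gtreeEquiv n) f, ENNReal.tsum_sigma']
  rfl

lemma tsum_gtree_zero (f : GTree 0 → ℝ≥0∞) : ∑' t, f t = f GTree.leaf := by
  have : Unique (GTree 0) := ⟨⟨GTree.leaf⟩, fun t => by cases t; rfl⟩
  rw [tsum_fintype]
  simp only [Finset.univ_unique, Finset.sum_singleton]
  congr 1
  exact (this.uniq GTree.leaf).symm

lemma tsum_pi_cons {X : Type} (k : ℕ) (f : (Fin (k + 1) → X) → ℝ≥0∞) :
    ∑' t, f t = ∑' x : X, ∑' t : Fin k → X, f (Fin.cons x t) := by
  rw [← Equiv.tsum_eq (Fin.consEquiv (fun _ : Fin (k + 1) => X)) f, ENNReal.tsum_prod']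
  rfl

lemma tsum_pi_prod {X : Type} {w : X → ℝ≥0∞} (hw : ∑' x, w x = 1) (k : ℕ) :
    ∑' t : Fin k → X, ∏ j, w (t j) = 1 := by
  induction k with
  | zero => simp [tsum_fintype]
  | succ k ih =>
    rw [tsum_pi_cons]
    simp only [Fin.prod_univ_succ, Fin.cons_zero, Fin.cons_succ, ENNReal.tsum_mul_left, ih, mul_one,
      hw]

lemma tsum_pi_sum {X : Type} {w : X → ℝ≥0∞} (hw : ∑' x, w x = 1) (h : X → ℝ≥0∞) (k : ℕ) :
    ∑' t : Fin k → X, (∏ j, w (t j)) * ∑ j, h (t j) = k * ∑' x, w x * h x := by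
  induction k with
  | zero => simp
  | succ k ih =>
    rw [tsum_pi_cons]
    simp only [Fin.prod_univ_succ, Fin.sum_univ_succ, Fin.cons_zero, Fin.cons_succ]
    have e : ∀ x : X, ∑' t : Fin k → X, w x * (∏ j, w (t j)) * (h x + ∑ j, h (t j)) =
        w x * h x + w x * (k * ∑' x, w x * h x) := by
      intro x
      rw [← ih, ← ENNReal.tsum_mul_left]
      have e1 : ∀ t : Fin k → X, w x * (∏ j, w (t j)) * (h x + ∑ j, h (t j)) =
          (w x * h x) * (∏ j, w (t j)) + w x * ((∏ j, w (t j)) * ∑ j, h (t j)) := by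
        intro t; ring
      rw [tsum_congr e1, ENNReal.tsum_add, ENNReal.tsum_mul_left, tsum_pi_prod hw, mul_one]
    rw [tsum_congr e, ENNReal.tsum_add, ENNReal.tsum_mul_right, hw, one_mul]
    push_cast
    ring

/-- the weights sum to one -/
theorem tsum_gwWeight {p : ℕ → ℝ≥0∞} (hp : ∑' k, p k = 1) (n : ℕ) :
    ∑' t : GTree n, gwWeight p t = 1 := by
  induction n with
  | zero => rw [tsum_gtree_zero]; rfl
  | succ n ih =>
    rw [tsum_gtree_succ]
    have e : ∀ k : ℕ, ∑' t : Fin k → GTree n, gwWeight p (GTree.node k t) = p k := by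
      intro k
      change ∑' t : Fin k → GTree n, p k * ∏ j : Fin k, gwWeight p (t j) = p k
      rw [ENNReal.tsum_mul_left, tsum_pi_prod ih, mul_one]
    rw [tsum_congr e, hp]

/-- the star inequality for the parameter `lam` -/
def Star (lam : ℝ) : Prop :=
  ∃ b g e eta C : ℝ, 0 < eta ∧
    (∀ x, Simp x → sq x ≤ Fn b g e x ∧ Fn b g e x ≤ C * sq x) ∧
    ∀ z x, Simp z → Simp x →
      Tavg (Fn b g e) z (chan lam x) ≤ Fn b g e z + lam ^ 2 * (Fn b g e x - eta * sq x ^ 2)

lemma simp_one : Simp (fun _ => (1:ℝ)) := ⟨fun _ => zero_le_one, by unfold mean; norm_num⟩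

lemma Fn_one (b g e : ℝ) : Fn b g e (fun _ => (1:ℝ)) = 0 := by
  unfold Fn sq cu; norm_num

/-- combination inequality for arbitrary children -/
theorem star_combine {lam : ℝ} (h0 : 0 ≤ lam) (h1 : lam ≤ 1) {b g e eta : ℝ}
    (hstar : ∀ z x, Simp z → Simp x →
      Tavg (Fn b g e) z (chan lam x) ≤ Fn b g e z + lam ^ 2 * (Fn b g e x - eta * sq x ^ 2))
    {n : ℕ} : ∀ (k : ℕ) (t : Fin k → GTree n),
    EF (Fn b g e) lam (GTree.node k t) ≤
      ∑ j, lam ^ 2 * (EF (Fn b g e) lam (t j) - eta * EF (fun x => sq x ^ 2) lam (t j)) := by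
  intro k
  induction k with
  | zero =>
    intro t
    rw [EF_node]
    have : ∀ c : (j : Fin 0) → LeafConf 3 (t j),
        hom (Fn b g e) (fun i => ∏ j, chanL lam (lv lam (t j) (c j)) i) = 0 := by
      intro c
      have e1 : (fun i : Fin 3 => ∏ j : Fin 0, chanL lam (lv lam (t j) (c j)) i) =
          fun _ => (1:ℝ) := by
        funext i; simp
      rw [e1]
      unfold hom
      have e2 : nrm (fun _ => (1:ℝ)) = fun _ => (1:ℝ) := by
        funext i; unfold nrm mean; norm_num
      rw [e2, Fn_one, mul_zero]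
    rw [Finset.sum_congr rfl (fun c _ => this c)]
    simp
  | succ k ih =>
    intro t
    have ih' := ih (fun j => t j.succ)
    rw [EF_node] at ih' ⊢
    have hE := ens_lv h0 h1 (t 0)
    have hV : Ens (fun (c : (j : Fin k) → LeafConf 3 (t j.succ)) i =>
        ∏ j, chanL lam (lv lam (t j.succ) (c j)) i) :=
      ens_pi k (fun j => (ens_lv h0 h1 (t j.succ)).chanL h0 h1)
    have hb := combine_step (F' := Fn b g e) (F := Fn b g e)
      (G := fun x => lam ^ 2 * (Fn b g e x - eta * sq x ^ 2)) h0 h1 hstar hV hE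
    have e1 : ∑ c : (j : Fin (k + 1)) → LeafConf 3 (t j),
        hom (Fn b g e) (fun i => ∏ j, chanL lam (lv lam (t j) (c j)) i) =
        ∑ c : (j : Fin k) → LeafConf 3 (t j.succ), ∑ c', hom (Fn b g e)
          (fun i => (∏ j, chanL lam (lv lam (t j.succ) (c j)) i) *
            chanL lam (lv lam (t 0) c') i) := by
      rw [← Equiv.sum_comp (Fin.consEquiv (fun j : Fin (k + 1) => LeafConf 3 (t j))),
        Fintype.sum_prod_type, Finset.sum_comm]
      refine Finset.sum_congr rfl (fun c _ => Finset.sum_congr rfl (fun c' _ => ?_))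
      congr 1
      funext i
      rw [Fin.prod_univ_succ, mul_comm]
      rfl
    have e3 : ∑ c', hom (fun x => lam ^ 2 * (Fn b g e x - eta * sq x ^ 2)) (lv lam (t 0) c') =
        lam ^ 2 * (EF (Fn b g e) lam (t 0) - eta * EF (fun x => sq x ^ 2) lam (t 0)) :=
      EF_sub_mul lam (Fn b g e) (fun x => sq x ^ 2) (lam ^ 2) eta (t 0)
    rw [e1, Fin.sum_univ_succ]
    rw [e3] at hb
    linarith

lemma sq_le_two {x : Fin 3 → ℝ} (hx : Simp x) : sq x ≤ 2 := by
  obtain ⟨h, hm⟩ := hx
  unfold mean at hm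
  unfold sq
  have h0 := h 0; have h1 := h 1; have h2 := h 2
  nlinarith [mul_nonneg h0 h1, mul_nonneg h0 h2, mul_nonneg h1 h2]

lemma EF_const_le {F : (Fin 3 → ℝ) → ℝ} {B : ℝ} (hF : ∀ x, Simp x → F x ≤ B) {lam : ℝ}
    (h0 : 0 ≤ lam) (h1 : lam ≤ 1) {n : ℕ} (t : GTree n) : EF F lam t ≤ B := by
  have h := EF_mono (G := fun _ => B) hF h0 h1 t
  have e : EF (fun _ => B) lam t = B := by
    unfold EF hom
    rw [← Finset.sum_mul, sum_mean (ens_lv h0 h1 t), one_mul]
  rwa [e] at h

/-- Galton–Watson average of a functional -/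
noncomputable def gwE (p : ℕ → ℝ≥0∞) {n : ℕ} (f : GTree n → ℝ) : ℝ≥0∞ :=
  ∑' t : GTree n, gwWeight p t * ENNReal.ofReal (f t)

lemma gwE_le_const {p : ℕ → ℝ≥0∞} (hp : ∑' k, p k = 1) {n : ℕ} {f : GTree n → ℝ} {B : ℝ}
    (hf : ∀ t, f t ≤ B) : gwE p f ≤ ENNReal.ofReal B := by
  unfold gwE
  calc ∑' t : GTree n, gwWeight p t * ENNReal.ofReal (f t)
      ≤ ∑' t : GTree n, gwWeight p t * ENNReal.ofReal B :=
        ENNReal.tsum_le_tsum (fun t => mul_le_mul_right (ENNReal.ofReal_le_ofReal (hf t)) _)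
    _ = ENNReal.ofReal B := by rw [ENNReal.tsum_mul_right, tsum_gwWeight hp, one_mul]

lemma gwE_mono {p : ℕ → ℝ≥0∞} {n : ℕ} {f g : GTree n → ℝ} (hf : ∀ t, f t ≤ g t) :
    gwE p f ≤ gwE p g :=
  ENNReal.tsum_le_tsum (fun t => mul_le_mul_right (ENNReal.ofReal_le_ofReal (hf t)) _)

lemma gwE_add {p : ℕ → ℝ≥0∞} {n : ℕ} {f g : GTree n → ℝ} (hf : ∀ t, 0 ≤ f t)
    (hg : ∀ t, 0 ≤ g t) : gwE p (fun t => f t + g t) = gwE p f + gwE p g := by
  unfold gwE
  rw [← ENNReal.tsum_add]
  refine tsum_congr (fun t => ?_)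
  rw [ENNReal.ofReal_add (hf t) (hg t), mul_add]

lemma gwE_const_mul {p : ℕ → ℝ≥0∞} {n : ℕ} {f : GTree n → ℝ} {c : ℝ} (hc : 0 ≤ c) :
    gwE p (fun t => c * f t) = ENNReal.ofReal c * gwE p f := by
  unfold gwE
  rw [← ENNReal.tsum_mul_left]
  refine tsum_congr (fun t => ?_)
  rw [ENNReal.ofReal_mul hc]
  ring

/-- one generation -/
lemma gwE_succ_le {p : ℕ → ℝ≥0∞} (hp : ∑' k, p k = 1) {n : ℕ} {f : GTree (n + 1) → ℝ}
    {h : GTree n → ℝ} (hh : ∀ t, 0 ≤ h t)
    (hf : ∀ k (t : Fin k → GTree n), f (GTree.node k t) ≤ ∑ j, h (t j)) :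
    gwE p f ≤ (∑' k, p k * k) * gwE p h := by
  unfold gwE
  rw [tsum_gtree_succ]
  have h1 : ∀ k : ℕ, ∑' t : Fin k → GTree n,
      gwWeight p (GTree.node k t) * ENNReal.ofReal (f (GTree.node k t)) ≤
      p k * k * ∑' t : GTree n, gwWeight p t * ENNReal.ofReal (h t) := by
    intro k
    calc ∑' t : Fin k → GTree n,
        gwWeight p (GTree.node k t) * ENNReal.ofReal (f (GTree.node k t))
        ≤ ∑' t : Fin k → GTree n, p k * ((∏ j : Fin k, gwWeight p (t j)) *
          ∑ j, ENNReal.ofReal (h (t j))) := by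
          apply ENNReal.tsum_le_tsum
          intro t
          have e1 : gwWeight p (GTree.node k t) = p k * ∏ j : Fin k, gwWeight p (t j) := rfl
          rw [e1, mul_assoc]
          apply mul_le_mul_right
          apply mul_le_mul_right
          rw [← ENNReal.ofReal_sum_of_nonneg (fun j _ => hh (t j))]
          exact ENNReal.ofReal_le_ofReal (hf k t)
      _ = p k * k * ∑' t : GTree n, gwWeight p t * ENNReal.ofReal (h t) := by
          rw [ENNReal.tsum_mul_left, tsum_pi_sum (tsum_gwWeight hp n)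
            (fun t => ENNReal.ofReal (h t)), mul_assoc]
  calc _ ≤ ∑' k : ℕ, p k * k * ∑' t : GTree n, gwWeight p t * ENNReal.ofReal (h t) :=
        ENNReal.tsum_le_tsum h1
    _ = _ := ENNReal.tsum_mul_right

/-- **Nonreconstruction on Galton–Watson trees** from the star inequality. -/
theorem tendsto_of_star {p : ℕ → ℝ≥0∞} (hp : ∑' k, p k = 1) {lam : ℝ} (h0 : 0 ≤ lam)
    (h1 : lam ≤ 1) (hm : (∑' k, p k * k) * ENNReal.ofReal (lam ^ 2) ≤ 1) (hS : Star lam) :
    Tendsto (aGW 3 p lam) atTop (𝓝 0) := by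
  obtain ⟨b, g, e, eta, C, heta, hbd, hstar⟩ := hS
  set Fx := Fn b g e with hFx
  have hFnn : ∀ x, Simp x → 0 ≤ Fx x := fun x hx => (sq_nonneg' x).trans (hbd x hx).1
  -- the case `lam = 0`
  rcases h0.eq_or_lt with hl | hl
  · rw [← tendsto_add_atTop_iff_nat 1]
    have hz : ∀ n, aGW 3 p lam (n + 1) = 0 := by
      intro n
      unfold aGW
      rw [ENNReal.tsum_eq_zero]
      intro t
      cases t with
      | node k t =>
        have h3 := star_combine h0 h1 hstar k t
        have hl2 : lam ^ 2 = 0 := by rw [← hl]; norm_num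
        simp only [hl2, zero_mul, Finset.sum_const_zero] at h3
        have h4 := EF_mono (F := sq) (G := Fx) (fun x hx => (hbd x hx).1) h0 h1
          (GTree.node k t)
        have h5 := advantage_sq_le h0 h1 (GTree.node k t)
        have h6 := advantage_nonneg h0 h1 (GTree.node k t)
        have h7 : advantage 3 lam (GTree.node k t) ^ 2 ≤ 0 := by linarith
        have h8 : advantage 3 lam (GTree.node k t) = 0 :=
          pow_eq_zero_iff (two_ne_zero) |>.mp (le_antisymm h7 (sq_nonneg _))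
        rw [h8]
        simp
    simp only [hz]
    exact tendsto_const_nhds
  -- nonnegativity of `G = F - eta s²`
  have hGnn : ∀ x, Simp x → 0 ≤ Fx x - eta * sq x ^ 2 := by
    intro x hx
    have h3 := hstar (fun _ => (1:ℝ)) x simp_one hx
    have h4 : 0 ≤ Tavg Fx (fun _ => (1:ℝ)) (chan lam x) := by
      unfold Tavg
      have hc : ∀ i, 0 ≤ chan lam x i := by
        intro i
        unfold chan
        have := hx.1 i
        have : 0 ≤ 1 - lam := by linarith
        positivity
      have hcm : mean (chan lam x) = 1 := by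
        have := hx.2
        unfold mean at this ⊢
        unfold chan
        linear_combination lam * this
      have hterm : ∀ g' : Fin 3, 0 ≤ mean (fun j => 1 * rot g' (chan lam x) j) *
          Fx (comb (fun _ => (1:ℝ)) (rot g' (chan lam x))) := by
        intro g'
        have e1 : mean (fun j => 1 * rot g' (chan lam x) j) = 1 := by
          have : (fun j => 1 * rot g' (chan lam x) j) = rot g' (chan lam x) := by
            funext j; rw [one_mul]
          rw [this, mean_rot, hcm]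
        have e2 : Simp (comb (fun _ => (1:ℝ)) (rot g' (chan lam x))) := by
          have : comb (fun _ => (1:ℝ)) (rot g' (chan lam x)) = rot g' (chan lam x) := by
            funext j
            unfold comb
            rw [e1, one_mul, div_one]
          rw [this]
          refine ⟨fun i => hc _, ?_⟩
          rw [mean_rot, hcm]
        rw [e1, one_mul]
        exact hFnn _ e2
      have := Finset.sum_nonneg (fun g' (_ : g' ∈ Finset.univ) => hterm g')
      positivity
    have hF1 : Fx (fun _ => (1:ℝ)) = 0 := Fn_one b g e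
    rw [hF1, zero_add] at h3
    have h5 : 0 < lam ^ 2 := by positivity
    have h6 : 0 ≤ lam ^ 2 * (Fx x - eta * sq x ^ 2) := h4.trans h3
    exact nonneg_of_mul_nonneg_right h6 h5
  -- the three sequences
  set A : ℕ → ℝ≥0∞ := fun n => gwE p (fun t : GTree n => EF Fx lam t) with hA
  set Gs : ℕ → ℝ≥0∞ := fun n => gwE p (fun t : GTree n =>
    EF Fx lam t - eta * EF (fun x => sq x ^ 2) lam t) with hGs
  set E2 : ℕ → ℝ≥0∞ := fun n => gwE p (fun t : GTree n => EF (fun x => sq x ^ 2) lam t) with hE2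
  have hGt : ∀ {n : ℕ} (t : GTree n), 0 ≤ EF Fx lam t - eta * EF (fun x => sq x ^ 2) lam t := by
    intro n t
    have h3 := EF_nonneg (F := fun x => 1 * (Fx x - eta * sq x ^ 2))
      (fun x hx => by rw [one_mul]; exact hGnn x hx) h0 h1 t
    rw [EF_sub_mul, one_mul] at h3
    exact h3
  have hE2nn : ∀ {n : ℕ} (t : GTree n), 0 ≤ EF (fun x => sq x ^ 2) lam t := fun t =>
    EF_nonneg (fun x _ => sq_nonneg _) h0 h1 t
  have hAG : ∀ n, A n = Gs n + ENNReal.ofReal eta * E2 n := by
    intro n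
    simp only [hA, hGs, hE2]
    rw [← gwE_const_mul heta.le, ← gwE_add (fun t => hGt t)
      (fun t => mul_nonneg heta.le (hE2nn t))]
    congr 1
    funext t
    ring
  have hstep : ∀ n, A (n + 1) ≤ Gs n := by
    intro n
    have h3 := gwE_succ_le (p := p) hp (n := n) (f := fun t => EF Fx lam t)
      (h := fun t => lam ^ 2 * (EF Fx lam t - eta * EF (fun x => sq x ^ 2) lam t))
      (fun t => mul_nonneg (by positivity) (hGt t))
      (fun k t => star_combine h0 h1 hstar k t)
    rw [gwE_const_mul (by positivity), ← mul_assoc] at h3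
    calc A (n + 1) ≤ _ := h3
      _ ≤ 1 * Gs n := mul_le_mul_left hm _
      _ = Gs n := one_mul _
  have hAfin : ∀ n, A n ≠ ⊤ := by
    intro n
    have hle : A n ≤ ENNReal.ofReal (max (C * 2) 0) := by
      apply gwE_le_const hp
      intro t
      apply EF_const_le _ h0 h1 t
      intro x hx
      by_cases hC : 0 ≤ C
      · exact ((hbd x hx).2.trans (mul_le_mul_of_nonneg_left (sq_le_two hx) hC)).trans
          (le_max_left _ _)
      · push Not at hC
        have := mul_nonneg_of_nonpos_of_nonpos hC.le (neg_nonpos.mpr (sq_nonneg' x))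
        have := (hbd x hx).2
        have h5 := sq_nonneg' x
        have : C * sq x ≤ 0 := mul_nonpos_of_nonpos_of_nonneg hC.le h5
        exact ((hbd x hx).2.trans this).trans (le_max_right _ _)
    exact (lt_of_le_of_lt hle ENNReal.ofReal_lt_top).ne
  -- real versions
  have hdec : ∀ n, eta * (E2 n).toReal ≤ (A n).toReal - (A (n + 1)).toReal := by
    intro n
    have h3 : Gs n ≠ ⊤ := by
      have := hAG n
      intro h
      rw [h, top_add] at this
      exact hAfin n this
    have h4 : ENNReal.ofReal eta * E2 n ≠ ⊤ := by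
      have := hAG n
      intro h
      rw [h, add_top] at this
      exact hAfin n this
    have h5 : (A n).toReal = (Gs n).toReal + eta * (E2 n).toReal := by
      rw [hAG n, ENNReal.toReal_add h3 h4, ENNReal.toReal_mul, ENNReal.toReal_ofReal heta.le]
    have h6 : (A (n + 1)).toReal ≤ (Gs n).toReal := ENNReal.toReal_mono h3 (hstep n)
    linarith
  have hanti : Antitone (fun n => (A n).toReal) := by
    apply antitone_nat_of_succ_le
    intro n
    have h3 := hdec n
    have h4 : 0 ≤ eta * (E2 n).toReal := mul_nonneg heta.le ENNReal.toReal_nonneg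
    linarith
  have hlim := tendsto_atTop_ciInf hanti ⟨0, by rintro _ ⟨n, rfl⟩; exact ENNReal.toReal_nonneg⟩
  have hlim2 := hlim.sub (hlim.comp (tendsto_add_atTop_nat 1))
  rw [sub_self] at hlim2
  have hE2lim : Tendsto (fun n => eta * (E2 n).toReal) atTop (𝓝 0) :=
    squeeze_zero (fun n => mul_nonneg heta.le ENNReal.toReal_nonneg) hdec hlim2
  have hE2lim' : Tendsto (fun n => (E2 n).toReal) atTop (𝓝 0) := by
    have := hE2lim.const_mul eta⁻¹
    simp only [mul_zero] at this
    refine this.congr (fun n => ?_)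
    field_simp
  have hE2fin : ∀ n, E2 n ≠ ⊤ := by
    intro n h
    have := hAG n
    rw [h, ENNReal.mul_top (by simpa using heta), add_top] at this
    exact hAfin n this
  have hE2lim'' : Tendsto E2 atTop (𝓝 0) := by
    rw [← ENNReal.tendsto_toReal_iff hE2fin ENNReal.zero_ne_top]
    simpa using hE2lim'
  -- conclusion : a ≤ ε + a⁴/ε³
  rw [ENNReal.tendsto_nhds_zero]
  intro ε hε
  rcases eq_or_ne ε ⊤ with rfl | hεt
  · exact Eventually.of_forall (fun n => le_top)
  have hδ : 0 < ε.toReal / 2 := by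
    have := ENNReal.toReal_pos hε.ne' hεt
    positivity
  set δ := ε.toReal / 2 with hδd
  have hpt : ∀ {n : ℕ} (t : GTree n), advantage 3 lam t ≤
      δ + (1 / δ ^ 3) * EF (fun x => sq x ^ 2) lam t := by
    intro n t
    have a0 := advantage_nonneg h0 h1 t
    have a1 := advantage_sq_le h0 h1 t
    have a2 := EF_sq_le (F := sq) h0 h1 t
    have a3 : advantage 3 lam t ^ 4 ≤ EF (fun x => sq x ^ 2) lam t := by
      have a4 : (4 * advantage 3 lam t ^ 2) ^ 2 ≤ EF sq lam t ^ 2 :=
        pow_le_pow_left₀ (by positivity) a1 2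
      nlinarith [pow_nonneg a0 4]
    by_cases hle : advantage 3 lam t ≤ δ
    · have : 0 ≤ (1 / δ ^ 3) * EF (fun x => sq x ^ 2) lam t :=
        mul_nonneg (by positivity) (hE2nn t)
      linarith
    · push Not at hle
      have h5 : advantage 3 lam t ≤ (1 / δ ^ 3) * advantage 3 lam t ^ 4 := by
        rw [one_div, ← div_eq_inv_mul, le_div_iff₀ (by positivity)]
        have := pow_le_pow_left₀ hδ.le hle.le 3
        have e1 : advantage 3 lam t ^ 4 = advantage 3 lam t * advantage 3 lam t ^ 3 := by ring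
        rw [e1]
        exact mul_le_mul_of_nonneg_left this a0
      have h6 : (1 / δ ^ 3) * advantage 3 lam t ^ 4 ≤
          (1 / δ ^ 3) * EF (fun x => sq x ^ 2) lam t :=
        mul_le_mul_of_nonneg_left a3 (by positivity)
      linarith
  have hbound : ∀ n, aGW 3 p lam n ≤ ENNReal.ofReal δ + ENNReal.ofReal (1 / δ ^ 3) * E2 n := by
    intro n
    have h3 : aGW 3 p lam n ≤ gwE p (fun t : GTree n => δ + (1 / δ ^ 3) *
        EF (fun x => sq x ^ 2) lam t) := gwE_mono (fun t => hpt t)
    rw [gwE_add (fun _ => hδ.le) (fun t => mul_nonneg (by positivity) (hE2nn t)),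
      gwE_const_mul (by positivity)] at h3
    refine h3.trans ?_
    apply add_le_add_left
    exact gwE_le_const hp (fun _ => le_rfl)
  have hlast : Tendsto (fun n => ENNReal.ofReal (1 / δ ^ 3) * E2 n) atTop (𝓝 0) := by
    have := ENNReal.Tendsto.const_mul (a := ENNReal.ofReal (1 / δ ^ 3)) hE2lim''
      (Or.inr ENNReal.ofReal_ne_top)
    simpa using this
  rw [ENNReal.tendsto_nhds_zero] at hlast
  filter_upwards [hlast (ENNReal.ofReal δ) (by simpa using hδ)] with n hn
  calc aGW 3 p lam n ≤ ENNReal.ofReal δ + ENNReal.ofReal (1 / δ ^ 3) * E2 n := hbound n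
    _ ≤ ENNReal.ofReal δ + ENNReal.ofReal δ := add_le_add_right hn _
    _ = ε := by
      rw [← ENNReal.ofReal_add hδ.le hδ.le, hδd, add_halves, ENNReal.ofReal_toReal hεt]

/-- the Poisson law is a probability law -/
theorem tsum_poissonLaw {d : ℝ} (hd : 0 ≤ d) : ∑' k, poissonLaw d k = 1 := by
  unfold poissonLaw
  rw [← ENNReal.ofReal_tsum_of_nonneg (fun k => by positivity)]
  · have h := ProbabilityTheory.hasSum_one_poissonMeasure ⟨d, hd⟩
    have h2 : HasSum (fun k : ℕ => Real.exp (-d) * d ^ k / k.factorial) 1 := h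
    rw [h2.tsum_eq, ENNReal.ofReal_one]
  · have h := ProbabilityTheory.hasSum_one_poissonMeasure ⟨d, hd⟩
    have h2 : HasSum (fun k : ℕ => Real.exp (-d) * d ^ k / k.factorial) 1 := h
    exact h2.summable

/-- the mean of the Poisson law -/
theorem tsum_poissonLaw_mul {d : ℝ} (hd : 0 ≤ d) :
    ∑' k : ℕ, poissonLaw d k * (k : ℝ≥0∞) = ENNReal.ofReal d := by
  rw [tsum_eq_zero_add' ENNReal.summable]
  rw [Nat.cast_zero, mul_zero, zero_add]
  have e : ∀ k : ℕ, poissonLaw d (k + 1) * ((k + 1 : ℕ) : ℝ≥0∞) =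
      ENNReal.ofReal d * poissonLaw d k := by
    intro k
    unfold poissonLaw
    rw [← ENNReal.ofReal_natCast, ← ENNReal.ofReal_mul (by positivity),
      ← ENNReal.ofReal_mul hd]
    congr 1
    rw [Nat.factorial_succ]
    push_cast
    field_simp
    ring
  rw [tsum_congr e, ENNReal.tsum_mul_left, tsum_poissonLaw hd, mul_one]

/-- **Nonreconstruction on Poisson Galton–Watson trees** from the star inequality. -/
theorem tendsto_poisson_of_star {d lam : ℝ} (hd : 0 ≤ d) (h0 : 0 ≤ lam) (h1 : lam ≤ 1)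
    (hm : d * lam ^ 2 ≤ 1) (hS : Star lam) :
    Tendsto (aGW 3 (poissonLaw d) lam) atTop (𝓝 0) := by
  apply tendsto_of_star (tsum_poissonLaw hd) h0 h1 _ hS
  rw [tsum_poissonLaw_mul hd, ← ENNReal.ofReal_mul hd]
  exact ENNReal.ofReal_le_one.mpr hm

end Vale.Agent.P154
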