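import Vale.Agent.P154.Basic
import Vale.Agent.P154.GW

/-!
Assembling the certified inequalities (at the critical parameter) into a chain / star certificate
for every smaller parameter.
-/

namespace Vale.Agent.P154

lemma sq_chan (m : ℝ) (x : Fin 3 → ℝ) : sq (chan m x) = m ^ 2 * sq x := by
  unfold sq chan; ring

lemma cu_chan (m : ℝ) (x : Fin 3 → ℝ) : cu (chan m x) = m ^ 3 * cu x := by
  unfold cu chan; ring

lemma chan_simp {m : ℝ} (h0 : 0 ≤ m) (h1 : m ≤ 1) {x : Fin 3 → ℝ} (hx : Simp x) :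
    Simp (chan m x) := by
  refine ⟨fun i => ?_, ?_⟩
  · unfold chan
    have := mul_nonneg h0 (hx.1 i)
    linarith
  · have := hx.2
    unfold mean at this ⊢
    unfold chan
    linear_combination m * this

lemma chan_mul (l m : ℝ) (x : Fin 3 → ℝ) : chan (l * m) x = chan l (chan m x) := by
  unfold chan; funext i; ring

lemma sq_nonneg'' (x : Fin 3 → ℝ) : 0 ≤ sq x := by unfold sq; positivity

lemma cu_sq_le {x : Fin 3 → ℝ} (hx : mean x = 1) : 2 * cu x ^ 2 ≤ sq x ^ 3 := by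
  have h : x 2 = 3 - x 0 - x 1 := by unfold mean at hx; linarith
  unfold cu sq
  rw [h]
  have key : ((x 0 - 1)^2 + (x 1 - 1)^2 + (3 - x 0 - x 1 - 1)^2) ^ 3 / 27 -
      2 * ((x 0 - 1) * (x 1 - 1) * (3 - x 0 - x 1 - 1)) ^ 2 =
      2 * ((x 0 - x 1) * (2 * x 1 + x 0 - 3) * (2 * x 0 + x 1 - 3)) ^ 2 / 27 := by
    ring
  have h0 := sq_nonneg ((x 0 - x 1) * (2 * x 1 + x 0 - 3) * (2 * x 0 + x 1 - 3))
  nlinarith [key, h0]

lemma abs_cu_le {x : Fin 3 → ℝ} (hx : Simp x) : |cu x| ≤ sq x := by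
  have h1 := cu_sq_le hx.2
  have h2 := sq_le_two hx
  have h3 := sq_nonneg'' x
  apply abs_le_of_sq_le_sq _ h3
  have : sq x ^ 3 ≤ 2 * sq x ^ 2 := by nlinarith [mul_nonneg (sq_nonneg (sq x)) (sub_nonneg.mpr h2)]
  linarith

/-- coefficient condition for the contraction -/
structure CoefOK (b g e : ℝ) : Prop where
  b0 : 0 ≤ b
  g0 : 0 ≤ g
  e0 : 0 ≤ e
  disc : 9 * g ^ 2 ≤ 32 * (b * e)

/-- a binary quadratic form with nonpositive discriminant is nonnegative -/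
lemma quad_nonneg {a c : ℝ} (ha : 0 ≤ a) (hc : 0 ≤ c) {k : ℝ} (hk : k ^ 2 ≤ 4 * (a * c)) (x y : ℝ) :
    0 ≤ a * x ^ 2 - k * (x * y) + c * y ^ 2 := by
  rcases ha.eq_or_lt with h | h
  · have : k = 0 := by
      have : k ^ 2 ≤ 0 := by rw [← h] at hk; linarith
      exact pow_eq_zero_iff (two_ne_zero) |>.mp (le_antisymm this (sq_nonneg k))
    rw [this, ← h]
    have := mul_nonneg hc (sq_nonneg y)
    linarith
  · have h4 : 0 ≤ 4 * a * (a * x ^ 2 - k * (x * y) + c * y ^ 2) := by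
      have e : 4 * a * (a * x ^ 2 - k * (x * y) + c * y ^ 2) =
        (2 * a * x - k * y) ^ 2 + (4 * (a * c) - k ^ 2) * y ^ 2 := by ring
      rw [e]
      have := mul_nonneg (sub_nonneg.mpr hk) (sq_nonneg y)
      have := sq_nonneg (2 * a * x - k * y)
      linarith
    exact nonneg_of_mul_nonneg_right h4 (by linarith)

lemma CoefOK.contr {b g e : ℝ} (h : CoefOK b g e) {m : ℝ} (h0 : 0 ≤ m) (h1 : m ≤ 1)
    (x : Fin 3 → ℝ) : Fn b g e (chan m x) ≤ m ^ 2 * Fn b g e x := by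
  have hb := h.b0
  have he := h.e0
  have hm2 : 0 ≤ 1 - m ^ 2 := by nlinarith
  have hm4 : 0 ≤ 1 - m ^ 4 := by nlinarith [sq_nonneg m, sq_nonneg (m^2)]
  have hq := quad_nonneg (mul_nonneg hb hm2) (mul_nonneg he hm4) (k := g * (1 - m ^ 3)) (by
    have hd := h.disc
    have hbe := mul_nonneg hb he
    -- `8 (1-m^3)^2 ≤ 9 (1-m^2)(1-m^4)`
    have hm : 8 * (1 - m ^ 3) ^ 2 ≤ 9 * ((1 - m ^ 2) * (1 - m ^ 4)) := by
      have e : 9 * ((1 - m ^ 2) * (1 - m ^ 4)) - 8 * (1 - m ^ 3) ^ 2 =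
        (1 - m) ^ 4 * (m ^ 2 + 4 * m + 1) := by ring
      have : 0 ≤ (1 - m) ^ 4 * (m ^ 2 + 4 * m + 1) := by positivity
      linarith
    have s1 : (g * (1 - m ^ 3)) ^ 2 * 9 ≤ 32 * (b * e) * (1 - m ^ 3) ^ 2 := by
      have := mul_le_mul_of_nonneg_right hd (sq_nonneg (1 - m ^ 3))
      calc (g * (1 - m ^ 3)) ^ 2 * 9 = 9 * g ^ 2 * (1 - m ^ 3) ^ 2 := by ring
        _ ≤ _ := this
    have s2 := mul_le_mul_of_nonneg_left hm hbe
    nlinarith [s1, s2]) (sq x) (cu x)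
  have h4 := mul_nonneg (sq_nonneg m) hq
  unfold Fn
  rw [sq_chan, cu_chan]
  have e : m ^ 2 * (sq x + b * sq x ^ 2 - g * (sq x * cu x) + e * cu x ^ 2) -
      (m ^ 2 * sq x + b * (m ^ 2 * sq x) ^ 2 - g * (m ^ 2 * sq x * (m ^ 3 * cu x)) +
        e * (m ^ 3 * cu x) ^ 2) =
      m ^ 2 * (b * (1 - m ^ 2) * sq x ^ 2 - g * (1 - m ^ 3) * (sq x * cu x) +
        e * (1 - m ^ 4) * cu x ^ 2) := by ring
  linarith

lemma CoefOK.lower {b g e : ℝ} (h : CoefOK b g e) (x : Fin 3 → ℝ) : sq x ≤ Fn b g e x := by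
  have hq := quad_nonneg h.b0 h.e0 (k := g) (by
    have := h.disc
    have := mul_nonneg h.b0 h.e0
    have := sq_nonneg g
    linarith) (sq x) (cu x)
  unfold Fn
  linarith

lemma CoefOK.upper {b g e : ℝ} (h : CoefOK b g e) {x : Fin 3 → ℝ} (hx : Simp x) :
    Fn b g e x ≤ (1 + 2 * b + 2 * g + 2 * e) * sq x := by
  have h1 := abs_le.mp (abs_cu_le hx)
  have h2 := sq_le_two hx
  have h3 := sq_nonneg'' x
  have e1 : sq x ^ 2 ≤ 2 * sq x := by nlinarith
  have e2 : -(sq x * cu x) ≤ 2 * sq x := by nlinarith [mul_nonneg h3 (by linarith : 0 ≤ cu x + sq x)]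
  have e3 : cu x ^ 2 ≤ 2 * sq x := by
    have : cu x ^ 2 ≤ sq x ^ 2 := sq_le_sq' h1.1 h1.2
    linarith
  have f1 := mul_le_mul_of_nonneg_left e1 h.b0
  have f2 := mul_le_mul_of_nonneg_left e2 h.g0
  have f3 := mul_le_mul_of_nonneg_left e3 h.e0
  unfold Fn
  linarith

/-- one step inequality -/
def StepI (lam b1 g1 e1 b2 g2 e2 b g e eta : ℝ) : Prop :=
  ∀ z x, Simp z → Simp x →
    Tavg (Fn b1 g1 e1) z (chan lam x) ≤ Fn b2 g2 e2 z + lam ^ 2 * (Fn b g e x - eta * sq x ^ 2)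

/-- base inequality -/
def BaseI (lam b1 g1 e1 b g e eta : ℝ) : Prop :=
  ∀ x' x, Simp x' → Simp x →
    Tavg (Fn b1 g1 e1) (chan lam x') (chan lam x) ≤
      lam ^ 2 * Fn b g e x' + lam ^ 2 * (Fn b g e x - eta * sq x ^ 2)

lemma StepI.mono {lam b1 g1 e1 b2 g2 e2 b g e eta : ℝ} (h : StepI lam b1 g1 e1 b2 g2 e2 b g e eta)
    (hc : CoefOK b g e) {m : ℝ} (h0 : 0 ≤ m) (h1 : m ≤ 1) :
    StepI (lam * m) b1 g1 e1 b2 g2 e2 b g e (eta * m ^ 2) := by
  intro z x hz hx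
  rw [chan_mul]
  refine (h z (chan m x) hz (chan_simp h0 h1 hx)).trans ?_
  have := hc.contr h0 h1 x
  have h2 := mul_le_mul_of_nonneg_left this (sq_nonneg lam)
  rw [sq_chan]
  have e1 : (lam * m) ^ 2 * (Fn b g e x - eta * m ^ 2 * sq x ^ 2) =
    lam ^ 2 * (m ^ 2 * Fn b g e x) - lam ^ 2 * (eta * (m ^ 2 * sq x) ^ 2) := by ring
  rw [e1]
  linarith

lemma BaseI.mono {lam b1 g1 e1 b g e eta : ℝ} (h : BaseI lam b1 g1 e1 b g e eta)
    (hc : CoefOK b g e) {m : ℝ} (h0 : 0 ≤ m) (h1 : m ≤ 1) :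
    BaseI (lam * m) b1 g1 e1 b g e (eta * m ^ 2) := by
  intro x' x hx' hx
  rw [chan_mul, chan_mul]
  refine (h (chan m x') (chan m x) (chan_simp h0 h1 hx') (chan_simp h0 h1 hx)).trans ?_
  have h2 := mul_le_mul_of_nonneg_left (hc.contr h0 h1 x) (sq_nonneg lam)
  have h3 := mul_le_mul_of_nonneg_left (hc.contr h0 h1 x') (sq_nonneg lam)
  rw [sq_chan]
  have e1 : (lam * m) ^ 2 * Fn b g e x' + (lam * m) ^ 2 * (Fn b g e x - eta * m ^ 2 * sq x ^ 2) =
    lam ^ 2 * (m ^ 2 * Fn b g e x') +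
      (lam ^ 2 * (m ^ 2 * Fn b g e x) - lam ^ 2 * (eta * (m ^ 2 * sq x) ^ 2)) := by ring
  rw [e1]
  linarith

/-- the case `lam = 0` of a step does not depend on `eta` -/
lemma StepI.zero {b1 g1 e1 b2 g2 e2 b g e eta eta' : ℝ}
    (h : StepI 0 b1 g1 e1 b2 g2 e2 b g e eta) : StepI 0 b1 g1 e1 b2 g2 e2 b g e eta' := by
  intro z x hz hx
  have := h z x hz hx
  simpa using this

lemma BaseI.zero {b1 g1 e1 b g e eta eta' : ℝ}
    (h : BaseI 0 b1 g1 e1 b g e eta) : BaseI 0 b1 g1 e1 b g e eta' := by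
  intro z x hz hx
  have := h z x hz hx
  simpa using this

/-- chain certificates at `lam0` give chain certificates for all smaller parameters -/
theorem chain_of (d : ℕ) {lam0 lam : ℝ} (hlam0 : 0 < lam0) (h0 : 0 ≤ lam) (h1 : lam ≤ lam0)
    (b g e : ℕ → ℝ) {eta : ℝ} (heta : 0 < eta) (hc : CoefOK (b d) (g d) (e d))
    (base : BaseI lam0 (b 2) (g 2) (e 2) (b d) (g d) (e d) eta)
    (step : ∀ k, 2 ≤ k → k < d →
      StepI lam0 (b (k + 1)) (g (k + 1)) (e (k + 1)) (b k) (g k) (e k) (b d) (g d) (e d) eta) :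
    Nonempty (Chain d lam) := by
  have hm0 : 0 ≤ lam / lam0 := div_nonneg h0 hlam0.le
  have hm1 : lam / lam0 ≤ 1 := (div_le_one hlam0).mpr h1
  have he : lam0 * (lam / lam0) = lam := mul_div_cancel₀ lam hlam0.ne'
  have base' := base.mono hc hm0 hm1
  have step' := fun k h2 hk => (step k h2 hk).mono hc hm0 hm1
  rw [he] at base'
  rw [he] at step'
  rcases h0.eq_or_lt with h | h
  · subst h
    exact ⟨{ b := b, g := g, e := e, eta := 1, C := 1 + 2 * b d + 2 * g d + 2 * e d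
             eta_pos := one_pos
             lower := fun x _ => hc.lower x
             upper := fun x hx => hc.upper hx
             base := fun x x' hx hx' => base'.zero x' x hx' hx
             step := fun k h2 hk z x hz hx => (step' k h2 hk).zero z x hz hx }⟩
  · have : 0 < lam / lam0 := div_pos h hlam0
    exact ⟨{ b := b, g := g, e := e, eta := eta * (lam / lam0) ^ 2
             C := 1 + 2 * b d + 2 * g d + 2 * e d
             eta_pos := by positivity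
             lower := fun x _ => hc.lower x
             upper := fun x hx => hc.upper hx
             base := fun x x' hx hx' => base' x' x hx' hx
             step := fun k h2 hk z x hz hx => step' k h2 hk z x hz hx }⟩

/-- a star certificate at `lam0` gives the star inequality for all smaller parameters -/
theorem star_of {lam0 lam : ℝ} (hlam0 : 0 < lam0) (h0 : 0 ≤ lam) (h1 : lam ≤ lam0) {b g e eta : ℝ}
    (heta : 0 < eta) (hc : CoefOK b g e) (hs : StepI lam0 b g e b g e b g e eta) : Star lam := by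
  have hm0 : 0 ≤ lam / lam0 := div_nonneg h0 hlam0.le
  have hm1 : lam / lam0 ≤ 1 := (div_le_one hlam0).mpr h1
  have he : lam0 * (lam / lam0) = lam := mul_div_cancel₀ lam hlam0.ne'
  have hs' := hs.mono hc hm0 hm1
  rw [he] at hs'
  rcases h0.eq_or_lt with h | h
  · subst h
    exact ⟨b, g, e, 1, _, one_pos, fun x hx => ⟨hc.lower x, hc.upper hx⟩, hs'.zero⟩
  · have : 0 < lam / lam0 := div_pos h hlam0
    exact ⟨b, g, e, eta * (lam / lam0) ^ 2, _, by positivity,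
      fun x hx => ⟨hc.lower x, hc.upper hx⟩, hs'⟩

/-- a star certificate at `lam0` gives chain certificates for all `d` and all smaller parameters -/
theorem chain_of_star_of (d : ℕ) {lam0 lam : ℝ} (hlam0 : 0 < lam0) (hl1 : lam0 ≤ 1) (h0 : 0 ≤ lam)
    (h1 : lam ≤ lam0) {b g e eta : ℝ} (heta : 0 < eta) (hc : CoefOK b g e)
    (hs : StepI lam0 b g e b g e b g e eta) : Nonempty (Chain d lam) := by
  apply chain_of d hlam0 h0 h1 (fun _ => b) (fun _ => g) (fun _ => e) heta hc _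
    (fun _ _ _ => hs)
  intro x' x hx' hx
  refine (hs (chan lam0 x') x (chan_simp hlam0.le hl1 hx') hx).trans ?_
  have := hc.contr hlam0.le hl1 x'
  linarith

theorem chain_of_star {b g e eta : ℝ} (heta : 0 < eta) (hc : CoefOK b g e)
    (hs : StepI (1 / 3) b g e b g e b g e eta) (d : ℕ) (hd : 9 ≤ d) (lam : ℝ) (h0 : 0 ≤ lam)
    (h1 : d * lam ^ 2 ≤ 1) : Nonempty (Chain d lam) := by
  apply chain_of_star_of d (by norm_num) (by norm_num) h0 _ heta hc hs
  have h9 : (9:ℝ) ≤ d := by exact_mod_cast hd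
  have : 9 * lam ^ 2 ≤ 1 := by nlinarith [sq_nonneg lam]
  nlinarith

theorem star_of_third {b g e eta : ℝ} (heta : 0 < eta) (hc : CoefOK b g e)
    (hs : StepI (1 / 3) b g e b g e b g e eta) (lam : ℝ) (h0 : 0 ≤ lam) (h1 : lam ≤ 1 / 3) :
    Star lam :=
  star_of (by norm_num) h0 h1 heta hc hs

/-- chain certificates at `1/√d` cover `d lam^2 ≤ 1` -/
theorem chain_of_sqrt (d : ℕ) (hd : 1 ≤ d) {lam : ℝ} (h0 : 0 ≤ lam) (h1 : d * lam ^ 2 ≤ 1)
    (b g e : ℕ → ℝ) {eta : ℝ} (heta : 0 < eta) (hc : CoefOK (b d) (g d) (e d))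
    (base : BaseI (1 / Real.sqrt d) (b 2) (g 2) (e 2) (b d) (g d) (e d) eta)
    (step : ∀ k, 2 ≤ k → k < d →
      StepI (1 / Real.sqrt d) (b (k + 1)) (g (k + 1)) (e (k + 1)) (b k) (g k) (e k)
        (b d) (g d) (e d) eta) :
    Nonempty (Chain d lam) := by
  have hd' : (0:ℝ) < d := by exact_mod_cast hd
  have hs : 0 < Real.sqrt d := Real.sqrt_pos.mpr hd'
  apply chain_of d (by positivity) h0 _ b g e heta hc base step
  rw [le_div_iff₀ hs]
  have : (lam * Real.sqrt d) ^ 2 ≤ 1 ^ 2 := by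
    rw [mul_pow, Real.sq_sqrt hd'.le]; linarith
  exact abs_le_of_sq_le_sq' this zero_le_one |>.2

end Vale.Agent.P154
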