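import Mathlib

/-!
Interface for the three-state Potts reconstruction problem.

Messages are vectors `x : Fin 3 → ℝ` with nonnegative entries of mean `1`
(three times a posterior distribution on the three spins).
-/

namespace Vale.Agent.P154

/-- average of the three coordinates -/
noncomputable def mean (v : Fin 3 → ℝ) : ℝ := (v 0 + v 1 + v 2) / 3

/-- the simplex: nonnegative vectors of mean one -/
def Simp (x : Fin 3 → ℝ) : Prop := (∀ i, 0 ≤ x i) ∧ mean x = 1

/-- `s(x)`: mean square deviation -/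
noncomputable def sq (x : Fin 3 → ℝ) : ℝ := ((x 0 - 1)^2 + (x 1 - 1)^2 + (x 2 - 1)^2) / 3

/-- `t(x)`: product of the deviations -/
noncomputable def cu (x : Fin 3 → ℝ) : ℝ := (x 0 - 1) * (x 1 - 1) * (x 2 - 1)

/-- the functionals used: `s + b s^2 - g s t + e t^2` -/
noncomputable def Fn (b g e : ℝ) (x : Fin 3 → ℝ) : ℝ :=
  sq x + b * sq x ^ 2 - g * (sq x * cu x) + e * cu x ^ 2

/-- the channel acting on messages: `B x = lam * x + (1 - lam)` (for mean-one vectors) -/
noncomputable def chan (lam : ℝ) (x : Fin 3 → ℝ) : Fin 3 → ℝ := fun i => lam * x i + (1 - lam)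

/-- cyclic rotation of the coordinates -/
def rot (g : Fin 3) (y : Fin 3 → ℝ) : Fin 3 → ℝ := fun i => y (i + g)

/-- normalised combination of two messages -/
noncomputable def comb (z y : Fin 3 → ℝ) : Fin 3 → ℝ := fun i => z i * y i / mean (fun j => z j * y j)

/-- the averaged combination operator -/
noncomputable def Tavg (F : (Fin 3 → ℝ) → ℝ) (z y : Fin 3 → ℝ) : ℝ :=
  (∑ g : Fin 3, mean (fun j => z j * rot g y j) * F (comb z (rot g y))) / 3

/-- A chain certificate for `d` children and channel parameter `lam`. -/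
structure Chain (d : ℕ) (lam : ℝ) where
  b : ℕ → ℝ
  g : ℕ → ℝ
  e : ℕ → ℝ
  eta : ℝ
  C : ℝ
  eta_pos : 0 < eta
  /-- the final functional dominates `s` and is dominated by a multiple of `s` -/
  lower : ∀ x, Simp x → sq x ≤ Fn (b d) (g d) (e d) x
  upper : ∀ x, Simp x → Fn (b d) (g d) (e d) x ≤ C * sq x
  /-- combination of the first two children -/
  base : ∀ x x', Simp x → Simp x' →
    Tavg (Fn (b 2) (g 2) (e 2)) (chan lam x') (chan lam x) ≤
      lam^2 * Fn (b d) (g d) (e d) x' + lam^2 * (Fn (b d) (g d) (e d) x - eta * sq x ^ 2)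
  /-- adding one more child -/
  step : ∀ k, 2 ≤ k → k < d → ∀ z x, Simp z → Simp x →
    Tavg (Fn (b (k+1)) (g (k+1)) (e (k+1))) z (chan lam x) ≤
      Fn (b k) (g k) (e k) z + lam^2 * (Fn (b d) (g d) (e d) x - eta * sq x ^ 2)

end Vale.Agent.P154
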