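import Vale.Agent.P154.LeafReal

/-!
Cells, the certificate checker and its soundness.
-/

set_option linter.unusedVariables false

namespace Vale.Agent.P154

/-- admissible points -/
structure Pt (c : Cfg) (A B t s D : ℝ) : Prop where
  hA : 0 ≤ A
  hB : 0 ≤ B
  ht : t ^ 2 ≤ 4 * A ^ 3
  hs : s ^ 2 ≤ 4 * B ^ 3
  tl : c.m1A * A - c.m0A ≤ 2 ^ 20 * t
  sl : c.m1B * B - c.m0B ≤ 2 ^ 20 * s
  el : (2 * (D - 1 + 3 * A * B) - t * s) ^ 2 = (4 * A ^ 3 - t ^ 2) * (4 * B ^ 3 - s ^ 2)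
  dm : c.dm ≤ 2 ^ 20 * D

/-- points in a cell -/
structure InC (c : Cfg) (x : Cell) (A B t s : ℝ) : Prop where
  a0 : x.A0 ≤ 4096 * c.dA * A
  a1 : 4096 * c.dA * A ≤ x.A1
  c0 : x.C0 ≤ 4096 * c.dB * B
  c1 : 4096 * c.dB * B ≤ x.C1
  p0 : x.P0 * (A * √A) ≤ 32 * t
  p1 : 32 * t ≤ x.P1 * (A * √A)
  q0 : x.Q0 * (B * √B) ≤ 32 * s
  q1 : 32 * s ≤ x.Q1 * (B * √B)

/-- the inequality on a cell -/
def CellOK (c : Cfg) (x : Cell) : Prop :=
  ∀ A B t s D, Pt c A B t s D → InC c x A B t s → 0 ≤ psiR c.p A B t s D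

theorem kronOK_sound {p : Par} {q : Inp} {K : ℕ} (hK : 0 < K) (h : kronOK p q K = true)
    (x0 x1 x2 x3 x4 : ℝ) (h0 : 0 ≤ x0) (h1 : 0 ≤ x1) (h2 : 0 ≤ x2) (h3 : 0 ≤ x3) (h4 : 0 ≤ x4) :
    0 ≤ full (· + ·) (· - ·) (· * ·) (fun n : ℤ => (n : ℝ)) p q x0 x1 x2 x3 x4 := by
  unfold kronOK at h
  split at h
  · rename_i V hV
    rw [Bool.and_eq_true] at h
    obtain ⟨hm, hb⟩ := h
    refine kron_sound p q K hK V ?_ (Nat.eq_of_beq_eq_true hm) ?_ x0 x1 x2 x3 x4 h0 h1 h2 h3 h4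
    · have e : ∀ n : ℕ, (2:ℤ) ^ n = Int.ofNat (Nat.pow 2 n) := by
        intro n
        show (2:ℤ)^n = ((2 ^ n : ℕ) : ℤ)
        push_cast; rfl
      rw [e, e, e, e, e]
      exact hV
    · exact Nat.le_of_ble_eq_true hb
  · exact absurd h (by decide)

theorem exists_cv {lo hi x : ℝ} (h0 : lo ≤ x) (h1 : x ≤ hi) :
    ∃ n : ℝ, 0 ≤ n ∧ n ≤ 1 ∧ cv n lo hi = x := by
  rcases eq_or_lt_of_le (h0.trans h1) with h | h
  · refine ⟨0, le_rfl, zero_le_one, ?_⟩
    unfold cv; linarith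
  · have hp : 0 < hi - lo := by linarith
    refine ⟨(x - lo) / (hi - lo), div_nonneg (by linarith) hp.le, ?_, ?_⟩
    · rw [div_le_one hp]; linarith
    · unfold cv; field_simp; ring

theorem cv_mono {l a b a' b' : ℝ} (h0 : 0 ≤ l) (h1 : l ≤ 1) (ha : a ≤ a') (hb : b ≤ b') :
    cv l a b ≤ cv l a' b' := by
  unfold cv
  have := mul_le_mul_of_nonneg_left ha (by linarith : 0 ≤ 1 - l)
  have := mul_le_mul_of_nonneg_left hb h0
  linarith

theorem cv_nonneg {l a b : ℝ} (h0 : 0 ≤ l) (h1 : l ≤ 1) (ha : 0 ≤ a) (hb : 0 ≤ b) : 0 ≤ cv l a b := by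
  have := cv_mono h0 h1 ha hb
  unfold cv at *; simpa using this

theorem u_sq {A : ℝ} (hA : 0 ≤ A) : (A * √A) ^ 2 = A ^ 3 := by
  rw [mul_pow, Real.sq_sqrt hA]; ring

theorem u_nonneg {A : ℝ} (hA : 0 ≤ A) : 0 ≤ A * √A := mul_nonneg hA (Real.sqrt_nonneg _)

/-- tangent bound -/
theorem u_tangent {A : ℝ} (hA : 0 ≤ A) {q : ℝ} (hq : 0 ≤ q) : (3 * q * A - q ^ 3) / 2 ≤ A * √A := by
  have hs := Real.sqrt_nonneg A
  have h2 := Real.mul_self_sqrt hA
  set a := √A with ha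
  have : 0 ≤ (a - q) ^ 2 * (a + q / 2) := by positivity
  nlinarith

/-- chord bound -/
theorem u_chord {x0 x1 l : ℝ} (h0 : 0 ≤ l) (h1 : l ≤ 1) (hx0 : 0 ≤ x0) (hx1 : 0 ≤ x1) {U0 U1 : ℝ}
    (hU0 : 0 ≤ U0) (hU1 : 0 ≤ U1) (k0 : x0 ^ 3 ≤ U0 ^ 2) (k1 : x1 ^ 3 ≤ U1 ^ 2) :
    cv l x0 x1 * √(cv l x0 x1) ≤ cv l U0 U1 := by
  have hc := convexOn_rpow (p := 3 / 2) (by norm_num)
  have e : ∀ x : ℝ, 0 ≤ x → x ^ (3 / 2 : ℝ) = x * √x := by
    intro x hx
    rw [Real.sqrt_eq_rpow]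
    rcases eq_or_lt_of_le hx with h | h
    · rw [← h]; rw [Real.zero_rpow (by norm_num)]; simp
    · rw [show (3 / 2 : ℝ) = 1 + 1 / 2 by norm_num, Real.rpow_add h, Real.rpow_one]
  have hcx : 0 ≤ cv l x0 x1 := cv_nonneg h0 h1 hx0 hx1
  have h2 := hc.2 (Set.mem_Ici.mpr hx0) (Set.mem_Ici.mpr hx1) (by linarith : 0 ≤ 1 - l) h0 (by ring)
  simp only [smul_eq_mul] at h2
  rw [e _ hx0, e _ hx1] at h2
  have h3 : (1 - l) * x0 + l * x1 = cv l x0 x1 := rfl
  rw [h3, e _ hcx] at h2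
  have k0' : x0 * √x0 ≤ U0 := by
    apply le_of_sq_le_sq _ hU0
    rw [u_sq hx0]; exact k0
  have k1' : x1 * √x1 ≤ U1 := by
    apply le_of_sq_le_sq _ hU1
    rw [u_sq hx1]; exact k1
  exact h2.trans (cv_mono h0 h1 k0' k1')

theorem kap_bounds {a b t s k : ℝ} (ha : 0 ≤ a) (hb : 0 ≤ b) (ht : t ^ 2 ≤ a ^ 2) (hs : s ^ 2 ≤ b ^ 2)
    (el : (2 * k - t * s) ^ 2 = (a ^ 2 - t ^ 2) * (b ^ 2 - s ^ 2)) : 2 * k ≤ a * b ∧ -(a * b) ≤ 2 * k := by
  have hts : |t * s| ≤ a * b := by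
    rw [abs_mul]
    exact mul_le_mul (abs_le_of_sq_le_sq ht ha) (abs_le_of_sq_le_sq hs hb) (abs_nonneg _) ha
  rw [abs_le] at hts
  constructor
  · have h1 : 2 * k - t * s ≤ a * b - t * s := by
      apply le_of_sq_le_sq _ (by linarith [hts.2])
      nlinarith [sq_nonneg (a * s - b * t)]
    linarith
  · have h1 : -(2 * k - t * s) ≤ a * b + t * s := by
      apply le_of_sq_le_sq _ (by linarith [hts.1])
      nlinarith [sq_nonneg (a * s + b * t)]
    linarith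

/-- normalised form: the product bound for the cosine of the sum -/
theorem cos_low {x y k c c' kk : ℝ} (hx : x ^ 2 ≤ 1) (hy : y ^ 2 ≤ 1) (hc : -1 ≤ c) (hc' : -1 ≤ c')
    (hcc : 0 ≤ c + c') (el : (k - x * y) ^ 2 = (1 - x ^ 2) * (1 - y ^ 2)) (h1 : c ≤ x) (h2 : c' ≤ y)
    (hk : kk ≤ c * c') (hk2 : (1 - c ^ 2) * (1 - c' ^ 2) ≤ (c * c' - kk) ^ 2) : kk ≤ k := by
  have x1 := (sq_le_one_iff_abs_le_one x).mp hx
  have y1 := (sq_le_one_iff_abs_le_one y).mp hy
  rw [abs_le] at x1 y1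
  have c1 : c ≤ 1 := h1.trans x1.2
  have c1' : c' ≤ 1 := h2.trans y1.2
  have e1 : Real.arccos x ≤ Real.arccos c := Real.arccos_le_arccos h1
  have e2 : Real.arccos y ≤ Real.arccos c' := Real.arccos_le_arccos h2
  have e3 : Real.arccos c + Real.arccos c' ≤ Real.pi := by
    have : Real.arccos c' ≤ Real.arccos (-c) := Real.arccos_le_arccos (by linarith)
    rw [Real.arccos_neg] at this
    linarith
  have e4 : Real.cos (Real.arccos c + Real.arccos c') ≤ Real.cos (Real.arccos x + Real.arccos y) :=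
    Real.cos_le_cos_of_nonneg_of_le_pi (add_nonneg (Real.arccos_nonneg _) (Real.arccos_nonneg _)) e3
      (add_le_add e1 e2)
  rw [Real.cos_add, Real.cos_add, Real.cos_arccos hc c1, Real.cos_arccos hc' c1', Real.cos_arccos x1.1 x1.2,
    Real.cos_arccos y1.1 y1.2, Real.sin_arccos, Real.sin_arccos, Real.sin_arccos, Real.sin_arccos] at e4
  have e5 : √(1 - c ^ 2) * √(1 - c' ^ 2) ≤ c * c' - kk := by
    rw [← Real.sqrt_mul' _ (by nlinarith : 0 ≤ 1 - c' ^ 2)]
    exact Real.sqrt_le_iff.mpr ⟨by linarith, hk2⟩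
  have e6 : -(k - x * y) ≤ √(1 - x ^ 2) * √(1 - y ^ 2) := by
    rw [← Real.sqrt_mul' _ (by linarith : 0 ≤ 1 - y ^ 2), ← el]
    exact (neg_le_abs _).trans (Real.abs_le_sqrt le_rfl)
  linarith

/-- normalised form: the bound for the cosine of the difference -/
theorem cos_high {x y k c c' kk : ℝ} (hx : x ^ 2 ≤ 1) (hy : y ^ 2 ≤ 1) (hc : -1 ≤ c) (hc1' : c' ≤ 1)
    (hcc : c' ≤ c) (el : (k - x * y) ^ 2 = (1 - x ^ 2) * (1 - y ^ 2)) (h1 : c ≤ x) (h2 : y ≤ c')
    (hk : c * c' ≤ kk) (hk2 : (1 - c ^ 2) * (1 - c' ^ 2) ≤ (kk - c * c') ^ 2) : k ≤ kk := by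
  have x1 := (sq_le_one_iff_abs_le_one x).mp hx
  have y1 := (sq_le_one_iff_abs_le_one y).mp hy
  rw [abs_le] at x1 y1
  have c1 : c ≤ 1 := h1.trans x1.2
  have hc' : -1 ≤ c' := y1.1.trans h2
  have e1 : Real.arccos x ≤ Real.arccos c := Real.arccos_le_arccos h1
  have e2 : Real.arccos c' ≤ Real.arccos y := Real.arccos_le_arccos h2
  have e3 : Real.arccos c ≤ Real.arccos c' := Real.arccos_le_arccos hcc
  have e4 : Real.cos (Real.arccos y - Real.arccos x) ≤ Real.cos (Real.arccos c' - Real.arccos c) :=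
    Real.cos_le_cos_of_nonneg_of_le_pi (by linarith) (by linarith [Real.arccos_le_pi y, Real.arccos_nonneg x])
      (by linarith)
  rw [Real.cos_sub, Real.cos_sub, Real.cos_arccos hc c1, Real.cos_arccos hc' hc1', Real.cos_arccos x1.1 x1.2,
    Real.cos_arccos y1.1 y1.2, Real.sin_arccos, Real.sin_arccos, Real.sin_arccos, Real.sin_arccos] at e4
  have e5 : √(1 - c ^ 2) * √(1 - c' ^ 2) ≤ kk - c * c' := by
    rw [← Real.sqrt_mul' _ (by nlinarith : 0 ≤ 1 - c' ^ 2)]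
    exact Real.sqrt_le_iff.mpr ⟨by linarith, hk2⟩
  have e6 : (k - x * y) ≤ √(1 - x ^ 2) * √(1 - y ^ 2) := by
    rw [← Real.sqrt_mul' _ (by linarith : 0 ≤ 1 - y ^ 2), ← el]
    exact (le_abs_self _).trans (Real.abs_le_sqrt le_rfl)
  nlinarith

theorem kap_norm {a b t s k : ℝ} (ha : 0 < a) (hb : 0 < b)
    (el : (2 * k - t * s) ^ 2 = (a ^ 2 - t ^ 2) * (b ^ 2 - s ^ 2)) :
    (2 * k / (a * b) - t / a * (s / b)) ^ 2 = (1 - (t / a) ^ 2) * (1 - (s / b) ^ 2) := by
  have h1 : 2 * k / (a * b) - t / a * (s / b) = (2 * k - t * s) / (a * b) := by field_simp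
  have h2 : (1 - (t / a) ^ 2) * (1 - (s / b) ^ 2) = ((a ^ 2 - t ^ 2) * (b ^ 2 - s ^ 2)) / (a * b) ^ 2 := by
    field_simp
  rw [h1, h2, div_pow, el]

theorem kap_zero {a b t s k : ℝ} (ht : t ^ 2 ≤ a ^ 2) (hs : s ^ 2 ≤ b ^ 2)
    (el : (2 * k - t * s) ^ 2 = (a ^ 2 - t ^ 2) * (b ^ 2 - s ^ 2)) (h : a = 0 ∨ b = 0) : k = 0 := by
  rcases h with h | h
  · rw [h] at ht el
    have t0 : t = 0 := by nlinarith [sq_nonneg t]
    rw [t0] at el
    have : (2 * k) ^ 2 = 0 := by nlinarith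
    nlinarith
  · rw [h] at hs el
    have t0 : s = 0 := by nlinarith [sq_nonneg s]
    rw [t0] at el
    have : (2 * k) ^ 2 = 0 := by nlinarith
    nlinarith

theorem kap_low {a b t s k c c' kk : ℝ} (ha : 0 ≤ a) (hb : 0 ≤ b) (hc : -1 ≤ c) (hc' : -1 ≤ c')
    (hcc : 0 ≤ c + c') (ht : t ^ 2 ≤ a ^ 2) (hs : s ^ 2 ≤ b ^ 2)
    (el : (2 * k - t * s) ^ 2 = (a ^ 2 - t ^ 2) * (b ^ 2 - s ^ 2)) (h1 : c * a ≤ t) (h2 : c' * b ≤ s)
    (hk : kk ≤ c * c') (hk2 : (1 - c ^ 2) * (1 - c' ^ 2) ≤ (c * c' - kk) ^ 2) : kk * (a * b) ≤ 2 * k := by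
  rcases eq_or_lt_of_le ha with ha' | ha'
  · rw [kap_zero ht hs el (Or.inl ha'.symm), ← ha']; simp
  rcases eq_or_lt_of_le hb with hb' | hb'
  · rw [kap_zero ht hs el (Or.inr hb'.symm), ← hb']; simp
  have hx : (t / a) ^ 2 ≤ 1 := by rw [div_pow, div_le_one (by positivity)]; exact ht
  have hy : (s / b) ^ 2 ≤ 1 := by rw [div_pow, div_le_one (by positivity)]; exact hs
  have := cos_low hx hy hc hc' hcc (kap_norm ha' hb' el) (by rw [le_div_iff₀ ha']; exact h1)
    (by rw [le_div_iff₀ hb']; exact h2) hk hk2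
  rwa [le_div_iff₀ (by positivity)] at this

theorem kap_high {a b t s k c c' kk : ℝ} (ha : 0 ≤ a) (hb : 0 ≤ b) (hc : -1 ≤ c) (hc' : c' ≤ 1)
    (hcc : c' ≤ c) (ht : t ^ 2 ≤ a ^ 2) (hs : s ^ 2 ≤ b ^ 2)
    (el : (2 * k - t * s) ^ 2 = (a ^ 2 - t ^ 2) * (b ^ 2 - s ^ 2)) (h1 : c * a ≤ t) (h2 : s ≤ c' * b)
    (hk : c * c' ≤ kk) (hk2 : (1 - c ^ 2) * (1 - c' ^ 2) ≤ (kk - c * c') ^ 2) : 2 * k ≤ kk * (a * b) := by
  rcases eq_or_lt_of_le ha with ha' | ha'
  · rw [kap_zero ht hs el (Or.inl ha'.symm), ← ha']; simp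
  rcases eq_or_lt_of_le hb with hb' | hb'
  · rw [kap_zero ht hs el (Or.inr hb'.symm), ← hb']; simp
  have hx : (t / a) ^ 2 ≤ 1 := by rw [div_pow, div_le_one (by positivity)]; exact ht
  have hy : (s / b) ^ 2 ≤ 1 := by rw [div_pow, div_le_one (by positivity)]; exact hs
  have := cos_high hx hy hc hc' hcc (kap_norm ha' hb' el) (by rw [le_div_iff₀ ha']; exact h1)
    (by rw [div_le_iff₀ hb']; exact h2) hk hk2
  rwa [div_le_iff₀ (by positivity)] at this

/-- the facts extracted from `axOK` -/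
theorem axOK_sound {dA m1 m0 A0 A1 P0 P1 sa st a0 a1 t00 t01 t10 t11 u0 u1 q : ℤ} {f : Bool} {A t : ℝ}
    (hdA : 0 < dA) (h : axOK dA m1 m0 A0 A1 P0 P1 sa st a0 a1 t00 t01 t10 t11 u0 u1 q f = true)
    (hA : 0 ≤ A) (tl : m1 * A - m0 ≤ 2 ^ 20 * t) (hA0 : A0 ≤ 4096 * dA * A) (hA1 : 4096 * dA * A ≤ A1)
    (hp0 : P0 * (A * √A) ≤ 32 * t) (hp1 : 32 * t ≤ P1 * (A * √A)) :
    (0 < sa ∧ 0 < st) ∧ ∃ l n : ℝ, 0 ≤ l ∧ l ≤ 1 ∧ 0 ≤ n ∧ n ≤ 1 ∧ cv l a0 a1 / sa = A ∧
      cv n (cv l t00 t01) (cv l t10 t11) / (sa * st) = t ∧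
      2 ^ 30 * (A * √A) ≤ cv l u0 u1 ∧
      cv l (3 * q * a0 * 1048576 - q * q * q * sa) (3 * q * a1 * 1048576 - q * q * q * sa) ≤
        2 ^ 31 * sa * (A * √A) := by
  unfold axOK at h
  simp only [Bool.and_eq_true, decide_eq_true_eq] at h
  obtain ⟨⟨⟨⟨⟨⟨⟨⟨⟨⟨⟨⟨h1, h2⟩, h3⟩, h4⟩, h5⟩, h6⟩, h7⟩, h8⟩, h9⟩, h10⟩, h11⟩, h12⟩, h13⟩ := h
  have r1 : (0:ℝ) < sa := by exact_mod_cast h1
  have r2 : (0:ℝ) < st := by exact_mod_cast h2
  have r3 : (0:ℝ) ≤ a0 := by exact_mod_cast h3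
  have r4 : (0:ℝ) ≤ a1 := by exact_mod_cast h4
  have r5 : (0:ℝ) ≤ u0 := by exact_mod_cast h5
  have r6 : (0:ℝ) ≤ u1 := by exact_mod_cast h6
  have r7 : (0:ℝ) ≤ q := by exact_mod_cast h7
  have rdA : (0:ℝ) < dA := by exact_mod_cast hdA
  have r8 : (a0:ℝ) * (4096 * dA) ≤ A0 * sa := by exact_mod_cast h8
  have r9 : (A1:ℝ) * sa ≤ a1 * (4096 * dA) := by exact_mod_cast h9
  have r10 : (a0:ℝ) * a0 * a0 * 1152921504606846976 ≤ u0 * u0 * (sa * sa * sa) := by exact_mod_cast h10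
  have r11 : (a1:ℝ) * a1 * a1 * 1152921504606846976 ≤ u1 * u1 * (sa * sa * sa) := by exact_mod_cast h11
  refine ⟨⟨h1, h2⟩, ?_⟩
  -- position in the cell
  have x0 : (a0:ℝ) ≤ A * sa := by
    have : (a0:ℝ) * (4096 * dA) ≤ (A * sa) * (4096 * dA) := by nlinarith
    exact le_of_mul_le_mul_right this (by positivity)
  have x1 : A * sa ≤ (a1:ℝ) := by
    have : (A * sa) * (4096 * dA) ≤ (a1:ℝ) * (4096 * dA) := by nlinarith
    exact le_of_mul_le_mul_right this (by positivity)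
  obtain ⟨l, l0, l1, el⟩ := exists_cv x0 x1
  have eA : cv l a0 a1 / sa = A := by rw [el]; field_simp
  -- chord
  have ch : 2 ^ 30 * (A * √A) ≤ cv l u0 u1 := by
    have c1 := u_chord (x0 := a0 / sa) (x1 := a1 / sa) l0 l1 (by positivity) (by positivity)
      (U0 := u0 / 2 ^ 30) (U1 := u1 / 2 ^ 30) (by positivity) (by positivity)
      (by rw [div_pow, div_pow, div_le_div_iff₀ (by positivity) (by positivity)]; nlinarith)
      (by rw [div_pow, div_pow, div_le_div_iff₀ (by positivity) (by positivity)]; nlinarith)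
    have c2 : cv l (a0 / sa) (a1 / sa) = A := by
      rw [← eA]; unfold cv; field_simp
    have c3 : cv l (u0 / 2 ^ 30) (u1 / 2 ^ 30) = cv l u0 u1 / 2 ^ 30 := by
      unfold cv; ring
    rw [c2, c3, le_div_iff₀ (by positivity)] at c1
    linarith
  -- tangent
  have tg : cv l (3 * q * a0 * 1048576 - q * q * q * sa) (3 * q * a1 * 1048576 - q * q * q * sa) ≤
        2 ^ 31 * sa * (A * √A) := by
    have c1 := u_tangent hA (q := q / 1024) (by positivity)
    have c2 : cv l (3 * q * a0 * 1048576 - q * q * q * sa) (3 * q * a1 * 1048576 - q * q * q * sa) =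
        3 * q * 1048576 * (cv l a0 a1) - q * q * q * sa := by unfold cv; ring
    rw [c2, el]
    have c3 : (3 * q * 1048576 * (A * sa) - q * q * q * sa : ℝ) =
        2 ^ 31 * sa * ((3 * (q / 1024) * A - (q / 1024) ^ 3) / 2) := by ring
    rw [c3]
    exact mul_le_mul_of_nonneg_left c1 (by positivity)
  have u0' : 0 ≤ A * √A := u_nonneg hA
  -- lower bound
  have lo : cv l t00 t01 ≤ t * (sa * st) := by
    rcases hf : f with _ | _
    · rw [hf] at h12
      simp only [cond_false] at h12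
      rcases hP : decide (P0 ≤ 0) with _ | _
      · rw [hP] at h12
        simp only [cond_false, Bool.and_eq_true, decide_eq_true_eq] at h12
        have hP' : 0 < P0 := by
          by_contra hn
          rw [decide_eq_false_iff_not] at hP
          omega
        have rP : (0:ℝ) < P0 := by exact_mod_cast hP'
        have k0 : (t00:ℝ) * 68719476736 ≤ P0 * (3 * q * a0 * 1048576 - q * q * q * sa) * st := by
          exact_mod_cast h12.1
        have k1 : (t01:ℝ) * 68719476736 ≤ P0 * (3 * q * a1 * 1048576 - q * q * q * sa) * st := by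
          exact_mod_cast h12.2
        have k2 := cv_mono l0 l1 k0 k1
        have k3 : cv l ((t00:ℝ) * 68719476736) (t01 * 68719476736) = cv l t00 t01 * 68719476736 := by
          unfold cv; ring
        have k4 : cv l (P0 * (3 * q * a0 * 1048576 - q * q * q * sa) * st)
            (P0 * (3 * q * a1 * 1048576 - q * q * q * sa) * st) = P0 * st *
            cv l (3 * q * a0 * 1048576 - q * q * q * sa) (3 * q * a1 * 1048576 - q * q * q * sa) := by
          unfold cv; ring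
        rw [k3, k4] at k2
        have k5 : P0 * st * cv l (3 * q * a0 * 1048576 - q * q * q * sa) (3 * q * a1 * 1048576 - q * q * q * sa) ≤
            P0 * st * (2 ^ 31 * sa * (A * √A)) := mul_le_mul_of_nonneg_left tg (by positivity)
        have k6 : (2 ^ 31 * sa * st : ℝ) * (P0 * (A * √A)) ≤ (2 ^ 31 * sa * st) * (32 * t) :=
          mul_le_mul_of_nonneg_left hp0 (by positivity)
        have k7 : cv l t00 t01 * 68719476736 ≤ (t * (sa * st)) * 68719476736 := by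
          calc cv l t00 t01 * 68719476736 ≤ P0 * st * (2 ^ 31 * sa * (A * √A)) := k2.trans k5
            _ = (2 ^ 31 * sa * st : ℝ) * (P0 * (A * √A)) := by ring
            _ ≤ (2 ^ 31 * sa * st) * (32 * t) := k6
            _ = (t * (sa * st)) * 68719476736 := by ring
        exact le_of_mul_le_mul_right k7 (by norm_num)
      · rw [hP] at h12
        simp only [cond_true, Bool.and_eq_true, decide_eq_true_eq] at h12
        rw [decide_eq_true_eq] at hP
        have rP : (P0:ℝ) ≤ 0 := by exact_mod_cast hP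
        have k0 : (t00:ℝ) * 34359738368 ≤ P0 * u0 * sa * st := by exact_mod_cast h12.1
        have k1 : (t01:ℝ) * 34359738368 ≤ P0 * u1 * sa * st := by exact_mod_cast h12.2
        have k2 := cv_mono l0 l1 k0 k1
        have k3 : cv l ((t00:ℝ) * 34359738368) (t01 * 34359738368) = cv l t00 t01 * 34359738368 := by
          unfold cv; ring
        have k4 : cv l ((P0:ℝ) * u0 * sa * st) (P0 * u1 * sa * st) = P0 * (sa * st) * cv l u0 u1 := by
          unfold cv; ring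
        rw [k3, k4] at k2
        have k5 : P0 * (sa * st) * cv l u0 u1 ≤ P0 * (sa * st) * (2 ^ 30 * (A * √A)) := by
          have : (P0 * (sa * st) : ℝ) ≤ 0 := mul_nonpos_of_nonpos_of_nonneg rP (by positivity)
          exact mul_le_mul_of_nonpos_left ch this
        have k6 : (2 ^ 30 * sa * st : ℝ) * (P0 * (A * √A)) ≤ (2 ^ 30 * sa * st) * (32 * t) :=
          mul_le_mul_of_nonneg_left hp0 (by positivity)
        have k7 : cv l t00 t01 * 34359738368 ≤ (t * (sa * st)) * 34359738368 := by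
          calc cv l t00 t01 * 34359738368 ≤ P0 * (sa * st) * (2 ^ 30 * (A * √A)) := k2.trans k5
            _ = (2 ^ 30 * sa * st : ℝ) * (P0 * (A * √A)) := by ring
            _ ≤ (2 ^ 30 * sa * st) * (32 * t) := k6
            _ = (t * (sa * st)) * 34359738368 := by ring
        exact le_of_mul_le_mul_right k7 (by norm_num)
    · rw [hf] at h12
      simp only [cond_true, Bool.and_eq_true, decide_eq_true_eq] at h12
      have k0 : (t00:ℝ) * 1048576 ≤ st * (m1 * a0 - m0 * sa) := by exact_mod_cast h12.1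
      have k1 : (t01:ℝ) * 1048576 ≤ st * (m1 * a1 - m0 * sa) := by exact_mod_cast h12.2
      have k2 := cv_mono l0 l1 k0 k1
      have k3 : cv l ((t00:ℝ) * 1048576) (t01 * 1048576) = cv l t00 t01 * 1048576 := by
        unfold cv; ring
      have k4 : cv l ((st:ℝ) * (m1 * a0 - m0 * sa)) (st * (m1 * a1 - m0 * sa)) =
          st * (m1 * cv l a0 a1 - m0 * sa) := by unfold cv; ring
      rw [k3, k4, el] at k2
      have k6 : (sa * st : ℝ) * (m1 * A - m0) ≤ (sa * st) * (2 ^ 20 * t) :=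
        mul_le_mul_of_nonneg_left tl (by positivity)
      have k7 : cv l t00 t01 * 1048576 ≤ (t * (sa * st)) * 1048576 := by
        calc cv l t00 t01 * 1048576 ≤ st * (m1 * (A * sa) - m0 * sa) := k2
          _ = (sa * st : ℝ) * (m1 * A - m0) := by ring
          _ ≤ (sa * st) * (2 ^ 20 * t) := k6
          _ = (t * (sa * st)) * 1048576 := by ring
      exact le_of_mul_le_mul_right k7 (by norm_num)
  -- upper bound
  have hi : t * (sa * st) ≤ cv l t10 t11 := by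
    rcases hP : decide (0 ≤ P1) with _ | _
    · rw [hP] at h13
      simp only [cond_false, Bool.and_eq_true, decide_eq_true_eq] at h13
      have hP' : P1 < 0 := by
        rw [decide_eq_false_iff_not] at hP
        omega
      have rP : (P1:ℝ) < 0 := by exact_mod_cast hP'
      have k0 : (P1 * (3 * q * a0 * 1048576 - q * q * q * sa) * st : ℝ) ≤ t10 * 68719476736 := by
        exact_mod_cast h13.1
      have k1 : (P1 * (3 * q * a1 * 1048576 - q * q * q * sa) * st : ℝ) ≤ t11 * 68719476736 := by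
        exact_mod_cast h13.2
      have k2 := cv_mono l0 l1 k0 k1
      have k3 : cv l ((t10:ℝ) * 68719476736) (t11 * 68719476736) = cv l t10 t11 * 68719476736 := by
        unfold cv; ring
      have k4 : cv l (P1 * (3 * q * a0 * 1048576 - q * q * q * sa) * st)
          (P1 * (3 * q * a1 * 1048576 - q * q * q * sa) * st) = P1 * st *
          cv l (3 * q * a0 * 1048576 - q * q * q * sa) (3 * q * a1 * 1048576 - q * q * q * sa) := by
        unfold cv; ring
      rw [k3, k4] at k2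
      have k5 : P1 * st * (2 ^ 31 * sa * (A * √A)) ≤
          P1 * st * cv l (3 * q * a0 * 1048576 - q * q * q * sa) (3 * q * a1 * 1048576 - q * q * q * sa) := by
        have : (P1 * st : ℝ) ≤ 0 := mul_nonpos_of_nonpos_of_nonneg rP.le r2.le
        exact mul_le_mul_of_nonpos_left tg this
      have k6 : (2 ^ 31 * sa * st : ℝ) * (32 * t) ≤ (2 ^ 31 * sa * st) * (P1 * (A * √A)) :=
        mul_le_mul_of_nonneg_left hp1 (by positivity)
      have k7 : (t * (sa * st)) * 68719476736 ≤ cv l t10 t11 * 68719476736 := by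
        calc (t * (sa * st)) * 68719476736 = (2 ^ 31 * sa * st : ℝ) * (32 * t) := by ring
          _ ≤ (2 ^ 31 * sa * st) * (P1 * (A * √A)) := k6
          _ = P1 * st * (2 ^ 31 * sa * (A * √A)) := by ring
          _ ≤ cv l t10 t11 * 68719476736 := k5.trans k2
      exact le_of_mul_le_mul_right k7 (by norm_num)
    · rw [hP] at h13
      simp only [cond_true, Bool.and_eq_true, decide_eq_true_eq] at h13
      rw [decide_eq_true_eq] at hP
      have rP : (0:ℝ) ≤ P1 := by exact_mod_cast hP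
      have k0 : (P1 * u0 * sa * st : ℝ) ≤ t10 * 34359738368 := by exact_mod_cast h13.1
      have k1 : (P1 * u1 * sa * st : ℝ) ≤ t11 * 34359738368 := by exact_mod_cast h13.2
      have k2 := cv_mono l0 l1 k0 k1
      have k3 : cv l ((t10:ℝ) * 34359738368) (t11 * 34359738368) = cv l t10 t11 * 34359738368 := by
        unfold cv; ring
      have k4 : cv l ((P1:ℝ) * u0 * sa * st) (P1 * u1 * sa * st) = P1 * (sa * st) * cv l u0 u1 := by
        unfold cv; ring
      rw [k3, k4] at k2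
      have k5 : P1 * (sa * st) * (2 ^ 30 * (A * √A)) ≤ P1 * (sa * st) * cv l u0 u1 :=
        mul_le_mul_of_nonneg_left ch (by positivity)
      have k6 : (2 ^ 30 * sa * st : ℝ) * (32 * t) ≤ (2 ^ 30 * sa * st) * (P1 * (A * √A)) :=
        mul_le_mul_of_nonneg_left hp1 (by positivity)
      have k7 : (t * (sa * st)) * 34359738368 ≤ cv l t10 t11 * 34359738368 := by
        calc (t * (sa * st)) * 34359738368 = (2 ^ 30 * sa * st : ℝ) * (32 * t) := by ring
          _ ≤ (2 ^ 30 * sa * st) * (P1 * (A * √A)) := k6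
          _ = P1 * (sa * st) * (2 ^ 30 * (A * √A)) := by ring
          _ ≤ cv l t10 t11 * 34359738368 := k5.trans k2
      exact le_of_mul_le_mul_right k7 (by norm_num)
  obtain ⟨n, n0, n1, en⟩ := exists_cv lo hi
  refine ⟨l, n, l0, l1, n0, n1, eA, ?_, ch, tg⟩
  rw [en]; field_simp

end Vale.Agent.P154
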