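import Vale.Agent.P154.Asm
import Vale.Agent.P154.Alg
import Vale.Agent.P154.Cell

/-!
From the certified polynomial inequality on the root cell to the combination inequalities.
-/

namespace Vale.Agent.P154

lemma mean_chan {l : ℝ} {x : Fin 3 → ℝ} (hx : mean x = 1) : mean (chan l x) = 1 := by
  unfold mean at hx ⊢
  unfold chan
  linear_combination l * hx

lemma chan_one (x : Fin 3 → ℝ) : chan 1 x = x := by
  unfold chan; funext i; ring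

/-- the overlap of two messages sent through channels -/
lemma overlap_chan (l l' : ℝ) {x x' : Fin 3 → ℝ} (hx : mean x = 1) (hx' : mean x' = 1)
    (g : Fin 3) : mean (fun j => chan l x' j * rot g (chan l' x) j) =
      1 + l * l' * (mean (fun j => x' j * rot g x j) - 1) := by
  have h1 : x 0 = 3 - x 1 - x 2 := by unfold mean at hx; linarith
  have h2 : x' 0 = 3 - x' 1 - x' 2 := by unfold mean at hx'; linarith
  unfold mean chan rot
  fin_cases g <;> simp [h1, h2] <;> ring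

lemma overlap_nonneg {x x' : Fin 3 → ℝ} (hx : Simp x) (hx' : Simp x') (g : Fin 3) :
    0 ≤ mean (fun j => x' j * rot g x j) := by
  unfold mean
  have h : ∀ j, 0 ≤ x' j * rot g x j := fun j => mul_nonneg (hx'.1 j) (hx.1 (j + g))
  have h0 := h 0
  have h1 := h 1
  have h2 := h 2
  positivity

lemma overlap_ge {l l' : ℝ} (h0 : 0 ≤ l) (h0' : 0 ≤ l') {x x' : Fin 3 → ℝ} (hx : Simp x)
    (hx' : Simp x') (g : Fin 3) :
    1 - l * l' ≤ mean (fun j => chan l x' j * rot g (chan l' x) j) := by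
  rw [overlap_chan l l' hx.2 hx'.2]
  have := mul_nonneg (mul_nonneg h0 h0') (overlap_nonneg hx hx' g)
  linarith

lemma overlap_sum {x x' : Fin 3 → ℝ} (hx : mean x = 1) (hx' : mean x' = 1) :
    mean (fun j => x' j * rot 0 x j) + mean (fun j => x' j * rot 1 x j) +
      mean (fun j => x' j * rot 2 x j) = 3 := by
  have h1 : x 0 = 3 - x 1 - x 2 := by unfold mean at hx; linarith
  have h2 : x' 0 = 3 - x' 1 - x' 2 := by unfold mean at hx'; linarith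
  unfold mean rot
  simp [h1, h2]
  ring

lemma prod_overlap_ge {m w0 w1 w2 : ℝ} (hm : m ≤ 1) (h0 : 1 - m ≤ w0) (h1 : 1 - m ≤ w1)
    (h2 : 1 - m ≤ w2) (hs : w0 + w1 + w2 = 3) : (1 - m) ^ 2 * (1 + 2 * m) ≤ w0 * w1 * w2 := by
  obtain ⟨u0, hu0⟩ : ∃ u, u = w0 - (1 - m) := ⟨_, rfl⟩
  obtain ⟨u1, hu1⟩ : ∃ u, u = w1 - (1 - m) := ⟨_, rfl⟩
  obtain ⟨u2, hu2⟩ : ∃ u, u = w2 - (1 - m) := ⟨_, rfl⟩
  have e0 : w0 = 1 - m + u0 := by rw [hu0]; ring
  have e1 : w1 = 1 - m + u1 := by rw [hu1]; ring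
  have e2 : w2 = 1 - m + u2 := by rw [hu2]; ring
  have p0 : 0 ≤ u0 := by rw [hu0]; linarith
  have p1 : 0 ≤ u1 := by rw [hu1]; linarith
  have p2 : 0 ≤ u2 := by rw [hu2]; linarith
  have pm : 0 ≤ 1 - m := by linarith
  have hs' : u0 + u1 + u2 = 3 * m := by rw [hu0, hu1, hu2]; linarith
  have key : w0 * w1 * w2 - (1 - m) ^ 2 * (1 + 2 * m) =
      (1 - m) * (u0 * u1 + u0 * u2 + u1 * u2) + u0 * u1 * u2 := by
    rw [e0, e1, e2]
    linear_combination (1 - m) ^ 2 * hs'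
  have : 0 ≤ (1 - m) * (u0 * u1 + u0 * u2 + u1 * u2) + u0 * u1 * u2 := by positivity
  linarith

/-- nonnegativity of the entries gives a lower bound for the cubic invariant -/
lemma cu_ge {l : ℝ} {x : Fin 3 → ℝ} (hl : 0 ≤ l) (hx : Simp x) :
    3 * l * (sq (chan l x) / 2) - l ^ 3 ≤ cu (chan l x) := by
  rw [sq_chan, cu_chan]
  have h : 0 ≤ x 0 * x 1 * x 2 := mul_nonneg (mul_nonneg (hx.1 0) (hx.1 1)) (hx.1 2)
  have hm := hx.2
  have h2 : x 2 = 3 - x 0 - x 1 := by unfold mean at hm; linarith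
  have e : x 0 * x 1 * x 2 = 1 - 3 * (sq x / 2) + cu x := by
    unfold sq cu; rw [h2]; ring
  rw [e] at h
  have := mul_nonneg (pow_nonneg hl 3) h
  nlinarith [this]

/-- the relation between the invariants of two messages and the product of the overlaps -/
lemma ellipse {z y : Fin 3 → ℝ} (hz : mean z = 1) (hy : mean y = 1) :
    (2 * (mean (fun j => z j * rot 0 y j) * mean (fun j => z j * rot 1 y j) *
        mean (fun j => z j * rot 2 y j) - 1 + 3 * (sq z / 2) * (sq y / 2)) - cu z * cu y) ^ 2 =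
      (4 * (sq z / 2) ^ 3 - cu z ^ 2) * (4 * (sq y / 2) ^ 3 - cu y ^ 2) := by
  have hr00 : rot 0 y 0 = y 0 := rfl
  have hr01 : rot 0 y 1 = y 1 := rfl
  have hr02 : rot 0 y 2 = y 2 := rfl
  have hr10 : rot 1 y 0 = y 1 := rfl
  have hr11 : rot 1 y 1 = y 2 := rfl
  have hr12 : rot 1 y 2 = y 0 := rfl
  have hr20 : rot 2 y 0 = y 2 := rfl
  have hr21 : rot 2 y 1 = y 0 := rfl
  have hr22 : rot 2 y 2 = y 1 := rfl
  obtain ⟨a0, ha0⟩ : ∃ a, z 0 = 1 + a := ⟨z 0 - 1, by ring⟩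
  obtain ⟨a1, ha1⟩ : ∃ a, z 1 = 1 + a := ⟨z 1 - 1, by ring⟩
  obtain ⟨b0, hb0⟩ : ∃ a, y 0 = 1 + a := ⟨y 0 - 1, by ring⟩
  obtain ⟨b1, hb1⟩ : ∃ a, y 1 = 1 + a := ⟨y 1 - 1, by ring⟩
  have ha2 : z 2 = 1 + (-a0 - a1) := by unfold mean at hz; linarith
  have hb2 : y 2 = 1 + (-b0 - b1) := by unfold mean at hy; linarith
  unfold mean sq cu
  simp only [hr00, hr01, hr02, hr10, hr11, hr12, hr20, hr21, hr22, ha0, ha1, ha2, hb0, hb1, hb2]
  ring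

/-- the root cell -/
def rootCell (a1 c1 : ℤ) : Cell :=
  { A0 := 0, A1 := a1, C0 := 0, C1 := c1, P0 := -64, P1 := 64, Q0 := -64, Q1 := 64 }

lemma abs_cu_half {x : Fin 3 → ℝ} (hx : mean x = 1) :
    -64 * (sq x / 2 * √(sq x / 2)) ≤ 32 * cu x ∧ 32 * cu x ≤ 64 * (sq x / 2 * √(sq x / 2)) := by
  have h1 := cu_sq_le hx
  have h2 : 0 ≤ sq x / 2 := div_nonneg (sq_nonneg'' x) two_pos.le
  have h3 : (sq x / 2 * √(sq x / 2)) ^ 2 = (sq x / 2) ^ 3 := u_sq h2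
  have h4 : 0 ≤ sq x / 2 * √(sq x / 2) := u_nonneg h2
  have h5 : cu x ^ 2 ≤ (2 * (sq x / 2 * √(sq x / 2))) ^ 2 := by
    rw [mul_pow, h3]; nlinarith [h1]
  have h6 := abs_le_of_sq_le_sq' h5 (by positivity)
  constructor <;> linarith [h6.1, h6.2]

/-- positivity of the polynomial at the point given by two messages -/
theorem psiR_nonneg_of {c : Cfg} {l l' : ℝ} (h0 : 0 ≤ l) (h1 : l ≤ 1) (h0' : 0 ≤ l') (h1' : l' ≤ 1)
    {a1 c1 : ℤ} (hroot : CellOK c (rootCell a1 c1)) (hdA : 0 < c.dA) (hdB : 0 < c.dB)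
    (ha1 : 4096 * c.dA * l ^ 2 ≤ a1) (hc1 : 4096 * c.dB * l' ^ 2 ≤ c1)
    (hmA : ∀ A : ℝ, 0 ≤ A → A ≤ l ^ 2 → c.m1A * A - c.m0A ≤ 2 ^ 20 * (3 * l * A - l ^ 3))
    (hmB : ∀ B : ℝ, 0 ≤ B → B ≤ l' ^ 2 → c.m1B * B - c.m0B ≤ 2 ^ 20 * (3 * l' * B - l' ^ 3))
    (hdm : c.dm ≤ 2 ^ 20 * ((1 - l * l') ^ 2 * (1 + 2 * (l * l'))))
    {x' x : Fin 3 → ℝ} (hx' : Simp x') (hx : Simp x) :
    0 ≤ psiR c.p (sq (chan l x') / 2) (sq (chan l' x) / 2) (cu (chan l x')) (cu (chan l' x))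
      (mean (fun j => chan l x' j * rot 0 (chan l' x) j) *
        mean (fun j => chan l x' j * rot 1 (chan l' x) j) *
        mean (fun j => chan l x' j * rot 2 (chan l' x) j)) := by
  have sz := chan_simp h0 h1 hx'
  have sy := chan_simp h0' h1' hx
  have hll : l * l' ≤ 1 := by nlinarith
  have az : 0 ≤ sq (chan l x') / 2 := div_nonneg (sq_nonneg'' _) two_pos.le
  have ay : 0 ≤ sq (chan l' x) / 2 := div_nonneg (sq_nonneg'' _) two_pos.le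
  have bz : sq (chan l x') / 2 ≤ l ^ 2 := by
    rw [sq_chan]
    have := mul_le_mul_of_nonneg_left (sq_le_two hx') (sq_nonneg l)
    linarith
  have bY : sq (chan l' x) / 2 ≤ l' ^ 2 := by
    rw [sq_chan]
    have := mul_le_mul_of_nonneg_left (sq_le_two hx) (sq_nonneg l')
    linarith
  have hdA' : (0:ℝ) < c.dA := by exact_mod_cast hdA
  have hdB' : (0:ℝ) < c.dB := by exact_mod_cast hdB
  apply hroot
  · refine ⟨az, ay, ?_, ?_, ?_, ?_, ellipse sz.2 sy.2, ?_⟩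
    · have := cu_sq_le sz.2
      nlinarith [this]
    · have := cu_sq_le sy.2
      nlinarith [this]
    · refine (hmA _ az bz).trans ?_
      have := cu_ge h0 hx'
      linarith
    · refine (hmB _ ay bY).trans ?_
      have := cu_ge h0' hx
      linarith
    · refine hdm.trans ?_
      have := prod_overlap_ge hll (overlap_ge h0 h0' hx hx' 0) (overlap_ge h0 h0' hx hx' 1)
        (overlap_ge h0 h0' hx hx' 2) (overlap_sum sy.2 sz.2)
      linarith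
  · have cz := abs_cu_half sz.2
    have cy := abs_cu_half sy.2
    refine ⟨?_, ?_, ?_, ?_, ?_, ?_, ?_, ?_⟩
    · change ((0:ℤ):ℝ) ≤ _
      push_cast; positivity
    · exact (mul_le_mul_of_nonneg_left bz (by positivity)).trans ha1
    · change ((0:ℤ):ℝ) ≤ _
      push_cast; positivity
    · exact (mul_le_mul_of_nonneg_left bY (by positivity)).trans hc1
    · change ((-64:ℤ):ℝ) * _ ≤ _
      push_cast; exact cz.1
    · change _ ≤ ((64:ℤ):ℝ) * _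
      push_cast; exact cz.2
    · change ((-64:ℤ):ℝ) * _ ≤ _
      push_cast; exact cy.1
    · change _ ≤ ((64:ℤ):ℝ) * _
      push_cast; exact cy.2

/-- the inequality in terms of the messages -/
theorem ineq_of {c : Cfg} {l l' : ℝ} (h0 : 0 ≤ l) (h1 : l ≤ 1) (h0' : 0 ≤ l') (h1' : l' < 1)
    {a1 c1 : ℤ} (hroot : CellOK c (rootCell a1 c1)) (hdA : 0 < c.dA) (hdB : 0 < c.dB)
    (ha1 : 4096 * c.dA * l ^ 2 ≤ a1) (hc1 : 4096 * c.dB * l' ^ 2 ≤ c1)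
    (hmA : ∀ A : ℝ, 0 ≤ A → A ≤ l ^ 2 → c.m1A * A - c.m0A ≤ 2 ^ 20 * (3 * l * A - l ^ 3))
    (hmB : ∀ B : ℝ, 0 ≤ B → B ≤ l' ^ 2 → c.m1B * B - c.m0B ≤ 2 ^ 20 * (3 * l' * B - l' ^ 3))
    (hdm : c.dm ≤ 2 ^ 20 * ((1 - l * l') ^ 2 * (1 + 2 * (l * l'))))
    {b1 g1 e1 : ℝ} (hs0 : 0 < c.p.s0) (hb1 : c.p.s0 * b1 = c.p.b1) (hg1 : c.p.s0 * g1 = c.p.g1)
    (he1 : c.p.s0 * e1 = c.p.e1)
    {x' x : Fin 3 → ℝ} (hx' : Simp x') (hx : Simp x) :
    c.p.s0 * Tavg (Fn b1 g1 e1) (chan l x') (chan l' x) ≤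
      c.p.s0 * sq (chan l x') + c.p.b2 * sq (chan l x') ^ 2
        - c.p.g2 * (sq (chan l x') * cu (chan l x')) + c.p.e2 * cu (chan l x') ^ 2
        + (c.p.y1 / 2 * sq (chan l' x) + c.p.y2 / 4 * sq (chan l' x) ^ 2
          - c.p.y3 / 2 * (sq (chan l' x) * cu (chan l' x)) + c.p.y4 * cu (chan l' x) ^ 2) := by
  have hpsi := psiR_nonneg_of h0 h1 h0' h1'.le hroot hdA hdB ha1 hc1 hmA hmB hdm hx' hx
  have hll : l * l' < 1 := by nlinarith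
  have hwpos : ∀ g, 0 < mean (fun j => chan l x' j * rot g (chan l' x) j) := fun g =>
    lt_of_lt_of_le (by linarith) (overlap_ge h0 h0' hx hx' g)
  have sz := chan_simp h0 h1 hx'
  have sy := chan_simp h0' h1'.le hx
  rw [psiR_eq c.p _ _ sz.2 sy.2 hwpos] at hpsi
  have hD : 0 < (mean (fun j => chan l x' j * rot 0 (chan l' x) j) *
        mean (fun j => chan l x' j * rot 1 (chan l' x) j) *
        mean (fun j => chan l x' j * rot 2 (chan l' x) j)) ^ 5 :=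
    pow_pos (mul_pos (mul_pos (hwpos 0) (hwpos 1)) (hwpos 2)) 5
  have h := nonneg_of_mul_nonneg_right hpsi hD
  have hT : c.p.s0 * Tavg (Fn b1 g1 e1) (chan l x') (chan l' x) =
      (∑ g : Fin 3, mean (fun j => chan l x' j * rot g (chan l' x) j) *
        (c.p.s0 * sq (comb (chan l x') (rot g (chan l' x)))
          + c.p.b1 * sq (comb (chan l x') (rot g (chan l' x))) ^ 2
          - c.p.g1 * (sq (comb (chan l x') (rot g (chan l' x))) *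
            cu (comb (chan l x') (rot g (chan l' x))))
          + c.p.e1 * cu (comb (chan l x') (rot g (chan l' x))) ^ 2)) / 3 := by
    unfold Tavg Fn
    rw [mul_div_assoc', Finset.mul_sum]
    congr 1
    refine Finset.sum_congr rfl (fun g _ => ?_)
    rw [← hb1, ← hg1, ← he1]
    ring
  rw [hT]
  linarith

/-- comparison of the terms of `x` -/
lemma ycmp {p : Par} {lam b g e eta : ℝ} (hlam : 0 ≤ lam) (hy1 : (p.y1 : ℝ) ≤ 2 * p.s0)
    (hy2 : p.y2 / 4 * lam ^ 2 + |p.s0 * g - p.y3 / 2 * lam ^ 3| ≤ p.s0 * (b - eta))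
    (hy4 : p.y4 * lam ^ 4 ≤ p.s0 * e) {x : Fin 3 → ℝ} (hx : Simp x) :
    p.y1 / 2 * sq (chan lam x) + p.y2 / 4 * sq (chan lam x) ^ 2
          - p.y3 / 2 * (sq (chan lam x) * cu (chan lam x)) + p.y4 * cu (chan lam x) ^ 2 ≤
      p.s0 * (lam ^ 2 * (Fn b g e x - eta * sq x ^ 2)) := by
  rw [sq_chan, cu_chan]
  have hs := sq_nonneg'' x
  have hc := abs_cu_le hx
  have hst : |sq x * cu x| ≤ sq x ^ 2 := by
    rw [abs_mul, abs_of_nonneg hs, pow_two]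
    exact mul_le_mul_of_nonneg_left hc hs
  have k1 : (p.s0 * g - p.y3 / 2 * lam ^ 3) * (sq x * cu x) ≤
      |p.s0 * g - p.y3 / 2 * lam ^ 3| * sq x ^ 2 := by
    refine (le_abs_self _).trans ?_
    rw [abs_mul]
    exact mul_le_mul_of_nonneg_left hst (abs_nonneg _)
  have k2 := mul_le_mul_of_nonneg_right hy2 (sq_nonneg (sq x))
  have k3 := mul_le_mul_of_nonneg_right hy4 (sq_nonneg (cu x))
  have k4 := mul_le_mul_of_nonneg_right hy1 hs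
  have k5 : p.y1 / 2 * sq x + p.y2 / 4 * lam ^ 2 * sq x ^ 2
          - p.y3 / 2 * lam ^ 3 * (sq x * cu x) + p.y4 * lam ^ 4 * cu x ^ 2 ≤
      p.s0 * (Fn b g e x - eta * sq x ^ 2) := by
    unfold Fn
    nlinarith [k1, k2, k3, k4]
  have k6 := mul_le_mul_of_nonneg_left k5 (sq_nonneg lam)
  calc _ = lam ^ 2 * (p.y1 / 2 * sq x + p.y2 / 4 * lam ^ 2 * sq x ^ 2
          - p.y3 / 2 * lam ^ 3 * (sq x * cu x) + p.y4 * lam ^ 4 * cu x ^ 2) := by ring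
    _ ≤ _ := k6
    _ = _ := by ring

/-- a step inequality from the certificate -/
theorem stepI_of {c : Cfg} {lam : ℝ} (h0 : 0 ≤ lam) (h1 : lam < 1)
    {a1 c1 : ℤ} (hroot : CellOK c (rootCell a1 c1)) (hdA : 0 < c.dA) (hdB : 0 < c.dB)
    (ha1 : 4096 * c.dA ≤ a1) (hc1 : 4096 * c.dB * lam ^ 2 ≤ c1)
    (hmA : ∀ A : ℝ, 0 ≤ A → A ≤ 1 → c.m1A * A - c.m0A ≤ 2 ^ 20 * (3 * A - 1))
    (hmB : ∀ B : ℝ, 0 ≤ B → B ≤ lam ^ 2 → c.m1B * B - c.m0B ≤ 2 ^ 20 * (3 * lam * B - lam ^ 3))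
    (hdm : c.dm ≤ 2 ^ 20 * ((1 - lam) ^ 2 * (1 + 2 * lam)))
    {b1 g1 e1 b2 g2 e2 b g e eta : ℝ} (hs0 : 0 < c.p.s0)
    (hb1 : c.p.s0 * b1 = c.p.b1) (hg1 : c.p.s0 * g1 = c.p.g1) (he1 : c.p.s0 * e1 = c.p.e1)
    (hb2 : c.p.s0 * b2 = c.p.b2) (hg2 : c.p.s0 * g2 = c.p.g2) (he2 : c.p.s0 * e2 = c.p.e2)
    (hy1 : (c.p.y1 : ℝ) ≤ 2 * c.p.s0)
    (hy2 : c.p.y2 / 4 * lam ^ 2 + |c.p.s0 * g - c.p.y3 / 2 * lam ^ 3| ≤ c.p.s0 * (b - eta))
    (hy4 : c.p.y4 * lam ^ 4 ≤ c.p.s0 * e) :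
    StepI lam b1 g1 e1 b2 g2 e2 b g e eta := by
  intro z x hz hx
  have ha1' : 4096 * (c.dA : ℝ) * 1 ^ 2 ≤ a1 := by
    rw [one_pow, mul_one]; exact_mod_cast ha1
  have h := ineq_of zero_le_one le_rfl h0 h1 hroot hdA hdB ha1' hc1
    (by intro A hA hA'; have := hmA A hA (by simpa using hA'); simpa using this) hmB
    (by simpa using hdm) hs0 hb1 hg1 he1 hz hx
  rw [chan_one] at h
  have hy := ycmp h0 hy1 hy2 hy4 hx
  have hs0' : (0:ℝ) < c.p.s0 := by exact_mod_cast hs0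
  refine le_of_mul_le_mul_left (a := (c.p.s0 : ℝ)) ?_ hs0'
  refine h.trans ?_
  rw [← hb2, ← hg2, ← he2]
  have e : (c.p.s0 : ℝ) * (Fn b2 g2 e2 z + lam ^ 2 * (Fn b g e x - eta * sq x ^ 2)) =
      c.p.s0 * sq z + c.p.s0 * b2 * sq z ^ 2 - c.p.s0 * g2 * (sq z * cu z)
        + c.p.s0 * e2 * cu z ^ 2 + c.p.s0 * (lam ^ 2 * (Fn b g e x - eta * sq x ^ 2)) := by
    unfold Fn; ring
  rw [e]
  linarith

/-- the base inequality from the certificate: here the functional of the first message may be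
any `F2` dominated by `lam^2 * Fn b g e` -/
theorem baseI_of {c : Cfg} {lam : ℝ} (h0 : 0 ≤ lam) (h1 : lam < 1)
    {a1 c1 : ℤ} (hroot : CellOK c (rootCell a1 c1)) (hdA : 0 < c.dA) (hdB : 0 < c.dB)
    (ha1 : 4096 * c.dA * lam ^ 2 ≤ a1) (hc1 : 4096 * c.dB * lam ^ 2 ≤ c1)
    (hmA : ∀ A : ℝ, 0 ≤ A → A ≤ lam ^ 2 → c.m1A * A - c.m0A ≤ 2 ^ 20 * (3 * lam * A - lam ^ 3))
    (hmB : ∀ B : ℝ, 0 ≤ B → B ≤ lam ^ 2 → c.m1B * B - c.m0B ≤ 2 ^ 20 * (3 * lam * B - lam ^ 3))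
    (hdm : c.dm ≤ 2 ^ 20 * ((1 - lam * lam) ^ 2 * (1 + 2 * (lam * lam))))
    {b1 g1 e1 b g e eta : ℝ} (hs0 : 0 < c.p.s0)
    (hb1 : c.p.s0 * b1 = c.p.b1) (hg1 : c.p.s0 * g1 = c.p.g1) (he1 : c.p.s0 * e1 = c.p.e1)
    (hb2 : c.p.b2 * lam ^ 2 + |c.p.s0 * g - c.p.g2 * lam ^ 3| ≤ c.p.s0 * b)
    (he2 : c.p.e2 * lam ^ 4 ≤ c.p.s0 * e)
    (hy1 : (c.p.y1 : ℝ) ≤ 2 * c.p.s0)
    (hy2 : c.p.y2 / 4 * lam ^ 2 + |c.p.s0 * g - c.p.y3 / 2 * lam ^ 3| ≤ c.p.s0 * (b - eta))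
    (hy4 : c.p.y4 * lam ^ 4 ≤ c.p.s0 * e) :
    BaseI lam b1 g1 e1 b g e eta := by
  intro x' x hx' hx
  have h := ineq_of h0 h1.le h0 h1 hroot hdA hdB ha1 hc1 hmA hmB hdm hs0 hb1 hg1 he1 hx' hx
  have hy := ycmp h0 hy1 hy2 hy4 hx
  have hs0' : (0:ℝ) < c.p.s0 := by exact_mod_cast hs0
  refine le_of_mul_le_mul_left (a := (c.p.s0 : ℝ)) ?_ hs0'
  refine h.trans ?_
  have hz : c.p.s0 * sq (chan lam x') + c.p.b2 * sq (chan lam x') ^ 2
        - c.p.g2 * (sq (chan lam x') * cu (chan lam x')) + c.p.e2 * cu (chan lam x') ^ 2 ≤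
      c.p.s0 * (lam ^ 2 * Fn b g e x') := by
    rw [sq_chan, cu_chan]
    have hs := sq_nonneg'' x'
    have hc := abs_cu_le hx'
    have hst : |sq x' * cu x'| ≤ sq x' ^ 2 := by
      rw [abs_mul, abs_of_nonneg hs, pow_two]
      exact mul_le_mul_of_nonneg_left hc hs
    have k1 : (c.p.s0 * g - c.p.g2 * lam ^ 3) * (sq x' * cu x') ≤
        |c.p.s0 * g - c.p.g2 * lam ^ 3| * sq x' ^ 2 := by
      refine (le_abs_self _).trans ?_
      rw [abs_mul]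
      exact mul_le_mul_of_nonneg_left hst (abs_nonneg _)
    have k2 := mul_le_mul_of_nonneg_right hb2 (sq_nonneg (sq x'))
    have k3 := mul_le_mul_of_nonneg_right he2 (sq_nonneg (cu x'))
    have k5 : c.p.s0 * sq x' + c.p.b2 * lam ^ 2 * sq x' ^ 2
            - c.p.g2 * lam ^ 3 * (sq x' * cu x') + c.p.e2 * lam ^ 4 * cu x' ^ 2 ≤
        c.p.s0 * Fn b g e x' := by
      unfold Fn
      nlinarith [k1, k2, k3]
    have k6 := mul_le_mul_of_nonneg_left k5 (sq_nonneg lam)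
    calc _ = lam ^ 2 * (c.p.s0 * sq x' + c.p.b2 * lam ^ 2 * sq x' ^ 2
            - c.p.g2 * lam ^ 3 * (sq x' * cu x') + c.p.e2 * lam ^ 4 * cu x' ^ 2) := by ring
      _ ≤ _ := k6
      _ = _ := by ring
  have e : (c.p.s0 : ℝ) * (lam ^ 2 * Fn b g e x' + lam ^ 2 * (Fn b g e x - eta * sq x ^ 2)) =
      c.p.s0 * (lam ^ 2 * Fn b g e x') + c.p.s0 * (lam ^ 2 * (Fn b g e x - eta * sq x ^ 2)) := by
    ring
  rw [e]
  linarith

end Vale.Agent.P154
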