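import Vale.Agent.P154.Checker
import Vale.Agent.P154.Asm

/-!
From the cell certificates to the inequalities on the simplex.
-/

namespace Vale.Agent.P154

/-- the weight of the `g`-th relative rotation -/
noncomputable def Wt (z y : Fin 3 → ℝ) (g : Fin 3) : ℝ := mean (fun j => z j * rot g y j)

/-- the product of the weights -/
noncomputable def DD (z y : Fin 3 → ℝ) : ℝ := Wt z y 0 * Wt z y 1 * Wt z y 2

/-- the algebraic identity for the program -/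
def PsiEq : Prop := ∀ (p : Par) (z y : Fin 3 → ℝ), mean z = 1 → mean y = 1 → (∀ g, 0 < Wt z y g) →
  psiR p (sq z / 2) (sq y / 2) (cu z) (cu y) (DD z y) = DD z y ^ 5 * (p.s0 * sq z + p.b2 * sq z ^ 2 -
    p.g2 * (sq z * cu z) + p.e2 * cu z ^ 2 + p.y1 / 2 * sq y + p.y2 / 4 * sq y ^ 2 -
    p.y3 / 2 * (sq y * cu y) + p.y4 * cu y ^ 2 -
    (∑ g : Fin 3, Wt z y g * (p.s0 * sq (comb z (rot g y)) + p.b1 * sq (comb z (rot g y)) ^ 2 -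
      p.g1 * (sq (comb z (rot g y)) * cu (comb z (rot g y))) + p.e1 * cu (comb z (rot g y)) ^ 2)) / 3)

lemma wt_sum {z y : Fin 3 → ℝ} (hz : mean z = 1) (hy : mean y = 1) :
    Wt z y 0 + Wt z y 1 + Wt z y 2 = 3 := by
  have h1 : z 2 = 3 - z 0 - z 1 := by unfold mean at hz; linarith
  have h2 : y 2 = 3 - y 0 - y 1 := by unfold mean at hy; linarith
  unfold Wt mean rot
  have e : ∀ i j : Fin 3, y (i + j) = y (i + j) := fun _ _ => rfl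
  show ((z 0 * y (0+0) + z 1 * y (1+0) + z 2 * y (2+0))/3 + (z 0 * y (0+1) + z 1 * y (1+1) + z 2 * y (2+1))/3 +
    (z 0 * y (0+2) + z 1 * y (1+2) + z 2 * y (2+2))/3) = 3
  have e00 : y (0+0) = y 0 := rfl
  have e10 : y (1+0) = y 1 := rfl
  have e20 : y (2+0) = y 2 := rfl
  have e01 : y (0+1) = y 1 := rfl
  have e11 : y (1+1) = y 2 := rfl
  have e21 : y (2+1) = y 0 := rfl
  have e02 : y (0+2) = y 2 := rfl
  have e12 : y (1+2) = y 0 := rfl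
  have e22 : y (2+2) = y 1 := rfl
  rw [e00, e10, e20, e01, e11, e21, e02, e12, e22, h1, h2]
  ring

lemma wt_low {z y : Fin 3 → ℝ} {m : ℝ} (hz : Simp z) (hy : ∀ i, m ≤ y i) (g : Fin 3) :
    m ≤ Wt z y g := by
  have h1 := hz.2
  unfold mean at h1
  unfold Wt mean rot
  have k0 := mul_le_mul_of_nonneg_left (hy (0 + g)) (hz.1 0)
  have k1 := mul_le_mul_of_nonneg_left (hy (1 + g)) (hz.1 1)
  have k2 := mul_le_mul_of_nonneg_left (hy (2 + g)) (hz.1 2)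
  have : m = (z 0 + z 1 + z 2) / 3 * m := by rw [h1, one_mul]
  linarith

lemma prod_low {m a b c : ℝ} (hm : 0 ≤ m) (ha : m ≤ a) (hb : m ≤ b) (hc : m ≤ c) (hs : a + b + c = 3) :
    m ^ 2 * (3 - 2 * m) ≤ a * b * c := by
  obtain ⟨u, rfl⟩ : ∃ u, a = m + u := ⟨a - m, by ring⟩
  obtain ⟨v, rfl⟩ : ∃ v, b = m + v := ⟨b - m, by ring⟩
  have hc' : c = 3 - (m + u) - (m + v) := by linarith
  have hu : 0 ≤ u := by linarith
  have hv : 0 ≤ v := by linarith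
  have hw : 0 ≤ 3 - 3 * m - u - v := by linarith
  have e : (m + u) * (m + v) * c = m ^ 2 * (3 - 2 * m) +
      m * (u * v + u * (3 - 3 * m - u - v) + v * (3 - 3 * m - u - v)) + u * v * (3 - 3 * m - u - v) := by
    rw [hc']; ring
  rw [e]
  have : 0 ≤ m * (u * v + u * (3 - 3 * m - u - v) + v * (3 - 3 * m - u - v)) := by positivity
  have : 0 ≤ u * v * (3 - 3 * m - u - v) := by positivity
  linarith

lemma dd_low {z y : Fin 3 → ℝ} {m : ℝ} (hm : 0 ≤ m) (hz : Simp z) (hy1 : mean y = 1)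
    (hw : ∀ g, m ≤ Wt z y g) : m ^ 2 * (3 - 2 * m) ≤ DD z y :=
  prod_low hm (hw 0) (hw 1) (hw 2) (wt_sum hz.2 hy1)

lemma wt_chan (l : ℝ) {z y : Fin 3 → ℝ} (hz : mean z = 1) (hy : mean y = 1) (g : Fin 3) :
    Wt (chan l z) (chan l y) g = 1 + l ^ 2 * (Wt z y g - 1) := by
  have h1 : z 2 = 3 - z 0 - z 1 := by unfold mean at hz; linarith
  have h2 : y 2 = 3 - y 0 - y 1 := by unfold mean at hy; linarith
  fin_cases g
  · show mean (fun j => chan l z j * rot 0 (chan l y) j) = 1 + l ^ 2 * (mean (fun j => z j * rot 0 y j) - 1)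
    unfold mean rot chan
    show ((l * z 0 + (1 - l)) * (l * y 0 + (1 - l)) + (l * z 1 + (1 - l)) * (l * y 1 + (1 - l)) +
      (l * z 2 + (1 - l)) * (l * y 2 + (1 - l))) / 3 = 1 + l ^ 2 * ((z 0 * y 0 + z 1 * y 1 + z 2 * y 2) / 3 - 1)
    rw [h1, h2]; ring
  · show mean (fun j => chan l z j * rot 1 (chan l y) j) = 1 + l ^ 2 * (mean (fun j => z j * rot 1 y j) - 1)
    unfold mean rot chan
    show ((l * z 0 + (1 - l)) * (l * y 1 + (1 - l)) + (l * z 1 + (1 - l)) * (l * y 2 + (1 - l)) +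
      (l * z 2 + (1 - l)) * (l * y 0 + (1 - l))) / 3 = 1 + l ^ 2 * ((z 0 * y 1 + z 1 * y 2 + z 2 * y 0) / 3 - 1)
    rw [h1, h2]; ring
  · show mean (fun j => chan l z j * rot 2 (chan l y) j) = 1 + l ^ 2 * (mean (fun j => z j * rot 2 y j) - 1)
    unfold mean rot chan
    show ((l * z 0 + (1 - l)) * (l * y 2 + (1 - l)) + (l * z 1 + (1 - l)) * (l * y 0 + (1 - l)) +
      (l * z 2 + (1 - l)) * (l * y 1 + (1 - l))) / 3 = 1 + l ^ 2 * ((z 0 * y 2 + z 1 * y 0 + z 2 * y 1) / 3 - 1)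
    rw [h1, h2]; ring

/-- the Gram determinant identity -/
lemma gram {z y : Fin 3 → ℝ} (hz : mean z = 1) (hy : mean y = 1) :
    (2 * (DD z y - 1 + 3 * (sq z / 2) * (sq y / 2)) - cu z * cu y) ^ 2 =
      (4 * (sq z / 2) ^ 3 - cu z ^ 2) * (4 * (sq y / 2) ^ 3 - cu y ^ 2) := by
  have h1 : z 2 = 3 - z 0 - z 1 := by unfold mean at hz; linarith
  have h2 : y 2 = 3 - y 0 - y 1 := by unfold mean at hy; linarith
  have w0 : Wt z y 0 = (z 0 * y 0 + z 1 * y 1 + z 2 * y 2) / 3 := rfl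
  have w1 : Wt z y 1 = (z 0 * y 1 + z 1 * y 2 + z 2 * y 0) / 3 := rfl
  have w2 : Wt z y 2 = (z 0 * y 2 + z 1 * y 0 + z 2 * y 1) / 3 := rfl
  unfold DD
  rw [w0, w1, w2]
  unfold sq cu
  rw [h1, h2]
  obtain ⟨a, ha⟩ : ∃ a, z 0 = 1 + a := ⟨z 0 - 1, by ring⟩
  obtain ⟨b, hb⟩ : ∃ b, z 1 = 1 + b := ⟨z 1 - 1, by ring⟩
  obtain ⟨c, hc⟩ : ∃ c, y 0 = 1 + c := ⟨y 0 - 1, by ring⟩
  obtain ⟨d, hd⟩ : ∃ d, y 1 = 1 + d := ⟨y 1 - 1, by ring⟩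
  rw [ha, hb, hc, hd]
  have e1 : 4 * (((1 + a - 1) ^ 2 + (1 + b - 1) ^ 2 + (3 - (1 + a) - (1 + b) - 1) ^ 2) / 3 / 2) ^ 3 -
      ((1 + a - 1) * (1 + b - 1) * (3 - (1 + a) - (1 + b) - 1)) ^ 2 =
      ((a - b) * (2 * a + b) * (a + 2 * b)) ^ 2 / 27 := by ring
  have e2 : 4 * (((1 + c - 1) ^ 2 + (1 + d - 1) ^ 2 + (3 - (1 + c) - (1 + d) - 1) ^ 2) / 3 / 2) ^ 3 -
      ((1 + c - 1) * (1 + d - 1) * (3 - (1 + c) - (1 + d) - 1)) ^ 2 =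
      ((c - d) * (2 * c + d) * (c + 2 * d)) ^ 2 / 27 := by ring
  rw [e1, e2]
  have e3 : 2 * (((1 + a) * (1 + c) + (1 + b) * (1 + d) + (3 - (1 + a) - (1 + b)) * (3 - (1 + c) - (1 + d))) / 3 *
      (((1 + a) * (1 + d) + (1 + b) * (3 - (1 + c) - (1 + d)) + (3 - (1 + a) - (1 + b)) * (1 + c)) / 3) *
      (((1 + a) * (3 - (1 + c) - (1 + d)) + (1 + b) * (1 + c) + (3 - (1 + a) - (1 + b)) * (1 + d)) / 3) - 1 +
      3 * (((1 + a - 1) ^ 2 + (1 + b - 1) ^ 2 + (3 - (1 + a) - (1 + b) - 1) ^ 2) / 3 / 2) *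
      (((1 + c - 1) ^ 2 + (1 + d - 1) ^ 2 + (3 - (1 + c) - (1 + d) - 1) ^ 2) / 3 / 2)) -
      (1 + a - 1) * (1 + b - 1) * (3 - (1 + a) - (1 + b) - 1) *
      ((1 + c - 1) * (1 + d - 1) * (3 - (1 + c) - (1 + d) - 1)) =
      ((a - b) * (2 * a + b) * (a + 2 * b)) * ((c - d) * (2 * c + d) * (c + 2 * d)) / 27 := by ring
  rw [e3]; ring

lemma sq_le_two' {x : Fin 3 → ℝ} (hx : Simp x) : sq x ≤ 2 := sq_le_two hx

lemma cu_low {x : Fin 3 → ℝ} (hx : Simp x) : 3 * (sq x / 2) - 1 ≤ cu x := by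
  have h : x 2 = 3 - x 0 - x 1 := by have := hx.2; unfold mean at this; linarith
  have h0 := mul_nonneg (mul_nonneg (hx.1 0) (hx.1 1)) (hx.1 2)
  unfold sq cu
  rw [h] at h0 ⊢
  nlinarith

lemma abs_t_le {x : Fin 3 → ℝ} (hx : mean x = 1) : |cu x| ≤ 2 * ((sq x / 2) * √(sq x / 2)) := by
  have h0 : 0 ≤ sq x / 2 := by have := sq_nonneg'' x; linarith
  have h1 := cu_sq_le hx
  apply abs_le_of_sq_le_sq _ (by have := u_nonneg h0; linarith)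
  rw [mul_pow, u_sq h0]
  nlinarith


/-- integer conditions on the constants: the part for the second argument -/
structure BOK (d : ℕ) (c : Cfg) (b g e eta : ℤ) : Prop where
  d2 : 2 ≤ d
  s0 : 0 < c.p.s0
  dB : c.dB = d
  m1 : 0 ≤ c.m1B ∧ c.m1B ^ 2 * d ≤ 9 * 2 ^ 40
  m0 : 0 ≤ c.m0B ∧ 2 ^ 40 ≤ c.m0B ^ 2 * d ^ 3
  y1 : c.p.y1 = 2 * c.p.s0
  y2 : c.p.y2 + 1 ≤ 4 * d * (b - eta)
  g0 : 0 ≤ g
  y3 : 0 < c.p.y3 ∧ (2 * c.p.y3 - 1) ^ 2 ≤ 16 * g ^ 2 * d ^ 3 ∧ 16 * g ^ 2 * d ^ 3 ≤ (2 * c.p.y3 + 1) ^ 2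
  y4 : c.p.y4 = e * d ^ 2

/-- integer conditions, general first argument -/
structure AOK0 (d : ℕ) (c : Cfg) : Prop where
  dA : c.dA = 1
  m1 : c.m1A = 3 * 2 ^ 20
  m0 : c.m0A = 2 ^ 20
  dm : 0 ≤ c.dm * d - 2 ^ 20 * ((d:ℤ) - 3) ∧ (c.dm * d - 2 ^ 20 * ((d:ℤ) - 3)) ^ 2 * d ≤ 2 ^ 42

/-- integer conditions, first argument in the contracted simplex -/
structure AOK1 (d : ℕ) (c : Cfg) (b g e : ℤ) : Prop where
  dA : c.dA = d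
  m1 : c.m1A = c.m1B
  m0 : c.m0A = c.m0B
  dm : c.dm * d ^ 3 ≤ 2 ^ 20 * ((d:ℤ) - 1) ^ 2 * (d + 2)
  b2 : c.p.b2 + 1 ≤ b * d
  g2 : 0 < c.p.g2 ∧ (2 * c.p.g2 - 1) ^ 2 ≤ 4 * g ^ 2 * d ^ 3 ∧ 4 * g ^ 2 * d ^ 3 ≤ (2 * c.p.g2 + 1) ^ 2
  e2 : c.p.e2 = e * d ^ 2

lemma sqrt_bounds {d : ℕ} {x y : ℤ} (hd : 2 ≤ d) (hy : 0 < y) (h1 : (2 * y - 1) ^ 2 ≤ 4 * x ^ 2 * d ^ 3)
    (h2 : 4 * x ^ 2 * d ^ 3 ≤ (2 * y + 1) ^ 2) (hx : 0 ≤ x) :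
    |(y:ℝ) - x * (d * √d)| ≤ 1 / 2 := by
  have hs := Real.sqrt_nonneg (d:ℝ)
  have hss := Real.mul_self_sqrt (Nat.cast_nonneg (α := ℝ) d)
  have rd : (0:ℝ) ≤ d := Nat.cast_nonneg _
  have rx : (0:ℝ) ≤ x := by exact_mod_cast hx
  have ry : (1:ℝ) ≤ y := by exact_mod_cast hy
  have r1 : (2 * (y:ℝ) - 1) ^ 2 ≤ 4 * x ^ 2 * d ^ 3 := by exact_mod_cast h1
  have r2 : 4 * (x:ℝ) ^ 2 * d ^ 3 ≤ (2 * y + 1) ^ 2 := by exact_mod_cast h2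
  have e : (2 * (x:ℝ) * (d * √d)) ^ 2 = 4 * x ^ 2 * d ^ 3 := by
    have : (2 * (x:ℝ) * (d * √d)) ^ 2 = 4 * x ^ 2 * d ^ 2 * (√d * √d) := by ring
    rw [this, hss]; ring
  have k1 : 2 * (y:ℝ) - 1 ≤ 2 * x * (d * √d) := by
    apply le_of_sq_le_sq _ (by positivity)
    rw [e]; exact r1
  have k2 : 2 * (x:ℝ) * (d * √d) ≤ 2 * y + 1 := by
    apply le_of_sq_le_sq _ (by linarith)
    rw [e]; exact r2
  rw [abs_le]; constructor <;> linarith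

/-- facts on `lam = 1/√d` -/
lemma lam_facts {d : ℕ} (hd : 2 ≤ d) : 0 < 1 / √(d:ℝ) ∧ 1 / √(d:ℝ) < 1 ∧ (1 / √(d:ℝ)) ^ 2 = 1 / d ∧
    (1 / √(d:ℝ)) * (d * √d) = d := by
  have hd' : (2:ℝ) ≤ d := by exact_mod_cast hd
  have hs : 0 < √(d:ℝ) := Real.sqrt_pos.mpr (by linarith)
  have hss := Real.mul_self_sqrt (Nat.cast_nonneg (α := ℝ) d)
  have h1 : 1 < √(d:ℝ) := by
    rw [Real.lt_sqrt (by norm_num)]; linarith
  refine ⟨by positivity, ?_, ?_, ?_⟩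
  · rw [div_lt_one hs]; exact h1
  · rw [div_pow, one_pow, Real.sq_sqrt (by linarith)]
  · field_simp

lemma cu_sq_le' {x : Fin 3 → ℝ} (hx : mean x = 1) : cu x ^ 2 ≤ 4 * (sq x / 2) ^ 3 := by
  have h := cu_sq_le hx
  have e : 4 * (sq x / 2) ^ 3 = sq x ^ 3 / 2 := by ring
  rw [e]; linarith

lemma half_nonneg (z : Fin 3 → ℝ) : 0 ≤ sq z / 2 := by have := sq_nonneg'' z; linarith

/-- contraction by `1/√d` -/
lemma chan_facts {d : ℕ} (hd : 2 ≤ d) {x : Fin 3 → ℝ} (hx : Simp x) :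
    sq (chan (1 / √(d:ℝ)) x) = sq x / d ∧ cu x = (d * √d) * cu (chan (1 / √(d:ℝ)) x) ∧
    Simp (chan (1 / √(d:ℝ)) x) ∧ (d:ℝ) * (sq (chan (1 / √(d:ℝ)) x) / 2) ≤ 1 := by
  obtain ⟨l0, l1, l2, l3⟩ := lam_facts hd
  have hd' : (2:ℝ) ≤ d := by exact_mod_cast hd
  have e1 : sq (chan (1 / √(d:ℝ)) x) = sq x / d := by rw [sq_chan, l2]; ring
  refine ⟨e1, ?_, chan_simp l0.le l1.le hx, ?_⟩
  · rw [cu_chan]
    have : (d * √(d:ℝ)) * ((1 / √(d:ℝ)) ^ 3 * cu x) = (d * (1 / √(d:ℝ)) ^ 2) * ((1 / √(d:ℝ)) * √(d:ℝ)) * cu x := by ring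
    rw [this, l2]
    have hs : √(d:ℝ) ≠ 0 := (Real.sqrt_pos.mpr (by linarith)).ne'
    field_simp
  · rw [e1]
    have := sq_le_two hx
    have hdp : (0:ℝ) < d := by linarith
    have e2 : (d:ℝ) * (sq x / d / 2) = sq x / 2 := by field_simp
    rw [e2]; linarith

/-- linear lower bound for the cubic invariant of a contracted message -/
lemma lin_low {d : ℕ} (hd : 2 ≤ d) {m1 m0 : ℤ} (h1 : 0 ≤ m1 ∧ m1 ^ 2 * d ≤ 9 * 2 ^ 40)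
    (h0 : 0 ≤ m0 ∧ 2 ^ 40 ≤ m0 ^ 2 * d ^ 3) {x : Fin 3 → ℝ} (hx : Simp x) :
    m1 * (sq (chan (1 / √(d:ℝ)) x) / 2) - m0 ≤ 2 ^ 20 * cu (chan (1 / √(d:ℝ)) x) := by
  obtain ⟨e1, e2, e3, e4⟩ := chan_facts hd hx
  have hlow := cu_low hx
  have hs := Real.sqrt_nonneg (d:ℝ)
  have hd' : (2:ℝ) ≤ d := by exact_mod_cast hd
  have hs' : 0 < √(d:ℝ) := Real.sqrt_pos.mpr (by linarith)
  have hss := Real.mul_self_sqrt (Nat.cast_nonneg (α := ℝ) d)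
  set y := chan (1 / √(d:ℝ)) x with hy
  have r1 : (0:ℝ) ≤ m1 := by exact_mod_cast h1.1
  have r0 : (0:ℝ) ≤ m0 := by exact_mod_cast h0.1
  have q1 : (m1:ℝ) ^ 2 * d ≤ 9 * 2 ^ 40 := by exact_mod_cast h1.2
  have q0 : (2:ℝ) ^ 40 ≤ m0 ^ 2 * d ^ 3 := by exact_mod_cast h0.2
  have k1 : (m1:ℝ) * √d ≤ 3 * 2 ^ 20 := by
    apply le_of_sq_le_sq _ (by norm_num)
    have t0 : ((m1:ℝ) * √(d:ℝ)) ^ 2 = (m1:ℝ) ^ 2 * (√(d:ℝ) * √(d:ℝ)) := by ring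
    rw [t0, hss]
    linarith
  have k0 : (2:ℝ) ^ 20 ≤ m0 * (d * √d) := by
    apply le_of_sq_le_sq _ (by positivity)
    have t0 : ((m0:ℝ) * (d * √(d:ℝ))) ^ 2 = (m0:ℝ) ^ 2 * (d:ℝ) ^ 2 * (√(d:ℝ) * √(d:ℝ)) := by ring
    rw [t0, hss]
    have t1 : (m0:ℝ) ^ 2 * (d:ℝ) ^ 2 * d = (m0:ℝ) ^ 2 * (d:ℝ) ^ 3 := by ring
    rw [t1]
    linarith
  -- multiply by d √d
  have e5 : sq x = d * sq y := by rw [e1]; field_simp
  have hB : 0 ≤ sq y / 2 := half_nonneg y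
  have k2 : (m1 * (sq y / 2) - m0) * (d * √d) ≤ 2 ^ 20 * cu y * (d * √d) := by
    have t1 : (m1 * √d) * (sq y / 2 * d) ≤ (3 * 2 ^ 20) * (sq y / 2 * d) :=
      mul_le_mul_of_nonneg_right k1 (by positivity)
    have t2 : (2 ^ 20 : ℝ) * cu y * (d * √d) = 2 ^ 20 * cu x := by rw [e2]; ring
    rw [t2]
    rw [e5] at hlow
    nlinarith
  exact le_of_mul_le_mul_right k2 (by positivity)

/-- the second-argument side of the inequality -/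
lemma side_B {d : ℕ} {c : Cfg} {b g e eta : ℤ} (h : BOK d c b g e eta) {x : Fin 3 → ℝ} (hx : Simp x) :
    c.p.y1 / 2 * sq (chan (1 / √(d:ℝ)) x) + c.p.y2 / 4 * sq (chan (1 / √(d:ℝ)) x) ^ 2 -
      c.p.y3 / 2 * (sq (chan (1 / √(d:ℝ)) x) * cu (chan (1 / √(d:ℝ)) x)) +
      c.p.y4 * cu (chan (1 / √(d:ℝ)) x) ^ 2 ≤
    (1 / √(d:ℝ)) ^ 2 * (c.p.s0 * sq x + (b - eta) * sq x ^ 2 - g * (sq x * cu x) + e * cu x ^ 2) := by
  obtain ⟨e1, e2, e3, e4⟩ := chan_facts h.d2 hx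
  obtain ⟨l0, l1, l2, l3⟩ := lam_facts h.d2
  have hd' : (2:ℝ) ≤ d := by exact_mod_cast h.d2
  have hss := Real.mul_self_sqrt (Nat.cast_nonneg (α := ℝ) d)
  set y := chan (1 / √(d:ℝ)) x with hy
  have e5 : sq x = d * sq y := by rw [e1]; field_simp
  have habs := abs_cu_le e3
  have hsy := sq_nonneg'' y
  have y1 : (c.p.y1 : ℝ) = 2 * c.p.s0 := by exact_mod_cast h.y1
  have y2 : (c.p.y2 : ℝ) + 1 ≤ 4 * d * (b - eta) := by exact_mod_cast h.y2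
  have y4 : (c.p.y4 : ℝ) = e * d ^ 2 := by exact_mod_cast h.y4
  have y3 := sqrt_bounds (x := 2 * g) h.d2 h.y3.1 (by have := h.y3.2.1; nlinarith) (by have := h.y3.2.2; nlinarith)
    (by have := h.g0; omega)
  push_cast at y3
  have hR : (1 / √(d:ℝ)) ^ 2 * (c.p.s0 * sq x + (b - eta) * sq x ^ 2 - g * (sq x * cu x) + e * cu x ^ 2) =
      c.p.s0 * sq y + (b - eta) * d * sq y ^ 2 - g * (d * √d) * (sq y * cu y) + e * d ^ 2 * cu y ^ 2 := by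
    rw [l2, e5, e2]
    have : (e:ℝ) * ((d * √d) * cu y) ^ 2 = e * d ^ 2 * (√d * √d) * cu y ^ 2 := by ring
    rw [this, hss]
    field_simp
  rw [hR, y1, y4]
  have t1 : (c.p.y2 / 4 + 1 / 4 : ℝ) * sq y ^ 2 ≤ (b - eta) * d * sq y ^ 2 :=
    mul_le_mul_of_nonneg_right (by linarith) (sq_nonneg _)
  have t2 : |(c.p.y3 / 2 - g * (d * √d) : ℝ) * (sq y * cu y)| ≤ 1 / 4 * (sq y * sq y) := by
    rw [abs_mul, abs_mul, abs_of_nonneg hsy]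
    apply mul_le_mul _ (mul_le_mul_of_nonneg_left habs hsy) (by positivity) (by norm_num)
    have : (c.p.y3 / 2 - g * (d * √d) : ℝ) = ((c.p.y3:ℝ) - 2 * g * (d * √d)) / 2 := by ring
    rw [this, abs_div, abs_of_pos (by norm_num : (0:ℝ) < 2)]
    linarith
  have t3 := (abs_le.mp t2).1
  nlinarith

/-- the first-argument side, contracted case -/
lemma side_A {d : ℕ} (hd : 2 ≤ d) {c : Cfg} {b g e : ℤ} (hg : 0 ≤ g) (h : AOK1 d c b g e)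
    {x : Fin 3 → ℝ} (hx : Simp x) :
    c.p.s0 * sq (chan (1 / √(d:ℝ)) x) + c.p.b2 * sq (chan (1 / √(d:ℝ)) x) ^ 2 -
      c.p.g2 * (sq (chan (1 / √(d:ℝ)) x) * cu (chan (1 / √(d:ℝ)) x)) +
      c.p.e2 * cu (chan (1 / √(d:ℝ)) x) ^ 2 ≤
    (1 / √(d:ℝ)) ^ 2 * (c.p.s0 * sq x + b * sq x ^ 2 - g * (sq x * cu x) + e * cu x ^ 2) := by
  obtain ⟨e1, e2, e3, e4⟩ := chan_facts hd hx
  obtain ⟨l0, l1, l2, l3⟩ := lam_facts hd
  have hd' : (2:ℝ) ≤ d := by exact_mod_cast hd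
  have hss := Real.mul_self_sqrt (Nat.cast_nonneg (α := ℝ) d)
  set y := chan (1 / √(d:ℝ)) x with hy
  have e5 : sq x = d * sq y := by rw [e1]; field_simp
  have habs := abs_cu_le e3
  have hsy := sq_nonneg'' y
  have y2 : (c.p.b2 : ℝ) + 1 ≤ b * d := by exact_mod_cast h.b2
  have y4 : (c.p.e2 : ℝ) = e * d ^ 2 := by exact_mod_cast h.e2
  have y3 := sqrt_bounds (x := g) hd h.g2.1 h.g2.2.1 h.g2.2.2 hg
  have hR : (1 / √(d:ℝ)) ^ 2 * (c.p.s0 * sq x + b * sq x ^ 2 - g * (sq x * cu x) + e * cu x ^ 2) =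
      c.p.s0 * sq y + b * d * sq y ^ 2 - g * (d * √d) * (sq y * cu y) + e * d ^ 2 * cu y ^ 2 := by
    rw [l2, e5, e2]
    have : (e:ℝ) * ((d * √d) * cu y) ^ 2 = e * d ^ 2 * (√d * √d) * cu y ^ 2 := by ring
    rw [this, hss]
    field_simp
  rw [hR, y4]
  have t1 : (c.p.b2 + 1 : ℝ) * sq y ^ 2 ≤ b * d * sq y ^ 2 :=
    mul_le_mul_of_nonneg_right (by linarith) (sq_nonneg _)
  have t2 : |(c.p.g2 - g * (d * √d) : ℝ) * (sq y * cu y)| ≤ 1 / 2 * (sq y * sq y) := by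
    rw [abs_mul, abs_mul, abs_of_nonneg hsy]
    exact mul_le_mul y3 (mul_le_mul_of_nonneg_left habs hsy) (by positivity) (by norm_num)
  have t3 := (abs_le.mp t2).1
  nlinarith

/-- from the cells to the inequality with integer coefficients -/
lemma core_ineq (hpsi : PsiEq) {c : Cfg} (hcell : CellOK c ⟨0, 4096, 0, 4096, -64, 64, -64, 64⟩)
    {z y : Fin 3 → ℝ} (hz : mean z = 1) (hy : mean y = 1) (hW : ∀ g, 0 < Wt z y g)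
    (hpt : Pt c (sq z / 2) (sq y / 2) (cu z) (cu y) (DD z y))
    (hdA : (0:ℝ) ≤ c.dA) (hdB : (0:ℝ) ≤ c.dB)
    (hA1 : (c.dA : ℝ) * (sq z / 2) ≤ 1) (hB1 : (c.dB : ℝ) * (sq y / 2) ≤ 1) :
    (∑ g : Fin 3, Wt z y g * (c.p.s0 * sq (comb z (rot g y)) + c.p.b1 * sq (comb z (rot g y)) ^ 2 -
      c.p.g1 * (sq (comb z (rot g y)) * cu (comb z (rot g y))) + c.p.e1 * cu (comb z (rot g y)) ^ 2)) / 3 ≤
    c.p.s0 * sq z + c.p.b2 * sq z ^ 2 - c.p.g2 * (sq z * cu z) + c.p.e2 * cu z ^ 2 +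
      (c.p.y1 / 2 * sq y + c.p.y2 / 4 * sq y ^ 2 - c.p.y3 / 2 * (sq y * cu y) + c.p.y4 * cu y ^ 2) := by
  have hD : 0 < DD z y := mul_pos (mul_pos (hW 0) (hW 1)) (hW 2)
  have tz := abs_le.mp (abs_t_le hz)
  have ty := abs_le.mp (abs_t_le hy)
  have hin : InC c ⟨0, 4096, 0, 4096, -64, 64, -64, 64⟩ (sq z / 2) (sq y / 2) (cu z) (cu y) := by
    constructor
    · have := mul_nonneg hdA (half_nonneg z); push_cast; nlinarith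
    · push_cast; linarith
    · have := mul_nonneg hdB (half_nonneg y); push_cast; nlinarith
    · push_cast; linarith
    · push_cast; linarith
    · push_cast; linarith
    · push_cast; linarith
    · push_cast; linarith
  have h0 := hcell _ _ _ _ _ hpt hin
  rw [hpsi c.p z y hz hy hW] at h0
  have h1 := nonneg_of_mul_nonneg_right h0 (pow_pos hD 5)
  linarith

lemma tavg_eq {s0 b1 g1 e1 : ℝ} (hs : s0 ≠ 0) (z y : Fin 3 → ℝ) :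
    s0 * Tavg (Fn (b1 / s0) (g1 / s0) (e1 / s0)) z y =
    (∑ g : Fin 3, Wt z y g * (s0 * sq (comb z (rot g y)) + b1 * sq (comb z (rot g y)) ^ 2 -
      g1 * (sq (comb z (rot g y)) * cu (comb z (rot g y))) + e1 * cu (comb z (rot g y)) ^ 2)) / 3 := by
  unfold Tavg
  rw [← mul_div_assoc, Finset.mul_sum]
  congr 1
  apply Finset.sum_congr rfl
  intro g _
  unfold Fn Wt
  field_simp

lemma fn_scale {s0 b g e : ℝ} (hs : s0 ≠ 0) (x : Fin 3 → ℝ) :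
    s0 * Fn (b / s0) (g / s0) (e / s0) x = s0 * sq x + b * sq x ^ 2 - g * (sq x * cu x) + e * cu x ^ 2 := by
  unfold Fn
  field_simp

lemma dm_base {d : ℕ} (hd : 2 ≤ d) {dm : ℤ} {D : ℝ} (h : dm * d ^ 3 ≤ 2 ^ 20 * ((d:ℤ) - 1) ^ 2 * (d + 2))
    (hDl : (1 - 1 / (d:ℝ)) ^ 2 * (3 - 2 * (1 - 1 / (d:ℝ))) ≤ D) : (dm : ℝ) ≤ 2 ^ 20 * D := by
  have hd' : (2:ℝ) ≤ d := by exact_mod_cast hd
  have hp : (0:ℝ) < d ^ 3 := by positivity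
  have r1 : (dm:ℝ) * d ^ 3 ≤ 2 ^ 20 * ((d:ℝ) - 1) ^ 2 * (d + 2) := by exact_mod_cast h
  have k3 : (1 - 1 / (d:ℝ)) ^ 2 * (3 - 2 * (1 - 1 / (d:ℝ))) * d ^ 3 = ((d:ℝ) - 1) ^ 2 * (d + 2) := by
    field_simp; ring
  have k5 := mul_le_mul_of_nonneg_right hDl hp.le
  rw [k3] at k5
  have k4 : (dm:ℝ) * d ^ 3 ≤ (2 ^ 20 * D) * d ^ 3 := by linarith
  exact le_of_mul_le_mul_right k4 hp

lemma dm_step {d : ℕ} (hd : 2 ≤ d) {dm : ℤ} {D : ℝ}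
    (h : 0 ≤ dm * d - 2 ^ 20 * ((d:ℤ) - 3) ∧ (dm * d - 2 ^ 20 * ((d:ℤ) - 3)) ^ 2 * d ≤ 2 ^ 42)
    (hDl : (1 - 1 / √(d:ℝ)) ^ 2 * (3 - 2 * (1 - 1 / √(d:ℝ))) ≤ D) : (dm : ℝ) ≤ 2 ^ 20 * D := by
  obtain ⟨l0, l1, l2, l3⟩ := lam_facts hd
  have hd' : (2:ℝ) ≤ d := by exact_mod_cast hd
  have hss := Real.mul_self_sqrt (Nat.cast_nonneg (α := ℝ) d)
  have hs' : 0 < √(d:ℝ) := Real.sqrt_pos.mpr (by linarith)
  obtain ⟨q1, q2⟩ := h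
  have r1 : (0:ℝ) ≤ dm * d - 2 ^ 20 * (d - 3) := by exact_mod_cast q1
  have r2 : ((dm:ℝ) * d - 2 ^ 20 * (d - 3)) ^ 2 * d ≤ 2 ^ 42 := by exact_mod_cast q2
  have k1 : ((dm:ℝ) * d - 2 ^ 20 * (d - 3)) * √d ≤ 2 ^ 21 := by
    apply le_of_sq_le_sq _ (by norm_num)
    have t0 : (((dm:ℝ) * d - 2 ^ 20 * (d - 3)) * √(d:ℝ)) ^ 2 =
        ((dm:ℝ) * d - 2 ^ 20 * (d - 3)) ^ 2 * (√(d:ℝ) * √(d:ℝ)) := by ring
    rw [t0, hss]
    linarith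
  have k2 : (dm:ℝ) * d - 2 ^ 20 * (d - 3) ≤ 2 ^ 21 * (1 / √d) := by
    rw [mul_one_div, le_div_iff₀ hs']; exact k1
  have k3 : (1 - 1 / √(d:ℝ)) ^ 2 * (3 - 2 * (1 - 1 / √(d:ℝ))) * d = d - 3 + 2 * (1 / √(d:ℝ)) := by
    have : (1 - 1 / √(d:ℝ)) ^ 2 * (3 - 2 * (1 - 1 / √(d:ℝ))) =
      1 - 3 * (1 / √(d:ℝ)) ^ 2 + 2 * (1 / √(d:ℝ)) * (1 / √(d:ℝ)) ^ 2 := by ring
    rw [this, l2]; field_simp
  have k5 := mul_le_mul_of_nonneg_right hDl (by linarith : (0:ℝ) ≤ d)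
  rw [k3] at k5
  have k4 : (dm:ℝ) * d ≤ (2 ^ 20 * D) * d := by linarith
  exact le_of_mul_le_mul_right k4 (by linarith)

theorem step_of (hpsi : PsiEq) {d : ℕ} {c : Cfg} {b g e eta : ℤ} (hB : BOK d c b g e eta)
    (hA : AOK0 d c) (hcell : CellOK c ⟨0, 4096, 0, 4096, -64, 64, -64, 64⟩) :
    StepI (1 / √(d:ℝ)) (c.p.b1 / c.p.s0) (c.p.g1 / c.p.s0) (c.p.e1 / c.p.s0) (c.p.b2 / c.p.s0)
      (c.p.g2 / c.p.s0) (c.p.e2 / c.p.s0) (b / c.p.s0) (g / c.p.s0) (e / c.p.s0) (eta / c.p.s0) := by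
  intro z x hz hx
  obtain ⟨e1, e2, e3, e4⟩ := chan_facts hB.d2 hx
  obtain ⟨l0, l1, l2, l3⟩ := lam_facts hB.d2
  have hd' : (2:ℝ) ≤ d := by exact_mod_cast hB.d2
  have hs0 : (0:ℝ) < c.p.s0 := by exact_mod_cast hB.s0
  have hss := Real.mul_self_sqrt (Nat.cast_nonneg (α := ℝ) d)
  have hs' : 0 < √(d:ℝ) := Real.sqrt_pos.mpr (by linarith)
  have hdB : (c.dB : ℝ) = d := by rw [hB.dB]; push_cast; rfl
  have hdA : (c.dA : ℝ) = 1 := by rw [hA.dA]; norm_num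
  have hsB := side_B hB hx
  have hlin := lin_low hB.d2 hB.m1 hB.m0 hx
  have hyl : ∀ i, 1 - 1 / √(d:ℝ) ≤ chan (1 / √(d:ℝ)) x i := by
    intro i
    unfold chan
    have := mul_nonneg l0.le (hx.1 i)
    linarith
  have hW : ∀ g, 1 - 1 / √(d:ℝ) ≤ Wt z (chan (1 / √(d:ℝ)) x) g := fun g => wt_low hz hyl g
  have hDl := dd_low (by linarith : 0 ≤ 1 - 1 / √(d:ℝ)) hz e3.2 hW
  set y := chan (1 / √(d:ℝ)) x with hy
  have hpt : Pt c (sq z / 2) (sq y / 2) (cu z) (cu y) (DD z y) := by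
    refine ⟨half_nonneg z, half_nonneg y, ?_, ?_, ?_, ?_, gram hz.2 e3.2, ?_⟩
    · exact cu_sq_le' hz.2
    · exact cu_sq_le' e3.2
    · rw [hA.m1, hA.m0]
      have := cu_low hz
      push_cast
      linarith
    · exact hlin
    · exact dm_step hB.d2 hA.dm hDl
  have hcore := core_ineq hpsi hcell hz.2 e3.2 (fun g => lt_of_lt_of_le (by linarith) (hW g)) hpt
    (by rw [hdA]; norm_num) (by rw [hdB]; linarith) (by rw [hdA]; have := sq_le_two hz; linarith)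
    (by rw [hdB]; exact e4)
  rw [← tavg_eq hs0.ne'] at hcore
  have key : c.p.s0 * Tavg (Fn (c.p.b1 / c.p.s0) (c.p.g1 / c.p.s0) (c.p.e1 / c.p.s0)) z y ≤
      c.p.s0 * (Fn (c.p.b2 / c.p.s0) (c.p.g2 / c.p.s0) (c.p.e2 / c.p.s0) z +
        (1 / √(d:ℝ)) ^ 2 * (Fn (b / c.p.s0) (g / c.p.s0) (e / c.p.s0) x - eta / c.p.s0 * sq x ^ 2)) := by
    have h1 := fn_scale (b := (c.p.b2 : ℝ)) (g := c.p.g2) (e := c.p.e2) hs0.ne' z
    have h2 := fn_scale (b := (b : ℝ)) (g := g) (e := e) hs0.ne' x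
    have h3 : c.p.s0 * (Fn (c.p.b2 / c.p.s0) (c.p.g2 / c.p.s0) (c.p.e2 / c.p.s0) z +
        (1 / √(d:ℝ)) ^ 2 * (Fn (b / c.p.s0) (g / c.p.s0) (e / c.p.s0) x - eta / c.p.s0 * sq x ^ 2)) =
        c.p.s0 * Fn (c.p.b2 / c.p.s0) (c.p.g2 / c.p.s0) (c.p.e2 / c.p.s0) z +
        (1 / √(d:ℝ)) ^ 2 * (c.p.s0 * Fn (b / c.p.s0) (g / c.p.s0) (e / c.p.s0) x - eta * sq x ^ 2) := by
      field_simp
    rw [h3, h1, h2]
    refine hcore.trans ?_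
    have h4 : (c.p.s0 * sq x + (b:ℝ) * sq x ^ 2 - g * (sq x * cu x) + e * cu x ^ 2 - eta * sq x ^ 2) =
      c.p.s0 * sq x + (b - eta) * sq x ^ 2 - g * (sq x * cu x) + e * cu x ^ 2 := by ring
    rw [h4]
    linarith
  exact le_of_mul_le_mul_left key hs0

theorem base_of (hpsi : PsiEq) {d : ℕ} {c : Cfg} {b g e eta : ℤ} (hB : BOK d c b g e eta)
    (hA : AOK1 d c b g e) (hcell : CellOK c ⟨0, 4096, 0, 4096, -64, 64, -64, 64⟩) :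
    BaseI (1 / √(d:ℝ)) (c.p.b1 / c.p.s0) (c.p.g1 / c.p.s0) (c.p.e1 / c.p.s0)
      (b / c.p.s0) (g / c.p.s0) (e / c.p.s0) (eta / c.p.s0) := by
  intro x' x hx' hx
  obtain ⟨e1, e2, e3, e4⟩ := chan_facts hB.d2 hx
  obtain ⟨f1, f2, f3, f4⟩ := chan_facts hB.d2 hx'
  obtain ⟨l0, l1, l2, l3⟩ := lam_facts hB.d2
  have hd' : (2:ℝ) ≤ d := by exact_mod_cast hB.d2
  have hs0 : (0:ℝ) < c.p.s0 := by exact_mod_cast hB.s0
  have hss := Real.mul_self_sqrt (Nat.cast_nonneg (α := ℝ) d)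
  have hs' : 0 < √(d:ℝ) := Real.sqrt_pos.mpr (by linarith)
  have hdB : (c.dB : ℝ) = d := by rw [hB.dB]; push_cast; rfl
  have hdA : (c.dA : ℝ) = d := by rw [hA.dA]; push_cast; rfl
  have hsB := side_B hB hx
  have hsA := side_A hB.d2 hB.g0 hA hx'
  have hlin := lin_low hB.d2 hB.m1 hB.m0 hx
  have hlin' := lin_low hB.d2 hB.m1 hB.m0 hx'
  have hW : ∀ g, 1 - 1 / (d:ℝ) ≤ Wt (chan (1 / √(d:ℝ)) x') (chan (1 / √(d:ℝ)) x) g := by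
    intro g
    rw [wt_chan _ hx'.2 hx.2, l2]
    have h0 := wt_low (m := 0) hx' hx.1 g
    have : 0 ≤ 1 / (d:ℝ) * Wt x' x g := mul_nonneg (by positivity) h0
    linarith
  have hlt : 1 / (d:ℝ) ≤ 1 / 2 := by
    apply one_div_le_one_div_of_le (by norm_num) hd'
  have hDl := dd_low (by linarith : 0 ≤ 1 - 1 / (d:ℝ)) f3 e3.2 hW
  set y := chan (1 / √(d:ℝ)) x with hy
  set z := chan (1 / √(d:ℝ)) x' with hz
  have hpt : Pt c (sq z / 2) (sq y / 2) (cu z) (cu y) (DD z y) := by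
    refine ⟨half_nonneg z, half_nonneg y, ?_, ?_, ?_, hlin, gram f3.2 e3.2, ?_⟩
    · exact cu_sq_le' f3.2
    · exact cu_sq_le' e3.2
    · rw [hA.m1, hA.m0]; exact hlin'
    · exact dm_base hB.d2 hA.dm hDl
  have hcore := core_ineq hpsi hcell f3.2 e3.2 (fun g => lt_of_lt_of_le (by linarith) (hW g)) hpt
    (by rw [hdA]; linarith) (by rw [hdB]; linarith) (by rw [hdA]; exact f4)
    (by rw [hdB]; exact e4)
  rw [← tavg_eq hs0.ne'] at hcore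
  have key : c.p.s0 * Tavg (Fn (c.p.b1 / c.p.s0) (c.p.g1 / c.p.s0) (c.p.e1 / c.p.s0)) z y ≤
      c.p.s0 * ((1 / √(d:ℝ)) ^ 2 * Fn (b / c.p.s0) (g / c.p.s0) (e / c.p.s0) x' +
        (1 / √(d:ℝ)) ^ 2 * (Fn (b / c.p.s0) (g / c.p.s0) (e / c.p.s0) x - eta / c.p.s0 * sq x ^ 2)) := by
    have h1 := fn_scale (b := (b : ℝ)) (g := g) (e := e) hs0.ne' x'
    have h2 := fn_scale (b := (b : ℝ)) (g := g) (e := e) hs0.ne' x
    have h3 : c.p.s0 * ((1 / √(d:ℝ)) ^ 2 * Fn (b / c.p.s0) (g / c.p.s0) (e / c.p.s0) x' +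
        (1 / √(d:ℝ)) ^ 2 * (Fn (b / c.p.s0) (g / c.p.s0) (e / c.p.s0) x - eta / c.p.s0 * sq x ^ 2)) =
        (1 / √(d:ℝ)) ^ 2 * (c.p.s0 * Fn (b / c.p.s0) (g / c.p.s0) (e / c.p.s0) x') +
        (1 / √(d:ℝ)) ^ 2 * (c.p.s0 * Fn (b / c.p.s0) (g / c.p.s0) (e / c.p.s0) x - eta * sq x ^ 2) := by
      field_simp
    rw [h3, h1, h2]
    refine hcore.trans ?_
    have h4 : (c.p.s0 * sq x + (b:ℝ) * sq x ^ 2 - g * (sq x * cu x) + e * cu x ^ 2 - eta * sq x ^ 2) =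
      c.p.s0 * sq x + (b - eta) * sq x ^ 2 - g * (sq x * cu x) + e * cu x ^ 2 := by ring
    rw [h4]
    linarith
  exact le_of_mul_le_mul_left key hs0

end Vale.Agent.P154
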