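import Vale.Agent.P154.Alg
import Vale.Agent.P154.BridgeD
import Vale.Agent.P154.Certs

/-!
The chain certificates for `d = 2, ..., 8` and the star certificate.
-/

namespace Vale.Agent.P154

theorem psiEq : PsiEq := by
  intro p z y hz hy hw
  have h := psiR_eq p z y hz hy hw
  unfold DD Wt
  rw [h]
  ring

/-- numerators over `100000` -/
noncomputable def qt (n : ℤ) : ℝ := (n : ℝ) / ((100000 : ℤ) : ℝ)

theorem coefOK_of {b g e : ℤ} (hb : 0 ≤ b) (hg : 0 ≤ g) (he : 0 ≤ e) (h : 9 * g ^ 2 ≤ 32 * (b * e)) :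
    CoefOK (qt b) (qt g) (qt e) := by
  have rb : (0:ℝ) ≤ b := by exact_mod_cast hb
  have rg : (0:ℝ) ≤ g := by exact_mod_cast hg
  have re : (0:ℝ) ≤ e := by exact_mod_cast he
  have r : 9 * (g:ℝ) ^ 2 ≤ 32 * (b * e) := by exact_mod_cast h
  unfold qt
  push_cast
  refine ⟨by positivity, by positivity, by positivity, ?_⟩
  have e1 : 9 * ((g:ℝ) / 100000) ^ 2 = 9 * (g:ℝ) ^ 2 / 100000 ^ 2 := by ring
  have e2 : 32 * ((b:ℝ) / 100000 * (e / 100000)) = 32 * (b * e) / 100000 ^ 2 := by ring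
  rw [e1, e2]
  exact div_le_div_of_nonneg_right r (by norm_num)

theorem step_q {d : ℕ} {c : Cfg} {b g e eta b1 g1 e1 b2 g2 e2 : ℤ} (hB : BOK d c b g e eta)
    (hA : AOK0 d c) (hcell : CellOK c ⟨0, 4096, 0, 4096, -64, 64, -64, 64⟩) (hs : c.p.s0 = 100000)
    (h1 : c.p.b1 = b1) (h2 : c.p.g1 = g1) (h3 : c.p.e1 = e1) (h4 : c.p.b2 = b2) (h5 : c.p.g2 = g2)
    (h6 : c.p.e2 = e2) :
    StepI (1 / √(d:ℝ)) (qt b1) (qt g1) (qt e1) (qt b2) (qt g2) (qt e2) (qt b) (qt g) (qt e) (qt eta) := by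
  have h := step_of psiEq hB hA hcell
  rw [hs, h1, h2, h3, h4, h5, h6] at h
  unfold qt
  exact h

theorem base_q {d : ℕ} {c : Cfg} {b g e eta b1 g1 e1 : ℤ} (hB : BOK d c b g e eta)
    (hA : AOK1 d c b g e) (hcell : CellOK c ⟨0, 4096, 0, 4096, -64, 64, -64, 64⟩) (hs : c.p.s0 = 100000)
    (h1 : c.p.b1 = b1) (h2 : c.p.g1 = g1) (h3 : c.p.e1 = e1) :
    BaseI (1 / √(d:ℝ)) (qt b1) (qt g1) (qt e1) (qt b) (qt g) (qt e) (qt eta) := by
  have h := base_of psiEq hB hA hcell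
  rw [hs, h1, h2, h3] at h
  unfold qt
  exact h

theorem eta_pos_qt : 0 < qt 50 := by unfold qt; norm_num

theorem bokD2K1 : BOK 2 cfgD2K1 10073 23475 18533 50 := by
  constructor <;> norm_num [cfgD2K1]

theorem aokD2K1 : AOK1 2 cfgD2K1 10073 23475 18533 := by
  constructor <;> norm_num [cfgD2K1]

theorem ineqD2K1 : BaseI (1 / √((2 : ℕ) : ℝ)) (qt 10073) (qt 23475) (qt 18533) (qt 10073) (qt 23475) (qt 18533) (qt 50) :=
  base_q bokD2K1 aokD2K1 certD2K1 rfl rfl rfl rfl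

theorem chain2 {lam : ℝ} (h0 : 0 ≤ lam) (h1 : ((2 : ℕ) : ℝ) * lam ^ 2 ≤ 1) : Nonempty (Chain 2 lam) := by
  apply chain_of_sqrt 2 (by norm_num) h0 h1
    (fun k : ℕ => qt 10073)
    (fun k : ℕ => qt 23475)
    (fun k : ℕ => qt 18533) eta_pos_qt
  · exact coefOK_of (by norm_num) (by norm_num) (by norm_num) (by norm_num)
  · exact ineqD2K1
  · 
    intro k hk hk'
    omega

theorem bokD3K1 : BOK 3 cfgD3K1 7880 21134 19588 50 := by
  constructor <;> norm_num [cfgD3K1]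

theorem aokD3K1 : AOK1 3 cfgD3K1 7880 21134 19588 := by
  constructor <;> norm_num [cfgD3K1]

theorem ineqD3K1 : BaseI (1 / √((3 : ℕ) : ℝ)) (qt 11500) (qt 36084) (qt 37872) (qt 7880) (qt 21134) (qt 19588) (qt 50) :=
  base_q bokD3K1 aokD3K1 certD3K1 rfl rfl rfl rfl

theorem bokD3K2 : BOK 3 cfgD3K2 7880 21134 19588 50 := by
  constructor <;> norm_num [cfgD3K2]

theorem aokD3K2 : AOK0 3 cfgD3K2 := by
  constructor <;> norm_num [cfgD3K2]

theorem ineqD3K2 : StepI (1 / √((3 : ℕ) : ℝ)) (qt 7880) (qt 21134) (qt 19588) (qt 11500) (qt 36084) (qt 37872)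
    (qt 7880) (qt 21134) (qt 19588) (qt 50) :=
  step_q bokD3K2 aokD3K2 certD3K2 rfl rfl rfl rfl rfl rfl rfl

theorem chain3 {lam : ℝ} (h0 : 0 ≤ lam) (h1 : ((3 : ℕ) : ℝ) * lam ^ 2 ≤ 1) : Nonempty (Chain 3 lam) := by
  apply chain_of_sqrt 3 (by norm_num) h0 h1
    (fun k : ℕ => if k = 2 then qt 11500 else qt 7880)
    (fun k : ℕ => if k = 2 then qt 36084 else qt 21134)
    (fun k : ℕ => if k = 2 then qt 37872 else qt 19588) eta_pos_qt
  · exact coefOK_of (by norm_num) (by norm_num) (by norm_num) (by norm_num)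
  · exact ineqD3K1
  · 
    intro k hk hk'
    interval_cases k
    · exact ineqD3K2

theorem bokD4K1 : BOK 4 cfgD4K1 6335 18830 19870 50 := by
  constructor <;> norm_num [cfgD4K1]

theorem aokD4K1 : AOK1 4 cfgD4K1 6335 18830 19870 := by
  constructor <;> norm_num [cfgD4K1]

theorem ineqD4K1 : BaseI (1 / √((4 : ℕ) : ℝ)) (qt 11500) (qt 44156) (qt 66719) (qt 6335) (qt 18830) (qt 19870) (qt 50) :=
  base_q bokD4K1 aokD4K1 certD4K1 rfl rfl rfl rfl

theorem bokD4K2 : BOK 4 cfgD4K2 6335 18830 19870 50 := by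
  constructor <;> norm_num [cfgD4K2]

theorem aokD4K2 : AOK0 4 cfgD4K2 := by
  constructor <;> norm_num [cfgD4K2]

theorem ineqD4K2 : StepI (1 / √((4 : ℕ) : ℝ)) (qt 8777) (qt 25563) (qt 25732) (qt 11500) (qt 44156) (qt 66719)
    (qt 6335) (qt 18830) (qt 19870) (qt 50) :=
  step_q bokD4K2 aokD4K2 certD4K2 rfl rfl rfl rfl rfl rfl rfl

theorem bokD4K3 : BOK 4 cfgD4K3 6335 18830 19870 50 := by
  constructor <;> norm_num [cfgD4K3]

theorem aokD4K3 : AOK0 4 cfgD4K3 := by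
  constructor <;> norm_num [cfgD4K3]

theorem ineqD4K3 : StepI (1 / √((4 : ℕ) : ℝ)) (qt 6335) (qt 18830) (qt 19870) (qt 8777) (qt 25563) (qt 25732)
    (qt 6335) (qt 18830) (qt 19870) (qt 50) :=
  step_q bokD4K3 aokD4K3 certD4K3 rfl rfl rfl rfl rfl rfl rfl

theorem chain4 {lam : ℝ} (h0 : 0 ≤ lam) (h1 : ((4 : ℕ) : ℝ) * lam ^ 2 ≤ 1) : Nonempty (Chain 4 lam) := by
  apply chain_of_sqrt 4 (by norm_num) h0 h1
    (fun k : ℕ => if k = 2 then qt 11500 else if k = 3 then qt 8777 else qt 6335)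
    (fun k : ℕ => if k = 2 then qt 44156 else if k = 3 then qt 25563 else qt 18830)
    (fun k : ℕ => if k = 2 then qt 66719 else if k = 3 then qt 25732 else qt 19870) eta_pos_qt
  · exact coefOK_of (by norm_num) (by norm_num) (by norm_num) (by norm_num)
  · exact ineqD4K1
  · 
    intro k hk hk'
    interval_cases k
    · exact ineqD4K2
    · exact ineqD4K3

theorem bokD5K1 : BOK 5 cfgD5K1 5390 17112 19745 50 := by
  constructor <;> norm_num [cfgD5K1]

theorem aokD5K1 : AOK1 5 cfgD5K1 5390 17112 19745 := by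
  constructor <;> norm_num [cfgD5K1]

theorem ineqD5K1 : BaseI (1 / √((5 : ℕ) : ℝ)) (qt 11500) (qt 44274) (qt 71653) (qt 5390) (qt 17112) (qt 19745) (qt 50) :=
  base_q bokD5K1 aokD5K1 certD5K1 rfl rfl rfl rfl

theorem bokD5K2 : BOK 5 cfgD5K2 5390 17112 19745 50 := by
  constructor <;> norm_num [cfgD5K2]

theorem aokD5K2 : AOK0 5 cfgD5K2 := by
  constructor <;> norm_num [cfgD5K2]

theorem ineqD5K2 : StepI (1 / √((5 : ℕ) : ℝ)) (qt 9022) (qt 27147) (qt 29268) (qt 11500) (qt 44274) (qt 71653)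
    (qt 5390) (qt 17112) (qt 19745) (qt 50) :=
  step_q bokD5K2 aokD5K2 certD5K2 rfl rfl rfl rfl rfl rfl rfl

theorem bokD5K3 : BOK 5 cfgD5K3 5390 17112 19745 50 := by
  constructor <;> norm_num [cfgD5K3]

theorem aokD5K3 : AOK0 5 cfgD5K3 := by
  constructor <;> norm_num [cfgD5K3]

theorem ineqD5K3 : StepI (1 / √((5 : ℕ) : ℝ)) (qt 6910) (qt 20725) (qt 22900) (qt 9022) (qt 27147) (qt 29268)
    (qt 5390) (qt 17112) (qt 19745) (qt 50) :=
  step_q bokD5K3 aokD5K3 certD5K3 rfl rfl rfl rfl rfl rfl rfl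

theorem bokD5K4 : BOK 5 cfgD5K4 5390 17112 19745 50 := by
  constructor <;> norm_num [cfgD5K4]

theorem aokD5K4 : AOK0 5 cfgD5K4 := by
  constructor <;> norm_num [cfgD5K4]

theorem ineqD5K4 : StepI (1 / √((5 : ℕ) : ℝ)) (qt 5390) (qt 17112) (qt 19745) (qt 6910) (qt 20725) (qt 22900)
    (qt 5390) (qt 17112) (qt 19745) (qt 50) :=
  step_q bokD5K4 aokD5K4 certD5K4 rfl rfl rfl rfl rfl rfl rfl

theorem chain5 {lam : ℝ} (h0 : 0 ≤ lam) (h1 : ((5 : ℕ) : ℝ) * lam ^ 2 ≤ 1) : Nonempty (Chain 5 lam) := by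
  apply chain_of_sqrt 5 (by norm_num) h0 h1
    (fun k : ℕ => if k = 2 then qt 11500 else if k = 3 then qt 9022 else if k = 4 then qt 6910 else qt 5390)
    (fun k : ℕ => if k = 2 then qt 44274 else if k = 3 then qt 27147 else if k = 4 then qt 20725 else qt 17112)
    (fun k : ℕ => if k = 2 then qt 71653 else if k = 3 then qt 29268 else if k = 4 then qt 22900 else qt 19745) eta_pos_qt
  · exact coefOK_of (by norm_num) (by norm_num) (by norm_num) (by norm_num)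
  · exact ineqD5K1
  · 
    intro k hk hk'
    interval_cases k
    · exact ineqD5K2
    · exact ineqD5K3
    · exact ineqD5K4

theorem bokD6K1 : BOK 6 cfgD6K1 5027 15849 18287 50 := by
  constructor <;> norm_num [cfgD6K1]

theorem aokD6K1 : AOK1 6 cfgD6K1 5027 15849 18287 := by
  constructor <;> norm_num [cfgD6K1]

theorem ineqD6K1 : BaseI (1 / √((6 : ℕ) : ℝ)) (qt 11500) (qt 45163) (qt 78806) (qt 5027) (qt 15849) (qt 18287) (qt 50) :=
  base_q bokD6K1 aokD6K1 certD6K1 rfl rfl rfl rfl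

theorem bokD6K2 : BOK 6 cfgD6K2 5027 15849 18287 50 := by
  constructor <;> norm_num [cfgD6K2]

theorem aokD6K2 : AOK0 6 cfgD6K2 := by
  constructor <;> norm_num [cfgD6K2]

theorem ineqD6K2 : StepI (1 / √((6 : ℕ) : ℝ)) (qt 9527) (qt 27998) (qt 30251) (qt 11500) (qt 45163) (qt 78806)
    (qt 5027) (qt 15849) (qt 18287) (qt 50) :=
  step_q bokD6K2 aokD6K2 certD6K2 rfl rfl rfl rfl rfl rfl rfl

theorem bokD6K3 : BOK 6 cfgD6K3 5027 15849 18287 50 := by
  constructor <;> norm_num [cfgD6K3]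

theorem aokD6K3 : AOK0 6 cfgD6K3 := by
  constructor <;> norm_num [cfgD6K3]

theorem ineqD6K3 : StepI (1 / √((6 : ℕ) : ℝ)) (qt 7437) (qt 21846) (qt 24400) (qt 9527) (qt 27998) (qt 30251)
    (qt 5027) (qt 15849) (qt 18287) (qt 50) :=
  step_q bokD6K3 aokD6K3 certD6K3 rfl rfl rfl rfl rfl rfl rfl

theorem bokD6K4 : BOK 6 cfgD6K4 5027 15849 18287 50 := by
  constructor <;> norm_num [cfgD6K4]

theorem aokD6K4 : AOK0 6 cfgD6K4 := by
  constructor <;> norm_num [cfgD6K4]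

theorem ineqD6K4 : StepI (1 / √((6 : ℕ) : ℝ)) (qt 6089) (qt 18278) (qt 20776) (qt 7437) (qt 21846) (qt 24400)
    (qt 5027) (qt 15849) (qt 18287) (qt 50) :=
  step_q bokD6K4 aokD6K4 certD6K4 rfl rfl rfl rfl rfl rfl rfl

theorem bokD6K5 : BOK 6 cfgD6K5 5027 15849 18287 50 := by
  constructor <;> norm_num [cfgD6K5]

theorem aokD6K5 : AOK0 6 cfgD6K5 := by
  constructor <;> norm_num [cfgD6K5]

theorem ineqD6K5 : StepI (1 / √((6 : ℕ) : ℝ)) (qt 5027) (qt 15849) (qt 18287) (qt 6089) (qt 18278) (qt 20776)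
    (qt 5027) (qt 15849) (qt 18287) (qt 50) :=
  step_q bokD6K5 aokD6K5 certD6K5 rfl rfl rfl rfl rfl rfl rfl

theorem chain6 {lam : ℝ} (h0 : 0 ≤ lam) (h1 : ((6 : ℕ) : ℝ) * lam ^ 2 ≤ 1) : Nonempty (Chain 6 lam) := by
  apply chain_of_sqrt 6 (by norm_num) h0 h1
    (fun k : ℕ => if k = 2 then qt 11500 else if k = 3 then qt 9527 else if k = 4 then qt 7437 else if k = 5 then qt 6089 else qt 5027)
    (fun k : ℕ => if k = 2 then qt 45163 else if k = 3 then qt 27998 else if k = 4 then qt 21846 else if k = 5 then qt 18278 else qt 15849)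
    (fun k : ℕ => if k = 2 then qt 78806 else if k = 3 then qt 30251 else if k = 4 then qt 24400 else if k = 5 then qt 20776 else qt 18287) eta_pos_qt
  · exact coefOK_of (by norm_num) (by norm_num) (by norm_num) (by norm_num)
  · exact ineqD6K1
  · 
    intro k hk hk'
    interval_cases k
    · exact ineqD6K2
    · exact ineqD6K3
    · exact ineqD6K4
    · exact ineqD6K5

theorem bokD7K1 : BOK 7 cfgD7K1 4545 14344 17093 50 := by
  constructor <;> norm_num [cfgD7K1]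

theorem aokD7K1 : AOK1 7 cfgD7K1 4545 14344 17093 := by
  constructor <;> norm_num [cfgD7K1]

theorem ineqD7K1 : BaseI (1 / √((7 : ℕ) : ℝ)) (qt 11500) (qt 42523) (qt 79455) (qt 4545) (qt 14344) (qt 17093) (qt 50) :=
  base_q bokD7K1 aokD7K1 certD7K1 rfl rfl rfl rfl

theorem bokD7K2 : BOK 7 cfgD7K2 4545 14344 17093 50 := by
  constructor <;> norm_num [cfgD7K2]

theorem aokD7K2 : AOK0 7 cfgD7K2 := by
  constructor <;> norm_num [cfgD7K2]

theorem ineqD7K2 : StepI (1 / √((7 : ℕ) : ℝ)) (qt 9658) (qt 27813) (qt 31035) (qt 11500) (qt 42523) (qt 79455)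
    (qt 4545) (qt 14344) (qt 17093) (qt 50) :=
  step_q bokD7K2 aokD7K2 certD7K2 rfl rfl rfl rfl rfl rfl rfl

theorem bokD7K3 : BOK 7 cfgD7K3 4545 14344 17093 50 := by
  constructor <;> norm_num [cfgD7K3]

theorem aokD7K3 : AOK0 7 cfgD7K3 := by
  constructor <;> norm_num [cfgD7K3]

theorem ineqD7K3 : StepI (1 / √((7 : ℕ) : ℝ)) (qt 7714) (qt 21844) (qt 25025) (qt 9658) (qt 27813) (qt 31035)
    (qt 4545) (qt 14344) (qt 17093) (qt 50) :=
  step_q bokD7K3 aokD7K3 certD7K3 rfl rfl rfl rfl rfl rfl rfl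

theorem bokD7K4 : BOK 7 cfgD7K4 4545 14344 17093 50 := by
  constructor <;> norm_num [cfgD7K4]

theorem aokD7K4 : AOK0 7 cfgD7K4 := by
  constructor <;> norm_num [cfgD7K4]

theorem ineqD7K4 : StepI (1 / √((7 : ℕ) : ℝ)) (qt 6461) (qt 18311) (qt 21095) (qt 7714) (qt 21844) (qt 25025)
    (qt 4545) (qt 14344) (qt 17093) (qt 50) :=
  step_q bokD7K4 aokD7K4 certD7K4 rfl rfl rfl rfl rfl rfl rfl

theorem bokD7K5 : BOK 7 cfgD7K5 4545 14344 17093 50 := by
  constructor <;> norm_num [cfgD7K5]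

theorem aokD7K5 : AOK0 7 cfgD7K5 := by
  constructor <;> norm_num [cfgD7K5]

theorem ineqD7K5 : StepI (1 / √((7 : ℕ) : ℝ)) (qt 5416) (qt 16202) (qt 19185) (qt 6461) (qt 18311) (qt 21095)
    (qt 4545) (qt 14344) (qt 17093) (qt 50) :=
  step_q bokD7K5 aokD7K5 certD7K5 rfl rfl rfl rfl rfl rfl rfl

theorem bokD7K6 : BOK 7 cfgD7K6 4545 14344 17093 50 := by
  constructor <;> norm_num [cfgD7K6]

theorem aokD7K6 : AOK0 7 cfgD7K6 := by
  constructor <;> norm_num [cfgD7K6]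

theorem ineqD7K6 : StepI (1 / √((7 : ℕ) : ℝ)) (qt 4545) (qt 14344) (qt 17093) (qt 5416) (qt 16202) (qt 19185)
    (qt 4545) (qt 14344) (qt 17093) (qt 50) :=
  step_q bokD7K6 aokD7K6 certD7K6 rfl rfl rfl rfl rfl rfl rfl

theorem chain7 {lam : ℝ} (h0 : 0 ≤ lam) (h1 : ((7 : ℕ) : ℝ) * lam ^ 2 ≤ 1) : Nonempty (Chain 7 lam) := by
  apply chain_of_sqrt 7 (by norm_num) h0 h1
    (fun k : ℕ => if k = 2 then qt 11500 else if k = 3 then qt 9658 else if k = 4 then qt 7714 else if k = 5 then qt 6461 else if k = 6 then qt 5416 else qt 4545)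
    (fun k : ℕ => if k = 2 then qt 42523 else if k = 3 then qt 27813 else if k = 4 then qt 21844 else if k = 5 then qt 18311 else if k = 6 then qt 16202 else qt 14344)
    (fun k : ℕ => if k = 2 then qt 79455 else if k = 3 then qt 31035 else if k = 4 then qt 25025 else if k = 5 then qt 21095 else if k = 6 then qt 19185 else qt 17093) eta_pos_qt
  · exact coefOK_of (by norm_num) (by norm_num) (by norm_num) (by norm_num)
  · exact ineqD7K1
  · 
    intro k hk hk'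
    interval_cases k
    · exact ineqD7K2
    · exact ineqD7K3
    · exact ineqD7K4
    · exact ineqD7K5
    · exact ineqD7K6

theorem bokD8K1 : BOK 8 cfgD8K1 4180 13504 16888 50 := by
  constructor <;> norm_num [cfgD8K1]

theorem aokD8K1 : AOK1 8 cfgD8K1 4180 13504 16888 := by
  constructor <;> norm_num [cfgD8K1]

theorem ineqD8K1 : BaseI (1 / √((8 : ℕ) : ℝ)) (qt 11500) (qt 40087) (qt 79681) (qt 4180) (qt 13504) (qt 16888) (qt 50) :=
  base_q bokD8K1 aokD8K1 certD8K1 rfl rfl rfl rfl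

theorem bokD8K2 : BOK 8 cfgD8K2 4180 13504 16888 50 := by
  constructor <;> norm_num [cfgD8K2]

theorem aokD8K2 : AOK0 8 cfgD8K2 := by
  constructor <;> norm_num [cfgD8K2]

theorem ineqD8K2 : StepI (1 / √((8 : ℕ) : ℝ)) (qt 9940) (qt 27125) (qt 30241) (qt 11500) (qt 40087) (qt 79681)
    (qt 4180) (qt 13504) (qt 16888) (qt 50) :=
  step_q bokD8K2 aokD8K2 certD8K2 rfl rfl rfl rfl rfl rfl rfl

theorem bokD8K3 : BOK 8 cfgD8K3 4180 13504 16888 50 := by
  constructor <;> norm_num [cfgD8K3]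

theorem aokD8K3 : AOK0 8 cfgD8K3 := by
  constructor <;> norm_num [cfgD8K3]

theorem ineqD8K3 : StepI (1 / √((8 : ℕ) : ℝ)) (qt 8029) (qt 21820) (qt 25419) (qt 9940) (qt 27125) (qt 30241)
    (qt 4180) (qt 13504) (qt 16888) (qt 50) :=
  step_q bokD8K3 aokD8K3 certD8K3 rfl rfl rfl rfl rfl rfl rfl

theorem bokD8K4 : BOK 8 cfgD8K4 4180 13504 16888 50 := by
  constructor <;> norm_num [cfgD8K4]

theorem aokD8K4 : AOK0 8 cfgD8K4 := by
  constructor <;> norm_num [cfgD8K4]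

theorem ineqD8K4 : StepI (1 / √((8 : ℕ) : ℝ)) (qt 6781) (qt 18534) (qt 22019) (qt 8029) (qt 21820) (qt 25419)
    (qt 4180) (qt 13504) (qt 16888) (qt 50) :=
  step_q bokD8K4 aokD8K4 certD8K4 rfl rfl rfl rfl rfl rfl rfl

theorem bokD8K5 : BOK 8 cfgD8K5 4180 13504 16888 50 := by
  constructor <;> norm_num [cfgD8K5]

theorem aokD8K5 : AOK0 8 cfgD8K5 := by
  constructor <;> norm_num [cfgD8K5]

theorem ineqD8K5 : StepI (1 / √((8 : ℕ) : ℝ)) (qt 5791) (qt 16349) (qt 19792) (qt 6781) (qt 18534) (qt 22019)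
    (qt 4180) (qt 13504) (qt 16888) (qt 50) :=
  step_q bokD8K5 aokD8K5 certD8K5 rfl rfl rfl rfl rfl rfl rfl

theorem bokD8K6 : BOK 8 cfgD8K6 4180 13504 16888 50 := by
  constructor <;> norm_num [cfgD8K6]

theorem aokD8K6 : AOK0 8 cfgD8K6 := by
  constructor <;> norm_num [cfgD8K6]

theorem ineqD8K6 : StepI (1 / √((8 : ℕ) : ℝ)) (qt 4937) (qt 14888) (qt 18453) (qt 5791) (qt 16349) (qt 19792)
    (qt 4180) (qt 13504) (qt 16888) (qt 50) :=
  step_q bokD8K6 aokD8K6 certD8K6 rfl rfl rfl rfl rfl rfl rfl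

theorem bokD8K7 : BOK 8 cfgD8K7 4180 13504 16888 50 := by
  constructor <;> norm_num [cfgD8K7]

theorem aokD8K7 : AOK0 8 cfgD8K7 := by
  constructor <;> norm_num [cfgD8K7]

theorem ineqD8K7 : StepI (1 / √((8 : ℕ) : ℝ)) (qt 4180) (qt 13504) (qt 16888) (qt 4937) (qt 14888) (qt 18453)
    (qt 4180) (qt 13504) (qt 16888) (qt 50) :=
  step_q bokD8K7 aokD8K7 certD8K7 rfl rfl rfl rfl rfl rfl rfl

theorem chain8 {lam : ℝ} (h0 : 0 ≤ lam) (h1 : ((8 : ℕ) : ℝ) * lam ^ 2 ≤ 1) : Nonempty (Chain 8 lam) := by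
  apply chain_of_sqrt 8 (by norm_num) h0 h1
    (fun k : ℕ => if k = 2 then qt 11500 else if k = 3 then qt 9940 else if k = 4 then qt 8029 else if k = 5 then qt 6781 else if k = 6 then qt 5791 else if k = 7 then qt 4937 else qt 4180)
    (fun k : ℕ => if k = 2 then qt 40087 else if k = 3 then qt 27125 else if k = 4 then qt 21820 else if k = 5 then qt 18534 else if k = 6 then qt 16349 else if k = 7 then qt 14888 else qt 13504)
    (fun k : ℕ => if k = 2 then qt 79681 else if k = 3 then qt 30241 else if k = 4 then qt 25419 else if k = 5 then qt 22019 else if k = 6 then qt 19792 else if k = 7 then qt 18453 else qt 16888) eta_pos_qt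
  · exact coefOK_of (by norm_num) (by norm_num) (by norm_num) (by norm_num)
  · exact ineqD8K1
  · 
    intro k hk hk'
    interval_cases k
    · exact ineqD8K2
    · exact ineqD8K3
    · exact ineqD8K4
    · exact ineqD8K5
    · exact ineqD8K6
    · exact ineqD8K7

theorem bokStar : BOK 9 cfgStar 3482 16330 21554 50 := by
  constructor <;> norm_num [cfgStar]

theorem aokStar : AOK0 9 cfgStar := by
  constructor <;> norm_num [cfgStar]

theorem ineqStar : StepI (1 / 3) (qt 3482) (qt 16330) (qt 21554) (qt 3482) (qt 16330) (qt 21554) (qt 3482) (qt 16330) (qt 21554) (qt 50) := by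
  have h : StepI (1 / √((9 : ℕ) : ℝ)) (qt 3482) (qt 16330) (qt 21554) (qt 3482) (qt 16330) (qt 21554) (qt 3482) (qt 16330) (qt 21554)
      (qt 50) := step_q bokStar aokStar certStar rfl rfl rfl rfl rfl rfl rfl
  have e : √((9 : ℕ) : ℝ) = 3 := by
    rw [show ((9:ℕ):ℝ) = 3 ^ 2 by norm_num]
    exact Real.sqrt_sq (by norm_num)
  rw [e] at h
  exact h

theorem coefStar : CoefOK (qt 3482) (qt 16330) (qt 21554) :=
  coefOK_of (by norm_num) (by norm_num) (by norm_num) (by norm_num)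

/-- a chain certificate exists for every number of children, up to the Kesten-Stigum bound -/
theorem chain_exists (d : ℕ) (hd : 2 ≤ d) (lam : ℝ) (h0 : 0 ≤ lam) (h1 : d * lam ^ 2 ≤ 1) :
    Nonempty (Chain d lam) := by
  rcases le_or_gt 9 d with h9 | h9
  · exact chain_of_star eta_pos_qt coefStar ineqStar d h9 lam h0 h1
  · interval_cases d
    · exact chain2 h0 h1
    · exact chain3 h0 h1
    · exact chain4 h0 h1
    · exact chain5 h0 h1
    · exact chain6 h0 h1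
    · exact chain7 h0 h1
    · exact chain8 h0 h1

/-- the star inequality holds up to one third -/
theorem star_exists (lam : ℝ) (h0 : 0 ≤ lam) (h1 : lam ≤ 1 / 3) : Star lam :=
  star_of_third eta_pos_qt coefStar ineqStar lam h0 h1

end Vale.Agent.P154
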