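import Vale.Agent.P154.Cell

/-!
The certificate checker and its soundness, second part.
-/

set_option linter.unusedVariables false

namespace Vale.Agent.P154

theorem cosLow_sound {g : Bool} {m1 m0 P0 sa a0 a1 u0 u1 nA : ℤ} {A t l : ℝ}
    (h : cosLow g m1 m0 P0 sa a0 a1 u0 u1 nA = true) (hA : 0 ≤ A) (hsa : 0 < sa)
    (tl : m1 * A - m0 ≤ 2 ^ 20 * t) (hp0 : P0 * (A * √A) ≤ 32 * t) (l0 : 0 ≤ l) (l1 : l ≤ 1)
    (eA : cv l a0 a1 / sa = A) (ch : 2 ^ 30 * (A * √A) ≤ cv l u0 u1) :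
    (nA / 256 : ℝ) * (2 * (A * √A)) ≤ t := by
  have u0' : 0 ≤ A * √A := u_nonneg hA
  have rs : (0:ℝ) < sa := by exact_mod_cast hsa
  unfold cosLow at h
  rcases g with _ | _
  · simp only [cond_false, decide_eq_true_eq] at h
    have r : (nA:ℝ) ≤ 4 * P0 := by exact_mod_cast h
    have := mul_le_mul_of_nonneg_right r u0'
    nlinarith
  · simp only [cond_true, Bool.and_eq_true, decide_eq_true_eq] at h
    have rn : (0:ℝ) ≤ nA := by exact_mod_cast h.1.1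
    have k0 : (nA * u0 * sa : ℝ) ≤ 131072 * (m1 * a0 - m0 * sa) := by exact_mod_cast h.1.2
    have k1 : (nA * u1 * sa : ℝ) ≤ 131072 * (m1 * a1 - m0 * sa) := by exact_mod_cast h.2
    have k2 := cv_mono l0 l1 k0 k1
    have k3 : cv l ((nA:ℝ) * u0 * sa) (nA * u1 * sa) = nA * sa * cv l u0 u1 := by unfold cv; ring
    have k4 : cv l ((131072:ℝ) * (m1 * a0 - m0 * sa)) (131072 * (m1 * a1 - m0 * sa)) =
      131072 * (m1 * cv l a0 a1 - m0 * sa) := by unfold cv; ring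
    rw [k3, k4] at k2
    have el : cv l a0 a1 = A * sa := by rw [← eA]; field_simp
    rw [el] at k2
    have k5 : (nA * sa : ℝ) * (2 ^ 30 * (A * √A)) ≤ nA * sa * cv l u0 u1 :=
      mul_le_mul_of_nonneg_left ch (by positivity)
    have k6 : (131072 * sa : ℝ) * (m1 * A - m0) ≤ (131072 * sa) * (2 ^ 20 * t) :=
      mul_le_mul_of_nonneg_left tl (by positivity)
    have k7 : ((nA / 256 : ℝ) * (2 * (A * √A))) * (131072 * sa * 2 ^ 20) ≤ t * (131072 * sa * 2 ^ 20) := by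
      calc ((nA / 256 : ℝ) * (2 * (A * √A))) * (131072 * sa * 2 ^ 20) = (nA * sa : ℝ) * (2 ^ 30 * (A * √A)) := by ring
        _ ≤ 131072 * (m1 * (A * sa) - m0 * sa) := k5.trans k2
        _ = (131072 * sa : ℝ) * (m1 * A - m0) := by ring
        _ ≤ (131072 * sa) * (2 ^ 20 * t) := k6
        _ = t * (131072 * sa * 2 ^ 20) := by ring
    exact le_of_mul_le_mul_right k7 (by positivity)

theorem pt_facts {c : Cfg} {A B t s D : ℝ} (hp : Pt c A B t s D) :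
    t ^ 2 ≤ (2 * (A * √A)) ^ 2 ∧ s ^ 2 ≤ (2 * (B * √B)) ^ 2 ∧
    (2 * (D - 1 + 3 * A * B) - t * s) ^ 2 = ((2 * (A * √A)) ^ 2 - t ^ 2) * ((2 * (B * √B)) ^ 2 - s ^ 2) := by
  have sA := u_sq hp.hA
  have sB := u_sq hp.hB
  refine ⟨?_, ?_, ?_⟩
  · rw [mul_pow, sA]; linarith [hp.ht]
  · rw [mul_pow, sB]; linarith [hp.hs]
  · rw [mul_pow 2 (A * √A), mul_pow 2 (B * √B), sA, sB]
    have := hp.el
    rw [this]; ring

theorem kapOK_sound {c : Cfg} {x : Cell} {f : Lf} {A B t s D l m : ℝ} (h : kapOK c x f = true)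
    (hp : Pt c A B t s D) (hx : InC c x A B t s) (hsa : 0 < f.q.sa) (hsc : 0 < f.q.sc)
    (l0 : 0 ≤ l) (l1 : l ≤ 1) (m0 : 0 ≤ m) (m1 : m ≤ 1)
    (eA : cv l f.q.a0 f.q.a1 / f.q.sa = A) (chA : 2 ^ 30 * (A * √A) ≤ cv l f.ua0 f.ua1)
    (eB : cv m f.q.c0 f.q.c1 / f.q.sc = B) (chB : 2 ^ 30 * (B * √B) ≤ cv m f.ub0 f.ub1) :
    (f.nk : ℝ) * ((A * √A) * (B * √B)) ≤ 128 * (D - 1 + 3 * A * B) := by
  have uA := u_nonneg hp.hA
  have uB := u_nonneg hp.hB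
  obtain ⟨ht, hs, el⟩ := pt_facts hp
  unfold kapOK at h
  rw [Bool.or_eq_true, Bool.or_eq_true] at h
  rcases h with (h | h) | h
  · rw [decide_eq_true_eq] at h
    have r : (f.nk : ℝ) ≤ -256 := by exact_mod_cast h
    have k1 := (kap_bounds (by positivity) (by positivity) ht hs el).2
    have k2 : (f.nk : ℝ) * ((A * √A) * (B * √B)) ≤ -256 * ((A * √A) * (B * √B)) :=
      mul_le_mul_of_nonneg_right r (mul_nonneg uA uB)
    linarith
  · simp only [Bool.and_eq_true, decide_eq_true_eq] at h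
    obtain ⟨⟨⟨⟨⟨⟨h1, h2⟩, h3⟩, h5⟩, h6⟩, h7⟩, h8⟩ := h
    have g1 := cosLow_sound h7 hp.hA hsa hp.tl hx.p0 l0 l1 eA chA
    have g2 := cosLow_sound h8 hp.hB hsc hp.sl hx.q0 m0 m1 eB chB
    have r1 : (-256:ℝ) ≤ f.nA := by exact_mod_cast h1
    have r2 : (-256:ℝ) ≤ f.nB := by exact_mod_cast h2
    have r3 : (0:ℝ) ≤ f.nA + f.nB := by exact_mod_cast h3
    have r5 : (256 * f.nk : ℝ) ≤ f.nA * f.nB := by exact_mod_cast h5
    have r6 : ((65536 - f.nA * f.nA) * (65536 - f.nB * f.nB) : ℝ) ≤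
      (f.nA * f.nB - 256 * f.nk) * (f.nA * f.nB - 256 * f.nk) := by exact_mod_cast h6
    have k := kap_low (kk := (f.nk / 256 : ℝ)) (by positivity) (by positivity)
      (by linarith : (-1:ℝ) ≤ f.nA / 256) (by linarith : (-1:ℝ) ≤ f.nB / 256) (by linarith) ht hs el g1 g2
      (by nlinarith) (by nlinarith)
    nlinarith
  · simp only [Bool.and_eq_true, decide_eq_true_eq] at h
    obtain ⟨⟨⟨⟨h1, h2⟩, h3⟩, h5⟩, h6⟩ := h
    have r1 : (x.P1:ℝ) ≤ 64 := by exact_mod_cast h1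
    have r2 : (x.Q1:ℝ) ≤ 64 := by exact_mod_cast h2
    have r3 : (x.P1 + x.Q1 : ℝ) ≤ 0 := by exact_mod_cast h3
    have r5 : (16 * f.nk : ℝ) ≤ x.P1 * x.Q1 := by exact_mod_cast h5
    have r6 : ((4096 - x.P1 * x.P1) * (4096 - x.Q1 * x.Q1) : ℝ) ≤
      (x.P1 * x.Q1 - 16 * f.nk) * (x.P1 * x.Q1 - 16 * f.nk) := by exact_mod_cast h6
    have g1 := hx.p1
    have g2 := hx.q1
    have k := kap_low (t := -t) (s := -s) (k := D - 1 + 3 * A * B) (kk := (f.nk / 256 : ℝ))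
      (a := 2 * (A * √A)) (b := 2 * (B * √B)) (by positivity) (by positivity)
      (by linarith : (-1:ℝ) ≤ -(x.P1 / 64)) (by linarith : (-1:ℝ) ≤ -(x.Q1 / 64)) (by linarith)
      (by rw [neg_sq]; exact ht) (by rw [neg_sq]; exact hs) (by rw [neg_sq, neg_sq, neg_mul_neg]; exact el)
      (by linarith) (by linarith) (by nlinarith) (by nlinarith)
    nlinarith

theorem kapHi_sound {c : Cfg} {x : Cell} {f : Lf} {A B t s D l m : ℝ} (h : kapHi c x f = true)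
    (hp : Pt c A B t s D) (hx : InC c x A B t s) (hsa : 0 < f.q.sa) (hsc : 0 < f.q.sc)
    (l0 : 0 ≤ l) (l1 : l ≤ 1) (m0 : 0 ≤ m) (m1 : m ≤ 1)
    (eA : cv l f.q.a0 f.q.a1 / f.q.sa = A) (chA : 2 ^ 30 * (A * √A) ≤ cv l f.ua0 f.ua1)
    (eB : cv m f.q.c0 f.q.c1 / f.q.sc = B) (chB : 2 ^ 30 * (B * √B) ≤ cv m f.ub0 f.ub1) :
    128 * (D - 1 + 3 * A * B) ≤ (f.nh : ℝ) * ((A * √A) * (B * √B)) := by
  have uA := u_nonneg hp.hA
  have uB := u_nonneg hp.hB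
  obtain ⟨ht, hs, el⟩ := pt_facts hp
  unfold kapHi at h
  rw [Bool.or_eq_true, Bool.or_eq_true] at h
  rcases h with (h | h) | h
  · rw [decide_eq_true_eq] at h
    have r : (256:ℝ) ≤ f.nh := by exact_mod_cast h
    have k1 := (kap_bounds (by positivity) (by positivity) ht hs el).1
    have k2 : 256 * ((A * √A) * (B * √B)) ≤ (f.nh : ℝ) * ((A * √A) * (B * √B)) :=
      mul_le_mul_of_nonneg_right r (mul_nonneg uA uB)
    linarith
  · simp only [Bool.and_eq_true, decide_eq_true_eq] at h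
    obtain ⟨⟨⟨⟨⟨h1, h2⟩, h3⟩, h5⟩, h6⟩, h7⟩ := h
    have g1 := cosLow_sound h7 hp.hA hsa hp.tl hx.p0 l0 l1 eA chA
    have g2 := hx.q1
    have r1 : (-256:ℝ) ≤ f.nA := by exact_mod_cast h1
    have r2 : (x.Q1:ℝ) ≤ 64 := by exact_mod_cast h2
    have r3 : (4 * x.Q1:ℝ) ≤ f.nA := by exact_mod_cast h3
    have r5 : (f.nA * x.Q1 : ℝ) ≤ 64 * f.nh := by exact_mod_cast h5
    have r6 : ((65536 - f.nA * f.nA) * (65536 - 16 * x.Q1 * x.Q1) : ℝ) ≤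
      (256 * f.nh - 4 * f.nA * x.Q1) * (256 * f.nh - 4 * f.nA * x.Q1) := by exact_mod_cast h6
    have k := kap_high (c := (f.nA / 256 : ℝ)) (c' := (x.Q1 / 64 : ℝ)) (kk := (f.nh / 256 : ℝ))
      (a := 2 * (A * √A)) (b := 2 * (B * √B)) (by positivity) (by positivity)
      (by linarith) (by linarith) (by linarith) ht hs el g1 (by linarith)
      (by nlinarith) (by nlinarith)
    nlinarith
  · simp only [Bool.and_eq_true, decide_eq_true_eq] at h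
    obtain ⟨⟨⟨⟨⟨h1, h2⟩, h3⟩, h5⟩, h6⟩, h7⟩ := h
    have g1 := cosLow_sound h7 hp.hB hsc hp.sl hx.q0 m0 m1 eB chB
    have g2 := hx.p1
    have r1 : (-256:ℝ) ≤ f.nB := by exact_mod_cast h1
    have r2 : (x.P1:ℝ) ≤ 64 := by exact_mod_cast h2
    have r3 : (4 * x.P1:ℝ) ≤ f.nB := by exact_mod_cast h3
    have r5 : (f.nB * x.P1 : ℝ) ≤ 64 * f.nh := by exact_mod_cast h5
    have r6 : ((65536 - f.nB * f.nB) * (65536 - 16 * x.P1 * x.P1) : ℝ) ≤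
      (256 * f.nh - 4 * f.nB * x.P1) * (256 * f.nh - 4 * f.nB * x.P1) := by exact_mod_cast h6
    have k := kap_high (t := s) (s := t) (k := D - 1 + 3 * A * B) (c := (f.nB / 256 : ℝ)) (c' := (x.P1 / 64 : ℝ))
      (kk := (f.nh / 256 : ℝ)) (a := 2 * (B * √B)) (b := 2 * (A * √A)) (by positivity) (by positivity)
      (by linarith) (by linarith) (by linarith) hs ht (by rw [mul_comm s t, el]; ring) g1 (by linarith)
      (by nlinarith) (by nlinarith)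
    nlinarith

theorem cv4 {l m a b c d a' b' c' d' : ℝ} (l0 : 0 ≤ l) (l1 : l ≤ 1) (m0 : 0 ≤ m) (m1 : m ≤ 1)
    (h1 : a ≤ a') (h2 : b ≤ b') (h3 : c ≤ c') (h4 : d ≤ d') :
    cv m (cv l a b) (cv l c d) ≤ cv m (cv l a' b') (cv l c' d') :=
  cv_mono m0 m1 (cv_mono l0 l1 h1 h2) (cv_mono l0 l1 h3 h4)

theorem cv4_mul (l m a b c d k : ℝ) :
    cv m (cv l (a * k) (b * k)) (cv l (c * k) (d * k)) = cv m (cv l a b) (cv l c d) * k := by
  unfold cv; ring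

theorem cv4_const (l m k : ℝ) : cv m (cv l k k) (cv l k k) = k := by
  unfold cv; ring

theorem cv4_form (l m sd K ss nk r a0 a1 b0 b1 x0 x1 y0 y1 : ℝ) :
    cv m (cv l (sd * (K * (ss - 3 * a0 * b0) + nk * x0 * y0 * r)) (sd * (K * (ss - 3 * a1 * b0) + nk * x1 * y0 * r)))
      (cv l (sd * (K * (ss - 3 * a0 * b1) + nk * x0 * y1 * r)) (sd * (K * (ss - 3 * a1 * b1) + nk * x1 * y1 * r))) =
    sd * (K * (ss - 3 * (cv l a0 a1) * (cv m b0 b1)) + nk * (cv l x0 x1 * cv m y0 y1) * r) := by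
  unfold cv; ring

/-- real form of the lower bound, constant case -/
theorem lowD_const {l m l00 l10 l01 l11 dm S D : ℝ} (l0 : 0 ≤ l) (l1 : l ≤ 1) (m0 : 0 ≤ m) (m1 : m ≤ 1)
    (hS : 0 ≤ S) (h1 : l00 * 1048576 ≤ dm * S) (h2 : l10 * 1048576 ≤ dm * S) (h3 : l01 * 1048576 ≤ dm * S)
    (h4 : l11 * 1048576 ≤ dm * S) (hd : dm ≤ 2 ^ 20 * D) : cv m (cv l l00 l10) (cv l l01 l11) ≤ D * S := by
  have b1 := cv4 l0 l1 m0 m1 h1 h2 h3 h4
  rw [cv4_mul, cv4_const] at b1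
  have q3 := mul_le_mul_of_nonneg_right hd hS
  have q4 : cv m (cv l l00 l10) (cv l l01 l11) * 1048576 ≤ (D * S) * 1048576 := by linarith
  exact le_of_mul_le_mul_right q4 (by norm_num)

/-- real form of the lower bound, nonpositive case -/
theorem lowD_neg {l m l00 l10 l01 l11 sa sc sd nk a0 a1 c0 c1 x0 x1 y0 y1 A B u v D : ℝ}
    (l0 : 0 ≤ l) (l1 : l ≤ 1) (m0 : 0 ≤ m) (m1 : m ≤ 1) (rsa : 0 < sa) (rsc : 0 < sc) (rsd : 0 < sd)
    (rnk : nk ≤ 0) (hu : 0 ≤ u) (hv : 0 ≤ v)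
    (ea : cv l a0 a1 = A * sa) (eb : cv m c0 c1 = B * sc)
    (e1 : l00 * 147573952589676412928 ≤ sd * (147573952589676412928 * (sa * sc - 3 * a0 * c0) + nk * x0 * y0 * (sa * sc)))
    (e2 : l10 * 147573952589676412928 ≤ sd * (147573952589676412928 * (sa * sc - 3 * a1 * c0) + nk * x1 * y0 * (sa * sc)))
    (e3 : l01 * 147573952589676412928 ≤ sd * (147573952589676412928 * (sa * sc - 3 * a0 * c1) + nk * x0 * y1 * (sa * sc)))
    (e4 : l11 * 147573952589676412928 ≤ sd * (147573952589676412928 * (sa * sc - 3 * a1 * c1) + nk * x1 * y1 * (sa * sc)))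
    (chA : 2 ^ 30 * u ≤ cv l x0 x1) (chB : 2 ^ 30 * v ≤ cv m y0 y1)
    (kl : nk * (u * v) ≤ 128 * (D - 1 + 3 * A * B)) :
    cv m (cv l l00 l10) (cv l l01 l11) ≤ D * (sa * sc * sd) := by
  have b1 := cv4 l0 l1 m0 m1 e1 e2 e3 e4
  rw [cv4_mul, cv4_form, ea, eb] at b1
  have q1 : (2 ^ 30 * u) * (2 ^ 30 * v) ≤ cv l x0 x1 * cv m y0 y1 :=
    mul_le_mul chA chB (by positivity) ((by positivity : 0 ≤ 2 ^ 30 * u).trans chA)
  have q2 : nk * (cv l x0 x1 * cv m y0 y1) ≤ nk * ((2 ^ 30 * u) * (2 ^ 30 * v)) :=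
    mul_le_mul_of_nonpos_left q1 rnk
  have q2' : nk * (cv l x0 x1 * cv m y0 y1) * (sa * sc) ≤ nk * ((2 ^ 30 * u) * (2 ^ 30 * v)) * (sa * sc) :=
    mul_le_mul_of_nonneg_right q2 (by positivity)
  have q3 : (2 ^ 60 * (sa * sc)) * (nk * (u * v)) ≤ (2 ^ 60 * (sa * sc)) * (128 * (D - 1 + 3 * A * B)) :=
    mul_le_mul_of_nonneg_left kl (by positivity)
  have q5 : 147573952589676412928 * (sa * sc - 3 * (A * sa) * (B * sc)) + nk * (cv l x0 x1 * cv m y0 y1) * (sa * sc) ≤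
      147573952589676412928 * (sa * sc - 3 * (A * sa) * (B * sc)) + (2 ^ 60 * (sa * sc)) * (128 * (D - 1 + 3 * A * B)) := by
    linarith
  have q4 := mul_le_mul_of_nonneg_left q5 rsd.le
  have q6 : sd * (147573952589676412928 * (sa * sc - 3 * (A * sa) * (B * sc)) + (2 ^ 60 * (sa * sc)) * (128 * (D - 1 + 3 * A * B))) =
      (D * (sa * sc * sd)) * 147573952589676412928 := by ring
  rw [q6] at q4
  exact le_of_mul_le_mul_right (b1.trans q4) (by norm_num)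

/-- real form of the lower bound, positive case -/
theorem lowD_pos {l m l00 l10 l01 l11 sa sc sd nk a0 a1 c0 c1 x0 x1 y0 y1 A B u v D : ℝ}
    (l0 : 0 ≤ l) (l1 : l ≤ 1) (m0 : 0 ≤ m) (m1 : m ≤ 1) (rsa : 0 < sa) (rsc : 0 < sc) (rsd : 0 < sd)
    (rnk : 0 ≤ nk) (hu : 0 ≤ u) (hv : 0 ≤ v) (p3 : 0 ≤ y0) (p4 : 0 ≤ y1)
    (ea : cv l a0 a1 = A * sa) (eb : cv m c0 c1 = B * sc)
    (e1 : l00 * 590295810358705651712 ≤ sd * (590295810358705651712 * (sa * sc - 3 * a0 * c0) + nk * x0 * y0 * 1))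
    (e2 : l10 * 590295810358705651712 ≤ sd * (590295810358705651712 * (sa * sc - 3 * a1 * c0) + nk * x1 * y0 * 1))
    (e3 : l01 * 590295810358705651712 ≤ sd * (590295810358705651712 * (sa * sc - 3 * a0 * c1) + nk * x0 * y1 * 1))
    (e4 : l11 * 590295810358705651712 ≤ sd * (590295810358705651712 * (sa * sc - 3 * a1 * c1) + nk * x1 * y1 * 1))
    (g1 : cv l x0 x1 ≤ 2 ^ 31 * sa * u) (g2 : cv m y0 y1 ≤ 2 ^ 31 * sc * v)
    (kl : nk * (u * v) ≤ 128 * (D - 1 + 3 * A * B)) :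
    cv m (cv l l00 l10) (cv l l01 l11) ≤ D * (sa * sc * sd) := by
  have b1 := cv4 l0 l1 m0 m1 e1 e2 e3 e4
  rw [cv4_mul, cv4_form, ea, eb] at b1
  have q1 : cv l x0 x1 * cv m y0 y1 ≤ (2 ^ 31 * sa * u) * (2 ^ 31 * sc * v) :=
    mul_le_mul g1 g2 (cv_nonneg m0 m1 p3 p4) (by positivity)
  have q2 : nk * (cv l x0 x1 * cv m y0 y1) ≤ nk * ((2 ^ 31 * sa * u) * (2 ^ 31 * sc * v)) :=
    mul_le_mul_of_nonneg_left q1 rnk
  have q3 : (2 ^ 62 * (sa * sc)) * (nk * (u * v)) ≤ (2 ^ 62 * (sa * sc)) * (128 * (D - 1 + 3 * A * B)) :=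
    mul_le_mul_of_nonneg_left kl (by positivity)
  have q5 : 590295810358705651712 * (sa * sc - 3 * (A * sa) * (B * sc)) + nk * (cv l x0 x1 * cv m y0 y1) * 1 ≤
      590295810358705651712 * (sa * sc - 3 * (A * sa) * (B * sc)) + (2 ^ 62 * (sa * sc)) * (128 * (D - 1 + 3 * A * B)) := by
    linarith
  have q4 := mul_le_mul_of_nonneg_left q5 rsd.le
  have q6 : sd * (590295810358705651712 * (sa * sc - 3 * (A * sa) * (B * sc)) + (2 ^ 62 * (sa * sc)) * (128 * (D - 1 + 3 * A * B))) =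
      (D * (sa * sc * sd)) * 590295810358705651712 := by ring
  rw [q6] at q4
  exact le_of_mul_le_mul_right (b1.trans q4) (by norm_num)

/-- real form of the upper bound, nonnegative case -/
theorem uppD_pos {l m l00 l10 l01 l11 sa sc sd nh a0 a1 c0 c1 x0 x1 y0 y1 A B u v D : ℝ}
    (l0 : 0 ≤ l) (l1 : l ≤ 1) (m0 : 0 ≤ m) (m1 : m ≤ 1) (rsa : 0 < sa) (rsc : 0 < sc) (rsd : 0 < sd)
    (rnh : 0 ≤ nh) (hu : 0 ≤ u) (hv : 0 ≤ v)
    (ea : cv l a0 a1 = A * sa) (eb : cv m c0 c1 = B * sc)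
    (e1 : sd * (147573952589676412928 * (sa * sc - 3 * a0 * c0) + nh * x0 * y0 * (sa * sc)) ≤ l00 * 147573952589676412928)
    (e2 : sd * (147573952589676412928 * (sa * sc - 3 * a1 * c0) + nh * x1 * y0 * (sa * sc)) ≤ l10 * 147573952589676412928)
    (e3 : sd * (147573952589676412928 * (sa * sc - 3 * a0 * c1) + nh * x0 * y1 * (sa * sc)) ≤ l01 * 147573952589676412928)
    (e4 : sd * (147573952589676412928 * (sa * sc - 3 * a1 * c1) + nh * x1 * y1 * (sa * sc)) ≤ l11 * 147573952589676412928)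
    (chA : 2 ^ 30 * u ≤ cv l x0 x1) (chB : 2 ^ 30 * v ≤ cv m y0 y1)
    (kl : 128 * (D - 1 + 3 * A * B) ≤ nh * (u * v)) :
    D * (sa * sc * sd) ≤ cv m (cv l l00 l10) (cv l l01 l11) := by
  have b1 := cv4 l0 l1 m0 m1 e1 e2 e3 e4
  rw [cv4_mul, cv4_form, ea, eb] at b1
  have q1 : (2 ^ 30 * u) * (2 ^ 30 * v) ≤ cv l x0 x1 * cv m y0 y1 :=
    mul_le_mul chA chB (by positivity) ((by positivity : 0 ≤ 2 ^ 30 * u).trans chA)
  have q2 : nh * ((2 ^ 30 * u) * (2 ^ 30 * v)) * (sa * sc) ≤ nh * (cv l x0 x1 * cv m y0 y1) * (sa * sc) :=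
    mul_le_mul_of_nonneg_right (mul_le_mul_of_nonneg_left q1 rnh) (by positivity)
  have q3 : (2 ^ 60 * (sa * sc)) * (128 * (D - 1 + 3 * A * B)) ≤ (2 ^ 60 * (sa * sc)) * (nh * (u * v)) :=
    mul_le_mul_of_nonneg_left kl (by positivity)
  have q5 : 147573952589676412928 * (sa * sc - 3 * (A * sa) * (B * sc)) + (2 ^ 60 * (sa * sc)) * (128 * (D - 1 + 3 * A * B)) ≤
      147573952589676412928 * (sa * sc - 3 * (A * sa) * (B * sc)) + nh * (cv l x0 x1 * cv m y0 y1) * (sa * sc) := by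
    linarith
  have q4 := mul_le_mul_of_nonneg_left q5 rsd.le
  have q6 : sd * (147573952589676412928 * (sa * sc - 3 * (A * sa) * (B * sc)) + (2 ^ 60 * (sa * sc)) * (128 * (D - 1 + 3 * A * B))) =
      (D * (sa * sc * sd)) * 147573952589676412928 := by ring
  rw [q6] at q4
  exact le_of_mul_le_mul_right (q4.trans b1) (by norm_num)

/-- real form of the upper bound, negative case -/
theorem uppD_neg {l m l00 l10 l01 l11 sa sc sd nh a0 a1 c0 c1 x0 x1 y0 y1 A B u v D : ℝ}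
    (l0 : 0 ≤ l) (l1 : l ≤ 1) (m0 : 0 ≤ m) (m1 : m ≤ 1) (rsa : 0 < sa) (rsc : 0 < sc) (rsd : 0 < sd)
    (rnh : nh ≤ 0) (hu : 0 ≤ u) (hv : 0 ≤ v) (p3 : 0 ≤ y0) (p4 : 0 ≤ y1)
    (ea : cv l a0 a1 = A * sa) (eb : cv m c0 c1 = B * sc)
    (e1 : sd * (590295810358705651712 * (sa * sc - 3 * a0 * c0) + nh * x0 * y0 * 1) ≤ l00 * 590295810358705651712)
    (e2 : sd * (590295810358705651712 * (sa * sc - 3 * a1 * c0) + nh * x1 * y0 * 1) ≤ l10 * 590295810358705651712)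
    (e3 : sd * (590295810358705651712 * (sa * sc - 3 * a0 * c1) + nh * x0 * y1 * 1) ≤ l01 * 590295810358705651712)
    (e4 : sd * (590295810358705651712 * (sa * sc - 3 * a1 * c1) + nh * x1 * y1 * 1) ≤ l11 * 590295810358705651712)
    (g1 : cv l x0 x1 ≤ 2 ^ 31 * sa * u) (g2 : cv m y0 y1 ≤ 2 ^ 31 * sc * v)
    (kl : 128 * (D - 1 + 3 * A * B) ≤ nh * (u * v)) :
    D * (sa * sc * sd) ≤ cv m (cv l l00 l10) (cv l l01 l11) := by
  have b1 := cv4 l0 l1 m0 m1 e1 e2 e3 e4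
  rw [cv4_mul, cv4_form, ea, eb] at b1
  have q1 : cv l x0 x1 * cv m y0 y1 ≤ (2 ^ 31 * sa * u) * (2 ^ 31 * sc * v) :=
    mul_le_mul g1 g2 (cv_nonneg m0 m1 p3 p4) (by positivity)
  have q2 : nh * ((2 ^ 31 * sa * u) * (2 ^ 31 * sc * v)) ≤ nh * (cv l x0 x1 * cv m y0 y1) :=
    mul_le_mul_of_nonpos_left q1 rnh
  have q3 : (2 ^ 62 * (sa * sc)) * (128 * (D - 1 + 3 * A * B)) ≤ (2 ^ 62 * (sa * sc)) * (nh * (u * v)) :=
    mul_le_mul_of_nonneg_left kl (by positivity)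
  have q5 : 590295810358705651712 * (sa * sc - 3 * (A * sa) * (B * sc)) + (2 ^ 62 * (sa * sc)) * (128 * (D - 1 + 3 * A * B)) ≤
      590295810358705651712 * (sa * sc - 3 * (A * sa) * (B * sc)) + nh * (cv l x0 x1 * cv m y0 y1) * 1 := by
    linarith
  have q4 := mul_le_mul_of_nonneg_left q5 rsd.le
  have q6 : sd * (590295810358705651712 * (sa * sc - 3 * (A * sa) * (B * sc)) + (2 ^ 62 * (sa * sc)) * (128 * (D - 1 + 3 * A * B))) =
      (D * (sa * sc * sd)) * 590295810358705651712 := by ring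
  rw [q6] at q4
  exact le_of_mul_le_mul_right (q4.trans b1) (by norm_num)

theorem dlow_sound {c : Cfg} {x : Cell} {f : Lf} {A B t s D l m : ℝ}
    (hp : Pt c A B t s D) (hx : InC c x A B t s) (hsa : 0 < f.q.sa) (hsc : 0 < f.q.sc) (hsd : 0 < f.q.sd)
    (l0 : 0 ≤ l) (l1 : l ≤ 1) (m0 : 0 ≤ m) (m1 : m ≤ 1)
    (eA : cv l f.q.a0 f.q.a1 / f.q.sa = A) (chA : 2 ^ 30 * (A * √A) ≤ cv l f.ua0 f.ua1)
    (eB : cv m f.q.c0 f.q.c1 / f.q.sc = B) (chB : 2 ^ 30 * (B * √B) ≤ cv m f.ub0 f.ub1)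
    (tgA : cv l (3 * f.qa * f.q.a0 * 1048576 - f.qa * f.qa * f.qa * f.q.sa)
      (3 * f.qa * f.q.a1 * 1048576 - f.qa * f.qa * f.qa * f.q.sa) ≤ 2 ^ 31 * f.q.sa * (A * √A))
    (tgB : cv m (3 * f.qb * f.q.c0 * 1048576 - f.qb * f.qb * f.qb * f.q.sc)
      (3 * f.qb * f.q.c1 * 1048576 - f.qb * f.qb * f.qb * f.q.sc) ≤ 2 ^ 31 * f.q.sc * (B * √B))
    (hkap : (f.fD || kapOK c x f) = true)
    (dl1 : dlow c f f.q.a0 f.ua0 (tgv f.qa f.q.a0 f.q.sa) f.q.c0 f.ub0 (tgv f.qb f.q.c0 f.q.sc) f.q.l00 = true)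
    (dl2 : dlow c f f.q.a1 f.ua1 (tgv f.qa f.q.a1 f.q.sa) f.q.c0 f.ub0 (tgv f.qb f.q.c0 f.q.sc) f.q.l10 = true)
    (dl3 : dlow c f f.q.a0 f.ua0 (tgv f.qa f.q.a0 f.q.sa) f.q.c1 f.ub1 (tgv f.qb f.q.c1 f.q.sc) f.q.l01 = true)
    (dl4 : dlow c f f.q.a1 f.ua1 (tgv f.qa f.q.a1 f.q.sa) f.q.c1 f.ub1 (tgv f.qb f.q.c1 f.q.sc) f.q.l11 = true) :
    cv m (cv l f.q.l00 f.q.l10) (cv l f.q.l01 f.q.l11) ≤ D * (f.q.sa * f.q.sc * f.q.sd) := by
  have uA := u_nonneg hp.hA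
  have uB := u_nonneg hp.hB
  have rsa : (0:ℝ) < f.q.sa := by exact_mod_cast hsa
  have rsc : (0:ℝ) < f.q.sc := by exact_mod_cast hsc
  have rsd : (0:ℝ) < f.q.sd := by exact_mod_cast hsd
  have ea : cv l f.q.a0 f.q.a1 = A * f.q.sa := by rw [← eA]; field_simp
  have eb : cv m f.q.c0 f.q.c1 = B * f.q.sc := by rw [← eB]; field_simp
  unfold dlow at dl1 dl2 dl3 dl4
  rcases hfD : f.fD with _ | _
  · rw [hfD] at hkap dl1 dl2 dl3 dl4
    rw [Bool.false_or] at hkap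
    have kl := kapOK_sound hkap hp hx hsa hsc l0 l1 m0 m1 eA chA eB chB
    simp only [cond_false] at dl1 dl2 dl3 dl4
    rcases hnk : decide (f.nk ≤ 0) with _ | _
    · rw [hnk] at dl1 dl2 dl3 dl4
      simp only [cond_false, Bool.and_eq_true, decide_eq_true_eq] at dl1 dl2 dl3 dl4
      have hnk' : 0 ≤ f.nk := by
        rw [decide_eq_false_iff_not] at hnk; omega
      have rnk : (0:ℝ) ≤ f.nk := by exact_mod_cast hnk'
      refine lowD_pos l0 l1 m0 m1 rsa rsc rsd rnk uA uB (y0 := (tgv f.qb f.q.c0 f.q.sc : ℤ))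
        (y1 := (tgv f.qb f.q.c1 f.q.sc : ℤ)) (x0 := (tgv f.qa f.q.a0 f.q.sa : ℤ))
        (x1 := (tgv f.qa f.q.a1 f.q.sa : ℤ)) (by exact_mod_cast dl1.1.2) (by exact_mod_cast dl3.1.2)
        ea eb ?_ ?_ ?_ ?_ ?_ ?_ kl
      · rw [mul_one]; exact_mod_cast dl1.2
      · rw [mul_one]; exact_mod_cast dl2.2
      · rw [mul_one]; exact_mod_cast dl3.2
      · rw [mul_one]; exact_mod_cast dl4.2
      · unfold tgv; push_cast; exact tgA
      · unfold tgv; push_cast; exact tgB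
    · rw [hnk] at dl1 dl2 dl3 dl4
      simp only [cond_true, decide_eq_true_eq] at dl1 dl2 dl3 dl4
      rw [decide_eq_true_eq] at hnk
      have rnk : (f.nk:ℝ) ≤ 0 := by exact_mod_cast hnk
      exact lowD_neg l0 l1 m0 m1 rsa rsc rsd rnk uA uB ea eb (by exact_mod_cast dl1) (by exact_mod_cast dl2)
        (by exact_mod_cast dl3) (by exact_mod_cast dl4) chA chB kl
  · rw [hfD] at dl1 dl2 dl3 dl4
    simp only [cond_true, decide_eq_true_eq] at dl1 dl2 dl3 dl4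
    exact lowD_const l0 l1 m0 m1 (by positivity) (by exact_mod_cast dl1) (by exact_mod_cast dl2)
      (by exact_mod_cast dl3) (by exact_mod_cast dl4) hp.dm

theorem dupp_sound {c : Cfg} {x : Cell} {f : Lf} {A B t s D l m : ℝ}
    (hp : Pt c A B t s D) (hx : InC c x A B t s) (hsa : 0 < f.q.sa) (hsc : 0 < f.q.sc) (hsd : 0 < f.q.sd)
    (l0 : 0 ≤ l) (l1 : l ≤ 1) (m0 : 0 ≤ m) (m1 : m ≤ 1)
    (eA : cv l f.q.a0 f.q.a1 / f.q.sa = A) (chA : 2 ^ 30 * (A * √A) ≤ cv l f.ua0 f.ua1)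
    (eB : cv m f.q.c0 f.q.c1 / f.q.sc = B) (chB : 2 ^ 30 * (B * √B) ≤ cv m f.ub0 f.ub1)
    (tgA : cv l (3 * f.qa * f.q.a0 * 1048576 - f.qa * f.qa * f.qa * f.q.sa)
      (3 * f.qa * f.q.a1 * 1048576 - f.qa * f.qa * f.qa * f.q.sa) ≤ 2 ^ 31 * f.q.sa * (A * √A))
    (tgB : cv m (3 * f.qb * f.q.c0 * 1048576 - f.qb * f.qb * f.qb * f.q.sc)
      (3 * f.qb * f.q.c1 * 1048576 - f.qb * f.qb * f.qb * f.q.sc) ≤ 2 ^ 31 * f.q.sc * (B * √B))
    (hkap : kapHi c x f = true)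
    (dl1 : dupp f f.q.a0 f.ua0 (tgv f.qa f.q.a0 f.q.sa) f.q.c0 f.ub0 (tgv f.qb f.q.c0 f.q.sc) f.q.u00 = true)
    (dl2 : dupp f f.q.a1 f.ua1 (tgv f.qa f.q.a1 f.q.sa) f.q.c0 f.ub0 (tgv f.qb f.q.c0 f.q.sc) f.q.u10 = true)
    (dl3 : dupp f f.q.a0 f.ua0 (tgv f.qa f.q.a0 f.q.sa) f.q.c1 f.ub1 (tgv f.qb f.q.c1 f.q.sc) f.q.u01 = true)
    (dl4 : dupp f f.q.a1 f.ua1 (tgv f.qa f.q.a1 f.q.sa) f.q.c1 f.ub1 (tgv f.qb f.q.c1 f.q.sc) f.q.u11 = true) :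
    D * (f.q.sa * f.q.sc * f.q.sd) ≤ cv m (cv l f.q.u00 f.q.u10) (cv l f.q.u01 f.q.u11) := by
  have uA := u_nonneg hp.hA
  have uB := u_nonneg hp.hB
  have rsa : (0:ℝ) < f.q.sa := by exact_mod_cast hsa
  have rsc : (0:ℝ) < f.q.sc := by exact_mod_cast hsc
  have rsd : (0:ℝ) < f.q.sd := by exact_mod_cast hsd
  have ea : cv l f.q.a0 f.q.a1 = A * f.q.sa := by rw [← eA]; field_simp
  have eb : cv m f.q.c0 f.q.c1 = B * f.q.sc := by rw [← eB]; field_simp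
  have kl := kapHi_sound hkap hp hx hsa hsc l0 l1 m0 m1 eA chA eB chB
  unfold dupp at dl1 dl2 dl3 dl4
  rcases hnk : decide (0 ≤ f.nh) with _ | _
  · rw [hnk] at dl1 dl2 dl3 dl4
    simp only [cond_false, Bool.and_eq_true, decide_eq_true_eq] at dl1 dl2 dl3 dl4
    have hnk' : f.nh ≤ 0 := by
      rw [decide_eq_false_iff_not] at hnk; omega
    have rnk : (f.nh:ℝ) ≤ 0 := by exact_mod_cast hnk'
    refine uppD_neg l0 l1 m0 m1 rsa rsc rsd rnk uA uB (y0 := (tgv f.qb f.q.c0 f.q.sc : ℤ))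
      (y1 := (tgv f.qb f.q.c1 f.q.sc : ℤ)) (x0 := (tgv f.qa f.q.a0 f.q.sa : ℤ))
      (x1 := (tgv f.qa f.q.a1 f.q.sa : ℤ)) (by exact_mod_cast dl1.1.2) (by exact_mod_cast dl3.1.2)
      ea eb ?_ ?_ ?_ ?_ ?_ ?_ kl
    · rw [mul_one]; exact_mod_cast dl1.2
    · rw [mul_one]; exact_mod_cast dl2.2
    · rw [mul_one]; exact_mod_cast dl3.2
    · rw [mul_one]; exact_mod_cast dl4.2
    · unfold tgv; push_cast; exact tgA
    · unfold tgv; push_cast; exact tgB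
  · rw [hnk] at dl1 dl2 dl3 dl4
    simp only [cond_true, decide_eq_true_eq] at dl1 dl2 dl3 dl4
    rw [decide_eq_true_eq] at hnk
    have rnk : (0:ℝ) ≤ f.nh := by exact_mod_cast hnk
    exact uppD_pos l0 l1 m0 m1 rsa rsc rsd rnk uA uB ea eb (by exact_mod_cast dl1) (by exact_mod_cast dl2)
      (by exact_mod_cast dl3) (by exact_mod_cast dl4) chA chB kl

theorem leafOK_sound {c : Cfg} {x : Cell} {f : Lf} (hdA : 0 < c.dA) (hdB : 0 < c.dB)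
    (h : leafOK c x f = true) : CellOK c x := by
  intro A B t s D hp hx
  unfold leafOK at h
  simp only [Bool.and_eq_true, decide_eq_true_eq] at h
  obtain ⟨⟨⟨⟨⟨⟨⟨hAx, hBx⟩, hsd⟩, hkap⟩, ⟨⟨⟨dl1, dl2⟩, dl3⟩, dl4⟩⟩, hkh⟩, ⟨⟨⟨du1, du2⟩, du3⟩, du4⟩⟩, ⟨hK, hkr⟩⟩ := h
  obtain ⟨⟨hsa, hst⟩, l, n, l0, l1, n0, n1, eA, et, chA, tgA⟩ :=
    axOK_sound hdA hAx hp.hA hp.tl hx.a0 hx.a1 hx.p0 hx.p1
  obtain ⟨⟨hsc, hss⟩, m, o, m0, m1, o0, o1, eB, es, chB, tgB⟩ :=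
    axOK_sound hdB hBx hp.hB hp.sl hx.c0 hx.c1 hx.q0 hx.q1
  have rsa : (0:ℝ) < f.q.sa := by exact_mod_cast hsa
  have rsc : (0:ℝ) < f.q.sc := by exact_mod_cast hsc
  have rsd : (0:ℝ) < f.q.sd := by exact_mod_cast hsd
  have lo := dlow_sound hp hx hsa hsc hsd l0 l1 m0 m1 eA chA eB chB tgA tgB hkap dl1 dl2 dl3 dl4
  have hi := dupp_sound hp hx hsa hsc hsd l0 l1 m0 m1 eA chA eB chB tgA tgB hkh du1 du2 du3 du4
  obtain ⟨w, w0, w1, ew⟩ := exists_cv lo hi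
  have key := pt_closed c.p f.q ⟨hsa, hsc, hst, hss, hsd⟩ (fun x0 x1 x2 x3 x4 h0 h1 h2 h3 h4 =>
    kronOK_sound (Nat.le_of_ble_eq_true hK) hkr x0 x1 x2 x3 x4 h0 h1 h2 h3 h4) l m n o w l0 l1 m0 m1 n0 n1 o0 o1 w0 w1
  unfold pt at key
  rw [eA, eB, et, es, ew] at key
  have : D * (f.q.sa * f.q.sc * f.q.sd : ℝ) / (f.q.sa * f.q.sc * f.q.sd) = D := by field_simp
  rw [this] at key
  exact key

theorem skipOK_sound {dA m1 m0 A0 A1 P1 a0 a1 sa u0 u1 : ℤ} {A t : ℝ} (hdA : 0 < dA)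
    (h : skipOK dA m1 m0 A0 A1 P1 a0 a1 sa u0 u1 = true)
    (hA : 0 ≤ A) (tl : m1 * A - m0 ≤ 2 ^ 20 * t) (hA0 : A0 ≤ 4096 * dA * A) (hA1 : 4096 * dA * A ≤ A1)
    (hp1 : 32 * t ≤ P1 * (A * √A)) : False := by
  unfold skipOK at h
  simp only [Bool.and_eq_true, decide_eq_true_eq] at h
  obtain ⟨⟨⟨⟨⟨⟨⟨⟨⟨h1, h3⟩, h4⟩, h5⟩, h6⟩, h8⟩, h9⟩, h10⟩, h11⟩, h12⟩ := h
  have r1 : (0:ℝ) < sa := by exact_mod_cast h1
  have r3 : (0:ℝ) ≤ a0 := by exact_mod_cast h3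
  have r4 : (0:ℝ) ≤ a1 := by exact_mod_cast h4
  have r5 : (0:ℝ) ≤ u0 := by exact_mod_cast h5
  have r6 : (0:ℝ) ≤ u1 := by exact_mod_cast h6
  have rdA : (0:ℝ) < dA := by exact_mod_cast hdA
  have r8 : (a0:ℝ) * (4096 * dA) ≤ A0 * sa := by exact_mod_cast h8
  have r9 : (A1:ℝ) * sa ≤ a1 * (4096 * dA) := by exact_mod_cast h9
  have r10 : (a0:ℝ) * a0 * a0 * 1152921504606846976 ≤ u0 * u0 * (sa * sa * sa) := by exact_mod_cast h10
  have r11 : (a1:ℝ) * a1 * a1 * 1152921504606846976 ≤ u1 * u1 * (sa * sa * sa) := by exact_mod_cast h11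
  have x0 : (a0:ℝ) ≤ A * sa := by
    have : (a0:ℝ) * (4096 * dA) ≤ (A * sa) * (4096 * dA) := by nlinarith
    exact le_of_mul_le_mul_right this (by positivity)
  have x1 : A * sa ≤ (a1:ℝ) := by
    have : (A * sa) * (4096 * dA) ≤ (a1:ℝ) * (4096 * dA) := by nlinarith
    exact le_of_mul_le_mul_right this (by positivity)
  obtain ⟨l, l0, l1, el⟩ := exists_cv x0 x1
  have eA : cv l a0 a1 / sa = A := by rw [el]; field_simp
  have ch : 2 ^ 30 * (A * √A) ≤ cv l u0 u1 := by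
    have c1 := u_chord (x0 := a0 / sa) (x1 := a1 / sa) l0 l1 (by positivity) (by positivity)
      (U0 := u0 / 2 ^ 30) (U1 := u1 / 2 ^ 30) (by positivity) (by positivity)
      (by rw [div_pow, div_pow, div_le_div_iff₀ (by positivity) (by positivity)]; nlinarith)
      (by rw [div_pow, div_pow, div_le_div_iff₀ (by positivity) (by positivity)]; nlinarith)
    have c2 : cv l (a0 / sa) (a1 / sa) = A := by
      rw [← eA]; unfold cv; field_simp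
    have c3 : cv l (u0 / 2 ^ 30) (u1 / 2 ^ 30) = cv l u0 u1 / 2 ^ 30 := by
      unfold cv; ring
    rw [c2, c3, le_div_iff₀ (by positivity)] at c1
    linarith
  have u0' : 0 ≤ A * √A := u_nonneg hA
  have cvlt : ∀ a b a' b' : ℝ, a < a' → b < b' → cv l a b < cv l a' b' := by
    intro a b a' b' h h'
    unfold cv
    rcases eq_or_lt_of_le l0 with hl | hl
    · rw [← hl]; linarith
    · have := mul_lt_mul_of_pos_left h' hl
      have := mul_le_mul_of_nonneg_left h.le (by linarith : 0 ≤ 1 - l)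
      linarith
  rcases hP : decide (0 ≤ P1) with _ | _
  · rw [hP] at h12
    simp only [cond_false, Bool.and_eq_true, decide_eq_true_eq] at h12
    have hP' : P1 < 0 := by
      rw [decide_eq_false_iff_not] at hP; omega
    have rP : (P1:ℝ) < 0 := by exact_mod_cast hP'
    have k0 : (0:ℝ) < m1 * a0 - m0 * sa := by exact_mod_cast h12.1
    have k1 : (0:ℝ) < m1 * a1 - m0 * sa := by exact_mod_cast h12.2
    have k2 := cvlt _ _ _ _ k0 k1
    have k3 : cv l ((m1:ℝ) * a0 - m0 * sa) (m1 * a1 - m0 * sa) = m1 * cv l a0 a1 - m0 * sa := by unfold cv; ring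
    have k4 : cv l (0:ℝ) 0 = 0 := by unfold cv; ring
    rw [k3, k4, el] at k2
    have k5 : 0 < (m1 * A - m0 : ℝ) * sa := by linarith
    have k6 : 0 < (m1 * A - m0 : ℝ) := pos_of_mul_pos_left k5 r1.le
    have k7 : (P1:ℝ) * (A * √A) ≤ 0 := mul_nonpos_of_nonpos_of_nonneg rP.le u0'
    linarith
  · rw [hP] at h12
    simp only [cond_true, Bool.and_eq_true, decide_eq_true_eq] at h12
    rw [decide_eq_true_eq] at hP
    have rP : (0:ℝ) ≤ P1 := by exact_mod_cast hP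
    have k0 : (P1 * u0 * sa : ℝ) < 32768 * (m1 * a0 - m0 * sa) := by exact_mod_cast h12.1
    have k1 : (P1 * u1 * sa : ℝ) < 32768 * (m1 * a1 - m0 * sa) := by exact_mod_cast h12.2
    have k2 := cvlt _ _ _ _ k0 k1
    have k3 : cv l ((32768:ℝ) * (m1 * a0 - m0 * sa)) (32768 * (m1 * a1 - m0 * sa)) = 32768 * (m1 * cv l a0 a1 - m0 * sa) := by unfold cv; ring
    have k4 : cv l ((P1:ℝ) * u0 * sa) (P1 * u1 * sa) = P1 * sa * cv l u0 u1 := by unfold cv; ring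
    rw [k3, k4, el] at k2
    have k5 : (P1 * sa : ℝ) * (2 ^ 30 * (A * √A)) ≤ P1 * sa * cv l u0 u1 :=
      mul_le_mul_of_nonneg_left ch (by positivity)
    have k6 : (2 ^ 30 * sa : ℝ) * (32 * t) ≤ (2 ^ 30 * sa) * (P1 * (A * √A)) :=
      mul_le_mul_of_nonneg_left hp1 (by positivity)
    have k7 : (32768 * sa : ℝ) * (m1 * A - m0) ≤ (32768 * sa) * (2 ^ 20 * t) :=
      mul_le_mul_of_nonneg_left tl (by positivity)
    nlinarith

theorem chk_sound {c : Cfg} (hdA : 0 < c.dA) (hdB : 0 < c.dB) {ext : List Cell}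
    (hext : ∀ x ∈ ext, CellOK c x) : ∀ (T : Tr) (x : Cell), chk c ext T x = true → CellOK c x := by
  intro T
  induction T with
  | lf f => intro x h; exact leafOK_sound hdA hdB h
  | skA a0 a1 sa u0 u1 =>
    intro x h A B t s D hp hx
    exact (skipOK_sound hdA h hp.hA hp.tl hx.a0 hx.a1 hx.p1).elim
  | skB a0 a1 sa u0 u1 =>
    intro x h A B t s D hp hx
    exact (skipOK_sound hdB h hp.hB hp.sl hx.c0 hx.c1 hx.q1).elim
  | spA a l r hl hr =>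
    intro x h A B t s D hp hx
    simp only [chk, Bool.and_eq_true] at h
    rcases le_total (4096 * c.dA * A) (a : ℝ) with ha | ha
    · exact hl _ h.1 A B t s D hp ⟨hx.a0, ha, hx.c0, hx.c1, hx.p0, hx.p1, hx.q0, hx.q1⟩
    · exact hr _ h.2 A B t s D hp ⟨ha, hx.a1, hx.c0, hx.c1, hx.p0, hx.p1, hx.q0, hx.q1⟩
  | spC a l r hl hr =>
    intro x h A B t s D hp hx
    simp only [chk, Bool.and_eq_true] at h
    rcases le_total (4096 * c.dB * B) (a : ℝ) with ha | ha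
    · exact hl _ h.1 A B t s D hp ⟨hx.a0, hx.a1, hx.c0, ha, hx.p0, hx.p1, hx.q0, hx.q1⟩
    · exact hr _ h.2 A B t s D hp ⟨hx.a0, hx.a1, ha, hx.c1, hx.p0, hx.p1, hx.q0, hx.q1⟩
  | spP a l r hl hr =>
    intro x h A B t s D hp hx
    simp only [chk, Bool.and_eq_true] at h
    rcases le_total (32 * t) (a * (A * √A) : ℝ) with ha | ha
    · exact hl _ h.1 A B t s D hp ⟨hx.a0, hx.a1, hx.c0, hx.c1, hx.p0, ha, hx.q0, hx.q1⟩
    · exact hr _ h.2 A B t s D hp ⟨hx.a0, hx.a1, hx.c0, hx.c1, ha, hx.p1, hx.q0, hx.q1⟩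
  | spQ a l r hl hr =>
    intro x h A B t s D hp hx
    simp only [chk, Bool.and_eq_true] at h
    rcases le_total (32 * s) (a * (B * √B) : ℝ) with ha | ha
    · exact hl _ h.1 A B t s D hp ⟨hx.a0, hx.a1, hx.c0, hx.c1, hx.p0, hx.p1, hx.q0, ha⟩
    · exact hr _ h.2 A B t s D hp ⟨hx.a0, hx.a1, hx.c0, hx.c1, hx.p0, hx.p1, ha, hx.q1⟩
  | ext =>
    intro x h
    simp only [chk, decide_eq_true_eq] at h
    exact hext x h

end Vale.Agent.P154
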