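import Mathlib

/-!
# The Potts broadcast model on trees cut at depth `n` (problem P154)
-/

namespace Vale.Agent.P154

/-- Finite rooted (plane) trees cut at depth `n`.  `GTree 0` consists of the single vertex, and a
tree of `GTree (n+1)` is given by the number `k ≥ 0` of children of the root and by the `k`
subtrees (cut at depth `n`) below these children. -/
inductive GTree : ℕ → Type
  | leaf : GTree 0
  | node {n : ℕ} (k : ℕ) (t : Fin k → GTree n) : GTree (n + 1)

/-- The `d`-ary tree cut at depth `n`. -/
def reg (d : ℕ) : (n : ℕ) → GTree n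
  | 0 => GTree.leaf
  | n + 1 => GTree.node d (fun _ => reg d n)

/-- Spin configurations on all the vertices of a tree (a finite type): a spin for the root and a
configuration for each of the subtrees below the children of the root. -/
def Conf (q : ℕ) : {n : ℕ} → GTree n → Type
  | _, GTree.leaf => Fin q
  | _, GTree.node k t => Fin q × ((j : Fin k) → Conf q (t j))

/-- Spin configurations on the set `L_n` of the vertices at distance `n` from the root (a finite
type). -/
def LeafConf (q : ℕ) : {n : ℕ} → GTree n → Type
  | _, GTree.leaf => Fin q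
  | _, GTree.node k t => (j : Fin k) → LeafConf q (t j)

/-- The spin of the root. -/
def rootSpin {q : ℕ} : {n : ℕ} → (t : GTree n) → Conf q t → Fin q
  | _, GTree.leaf => fun σ => σ
  | _, GTree.node _ _ => fun σ => σ.1

/-- The spins of the vertices at distance `n` from the root. -/
def leafSpins {q : ℕ} : {n : ℕ} → (t : GTree n) → Conf q t → LeafConf q t
  | _, GTree.leaf => fun σ => σ
  | _, GTree.node _ t => fun σ j => leafSpins (t j) (σ.2 j)

/-- The `q`-state Potts channel `P_λ(j | i) = λ 1_{i=j} + (1-λ)/q`. -/
noncomputable def potts (q : ℕ) (lam : ℝ) (i j : Fin q) : ℝ :=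
  lam * (if i = j then 1 else 0) + (1 - lam) / q

/-- The probability of a spin configuration given the spin of its root: each edge independently
passes the spin of the parent to the child through `P_λ`. -/
noncomputable def condProb {q : ℕ} (lam : ℝ) : {n : ℕ} → (t : GTree n) → Conf q t → ℝ
  | _, GTree.leaf => fun _ => 1
  | _, GTree.node k t => fun σ => ∏ j : Fin k,
      potts q lam σ.1 (rootSpin (t j) (σ.2 j)) * condProb lam (t j) (σ.2 j)

open Classical in
/-- `Pr(σ_ρ = i, σ_{L_n} = c)`; the root spin is uniform (`∑ᶠ` is the sum over a finite type). -/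
noncomputable def jointPr (q : ℕ) (lam : ℝ) {n : ℕ} (t : GTree n) (i : Fin q)
    (c : LeafConf q t) : ℝ :=
  ∑ᶠ σ : Conf q t, if rootSpin t σ = i ∧ leafSpins t σ = c then
    1 / (q : ℝ) * condProb lam t σ else 0

/-- `Pr(σ_{L_n} = c)`. -/
noncomputable def leafPr (q : ℕ) (lam : ℝ) {n : ℕ} (t : GTree n) (c : LeafConf q t) : ℝ :=
  ∑ i, jointPr q lam t i c

/-- `E[ (1/2) ∑_i |Pr(σ_ρ = i | σ_{L_n}) - 1/q| ]` for a fixed tree. -/
noncomputable def advPr (q : ℕ) (lam : ℝ) {n : ℕ} (t : GTree n) : ℝ :=
  ∑ᶠ c : LeafConf q t, leafPr q lam t c *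
    (1 / 2 * ∑ i, |jointPr q lam t i c / leafPr q lam t c - 1 / (q : ℝ)|)

/-- The sequence `a_n` of the Potts broadcast model on the `d`-ary tree. -/
noncomputable def aTree (q d : ℕ) (lam : ℝ) (n : ℕ) : ℝ := advPr q lam (reg d n)

open scoped ENNReal

/-- The law of the Galton–Watson tree with offspring law `p`, cut at depth `n`: all the vertices
have independent numbers of children with law `p`. -/
noncomputable def gwWeight (p : ℕ → ℝ≥0∞) : {n : ℕ} → GTree n → ℝ≥0∞
  | _, GTree.leaf => 1
  | _, GTree.node k t => p k * ∏ j : Fin k, gwWeight p (t j)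

/-- The sequence `a_n` of the Potts broadcast model on the Galton–Watson tree with offspring law
`p`: expectation over the tree and the spins. -/
noncomputable def aGWTree (q : ℕ) (p : ℕ → ℝ≥0∞) (lam : ℝ) (n : ℕ) : ℝ≥0∞ :=
  ∑' t : GTree n, gwWeight p t * ENNReal.ofReal (advPr q lam t)

/-- The Poisson law with mean `d`. -/
noncomputable def poissonLaw (d : ℝ) (k : ℕ) : ℝ≥0∞ :=
  ENNReal.ofReal (Real.exp (-d) * d ^ k / k.factorial)

end Vale.Agent.P154
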