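import Mathlib
import Vale.Agent.P154.Core

/-!
Reading off the signs of the coefficients of a polynomial from its value at a large
power of two (Kronecker substitution).
-/

namespace Vale.Agent.P154

theorem digits_nonneg (K : ℕ) (hK : 0 < K) (N : ℕ) : ∀ (c : ℕ → ℤ)
    (_ : ∀ j, |c j| < 2 ^ (K - 1)) (V : ℕ)
    (_ : (V : ℤ) = ∑ j ∈ Finset.range N, c j * 2 ^ (K * j))
    (_ : ∀ j < N, V.testBit (K * j + (K - 1)) = false), ∀ j < N, 0 ≤ c j := by
  induction N with
  | zero => intro c _ V _ _ j hj; omega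
  | succ N ih =>
    intro c hc V hV hm j hj
    rw [Finset.sum_range_succ'] at hV
    have hsum : ∑ k ∈ Finset.range N, c (k + 1) * 2 ^ (K * (k + 1)) =
        2 ^ K * ∑ k ∈ Finset.range N, c (k + 1) * (2:ℤ) ^ (K * k) := by
      rw [Finset.mul_sum]; apply Finset.sum_congr rfl; intro k _
      rw [mul_add, pow_add, mul_one]; ring
    rw [hsum] at hV
    simp only [mul_zero, pow_zero, mul_one] at hV
    have h2 : (2:ℕ) ^ K = 2 ^ (K - 1) * 2 := by
      rw [← pow_succ]; congr 1; omega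
    have hlt : V % 2 ^ K < 2 ^ (K - 1) := by
      by_contra hge
      push Not at hge
      have hb := hm 0 (Nat.succ_pos _)
      rw [mul_zero, zero_add] at hb
      rw [Nat.testBit_eq_decide_div_mod_eq] at hb
      have h3 : V / 2 ^ (K - 1) % 2 = (V % 2 ^ K) / 2 ^ (K - 1) := by
        rw [h2, Nat.mod_mul_right_div_self]
      rw [h3] at hb
      have h4 : (V % 2 ^ K) / 2 ^ (K - 1) = 1 := by
        have hlt2 : V % 2 ^ K < 2 ^ K := Nat.mod_lt _ (by positivity)
        apply Nat.div_eq_of_lt_le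
        · simpa using hge
        · rw [h2] at hlt2; omega
      rw [h4] at hb
      simp at hb
    have hc0 := hc 0
    rw [abs_lt] at hc0
    set S : ℤ := ∑ k ∈ Finset.range N, c (k + 1) * (2:ℤ) ^ (K * k) with hS
    have hVd : (V : ℤ) = 2 ^ K * ((V / 2 ^ K : ℕ) : ℤ) + ((V % 2 ^ K : ℕ) : ℤ) := by
      have := Nat.div_add_mod V (2 ^ K)
      exact_mod_cast this.symm
    have h2' : (2:ℤ) ^ K = 2 ^ (K - 1) * 2 := by exact_mod_cast h2
    have hltz : ((V % 2 ^ K : ℕ) : ℤ) < 2 ^ (K - 1) := by exact_mod_cast hlt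
    have hnn : (0:ℤ) ≤ ((V % 2 ^ K : ℕ) : ℤ) := Int.natCast_nonneg _
    have hpos : (0:ℤ) < 2 ^ (K - 1) := by positivity
    have hcong : (2:ℤ) ^ K * (S - ((V / 2 ^ K : ℕ) : ℤ)) = ((V % 2 ^ K : ℕ) : ℤ) - c 0 := by
      linarith
    have hz : S - ((V / 2 ^ K : ℕ) : ℤ) = 0 := by
      by_contra hne
      have h5 : 1 ≤ |S - ((V / 2 ^ K : ℕ) : ℤ)| := Int.one_le_abs hne
      have h6 : |(2:ℤ) ^ K * (S - ((V / 2 ^ K : ℕ) : ℤ))| = 2 ^ K * |S - ((V / 2 ^ K : ℕ) : ℤ)| := by
        rw [abs_mul, abs_of_pos (by positivity)]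
      have h7 : |((V % 2 ^ K : ℕ) : ℤ) - c 0| < 2 ^ K := by
        rw [abs_lt]; constructor <;> rw [h2'] <;> linarith [hc0.1, hc0.2]
      rw [← hcong, h6] at h7
      have h8 : (2:ℤ) ^ K * 1 ≤ 2 ^ K * |S - ((V / 2 ^ K : ℕ) : ℤ)| :=
        mul_le_mul_of_nonneg_left h5 (by positivity)
      linarith
    have hc0eq : c 0 = ((V % 2 ^ K : ℕ) : ℤ) := by
      rw [hz, mul_zero] at hcong; linarith
    rcases j with _ | j
    · rw [hc0eq]; exact hnn
    · apply ih (fun k => c (k + 1)) (fun k => hc (k + 1)) (V / 2 ^ K) _ _ j (by omega)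
      · rw [← hS]; linarith
      · intro k hk
        have := hm (k + 1) (by omega)
        rw [Nat.testBit_div_two_pow]
        rw [show K * k + (K - 1) + K = K * (k + 1) + (K - 1) by ring]
        exact this

theorem geo (K N : ℕ) (hK : 0 < K) :
    (2 ^ (K * N) - 1) / (2 ^ K - 1) = ∑ i ∈ Finset.range N, 2 ^ (K * i) := by
  have h1 : 2 ≤ 2 ^ K := by
    calc 2 = 2 ^ 1 := by norm_num
      _ ≤ 2 ^ K := Nat.pow_le_pow_right (by norm_num) hK
  have := Nat.geomSum_eq h1 N
  rw [← pow_mul] at this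
  rw [← this]
  apply Finset.sum_congr rfl
  intro i _
  rw [pow_mul]

theorem geo_odd (K N : ℕ) (hK : 0 < K) (hN : 0 < N) :
    (∑ i ∈ Finset.range N, 2 ^ (K * i)) % 2 = 1 := by
  obtain ⟨M, rfl⟩ : ∃ M, N = M + 1 := ⟨N - 1, by omega⟩
  rw [Finset.sum_range_succ']
  have : (∑ k ∈ Finset.range M, 2 ^ (K * (k + 1))) % 2 = 0 := by
    rw [Finset.sum_nat_mod]
    have : ∀ k ∈ Finset.range M, 2 ^ (K * (k + 1)) % 2 = 0 := by
      intro k _
      have : 0 < K * (k + 1) := by positivity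
      obtain ⟨r, hr⟩ : ∃ r, K * (k + 1) = r + 1 := ⟨K * (k + 1) - 1, by omega⟩
      rw [hr, pow_succ]; simp
    rw [Finset.sum_congr rfl this]; simp
  simp only [mul_zero, pow_zero]
  omega

theorem geo_lt (K N : ℕ) (hK : 0 < K) : (∑ i ∈ Finset.range N, 2 ^ (K * i)) < 2 ^ (K * N) ∨ N = 0 := by
  induction N with
  | zero => right; rfl
  | succ N ih =>
    left
    rw [Finset.sum_range_succ]
    have h1 : 2 * 2 ^ (K * N) ≤ 2 ^ (K * (N + 1)) := by
      rw [← pow_succ']; apply Nat.pow_le_pow_right (by norm_num); nlinarith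
    have hp : 0 < 2 ^ (K * N) := by positivity
    rcases ih with h | h
    · omega
    · subst h; simp at *; omega

theorem mask_testBit (K N j : ℕ) (hK : 0 < K) (hj : j < N) :
    (mask K N).testBit (K * j + (K - 1)) = true := by
  unfold mask
  rw [geo K N hK, Nat.testBit_mul_two_pow]
  simp only [Nat.add_sub_cancel, le_add_iff_nonneg_left, zero_le, decide_true, Bool.true_and]
  rw [Nat.testBit_eq_decide_div_mod_eq]
  have hsplit : ∑ i ∈ Finset.range N, 2 ^ (K * i) =
      ∑ i ∈ Finset.range j, 2 ^ (K * i) + 2 ^ (K * j) * ∑ i ∈ Finset.range (N - j), 2 ^ (K * i) := by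
    conv_lhs => rw [show N = j + (N - j) by omega]
    rw [Finset.sum_range_add, Finset.mul_sum]
    congr 1
    apply Finset.sum_congr rfl
    intro i _
    rw [← pow_add]; congr 1; ring
  have hdiv : (∑ i ∈ Finset.range N, 2 ^ (K * i)) / 2 ^ (K * j) = ∑ i ∈ Finset.range (N - j), 2 ^ (K * i) := by
    rw [hsplit, Nat.add_mul_div_left _ _ (by positivity)]
    rcases geo_lt K j hK with h | h
    · rw [Nat.div_eq_of_lt h, zero_add]
    · subst h; simp
  rw [hdiv, geo_odd K (N - j) hK (by omega)]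
  simp

theorem testBit_of_mask (K N V : ℕ) (hK : 0 < K) (h : V &&& mask K N = 0) (j : ℕ) (hj : j < N) :
    V.testBit (K * j + (K - 1)) = false := by
  have h1 : (V &&& mask K N).testBit (K * j + (K - 1)) = false := by rw [h]; simp
  rw [Nat.testBit_land, mask_testBit K N j hK hj, Bool.and_true] at h1
  exact h1

end Vale.Agent.P154
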