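import Vale.Agent.P154.Sums

/-!
# The Potts broadcast model on trees: first facts (problem P154)
-/

namespace Vale.Agent.P154

open Finset

/-- likelihood of the leaf spins given the root spin, by recursion -/
noncomputable def lik (q : ℕ) (lam : ℝ) : {n : ℕ} → (t : GTree n) → Fin q → LeafConf q t → ℝ
  | _, GTree.leaf, i, c => Pi.single (M := fun _ : Fin q => ℝ) c 1 i
  | _, GTree.node k t, i, c => ∏ j : Fin k, ∑ s, potts q lam i s * lik q lam (t j) s (c j)

open Classical in
theorem sum_condProb (q : ℕ) (lam : ℝ) {n : ℕ} (t : GTree n) : ∀ (i : Fin q)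
    (c : LeafConf q t), ∑ σ : Conf q t,
      (if rootSpin t σ = i ∧ leafSpins t σ = c then condProb lam t σ else 0) =
      lik q lam t i c := by
  induction t with
  | leaf =>
    intro i c
    rw [Finset.sum_eq_single (show Conf q GTree.leaf from i)]
    · by_cases h : (show LeafConf q GTree.leaf from i) = c
      · rw [if_pos ⟨rfl, h⟩, ← h]
        exact (Pi.single_eq_same (M := fun _ : Fin q => ℝ) i (1:ℝ)).symm
      · rw [if_neg (fun h' => h h'.2)]
        exact (Pi.single_eq_of_ne (M := fun _ : Fin q => ℝ) h (1:ℝ)).symm
    · intro b _ hb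
      rw [if_neg (fun h' => hb h'.1)]
    · intro h
      exact absurd (Finset.mem_univ _) h
  | @node n k t ih =>
    intro i c
    change (j : Fin k) → LeafConf q (t j) at c
    have h0 : ∀ σ : Fin q × ((j : Fin k) → Conf q (t j)),
        (if rootSpin (GTree.node k t) σ = i ∧ leafSpins (GTree.node k t) σ = c then
          condProb lam (GTree.node k t) σ else 0) =
        (if σ.1 = i ∧ (fun j => leafSpins (t j) (σ.2 j)) = c then
          ∏ j : Fin k, potts q lam σ.1 (rootSpin (t j) (σ.2 j)) *
            condProb lam (t j) (σ.2 j) else 0) := by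
      intro σ
      by_cases h : σ.1 = i ∧ (fun j => leafSpins (t j) (σ.2 j)) = c
      · rw [if_pos h]
        exact if_pos h
      · rw [if_neg h]
        exact if_neg h
    refine Eq.trans (Finset.sum_congr rfl (fun σ _ => h0 σ)) ?_
    change _ = ∏ j : Fin k, ∑ s, potts q lam i s * lik q lam (t j) s (c j)
    refine Eq.trans (Fintype.sum_prod_type _) ?_
    rw [Finset.sum_eq_single i]
    · have h1 : ∀ f : (j : Fin k) → Conf q (t j),
          (if i = i ∧ (fun j => leafSpins (t j) (f j)) = c then
            ∏ j : Fin k, potts q lam i (rootSpin (t j) (f j)) *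
              condProb lam (t j) (f j) else 0) =
          ∏ j : Fin k, (if leafSpins (t j) (f j) = c j then
            potts q lam i (rootSpin (t j) (f j)) * condProb lam (t j) (f j) else 0) := by
        intro f
        by_cases h : (fun j => leafSpins (t j) (f j)) = c
        · rw [if_pos ⟨rfl, h⟩]
          refine Finset.prod_congr rfl (fun j _ => ?_)
          rw [if_pos (congrFun h j)]
        · rw [if_neg (fun h' => h h'.2)]
          obtain ⟨j, hj⟩ := Function.ne_iff.mp h
          exact (Finset.prod_eq_zero (Finset.mem_univ j) (if_neg hj)).symm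
      rw [Finset.sum_congr rfl (fun f _ => h1 f)]
      have h2 := (Finset.prod_univ_sum (fun j : Fin k => (Finset.univ : Finset (Conf q (t j))))
        (fun j σ => if leafSpins (t j) σ = c j then
            potts q lam i (rootSpin (t j) σ) * condProb lam (t j) σ else 0)).symm
      rw [Fintype.piFinset_univ] at h2
      rw [h2]
      refine Finset.prod_congr rfl (fun j _ => ?_)
      simp only [← ih, Finset.mul_sum]
      rw [Finset.sum_comm]
      refine Finset.sum_congr rfl (fun σ _ => ?_)
      rw [Finset.sum_eq_single (rootSpin (t j) σ)]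
      · by_cases h : leafSpins (t j) σ = c j
        · rw [if_pos h, if_pos ⟨rfl, h⟩]
        · rw [if_neg h, if_neg (fun h' => h h'.2), mul_zero]
      · intro s _ hs
        rw [if_neg (fun h' => hs h'.1.symm), mul_zero]
      · simp
    · intro b _ hb
      apply Finset.sum_eq_zero
      intro f _
      rw [if_neg (fun h' => hb h'.1)]
    · simp

theorem jointProb_eq (q : ℕ) (lam : ℝ) {n : ℕ} (t : GTree n) (i : Fin q)
    (c : LeafConf q t) : jointProb q lam t i c = 1 / (q : ℝ) * lik q lam t i c := by
  unfold jointProb
  rw [← sum_condProb, Finset.mul_sum]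
  refine Finset.sum_congr rfl (fun σ _ => ?_)
  split_ifs <;> simp

end Vale.Agent.P154
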