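import Vale.Agent.P154.Basic
import Vale.Agent.P154.Model

/-! # P154: ensembles of likelihood vectors and the combination inequality -/

namespace Vale.Agent.P154

open Finset

/-- A finite family of likelihood vectors: nonnegative, total mass one in each coordinate, law
invariant under cyclic rotations of the coordinates. -/
structure Ens {Ω : Type} [Fintype Ω] (L : Ω → Fin 3 → ℝ) : Prop where
  nonneg : ∀ c i, 0 ≤ L c i
  sum_one : ∀ i, ∑ c, L c i = 1
  sym : ∀ (φ : (Fin 3 → ℝ) → ℝ) (g : Fin 3), ∑ c, φ (rot g (L c)) = ∑ c, φ (L c)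

/-- unnormalised channel -/
noncomputable def chanL (lam : ℝ) (v : Fin 3 → ℝ) : Fin 3 → ℝ :=
  fun i => lam * v i + (1 - lam) * mean v

/-- normalisation of a vector -/
noncomputable def nrm (v : Fin 3 → ℝ) : Fin 3 → ℝ := fun i => v i / mean v

/-- homogeneous extension of a functional -/
noncomputable def hom (F : (Fin 3 → ℝ) → ℝ) (v : Fin 3 → ℝ) : ℝ := mean v * F (nrm v)

lemma mean_nonneg {v : Fin 3 → ℝ} (hv : ∀ i, 0 ≤ v i) : 0 ≤ mean v := by
  unfold mean
  have := hv 0; have := hv 1; have := hv 2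
  positivity

lemma eq_zero_of_mean {v : Fin 3 → ℝ} (hv : ∀ i, 0 ≤ v i) (h : mean v = 0) : ∀ i, v i = 0 := by
  unfold mean at h
  have h0 := hv 0; have h1 := hv 1; have h2 := hv 2
  intro i
  fin_cases i
  · show v 0 = 0; linarith
  · show v 1 = 0; linarith
  · show v 2 = 0; linarith

lemma nrm_simp {v : Fin 3 → ℝ} (hv : ∀ i, 0 ≤ v i) (h : 0 < mean v) : Simp (nrm v) := by
  refine ⟨fun i => div_nonneg (hv i) h.le, ?_⟩
  have : mean (nrm v) = mean v / mean v := by
    have h3 : ∀ m : ℝ, mean (fun i => v i / m) = mean v / m := by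
      intro m; unfold mean; ring
    exact h3 (mean v)
  rw [this, div_self h.ne']

lemma mean_rot (g : Fin 3) (v : Fin 3 → ℝ) : mean (rot g v) = mean v := by
  unfold mean rot
  fin_cases g
  · simp
  · show (v 1 + v 2 + v 0) / 3 = _
    ring
  · show (v 2 + v 0 + v 1) / 3 = _
    ring

lemma mean_chanL (lam : ℝ) (v : Fin 3 → ℝ) : mean (chanL lam v) = mean v := by
  unfold mean chanL mean
  ring

lemma chanL_nonneg {lam : ℝ} (h0 : 0 ≤ lam) (h1 : lam ≤ 1) {v : Fin 3 → ℝ} (hv : ∀ i, 0 ≤ v i)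
    (i : Fin 3) : 0 ≤ chanL lam v i := by
  have h2 := mean_nonneg hv
  have h3 := hv i
  have h4 : 0 ≤ 1 - lam := by linarith
  unfold chanL
  positivity

lemma nrm_chanL (lam : ℝ) {v : Fin 3 → ℝ} (h : mean v ≠ 0) :
    nrm (chanL lam v) = chan lam (nrm v) := by
  funext i
  unfold nrm
  rw [mean_chanL]
  unfold chanL chan
  field_simp

lemma rot_chanL (lam : ℝ) (g : Fin 3) (v : Fin 3 → ℝ) :
    rot g (chanL lam v) = chanL lam (rot g v) := by
  funext i
  unfold chanL
  rw [mean_rot]
  rfl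

lemma rot_mul (g : Fin 3) (v w : Fin 3 → ℝ) :
    rot g (fun i => v i * w i) = fun i => rot g v i * rot g w i := rfl

lemma nrm_rot (g : Fin 3) (v : Fin 3 → ℝ) : nrm (rot g v) = rot g (nrm v) := by
  funext i
  unfold nrm
  rw [mean_rot]
  rfl

/-- pointwise combination formula -/
lemma hom_mul (F : (Fin 3 → ℝ) → ℝ) {V W : Fin 3 → ℝ} (hV : ∀ i, 0 ≤ V i) (hW : ∀ i, 0 ≤ W i) :
    hom F (fun i => V i * W i) =
      mean V * mean W * (mean (fun i => nrm V i * nrm W i) * F (comb (nrm V) (nrm W))) := by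
  by_cases h1 : mean V = 0
  · have hV0 := eq_zero_of_mean hV h1
    have : mean (fun i => V i * W i) = 0 := by unfold mean; simp [hV0]
    unfold hom
    rw [this, h1]; simp
  by_cases h2 : mean W = 0
  · have hW0 := eq_zero_of_mean hW h2
    have : mean (fun i => V i * W i) = 0 := by unfold mean; simp [hW0]
    unfold hom
    rw [this, h2]; simp
  have e1 : mean (fun i => V i * W i) = mean V * mean W * mean (fun i => nrm V i * nrm W i) := by
    have : (fun i => nrm V i * nrm W i) = fun i => (V i * W i) / (mean V * mean W) := by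
      funext i; unfold nrm; field_simp
    rw [this]
    have h3 : mean (fun i => (V i * W i) / (mean V * mean W)) =
        mean (fun i => V i * W i) / (mean V * mean W) := by
      generalize mean V * mean W = m
      unfold mean
      ring
    rw [h3]
    field_simp
  have e2 : nrm (fun i => V i * W i) = comb (nrm V) (nrm W) := by
    funext i
    unfold comb
    show V i * W i / mean (fun i => V i * W i) = _
    rw [e1]
    show V i * W i / (mean V * mean W * mean (fun i => nrm V i * nrm W i)) =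
      (V i / mean V) * (W i / mean W) / mean (fun j => nrm V j * nrm W j)
    by_cases h3 : mean (fun i => nrm V i * nrm W i) = 0
    · rw [h3]; simp
    · field_simp
  unfold hom
  rw [e2, e1]
  ring

/-- combination with a symmetric ensemble gives the averaged operator -/
lemma sum_hom_mul (F : (Fin 3 → ℝ) → ℝ) {V : Fin 3 → ℝ} (hV : ∀ i, 0 ≤ V i)
    {Ω : Type} [Fintype Ω] {W : Ω → Fin 3 → ℝ} (hW : Ens W) :
    ∑ c, hom F (fun i => V i * W c i) =
      ∑ c, mean V * mean (W c) * Tavg F (nrm V) (nrm (W c)) := by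
  have h1 : ∀ g : Fin 3, ∑ c, hom F (fun i => V i * W c i) =
      ∑ c, mean V * mean (W c) * (mean (fun i => nrm V i * rot g (nrm (W c)) i) *
        F (comb (nrm V) (rot g (nrm (W c))))) := by
    intro g
    have h2 : ∀ c, hom F (fun i => V i * W c i) =
        (fun w : Fin 3 → ℝ => mean V * mean w * (mean (fun i => nrm V i * nrm w i) *
          F (comb (nrm V) (nrm w)))) (W c) := fun c => hom_mul F hV (hW.nonneg c)
    rw [Finset.sum_congr rfl (fun c _ => h2 c)]
    refine (hW.sym (fun w : Fin 3 → ℝ => mean V * mean w *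
      (mean (fun i => nrm V i * nrm w i) * F (comb (nrm V) (nrm w)))) g).symm.trans ?_
    refine Finset.sum_congr rfl (fun c _ => ?_)
    simp only [mean_rot, nrm_rot]
  have h3 : 3 * ∑ c, hom F (fun i => V i * W c i) =
      ∑ g : Fin 3, ∑ c, mean V * mean (W c) * (mean (fun i => nrm V i * rot g (nrm (W c)) i) *
        F (comb (nrm V) (rot g (nrm (W c))))) := by
    rw [Finset.sum_congr rfl (fun g _ => (h1 g).symm)]
    simp
  rw [Finset.sum_comm] at h3
  have h4 : ∀ c, ∑ g : Fin 3, mean V * mean (W c) *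
      (mean (fun i => nrm V i * rot g (nrm (W c)) i) * F (comb (nrm V) (rot g (nrm (W c))))) =
      3 * (mean V * mean (W c) * Tavg F (nrm V) (nrm (W c))) := by
    intro c
    unfold Tavg
    rw [← Finset.mul_sum]
    ring
  rw [Finset.sum_congr rfl (fun c _ => h4 c), ← Finset.mul_sum] at h3
  linarith

/-- product of a pair of ensembles -/
lemma sum_prod_sym {Ω Ω' : Type} [Fintype Ω] [Fintype Ω'] {V : Ω → Fin 3 → ℝ}
    {W : Ω' → Fin 3 → ℝ} (hV : Ens V) (hW : Ens W) :
    Ens (fun (c : Ω × Ω') i => V c.1 i * W c.2 i) := by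
  refine ⟨fun c i => mul_nonneg (hV.nonneg _ _) (hW.nonneg _ _), ?_, ?_⟩
  · intro i
    rw [Fintype.sum_prod_type]
    simp only
    rw [← Finset.sum_mul_sum, hV.sum_one, hW.sum_one, one_mul]
  · intro φ g
    rw [Fintype.sum_prod_type, Fintype.sum_prod_type]
    simp only [rot_mul]
    have h1 : ∀ c : Ω, ∑ c' : Ω', φ (fun i => rot g (V c) i * rot g (W c') i) =
        ∑ c' : Ω', φ (fun i => rot g (V c) i * W c' i) := fun c =>
      hW.sym (fun w => φ (fun i => rot g (V c) i * w i)) g
    rw [Finset.sum_congr rfl (fun c _ => h1 c), Finset.sum_comm]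
    have h2 : ∀ c' : Ω', ∑ c : Ω, φ (fun i => rot g (V c) i * W c' i) =
        ∑ c : Ω, φ (fun i => V c i * W c' i) := fun c' =>
      hV.sym (fun v => φ (fun i => v i * W c' i)) g
    rw [Finset.sum_congr rfl (fun c' _ => h2 c'), Finset.sum_comm]

lemma Ens.chanL {Ω : Type} [Fintype Ω] {L : Ω → Fin 3 → ℝ} (h : Ens L) {lam : ℝ}
    (h0 : 0 ≤ lam) (h1 : lam ≤ 1) : Ens (fun c => chanL lam (L c)) := by
  refine ⟨fun c i => chanL_nonneg h0 h1 (h.nonneg c) i, ?_, ?_⟩
  · intro i
    unfold Vale.Agent.P154.chanL mean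
    rw [Finset.sum_add_distrib, ← Finset.mul_sum, ← Finset.mul_sum, ← Finset.sum_div,
      Finset.sum_add_distrib, Finset.sum_add_distrib, h.sum_one, h.sum_one, h.sum_one, h.sum_one]
    ring
  · intro φ g
    simp only [rot_chanL]
    exact h.sym (fun v => φ (Vale.Agent.P154.chanL lam v)) g

/-- transport along a bijection -/
lemma Ens.of_equiv {Ω Ω' : Type} [Fintype Ω] [Fintype Ω'] (e : Ω' ≃ Ω) {L : Ω → Fin 3 → ℝ}
    (h : Ens L) {L' : Ω' → Fin 3 → ℝ} (hL : ∀ c, L' c = L (e c)) : Ens L' := by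
  have hLf : L' = fun c => L (e c) := funext hL
  subst hLf
  refine ⟨fun c i => h.nonneg _ i, ?_, ?_⟩
  · intro i
    rw [Equiv.sum_comp e (fun c => L c i)]
    exact h.sum_one i
  · intro φ g
    rw [Equiv.sum_comp e (fun c => φ (rot g (L c))), Equiv.sum_comp e (fun c => φ (L c))]
    exact h.sym φ g

/-- product of a finite family of ensembles -/
lemma ens_pi : ∀ (k : ℕ) {Ω : Fin k → Type} [inst : ∀ j, Fintype (Ω j)]
    {L : (j : Fin k) → Ω j → Fin 3 → ℝ}, (∀ j, Ens (L j)) →
    Ens (fun (c : (j : Fin k) → Ω j) i => ∏ j, L j (c j) i) := by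
  intro k
  induction k with
  | zero =>
    intro Ω inst L _
    refine ⟨fun c i => by simp, fun i => by simp, ?_⟩
    intro φ g
    rfl
  | succ k ih =>
    intro Ω inst L h
    have h1 := sum_prod_sym (h 0) (ih (fun j => h j.succ))
    refine h1.of_equiv (Fin.consEquiv Ω).symm ?_
    intro c
    funext i
    rw [Fin.prod_univ_succ]
    rfl

lemma sum_mean {Ω : Type} [Fintype Ω] {L : Ω → Fin 3 → ℝ} (h : Ens L) :
    ∑ c, mean (L c) = 1 := by
  unfold mean
  rw [← Finset.sum_div, Finset.sum_add_distrib, Finset.sum_add_distrib, h.sum_one, h.sum_one,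
    h.sum_one]
  norm_num

/-- one step of the combination inequality -/
theorem combine_step {F F' G : (Fin 3 → ℝ) → ℝ} {lam : ℝ} (h0 : 0 ≤ lam) (h1 : lam ≤ 1)
    (hstep : ∀ z x, Simp z → Simp x → Tavg F' z (chan lam x) ≤ F z + G x)
    {Ω Ω' : Type} [Fintype Ω] [Fintype Ω'] {V : Ω → Fin 3 → ℝ} {W : Ω' → Fin 3 → ℝ}
    (hV : Ens V) (hW : Ens W) :
    ∑ c, ∑ c', hom F' (fun i => V c i * chanL lam (W c') i) ≤
      ∑ c, hom F (V c) + ∑ c', hom G (W c') := by
  have hWc := hW.chanL h0 h1
  have e : ∀ c, ∑ c', hom F' (fun i => V c i * chanL lam (W c') i) =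
      ∑ c', mean (V c) * mean (W c') * Tavg F' (nrm (V c)) (nrm (chanL lam (W c'))) := by
    intro c
    rw [sum_hom_mul F' (hV.nonneg c) hWc]
    simp only [mean_chanL]
  have hle : ∀ c c', mean (V c) * mean (W c') * Tavg F' (nrm (V c)) (nrm (chanL lam (W c'))) ≤
      mean (V c) * mean (W c') * (F (nrm (V c)) + G (nrm (W c'))) := by
    intro c c'
    have hv := mean_nonneg (hV.nonneg c)
    have hw := mean_nonneg (hW.nonneg c')
    rcases hv.eq_or_lt with hv0 | hvpos
    · rw [← hv0]; simp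
    rcases hw.eq_or_lt with hw0 | hwpos
    · rw [← hw0]; simp
    apply mul_le_mul_of_nonneg_left _ (mul_nonneg hv hw)
    rw [nrm_chanL lam hwpos.ne']
    exact hstep _ _ (nrm_simp (hV.nonneg c) hvpos) (nrm_simp (hW.nonneg c') hwpos)
  calc ∑ c, ∑ c', hom F' (fun i => V c i * chanL lam (W c') i)
      = ∑ c, ∑ c', mean (V c) * mean (W c') * Tavg F' (nrm (V c)) (nrm (chanL lam (W c'))) :=
        Finset.sum_congr rfl (fun c _ => e c)
    _ ≤ ∑ c, ∑ c', mean (V c) * mean (W c') * (F (nrm (V c)) + G (nrm (W c'))) :=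
        Finset.sum_le_sum (fun c _ => Finset.sum_le_sum (fun c' _ => hle c c'))
    _ = ∑ c, ∑ c', (hom F (V c) * mean (W c') + mean (V c) * hom G (W c')) := by
        refine Finset.sum_congr rfl (fun c _ => Finset.sum_congr rfl (fun c' _ => ?_))
        unfold hom
        ring
    _ = _ := by
        simp only [Finset.sum_add_distrib]
        rw [← Finset.sum_mul_sum, ← Finset.sum_mul_sum, sum_mean hV, sum_mean hW, mul_one, one_mul]

/-- the base of the combination inequality -/
theorem combine_base {F' G' G : (Fin 3 → ℝ) → ℝ} {lam : ℝ} (h0 : 0 ≤ lam) (h1 : lam ≤ 1)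
    (hstep : ∀ x' x, Simp x' → Simp x → Tavg F' (chan lam x') (chan lam x) ≤ G' x' + G x)
    {Ω Ω' : Type} [Fintype Ω] [Fintype Ω'] {V : Ω → Fin 3 → ℝ} {W : Ω' → Fin 3 → ℝ}
    (hV : Ens V) (hW : Ens W) :
    ∑ c, ∑ c', hom F' (fun i => chanL lam (V c) i * chanL lam (W c') i) ≤
      ∑ c, hom G' (V c) + ∑ c', hom G (W c') := by
  have hVc := hV.chanL h0 h1
  have hWc := hW.chanL h0 h1
  have e : ∀ c, ∑ c', hom F' (fun i => chanL lam (V c) i * chanL lam (W c') i) =
      ∑ c', mean (V c) * mean (W c') *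
        Tavg F' (nrm (chanL lam (V c))) (nrm (chanL lam (W c'))) := by
    intro c
    rw [sum_hom_mul F' (hVc.nonneg c) hWc]
    simp only [mean_chanL]
  have hle : ∀ c c', mean (V c) * mean (W c') *
      Tavg F' (nrm (chanL lam (V c))) (nrm (chanL lam (W c'))) ≤
      mean (V c) * mean (W c') * (G' (nrm (V c)) + G (nrm (W c'))) := by
    intro c c'
    have hv := mean_nonneg (hV.nonneg c)
    have hw := mean_nonneg (hW.nonneg c')
    rcases hv.eq_or_lt with hv0 | hvpos
    · rw [← hv0]; simp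
    rcases hw.eq_or_lt with hw0 | hwpos
    · rw [← hw0]; simp
    apply mul_le_mul_of_nonneg_left _ (mul_nonneg hv hw)
    rw [nrm_chanL lam hwpos.ne', nrm_chanL lam hvpos.ne']
    exact hstep _ _ (nrm_simp (hV.nonneg c) hvpos) (nrm_simp (hW.nonneg c') hwpos)
  calc ∑ c, ∑ c', hom F' (fun i => chanL lam (V c) i * chanL lam (W c') i)
      = ∑ c, ∑ c', mean (V c) * mean (W c') *
        Tavg F' (nrm (chanL lam (V c))) (nrm (chanL lam (W c'))) :=
        Finset.sum_congr rfl (fun c _ => e c)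
    _ ≤ ∑ c, ∑ c', mean (V c) * mean (W c') * (G' (nrm (V c)) + G (nrm (W c'))) :=
        Finset.sum_le_sum (fun c _ => Finset.sum_le_sum (fun c' _ => hle c c'))
    _ = ∑ c, ∑ c', (hom G' (V c) * mean (W c') + mean (V c) * hom G (W c')) := by
        refine Finset.sum_congr rfl (fun c _ => Finset.sum_congr rfl (fun c' _ => ?_))
        unfold hom
        ring
    _ = _ := by
        simp only [Finset.sum_add_distrib]
        rw [← Finset.sum_mul_sum, ← Finset.sum_mul_sum, sum_mean hV, sum_mean hW, mul_one, one_mul]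

end Vale.Agent.P154
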