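import Vale.Agent.P154.KS

/-!
# P154: on the `d`-ary tree the sequence `a_n` is nonincreasing and converges
-/

namespace Vale.Agent.P154

open Finset Filter Topology

section
variable {q d : ℕ} {lam : ℝ}

/-- one more generation of spins -/
noncomputable def ker (q d : ℕ) (lam : ℝ) :
    (n : ℕ) → LeafConf q (reg d n) → LeafConf q (reg d (n + 1)) → ℝ
  | 0, c, c' => ∏ j : Fin d, potts q lam c (c' j)
  | n + 1, c, c' => ∏ j : Fin d, ker q d lam n (c j) (c' j)

lemma sum_pi_prod {X : Type} [Fintype X] (f : Fin d → X → ℝ) :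
    ∑ c : Fin d → X, ∏ j, f j (c j) = ∏ j, ∑ x, f j x := by
  rw [Finset.prod_univ_sum, Fintype.piFinset_univ]

lemma ker_nonneg (hp : ∀ k s : Fin q, 0 ≤ potts q lam k s) :
    ∀ (n : ℕ) (c : LeafConf q (reg d n)) (c' : LeafConf q (reg d (n + 1))),
      0 ≤ ker q d lam n c c'
  | 0, _, _ => Finset.prod_nonneg (fun _ _ => hp _ _)
  | n + 1, _, _ => Finset.prod_nonneg (fun _ _ => ker_nonneg hp n _ _)

lemma ker_sum (hq : 0 < q) : ∀ (n : ℕ) (c : LeafConf q (reg d n)),
    ∑ c', ker q d lam n c c' = 1
  | 0, c => by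
    have h := sum_pi_prod (d := d) (X := Fin q) (fun _ x => potts q lam c x)
    refine Eq.trans h ?_
    exact Finset.prod_eq_one (fun _ _ => potts_row hq c)
  | n + 1, c => by
    have h := sum_pi_prod (d := d) (X := LeafConf q (reg d (n + 1)))
      (fun j x => ker q d lam n (c j) x)
    refine Eq.trans h ?_
    exact Finset.prod_eq_one (fun j _ => ker_sum hq n (c j))

lemma lik_leaf_sum (s : Fin q) (F : Fin q → ℝ) :
    ∑ c : Fin q, Pi.single (M := fun _ : Fin q => ℝ) c 1 s * F c = F s := by
  simp [Pi.single_apply]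

lemma lik_ker : ∀ (n : ℕ) (k : Fin q) (c' : LeafConf q (reg d (n + 1))),
    lik q lam (reg d (n + 1)) k c' = ∑ c, lik q lam (reg d n) k c * ker q d lam n c c'
  | 0, k, c' => by
    change Fin d → Fin q at c'
    change ∏ j : Fin d, ∑ s, potts q lam k s * Pi.single (M := fun _ : Fin q => ℝ) (c' j) 1 s =
      ∑ c : Fin q, Pi.single (M := fun _ : Fin q => ℝ) c 1 k * ∏ j : Fin d, potts q lam c (c' j)
    rw [lik_leaf_sum k (fun c => ∏ j : Fin d, potts q lam c (c' j))]
    refine Finset.prod_congr rfl (fun j _ => ?_)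
    simp [Pi.single_apply]
  | n + 1, k, c' => by
    have h1 : ∀ j : Fin d, ∑ s, potts q lam k s * lik q lam (reg d (n + 1)) s (c' j) =
        ∑ x, mu lam (reg d n) k x * ker q d lam n x (c' j) := by
      intro j
      rw [mu_exp]
      exact Finset.sum_congr rfl (fun s _ => by rw [lik_ker n s (c' j)])
    have h2 : lik q lam (reg d (n + 1 + 1)) k c' =
        ∏ j : Fin d, ∑ s, potts q lam k s * lik q lam (reg d (n + 1)) s (c' j) := rfl
    rw [h2, Finset.prod_congr rfl (fun j _ => h1 j),
      ← sum_pi_prod (fun j x => mu lam (reg d n) k x * ker q d lam n x (c' j))]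
    refine Finset.sum_congr rfl (fun c _ => ?_)
    rw [Finset.prod_mul_distrib]
    rfl

lemma joint_ker (n : ℕ) (i : Fin q) (c' : LeafConf q (reg d (n + 1))) :
    jointProb q lam (reg d (n + 1)) i c' =
      ∑ c, jointProb q lam (reg d n) i c * ker q d lam n c c' := by
  rw [jointProb_eq, lik_ker, Finset.mul_sum]
  refine Finset.sum_congr rfl (fun c _ => ?_)
  rw [jointProb_eq]; ring

lemma leaf_ker (n : ℕ) (c' : LeafConf q (reg d (n + 1))) :
    leafProb q lam (reg d (n + 1)) c' =
      ∑ c, leafProb q lam (reg d n) c * ker q d lam n c c' := by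
  unfold leafProb
  simp only [joint_ker, Finset.sum_mul]
  exact Finset.sum_comm

lemma joint_nonneg (hp : ∀ k s : Fin q, 0 ≤ potts q lam k s) (n : ℕ) (k : Fin q)
    (c : LeafConf q (reg d n)) : 0 ≤ jointProb q lam (reg d n) k c := by
  rw [jointProb_eq]
  have := lik_nonneg (d := d) hp n k c
  positivity

lemma aReg_eq (hp : ∀ k s : Fin q, 0 ≤ potts q lam k s) (n : ℕ) :
    aReg q d lam n = ∑ c : LeafConf q (reg d n), 1 / 2 * ∑ i,
      |jointProb q lam (reg d n) i c - leafProb q lam (reg d n) c / q| := by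
  unfold aReg advantage
  refine Finset.sum_congr rfl (fun c _ => ?_)
  have hL : 0 ≤ leafProb q lam (reg d n) c := Finset.sum_nonneg (fun k _ => joint_nonneg hp n k c)
  rcases hL.eq_or_lt with h0 | h0
  · have hJ : ∀ i, jointProb q lam (reg d n) i c = 0 := by
      intro i
      have h1 := Finset.single_le_sum (f := fun k => jointProb q lam (reg d n) k c)
        (fun k _ => joint_nonneg hp n k c) (Finset.mem_univ i)
      have h2 : ∑ k, jointProb q lam (reg d n) k c = 0 := h0.symm
      exact le_antisymm (h1.trans h2.le) (joint_nonneg hp n i c)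
    simp [← h0, hJ]
  · rw [← mul_assoc, mul_comm (leafProb q lam (reg d n) c) (1 / 2), mul_assoc, Finset.mul_sum]
    congr 1
    refine Finset.sum_congr rfl (fun i _ => ?_)
    have h1 : |leafProb q lam (reg d n) c| = leafProb q lam (reg d n) c := abs_of_pos h0
    rw [← h1, ← abs_mul, h1]
    congr 1
    field_simp

lemma aReg_nonneg (hp : ∀ k s : Fin q, 0 ≤ potts q lam k s) (n : ℕ) : 0 ≤ aReg q d lam n := by
  rw [aReg_eq hp]
  refine Finset.sum_nonneg (fun c _ => ?_)
  have h : 0 ≤ ∑ i, |jointProb q lam (reg d n) i c - leafProb q lam (reg d n) c / q| :=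
    Finset.sum_nonneg (fun i _ => abs_nonneg _)
  positivity

/-- data processing -/
theorem aReg_antitone (hq : 0 < q) (hp : ∀ k s : Fin q, 0 ≤ potts q lam k s) :
    Antitone (aReg q d lam) := by
  refine antitone_nat_of_succ_le (fun n => ?_)
  rw [aReg_eq hp, aReg_eq hp, ← Finset.mul_sum, ← Finset.mul_sum]
  apply mul_le_mul_of_nonneg_left _ (by norm_num)
  have key : ∀ i : Fin q, ∑ c' : LeafConf q (reg d (n + 1)),
      |jointProb q lam (reg d (n + 1)) i c' - leafProb q lam (reg d (n + 1)) c' / q| ≤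
      ∑ c : LeafConf q (reg d n),
        |jointProb q lam (reg d n) i c - leafProb q lam (reg d n) c / q| := by
    intro i
    have h1 : ∀ c' : LeafConf q (reg d (n + 1)),
        |jointProb q lam (reg d (n + 1)) i c' - leafProb q lam (reg d (n + 1)) c' / q| ≤
        ∑ c, |jointProb q lam (reg d n) i c - leafProb q lam (reg d n) c / q| *
          ker q d lam n c c' := by
      intro c'
      have e : jointProb q lam (reg d (n + 1)) i c' - leafProb q lam (reg d (n + 1)) c' / q =
          ∑ c, (jointProb q lam (reg d n) i c - leafProb q lam (reg d n) c / q) *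
            ker q d lam n c c' := by
        rw [joint_ker, leaf_ker, Finset.sum_div, ← Finset.sum_sub_distrib]
        exact Finset.sum_congr rfl (fun c _ => by ring)
      rw [e]
      refine (Finset.abs_sum_le_sum_abs _ _).trans (le_of_eq ?_)
      refine Finset.sum_congr rfl (fun c _ => ?_)
      rw [abs_mul, abs_of_nonneg (ker_nonneg hp n c c')]
    refine (Finset.sum_le_sum (fun c' _ => h1 c')).trans (le_of_eq ?_)
    rw [Finset.sum_comm]
    refine Finset.sum_congr rfl (fun c _ => ?_)
    rw [← Finset.mul_sum, ker_sum hq, mul_one]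
  calc ∑ c' : LeafConf q (reg d (n + 1)), ∑ i,
        |jointProb q lam (reg d (n + 1)) i c' - leafProb q lam (reg d (n + 1)) c' / q| =
      ∑ i, ∑ c' : LeafConf q (reg d (n + 1)),
        |jointProb q lam (reg d (n + 1)) i c' - leafProb q lam (reg d (n + 1)) c' / q| :=
        Finset.sum_comm
    _ ≤ ∑ i, ∑ c : LeafConf q (reg d n),
        |jointProb q lam (reg d n) i c - leafProb q lam (reg d n) c / q| :=
        Finset.sum_le_sum (fun i _ => key i)
    _ = _ := Finset.sum_comm

theorem aReg_tendsto (hq : 0 < q) (hp : ∀ k s : Fin q, 0 ≤ potts q lam k s) :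
    ∃ L, Tendsto (aReg q d lam) atTop (𝓝 L) :=
  ⟨_, tendsto_atTop_ciInf (aReg_antitone hq hp) ⟨0, by
    rintro _ ⟨n, rfl⟩
    exact aReg_nonneg hp n⟩⟩

end

end Vale.Agent.P154
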