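import Vale.Agent.P154.MuMain

/-!
# P154: the certificate theorem for `a_n` (Galton–Watson, `d`-ary and Poisson trees)
-/

namespace Vale.Agent.P154.Mu

open Finset Filter Topology
open scoped ENNReal

variable {q : ℕ} {p : ℕ → ℝ≥0∞} {lam : ℝ}

/-- the reduction of the advantage to the message -/
lemma advantage_eq (hq : 0 < q) (lam : ℝ) {n : ℕ} (t : GTree n) :
    advantage q lam t = EF (fun x : Fin q → ℝ => (1 / (2 * q)) * ∑ i, |x i - 1|) lam t := by
  have hq' : (0:ℝ) < q := by positivity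
  unfold advantage EF
  refine Finset.sum_congr rfl (fun c _ => ?_)
  have hl : leafProb q lam t c = avg (lv lam t c) := by
    unfold leafProb avg lv
    simp only [jointProb_eq]
    rw [← Finset.mul_sum]
    ring
  rw [hl]
  unfold hm
  by_cases hm : avg (lv lam t c) = 0
  · rw [hm]; simp
  · congr 1
    have h1 : ∀ i, jointProb q lam t i c / avg (lv lam t c) - 1 / (q : ℝ) =
        (1 / q) * (nm (lv lam t c) i - 1) := by
      intro i
      rw [jointProb_eq]
      unfold nm lv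
      field_simp
    simp only [h1, abs_mul, ← Finset.mul_sum]
    rw [abs_of_pos (by positivity : (0:ℝ) < 1 / q)]
    ring

lemma advantage_nonneg' (hq : 0 < q) (hl : LamOK q lam) {n : ℕ} (t : GTree n) :
    0 ≤ advantage q lam t := by
  rw [advantage_eq hq]
  have h := EF_mono hq (F := fun _ => (0:ℝ)) (G := fun x => (1 / (2 * q)) * ∑ i, |x i - 1|)
    (fun x _ => by positivity) hl t
  rwa [EF_const hq hl] at h

lemma continuous_adv : Continuous (fun x : Fin q → ℝ => (1 / (2 * q : ℝ)) * ∑ i, |x i - 1|) :=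
  continuous_const.mul (continuous_finsetSum _ (fun i _ =>
    ((continuous_apply i).sub continuous_const).abs))

lemma aGW_eq_EN (hq : 0 < q) (hl : LamOK q lam) (hp : ∑' k, p k = 1) (n : ℕ) :
    aGW q p lam n = ENNReal.ofReal
      (EN p lam (fun x : Fin q → ℝ => (1 / (2 * q)) * ∑ i, |x i - 1|) n) := by
  have h1 : (aGW q p lam n).toReal =
      EN p lam (fun x : Fin q → ℝ => (1 / (2 * q)) * ∑ i, |x i - 1|) n := by
    unfold aGW EN
    rw [toReal_tsum hp (fun t => advantage_nonneg' hq hl t)]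
    exact tsum_congr (fun t => by rw [advantage_eq hq])
  obtain ⟨B, hB⟩ := exists_bound hq (continuous_adv (q := q)).continuousOn
  have h2 : aGW q p lam n ≠ ⊤ := by
    have h3 : aGW q p lam n ≤ ∑' t : GTree n, gwWeight p t * ENNReal.ofReal B := by
      unfold aGW
      refine ENNReal.tsum_le_tsum (fun t => mul_le_mul_right (ENNReal.ofReal_le_ofReal ?_) _)
      rw [advantage_eq hq]
      exact (abs_le.mp (EF_abs_le hq hB hl t)).2
    rw [ENNReal.tsum_mul_right, tsum_gwWeight hp, one_mul] at h3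
    exact ne_top_of_le_ne_top ENNReal.ofReal_ne_top h3
  rw [← h1, ENNReal.ofReal_toReal h2]

lemma adv_le (hq : 0 < q) {ε : ℝ} (hε : 0 < ε) (x : Fin q → ℝ) :
    (1 / (2 * q : ℝ)) * ∑ i, |x i - 1| ≤ (1 / (4 * q * ε)) * sqd x + ε / 4 := by
  have hq' : (0:ℝ) < q := by positivity
  have h1 : ∀ i, |x i - 1| ≤ (x i - 1) ^ 2 / (2 * ε) + ε / 2 := by
    intro i
    have h := sq_nonneg (|x i - 1| - ε)
    have h2 := sq_abs (x i - 1)
    have : |x i - 1| * (2 * ε) ≤ ((x i - 1) ^ 2 / (2 * ε) + ε / 2) * (2 * ε) := by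
      have e : ((x i - 1) ^ 2 / (2 * ε) + ε / 2) * (2 * ε) = (x i - 1) ^ 2 + ε ^ 2 := by
        field_simp
      rw [e]
      nlinarith
    exact le_of_mul_le_mul_right this (by positivity)
  have h2 : ∑ i, |x i - 1| ≤ sqd x / (2 * ε) + q * (ε / 2) := by
    refine (Finset.sum_le_sum (fun i _ => h1 i)).trans (le_of_eq ?_)
    rw [Finset.sum_add_distrib, ← Finset.sum_div, Finset.sum_const, Finset.card_univ,
      Fintype.card_fin, nsmul_eq_mul]
    rfl
  have h3 := mul_le_mul_of_nonneg_left h2 (by positivity : (0:ℝ) ≤ 1 / (2 * q))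
  refine h3.trans (le_of_eq ?_)
  field_simp
  ring

/-- **Nonreconstruction on Galton–Watson trees from certificates.** -/
theorem tendsto_of_cert (hq : 0 < q) (hl : LamOK q lam) (hp : ∑' k, p k = 1) {R : ℕ}
    (αR : Fin R → Fin q → ℂ) (hA : ∀ i, Adm (αR i)) (M : Fin R → ℝ)
    (hM : ∀ i x, Sx x → 1 - gm (αR i) (ch lam x) ≤ M i) {c0 : ℝ} (hc0 : 0 < c0)
    (hlow : ∀ i x, Sx x → c0 * sqd x ≤ 1 - gm (αR i) (ch lam x))
    (cert : ∀ m : Fin R → ℝ, (∀ i, 0 < m i ∧ m i ≤ M i) → CertAt p lam αR m) :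
    Tendsto (aGW q p lam) atTop (𝓝 0) := by
  have hS := EN_sqd_tendsto hq hl hp αR hA M hM hc0 hlow cert
  have hq' : (0:ℝ) < q := by positivity
  have h0 : ∀ n, 0 ≤ EN p lam (fun x : Fin q → ℝ => (1 / (2 * q)) * ∑ i, |x i - 1|) n := by
    intro n
    have h := EN_mono_c (p := p) hq hl hp (F := fun _ : Fin q → ℝ => (0:ℝ))
      (G := fun x : Fin q → ℝ => (1 / (2 * q)) * ∑ i, |x i - 1|)
      continuous_const continuous_adv (fun x _ => by positivity) n
    rwa [EN_const hq hl hp] at h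
  have h1 : Tendsto (EN p lam (fun x : Fin q → ℝ => (1 / (2 * q)) * ∑ i, |x i - 1|)) atTop
      (𝓝 0) := by
    rw [Metric.tendsto_atTop]
    intro ε hε
    have h2 : ∀ n, EN p lam (fun x : Fin q → ℝ => (1 / (2 * q)) * ∑ i, |x i - 1|) n ≤
        (1 / (4 * q * ε)) * EN p lam (sqd (q := q)) n + ε / 4 := by
      intro n
      have h3 := EN_mono_c (p := p) hq hl hp
        (F := fun x : Fin q → ℝ => (1 / (2 * q)) * ∑ i, |x i - 1|)
        (G := fun x => (1 / (4 * q * ε)) * sqd x + (0 * sqd x + ε / 4)) continuous_adv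
        ((continuous_const.mul continuous_sqd).add
          ((continuous_const.mul continuous_sqd).add continuous_const))
        (fun x _ => by
          have := adv_le hq hε x
          linarith) n
      rw [EN_affine hq hl hp continuous_sqd continuous_sqd] at h3
      linarith
    have h4 := (hS.const_mul (1 / (4 * q * ε))).add_const (ε / 4)
    rw [mul_zero, zero_add] at h4
    have h5 := h4.eventually (gt_mem_nhds (by linarith : ε / 4 < ε))
    obtain ⟨N, hN⟩ := eventually_atTop.mp h5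
    refine ⟨N, fun n hn => ?_⟩
    rw [Real.dist_eq, sub_zero, abs_of_nonneg (h0 n)]
    exact (h2 n).trans_lt (hN n hn)
  have h6 := ENNReal.tendsto_ofReal h1
  rw [ENNReal.ofReal_zero] at h6
  refine h6.congr (fun n => ?_)
  rw [aGW_eq_EN hq hl hp]

/-- point mass at `d` -/
noncomputable def dirac (d : ℕ) : ℕ → ℝ≥0∞ := fun k => if k = d then 1 else 0

lemma tsum_dirac (d : ℕ) : ∑' k, dirac d k = 1 := by
  unfold dirac
  rw [tsum_eq_single d]
  · simp
  · intro k hk; simp [hk]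

lemma pgf_dirac (d : ℕ) (y : ℝ) : pgf (dirac d) y = y ^ d := by
  unfold pgf dirac
  rw [tsum_eq_single d]
  · simp
  · intro k hk; simp [hk]

lemma Fp_dirac (d : ℕ) (s : ℝ) : Fp (dirac d) s = 1 - (1 - s) ^ d := by
  unfold Fp; rw [pgf_dirac]

lemma gwWeight_reg (d : ℕ) : ∀ n, gwWeight (dirac d) (reg d n) = 1 := by
  intro n
  induction n with
  | zero => rfl
  | succ n ih =>
    change dirac d d * ∏ j : Fin d, gwWeight (dirac d) (reg d n) = 1
    rw [ih]
    simp [dirac]

/-- **Nonreconstruction on `d`-ary trees from certificates.** -/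
theorem tendsto_reg_of_cert {d : ℕ} (hq : 0 < q) (hl : LamOK q lam) {R : ℕ}
    (αR : Fin R → Fin q → ℂ) (hA : ∀ i, Adm (αR i)) (M : Fin R → ℝ)
    (hM : ∀ i x, Sx x → 1 - gm (αR i) (ch lam x) ≤ M i) {c0 : ℝ} (hc0 : 0 < c0)
    (hlow : ∀ i x, Sx x → c0 * sqd x ≤ 1 - gm (αR i) (ch lam x))
    (cert : ∀ m : Fin R → ℝ, (∀ i, 0 < m i ∧ m i ≤ M i) → CertAt (dirac d) lam αR m) :
    Tendsto (aReg q d lam) atTop (𝓝 0) := by
  have h := tendsto_of_cert hq hl (tsum_dirac d) αR hA M hM hc0 hlow cert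
  have hle : ∀ n, ENNReal.ofReal (aReg q d lam n) ≤ aGW q (dirac d) lam n := by
    intro n
    have h1 := ENNReal.le_tsum (f := fun t : GTree n =>
      gwWeight (dirac d) t * ENNReal.ofReal (advantage q lam t)) (reg d n)
    rw [gwWeight_reg, one_mul] at h1
    exact h1
  have h2 : Tendsto (fun n => ENNReal.ofReal (aReg q d lam n)) atTop (𝓝 0) :=
    tendsto_of_tendsto_of_tendsto_of_le_of_le tendsto_const_nhds h (fun _ => zero_le) hle
  have h3 := (ENNReal.tendsto_toReal ENNReal.zero_ne_top).comp h2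
  rw [ENNReal.toReal_zero] at h3
  refine h3.congr (fun n => ?_)
  exact ENNReal.toReal_ofReal (advantage_nonneg' hq hl (reg d n))

lemma pgf_poisson {d : ℝ} (hd : 0 ≤ d) (y : ℝ) :
    pgf (poissonLaw d) y = Real.exp (-(d * (1 - y))) := by
  unfold pgf poissonLaw
  have e : ∀ k : ℕ, (ENNReal.ofReal (Real.exp (-d) * d ^ k / k.factorial)).toReal * y ^ k =
      Real.exp (-d) * ((d * y) ^ k / k.factorial) := by
    intro k
    rw [ENNReal.toReal_ofReal (by positivity), mul_pow]
    ring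
  rw [tsum_congr e, tsum_mul_left]
  have h := (NormedSpace.expSeries_div_hasSum_exp (𝔸 := ℝ) (d * y)).tsum_eq
  rw [h, ← Real.exp_eq_exp_ℝ, ← Real.exp_add]
  congr 1; ring

lemma Fp_poisson {d : ℝ} (hd : 0 ≤ d) (s : ℝ) :
    Fp (poissonLaw d) s = 1 - Real.exp (-(d * s)) := by
  unfold Fp
  rw [pgf_poisson hd]
  congr 3; ring

lemma lamOK_three {lam : ℝ} : LamOK 3 lam ↔ -(1 / 2) ≤ lam ∧ lam ≤ 1 := by
  unfold LamOK
  push_cast
  constructor
  · rintro ⟨h1, h2⟩; exact ⟨by linarith, h1⟩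
  · rintro ⟨h1, h2⟩; exact ⟨h2, by linarith⟩

end Vale.Agent.P154.Mu
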