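import Vale.Agent.P154.MuMonoP

/-!
# P154: monotonicity in `d` for `d`-ary and Poisson trees
-/

namespace Vale.Agent.P154.Mu

open Finset Filter Topology
open scoped ENNReal

variable {q : ℕ} {lam : ℝ}

lemma gwWeight_ne_reg (d : ℕ) : ∀ {n : ℕ} (t : GTree n), t ≠ reg d n → gwWeight (dirac d) t = 0 := by
  intro n
  induction n with
  | zero =>
    intro t ht
    cases t
    exact absurd rfl ht
  | succ n ih =>
    intro t ht
    cases t with
    | node k s =>
      change dirac d k * ∏ j : Fin k, gwWeight (dirac d) (s j) = 0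
      by_cases hk : k = d
      · subst hk
        have hex : ∃ j, s j ≠ reg k n := by
          by_contra h
          push Not at h
          apply ht
          change GTree.node k s = GTree.node k (fun _ => reg k n)
          congr 1
          funext j
          exact h j
        obtain ⟨j, hj⟩ := hex
        rw [Finset.prod_eq_zero (Finset.mem_univ j) (ih (s j) hj), mul_zero]
      · unfold dirac
        rw [if_neg hk, zero_mul]

lemma aGW_dirac (q d : ℕ) (lam : ℝ) (n : ℕ) :
    aGW q (dirac d) lam n = ENNReal.ofReal (aReg q d lam n) := by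
  unfold aGW aReg
  rw [tsum_eq_single (reg d n)]
  · rw [gwWeight_reg, one_mul]
  · intro t ht
    rw [gwWeight_ne_reg d t ht, zero_mul]

/-- monotonicity in `d` for `d`-ary trees -/
theorem aReg_mono_d (hq : 0 < q) (hl : LamOK q lam) {d d' : ℕ} (h : d ≤ d') (n : ℕ) :
    aReg q d lam n ≤ aReg q d' lam n := by
  have h1 := aGW_mono_law hq hl (tsum_dirac d) (tsum_dirac d') (dom_dirac h) n
  rw [aGW_dirac, aGW_dirac] at h1
  exact (ENNReal.ofReal_le_ofReal_iff (advantage_nonneg' hq hl (reg d' n))).mp h1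

lemma tendsto_reg_mono_d (hq : 0 < q) (hl : LamOK q lam) {d d' : ℕ} (h : d ≤ d')
    (ht : Tendsto (aReg q d' lam) atTop (𝓝 0)) : Tendsto (aReg q d lam) atTop (𝓝 0) :=
  tendsto_of_tendsto_of_tendsto_of_le_of_le tendsto_const_nhds ht
    (fun n => advantage_nonneg' hq hl (reg d n)) (fun n => aReg_mono_d hq hl h n)

/-- Poisson weights -/
noncomputable def pw (d : ℝ) (k : ℕ) : ℝ := Real.exp (-d) * d ^ k / k.factorial

lemma pw_nonneg {d : ℝ} (hd : 0 ≤ d) (k : ℕ) : 0 ≤ pw d k := by unfold pw; positivity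

lemma poisson_toReal {d : ℝ} (hd : 0 ≤ d) (k : ℕ) : (poissonLaw d k).toReal = pw d k := by
  unfold poissonLaw
  exact ENNReal.toReal_ofReal (pw_nonneg hd k)

lemma summable_pw {d : ℝ} (hd : 0 ≤ d) : Summable (pw d) := by
  have h : Summable (fun k => (poissonLaw d k).toReal) :=
    ENNReal.summable_toReal (by rw [tsum_poissonLaw hd]; exact ENNReal.one_ne_top)
  exact h.congr (fun k => poisson_toReal hd k)

lemma tsum_pw {d : ℝ} (hd : 0 ≤ d) : ∑' k, pw d k = 1 := by
  rw [← tsum_congr (fun k => poisson_toReal hd k), ← ENNReal.tsum_toReal_eq, tsum_poissonLaw hd]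
  · simp
  · intro k
    exact ENNReal.ofReal_ne_top

lemma pw_conv (d e : ℝ) (n : ℕ) :
    ∑ kl ∈ antidiagonal n, pw d kl.1 * pw e kl.2 = pw (d + e) n := by
  have h := Commute.add_pow' (Commute.all d e) n
  unfold pw
  rw [h, neg_add, Real.exp_add, Finset.mul_sum, Finset.sum_div]
  refine Finset.sum_congr rfl (fun kl hkl => ?_)
  rw [HasAntidiagonal.mem_antidiagonal] at hkl
  have h1 : (n.choose kl.1 : ℝ) = n.factorial / (kl.1.factorial * kl.2.factorial) := by
    have h2 := Nat.add_choose_mul_factorial_mul_factorial kl.1 kl.2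
    rw [← Nat.choose_symm_add] at h2
    rw [← hkl]
    have h3 : (((kl.1 + kl.2).choose kl.1 : ℕ) : ℝ) * kl.1.factorial * kl.2.factorial =
        (kl.1 + kl.2).factorial := by exact_mod_cast h2
    have h4 : (kl.1.factorial : ℝ) ≠ 0 := by positivity
    have h5 : (kl.2.factorial : ℝ) ≠ 0 := by positivity
    field_simp
    linarith
  rw [nsmul_eq_mul, h1]
  have : (n.factorial : ℝ) ≠ 0 := by positivity
  field_simp

lemma tsum_antidiag {F : ℕ × ℕ → ℝ} (hF : Summable F) :
    ∑' z, F z = ∑' n, ∑ kl ∈ antidiagonal n, F kl := by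
  conv_rhs => congr; ext; rw [← Finset.sum_finset_coe, ← tsum_fintype (L := .unconditional _)]
  rw [← HasAntidiagonal.sigmaAntidiagonalEquivProd.tsum_eq F]
  have hF' := (Equiv.summable_iff HasAntidiagonal.sigmaAntidiagonalEquivProd).mpr hF
  exact Summable.tsum_sigma' (fun n => (hasSum_fintype _).summable) hF'

/-- Poisson laws increase with the mean -/
theorem dom_poisson {d d' : ℝ} (hd : 0 ≤ d) (h : d ≤ d') : Dom (poissonLaw d) (poissonLaw d') := by
  intro f B hf hB
  have hd' : 0 ≤ d' := hd.trans h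
  have he : 0 ≤ d' - d := by linarith
  simp only [poisson_toReal hd, poisson_toReal hd']
  have hsp := summable_pw hd
  have hse := summable_pw he
  have hprod : Summable (fun z : ℕ × ℕ => pw d z.1 * pw (d' - d) z.2) :=
    hsp.mul_of_nonneg hse (fun k => pw_nonneg hd k) (fun k => pw_nonneg he k)
  have hF : Summable (fun z : ℕ × ℕ => pw d z.1 * pw (d' - d) z.2 * f (z.1 + z.2)) := by
    refine Summable.of_norm_bounded (hprod.mul_right B) (fun z => ?_)
    rw [norm_mul, Real.norm_of_nonneg (mul_nonneg (pw_nonneg hd _) (pw_nonneg he _))]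
    exact mul_le_mul_of_nonneg_left (hB _) (mul_nonneg (pw_nonneg hd _) (pw_nonneg he _))
  have hF' : Summable (fun z : ℕ × ℕ => pw d z.1 * pw (d' - d) z.2 * f z.1) := by
    refine Summable.of_norm_bounded (hprod.mul_right B) (fun z => ?_)
    rw [norm_mul, Real.norm_of_nonneg (mul_nonneg (pw_nonneg hd _) (pw_nonneg he _))]
    exact mul_le_mul_of_nonneg_left (hB _) (mul_nonneg (pw_nonneg hd _) (pw_nonneg he _))
  have e1 : ∑' k, pw d' k * f k =
      ∑' z : ℕ × ℕ, pw d z.1 * pw (d' - d) z.2 * f (z.1 + z.2) := by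
    rw [tsum_antidiag hF]
    refine tsum_congr (fun n => ?_)
    have e2 : ∑ kl ∈ antidiagonal n, pw d kl.1 * pw (d' - d) kl.2 * f (kl.1 + kl.2) =
        ∑ kl ∈ antidiagonal n, pw d kl.1 * pw (d' - d) kl.2 * f n := by
      refine Finset.sum_congr rfl (fun kl hkl => ?_)
      rw [HasAntidiagonal.mem_antidiagonal] at hkl
      rw [hkl]
    rw [e2, ← Finset.sum_mul, pw_conv, add_sub_cancel]
  have e3 : ∑' k, pw d k * f k = ∑' z : ℕ × ℕ, pw d z.1 * pw (d' - d) z.2 * f z.1 := by
    rw [Summable.tsum_prod (f := fun z : ℕ × ℕ => pw d z.1 * pw (d' - d) z.2 * f z.1) hF']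
    refine tsum_congr (fun k => ?_)
    have e4 : ∀ l, pw d k * pw (d' - d) l * f k = (pw d k * f k) * pw (d' - d) l := by
      intro l; ring
    rw [tsum_congr e4, tsum_mul_left, tsum_pw he, mul_one]
  rw [e1, e3]
  refine hF'.tsum_le_tsum (fun z => ?_) hF
  exact mul_le_mul_of_nonneg_left (hf (Nat.le_add_right _ _))
    (mul_nonneg (pw_nonneg hd _) (pw_nonneg he _))

/-- monotonicity in `d` for Poisson trees -/
theorem aGW_mono_poisson (hq : 0 < q) (hl : LamOK q lam) {d d' : ℝ} (hd : 0 ≤ d) (h : d ≤ d')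
    (n : ℕ) : aGW q (poissonLaw d) lam n ≤ aGW q (poissonLaw d') lam n :=
  aGW_mono_law hq hl (tsum_poissonLaw hd) (tsum_poissonLaw (hd.trans h)) (dom_poisson hd h) n

lemma tendsto_poisson_mono_d (hq : 0 < q) (hl : LamOK q lam) {d d' : ℝ} (hd : 0 ≤ d) (h : d ≤ d')
    (ht : Tendsto (aGW q (poissonLaw d') lam) atTop (𝓝 0)) :
    Tendsto (aGW q (poissonLaw d) lam) atTop (𝓝 0) :=
  tendsto_of_tendsto_of_tendsto_of_le_of_le tendsto_const_nhds ht (fun _ => zero_le)
    (fun n => aGW_mono_poisson hq hl hd h n)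

end Vale.Agent.P154.Mu
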