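import Vale.Agent.P154.MuKS
import Vale.Agent.P154.MuMonoD

/-!
# P154: the (classical) Kesten–Stigum direction on Galton–Watson trees, annealed part
-/

namespace Vale.Agent.P154.Mu

open Finset Filter Topology
open scoped ENNReal

variable {q : ℕ} {lam : ℝ} {p : ℕ → ℝ≥0∞}

/-- sum over ordered pairs of distinct indices -/
noncomputable def pr : (k : ℕ) → (Fin k → ℝ≥0∞) → ℝ≥0∞
  | 0, _ => 0
  | k + 1, a => 2 * a 0 * ∑ j : Fin k, a j.succ + pr k (fun j => a j.succ)

/-- sum over ordered pairs of distinct indices -/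
noncomputable def prR : (k : ℕ) → (Fin k → ℝ) → ℝ
  | 0, _ => 0
  | k + 1, a => 2 * a 0 * ∑ j : Fin k, a j.succ + prR k (fun j => a j.succ)

lemma prR_eq : ∀ (k : ℕ) (a : Fin k → ℝ), (∑ j, a j) ^ 2 - ∑ j, a j ^ 2 = prR k a := by
  intro k
  induction k with
  | zero => intro a; simp [prR]
  | succ k ih =>
    intro a
    rw [Fin.sum_univ_succ, Fin.sum_univ_succ]
    change _ = 2 * a 0 * ∑ j : Fin k, a j.succ + prR k (fun j => a j.succ)
    rw [← ih (fun j => a j.succ)]
    ring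

lemma prR_nonneg : ∀ (k : ℕ) (a : Fin k → ℝ), (∀ j, 0 ≤ a j) → 0 ≤ prR k a := by
  intro k
  induction k with
  | zero => intro a _; exact le_rfl
  | succ k ih =>
    intro a ha
    exact add_nonneg (mul_nonneg (mul_nonneg (by norm_num) (ha 0))
      (Finset.sum_nonneg (fun j _ => ha j.succ))) (ih _ (fun j => ha j.succ))

lemma ofReal_prR : ∀ (k : ℕ) (a : Fin k → ℝ), (∀ j, 0 ≤ a j) →
    ENNReal.ofReal (prR k a) = pr k (fun j => ENNReal.ofReal (a j)) := by
  intro k
  induction k with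
  | zero => intro a _; simp [pr, prR]
  | succ k ih =>
    intro a ha
    change ENNReal.ofReal (2 * a 0 * ∑ j : Fin k, a j.succ + prR k (fun j => a j.succ)) =
      2 * ENNReal.ofReal (a 0) * ∑ j : Fin k, ENNReal.ofReal (a j.succ) +
        pr k (fun j => ENNReal.ofReal (a j.succ))
    rw [ENNReal.ofReal_add (mul_nonneg (mul_nonneg (by norm_num) (ha 0))
      (Finset.sum_nonneg (fun j _ => ha j.succ))) (prR_nonneg k _ (fun j => ha j.succ)),
      ih _ (fun j => ha j.succ), ENNReal.ofReal_mul (mul_nonneg (by norm_num) (ha 0)),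
      ENNReal.ofReal_mul (by norm_num), ENNReal.ofReal_sum_of_nonneg (fun j _ => ha j.succ)]
    norm_num

lemma tsum_pi_pair {X : Type} {w : X → ℝ≥0∞} (hw : ∑' x, w x = 1) (h : X → ℝ≥0∞) : ∀ k : ℕ,
    ∑' t : Fin k → X, (∏ j, w (t j)) * pr k (fun j => h (t j)) =
      ((k * (k - 1) : ℕ) : ℝ≥0∞) * (∑' x, w x * h x) ^ 2 := by
  intro k
  induction k with
  | zero => simp [pr]
  | succ k ih =>
    rw [tsum_pi_cons]
    have e : ∀ x : X, ∑' t : Fin k → X, (∏ j, w ((Fin.cons x t : Fin (k + 1) → X) j)) *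
        pr (k + 1) (fun j => h ((Fin.cons x t : Fin (k + 1) → X) j)) =
        2 * (w x * h x) * (k * ∑' x, w x * h x) +
          w x * (((k * (k - 1) : ℕ) : ℝ≥0∞) * (∑' x, w x * h x) ^ 2) := by
      intro x
      rw [← ih, ← tsum_pi_sum hw h, ← ENNReal.tsum_mul_left, ← ENNReal.tsum_mul_left,
        ← ENNReal.tsum_add]
      refine tsum_congr (fun t => ?_)
      rw [Fin.prod_univ_succ]
      change w x * (∏ j : Fin k, w (t j)) * (2 * h x * ∑ j : Fin k, h (t j) +
        pr k (fun j => h (t j))) = _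
      ring
    rw [tsum_congr e, ENNReal.tsum_add, ENNReal.tsum_mul_right, ENNReal.tsum_mul_right, hw,
      ENNReal.tsum_mul_left, one_mul]
    have e2 : (((k + 1) * (k + 1 - 1) : ℕ) : ℝ≥0∞) = 2 * k + ((k * (k - 1) : ℕ) : ℝ≥0∞) := by
      have : (k + 1) * (k + 1 - 1) = 2 * k + k * (k - 1) := by
        rcases k with _ | k
        · rfl
        · simp only [Nat.add_sub_cancel]; ring
      rw [this]
      push_cast
      ring
    rw [e2]
    ring

/-- the expected number of leaves -/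
lemma EZ_eq (hp : ∑' k, p k = 1) (n : ℕ) :
    ∑' t : GTree n, gwWeight p t * ENNReal.ofReal (Zt t) = (∑' k, p k * k) ^ n := by
  induction n with
  | zero =>
    rw [tsum_gtree_zero]
    simp [gwWeight, Zt]
  | succ n ih =>
    rw [tsum_gtree_succ]
    have e : ∀ k : ℕ, ∑' t : Fin k → GTree n,
        gwWeight p (GTree.node k t) * ENNReal.ofReal (Zt (GTree.node k t)) =
        p k * k * (∑' k, p k * k) ^ n := by
      intro k
      have e1 : ∀ t : Fin k → GTree n,
          gwWeight p (GTree.node k t) * ENNReal.ofReal (Zt (GTree.node k t)) =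
          p k * ((∏ j : Fin k, gwWeight p (t j)) * ∑ j, ENNReal.ofReal (Zt (t j))) := by
        intro t
        change (p k * ∏ j : Fin k, gwWeight p (t j)) * ENNReal.ofReal (∑ j, Zt (t j)) = _
        rw [ENNReal.ofReal_sum_of_nonneg (fun j _ => Zt_nonneg (t j)), mul_assoc]
      rw [tsum_congr e1, ENNReal.tsum_mul_left, tsum_pi_sum (tsum_gwWeight hp n)
        (fun t => ENNReal.ofReal (Zt t)), ih, mul_assoc]
    rw [tsum_congr e, ENNReal.tsum_mul_right, pow_succ, mul_comm]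

lemma ES_succ (hq : 0 < q) (hl : LamOK q lam) (hp : ∑' k, p k = 1) (i : Fin q) (n : ℕ) :
    ∑' t : GTree (n + 1), gwWeight p t * ENNReal.ofReal (S2 q lam i t) =
      (∑' k, p k * k) * ∑' t : GTree n, gwWeight p t * ENNReal.ofReal (S2 q lam i t) +
      ENNReal.ofReal ((lam ^ (n + 1)) ^ 2 * ∑ k, cen i k ^ 2) *
        ((∑' k : ℕ, p k * ((k * (k - 1) : ℕ) : ℝ≥0∞)) * ((∑' k, p k * k) ^ n) ^ 2) := by
  have hW : 0 ≤ ∑ k : Fin q, cen i k ^ 2 := Finset.sum_nonneg (fun k _ => sq_nonneg _)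
  rw [tsum_gtree_succ]
  have e : ∀ k : ℕ, ∑' t : Fin k → GTree n,
      gwWeight p (GTree.node k t) * ENNReal.ofReal (S2 q lam i (GTree.node k t)) =
      p k * k * ∑' t : GTree n, gwWeight p t * ENNReal.ofReal (S2 q lam i t) +
      ENNReal.ofReal ((lam ^ (n + 1)) ^ 2 * ∑ k, cen i k ^ 2) *
        (p k * ((k * (k - 1) : ℕ) : ℝ≥0∞) * ((∑' k, p k * k) ^ n) ^ 2) := by
    intro k
    have e1 : ∀ t : Fin k → GTree n,
        gwWeight p (GTree.node k t) * ENNReal.ofReal (S2 q lam i (GTree.node k t)) =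
        p k * ((∏ j : Fin k, gwWeight p (t j)) * ∑ j, ENNReal.ofReal (S2 q lam i (t j))) +
        (ENNReal.ofReal ((lam ^ (n + 1)) ^ 2 * ∑ k, cen i k ^ 2) * p k) *
          ((∏ j : Fin k, gwWeight p (t j)) * pr k (fun j => ENNReal.ofReal (Zt (t j)))) := by
      intro t
      change (p k * ∏ j : Fin k, gwWeight p (t j)) *
        ENNReal.ofReal (S2 q lam i (GTree.node k t)) = _
      rw [S2_node hq hl i t, prR_eq, ENNReal.ofReal_add
        (Finset.sum_nonneg (fun j _ => S2_nonneg hq hl i (t j)))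
        (mul_nonneg (mul_nonneg (by positivity) hW) (prR_nonneg k _ (fun j => Zt_nonneg (t j)))),
        ENNReal.ofReal_sum_of_nonneg (fun j _ => S2_nonneg hq hl i (t j)),
        ENNReal.ofReal_mul (mul_nonneg (by positivity) hW),
        ofReal_prR k _ (fun j => Zt_nonneg (t j))]
      ring
    rw [tsum_congr e1, ENNReal.tsum_add, ENNReal.tsum_mul_left, ENNReal.tsum_mul_left,
      tsum_pi_sum (tsum_gwWeight hp n) (fun t => ENNReal.ofReal (S2 q lam i t)),
      tsum_pi_pair (tsum_gwWeight hp n) (fun t => ENNReal.ofReal (Zt t)), EZ_eq hp]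
    ring
  rw [tsum_congr e, ENNReal.tsum_add, ENNReal.tsum_mul_right, ENNReal.tsum_mul_left,
    ENNReal.tsum_mul_right]

lemma final_ineq {Q V K Y L μ X a : ℝ} {n : ℕ} (hQ : 0 < Q) (hV : 0 < V) (hK : 0 < K)
    (hY : 0 < Y) (h1 : V * L * μ ^ n = V * Y) (h2 : X = Y ^ 2) (ha : 0 ≤ a) (hL : 0 ≤ V * L)
    (hμ : 0 ≤ μ)
    (h : ENNReal.ofReal (V * L) * ENNReal.ofReal μ ^ n ≤
      ENNReal.ofReal (Q * V / (K * Y) / (2 * Q)) * ENNReal.ofReal (K * X) +
      ENNReal.ofReal (1 / (Q * V / (K * Y))) * ENNReal.ofReal a) :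
    Q * V ^ 2 / (2 * K) ≤ a := by
  subst h2
  have p1 : 0 ≤ Q * V / (K * Y) / (2 * Q) := by positivity
  have p2 : 0 ≤ K * Y ^ 2 := by positivity
  have p3 : 0 ≤ 1 / (Q * V / (K * Y)) := by positivity
  have p4 := mul_nonneg p1 p2
  have p5 := mul_nonneg p3 ha
  rw [← ENNReal.ofReal_pow hμ, ← ENNReal.ofReal_mul hL, ← ENNReal.ofReal_mul p1,
    ← ENNReal.ofReal_mul p3, ← ENNReal.ofReal_add p4 p5,
    ENNReal.ofReal_le_ofReal_iff (add_nonneg p4 p5), h1] at h
  have e2 : Q * V / (K * Y) / (2 * Q) * (K * Y ^ 2) = V * Y / 2 := by field_simp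
  rw [e2] at h
  have h4 : V * Y / 2 ≤ 1 / (Q * V / (K * Y)) * a := by linarith
  have hθp : 0 < Q * V / (K * Y) := by positivity
  have h5 := mul_le_mul_of_nonneg_left h4 hθp.le
  have e3 : Q * V / (K * Y) * (V * Y / 2) = Q * V ^ 2 / (2 * K) := by field_simp
  have e4 : Q * V / (K * Y) * (1 / (Q * V / (K * Y)) * a) = a := by field_simp
  rw [e3, e4] at h5
  exact h5

/-- **Kesten–Stigum on Galton–Watson trees.** -/
theorem ks_GW (hq : 2 ≤ q) (hl : LamOK q lam) (hp : ∑' k, p k = 1) {μ ν : ℝ} (hμ0 : 0 < μ)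
    (hν0 : 0 ≤ ν) (hμ : ∑' k, p k * k = ENNReal.ofReal μ)
    (hν : ∑' k : ℕ, p k * ((k * (k - 1) : ℕ) : ℝ≥0∞) = ENNReal.ofReal ν)
    (hth : 1 < μ * lam ^ 2) :
    ∃ c : ℝ, 0 < c ∧ ∀ n, ENNReal.ofReal c ≤ aGW q p lam n := by
  have hq0 : 0 < q := by omega
  have hq' : (0 : ℝ) < q := by exact_mod_cast hq0
  have hq2 : (2 : ℝ) ≤ q := by exact_mod_cast hq
  obtain ⟨i⟩ : Nonempty (Fin q) := ⟨⟨0, hq0⟩⟩
  have hV : 0 < 1 - 1 / (q : ℝ) := by
    rw [sub_pos, div_lt_one hq']; linarith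
  have hci : cen i i = 1 - 1 / (q : ℝ) := by unfold cen; simp
  have hW : 0 < ∑ k, cen i k ^ 2 := by
    refine lt_of_lt_of_le ?_ (Finset.single_le_sum (f := fun k => cen i k ^ 2)
      (fun k _ => sq_nonneg _) (Finset.mem_univ i))
    rw [hci]; positivity
  set W := ∑ k, cen i k ^ 2 with hWd
  set V := 1 / (q : ℝ) * (1 - 1 / (q : ℝ)) with hVd
  have hVp : 0 < V := by positivity
  have hlam2 : 0 < lam ^ 2 := by
    rcases (sq_nonneg lam).eq_or_lt with h | h
    · rw [← h] at hth; simp at hth; linarith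
    · exact h
  have hden : 0 < μ * (μ * lam ^ 2 - 1) := by
    have : 0 < μ * lam ^ 2 - 1 := by linarith
    positivity
  set K := W + W * lam ^ 2 * ν / (μ * (μ * lam ^ 2 - 1)) with hK
  have hKp : 0 < K := by positivity
  have hKr : μ * K + W * lam ^ 2 * ν ≤ K * (μ * lam) ^ 2 := by
    have h1 : K * (μ * lam) ^ 2 - μ * K = K * (μ * (μ * lam ^ 2 - 1)) := by ring
    have h2 : W * lam ^ 2 * ν ≤ K * (μ * (μ * lam ^ 2 - 1)) := by
      rw [hK, add_mul, div_mul_cancel₀ _ hden.ne']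
      have : 0 ≤ W * (μ * (μ * lam ^ 2 - 1)) := by positivity
      linarith
    linarith
  -- the second moment
  have hES : ∀ n, ∑' t : GTree n, gwWeight p t * ENNReal.ofReal (S2 q lam i t) ≤
      ENNReal.ofReal (K * ((μ * lam) ^ 2) ^ n) := by
    intro n
    induction n with
    | zero =>
      rw [tsum_gtree_zero]
      change 1 * ENNReal.ofReal (S2 q lam i GTree.leaf) ≤ _
      rw [one_mul, S2_leaf, pow_zero, mul_one]
      apply ENNReal.ofReal_le_ofReal
      have : 0 ≤ W * lam ^ 2 * ν / (μ * (μ * lam ^ 2 - 1)) := by positivity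
      linarith
    | succ n ih =>
      rw [ES_succ hq0 hl hp, hμ, hν, ← hWd]
      have h1 : ENNReal.ofReal μ * ∑' t : GTree n, gwWeight p t * ENNReal.ofReal (S2 q lam i t) ≤
          ENNReal.ofReal (μ * (K * ((μ * lam) ^ 2) ^ n)) := by
        rw [ENNReal.ofReal_mul hμ0.le]
        exact mul_le_mul_right ih _
      have h2 : ENNReal.ofReal ((lam ^ (n + 1)) ^ 2 * W) *
          (ENNReal.ofReal ν * (ENNReal.ofReal μ ^ n) ^ 2) =
          ENNReal.ofReal ((lam ^ (n + 1)) ^ 2 * W * (ν * (μ ^ n) ^ 2)) := by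
        rw [ENNReal.ofReal_mul (p := (lam ^ (n + 1)) ^ 2 * W) (by positivity),
          ENNReal.ofReal_mul hν0, ENNReal.ofReal_pow (by positivity), ENNReal.ofReal_pow hμ0.le]
      rw [h2]
      refine (add_le_add h1 le_rfl).trans ?_
      rw [← ENNReal.ofReal_add (by positivity) (by positivity)]
      apply ENNReal.ofReal_le_ofReal
      have hX : 0 ≤ ((μ * lam) ^ 2) ^ n := by positivity
      have e0 : ((μ * lam) ^ 2) ^ n = (μ ^ n) ^ 2 * (lam ^ n) ^ 2 := by
        rw [← pow_mul, ← pow_mul, ← pow_mul, mul_comm 2 n, mul_pow]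
      have e1 : (lam ^ (n + 1)) ^ 2 * W * (ν * (μ ^ n) ^ 2) =
          ((μ * lam) ^ 2) ^ n * (W * lam ^ 2 * ν) := by
        rw [e0, pow_succ lam n]
        ring
      rw [e1, pow_succ ((μ * lam) ^ 2) n]
      generalize ((μ * lam) ^ 2) ^ n = X at hX ⊢
      have := mul_le_mul_of_nonneg_left hKr hX
      calc μ * (K * X) + X * (W * lam ^ 2 * ν) = X * (μ * K + W * lam ^ 2 * ν) := by ring
        _ ≤ X * (K * (μ * lam) ^ 2) := this
        _ = K * (X * (μ * lam) ^ 2) := by ring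
  refine ⟨q * V ^ 2 / (2 * K), by positivity, fun n => ?_⟩
  rw [aGW_eq_EN hq0 hl hp]
  set a := EN p lam (fun x : Fin q → ℝ => (1 / (2 * q)) * ∑ i, |x i - 1|) n with ha
  have ha0 : 0 ≤ a := by
    have h := EN_mono_c (p := p) hq0 hl hp (F := fun _ : Fin q → ℝ => (0:ℝ))
      (G := fun x : Fin q → ℝ => (1 / (2 * q)) * ∑ i, |x i - 1|)
      continuous_const continuous_adv (fun x _ => by positivity) n
    rwa [EN_const hq0 hl hp] at h
  apply ENNReal.ofReal_le_ofReal
  set Y := (μ * |lam|) ^ n with hY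
  have hlam : 0 < |lam| := by
    rw [abs_pos]; intro h; rw [h] at hlam2; simp at hlam2
  have hYp : 0 < Y := by positivity
  have hY2 : Y ^ 2 = ((μ * lam) ^ 2) ^ n := by
    have e : (μ * lam) ^ 2 = (μ * |lam|) ^ 2 := by rw [mul_pow, mul_pow, sq_abs]
    rw [hY, e, ← pow_mul, ← pow_mul, mul_comm n 2]
  set θ := q * V / (K * Y) with hθ
  have hθp : 0 < θ := by positivity
  -- quenched inequality
  have hqn : ∀ t : GTree n, V * |lam| ^ n * Zt t ≤
      θ / (2 * q) * S2 q lam i t + 1 / θ * advantage q lam t := by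
    intro t
    have h1 := corr_t hq0 hl i t
    have hS := S2_nonneg hq0 hl i t
    have hA := advantage_nonneg' hq0 hl t
    have hZ := Zt_nonneg t
    have hr : 0 ≤ θ / (2 * q) * S2 q lam i t + 1 / θ * advantage q lam t := by positivity
    have h2 : (V * |lam| ^ n * Zt t) ^ 2 ≤
        (θ / (2 * q) * S2 q lam i t + 1 / θ * advantage q lam t) ^ 2 := by
      have e1 : (V * |lam| ^ n * Zt t) ^ 2 = (V * (lam ^ n * Zt t)) ^ 2 := by
        have : (|lam| ^ n) ^ 2 = (lam ^ n) ^ 2 := by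
          rw [← pow_mul, mul_comm n 2, pow_mul, sq_abs, ← pow_mul, mul_comm 2 n, pow_mul]
        calc (V * |lam| ^ n * Zt t) ^ 2 = V ^ 2 * (|lam| ^ n) ^ 2 * Zt t ^ 2 := by ring
          _ = _ := by rw [this]; ring
      rw [e1]
      refine h1.trans ?_
      have e2 : (1 / q * S2 q lam i t) * (2 * advantage q lam t) =
          4 * ((θ / (2 * q) * S2 q lam i t) * (1 / θ * advantage q lam t)) := by
        field_simp
        ring
      rw [e2]
      nlinarith [sq_nonneg (θ / (2 * q) * S2 q lam i t - 1 / θ * advantage q lam t)]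
    exact (abs_le_of_sq_le_sq' h2 hr).2
  have hsum : ENNReal.ofReal (V * |lam| ^ n) * ENNReal.ofReal μ ^ n ≤
      ENNReal.ofReal (θ / (2 * q)) * ENNReal.ofReal (K * ((μ * lam) ^ 2) ^ n) +
      ENNReal.ofReal (1 / θ) * ENNReal.ofReal a := by
    have h1 : ∑' t : GTree n, gwWeight p t * ENNReal.ofReal (V * |lam| ^ n * Zt t) ≤
        ∑' t : GTree n, gwWeight p t *
          ENNReal.ofReal (θ / (2 * q) * S2 q lam i t + 1 / θ * advantage q lam t) :=
      ENNReal.tsum_le_tsum (fun t => mul_le_mul_right (ENNReal.ofReal_le_ofReal (hqn t)) _)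
    have h2 : ∑' t : GTree n, gwWeight p t * ENNReal.ofReal (V * |lam| ^ n * Zt t) =
        ENNReal.ofReal (V * |lam| ^ n) * ENNReal.ofReal μ ^ n := by
      rw [← hμ, ← EZ_eq hp, ← ENNReal.tsum_mul_left]
      refine tsum_congr (fun t => ?_)
      rw [ENNReal.ofReal_mul (by positivity)]
      ring
    have h3 : ∑' t : GTree n, gwWeight p t *
          ENNReal.ofReal (θ / (2 * q) * S2 q lam i t + 1 / θ * advantage q lam t) =
        ENNReal.ofReal (θ / (2 * q)) *
          ∑' t : GTree n, gwWeight p t * ENNReal.ofReal (S2 q lam i t) +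
        ENNReal.ofReal (1 / θ) * aGW q p lam n := by
      unfold aGW
      rw [← ENNReal.tsum_mul_left, ← ENNReal.tsum_mul_left, ← ENNReal.tsum_add]
      refine tsum_congr (fun t => ?_)
      have hS := S2_nonneg hq0 hl i t
      have hA := advantage_nonneg' hq0 hl t
      rw [ENNReal.ofReal_add (by positivity) (by positivity), ENNReal.ofReal_mul (by positivity),
        ENNReal.ofReal_mul (by positivity)]
      ring
    rw [h2, h3, aGW_eq_EN hq0 hl hp] at h1
    exact h1.trans (add_le_add (mul_le_mul_right (hES n) _) le_rfl)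
  exact final_ineq hq' hVp hKp hYp (by rw [hY, mul_pow]; ring) hY2.symm ha0 (by positivity)
    hμ0.le hsum

lemma tsum_poissonLaw_pair {d : ℝ} (hd : 0 ≤ d) :
    ∑' k : ℕ, poissonLaw d k * ((k * (k - 1) : ℕ) : ℝ≥0∞) = ENNReal.ofReal (d ^ 2) := by
  rw [tsum_eq_zero_add' ENNReal.summable, tsum_eq_zero_add' ENNReal.summable]
  have e : ∀ k : ℕ, poissonLaw d (k + 1 + 1) * (((k + 1 + 1) * (k + 1 + 1 - 1) : ℕ) : ℝ≥0∞) =
      ENNReal.ofReal (d ^ 2) * poissonLaw d k := by
    intro k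
    unfold poissonLaw
    rw [← ENNReal.ofReal_mul (by positivity), ← ENNReal.ofReal_natCast,
      ← ENNReal.ofReal_mul (by positivity)]
    congr 1
    simp only [Nat.add_sub_cancel]
    rw [Nat.factorial_succ, Nat.factorial_succ]
    push_cast
    field_simp
    ring
  rw [tsum_congr e, ENNReal.tsum_mul_left, tsum_poissonLaw hd, mul_one]
  simp

/-- **Kesten–Stigum on Poisson trees.** -/
theorem ks_poisson (hq : 2 ≤ q) (hl : LamOK q lam) {d : ℝ} (hd : 0 < d) (hth : 1 < d * lam ^ 2) :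
    ∃ c : ℝ, 0 < c ∧ ∀ n, ENNReal.ofReal c ≤ aGW q (poissonLaw d) lam n :=
  ks_GW hq hl (tsum_poissonLaw hd.le) hd (sq_nonneg d) (tsum_poissonLaw_mul hd.le)
    (tsum_poissonLaw_pair hd.le) hth

/-- the sequence converges -/
theorem aGW_tendsto (hq : 0 < q) (hl : LamOK q lam) (hp : ∑' k, p k = 1) :
    ∃ L : ℝ, Tendsto (aGW q p lam) atTop (𝓝 (ENNReal.ofReal L)) := by
  obtain ⟨L, hL⟩ := EN_tendsto (p := p) hq hl hp (continuous_adv (q := q)).continuousOn
  refine ⟨L, ?_⟩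
  have := ENNReal.tendsto_ofReal hL
  exact this.congr (fun n => (aGW_eq_EN hq hl hp n).symm)

end Vale.Agent.P154.Mu
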