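import Vale.Agent.P154.MuFin

/-!
# P154: monotonicity in `lam` and in the number of children
-/

namespace Vale.Agent.P154.Mu

open Finset Filter Topology
open scoped ENNReal

variable {q : ℕ} {p : ℕ → ℝ≥0∞} {lam : ℝ}

lemma DL.refl {Ω : Type} [Fintype Ω] (L : Ω → Fin q → ℝ) : DL L L := fun _ _ => le_rfl

lemma DL.trans {Ω Ω' Ω'' : Type} [Fintype Ω] [Fintype Ω'] [Fintype Ω''] {L : Ω → Fin q → ℝ}
    {L' : Ω' → Fin q → ℝ} {L'' : Ω'' → Fin q → ℝ} (h : DL L L') (h' : DL L' L'') : DL L L'' :=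
  fun g hg => (h g hg).trans (h' g hg)

lemma LamOK.mul {k : ℝ} (h0 : 0 ≤ k) (h1 : k ≤ 1) (hq : 0 < q) (hl : LamOK q lam) :
    LamOK q (k * lam) := by
  have hq1 : (1 : ℝ) ≤ q := by exact_mod_cast hq
  have ha := hl.1
  have hb := hl.2
  constructor
  · nlinarith
  · have : ((q : ℝ) - 1) * (k * lam) = k * (((q : ℝ) - 1) * lam) := by ring
    rw [this]
    nlinarith

/-- resampling an edge degrades the information -/
lemma DL_resample (hq : 0 < q) {k : ℝ} (h0 : 0 ≤ k) (h1 : k ≤ 1) (hl : LamOK q lam) {Ω : Type}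
    [Fintype Ω] {L : Ω → Fin q → ℝ} (hL : SE L) :
    DL (fun c => cl (k * lam) (L c)) (fun c => cl lam (L c)) := by
  intro h hh
  have hW := hL.cl hq hl
  have hone : ∀ i : Fin q, ∑ c, cl lam (L c) i = 1 := fun i => hW.sum_one i
  have h1' : h (fun _ => 1) ≤ ∑ c, h (cl lam (L c)) := by
    have h2 := hh.sum_le univ (fun _ : Ω => (1:ℝ)) (fun c => cl lam (L c)) (fun _ _ => zero_le_one)
      (fun c _ i => hW.nonneg c i)
    simp only [one_mul, hone] at h2
    exact h2
  have h3 : ∀ c, h (cl (k * lam) (L c)) ≤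
      k * h (cl lam (L c)) + ((1 - k) * avg (L c)) * h (fun _ => 1) := by
    intro c
    have hav := avg_nonneg (hL.nonneg c)
    have e : cl (k * lam) (L c) = fun i => k * cl lam (L c) i +
        ((1 - k) * avg (L c)) * (fun _ : Fin q => (1:ℝ)) i := by
      funext i
      unfold cl
      ring
    have hk1 : 0 ≤ 1 - k := by linarith
    rw [e]
    refine (hh.add (fun i => k * cl lam (L c) i)
      (fun i => ((1 - k) * avg (L c)) * (fun _ : Fin q => (1:ℝ)) i)
      (fun i => mul_nonneg h0 (hW.nonneg c i))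
      (fun i => mul_nonneg (mul_nonneg hk1 hav) zero_le_one)).trans (le_of_eq ?_)
    rw [hh.smul k _ h0 (hW.nonneg c), hh.smul ((1 - k) * avg (L c)) (fun _ => 1)
      (mul_nonneg hk1 hav) (fun _ => zero_le_one)]
  calc ∑ c, h (cl (k * lam) (L c))
      ≤ ∑ c, (k * h (cl lam (L c)) + ((1 - k) * avg (L c)) * h (fun _ => 1)) :=
        Finset.sum_le_sum (fun c _ => h3 c)
    _ = k * ∑ c, h (cl lam (L c)) + (1 - k) * h (fun _ => 1) := by
        rw [Finset.sum_add_distrib, ← Finset.mul_sum, ← Finset.sum_mul, ← Finset.mul_sum,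
          sum_avg hq hL, mul_one]
    _ ≤ k * ∑ c, h (cl lam (L c)) + (1 - k) * ∑ c, h (cl lam (L c)) := by
        have hk1 : 0 ≤ 1 - k := by linarith
        have := mul_le_mul_of_nonneg_left h1' hk1
        linarith
    _ = _ := by ring

/-- monotonicity in `lam` for a fixed tree -/
theorem DL_lam (hq : 0 < q) {k : ℝ} (h0 : 0 ≤ k) (h1 : k ≤ 1) (hl : LamOK q lam) {n : ℕ}
    (t : GTree n) : DL (lv (q := q) (k * lam) t) (lv lam t) := by
  have hl' := LamOK.mul h0 h1 hq hl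
  induction t with
  | leaf => exact fun g _ => le_rfl
  | @node n m t ih =>
    have h2 := DL.pi m
      (fun j => ((ih j).cl hq hl').trans (DL_resample hq h0 h1 hl (SE.lv hq hl (t j))))
      (fun j c i => cl_nonneg hq hl' ((SE.lv hq hl' (t j)).nonneg c) i)
      (fun j c i => cl_nonneg hq hl ((SE.lv hq hl (t j)).nonneg c) i)
    intro h hh
    have h3 := h2 h hh
    have e1 : ∑ c : LeafConf q (GTree.node m t), h (lv (k * lam) (GTree.node m t) c) =
        ∑ c : (j : Fin m) → LeafConf q (t j),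
          h (fun i => ∏ j, cl (k * lam) (lv (k * lam) (t j) (c j)) i) :=
      Finset.sum_congr rfl (fun c _ => congrArg h (lv_node (k * lam) t c))
    have e2 : ∑ c : LeafConf q (GTree.node m t), h (lv lam (GTree.node m t) c) =
        ∑ c : (j : Fin m) → LeafConf q (t j), h (fun i => ∏ j, cl lam (lv lam (t j) (c j)) i) :=
      Finset.sum_congr rfl (fun c _ => congrArg h (lv_node lam t c))
    rw [e1, e2]
    exact h3

lemma convexOn_adv : ConvexOn ℝ (SxSet q) (fun x : Fin q → ℝ => (1 / (2 * q : ℝ)) * ∑ i, |x i - 1|) := by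
  refine ⟨convex_SxSet, ?_⟩
  intro x _ y _ a b ha hb hab
  have h : ∀ i, |(a • x + b • y) i - 1| ≤ a * |x i - 1| + b * |y i - 1| := by
    intro i
    have e : (a • x + b • y) i - 1 = a * (x i - 1) + b * (y i - 1) := by
      simp only [Pi.add_apply, Pi.smul_apply, smul_eq_mul]
      have : (1:ℝ) = a + b := hab.symm
      calc a * x i + b * y i - 1 = a * x i + b * y i - (a + b) := by rw [hab]
        _ = _ := by ring
    rw [e]
    refine (abs_add_le _ _).trans ?_
    rw [abs_mul, abs_mul, abs_of_nonneg ha, abs_of_nonneg hb]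
  simp only [smul_eq_mul]
  have h2 : ∑ i, |(a • x + b • y) i - 1| ≤ a * ∑ i, |x i - 1| + b * ∑ i, |y i - 1| := by
    rw [Finset.mul_sum, Finset.mul_sum, ← Finset.sum_add_distrib]
    exact Finset.sum_le_sum (fun i _ => h i)
  have h3 := mul_le_mul_of_nonneg_left h2 (by positivity : (0:ℝ) ≤ 1 / (2 * q))
  refine h3.trans (le_of_eq ?_)
  ring

theorem advantage_mono_lam (hq : 0 < q) {k : ℝ} (h0 : 0 ≤ k) (h1 : k ≤ 1) (hl : LamOK q lam)
    {n : ℕ} (t : GTree n) : advantage q (k * lam) t ≤ advantage q lam t := by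
  rw [advantage_eq hq, advantage_eq hq]
  exact DL_lam hq h0 h1 hl t _ (subl_hm hq convexOn_adv)

/-- monotonicity in `lam` on Galton–Watson trees -/
theorem aGW_mono_lam (hq : 0 < q) {k : ℝ} (h0 : 0 ≤ k) (h1 : k ≤ 1) (hl : LamOK q lam)
    (p : ℕ → ℝ≥0∞) (n : ℕ) : aGW q p (k * lam) n ≤ aGW q p lam n :=
  ENNReal.tsum_le_tsum (fun t => mul_le_mul_right
    (ENNReal.ofReal_le_ofReal (advantage_mono_lam hq h0 h1 hl t)) _)

/-- monotonicity in `lam` on `d`-ary trees -/
theorem aReg_mono_lam (hq : 0 < q) {k : ℝ} (h0 : 0 ≤ k) (h1 : k ≤ 1) (hl : LamOK q lam)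
    (d n : ℕ) : aReg q d (k * lam) n ≤ aReg q d lam n :=
  advantage_mono_lam hq h0 h1 hl _

lemma tendsto_reg_mono_lam (hq : 0 < q) {k : ℝ} (h0 : 0 ≤ k) (h1 : k ≤ 1) (hl : LamOK q lam)
    {d : ℕ} (h : Tendsto (aReg q d lam) atTop (𝓝 0)) :
    Tendsto (aReg q d (k * lam)) atTop (𝓝 0) :=
  tendsto_of_tendsto_of_tendsto_of_le_of_le tendsto_const_nhds h
    (fun n => advantage_nonneg' hq (LamOK.mul h0 h1 hq hl) (reg d n))
    (fun n => aReg_mono_lam hq h0 h1 hl d n)

lemma tendsto_GW_mono_lam (hq : 0 < q) {k : ℝ} (h0 : 0 ≤ k) (h1 : k ≤ 1) (hl : LamOK q lam)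
    {p : ℕ → ℝ≥0∞} (h : Tendsto (aGW q p lam) atTop (𝓝 0)) :
    Tendsto (aGW q p (k * lam)) atTop (𝓝 0) :=
  tendsto_of_tendsto_of_tendsto_of_le_of_le tendsto_const_nhds h (fun _ => zero_le)
    (fun n => aGW_mono_lam hq h0 h1 hl p n)

end Vale.Agent.P154.Mu
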