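import Vale.Agent.P154.MuMonoD
import Vale.Agent.P154.MuMonoL
import Vale.Agent.P154.MuKSGW
import Vale.Agent.P154.MuFin
import Vale.Agent.P154.Chains
import Vale.Agent.P154.Mono

/-!
# P154: assembly of the three-state theorem from the critical antiferromagnetic cases
-/

namespace Vale.Agent.P154.Fin3

open Vale.Agent.P154.Mu Filter Topology
open scoped ENNReal

lemma potts_three_nonneg' {lam : ℝ} (h0 : -(1 / 2) ≤ lam) (h1 : lam ≤ 1) (i j : Fin 3) :
    0 ≤ potts 3 lam i j := by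
  unfold potts
  push_cast
  split_ifs <;> linarith

/-- nonreconstruction on the `d`-ary tree for negative `lam`, from the critical cases -/
theorem reg_neg_of_crit
    (hcrit : ∀ d : ℕ, 4 ≤ d → Tendsto (aReg 3 d (-(1 / √(d : ℝ)))) atTop (𝓝 0))
    {d : ℕ} (hd : 2 ≤ d) {lam : ℝ} (h0 : -(1 / 2) ≤ lam) (h1 : lam ≤ 0)
    (h : (d : ℝ) * lam ^ 2 ≤ 1) : Tendsto (aReg 3 d lam) atTop (𝓝 0) := by
  rcases le_or_gt 4 d with hd4 | hd4
  · have hdp : (0 : ℝ) < d := by exact_mod_cast (by omega : 0 < d)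
    have hs : 0 < √(d : ℝ) := Real.sqrt_pos.mpr hdp
    have hs2 : √(d : ℝ) ^ 2 = d := Real.sq_sqrt hdp.le
    have h4 : (4 : ℝ) ≤ d := by exact_mod_cast hd4
    have hs4 : 2 ≤ √(d : ℝ) := by
      rw [show (2 : ℝ) = √4 by rw [show (4 : ℝ) = 2 ^ 2 by norm_num, Real.sqrt_sq (by norm_num)]]
      exact Real.sqrt_le_sqrt h4
    have hl : LamOK 3 (-(1 / √(d : ℝ))) := by
      refine lamOK_three.mpr ⟨?_, ?_⟩
      · have : 1 / √(d : ℝ) ≤ 1 / 2 := one_div_le_one_div_of_le (by norm_num) hs4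
        linarith
      · have : 0 < 1 / √(d : ℝ) := by positivity
        linarith
    have hk1 : -lam * √(d : ℝ) ≤ 1 := by
      have : (-lam * √(d : ℝ)) ^ 2 ≤ 1 := by
        rw [mul_pow, hs2]; nlinarith
      exact abs_le_one_iff_mul_self_le_one.mpr (by nlinarith) |> fun h => (abs_le.mp h).2
    have hk0 : 0 ≤ -lam * √(d : ℝ) := mul_nonneg (by linarith) hs.le
    have := tendsto_reg_mono_lam (q := 3) (by norm_num) hk0 hk1 hl (hcrit d hd4)
    have e : -lam * √(d : ℝ) * -(1 / √(d : ℝ)) = lam := by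
      field_simp
    rwa [e] at this
  · have h4 := hcrit 4 le_rfl
    have e4 : -(1 / √((4 : ℕ) : ℝ)) = -(1 / 2) := by
      have : √((4 : ℕ) : ℝ) = 2 := by
        rw [show ((4 : ℕ) : ℝ) = 2 ^ 2 by norm_num, Real.sqrt_sq (by norm_num)]
      rw [this]
    rw [e4] at h4
    have hl : LamOK 3 (-(1 / 2)) := lamOK_three.mpr ⟨by norm_num, by norm_num⟩
    have := tendsto_reg_mono_lam (q := 3) (by norm_num) (k := -2 * lam) (by linarith)
      (by linarith) hl (tendsto_reg_mono_d (by norm_num) hl (by omega : d ≤ 4) h4)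
    have e : -2 * lam * -(1 / 2) = lam := by ring
    rwa [e] at this

/-- the regular-tree statement -/
theorem reg_iff_of_crit
    (hcrit : ∀ d : ℕ, 4 ≤ d → Tendsto (aReg 3 d (-(1 / √(d : ℝ)))) atTop (𝓝 0))
    {d : ℕ} (hd : 2 ≤ d) {lam : ℝ} (h0 : -(1 / 2) ≤ lam) (h1 : lam ≤ 1) :
    ((∃ L, 0 < L ∧ Tendsto (aTree 3 d lam) atTop (𝓝 L)) ↔ 1 < (d : ℝ) * lam ^ 2) ∧
      (Tendsto (aTree 3 d lam) atTop (𝓝 0) ↔ (d : ℝ) * lam ^ 2 ≤ 1) := by
  simp only [aTree_eq]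
  have hp := potts_three_nonneg' h0 h1
  have hnon : (d : ℝ) * lam ^ 2 ≤ 1 → Tendsto (aReg 3 d lam) atTop (𝓝 0) := by
    intro h
    rcases le_total 0 lam with h0' | h0'
    · obtain ⟨C⟩ := chain_exists d hd lam h0' h
      exact tendsto_of_chain hd h0' h1 h C
    · exact reg_neg_of_crit hcrit hd h0 h0' h
  have hrec : 1 < (d : ℝ) * lam ^ 2 → ∃ L, 0 < L ∧ Tendsto (aReg 3 d lam) atTop (𝓝 L) := by
    intro h
    obtain ⟨c, hc, hcn⟩ := ks_reg (q := 3) (by norm_num) hp h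
    obtain ⟨L, hL⟩ := aReg_tendsto (q := 3) (d := d) (by norm_num) hp
    exact ⟨L, hc.trans_le (ge_of_tendsto' hL hcn), hL⟩
  refine ⟨⟨fun h => ?_, hrec⟩, ⟨fun h => ?_, hnon⟩⟩
  · by_contra hn
    push Not at hn
    obtain ⟨L, hL0, hL⟩ := h
    have := tendsto_nhds_unique hL (hnon hn)
    linarith
  · by_contra hn
    push Not at hn
    obtain ⟨L, hL0, hL⟩ := hrec hn
    have := tendsto_nhds_unique hL h
    linarith

/-- the Poisson statement at one `lam`, from nonreconstruction at criticality -/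
theorem poisson_iff_of_crit {lam : ℝ} (h0 : -(1 / 2) ≤ lam) (h1 : lam ≤ 1)
    (hcrit : ∀ d : ℝ, 0 < d → d * lam ^ 2 = 1 →
      Tendsto (aGW 3 (poissonLaw d) lam) atTop (𝓝 0))
    (hzero : lam = 0 → ∀ d : ℝ, 0 < d → Tendsto (aGW 3 (poissonLaw d) lam) atTop (𝓝 0))
    {d : ℝ} (hd : 0 < d) :
    ((∃ L : ℝ≥0∞, 0 < L ∧ Tendsto (aGWTree 3 (poissonLaw d) lam) atTop (𝓝 L)) ↔
        1 < d * lam ^ 2) ∧
      (Tendsto (aGWTree 3 (poissonLaw d) lam) atTop (𝓝 0) ↔ d * lam ^ 2 ≤ 1) := by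
  simp only [aGWTree_eq]
  have hl : LamOK 3 lam := lamOK_three.mpr ⟨h0, h1⟩
  have hnon : d * lam ^ 2 ≤ 1 → Tendsto (aGW 3 (poissonLaw d) lam) atTop (𝓝 0) := by
    intro h
    rcases eq_or_ne lam 0 with hz | hz
    · exact hzero hz d hd
    · have hz2 : 0 < lam ^ 2 := by positivity
      have hd' : d ≤ 1 / lam ^ 2 := by rw [le_div_iff₀ hz2]; exact h
      exact tendsto_poisson_mono_d (by norm_num) hl hd.le hd'
        (hcrit _ (by positivity) (by field_simp))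
  have hrec : 1 < d * lam ^ 2 →
      ∃ L : ℝ≥0∞, 0 < L ∧ Tendsto (aGW 3 (poissonLaw d) lam) atTop (𝓝 L) := by
    intro h
    obtain ⟨c, hc, hcn⟩ := ks_poisson (q := 3) (by norm_num) hl hd h
    obtain ⟨L, hL⟩ := aGW_tendsto (q := 3) (p := poissonLaw d) (by norm_num) hl
      (tsum_poissonLaw hd.le)
    exact ⟨_, (ENNReal.ofReal_pos.mpr hc).trans_le (ge_of_tendsto' hL hcn), hL⟩
  refine ⟨⟨fun h => ?_, hrec⟩, ⟨fun h => ?_, hnon⟩⟩
  · by_contra hn
    push Not at hn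
    obtain ⟨L, hL0, hL⟩ := h
    have := tendsto_nhds_unique hL (hnon hn)
    exact hL0.ne' this
  · by_contra hn
    push Not at hn
    obtain ⟨L, hL0, hL⟩ := hrec hn
    have := tendsto_nhds_unique hL h
    exact hL0.ne' this

end Vale.Agent.P154.Fin3
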