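import Vale.Agent.P154.DA4

/-!
# Kernel checks (A4), part a
-/

set_option linter.all false

namespace Vale.Agent.P154.Dat.A4

open Pk

def g0 : List Cell := [
  ⟨422212465065984, 422212465065984, 281474976710656, 281474976710656⟩,
  ⟨1266637395197952, 422212465065984, 281474976710656, 281474976710656⟩,
  ⟨2533274790395904, 844424930131968, 281474976710656, 281474976710656⟩,
  ⟨5066549580791808, 1688849860263936, 281474976710656, 281474976710656⟩]

theorem run_g0 : g0.all (fun c => run ch famA 90 c rows) = true := by
  decide +kernel

def g1 : List Cell := [
  ⟨10133099161583616, 3377699720527872, 281474976710656, 281474976710656⟩,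
  ⟨20266198323167232, 6755399441055744, 281474976710656, 281474976710656⟩,
  ⟨40532396646334464, 13510798882111488, 281474976710656, 281474976710656⟩,
  ⟨81064793292668928, 27021597764222976, 281474976710656, 281474976710656⟩,
  ⟨162129586585337856, 54043195528445952, 281474976710656, 281474976710656⟩]

theorem run_g1 : g1.all (fun c => run ch famA 90 c rows) = true := by
  decide +kernel

def g2 : List Cell := [
  ⟨324259173170675712, 108086391056891904, 274877906944, 274877906944⟩,
  ⟨324259173170675712, 108086391056891904, 824633720832, 274877906944⟩,
  ⟨324259173170675712, 108086391056891904, 1649267441664, 549755813888⟩]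

theorem run_g2 : g2.all (fun c => run ch famA 90 c rows) = true := by
  decide +kernel

def g3 : List Cell := [
  ⟨324259173170675712, 108086391056891904, 3298534883328, 1099511627776⟩,
  ⟨324259173170675712, 108086391056891904, 6597069766656, 2199023255552⟩,
  ⟨324259173170675712, 108086391056891904, 13194139533312, 4398046511104⟩,
  ⟨324259173170675712, 108086391056891904, 26388279066624, 8796093022208⟩,
  ⟨324259173170675712, 108086391056891904, 52776558133248, 17592186044416⟩,
  ⟨324259173170675712, 108086391056891904, 105553116266496, 35184372088832⟩,
  ⟨324259173170675712, 108086391056891904, 211106232532992, 70368744177664⟩,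
  ⟨324259173170675712, 108086391056891904, 422212465065984, 140737488355328⟩]

theorem run_g3 : g3.all (fun c => run ch famA 90 c rows) = true := by
  decide +kernel

def g4 : List Cell := [
  ⟨216172782113783808, 216172782113783808, 844424930131968, 281474976710656⟩]

theorem run_g4 : g4.all (fun c => run ch famA 90 c rows) = true := by
  decide +kernel

def g5 : List Cell := [
  ⟨216172782113783808, 216172782113783808, 1688849860263936, 562949953421312⟩]

theorem run_g5 : g5.all (fun c => run ch famA 90 c rows) = true := by
  decide +kernel

def g6 : List Cell := [
  ⟨216172782113783808, 216172782113783808, 3377699720527872, 1125899906842624⟩]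

theorem run_g6 : g6.all (fun c => run ch famA 90 c rows) = true := by
  decide +kernel

def g7 : List Cell := [
  ⟨216172782113783808, 216172782113783808, 6755399441055744, 2251799813685248⟩]

theorem run_g7 : g7.all (fun c => run ch famA 90 c rows) = true := by
  decide +kernel

def g8 : List Cell := [
  ⟨216172782113783808, 216172782113783808, 13510798882111488, 4503599627370496⟩]

theorem run_g8 : g8.all (fun c => run ch famA 90 c rows) = true := by
  decide +kernel

end Vale.Agent.P154.Dat.A4
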