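import Vale.Agent.P154.PkDefs

/-!
# Covering the domain by cells (program)
-/

namespace Vale.Agent.P154.Pk

deriving instance DecidableEq for Cell

/-- the cell `c` is covered by the cells of the list `L` -/
def coverC (L : List Cell) : ℕ → Cell → Bool
  | 0, c => decide (c ∈ L)
  | n + 1, c => decide (c ∈ L) || (outside c || (spl c &&
      (bif split2 c then coverC L n c.a2 && coverC L n c.b2
        else coverC L n c.a3 && coverC L n c.b3)))

end Vale.Agent.P154.Pk
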