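import Vale.Agent.P154.DA5

/-!
# Kernel checks (A5), part a
-/

set_option linter.all false

namespace Vale.Agent.P154.Dat.A5

open Pk

def g0 : List Cell := [
  ⟨27021597764222976, 27021597764222976, 281474976710656, 281474976710656⟩]

theorem run_g0 : g0.all (fun c => run ch famA 90 c rows) = true := by
  decide +kernel

def g1 : List Cell := [
  ⟨81064793292668928, 27021597764222976, 281474976710656, 281474976710656⟩]

theorem run_g1 : g1.all (fun c => run ch famA 90 c rows) = true := by
  decide +kernel

def g2 : List Cell := [
  ⟨162129586585337856, 54043195528445952, 281474976710656, 281474976710656⟩]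

theorem run_g2 : g2.all (fun c => run ch famA 90 c rows) = true := by
  decide +kernel

def g3 : List Cell := [
  ⟨324259173170675712, 108086391056891904, 70368744177664, 70368744177664⟩,
  ⟨324259173170675712, 108086391056891904, 211106232532992, 70368744177664⟩]

theorem run_g3 : g3.all (fun c => run ch famA 90 c rows) = true := by
  decide +kernel

def g4 : List Cell := [
  ⟨324259173170675712, 108086391056891904, 422212465065984, 140737488355328⟩,
  ⟨216172782113783808, 216172782113783808, 844424930131968, 281474976710656⟩]

theorem run_g4 : g4.all (fun c => run ch famA 90 c rows) = true := by
  decide +kernel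

def g5 : List Cell := [
  ⟨216172782113783808, 216172782113783808, 1688849860263936, 562949953421312⟩]

theorem run_g5 : g5.all (fun c => run ch famA 90 c rows) = true := by
  decide +kernel

def g6 : List Cell := [
  ⟨108086391056891904, 108086391056891904, 3377699720527872, 1125899906842624⟩,
  ⟨324259173170675712, 108086391056891904, 3377699720527872, 1125899906842624⟩]

theorem run_g6 : g6.all (fun c => run ch famA 90 c rows) = true := by
  decide +kernel

def g7 : List Cell := [
  ⟨108086391056891904, 108086391056891904, 6755399441055744, 2251799813685248⟩]

theorem run_g7 : g7.all (fun c => run ch famA 90 c rows) = true := by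
  decide +kernel

def g8 : List Cell := [
  ⟨324259173170675712, 108086391056891904, 6755399441055744, 2251799813685248⟩]

theorem run_g8 : g8.all (fun c => run ch famA 90 c rows) = true := by
  decide +kernel

def g9 : List Cell := [
  ⟨108086391056891904, 108086391056891904, 13510798882111488, 4503599627370496⟩]

theorem run_g9 : g9.all (fun c => run ch famA 90 c rows) = true := by
  decide +kernel

def g10 : List Cell := [
  ⟨324259173170675712, 108086391056891904, 13510798882111488, 4503599627370496⟩]

theorem run_g10 : g10.all (fun c => run ch famA 90 c rows) = true := by
  decide +kernel

def g11 : List Cell := [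
  ⟨108086391056891904, 108086391056891904, 27021597764222976, 9007199254740992⟩]

theorem run_g11 : g11.all (fun c => run ch famA 90 c rows) = true := by
  decide +kernel

end Vale.Agent.P154.Dat.A5
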