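import Vale.Agent.P154.DA5
import Vale.Agent.P154.KA5a

/-!
# Kernel checks (A5), part b
-/

set_option linter.all false

namespace Vale.Agent.P154.Dat.A5

open Pk

def g12 : List Cell := [
  ⟨324259173170675712, 108086391056891904, 27021597764222976, 9007199254740992⟩]

theorem run_g12 : g12.all (fun c => run ch famA 90 c rows) = true := by
  decide +kernel

def g13 : List Cell := [
  ⟨108086391056891904, 108086391056891904, 54043195528445952, 18014398509481984⟩]

theorem run_g13 : g13.all (fun c => run ch famA 90 c rows) = true := by
  decide +kernel

def g14 : List Cell := [
  ⟨324259173170675712, 108086391056891904, 54043195528445952, 18014398509481984⟩]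

theorem run_g14 : g14.all (fun c => run ch famA 90 c rows) = true := by
  decide +kernel

def g15 : List Cell := [
  ⟨108086391056891904, 108086391056891904, 108086391056891904, 36028797018963968⟩]

theorem run_g15 : g15.all (fun c => run ch famA 90 c rows) = true := by
  decide +kernel

def g16 : List Cell := [
  ⟨270215977642229760, 54043195528445952, 108086391056891904, 36028797018963968⟩,
  ⟨378302368699121664, 54043195528445952, 108086391056891904, 36028797018963968⟩]

theorem run_g16 : g16.all (fun c => run ch famA 90 c rows) = true := by
  decide +kernel

def g17 : List Cell := [
  ⟨108086391056891904, 108086391056891904, 216172782113783808, 72057594037927936⟩]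

theorem run_g17 : g17.all (fun c => run ch famA 90 c rows) = true := by
  decide +kernel

def g18 : List Cell := [
  ⟨243194379878006784, 27021597764222976, 180143985094819840, 36028797018963968⟩,
  ⟨297237575406452736, 27021597764222976, 180143985094819840, 36028797018963968⟩]

theorem run_g18 : g18.all (fun c => run ch famA 90 c rows) = true := by
  decide +kernel

def g19 : List Cell := [
  ⟨243194379878006784, 27021597764222976, 252201579132747776, 36028797018963968⟩]

theorem run_g19 : g19.all (fun c => run ch famA 90 c rows) = true := by
  decide +kernel

def g20 : List Cell := [
  ⟨297237575406452736, 27021597764222976, 234187180623265792, 18014398509481984⟩]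

theorem run_g20 : g20.all (fun c => run ch famA 90 c rows) = true := by
  decide +kernel

def g21 : List Cell := [
  ⟨297237575406452736, 27021597764222976, 270215977642229760, 18014398509481984⟩]

theorem run_g21 : g21.all (fun c => run ch famA 90 c rows) = true := by
  decide +kernel

def g22 : List Cell := [
  ⟨378302368699121664, 54043195528445952, 216172782113783808, 72057594037927936⟩]

theorem run_g22 : g22.all (fun c => run ch famA 90 c rows) = true := by
  decide +kernel

end Vale.Agent.P154.Dat.A5
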