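import Vale.Agent.P154.KA5a
import Vale.Agent.P154.KA5b
import Vale.Agent.P154.PkCov

/-!
# Kernel checks (A5), assembled
-/

set_option linter.all false

namespace Vale.Agent.P154.Dat.A5

open Pk

theorem all_app {f : Cell → Bool} {l m : List Cell} (h1 : l.all f = true) (h2 : m.all f = true) :
    (l ++ m).all f = true := by
  rw [List.all_append, h1, h2]; rfl

def c0 : List Cell :=
  g0 ++ (g1 ++ (g2 ++ (g3 ++ (g4 ++ (g5 ++ (g6 ++ (g7 ++ (g8 ++ (g9)))))))))

theorem run_c0 : c0.all (fun c => run ch famA 90 c rows) = true :=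
  all_app run_g0 (all_app run_g1 (all_app run_g2 (all_app run_g3 (all_app run_g4 (all_app run_g5 (all_app run_g6 (all_app run_g7 (all_app run_g8 (run_g9)))))))))

def c1 : List Cell :=
  g10 ++ (g11 ++ (g12 ++ (g13 ++ (g14 ++ (g15 ++ (g16 ++ (g17 ++ (g18 ++ (g19)))))))))

theorem run_c1 : c1.all (fun c => run ch famA 90 c rows) = true :=
  all_app run_g10 (all_app run_g11 (all_app run_g12 (all_app run_g13 (all_app run_g14 (all_app run_g15 (all_app run_g16 (all_app run_g17 (all_app run_g18 (run_g19)))))))))

def c2 : List Cell :=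
  g20 ++ (g21 ++ (g22))

theorem run_c2 : c2.all (fun c => run ch famA 90 c rows) = true :=
  all_app run_g20 (all_app run_g21 (run_g22))

def cells : List Cell :=
  c0 ++ (c1 ++ (c2))

theorem cells_cover : coverC cells 80 ⟨216172782113783808, 216172782113783808, 144115188075855872,
    144115188075855872⟩ = true := by decide +kernel

theorem cells_all : cells.all (fun c => run ch famA 90 c rows) = true :=
  all_app run_c0 (all_app run_c1 (run_c2))

theorem runs : ∀ c ∈ cells, ∃ n, run ch famA n c rows = true :=
  fun c hc => ⟨90, List.all_eq_true.mp cells_all c hc⟩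

end Vale.Agent.P154.Dat.A5
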