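import Vale.Agent.P154.DA7

/-!
# Kernel checks (A7), part a
-/

set_option linter.all false

namespace Vale.Agent.P154.Dat.A7

open Pk

def g0 : List Cell := [
  ⟨54043195528445952, 54043195528445952, 281474976710656, 281474976710656⟩]

theorem run_g0 : g0.all (fun c => run ch famA 90 c rows) = true := by
  decide +kernel

def g1 : List Cell := [
  ⟨162129586585337856, 54043195528445952, 281474976710656, 281474976710656⟩]

theorem run_g1 : g1.all (fun c => run ch famA 90 c rows) = true := by
  decide +kernel

def g2 : List Cell := [
  ⟨324259173170675712, 108086391056891904, 281474976710656, 281474976710656⟩]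

theorem run_g2 : g2.all (fun c => run ch famA 90 c rows) = true := by
  decide +kernel

def g3 : List Cell := [
  ⟨216172782113783808, 216172782113783808, 844424930131968, 281474976710656⟩]

theorem run_g3 : g3.all (fun c => run ch famA 90 c rows) = true := by
  decide +kernel

def g4 : List Cell := [
  ⟨216172782113783808, 216172782113783808, 1688849860263936, 562949953421312⟩]

theorem run_g4 : g4.all (fun c => run ch famA 90 c rows) = true := by
  decide +kernel

def g5 : List Cell := [
  ⟨216172782113783808, 216172782113783808, 3377699720527872, 1125899906842624⟩]

theorem run_g5 : g5.all (fun c => run ch famA 90 c rows) = true := by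
  decide +kernel

def g6 : List Cell := [
  ⟨216172782113783808, 216172782113783808, 6755399441055744, 2251799813685248⟩]

theorem run_g6 : g6.all (fun c => run ch famA 90 c rows) = true := by
  decide +kernel

def g7 : List Cell := [
  ⟨216172782113783808, 216172782113783808, 13510798882111488, 4503599627370496⟩]

theorem run_g7 : g7.all (fun c => run ch famA 90 c rows) = true := by
  decide +kernel

end Vale.Agent.P154.Dat.A7
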