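import Vale.Agent.P154.DA4
import Vale.Agent.P154.DB4

/-!
# Kernel checks (B4), part a
-/

set_option linter.all false

namespace Vale.Agent.P154.Dat.B4

open Pk

def g0 : List Cell := [
  ⟨25769803776, 25769803776, 68719476736, 68719476736⟩,
  ⟨77309411328, 25769803776, 68719476736, 68719476736⟩]

theorem run_g0 : g0.all (fun c => run Dat.A4.ch famB 90 c rows) = true := by
  decide +kernel

def g1 : List Cell := [
  ⟨154618822656, 51539607552, 137438953472, 137438953472⟩,
  ⟨309237645312, 103079215104, 274877906944, 274877906944⟩,
  ⟨618475290624, 206158430208, 549755813888, 549755813888⟩]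

theorem run_g1 : g1.all (fun c => run Dat.A4.ch famB 90 c rows) = true := by
  decide +kernel

def g2 : List Cell := [
  ⟨1236950581248, 412316860416, 1099511627776, 1099511627776⟩]

theorem run_g2 : g2.all (fun c => run Dat.A4.ch famB 90 c rows) = true := by
  decide +kernel

def g3 : List Cell := [
  ⟨2473901162496, 824633720832, 2199023255552, 2199023255552⟩]

theorem run_g3 : g3.all (fun c => run Dat.A4.ch famB 90 c rows) = true := by
  decide +kernel

def g4 : List Cell := [
  ⟨4947802324992, 1649267441664, 549755813888, 549755813888⟩,
  ⟨4947802324992, 1649267441664, 1649267441664, 549755813888⟩,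
  ⟨4947802324992, 1649267441664, 3298534883328, 1099511627776⟩]

theorem run_g4 : g4.all (fun c => run Dat.A4.ch famB 90 c rows) = true := by
  decide +kernel

def g5 : List Cell := [
  ⟨4947802324992, 1649267441664, 6597069766656, 2199023255552⟩,
  ⟨9895604649984, 3298534883328, 34359738368, 34359738368⟩]

theorem run_g5 : g5.all (fun c => run Dat.A4.ch famB 90 c rows) = true := by
  decide +kernel

def g6 : List Cell := [
  ⟨9895604649984, 3298534883328, 103079215104, 34359738368⟩,
  ⟨9895604649984, 3298534883328, 206158430208, 68719476736⟩,
  ⟨9895604649984, 3298534883328, 412316860416, 137438953472⟩,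
  ⟨9895604649984, 3298534883328, 824633720832, 274877906944⟩,
  ⟨9895604649984, 3298534883328, 1649267441664, 549755813888⟩,
  ⟨9895604649984, 3298534883328, 3298534883328, 1099511627776⟩,
  ⟨9895604649984, 3298534883328, 6597069766656, 2199023255552⟩,
  ⟨9895604649984, 3298534883328, 13194139533312, 4398046511104⟩]

theorem run_g6 : g6.all (fun c => run Dat.A4.ch famB 90 c rows) = true := by
  decide +kernel

def g7 : List Cell := [
  ⟨19791209299968, 6597069766656, 8589934592, 8589934592⟩,
  ⟨19791209299968, 6597069766656, 25769803776, 8589934592⟩]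

theorem run_g7 : g7.all (fun c => run Dat.A4.ch famB 90 c rows) = true := by
  decide +kernel

def g8 : List Cell := [
  ⟨19791209299968, 6597069766656, 51539607552, 17179869184⟩,
  ⟨19791209299968, 6597069766656, 103079215104, 34359738368⟩,
  ⟨19791209299968, 6597069766656, 206158430208, 68719476736⟩,
  ⟨19791209299968, 6597069766656, 412316860416, 137438953472⟩,
  ⟨19791209299968, 6597069766656, 824633720832, 274877906944⟩,
  ⟨19791209299968, 6597069766656, 1649267441664, 549755813888⟩,
  ⟨19791209299968, 6597069766656, 3298534883328, 1099511627776⟩,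
  ⟨19791209299968, 6597069766656, 6597069766656, 2199023255552⟩,
  ⟨19791209299968, 6597069766656, 13194139533312, 4398046511104⟩,
  ⟨19791209299968, 6597069766656, 26388279066624, 8796093022208⟩]

theorem run_g8 : g8.all (fun c => run Dat.A4.ch famB 90 c rows) = true := by
  decide +kernel

def g9 : List Cell := [
  ⟨39582418599936, 13194139533312, 17179869184, 17179869184⟩,
  ⟨39582418599936, 13194139533312, 51539607552, 17179869184⟩]

theorem run_g9 : g9.all (fun c => run Dat.A4.ch famB 90 c rows) = true := by
  decide +kernel

end Vale.Agent.P154.Dat.B4
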