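import Vale.Agent.P154.DA4
import Vale.Agent.P154.DB4

/-!
# Kernel checks (B4), part e
-/

set_option linter.all false

namespace Vale.Agent.P154.Dat.B4

open Pk

def g43 : List Cell := [
  ⟨162129586585337856, 54043195528445952, 1649267441664, 549755813888⟩,
  ⟨162129586585337856, 54043195528445952, 3298534883328, 1099511627776⟩,
  ⟨162129586585337856, 54043195528445952, 6597069766656, 2199023255552⟩,
  ⟨162129586585337856, 54043195528445952, 13194139533312, 4398046511104⟩,
  ⟨162129586585337856, 54043195528445952, 26388279066624, 8796093022208⟩]

theorem run_g43 : g43.all (fun c => run Dat.A4.ch famB 90 c rows) = true := by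
  decide +kernel

def g44 : List Cell := [
  ⟨162129586585337856, 54043195528445952, 52776558133248, 17592186044416⟩,
  ⟨162129586585337856, 54043195528445952, 105553116266496, 35184372088832⟩,
  ⟨162129586585337856, 54043195528445952, 211106232532992, 70368744177664⟩]

theorem run_g44 : g44.all (fun c => run Dat.A4.ch famB 90 c rows) = true := by
  decide +kernel

def g45 : List Cell := [
  ⟨162129586585337856, 54043195528445952, 422212465065984, 140737488355328⟩]

theorem run_g45 : g45.all (fun c => run Dat.A4.ch famB 90 c rows) = true := by
  decide +kernel

def g46 : List Cell := [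
  ⟨243194379878006784, 27021597764222976, 268435456, 268435456⟩]

theorem run_g46 : g46.all (fun c => run Dat.A4.ch famB 90 c rows) = true := by
  decide +kernel

def g47 : List Cell := [
  ⟨297237575406452736, 27021597764222976, 268435456, 268435456⟩]

theorem run_g47 : g47.all (fun c => run Dat.A4.ch famB 90 c rows) = true := by
  decide +kernel

def g48 : List Cell := [
  ⟨378302368699121664, 54043195528445952, 8388608, 8388608⟩]

theorem run_g48 : g48.all (fun c => run Dat.A4.ch famB 90 c rows) = true := by
  decide +kernel

def g49 : List Cell := [
  ⟨378302368699121664, 54043195528445952, 25165824, 8388608⟩,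
  ⟨378302368699121664, 54043195528445952, 50331648, 16777216⟩,
  ⟨378302368699121664, 54043195528445952, 100663296, 33554432⟩,
  ⟨378302368699121664, 54043195528445952, 201326592, 67108864⟩,
  ⟨378302368699121664, 54043195528445952, 402653184, 134217728⟩]

theorem run_g49 : g49.all (fun c => run Dat.A4.ch famB 90 c rows) = true := by
  decide +kernel

def g50 : List Cell := [
  ⟨324259173170675712, 108086391056891904, 805306368, 268435456⟩]

theorem run_g50 : g50.all (fun c => run Dat.A4.ch famB 90 c rows) = true := by
  decide +kernel

def g51 : List Cell := [
  ⟨324259173170675712, 108086391056891904, 1610612736, 536870912⟩,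
  ⟨324259173170675712, 108086391056891904, 3221225472, 1073741824⟩]

theorem run_g51 : g51.all (fun c => run Dat.A4.ch famB 90 c rows) = true := by
  decide +kernel

def g52 : List Cell := [
  ⟨324259173170675712, 108086391056891904, 6442450944, 2147483648⟩,
  ⟨324259173170675712, 108086391056891904, 12884901888, 4294967296⟩]

theorem run_g52 : g52.all (fun c => run Dat.A4.ch famB 90 c rows) = true := by
  decide +kernel

def g53 : List Cell := [
  ⟨324259173170675712, 108086391056891904, 25769803776, 8589934592⟩,
  ⟨324259173170675712, 108086391056891904, 51539607552, 17179869184⟩,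
  ⟨324259173170675712, 108086391056891904, 103079215104, 34359738368⟩,
  ⟨324259173170675712, 108086391056891904, 206158430208, 68719476736⟩]

theorem run_g53 : g53.all (fun c => run Dat.A4.ch famB 90 c rows) = true := by
  decide +kernel

end Vale.Agent.P154.Dat.B4
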