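import Vale.Agent.P154.DA4
import Vale.Agent.P154.KB4e
import Vale.Agent.P154.DB4

/-!
# Kernel checks (B4), part f
-/

set_option linter.all false

namespace Vale.Agent.P154.Dat.B4

open Pk

def g54 : List Cell := [
  ⟨324259173170675712, 108086391056891904, 412316860416, 137438953472⟩,
  ⟨324259173170675712, 108086391056891904, 824633720832, 274877906944⟩,
  ⟨324259173170675712, 108086391056891904, 1649267441664, 549755813888⟩,
  ⟨324259173170675712, 108086391056891904, 3298534883328, 1099511627776⟩]

theorem run_g54 : g54.all (fun c => run Dat.A4.ch famB 90 c rows) = true := by
  decide +kernel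

def g55 : List Cell := [
  ⟨324259173170675712, 108086391056891904, 6597069766656, 2199023255552⟩,
  ⟨324259173170675712, 108086391056891904, 13194139533312, 4398046511104⟩,
  ⟨324259173170675712, 108086391056891904, 26388279066624, 8796093022208⟩,
  ⟨324259173170675712, 108086391056891904, 52776558133248, 17592186044416⟩]

theorem run_g55 : g55.all (fun c => run Dat.A4.ch famB 90 c rows) = true := by
  decide +kernel

def g56 : List Cell := [
  ⟨324259173170675712, 108086391056891904, 105553116266496, 35184372088832⟩,
  ⟨324259173170675712, 108086391056891904, 211106232532992, 70368744177664⟩]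

theorem run_g56 : g56.all (fun c => run Dat.A4.ch famB 90 c rows) = true := by
  decide +kernel

def g57 : List Cell := [
  ⟨324259173170675712, 108086391056891904, 422212465065984, 140737488355328⟩]

theorem run_g57 : g57.all (fun c => run Dat.A4.ch famB 90 c rows) = true := by
  decide +kernel

def g58 : List Cell := [
  ⟨3377699720527872, 3377699720527872, 844424930131968, 281474976710656⟩,
  ⟨10133099161583616, 3377699720527872, 844424930131968, 281474976710656⟩]

theorem run_g58 : g58.all (fun c => run Dat.A4.ch famB 90 c rows) = true := by
  decide +kernel

def g59 : List Cell := [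
  ⟨20266198323167232, 6755399441055744, 844424930131968, 281474976710656⟩,
  ⟨40532396646334464, 13510798882111488, 844424930131968, 281474976710656⟩,
  ⟨81064793292668928, 27021597764222976, 844424930131968, 281474976710656⟩]

theorem run_g59 : g59.all (fun c => run Dat.A4.ch famB 90 c rows) = true := by
  decide +kernel

def g60 : List Cell := [
  ⟨162129586585337856, 54043195528445952, 844424930131968, 281474976710656⟩]

theorem run_g60 : g60.all (fun c => run Dat.A4.ch famB 90 c rows) = true := by
  decide +kernel

def g61 : List Cell := [
  ⟨324259173170675712, 108086391056891904, 844424930131968, 281474976710656⟩]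

theorem run_g61 : g61.all (fun c => run Dat.A4.ch famB 90 c rows) = true := by
  decide +kernel

def g62 : List Cell := [
  ⟨6755399441055744, 6755399441055744, 1688849860263936, 562949953421312⟩,
  ⟨20266198323167232, 6755399441055744, 1688849860263936, 562949953421312⟩]

theorem run_g62 : g62.all (fun c => run Dat.A4.ch famB 90 c rows) = true := by
  decide +kernel

def g63 : List Cell := [
  ⟨40532396646334464, 13510798882111488, 1688849860263936, 562949953421312⟩,
  ⟨81064793292668928, 27021597764222976, 1688849860263936, 562949953421312⟩]

theorem run_g63 : g63.all (fun c => run Dat.A4.ch famB 90 c rows) = true := by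
  decide +kernel

def g64 : List Cell := [
  ⟨162129586585337856, 54043195528445952, 1688849860263936, 562949953421312⟩]

theorem run_g64 : g64.all (fun c => run Dat.A4.ch famB 90 c rows) = true := by
  decide +kernel

def g65 : List Cell := [
  ⟨324259173170675712, 108086391056891904, 1688849860263936, 562949953421312⟩]

theorem run_g65 : g65.all (fun c => run Dat.A4.ch famB 90 c rows) = true := by
  decide +kernel

end Vale.Agent.P154.Dat.B4
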