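import Vale.Agent.P154.DA4
import Vale.Agent.P154.KB4f
import Vale.Agent.P154.DB4

/-!
# Kernel checks (B4), part g
-/

set_option linter.all false

namespace Vale.Agent.P154.Dat.B4

open Pk

def g66 : List Cell := [
  ⟨13510798882111488, 13510798882111488, 3377699720527872, 1125899906842624⟩]

theorem run_g66 : g66.all (fun c => run Dat.A4.ch famB 90 c rows) = true := by
  decide +kernel

def g67 : List Cell := [
  ⟨40532396646334464, 13510798882111488, 3377699720527872, 1125899906842624⟩,
  ⟨81064793292668928, 27021597764222976, 3377699720527872, 1125899906842624⟩]

theorem run_g67 : g67.all (fun c => run Dat.A4.ch famB 90 c rows) = true := by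
  decide +kernel

def g68 : List Cell := [
  ⟨162129586585337856, 54043195528445952, 3377699720527872, 1125899906842624⟩]

theorem run_g68 : g68.all (fun c => run Dat.A4.ch famB 90 c rows) = true := by
  decide +kernel

def g69 : List Cell := [
  ⟨324259173170675712, 108086391056891904, 3377699720527872, 1125899906842624⟩]

theorem run_g69 : g69.all (fun c => run Dat.A4.ch famB 90 c rows) = true := by
  decide +kernel

def g70 : List Cell := [
  ⟨13510798882111488, 13510798882111488, 6755399441055744, 2251799813685248⟩]

theorem run_g70 : g70.all (fun c => run Dat.A4.ch famB 90 c rows) = true := by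
  decide +kernel

def g71 : List Cell := [
  ⟨40532396646334464, 13510798882111488, 6755399441055744, 2251799813685248⟩,
  ⟨81064793292668928, 27021597764222976, 6755399441055744, 2251799813685248⟩]

theorem run_g71 : g71.all (fun c => run Dat.A4.ch famB 90 c rows) = true := by
  decide +kernel

def g72 : List Cell := [
  ⟨162129586585337856, 54043195528445952, 6755399441055744, 2251799813685248⟩]

theorem run_g72 : g72.all (fun c => run Dat.A4.ch famB 90 c rows) = true := by
  decide +kernel

def g73 : List Cell := [
  ⟨324259173170675712, 108086391056891904, 6755399441055744, 2251799813685248⟩]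

theorem run_g73 : g73.all (fun c => run Dat.A4.ch famB 90 c rows) = true := by
  decide +kernel

def g74 : List Cell := [
  ⟨13510798882111488, 13510798882111488, 13510798882111488, 4503599627370496⟩]

theorem run_g74 : g74.all (fun c => run Dat.A4.ch famB 90 c rows) = true := by
  decide +kernel

def g75 : List Cell := [
  ⟨40532396646334464, 13510798882111488, 13510798882111488, 4503599627370496⟩,
  ⟨81064793292668928, 27021597764222976, 13510798882111488, 4503599627370496⟩]

theorem run_g75 : g75.all (fun c => run Dat.A4.ch famB 90 c rows) = true := by
  decide +kernel

def g76 : List Cell := [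
  ⟨162129586585337856, 54043195528445952, 13510798882111488, 4503599627370496⟩]

theorem run_g76 : g76.all (fun c => run Dat.A4.ch famB 90 c rows) = true := by
  decide +kernel

def g77 : List Cell := [
  ⟨324259173170675712, 108086391056891904, 13510798882111488, 4503599627370496⟩]

theorem run_g77 : g77.all (fun c => run Dat.A4.ch famB 90 c rows) = true := by
  decide +kernel

def g78 : List Cell := [
  ⟨13510798882111488, 13510798882111488, 27021597764222976, 9007199254740992⟩]

theorem run_g78 : g78.all (fun c => run Dat.A4.ch famB 90 c rows) = true := by
  decide +kernel

def g79 : List Cell := [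
  ⟨40532396646334464, 13510798882111488, 27021597764222976, 9007199254740992⟩]

theorem run_g79 : g79.all (fun c => run Dat.A4.ch famB 90 c rows) = true := by
  decide +kernel

end Vale.Agent.P154.Dat.B4
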