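import Vale.Agent.P154.DA4
import Vale.Agent.P154.KB4g
import Vale.Agent.P154.DB4

/-!
# Kernel checks (B4), part h
-/

set_option linter.all false

namespace Vale.Agent.P154.Dat.B4

open Pk

def g80 : List Cell := [
  ⟨81064793292668928, 27021597764222976, 27021597764222976, 9007199254740992⟩,
  ⟨162129586585337856, 54043195528445952, 27021597764222976, 9007199254740992⟩]

theorem run_g80 : g80.all (fun c => run Dat.A4.ch famB 90 c rows) = true := by
  decide +kernel

def g81 : List Cell := [
  ⟨324259173170675712, 108086391056891904, 27021597764222976, 9007199254740992⟩]

theorem run_g81 : g81.all (fun c => run Dat.A4.ch famB 90 c rows) = true := by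
  decide +kernel

def g82 : List Cell := [
  ⟨27021597764222976, 27021597764222976, 54043195528445952, 18014398509481984⟩]

theorem run_g82 : g82.all (fun c => run Dat.A4.ch famB 90 c rows) = true := by
  decide +kernel

def g83 : List Cell := [
  ⟨81064793292668928, 27021597764222976, 54043195528445952, 18014398509481984⟩]

theorem run_g83 : g83.all (fun c => run Dat.A4.ch famB 90 c rows) = true := by
  decide +kernel

def g84 : List Cell := [
  ⟨162129586585337856, 54043195528445952, 54043195528445952, 18014398509481984⟩]

theorem run_g84 : g84.all (fun c => run Dat.A4.ch famB 90 c rows) = true := by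
  decide +kernel

def g85 : List Cell := [
  ⟨324259173170675712, 108086391056891904, 54043195528445952, 18014398509481984⟩]

theorem run_g85 : g85.all (fun c => run Dat.A4.ch famB 90 c rows) = true := by
  decide +kernel

def g86 : List Cell := [
  ⟨54043195528445952, 54043195528445952, 108086391056891904, 36028797018963968⟩]

theorem run_g86 : g86.all (fun c => run Dat.A4.ch famB 90 c rows) = true := by
  decide +kernel

def g87 : List Cell := [
  ⟨135107988821114880, 27021597764222976, 108086391056891904, 36028797018963968⟩,
  ⟨189151184349560832, 27021597764222976, 108086391056891904, 36028797018963968⟩]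

theorem run_g87 : g87.all (fun c => run Dat.A4.ch famB 90 c rows) = true := by
  decide +kernel

def g88 : List Cell := [
  ⟨324259173170675712, 108086391056891904, 108086391056891904, 36028797018963968⟩]

theorem run_g88 : g88.all (fun c => run Dat.A4.ch famB 90 c rows) = true := by
  decide +kernel

def g89 : List Cell := [
  ⟨108086391056891904, 108086391056891904, 216172782113783808, 72057594037927936⟩]

theorem run_g89 : g89.all (fun c => run Dat.A4.ch famB 90 c rows) = true := by
  decide +kernel

def g90 : List Cell := [
  ⟨270215977642229760, 54043195528445952, 180143985094819840, 36028797018963968⟩]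

theorem run_g90 : g90.all (fun c => run Dat.A4.ch famB 90 c rows) = true := by
  decide +kernel

def g91 : List Cell := [
  ⟨270215977642229760, 54043195528445952, 252201579132747776, 36028797018963968⟩]

theorem run_g91 : g91.all (fun c => run Dat.A4.ch famB 90 c rows) = true := by
  decide +kernel

def g92 : List Cell := [
  ⟨378302368699121664, 54043195528445952, 216172782113783808, 72057594037927936⟩]

theorem run_g92 : g92.all (fun c => run Dat.A4.ch famB 90 c rows) = true := by
  decide +kernel

end Vale.Agent.P154.Dat.B4
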