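import Vale.Agent.P154.Model

/-!
# P154: the (classical) Kesten–Stigum direction on regular trees
-/

namespace Vale.Agent.P154

open Finset

lemma sum_fun_cons {X : Type} [Fintype X] (d : ℕ) (f : (Fin (d + 1) → X) → ℝ) :
    ∑ c, f c = ∑ x, ∑ c' : Fin d → X, f (Fin.cons x c') := by
  rw [← Fintype.sum_prod_type']
  exact (Fintype.sum_equiv (Fin.consEquiv fun _ => X) _ _ (fun _ => rfl)).symm

lemma prod_mass {X : Type} [Fintype X] {μ : X → ℝ} (hμ : ∑ x, μ x = 1) (d : ℕ) :
    ∑ c : Fin d → X, ∏ l, μ (c l) = 1 := by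
  induction d with
  | zero => simp
  | succ d ih =>
    rw [sum_fun_cons]
    have e : ∀ x, ∑ c' : Fin d → X, ∏ l, μ ((Fin.cons x c' : Fin (d + 1) → X) l) = μ x := by
      intro x
      have : ∀ c' : Fin d → X, ∏ l, μ ((Fin.cons x c' : Fin (d + 1) → X) l) =
          μ x * ∏ l, μ (c' l) := by
        intro c'
        rw [Fin.prod_univ_succ]
        simp
      rw [Finset.sum_congr rfl (fun c' _ => this c'), ← Finset.mul_sum, ih, mul_one]
    rw [Finset.sum_congr rfl (fun x _ => e x), hμ]

lemma prod_first {X : Type} [Fintype X] {μ F : X → ℝ} (hμ : ∑ x, μ x = 1) (d : ℕ) :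
    ∑ c : Fin d → X, (∏ l, μ (c l)) * ∑ l, F (c l) = d * ∑ x, μ x * F x := by
  induction d with
  | zero => simp
  | succ d ih =>
    rw [sum_fun_cons]
    have e : ∀ x, ∑ c' : Fin d → X, (∏ l, μ ((Fin.cons x c' : Fin (d + 1) → X) l)) *
        ∑ l, F ((Fin.cons x c' : Fin (d + 1) → X) l) =
        μ x * F x + μ x * (d * ∑ x, μ x * F x) := by
      intro x
      have : ∀ c' : Fin d → X, (∏ l, μ ((Fin.cons x c' : Fin (d + 1) → X) l)) *
          ∑ l, F ((Fin.cons x c' : Fin (d + 1) → X) l) =
          μ x * F x * (∏ l, μ (c' l)) + μ x * ((∏ l, μ (c' l)) * ∑ l, F (c' l)) := by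
        intro c'
        rw [Fin.prod_univ_succ, Fin.sum_univ_succ]
        simp only [Fin.cons_zero, Fin.cons_succ]
        ring
      rw [Finset.sum_congr rfl (fun c' _ => this c'), Finset.sum_add_distrib, ← Finset.mul_sum,
        ← Finset.mul_sum, prod_mass hμ, mul_one, ih]
    rw [Finset.sum_congr rfl (fun x _ => e x), Finset.sum_add_distrib, ← Finset.sum_mul, hμ]
    push_cast
    ring

lemma prod_second {X : Type} [Fintype X] {μ F : X → ℝ} (hμ : ∑ x, μ x = 1) (d : ℕ) :
    ∑ c : Fin d → X, (∏ l, μ (c l)) * (∑ l, F (c l)) ^ 2 =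
      d * ∑ x, μ x * F x ^ 2 + d * (d - 1) * (∑ x, μ x * F x) ^ 2 := by
  induction d with
  | zero => simp
  | succ d ih =>
    rw [sum_fun_cons]
    have e : ∀ x, ∑ c' : Fin d → X, (∏ l, μ ((Fin.cons x c' : Fin (d + 1) → X) l)) *
        (∑ l, F ((Fin.cons x c' : Fin (d + 1) → X) l)) ^ 2 =
        μ x * F x ^ 2 + μ x * F x * (2 * (d * ∑ x, μ x * F x)) +
          μ x * (d * ∑ x, μ x * F x ^ 2 + d * (d - 1) * (∑ x, μ x * F x) ^ 2) := by
      intro x
      have : ∀ c' : Fin d → X, (∏ l, μ ((Fin.cons x c' : Fin (d + 1) → X) l)) *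
          (∑ l, F ((Fin.cons x c' : Fin (d + 1) → X) l)) ^ 2 =
          μ x * F x ^ 2 * (∏ l, μ (c' l)) + μ x * F x * 2 * ((∏ l, μ (c' l)) * ∑ l, F (c' l)) +
          μ x * ((∏ l, μ (c' l)) * (∑ l, F (c' l)) ^ 2) := by
        intro c'
        rw [Fin.prod_univ_succ, Fin.sum_univ_succ]
        simp only [Fin.cons_zero, Fin.cons_succ]
        ring
      rw [Finset.sum_congr rfl (fun c' _ => this c'), Finset.sum_add_distrib,
        Finset.sum_add_distrib, ← Finset.mul_sum, ← Finset.mul_sum, ← Finset.mul_sum,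
        prod_mass hμ, mul_one, ih, prod_first hμ]
      ring
    rw [Finset.sum_congr rfl (fun x _ => e x), Finset.sum_add_distrib, Finset.sum_add_distrib,
      ← Finset.sum_mul, ← Finset.sum_mul, hμ]
    push_cast
    ring

/-- the sum over the leaves of `1_{σ_v = i} - 1/q` -/
noncomputable def stat {q : ℕ} (i : Fin q) : {n : ℕ} → (t : GTree n) → LeafConf q t → ℝ
  | _, GTree.leaf, c => (if (show Fin q from c) = i then 1 else 0) - 1 / (q : ℝ)
  | _, GTree.node k t, c => ∑ j : Fin k, stat i (t j) (c j)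

/-- the centred indicator -/
noncomputable def cen {q : ℕ} (i k : Fin q) : ℝ := (if k = i then 1 else 0) - 1 / (q : ℝ)

section
variable {q d : ℕ} {lam : ℝ}

lemma potts_row (hq : 0 < q) (k : Fin q) : ∑ s, potts q lam k s = 1 := by
  have hq' : (q : ℝ) ≠ 0 := by positivity
  unfold potts
  rw [Finset.sum_add_distrib, ← Finset.mul_sum, Finset.sum_ite_eq]
  simp only [Finset.mem_univ, if_true, Finset.sum_const, Finset.card_univ, Fintype.card_fin,
    nsmul_eq_mul]
  field_simp
  ring

lemma potts_col (hq : 0 < q) (s : Fin q) : ∑ k, potts q lam k s = 1 := by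
  have : ∀ k, potts q lam k s = potts q lam s k := by
    intro k; unfold potts
    by_cases h : k = s
    · subst h; rfl
    · rw [if_neg h, if_neg (fun h' => h h'.symm)]
  rw [Finset.sum_congr rfl (fun k _ => this k), potts_row hq]

lemma cen_sum (hq : 0 < q) (i : Fin q) : ∑ k, cen i k = 0 := by
  have hq' : (q : ℝ) ≠ 0 := by positivity
  unfold cen
  rw [Finset.sum_sub_distrib, Finset.sum_ite_eq']
  simp only [Finset.mem_univ, if_true, Finset.sum_const, Finset.card_univ, Fintype.card_fin,
    nsmul_eq_mul]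
  field_simp
  ring

lemma potts_cen (hq : 0 < q) (i k : Fin q) : ∑ s, potts q lam k s * cen i s = lam * cen i k := by
  have h1 : ∀ s, potts q lam k s * cen i s =
      lam * ((if k = s then 1 else 0) * cen i s) + (1 - lam) / q * cen i s := by
    intro s; unfold potts; ring
  rw [Finset.sum_congr rfl (fun s _ => h1 s), Finset.sum_add_distrib, ← Finset.mul_sum,
    ← Finset.mul_sum, cen_sum hq, mul_zero, add_zero]
  congr 1
  simp

/-- one step transition weights -/
noncomputable def mu (lam : ℝ) {n : ℕ} (t : GTree n) (k : Fin q) (c : LeafConf q t) : ℝ :=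
  ∑ s, potts q lam k s * lik q lam t s c

lemma lik_mass (hq : 0 < q) (n : ℕ) : ∀ k : Fin q, ∑ c, lik q lam (reg d n) k c = 1 := by
  induction n with
  | zero =>
    intro k
    change ∑ c : Fin q, Pi.single (M := fun _ : Fin q => ℝ) c 1 k = 1
    simp [Pi.single_apply]
  | succ n ih =>
    intro k
    have hmu : ∑ x, mu lam (reg d n) k x = 1 := by
      unfold mu
      rw [Finset.sum_comm]
      have : ∀ s, ∑ x, potts q lam k s * lik q lam (reg d n) s x = potts q lam k s := by
        intro s; rw [← Finset.mul_sum, ih, mul_one]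
      rw [Finset.sum_congr rfl (fun s _ => this s), potts_row hq]
    exact prod_mass hmu d

lemma mu_mass (hq : 0 < q) (n : ℕ) (k : Fin q) : ∑ x, mu lam (reg d n) k x = 1 := by
  unfold mu
  rw [Finset.sum_comm]
  have : ∀ s, ∑ x, potts q lam k s * lik q lam (reg d n) s x = potts q lam k s := by
    intro s; rw [← Finset.mul_sum, lik_mass hq, mul_one]
  rw [Finset.sum_congr rfl (fun s _ => this s), potts_row hq]

lemma mu_exp (n : ℕ) (k : Fin q) (F : LeafConf q (reg d n) → ℝ) :
    ∑ x, mu lam (reg d n) k x * F x =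
      ∑ s, potts q lam k s * ∑ x, lik q lam (reg d n) s x * F x := by
  unfold mu
  simp only [Finset.sum_mul, Finset.mul_sum]
  rw [Finset.sum_comm]
  exact Finset.sum_congr rfl (fun s _ => Finset.sum_congr rfl (fun x _ => by ring))

lemma first_moment (hq : 0 < q) (i : Fin q) (n : ℕ) : ∀ k : Fin q,
    ∑ c, lik q lam (reg d n) k c * stat i (reg d n) c = (d * lam) ^ n * cen i k := by
  induction n with
  | zero =>
    intro k
    change ∑ c : Fin q, Pi.single (M := fun _ : Fin q => ℝ) c 1 k *
      ((if c = i then 1 else 0) - 1 / (q : ℝ)) = _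
    simp [Pi.single_apply, cen]
  | succ n ih =>
    intro k
    have e := prod_first (μ := mu lam (reg d n) k) (F := stat i (reg d n)) (mu_mass hq n k) d
    refine Eq.trans e ?_
    rw [mu_exp]
    have : ∀ s, potts q lam k s * ∑ x, lik q lam (reg d n) s x * stat i (reg d n) x =
        (d * lam) ^ n * (potts q lam k s * cen i s) := by
      intro s; rw [ih]; ring
    rw [Finset.sum_congr rfl (fun s _ => this s), ← Finset.mul_sum, potts_cen hq]
    ring

lemma second_moment_zero (i : Fin q) :
    ∑ k : Fin q, ∑ c, lik q lam (reg d 0) k c * stat i (reg d 0) c ^ 2 = ∑ k, cen i k ^ 2 := by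
  refine Finset.sum_congr rfl (fun k _ => ?_)
  change ∑ c : Fin q, Pi.single (M := fun _ : Fin q => ℝ) c 1 k *
      ((if c = i then 1 else 0) - 1 / (q : ℝ)) ^ 2 = _
  simp [Pi.single_apply, cen]

lemma second_moment_succ (hq : 0 < q) (i : Fin q) (n : ℕ) :
    ∑ k : Fin q, ∑ c, lik q lam (reg d (n + 1)) k c * stat i (reg d (n + 1)) c ^ 2 =
      d * (∑ k : Fin q, ∑ c, lik q lam (reg d n) k c * stat i (reg d n) c ^ 2) +
      d * (d - 1) * (lam * (d * lam) ^ n) ^ 2 * ∑ k, cen i k ^ 2 := by
  have h1 : ∀ k : Fin q, ∑ c, lik q lam (reg d (n + 1)) k c * stat i (reg d (n + 1)) c ^ 2 =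
      d * (∑ s, potts q lam k s * ∑ x, lik q lam (reg d n) s x * stat i (reg d n) x ^ 2) +
        d * (d - 1) * (lam * (d * lam) ^ n) ^ 2 * cen i k ^ 2 := by
    intro k
    have e := prod_second (μ := mu lam (reg d n) k) (F := stat i (reg d n)) (mu_mass hq n k) d
    refine Eq.trans e ?_
    rw [mu_exp, mu_exp]
    have : ∀ s, potts q lam k s * ∑ x, lik q lam (reg d n) s x * stat i (reg d n) x =
        (d * lam) ^ n * (potts q lam k s * cen i s) := by
      intro s; rw [first_moment hq]; ring
    rw [Finset.sum_congr rfl (fun s _ => this s), ← Finset.mul_sum, potts_cen hq]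
    ring
  rw [Finset.sum_congr rfl (fun k _ => h1 k), Finset.sum_add_distrib, ← Finset.mul_sum,
    ← Finset.mul_sum, Finset.sum_comm]
  congr 2
  refine Finset.sum_congr rfl (fun s _ => ?_)
  rw [← Finset.sum_mul, potts_col hq, one_mul]

lemma lik_nonneg (hp : ∀ k s : Fin q, 0 ≤ potts q lam k s) (n : ℕ) :
    ∀ (k : Fin q) c, 0 ≤ lik q lam (reg d n) k c := by
  induction n with
  | zero =>
    intro k c
    change Fin q at c
    change 0 ≤ Pi.single (M := fun _ : Fin q => ℝ) c 1 k
    rw [Pi.single_apply]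
    split_ifs <;> norm_num
  | succ n ih =>
    intro k c
    exact Finset.prod_nonneg (fun j _ => Finset.sum_nonneg (fun s _ => mul_nonneg (hp k s) (ih s _)))

lemma second_moment_le (hq : 0 < q) (i : Fin q) (hth : 1 < d * lam ^ 2) (n : ℕ) :
    (d * lam ^ 2 - 1) * ∑ k : Fin q, ∑ c, lik q lam (reg d n) k c * stat i (reg d n) c ^ 2 ≤
      d * lam ^ 2 * (∑ k, cen i k ^ 2) * ((d * lam) ^ n) ^ 2 := by
  have hW : 0 ≤ ∑ k, cen i k ^ 2 := Finset.sum_nonneg (fun k _ => sq_nonneg _)
  induction n with
  | zero =>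
    rw [second_moment_zero]
    simp only [pow_zero, one_pow, mul_one]
    linarith
  | succ n ih =>
    rw [second_moment_succ hq]
    have hd : (0:ℝ) ≤ d := Nat.cast_nonneg d
    have h1 := mul_le_mul_of_nonneg_left ih hd
    set W := ∑ k, cen i k ^ 2 with hWd
    set M := ∑ k : Fin q, ∑ c, lik q lam (reg d n) k c * stat i (reg d n) c ^ 2
    have h2 : 0 ≤ d * (lam * (d * lam) ^ n) ^ 2 * W * (d * lam ^ 2 - 1) := by
      have : 0 ≤ d * lam ^ 2 - 1 := by linarith
      positivity
    have e : ((d:ℝ) * lam) ^ (n + 1) = (d * lam) ^ n * (d * lam) := pow_succ _ _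
    rw [e]
    nlinarith [h1, h2]

/-- the advantage dominates the correlation with any statistic -/
lemma corr_le (hq : 0 < q) (hp : ∀ k s : Fin q, 0 ≤ potts q lam k s) (n : ℕ) (i : Fin q)
    (h : LeafConf q (reg d n) → ℝ) :
    (∑ c, h c * (jointProb q lam (reg d n) i c - leafProb q lam (reg d n) c / q)) ^ 2 ≤
      (∑ c, leafProb q lam (reg d n) c * h c ^ 2) * (2 * aReg q d lam n) := by
  have hq' : (0 : ℝ) < q := by exact_mod_cast hq
  have hJ : ∀ k c, 0 ≤ jointProb q lam (reg d n) k c := by
    intro k c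
    rw [jointProb_eq]
    have := lik_nonneg (d := d) hp n k c
    positivity
  have hL : ∀ c, 0 ≤ leafProb q lam (reg d n) c := fun c => Finset.sum_nonneg (fun k _ => hJ k c)
  have hJL : ∀ k c, jointProb q lam (reg d n) k c ≤ leafProb q lam (reg d n) c := fun k c =>
    Finset.single_le_sum (f := fun k => jointProb q lam (reg d n) k c) (fun k _ => hJ k c)
      (Finset.mem_univ k)
  have cs := Finset.sum_sq_le_sum_mul_sum_of_sq_le_mul (Finset.univ)
    (r := fun c => h c * (jointProb q lam (reg d n) i c - leafProb q lam (reg d n) c / q))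
    (f := fun c => leafProb q lam (reg d n) c * h c ^ 2)
    (g := fun c => leafProb q lam (reg d n) c *
      (jointProb q lam (reg d n) i c / leafProb q lam (reg d n) c - 1 / (q : ℝ)) ^ 2)
    (fun c _ => mul_nonneg (hL c) (sq_nonneg _)) (fun c _ => mul_nonneg (hL c) (sq_nonneg _))
    (by
      intro c _
      rcases (hL c).eq_or_lt with h0 | h0
      · have : jointProb q lam (reg d n) i c = 0 :=
          le_antisymm ((hJL i c).trans h0.symm.le) (hJ i c)
        simp [← h0, this]
      · apply le_of_eq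
        field_simp)
  refine cs.trans ?_
  apply mul_le_mul_of_nonneg_left _
    (Finset.sum_nonneg (fun c _ => mul_nonneg (hL c) (sq_nonneg _)))
  unfold aReg advantage
  rw [Finset.mul_sum]
  refine Finset.sum_le_sum (fun c _ => ?_)
  rcases (hL c).eq_or_lt with h0 | h0
  · simp [← h0]
  · have hx0 : 0 ≤ jointProb q lam (reg d n) i c / leafProb q lam (reg d n) c :=
      div_nonneg (hJ i c) (hL c)
    have hx1 : jointProb q lam (reg d n) i c / leafProb q lam (reg d n) c ≤ 1 :=
      (div_le_one h0).mpr (hJL i c)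
    have hq1 : 0 ≤ 1 / (q : ℝ) := by positivity
    have hq2 : 1 / (q : ℝ) ≤ 1 := by
      rw [div_le_one hq']; exact_mod_cast hq
    have habs : |jointProb q lam (reg d n) i c / leafProb q lam (reg d n) c - 1 / (q : ℝ)| ≤ 1 :=
      abs_le.mpr ⟨by linarith, by linarith⟩
    have hsq : (jointProb q lam (reg d n) i c / leafProb q lam (reg d n) c - 1 / (q : ℝ)) ^ 2 ≤
        |jointProb q lam (reg d n) i c / leafProb q lam (reg d n) c - 1 / (q : ℝ)| := by
      rw [← sq_abs]
      nlinarith [abs_nonneg (jointProb q lam (reg d n) i c / leafProb q lam (reg d n) c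
        - 1 / (q : ℝ))]
    have hs := Finset.single_le_sum
      (f := fun k => |jointProb q lam (reg d n) k c / leafProb q lam (reg d n) c - 1 / (q : ℝ)|)
      (fun k _ => abs_nonneg _) (Finset.mem_univ i)
    have := mul_le_mul_of_nonneg_left (hsq.trans hs) h0.le
    calc _ ≤ _ := this
      _ = _ := by ring

/-- **Kesten–Stigum** on the `d`-ary tree: `d λ² > 1` implies reconstruction. -/
theorem ks_reg (hq : 2 ≤ q) (hp : ∀ k s : Fin q, 0 ≤ potts q lam k s) (hth : 1 < d * lam ^ 2) :
    ∃ c : ℝ, 0 < c ∧ ∀ n, c ≤ aReg q d lam n := by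
  have hq0 : 0 < q := by omega
  have hq' : (0 : ℝ) < q := by exact_mod_cast hq0
  have hq2 : (2 : ℝ) ≤ q := by exact_mod_cast hq
  obtain ⟨i⟩ : Nonempty (Fin q) := ⟨⟨0, hq0⟩⟩
  have hV : 0 < 1 - 1 / (q : ℝ) := by
    rw [sub_pos, div_lt_one hq']; linarith
  have hci : cen i i = 1 - 1 / (q : ℝ) := by unfold cen; simp
  have hW : 0 < ∑ k, cen i k ^ 2 := by
    refine lt_of_lt_of_le ?_ (Finset.single_le_sum (f := fun k => cen i k ^ 2)
      (fun k _ => sq_nonneg _) (Finset.mem_univ i))
    rw [hci]; positivity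
  set W := ∑ k, cen i k ^ 2 with hWd
  set V := 1 / (q : ℝ) * (1 - 1 / (q : ℝ)) with hVd
  have hVp : 0 < V := by positivity
  have hth0 : 0 < d * lam ^ 2 := by linarith
  refine ⟨(d * lam ^ 2 - 1) * V ^ 2 * q / (2 * (d * lam ^ 2 * W)), ?_, fun n => ?_⟩
  · have : 0 < d * lam ^ 2 - 1 := by linarith
    positivity
  · rw [div_le_iff₀ (by positivity)]
    have hc := corr_le (d := d) hq0 hp n i (stat i (reg d n))
    have e1 : ∑ c, stat i (reg d n) c *
        (jointProb q lam (reg d n) i c - leafProb q lam (reg d n) c / q) = V * (d * lam) ^ n := by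
      have h1 : ∀ c, stat i (reg d n) c *
          (jointProb q lam (reg d n) i c - leafProb q lam (reg d n) c / q) =
          1 / q * (lik q lam (reg d n) i c * stat i (reg d n) c) -
          1 / q * (1 / q * ∑ k, lik q lam (reg d n) k c * stat i (reg d n) c) := by
        intro c
        unfold leafProb
        simp only [jointProb_eq]
        rw [← Finset.sum_mul, ← Finset.mul_sum]
        ring
      rw [Finset.sum_congr rfl (fun c _ => h1 c), Finset.sum_sub_distrib, ← Finset.mul_sum,
        first_moment hq0, ← Finset.mul_sum, ← Finset.mul_sum, Finset.sum_comm]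
      have h2 : ∀ k, ∑ c, lik q lam (reg d n) k c * stat i (reg d n) c = (d * lam) ^ n * cen i k :=
        fun k => first_moment hq0 i n k
      rw [Finset.sum_congr rfl (fun k _ => h2 k), ← Finset.mul_sum, cen_sum hq0, hci]
      ring
    have e2 : ∑ c, leafProb q lam (reg d n) c * stat i (reg d n) c ^ 2 =
        1 / q * ∑ k : Fin q, ∑ c, lik q lam (reg d n) k c * stat i (reg d n) c ^ 2 := by
      rw [Finset.sum_comm, Finset.mul_sum]
      refine Finset.sum_congr rfl (fun c _ => ?_)
      unfold leafProb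
      simp only [jointProb_eq]
      rw [Finset.sum_mul, Finset.mul_sum]
      exact Finset.sum_congr rfl (fun k _ => by ring)
    rw [e1, e2] at hc
    have hm := second_moment_le (d := d) (lam := lam) hq0 i hth n
    rw [← hWd] at hm
    set M := ∑ k : Fin q, ∑ c, lik q lam (reg d n) k c * stat i (reg d n) c ^ 2 with hM
    have hdl : (d * lam) ≠ 0 := by
      intro h0
      rcases mul_eq_zero.mp h0 with h | h
      · rw [h] at hth; linarith
      · rw [h] at hth; norm_num at hth
    have hX : 0 < ((d * lam) ^ n) ^ 2 := by positivity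
    have ha : 0 ≤ aReg q d lam n := by
      by_contra hneg
      push Not at hneg
      have hMp : 0 < M := by
        by_contra hM0
        push Not at hM0
        have hMnn : 0 ≤ M := Finset.sum_nonneg (fun k _ => Finset.sum_nonneg (fun c _ =>
          mul_nonneg (lik_nonneg hp n k c) (sq_nonneg _)))
        have : M = 0 := le_antisymm hM0 hMnn
        rw [this] at hc
        have : 0 < (V * (d * lam) ^ n) ^ 2 := by positivity
        linarith
      have h1 : 1 / (q : ℝ) * M * (2 * aReg q d lam n) < 0 :=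
        mul_neg_of_pos_of_neg (by positivity) (by linarith)
      have : 0 < (V * (d * lam) ^ n) ^ 2 := by positivity
      linarith
    -- combine
    have h3 : (d * lam ^ 2 - 1) * (V * (d * lam) ^ n) ^ 2 * q ≤
        (d * lam ^ 2 * W * ((d * lam) ^ n) ^ 2) * (2 * aReg q d lam n) := by
      have t1 : (V * (d * lam) ^ n) ^ 2 * q ≤ M * (2 * aReg q d lam n) := by
        have := mul_le_mul_of_nonneg_right hc hq'.le
        have e : 1 / (q:ℝ) * M * (2 * aReg q d lam n) * q = M * (2 * aReg q d lam n) := by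
          field_simp
        linarith
      have t2 := mul_le_mul_of_nonneg_left t1 (by linarith : 0 ≤ d * lam ^ 2 - 1)
      have t3 := mul_le_mul_of_nonneg_right hm (by linarith : 0 ≤ 2 * aReg q d lam n)
      nlinarith [t2, t3]
    have h4 : ((d * lam) ^ n) ^ 2 * ((d * lam ^ 2 - 1) * V ^ 2 * q) ≤
        ((d * lam) ^ n) ^ 2 * (aReg q d lam n * (2 * (d * lam ^ 2 * W))) := by
      nlinarith [h3]
    exact le_of_mul_le_mul_left h4 hX

end

end Vale.Agent.P154
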