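import Vale.Agent.P154.Deg
import Vale.Agent.P154.Digits

/-!
Soundness of the Kronecker substitution check: if the value of the program at the powers of two
has nonnegative digits, then the corresponding real polynomial is nonnegative for nonnegative
arguments.
-/

set_option linter.unusedVariables false

namespace Vale.Agent.P154

open MvPolynomial

theorem aff_rel {R S : Type*} {Rel : R → S → Prop} {ad sb ml : R → R → R} {c : ℤ → R}
    {ad' sb' ml' : S → S → S} {c' : ℤ → S} (cl : Closed Rel ad sb ml c ad' sb' ml' c')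
    (m n : ℤ) {x : R} {x' : S} (hx : Rel x x') : Rel (aff ad ml c m n x) (aff ad' ml' c' m n x') :=
  cl.ad (cl.c m) (cl.ml (cl.c n) hx)

theorem full_rel {R S : Type*} {Rel : R → S → Prop} {ad sb ml : R → R → R} {c : ℤ → R}
    {ad' sb' ml' : S → S → S} {c' : ℤ → S} (cl : Closed Rel ad sb ml c ad' sb' ml' c')
    (p : Par) (q : Inp) {x0 x1 x2 x3 x4 : R} {y0 y1 y2 y3 y4 : S}
    (h0 : Rel x0 y0) (h1 : Rel x1 y1) (h2 : Rel x2 y2) (h3 : Rel x3 y3) (h4 : Rel x4 y4) :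
    Rel (full ad sb ml c p q x0 x1 x2 x3 x4) (full ad' sb' ml' c' p q y0 y1 y2 y3 y4) :=
  psiH_rel cl p (aff_rel cl _ _ h0) (aff_rel cl _ _ h1) (aff_rel cl _ _ h2) (aff_rel cl _ _ h3)
    (aff_rel cl _ _ h4) (aff_rel cl _ _ h0) (aff_rel cl _ _ h1)
    (cl.ad (aff_rel cl _ _ h0) (cl.ml (aff_rel cl _ _ h0) h2))
    (cl.ad (aff_rel cl _ _ h1) (cl.ml (aff_rel cl _ _ h1) h3))
    (cl.ad (cl.ad (aff_rel cl _ _ h0) (cl.ml (aff_rel cl _ _ h0) h1))
      (cl.ml (cl.ad (aff_rel cl _ _ h0) (cl.ml (aff_rel cl _ _ h0) h1)) h4))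

/-- evaluation of a ring homomorphism -/
theorem closed_hom {R S : Type*} [CommRing R] [CommRing S] (f : R →+* S) :
    Closed (fun (a : R) (b : S) => f a = b) (· + ·) (· - ·) (· * ·) (fun n : ℤ => (n : R))
      (· + ·) (· - ·) (· * ·) (fun n : ℤ => (n : S)) where
  ad := by intro a a' b b' h h'; simp [← h, ← h']
  sb := by intro a a' b b' h h'; simp [← h, ← h']
  ml := by intro a a' b b' h h'; simp [← h, ← h']
  c := by intro n; simp

abbrev PZ := MvPolynomial (Fin 5) ℤ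

/-- coefficientwise domination -/
def Dom (p : PZ) (q : PN) : Prop := ∀ m, |MvPolynomial.coeff m p| ≤ ((MvPolynomial.coeff m q : ℕ) : ℤ)

theorem closed_dom : Closed Dom (· + ·) (· - ·) (· * ·) (fun n : ℤ => (n : PZ))
    (· + ·) (· + ·) (· * ·) (fun n : ℤ => C n.natAbs) where
  ad := by
    intro a a' b b' h h' m
    simp only [coeff_add, Nat.cast_add]
    exact (abs_add_le _ _).trans (add_le_add (h m) (h' m))
  sb := by
    intro a a' b b' h h' m
    simp only [coeff_add, coeff_sub, Nat.cast_add]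
    exact (abs_sub _ _).trans (add_le_add (h m) (h' m))
  ml := by
    intro a a' b b' h h' m
    simp only [coeff_mul, Nat.cast_sum, Nat.cast_mul]
    refine (Finset.abs_sum_le_sum_abs _ _).trans (Finset.sum_le_sum ?_)
    intro x _
    rw [abs_mul]
    exact mul_le_mul (h _) (h' _) (abs_nonneg _) (Nat.cast_nonneg _)
  c := by
    intro n m
    rw [show ((n : PZ)) = C n by simp]
    rw [coeff_C, coeff_C]
    split_ifs
    · simp
    · simp

/-- value of the majorant at one -/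
theorem closed_one : Closed (fun (q : PN) (b : ℕ) => MvPolynomial.eval (fun _ => 1) q = b)
    (· + ·) (· + ·) (· * ·) (fun n : ℤ => (C n.natAbs : PN)) (· + ·) (· + ·) (· * ·) Int.natAbs where
  ad := by intro a a' b b' h h'; simp [← h, ← h']
  sb := by intro a a' b b' h h'; simp [← h, ← h']
  ml := by intro a a' b b' h h'; simp [← h, ← h']
  c := by intro n; simp


theorem dl_X0 : DL (X 0 : PN) 1 0 0 0 0 := by
  constructor <;> rw [degreeOf_X] <;> decide
theorem dl_X1 : DL (X 1 : PN) 0 1 0 0 0 := by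
  constructor <;> rw [degreeOf_X] <;> decide
theorem dl_X2 : DL (X 2 : PN) 0 0 1 0 0 := by
  constructor <;> rw [degreeOf_X] <;> decide
theorem dl_X3 : DL (X 3 : PN) 0 0 0 1 0 := by
  constructor <;> rw [degreeOf_X] <;> decide
theorem dl_X4 : DL (X 4 : PN) 0 0 0 0 1 := by
  constructor <;> rw [degreeOf_X] <;> decide

theorem DL.mono {q : PN} {a b c d e a' b' c' d' e' : ℕ} (h : DL q a b c d e) (ha : a ≤ a') (hb : b ≤ b')
    (hc : c ≤ c') (hd : d ≤ d') (he : e ≤ e') : DL q a' b' c' d' e' :=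
  ⟨h.a.trans ha, h.b.trans hb, h.c.trans hc, h.d.trans hd, h.e.trans he⟩

theorem dl_aff (m n : ℤ) {x : PN} {a b c d e : ℕ} (h : DL x a b c d e) :
    DL (aff (· + ·) (· * ·) (fun n : ℤ => (C n.natAbs : PN)) m n x) a b c d e :=
  dl_add ((dl_c m).mono (Nat.zero_le _) (Nat.zero_le _) (Nat.zero_le _) (Nat.zero_le _) (Nat.zero_le _))
    (by have := dl_mul (dl_c n) h; simpa using this)

/-- the majorant of the full program -/
noncomputable def maj (p : Par) (q : Inp) : PN :=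
  full (· + ·) (· + ·) (· * ·) (fun n : ℤ => (C n.natAbs : PN)) p q (X 0) (X 1) (X 2) (X 3) (X 4)

/-- the polynomial of the full program -/
noncomputable def ply (p : Par) (q : Inp) : PZ :=
  full (· + ·) (· - ·) (· * ·) (fun n : ℤ => (n : PZ)) p q (X 0) (X 1) (X 2) (X 3) (X 4)

theorem maj_deg (p : Par) (q : Inp) : DL (maj p q) 7 7 2 2 5 := by
  unfold maj full
  refine psiH_deg p (dl_aff _ _ dl_X0) (dl_aff _ _ dl_X1) (dl_aff _ _ dl_X2) (dl_aff _ _ dl_X3)
    (dl_aff _ _ dl_X4) (dl_aff _ _ dl_X0) (dl_aff _ _ dl_X1) ?_ ?_ ?_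
  · exact dl_add ((dl_aff _ _ dl_X0).mono le_rfl le_rfl (Nat.zero_le _) le_rfl le_rfl)
      (show DL _ 1 0 1 0 0 from dl_mul (dl_aff _ _ dl_X0) dl_X2)
  · exact dl_add ((dl_aff _ _ dl_X1).mono le_rfl le_rfl le_rfl (Nat.zero_le _) le_rfl)
      (show DL _ 0 1 0 1 0 from dl_mul (dl_aff _ _ dl_X1) dl_X3)
  · have h1 : ∀ a b c d : ℤ, DL ((aff (· + ·) (· * ·) (fun n : ℤ => (C n.natAbs : PN)) a b (X 0)) +
        (aff (· + ·) (· * ·) (fun n : ℤ => (C n.natAbs : PN)) c d (X 0)) * X 1) 1 1 0 0 0 := by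
      intro a b c d
      exact dl_add ((dl_aff _ _ dl_X0).mono le_rfl (Nat.zero_le _) le_rfl le_rfl le_rfl)
        (show DL _ 1 1 0 0 0 from dl_mul (dl_aff _ _ dl_X0) dl_X1)
    exact dl_add ((h1 _ _ _ _).mono le_rfl le_rfl le_rfl le_rfl (Nat.zero_le _))
      (show DL _ 1 1 0 0 1 from dl_mul (h1 _ _ _ _) dl_X4)

theorem dom_X (i : Fin 5) : Dom (X i) (X i) := by
  intro m
  rw [coeff_X, coeff_X]
  split_ifs <;> simp

theorem ply_dom (p : Par) (q : Inp) : Dom (ply p q) (maj p q) :=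
  full_rel closed_dom p q (dom_X 0) (dom_X 1) (dom_X 2) (dom_X 3) (dom_X 4)

theorem maj_one (p : Par) (q : Inp) : MvPolynomial.eval (fun _ => 1) (maj p q) =
    full (· + ·) (· + ·) (· * ·) Int.natAbs p q 1 1 1 1 1 :=
  full_rel closed_one p q (by simp) (by simp) (by simp) (by simp) (by simp)

theorem ply_eval {S : Type*} [CommRing S] (p : Par) (q : Inp) (x : Fin 5 → S) :
    MvPolynomial.eval₂Hom (Int.castRingHom S) x (ply p q) =
    full (· + ·) (· - ·) (· * ·) (fun n : ℤ => (n : S)) p q (x 0) (x 1) (x 2) (x 3) (x 4) :=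
  full_rel (closed_hom _) p q (by simp) (by simp) (by simp) (by simp) (by simp)

/-- the Kronecker index -/
def kidx (m : Fin 5 →₀ ℕ) : ℕ := m 0 + 8 * m 1 + 64 * m 2 + 192 * m 3 + 576 * m 4

theorem box_of_mem {p : Par} {q : Inp} {m : Fin 5 →₀ ℕ} (hm : m ∈ (ply p q).support) :
    m 0 ≤ 7 ∧ m 1 ≤ 7 ∧ m 2 ≤ 2 ∧ m 3 ≤ 2 ∧ m 4 ≤ 5 := by
  have h1 : m ∈ (maj p q).support := by
    rw [mem_support_iff] at hm ⊢
    intro h0
    have := ply_dom p q m
    rw [h0] at this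
    simp only [Nat.cast_zero, abs_nonpos_iff] at this
    exact hm this
  have hd := maj_deg p q
  exact ⟨(monomial_le_degreeOf 0 h1).trans hd.a, (monomial_le_degreeOf 1 h1).trans hd.b,
    (monomial_le_degreeOf 2 h1).trans hd.c, (monomial_le_degreeOf 3 h1).trans hd.d,
    (monomial_le_degreeOf 4 h1).trans hd.e⟩

theorem kidx_inj {m n : Fin 5 →₀ ℕ} (hm : m 0 ≤ 7 ∧ m 1 ≤ 7 ∧ m 2 ≤ 2 ∧ m 3 ≤ 2 ∧ m 4 ≤ 5)
    (hn : n 0 ≤ 7 ∧ n 1 ≤ 7 ∧ n 2 ≤ 2 ∧ n 3 ≤ 2 ∧ n 4 ≤ 5) (h : kidx m = kidx n) : m = n := by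
  obtain ⟨a0, a1, a2, a3, a4⟩ := hm
  obtain ⟨b0, b1, b2, b3, b4⟩ := hn
  unfold kidx at h
  ext i
  fin_cases i
  · show m 0 = n 0; omega
  · show m 1 = n 1; omega
  · show m 2 = n 2; omega
  · show m 3 = n 3; omega
  · show m 4 = n 4; omega

theorem sum_coeff_le (p : Par) (q : Inp) (s : Finset (Fin 5 →₀ ℕ)) (hs : s ⊆ (ply p q).support) :
    ∑ m ∈ s, |coeff m (ply p q)| ≤ ((MvPolynomial.eval (fun _ => 1) (maj p q) : ℕ) : ℤ) := by
  rw [eval_eq]
  simp only [one_pow, Finset.prod_const_one, mul_one, Nat.cast_sum]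
  have h1 : s ⊆ (maj p q).support := by
    intro m hm
    have := hs hm
    rw [mem_support_iff] at this ⊢
    intro h0
    have h2 := ply_dom p q m
    rw [h0] at h2
    simp only [Nat.cast_zero, abs_nonpos_iff] at h2
    exact this h2
  refine (Finset.sum_le_sum (fun m _ => ply_dom p q m)).trans ?_
  exact Finset.sum_le_sum_of_subset_of_nonneg h1 (fun _ _ _ => Nat.cast_nonneg _)

/-- soundness of the digit check -/
theorem kron_sound (p : Par) (q : Inp) (K : ℕ) (hK : 0 < K) (V : ℕ)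
    (hV : full (· + ·) (· - ·) (· * ·) (fun n : ℤ => (n : ℤ)) p q (2 ^ K) (2 ^ (K * 8)) (2 ^ (K * 64))
      (2 ^ (K * 192)) (2 ^ (K * 576)) = (V : ℤ))
    (hm : V &&& mask K 3456 = 0)
    (hb : full (· + ·) (· + ·) (· * ·) Int.natAbs p q 1 1 1 1 1 < 2 ^ (K - 1))
    (x0 x1 x2 x3 x4 : ℝ) (h0 : 0 ≤ x0) (h1 : 0 ≤ x1) (h2 : 0 ≤ x2) (h3 : 0 ≤ x3) (h4 : 0 ≤ x4) :
    0 ≤ full (· + ·) (· - ·) (· * ·) (fun n : ℤ => (n : ℝ)) p q x0 x1 x2 x3 x4 := by
  set P := ply p q with hP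
  -- coefficients grouped by index
  let c : ℕ → ℤ := fun j => ∑ m ∈ P.support.filter (fun m => kidx m = j), coeff m P
  have hc : ∀ j, |c j| < 2 ^ (K - 1) := by
    intro j
    have e1 : |c j| ≤ ∑ m ∈ P.support.filter (fun m => kidx m = j), |coeff m P| :=
      Finset.abs_sum_le_sum_abs _ _
    have e2 := sum_coeff_le p q (P.support.filter (fun m => kidx m = j)) (Finset.filter_subset _ _)
    rw [maj_one] at e2
    have e3 : ((full (· + ·) (· + ·) (· * ·) Int.natAbs p q 1 1 1 1 1 : ℕ) : ℤ) < 2 ^ (K - 1) := by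
      exact_mod_cast hb
    linarith
  have hbox : ∀ m ∈ P.support, kidx m ∈ Finset.range 3456 := by
    intro m hm
    have := box_of_mem hm
    rw [Finset.mem_range]; unfold kidx; omega
  have hVe : (V : ℤ) = ∑ j ∈ Finset.range 3456, c j * 2 ^ (K * j) := by
    have e1 := ply_eval (S := ℤ) p q ![2 ^ K, 2 ^ (K * 8), 2 ^ (K * 64), 2 ^ (K * 192), 2 ^ (K * 576)]
    have e2 : full (· + ·) (· - ·) (· * ·) (fun n : ℤ => (n : ℤ)) p q
        ((![2 ^ K, 2 ^ (K * 8), 2 ^ (K * 64), 2 ^ (K * 192), 2 ^ (K * 576)] : Fin 5 → ℤ) 0)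
        ((![2 ^ K, 2 ^ (K * 8), 2 ^ (K * 64), 2 ^ (K * 192), 2 ^ (K * 576)] : Fin 5 → ℤ) 1)
        ((![2 ^ K, 2 ^ (K * 8), 2 ^ (K * 64), 2 ^ (K * 192), 2 ^ (K * 576)] : Fin 5 → ℤ) 2)
        ((![2 ^ K, 2 ^ (K * 8), 2 ^ (K * 64), 2 ^ (K * 192), 2 ^ (K * 576)] : Fin 5 → ℤ) 3)
        ((![2 ^ K, 2 ^ (K * 8), 2 ^ (K * 64), 2 ^ (K * 192), 2 ^ (K * 576)] : Fin 5 → ℤ) 4) = (V : ℤ) := hV
    rw [← e2]
    have e3 : (fun n : ℤ => ((Int.cast n : ℤ))) = (fun n : ℤ => n) := by funext n; simp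
    rw [e3] at e1
    rw [← e1, coe_eval₂Hom, eval₂_eq']
    have e4 : ∀ m ∈ P.support, (Int.castRingHom ℤ) (coeff m P) *
        ∏ i, (![2 ^ K, 2 ^ (K * 8), 2 ^ (K * 64), 2 ^ (K * 192), 2 ^ (K * 576)] : Fin 5 → ℤ) i ^ m i =
        coeff m P * 2 ^ (K * kidx m) := by
      intro m _
      have e5 : ∏ i, (![2 ^ K, 2 ^ (K * 8), 2 ^ (K * 64), 2 ^ (K * 192), 2 ^ (K * 576)] : Fin 5 → ℤ) i ^ m i =
          2 ^ (K * kidx m) := by
        rw [Fin.prod_univ_five]
        show (2 ^ K : ℤ) ^ m 0 * (2 ^ (K * 8)) ^ m 1 * (2 ^ (K * 64)) ^ m 2 * (2 ^ (K * 192)) ^ m 3 *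
          (2 ^ (K * 576)) ^ m 4 = 2 ^ (K * kidx m)
        rw [← pow_mul, ← pow_mul, ← pow_mul, ← pow_mul, ← pow_mul, ← pow_add, ← pow_add, ← pow_add,
          ← pow_add]
        congr 1
        unfold kidx
        ring
      rw [e5]; simp
    rw [Finset.sum_congr rfl e4]
    rw [← Finset.sum_fiberwise_of_maps_to hbox]
    apply Finset.sum_congr rfl
    intro j _
    rw [Finset.sum_mul]
    apply Finset.sum_congr rfl
    intro m hm
    rw [(Finset.mem_filter.mp hm).2]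
  have hnn := digits_nonneg K hK 3456 c hc V hVe (testBit_of_mask K 3456 V hK hm)
  have hcoef : ∀ m ∈ P.support, 0 ≤ coeff m P := by
    intro m hm
    have e1 := hnn (kidx m) (Finset.mem_range.mp (hbox m hm))
    have e2 : c (kidx m) = coeff m P := by
      show ∑ n ∈ P.support.filter (fun n => kidx n = kidx m), coeff n P = coeff m P
      have : P.support.filter (fun n => kidx n = kidx m) = {m} := by
        ext n
        rw [Finset.mem_filter, Finset.mem_singleton]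
        constructor
        · rintro ⟨hn, he⟩
          exact kidx_inj (box_of_mem hn) (box_of_mem hm) he
        · rintro rfl
          exact ⟨hm, rfl⟩
      rw [this, Finset.sum_singleton]
    rw [← e2]; exact e1
  have e1 := ply_eval (S := ℝ) p q ![x0, x1, x2, x3, x4]
  have e2 : full (· + ·) (· - ·) (· * ·) (fun n : ℤ => (n : ℝ)) p q x0 x1 x2 x3 x4 =
      MvPolynomial.eval₂Hom (Int.castRingHom ℝ) ![x0, x1, x2, x3, x4] (ply p q) := e1.symm
  rw [e2, coe_eval₂Hom, eval₂_eq']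
  apply Finset.sum_nonneg
  intro m hm
  apply mul_nonneg
  · have := hcoef m hm
    simp only [eq_intCast]
    exact_mod_cast this
  · apply Finset.prod_nonneg
    intro i _
    apply pow_nonneg
    fin_cases i
    · exact h0
    · exact h1
    · exact h2
    · exact h3
    · exact h4

end Vale.Agent.P154
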