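import Vale.Agent.P154.Kron

/-!
From the digit check to the real inequality on a cell.
-/

set_option linter.unusedVariables false

namespace Vale.Agent.P154

theorem psiR_continuous (p : Par) {A B t s D : ℝ → ℝ} (hA : Continuous A) (hB : Continuous B)
    (ht : Continuous t) (hs : Continuous s) (hD : Continuous D) :
    Continuous (fun e => psiR p (A e) (B e) (t e) (s e) (D e)) := by
  have cl : Closed (fun (f : ℝ → ℝ) (_ : Unit) => Continuous f)
      (fun f g => fun e => f e + g e) (fun f g => fun e => f e - g e) (fun f g => fun e => f e * g e)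
      (fun n : ℤ => fun _ => (n : ℝ)) (fun _ _ => ()) (fun _ _ => ()) (fun _ _ => ()) (fun _ => ()) := by
    constructor
    · intro a a' b b' h h'; exact h.add h'
    · intro a a' b b' h h'; exact h.sub h'
    · intro a a' b b' h h'; exact h.mul h'
    · intro n; exact continuous_const
  have cl2 : ∀ e : ℝ, Closed (fun (f : ℝ → ℝ) (r : ℝ) => f e = r)
      (fun f g => fun e => f e + g e) (fun f g => fun e => f e - g e) (fun f g => fun e => f e * g e)
      (fun n : ℤ => fun _ => (n : ℝ)) (· + ·) (· - ·) (· * ·) (fun n : ℤ => (n : ℝ)) := by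
    intro e
    constructor
    · intro a a' b b' h h'; simp [h, h']
    · intro a a' b b' h h'; simp [h, h']
    · intro a a' b b' h h'; simp [h, h']
    · intro n; rfl
  have c1 : Continuous (fun _ : ℝ => (1:ℝ)) := continuous_const
  have h1 := psiH_rel (p := p) cl (h := fun _ => 1) (h' := ()) c1 (g := fun _ => 1) (g' := ()) c1
    (ea := fun _ => 1) (ea' := ()) c1 (es := fun _ => 1) (es' := ()) c1 (ed := fun _ => 1) (ed' := ()) c1
    (A := A) (A' := ()) hA (B := B) (B' := ()) hB (t := t) (t' := ()) ht (s := s) (s' := ()) hs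
    (D := D) (D' := ()) hD
  have h2 : (fun e => psiR p (A e) (B e) (t e) (s e) (D e)) =
      psiH (fun f g => fun e => f e + g e) (fun f g => fun e => f e - g e) (fun f g => fun e => f e * g e)
      (fun n : ℤ => fun _ => (n : ℝ)) p (fun _ => 1) (fun _ => 1) (fun _ => 1) (fun _ => 1) (fun _ => 1)
      A B t s D := by
    funext e
    exact (psiH_rel (p := p) (cl2 e) (h' := 1) rfl (g' := 1) rfl (ea' := 1) rfl (es' := 1) rfl (ed' := 1) rfl
      (A := A) rfl (B := B) rfl (t := t) rfl (s := s) rfl (D := D) rfl).symm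
  rw [h2]; exact h1

/-- convex combination -/
noncomputable def cv (l x y : ℝ) : ℝ := (1 - l) * x + l * y

/-- scales positive -/
def Inp.pos (q : Inp) : Prop := 0 < q.sa ∧ 0 < q.sc ∧ 0 < q.st ∧ 0 < q.ss ∧ 0 < q.sd

/-- the value of the program at a point of the cell -/
noncomputable def pt (p : Par) (q : Inp) (l m n o w : ℝ) : ℝ :=
  psiR p (cv l q.a0 q.a1 / q.sa) (cv m q.c0 q.c1 / q.sc)
    (cv n (cv l q.t00 q.t01) (cv l q.t10 q.t11) / (q.sa * q.st))
    (cv o (cv m q.s00 q.s01) (cv m q.s10 q.s11) / (q.sc * q.ss))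
    (cv w (cv m (cv l q.l00 q.l10) (cv l q.l01 q.l11)) (cv m (cv l q.u00 q.u10) (cv l q.u01 q.u11)) /
      (q.sa * q.sc * q.sd))

theorem pt_open (p : Par) (q : Inp) (hq : q.pos)
    (hf : ∀ x0 x1 x2 x3 x4 : ℝ, 0 ≤ x0 → 0 ≤ x1 → 0 ≤ x2 → 0 ≤ x3 → 0 ≤ x4 →
      0 ≤ full (· + ·) (· - ·) (· * ·) (fun n : ℤ => (n : ℝ)) p q x0 x1 x2 x3 x4)
    (l m n o w : ℝ) (hl : 0 ≤ l) (hl1 : l < 1) (hm : 0 ≤ m) (hm1 : m < 1) (hn : 0 ≤ n) (hn1 : n < 1)
    (ho : 0 ≤ o) (ho1 : o < 1) (hw : 0 ≤ w) (hw1 : w < 1) : 0 ≤ pt p q l m n o w := by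
  obtain ⟨sa, sc, st, ss, sd⟩ := hq
  have sa' : (0:ℝ) < q.sa := by exact_mod_cast sa
  have sc' : (0:ℝ) < q.sc := by exact_mod_cast sc
  have st' : (0:ℝ) < q.st := by exact_mod_cast st
  have ss' : (0:ℝ) < q.ss := by exact_mod_cast ss
  have sd' : (0:ℝ) < q.sd := by exact_mod_cast sd
  have el : 0 < 1 - l := by linarith
  have em : 0 < 1 - m := by linarith
  have en : 0 < 1 - n := by linarith
  have eo : 0 < 1 - o := by linarith
  have ew : 0 < 1 - w := by linarith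
  have h1 := hf (l / (1 - l)) (m / (1 - m)) (n / (1 - n)) (o / (1 - o)) (w / (1 - w))
    (by positivity) (by positivity) (by positivity) (by positivity) (by positivity)
  have h2 := psiH_hom p (q.sa / (1 - l)) (q.sc / (1 - m)) (q.st / (1 - n)) (q.ss / (1 - o)) (q.sd / (1 - w))
    (cv l q.a0 q.a1 / q.sa) (cv m q.c0 q.c1 / q.sc)
    (cv n (cv l q.t00 q.t01) (cv l q.t10 q.t11) / (q.sa * q.st))
    (cv o (cv m q.s00 q.s01) (cv m q.s10 q.s11) / (q.sc * q.ss))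
    (cv w (cv m (cv l q.l00 q.l10) (cv l q.l01 q.l11)) (cv m (cv l q.u00 q.u10) (cv l q.u01 q.u11)) /
      (q.sa * q.sc * q.sd))
  have e1 : (q.sa : ℝ) / (1 - l) = q.sa + q.sa * (l / (1 - l)) := by field_simp; ring
  have e2 : (q.sc : ℝ) / (1 - m) = q.sc + q.sc * (m / (1 - m)) := by field_simp; ring
  have e3 : (q.st : ℝ) / (1 - n) = q.st + q.st * (n / (1 - n)) := by field_simp; ring
  have e4 : (q.ss : ℝ) / (1 - o) = q.ss + q.ss * (o / (1 - o)) := by field_simp; ring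
  have e5 : (q.sd : ℝ) / (1 - w) = q.sd + q.sd * (w / (1 - w)) := by field_simp; ring
  have e6 : cv l q.a0 q.a1 / q.sa * ((q.sa : ℝ) / (1 - l)) = q.a0 + q.a1 * (l / (1 - l)) := by
    unfold cv; field_simp
  have e7 : cv m q.c0 q.c1 / q.sc * ((q.sc : ℝ) / (1 - m)) = q.c0 + q.c1 * (m / (1 - m)) := by
    unfold cv; field_simp
  have e8 : cv n (cv l q.t00 q.t01) (cv l q.t10 q.t11) / (q.sa * q.st) *
      ((q.sa : ℝ) / (1 - l) * (q.st / (1 - n))) =
      (q.t00 + q.t01 * (l / (1 - l))) + (q.t10 + q.t11 * (l / (1 - l))) * (n / (1 - n)) := by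
    unfold cv; field_simp
  have e9 : cv o (cv m q.s00 q.s01) (cv m q.s10 q.s11) / (q.sc * q.ss) *
      ((q.sc : ℝ) / (1 - m) * (q.ss / (1 - o))) =
      (q.s00 + q.s01 * (m / (1 - m))) + (q.s10 + q.s11 * (m / (1 - m))) * (o / (1 - o)) := by
    unfold cv; field_simp
  have e10 : cv w (cv m (cv l q.l00 q.l10) (cv l q.l01 q.l11)) (cv m (cv l q.u00 q.u10) (cv l q.u01 q.u11)) /
      (q.sa * q.sc * q.sd) * ((q.sa : ℝ) / (1 - l) * (q.sc / (1 - m)) * (q.sd / (1 - w))) =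
      (q.l00 + q.l10 * (l / (1 - l))) + (q.l01 + q.l11 * (l / (1 - l))) * (m / (1 - m)) +
      ((q.u00 + q.u10 * (l / (1 - l))) + (q.u01 + q.u11 * (l / (1 - l))) * (m / (1 - m))) * (w / (1 - w)) := by
    unfold cv; field_simp
  rw [e6, e7, e8, e9, e10] at h2
  rw [e1, e2, e3, e4, e5] at h2
  have h3 : full (· + ·) (· - ·) (· * ·) (fun n : ℤ => (n : ℝ)) p q (l / (1 - l)) (m / (1 - m)) (n / (1 - n))
      (o / (1 - o)) (w / (1 - w)) = pt p q l m n o w *
      ((q.sa + q.sa * (l / (1 - l)))^7 * (q.sc + q.sc * (m / (1 - m)))^7 *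
        (q.st + q.st * (n / (1 - n)))^2 * (q.ss + q.ss * (o / (1 - o)))^2 *
        (q.sd + q.sd * (w / (1 - w)))^5) := h2
  rw [h3] at h1
  have hp : 0 < ((q.sa + q.sa * (l / (1 - l)))^7 * (q.sc + q.sc * (m / (1 - m)))^7 *
        (q.st + q.st * (n / (1 - n)))^2 * (q.ss + q.ss * (o / (1 - o)))^2 *
        (q.sd + q.sd * (w / (1 - w)))^5 : ℝ) := by positivity
  exact nonneg_of_mul_nonneg_left h1 hp

theorem pt_closed (p : Par) (q : Inp) (hq : q.pos)
    (hf : ∀ x0 x1 x2 x3 x4 : ℝ, 0 ≤ x0 → 0 ≤ x1 → 0 ≤ x2 → 0 ≤ x3 → 0 ≤ x4 →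
      0 ≤ full (· + ·) (· - ·) (· * ·) (fun n : ℤ => (n : ℝ)) p q x0 x1 x2 x3 x4)
    (l m n o w : ℝ) (hl : 0 ≤ l) (hl1 : l ≤ 1) (hm : 0 ≤ m) (hm1 : m ≤ 1) (hn : 0 ≤ n) (hn1 : n ≤ 1)
    (ho : 0 ≤ o) (ho1 : o ≤ 1) (hw : 0 ≤ w) (hw1 : w ≤ 1) : 0 ≤ pt p q l m n o w := by
  have hc : Continuous (fun e : ℝ => pt p q ((1 - e) * l) ((1 - e) * m) ((1 - e) * n) ((1 - e) * o)
      ((1 - e) * w)) := by
    unfold pt cv
    apply psiR_continuous <;> fun_prop
  have h1 : ∀ e ∈ Set.Ioo (0:ℝ) 1, (0:ℝ) ≤ pt p q ((1 - e) * l) ((1 - e) * m) ((1 - e) * n) ((1 - e) * o)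
      ((1 - e) * w) := by
    intro e he
    have he0 : 0 ≤ 1 - e := by linarith [he.2]
    have he1 : 1 - e < 1 := by linarith [he.1]
    have key : ∀ x : ℝ, 0 ≤ x → x ≤ 1 → (1 - e) * x < 1 := by
      intro x hx hx1
      calc (1 - e) * x ≤ (1 - e) * 1 := mul_le_mul_of_nonneg_left hx1 he0
        _ < 1 := by linarith
    exact pt_open p q hq hf _ _ _ _ _ (mul_nonneg he0 hl) (key l hl hl1) (mul_nonneg he0 hm) (key m hm hm1)
      (mul_nonneg he0 hn) (key n hn hn1) (mul_nonneg he0 ho) (key o ho ho1) (mul_nonneg he0 hw)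
      (key w hw hw1)
  have h2 : Filter.Tendsto (fun e : ℝ => pt p q ((1 - e) * l) ((1 - e) * m) ((1 - e) * n) ((1 - e) * o)
      ((1 - e) * w)) (nhdsWithin 0 (Set.Ioi 0)) (nhds (pt p q ((1 - 0) * l) ((1 - 0) * m) ((1 - 0) * n)
      ((1 - 0) * o) ((1 - 0) * w))) := (hc.tendsto 0).mono_left nhdsWithin_le_nhds
  have h3 := ge_of_tendsto h2 (b := 0) (by
    filter_upwards [Ioo_mem_nhdsGT (show (0:ℝ) < 1 by norm_num)] with e he
    exact h1 e he)
  simpa using h3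

end Vale.Agent.P154
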