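import Vale.Agent.P154.Model

/-!
# P154: ensembles of likelihood vectors for `q` spins, both signs of `lam`
-/

namespace Vale.Agent.P154.Mu

open Finset

variable {q : ℕ}

/-- average of the coordinates -/
noncomputable def avg (v : Fin q → ℝ) : ℝ := (∑ i, v i) / q

/-- the simplex of nonnegative vectors of mean one -/
def Sx (x : Fin q → ℝ) : Prop := (∀ i, 0 ≤ x i) ∧ avg x = 1

/-- the channel on normalised messages -/
noncomputable def ch (lam : ℝ) (x : Fin q → ℝ) : Fin q → ℝ := fun i => lam * x i + (1 - lam)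

/-- the channel on unnormalised vectors -/
noncomputable def cl (lam : ℝ) (v : Fin q → ℝ) : Fin q → ℝ :=
  fun i => lam * v i + (1 - lam) * avg v

/-- normalisation -/
noncomputable def nm (v : Fin q → ℝ) : Fin q → ℝ := fun i => v i / avg v

/-- homogeneous extension -/
noncomputable def hm (F : (Fin q → ℝ) → ℝ) (v : Fin q → ℝ) : ℝ := avg v * F (nm v)

/-- A finite family of likelihood vectors with full permutation symmetry. -/
structure SE {Ω : Type} [Fintype Ω] (L : Ω → Fin q → ℝ) : Prop where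
  nonneg : ∀ c i, 0 ≤ L c i
  sum_one : ∀ i, ∑ c, L c i = 1
  sym : ∀ σ : Equiv.Perm (Fin q), ∃ e : Ω ≃ Ω, ∀ c, L (e c) = fun i => L c (σ i)

/-- admissible values of `lam` -/
def LamOK (q : ℕ) (lam : ℝ) : Prop := lam ≤ 1 ∧ -1 ≤ ((q : ℝ) - 1) * lam

lemma avg_nonneg {v : Fin q → ℝ} (hv : ∀ i, 0 ≤ v i) : 0 ≤ avg v :=
  div_nonneg (Finset.sum_nonneg (fun i _ => hv i)) (Nat.cast_nonneg _)

lemma eq_zero_of_avg (hq : 0 < q) {v : Fin q → ℝ} (hv : ∀ i, 0 ≤ v i) (h : avg v = 0) (i : Fin q) :
    v i = 0 := by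
  have hq' : (q : ℝ) ≠ 0 := by positivity
  unfold avg at h
  rw [div_eq_zero_iff] at h
  have h1 : ∑ i, v i = 0 := by
    rcases h with h | h
    · exact h
    · exact absurd h hq'
  exact (Finset.sum_eq_zero_iff_of_nonneg (fun i _ => hv i)).mp h1 i (Finset.mem_univ i)

lemma nm_Sx (hq : 0 < q) {v : Fin q → ℝ} (hv : ∀ i, 0 ≤ v i) (h : 0 < avg v) : Sx (nm v) := by
  refine ⟨fun i => div_nonneg (hv i) h.le, ?_⟩
  have hq' : (q : ℝ) ≠ 0 := by positivity
  have e : avg (nm v) = avg v / avg v := by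
    generalize hm : avg v = m
    unfold nm
    rw [hm]
    unfold avg at hm ⊢
    rw [← Finset.sum_div]
    rw [div_right_comm, hm]
  rw [e, div_self h.ne']

lemma avg_cl (hq : 0 < q) (lam : ℝ) (v : Fin q → ℝ) : avg (cl lam v) = avg v := by
  have hq' : (q : ℝ) ≠ 0 := by positivity
  unfold cl
  generalize hm : avg v = m
  unfold avg at hm ⊢
  rw [Finset.sum_add_distrib, ← Finset.mul_sum, Finset.sum_const, Finset.card_univ,
    Fintype.card_fin, nsmul_eq_mul]
  have : ∑ i, v i = q * m := by rw [← hm]; field_simp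
  rw [this]
  field_simp
  ring

lemma nm_cl (hq : 0 < q) (lam : ℝ) {v : Fin q → ℝ} (h : avg v ≠ 0) :
    nm (cl lam v) = ch lam (nm v) := by
  funext i
  unfold nm
  rw [avg_cl hq]
  unfold cl ch
  field_simp

lemma LamOK.coef {lam : ℝ} (hq : 0 < q) (h : LamOK q lam) : 0 ≤ lam + (1 - lam) / q := by
  have hq' : (0:ℝ) < q := by positivity
  have h1 := h.2
  have : lam + (1 - lam) / q = (1 + ((q : ℝ) - 1) * lam) / q := by field_simp; ring
  rw [this]
  apply div_nonneg _ hq'.le
  linarith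

lemma cl_nonneg {lam : ℝ} (hq : 0 < q) (h : LamOK q lam) {v : Fin q → ℝ} (hv : ∀ i, 0 ≤ v i)
    (i : Fin q) : 0 ≤ cl lam v i := by
  have hq' : (0:ℝ) < q := by positivity
  have h1 := h.coef hq
  have h2 : 0 ≤ (1 - lam) / q := div_nonneg (by linarith [h.1]) hq'.le
  have e : cl lam v i = (lam + (1 - lam) / q) * v i + (1 - lam) / q * ∑ j ∈ univ.erase i, v j := by
    unfold cl avg
    rw [← Finset.add_sum_erase _ _ (Finset.mem_univ i)]
    ring
  rw [e]
  have h3 : 0 ≤ ∑ j ∈ univ.erase i, v j := Finset.sum_nonneg (fun j _ => hv j)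
  have := hv i
  positivity

lemma ch_Sx {lam : ℝ} (hq : 0 < q) (h : LamOK q lam) {x : Fin q → ℝ} (hx : Sx x) :
    Sx (ch lam x) := by
  have e : ch lam x = cl lam x := by
    funext i
    unfold ch cl
    rw [hx.2, mul_one]
  rw [e]
  exact ⟨cl_nonneg hq h hx.1, by rw [avg_cl hq, hx.2]⟩

lemma SE.cl {Ω : Type} [Fintype Ω] {L : Ω → Fin q → ℝ} (h : SE L) (hq : 0 < q) {lam : ℝ}
    (hl : LamOK q lam) : SE (fun c => cl lam (L c)) := by
  have hq' : (q : ℝ) ≠ 0 := by positivity
  refine ⟨fun c i => cl_nonneg hq hl (h.nonneg c) i, ?_, ?_⟩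
  · intro i
    unfold Mu.cl avg
    rw [Finset.sum_add_distrib, ← Finset.mul_sum, ← Finset.mul_sum, ← Finset.sum_div,
      Finset.sum_comm, h.sum_one]
    simp only [h.sum_one, Finset.sum_const, Finset.card_univ, Fintype.card_fin, nsmul_eq_mul]
    field_simp
    ring
  · intro σ
    obtain ⟨e, he⟩ := h.sym σ
    refine ⟨e, fun c => ?_⟩
    funext i
    unfold Mu.cl
    rw [he c]
    have : avg (fun i => L c (σ i)) = avg (L c) := by
      unfold avg
      rw [Equiv.sum_comp σ (L c)]
    rw [this]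

/-- product of a finite family of ensembles -/
lemma SE.pi {k : ℕ} {Ω : Fin k → Type} [inst : ∀ j, Fintype (Ω j)]
    {L : (j : Fin k) → Ω j → Fin q → ℝ} (h : ∀ j, SE (L j)) :
    SE (fun (c : (j : Fin k) → Ω j) i => ∏ j, L j (c j) i) := by
  refine ⟨fun c i => Finset.prod_nonneg (fun j _ => (h j).nonneg _ _), ?_, ?_⟩
  · intro i
    have h1 := (Finset.prod_univ_sum (fun j : Fin k => (Finset.univ : Finset (Ω j)))
      (fun j c => L j c i)).symm
    rw [Fintype.piFinset_univ] at h1
    rw [h1]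
    exact Finset.prod_eq_one (fun j _ => (h j).sum_one i)
  · intro σ
    choose e he using fun j => (h j).sym σ
    refine ⟨Equiv.piCongrRight e, fun c => ?_⟩
    funext i
    refine Finset.prod_congr rfl (fun j _ => ?_)
    change L j (e j (c j)) i = _
    rw [he j (c j)]

lemma sum_avg {Ω : Type} [Fintype Ω] {L : Ω → Fin q → ℝ} (hq : 0 < q) (h : SE L) :
    ∑ c, avg (L c) = 1 := by
  have hq' : (q : ℝ) ≠ 0 := by positivity
  unfold avg
  rw [← Finset.sum_div, Finset.sum_comm]
  simp only [h.sum_one, Finset.sum_const, Finset.card_univ, Fintype.card_fin, nsmul_eq_mul]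
  field_simp

/-- likelihood vector of a leaf configuration -/
noncomputable def lv (lam : ℝ) {n : ℕ} (t : GTree n) (c : LeafConf q t) : Fin q → ℝ :=
  fun i => lik q lam t i c

lemma potts_sum (lam : ℝ) (i : Fin q) (v : Fin q → ℝ) :
    ∑ s, potts q lam i s * v s = cl lam v i := by
  unfold potts cl avg
  simp only [add_mul, Finset.sum_add_distrib]
  congr 1
  · rw [Finset.sum_eq_single i]
    · simp
    · intro b _ hb
      rw [if_neg (Ne.symm hb)]; ring
    · intro h; exact absurd (Finset.mem_univ i) h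
  · rw [← Finset.mul_sum]; ring

lemma lv_node (lam : ℝ) {n k : ℕ} (t : Fin k → GTree n) (c : (j : Fin k) → LeafConf q (t j)) :
    lv lam (GTree.node k t) c = fun i => ∏ j, cl lam (lv lam (t j) (c j)) i := by
  funext i
  change ∏ j : Fin k, ∑ s, potts q lam i s * lik q lam (t j) s (c j) = _
  refine Finset.prod_congr rfl (fun j _ => ?_)
  exact potts_sum lam i (fun s => lik q lam (t j) s (c j))

lemma SE.lv {lam : ℝ} (hq : 0 < q) (hl : LamOK q lam) {n : ℕ} (t : GTree n) :
    SE (lv (q := q) lam t) := by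
  induction t with
  | leaf =>
    have key : SE (fun (c : Fin q) (i : Fin q) => Pi.single (M := fun _ : Fin q => ℝ) c 1 i) := by
      refine ⟨?_, ?_, ?_⟩
      · intro c i
        by_cases h : i = c
        · subst h; simp
        · simp [h]
      · intro i
        rw [Finset.sum_eq_single i]
        · simp
        · intro b _ hb
          simp [Ne.symm hb]
        · simp
      · intro σ
        refine ⟨σ.symm, fun c => ?_⟩
        funext i
        by_cases h : σ i = c
        · have h' : i = σ.symm c := by rw [← h]; simp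
          rw [h, h']; simp
        · have h' : ¬ i = σ.symm c := by
            intro h''
            apply h
            rw [h'']; simp
          simp [h, h']
    exact key
  | @node n k t ih =>
    have h := SE.pi (fun j => (ih j).cl hq hl)
    have e : (fun (c : (j : Fin k) → LeafConf q (t j)) => Mu.lv lam (GTree.node k t) c) =
        fun c i => ∏ j, Mu.cl lam (Mu.lv lam (t j) (c j)) i := by
      funext c
      exact lv_node lam t c
    rw [← e] at h
    exact h

/-- expectation of a functional of the message -/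
noncomputable def EF (F : (Fin q → ℝ) → ℝ) (lam : ℝ) {n : ℕ} (t : GTree n) : ℝ :=
  ∑ c : LeafConf q t, hm F (lv lam t c)

lemma EF_node (F : (Fin q → ℝ) → ℝ) (lam : ℝ) {n k : ℕ} (t : Fin k → GTree n) :
    EF F lam (GTree.node k t) = ∑ c : (j : Fin k) → LeafConf q (t j),
      hm F (fun i => ∏ j, cl lam (lv lam (t j) (c j)) i) := by
  unfold EF
  exact Finset.sum_congr rfl (fun c _ => congrArg (hm F) (lv_node lam t c))

lemma hm_mono (hq : 0 < q) {F G : (Fin q → ℝ) → ℝ} (hF : ∀ x, Sx x → F x ≤ G x) {v : Fin q → ℝ}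
    (hv : ∀ i, 0 ≤ v i) : hm F v ≤ hm G v := by
  have h := avg_nonneg hv
  unfold hm
  rcases h.eq_or_lt with h0 | hpos
  · rw [← h0]; simp
  · exact mul_le_mul_of_nonneg_left (hF _ (nm_Sx hq hv hpos)) h

lemma EF_mono (hq : 0 < q) {F G : (Fin q → ℝ) → ℝ} (hF : ∀ x, Sx x → F x ≤ G x) {lam : ℝ}
    (hl : LamOK q lam) {n : ℕ} (t : GTree n) : EF F lam t ≤ EF G lam t :=
  Finset.sum_le_sum (fun c _ => hm_mono hq hF ((SE.lv hq hl t).nonneg c))

lemma EF_const (hq : 0 < q) {lam : ℝ} (hl : LamOK q lam) (B : ℝ) {n : ℕ} (t : GTree n) :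
    EF (fun _ : Fin q → ℝ => B) lam t = B := by
  unfold EF hm
  rw [← Finset.sum_mul, sum_avg hq (SE.lv hq hl t), one_mul]

lemma EF_congr (hq : 0 < q) {F G : (Fin q → ℝ) → ℝ} (hF : ∀ x, Sx x → F x = G x) {lam : ℝ}
    (hl : LamOK q lam) {n : ℕ} (t : GTree n) : EF F lam t = EF G lam t :=
  le_antisymm (EF_mono hq (fun x hx => (hF x hx).le) hl t)
    (EF_mono hq (fun x hx => (hF x hx).ge) hl t)

lemma EF_add (F G : (Fin q → ℝ) → ℝ) (lam : ℝ) {n : ℕ} (t : GTree n) :
    EF (fun x => F x + G x) lam t = EF F lam t + EF G lam t := by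
  unfold EF hm
  rw [← Finset.sum_add_distrib]
  exact Finset.sum_congr rfl (fun c _ => by ring)

lemma EF_const_mul (F : (Fin q → ℝ) → ℝ) (a : ℝ) (lam : ℝ) {n : ℕ} (t : GTree n) :
    EF (fun x => a * F x) lam t = a * EF F lam t := by
  unfold EF hm
  rw [Finset.mul_sum]
  exact Finset.sum_congr rfl (fun c _ => by ring)

lemma EF_abs_le (hq : 0 < q) {F : (Fin q → ℝ) → ℝ} {B : ℝ} (hF : ∀ x, Sx x → |F x| ≤ B) {lam : ℝ}
    (hl : LamOK q lam) {n : ℕ} (t : GTree n) : |EF F lam t| ≤ B := by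
  rw [abs_le]
  constructor
  · have h := EF_mono hq (F := fun _ => -B) (G := F) (fun x hx => (abs_le.mp (hF x hx)).1) hl t
    rwa [EF_const hq hl] at h
  · have h := EF_mono hq (F := F) (G := fun _ => B) (fun x hx => (abs_le.mp (hF x hx)).2) hl t
    rwa [EF_const hq hl] at h

end Vale.Agent.P154.Mu
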