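import Vale.Agent.P154.MuBasic

/-!
# P154: degradation (convex order) of the messages
-/

namespace Vale.Agent.P154.Mu

open Finset

variable {q : ℕ}

/-- sublinear functions on the nonnegative cone -/
structure Subl (h : (Fin q → ℝ) → ℝ) : Prop where
  add : ∀ v w : Fin q → ℝ, (∀ i, 0 ≤ v i) → (∀ i, 0 ≤ w i) → h (fun i => v i + w i) ≤ h v + h w
  smul : ∀ (a : ℝ) (v : Fin q → ℝ), 0 ≤ a → (∀ i, 0 ≤ v i) → h (fun i => a * v i) = a * h v

lemma Subl.sum_le {h : (Fin q → ℝ) → ℝ} (hh : Subl h) {ι : Type} (s : Finset ι) (a : ι → ℝ)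
    (v : ι → Fin q → ℝ) (ha : ∀ j ∈ s, 0 ≤ a j) (hv : ∀ j ∈ s, ∀ i, 0 ≤ v j i) :
    h (fun i => ∑ j ∈ s, a j * v j i) ≤ ∑ j ∈ s, a j * h (v j) := by
  classical
  induction s using Finset.induction_on with
  | empty =>
    simp only [Finset.sum_empty]
    have h1 := hh.smul 0 (fun _ => 0) le_rfl (fun _ => le_rfl)
    simp only [zero_mul] at h1
    exact h1.le
  | insert j s hj ih =>
    have h1 := ih (fun j' hj' => ha j' (Finset.mem_insert_of_mem hj'))
      (fun j' hj' => hv j' (Finset.mem_insert_of_mem hj'))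
    have haj := ha j (Finset.mem_insert_self _ _)
    have hvj := hv j (Finset.mem_insert_self _ _)
    have h2 := hh.add (fun i => a j * v j i) (fun i => ∑ j' ∈ s, a j' * v j' i)
      (fun i => mul_nonneg haj (hvj i))
      (fun i => Finset.sum_nonneg (fun j' hj' => mul_nonneg (ha j' (Finset.mem_insert_of_mem hj'))
        (hv j' (Finset.mem_insert_of_mem hj') i)))
    rw [hh.smul (a j) (v j) haj hvj] at h2
    simp only [Finset.sum_insert hj]
    linarith

/-- degradation order of finite families -/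
def DL {Ω Ω' : Type} [Fintype Ω] [Fintype Ω'] (L : Ω → Fin q → ℝ) (L' : Ω' → Fin q → ℝ) : Prop :=
  ∀ h : (Fin q → ℝ) → ℝ, Subl h → ∑ c, h (L c) ≤ ∑ c, h (L' c)

lemma Subl.cl {h : (Fin q → ℝ) → ℝ} (hh : Subl h) (hq : 0 < q) {lam : ℝ} (hl : LamOK q lam) :
    Subl (fun v => h (cl lam v)) := by
  refine ⟨fun v w hv hw => ?_, fun a v ha hv => ?_⟩
  · have e : Mu.cl lam (fun i => v i + w i) = fun i => Mu.cl lam v i + Mu.cl lam w i := by
      funext i
      unfold Mu.cl avg
      rw [Finset.sum_add_distrib]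
      ring
    rw [e]
    exact hh.add _ _ (cl_nonneg hq hl hv) (cl_nonneg hq hl hw)
  · have e : Mu.cl lam (fun i => a * v i) = fun i => a * Mu.cl lam v i := by
      funext i
      unfold Mu.cl avg
      rw [← Finset.mul_sum]
      ring
    rw [e]
    exact hh.smul _ _ ha (cl_nonneg hq hl hv)

lemma Subl.mul {h : (Fin q → ℝ) → ℝ} (hh : Subl h) {w : Fin q → ℝ} (hw : ∀ i, 0 ≤ w i) :
    Subl (fun v => h (fun i => w i * v i)) := by
  refine ⟨fun v v' hv hv' => ?_, fun a v ha hv => ?_⟩
  · have e : (fun i => w i * (v i + v' i)) = fun i => w i * v i + w i * v' i := by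
      funext i; ring
    show h (fun i => w i * (v i + v' i)) ≤ _
    rw [e]
    exact hh.add _ _ (fun i => mul_nonneg (hw i) (hv i)) (fun i => mul_nonneg (hw i) (hv' i))
  · have e : (fun i => w i * (a * v i)) = fun i => a * (w i * v i) := by
      funext i; ring
    show h (fun i => w i * (a * v i)) = _
    rw [e]
    exact hh.smul _ _ ha (fun i => mul_nonneg (hw i) (hv i))

lemma DL.cl {Ω Ω' : Type} [Fintype Ω] [Fintype Ω'] {L : Ω → Fin q → ℝ} {L' : Ω' → Fin q → ℝ}
    (h : DL L L') (hq : 0 < q) {lam : ℝ} (hl : LamOK q lam) :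
    DL (fun c => cl lam (L c)) (fun c => cl lam (L' c)) :=
  fun _ hg => h _ (hg.cl hq hl)

lemma DL.mul {Ω Ω' Λ Λ' : Type} [Fintype Ω] [Fintype Ω'] [Fintype Λ] [Fintype Λ']
    {L : Ω → Fin q → ℝ} {L' : Ω' → Fin q → ℝ} {M : Λ → Fin q → ℝ} {M' : Λ' → Fin q → ℝ}
    (hL : DL L L') (hM : DL M M') (hL' : ∀ c i, 0 ≤ L' c i) (hM0 : ∀ c i, 0 ≤ M c i)
    (g : (Fin q → ℝ) → ℝ) (hg : Subl g) :
    ∑ c, ∑ d, g (fun i => L c i * M d i) ≤ ∑ c, ∑ d, g (fun i => L' c i * M' d i) := by
  have h1 : ∑ c, ∑ d, g (fun i => L c i * M d i) ≤ ∑ c, ∑ d, g (fun i => L' c i * M d i) := by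
    rw [Finset.sum_comm, Finset.sum_comm (s := (univ : Finset Ω'))]
    refine Finset.sum_le_sum (fun d _ => ?_)
    have h2 := hL _ (hg.mul (hM0 d))
    simp only [mul_comm] at h2 ⊢
    exact h2
  refine h1.trans (Finset.sum_le_sum (fun c _ => ?_))
  exact hM _ (hg.mul (hL' c))

lemma DL.pi : ∀ (k : ℕ) {Ω Ω' : Fin k → Type} [∀ j, Fintype (Ω j)] [∀ j, Fintype (Ω' j)]
    {L : (j : Fin k) → Ω j → Fin q → ℝ} {L' : (j : Fin k) → Ω' j → Fin q → ℝ},
    (∀ j, DL (L j) (L' j)) → (∀ j c i, 0 ≤ L j c i) → (∀ j c i, 0 ≤ L' j c i) →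
    DL (fun (c : (j : Fin k) → Ω j) i => ∏ j, L j (c j) i)
      (fun (c : (j : Fin k) → Ω' j) i => ∏ j, L' j (c j) i) := by
  intro k
  induction k with
  | zero =>
    intro Ω Ω' _ _ L L' _ _ _ g _
    simp
  | succ k ih =>
    intro Ω Ω' _ _ L L' h h0 h0' g hg
    have h1 := ih (fun j => h j.succ) (fun j c i => h0 j.succ c i) (fun j c i => h0' j.succ c i)
    have h2 := DL.mul (h 0) h1 (h0' 0)
      (fun c i => Finset.prod_nonneg (fun j _ => h0 j.succ (c j) i)) g hg
    have e1 : ∑ c : (j : Fin (k + 1)) → Ω j, g (fun i => ∏ j, L j (c j) i) =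
        ∑ c, ∑ d : (j : Fin k) → Ω j.succ, g (fun i => L 0 c i * ∏ j : Fin k, L j.succ (d j) i) := by
      rw [← Equiv.sum_comp (Fin.consEquiv Ω), Fintype.sum_prod_type]
      refine Finset.sum_congr rfl (fun c _ => Finset.sum_congr rfl (fun d _ => ?_))
      congr 1
      funext i
      rw [Fin.prod_univ_succ]
      rfl
    have e2 : ∑ c : (j : Fin (k + 1)) → Ω' j, g (fun i => ∏ j, L' j (c j) i) =
        ∑ c, ∑ d : (j : Fin k) → Ω' j.succ,
          g (fun i => L' 0 c i * ∏ j : Fin k, L' j.succ (d j) i) := by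
      rw [← Equiv.sum_comp (Fin.consEquiv Ω'), Fintype.sum_prod_type]
      refine Finset.sum_congr rfl (fun c _ => Finset.sum_congr rfl (fun d _ => ?_))
      congr 1
      funext i
      rw [Fin.prod_univ_succ]
      rfl
    rw [e1, e2]
    exact h2

/-- forget the last generation -/
def trunc : {n : ℕ} → GTree (n + 1) → GTree n
  | 0, _ => GTree.leaf
  | _ + 1, GTree.node k t => GTree.node k (fun j => trunc (t j))

lemma lv_leaf (lam : ℝ) (c : Fin q) :
    lv lam GTree.leaf (show LeafConf q GTree.leaf from c) =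
      fun i => Pi.single (M := fun _ : Fin q => ℝ) c 1 i := rfl

/-- degradation: one more generation gives less information -/
theorem DL_trunc (hq : 0 < q) {lam : ℝ} (hl : LamOK q lam) : ∀ {n : ℕ} (T : GTree (n + 1)),
    DL (lv (q := q) lam T) (lv lam (trunc T)) := by
  intro n
  induction n with
  | zero =>
    intro T h hh
    have hS := SE.lv hq hl T
    have e : ∑ c : LeafConf q (trunc T), h (lv lam (trunc T) c) =
        ∑ c : Fin q, h (fun i => Pi.single (M := fun _ : Fin q => ℝ) c 1 i) := rfl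
    rw [e]
    have h1 : ∀ c, h (lv lam T c) ≤
        ∑ j, lv lam T c j * h (fun i => Pi.single (M := fun _ : Fin q => ℝ) j 1 i) := by
      intro c
      have h2 := hh.sum_le univ (lv lam T c)
        (fun j i => Pi.single (M := fun _ : Fin q => ℝ) j 1 i) (fun j _ => hS.nonneg c j)
        (fun j _ i => by
          by_cases hij : i = j
          · subst hij; simp
          · simp [hij])
      have e2 : (fun i => ∑ j, lv lam T c j * Pi.single (M := fun _ : Fin q => ℝ) j 1 i) =
          lv lam T c := by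
        funext i
        rw [Finset.sum_eq_single i]
        · simp
        · intro b _ hb
          simp [Ne.symm hb]
        · intro h; exact absurd (Finset.mem_univ i) h
      rw [e2] at h2
      exact h2
    refine (Finset.sum_le_sum (fun c _ => h1 c)).trans (le_of_eq ?_)
    rw [Finset.sum_comm]
    refine Finset.sum_congr rfl (fun j _ => ?_)
    rw [← Finset.sum_mul, hS.sum_one, one_mul]
  | succ n ih =>
    intro T
    cases T with
    | node k t =>
      have h1 := DL.pi k (fun j => (ih (t j)).cl hq hl)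
        (fun j c i => cl_nonneg hq hl ((SE.lv hq hl (t j)).nonneg c) i)
        (fun j c i => cl_nonneg hq hl ((SE.lv hq hl (trunc (t j))).nonneg c) i)
      intro h hh
      have h2 := h1 h hh
      have e1 : ∑ c : LeafConf q (GTree.node k t), h (lv lam (GTree.node k t) c) =
          ∑ c : (j : Fin k) → LeafConf q (t j), h (fun i => ∏ j, cl lam (lv lam (t j) (c j)) i) :=
        Finset.sum_congr rfl (fun c _ => congrArg h (lv_node lam t c))
      have e2 : ∑ c : LeafConf q (trunc (GTree.node k t)), h (lv lam (trunc (GTree.node k t)) c) =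
          ∑ c : (j : Fin k) → LeafConf q (trunc (t j)),
            h (fun i => ∏ j, cl lam (lv lam (trunc (t j)) (c j)) i) :=
        Finset.sum_congr rfl (fun c _ => congrArg h (lv_node lam (fun j => trunc (t j)) c))
      rw [e1, e2]
      exact h2

/-- the simplex as a set -/
def SxSet (q : ℕ) : Set (Fin q → ℝ) := {x | Sx x}

lemma avg_add (v w : Fin q → ℝ) : avg (fun i => v i + w i) = avg v + avg w := by
  unfold avg; rw [Finset.sum_add_distrib, add_div]

lemma avg_smul (a : ℝ) (v : Fin q → ℝ) : avg (fun i => a * v i) = a * avg v := by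
  unfold avg; rw [← Finset.mul_sum, mul_div_assoc]

lemma subl_hm (hq : 0 < q) {F : (Fin q → ℝ) → ℝ} (hF : ConvexOn ℝ (SxSet q) F) : Subl (hm F) := by
  refine ⟨fun v w hv hw => ?_, fun a v ha hv => ?_⟩
  · have h1 := avg_nonneg hv
    have h2 := avg_nonneg hw
    rcases h1.eq_or_lt with h10 | h1p
    · have : (fun i => v i + w i) = w := by
        funext i; rw [eq_zero_of_avg hq hv h10.symm i, zero_add]
      rw [this]
      have : hm F v = 0 := by unfold hm; rw [← h10, zero_mul]
      rw [this, zero_add]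
    rcases h2.eq_or_lt with h20 | h2p
    · have : (fun i => v i + w i) = v := by
        funext i; rw [eq_zero_of_avg hq hw h20.symm i, add_zero]
      rw [this]
      have : hm F w = 0 := by unfold hm; rw [← h20, zero_mul]
      rw [this, add_zero]
    have hs : 0 < avg v + avg w := by linarith
    have ha1 : 0 ≤ avg v / (avg v + avg w) := by positivity
    have hb1 : 0 ≤ avg w / (avg v + avg w) := by positivity
    have hab : avg v / (avg v + avg w) + avg w / (avg v + avg w) = 1 := by field_simp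
    have h3 := hF.2 (nm_Sx hq hv h1p) (nm_Sx hq hw h2p) ha1 hb1 hab
    unfold hm
    rw [avg_add]
    have e : nm (fun i => v i + w i) = (avg v / (avg v + avg w)) • nm v +
        (avg w / (avg v + avg w)) • nm w := by
      funext i
      unfold nm
      rw [avg_add]
      simp only [Pi.add_apply, Pi.smul_apply, smul_eq_mul]
      field_simp
    rw [e]
    have h4 := mul_le_mul_of_nonneg_left h3 hs.le
    refine h4.trans (le_of_eq ?_)
    simp only [smul_eq_mul]
    field_simp
  · unfold hm
    rw [avg_smul]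
    rcases ha.eq_or_lt with h0 | hp
    · rw [← h0]; simp
    · have e : nm (fun i => a * v i) = nm v := by
        funext i
        unfold nm
        rw [avg_smul]
        rw [mul_div_mul_left _ _ hp.ne']
      rw [e]; ring

/-- convex functionals decrease -/
theorem EF_trunc (hq : 0 < q) {lam : ℝ} (hl : LamOK q lam) {F : (Fin q → ℝ) → ℝ}
    (hF : ConvexOn ℝ (SxSet q) F) {n : ℕ} (T : GTree (n + 1)) :
    EF F lam T ≤ EF F lam (trunc T) :=
  DL_trunc hq hl T (hm F) (subl_hm hq hF)

end Vale.Agent.P154.Mu
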