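import Vale.Agent.P154.MuBasic

/-!
# P154: exactly multiplicative functionals
-/

namespace Vale.Agent.P154.Mu

open Finset

variable {q : ℕ}

/-- complex monomial -/
noncomputable def mon (α : Fin q → ℂ) (x : Fin q → ℝ) : ℂ := ∏ i, (x i : ℂ) ^ (α i)

/-- symmetrised real monomial -/
noncomputable def gm (α : Fin q → ℂ) (x : Fin q → ℝ) : ℝ :=
  (∑ σ : Equiv.Perm (Fin q), (mon α (fun i => x (σ i))).re) / (q.factorial : ℝ)

/-- admissible exponents -/
structure Adm (α : Fin q → ℂ) : Prop where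
  pos : ∀ i, α i = 0 ∨ 0 < (α i).re
  sum : ∑ i, α i = 1
  conj : ∃ τ : Equiv.Perm (Fin q), ∀ i, (starRingEnd ℂ) (α i) = α (τ i)

lemma Adm.q_pos {α : Fin q → ℂ} (h : Adm α) : 0 < q := by
  rcases Nat.eq_zero_or_pos q with h0 | h0
  · subst h0
    have := h.sum
    simp at this
  · exact h0

lemma mon_mul (α : Fin q → ℂ) {v w : Fin q → ℝ} (hv : ∀ i, 0 ≤ v i) (hw : ∀ i, 0 ≤ w i) :
    mon α (fun i => v i * w i) = mon α v * mon α w := by
  unfold mon
  rw [← Finset.prod_mul_distrib]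
  refine Finset.prod_congr rfl (fun i _ => ?_)
  push_cast
  exact Complex.mul_cpow_ofReal_nonneg (hv i) (hw i) (α i)

lemma mon_prod (α : Fin q → ℂ) {k : ℕ} {v : Fin k → Fin q → ℝ} (hv : ∀ j i, 0 ≤ v j i) :
    mon α (fun i => ∏ j, v j i) = ∏ j, mon α (v j) := by
  induction k with
  | zero => simp [mon]
  | succ k ih =>
    rw [Fin.prod_univ_succ, ← ih (fun j i => hv j.succ i), ← mon_mul α (hv 0)
      (fun i => Finset.prod_nonneg (fun j _ => hv j.succ i))]
    congr 1
    funext i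
    exact Fin.prod_univ_succ _

lemma mon_smul {α : Fin q → ℂ} (h : ∑ i, α i = 1) {a : ℝ} (ha : 0 ≤ a) {v : Fin q → ℝ}
    (hv : ∀ i, 0 ≤ v i) : mon α (fun i => a * v i) = a * mon α v := by
  rw [mon_mul α (fun _ => ha) hv]
  congr 1
  unfold mon
  rcases ha.eq_or_lt with h0 | hpos
  · subst h0
    have hex : ∃ i, α i ≠ 0 := by
      by_contra hne
      push Not at hne
      simp [hne] at h
    obtain ⟨i, hi⟩ := hex
    rw [Finset.prod_eq_zero (Finset.mem_univ i)]
    · simp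
    · simp [hi]
  · have ha' : (a : ℂ) ≠ 0 := by exact_mod_cast hpos.ne'
    simp only [Complex.cpow_def_of_ne_zero ha']
    rw [← Complex.exp_sum, ← Finset.mul_sum, h, mul_one, Complex.exp_log ha']

lemma gm_smul {α : Fin q → ℂ} (h : ∑ i, α i = 1) {a : ℝ} (ha : 0 ≤ a) {v : Fin q → ℝ}
    (hv : ∀ i, 0 ≤ v i) : gm α (fun i => a * v i) = a * gm α v := by
  unfold gm
  have e : ∀ σ : Equiv.Perm (Fin q), (mon α (fun i => a * v (σ i))).re =
      a * (mon α (fun i => v (σ i))).re := by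
    intro σ
    rw [mon_smul h ha (fun i => hv (σ i)), Complex.re_ofReal_mul]
  rw [Finset.sum_congr rfl (fun σ _ => e σ), ← Finset.mul_sum, mul_div_assoc]

lemma hm_gm {α : Fin q → ℂ} (hA : Adm α) {v : Fin q → ℝ} (hv : ∀ i, 0 ≤ v i) :
    hm (gm α) v = gm α v := by
  have hq := hA.q_pos
  have hn := avg_nonneg hv
  unfold hm
  rw [← gm_smul hA.sum hn (v := nm v) (fun i => div_nonneg (hv i) hn)]
  congr 1
  funext i
  unfold nm
  rcases eq_or_ne (avg v) 0 with h0 | h0
  · rw [h0, eq_zero_of_avg hq hv h0 i]; simp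
  · field_simp

lemma hm_gm_ch {α : Fin q → ℂ} (hA : Adm α) {lam : ℝ} (hl : LamOK q lam) {v : Fin q → ℝ}
    (hv : ∀ i, 0 ≤ v i) : hm (fun x => gm α (ch lam x)) v = gm α (cl lam v) := by
  have hq := hA.q_pos
  rw [← hm_gm hA (cl_nonneg hq hl hv)]
  unfold hm
  rw [avg_cl hq]
  rcases eq_or_ne (avg v) 0 with h0 | h0
  · rw [h0]; simp
  · rw [nm_cl hq lam h0]

/-- the multiplicative functional of an ensemble is real -/
lemma sum_mon {α : Fin q → ℂ} (hA : Adm α) {Ω : Type} [Fintype Ω] {L : Ω → Fin q → ℝ}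
    (hL : SE L) : ∑ c, mon α (L c) = ((∑ c, gm α (L c) : ℝ) : ℂ) := by
  have hsym : ∀ σ : Equiv.Perm (Fin q), ∑ c, mon α (fun i => L c (σ i)) = ∑ c, mon α (L c) := by
    intro σ
    obtain ⟨e, he⟩ := hL.sym σ
    rw [← Equiv.sum_comp e (fun c => mon α (L c))]
    exact Finset.sum_congr rfl (fun c _ => by rw [he c])
  have hre : ∑ c, gm α (L c) = (∑ c, mon α (L c)).re := by
    unfold gm
    rw [← Finset.sum_div, Finset.sum_comm]
    have e : ∀ σ : Equiv.Perm (Fin q), ∑ c, (mon α (fun i => L c (σ i))).re =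
        (∑ c, mon α (L c)).re := by
      intro σ
      rw [← hsym σ, Complex.re_sum]
    rw [Finset.sum_congr rfl (fun σ _ => e σ), Finset.sum_const, Finset.card_univ,
      Fintype.card_perm, Fintype.card_fin, nsmul_eq_mul]
    have : (q.factorial : ℝ) ≠ 0 := by positivity
    field_simp
  have him : (starRingEnd ℂ) (∑ c, mon α (L c)) = ∑ c, mon α (L c) := by
    obtain ⟨τ, hτ⟩ := hA.conj
    rw [map_sum, ← hsym τ.symm]
    refine Finset.sum_congr rfl (fun c _ => ?_)
    unfold mon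
    rw [map_prod, ← Equiv.prod_comp τ.symm (fun i => (starRingEnd ℂ) (((L c i : ℝ) : ℂ) ^ α i))]
    refine Finset.prod_congr rfl (fun i _ => ?_)
    have h1 : ((L c (τ.symm i) : ℝ) : ℂ).arg ≠ Real.pi := by
      rw [Complex.arg_ofReal_of_nonneg (hL.nonneg _ _)]
      exact Real.pi_pos.ne
    have h2 := Complex.cpow_conj ((L c (τ.symm i) : ℝ) : ℂ) (α (τ.symm i)) h1
    rw [Complex.conj_ofReal] at h2
    rw [← h2, hτ, Equiv.apply_symm_apply]
  rw [hre]
  exact (Complex.conj_eq_iff_re.mp him).symm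

lemma sum_gm_pi {α : Fin q → ℂ} (hA : Adm α) {k : ℕ} {Ω : Fin k → Type}
    [inst : ∀ j, Fintype (Ω j)] {L : (j : Fin k) → Ω j → Fin q → ℝ} (h : ∀ j, SE (L j)) :
    ∑ c : (j : Fin k) → Ω j, gm α (fun i => ∏ j, L j (c j) i) = ∏ j, ∑ c, gm α (L j c) := by
  have h1 := sum_mon hA (SE.pi h)
  have h2 : ∑ c : (j : Fin k) → Ω j, mon α (fun i => ∏ j, L j (c j) i) =
      ∏ j, ∑ c, mon α (L j c) := by
    have e : ∀ c : (j : Fin k) → Ω j, mon α (fun i => ∏ j, L j (c j) i) =
        ∏ j, mon α (L j (c j)) := fun c => mon_prod α (fun j i => (h j).nonneg _ _)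
    rw [Finset.sum_congr rfl (fun c _ => e c)]
    have h3 := (Finset.prod_univ_sum (fun j : Fin k => (Finset.univ : Finset (Ω j)))
      (fun j c => mon α (L j c))).symm
    rw [Fintype.piFinset_univ] at h3
    exact h3
  rw [h2] at h1
  have h4 : ∏ j, ∑ c, mon α (L j c) = ((∏ j, ∑ c, gm α (L j c) : ℝ) : ℂ) := by
    push_cast
    refine Finset.prod_congr rfl (fun j _ => ?_)
    rw [sum_mon hA (h j)]
    push_cast
    rfl
  rw [h4] at h1
  exact_mod_cast h1.symm

/-- **exact multiplicativity** -/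
theorem EF_gm_node {α : Fin q → ℂ} (hA : Adm α) {lam : ℝ} (hl : LamOK q lam) {n k : ℕ}
    (t : Fin k → GTree n) :
    EF (gm α) lam (GTree.node k t) = ∏ j, EF (fun x => gm α (ch lam x)) lam (t j) := by
  have hq := hA.q_pos
  rw [EF_node]
  have e1 : ∀ c : (j : Fin k) → LeafConf q (t j),
      hm (gm α) (fun i => ∏ j, cl lam (lv lam (t j) (c j)) i) =
      gm α (fun i => ∏ j, cl lam (lv lam (t j) (c j)) i) := fun c =>
    hm_gm hA (fun i => Finset.prod_nonneg (fun j _ =>
      cl_nonneg hq hl ((SE.lv hq hl (t j)).nonneg _) i))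
  rw [Finset.sum_congr rfl (fun c _ => e1 c),
    sum_gm_pi hA (L := fun j c => cl lam (lv lam (t j) c)) (fun j => (SE.lv hq hl (t j)).cl hq hl)]
  refine Finset.prod_congr rfl (fun j _ => ?_)
  unfold EF
  refine Finset.sum_congr rfl (fun c _ => ?_)
  rw [hm_gm_ch hA hl ((SE.lv hq hl (t j)).nonneg _)]

lemma continuous_mon {α : Fin q → ℂ} (h : ∀ i, α i = 0 ∨ 0 < (α i).re) :
    Continuous (mon α) := by
  unfold mon
  refine continuous_finsetProd _ (fun i _ => ?_)
  rcases h i with h0 | h0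
  · simp only [h0, Complex.cpow_zero]
    exact continuous_const
  · exact (Complex.continuous_ofReal_cpow_const h0).comp (continuous_apply i)

lemma continuous_gm {α : Fin q → ℂ} (h : ∀ i, α i = 0 ∨ 0 < (α i).re) :
    Continuous (gm α) := by
  unfold gm
  refine (continuous_finsetSum _ (fun σ _ => ?_)).div_const _
  refine Complex.continuous_re.comp ((continuous_mon h).comp ?_)
  exact continuous_pi (fun i => continuous_apply (σ i))

lemma continuous_ch (lam : ℝ) : Continuous (ch (q := q) lam) := by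
  unfold ch
  exact continuous_pi (fun i => ((continuous_const.mul (continuous_apply i)).add continuous_const))

lemma norm_mon_le {α : Fin q → ℂ} (h : ∀ i, α i = 0 ∨ 0 < (α i).re) (hs : ∑ i, α i = 1)
    {x : Fin q → ℝ} (hx : ∀ i, 0 ≤ x i) : ‖mon α x‖ ≤ ∑ i, (α i).re * x i := by
  unfold mon
  rw [norm_prod]
  have e : ∀ i, ‖(x i : ℂ) ^ α i‖ = x i ^ (α i).re := by
    intro i
    rcases h i with h0 | h0
    · simp [h0]
    · exact Complex.norm_cpow_eq_rpow_re_of_nonneg (hx i) h0.ne'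
  rw [Finset.prod_congr rfl (fun i _ => e i)]
  have hw : ∀ i ∈ univ, 0 ≤ (α i).re := by
    intro i _
    rcases h i with h0 | h0
    · simp [h0]
    · exact h0.le
  have hsum : ∑ i, (α i).re = 1 := by
    rw [← Complex.re_sum, hs]; simp
  exact Real.geom_mean_le_arith_mean_weighted univ (fun i => (α i).re) x hw hsum
    (fun i _ => hx i)

lemma sum_perm_apply (x : Fin q → ℝ) (i : Fin q) :
    ∑ σ : Equiv.Perm (Fin q), x (σ i) = q.factorial * avg x := by
  have hq : 0 < q := i.pos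
  have hq' : (q : ℝ) ≠ 0 := by positivity
  have h1 : ∀ j, ∑ σ : Equiv.Perm (Fin q), x (σ j) = ∑ σ : Equiv.Perm (Fin q), x (σ i) := by
    intro j
    rw [← Equiv.sum_comp (Equiv.mulRight (Equiv.swap i j)) (fun σ : Equiv.Perm (Fin q) => x (σ j))]
    refine Finset.sum_congr rfl (fun σ _ => ?_)
    simp
  have h2 : ∑ j : Fin q, ∑ σ : Equiv.Perm (Fin q), x (σ j) = q.factorial * ∑ j, x j := by
    rw [Finset.sum_comm]
    have : ∀ σ : Equiv.Perm (Fin q), ∑ j, x (σ j) = ∑ j, x j := fun σ => Equiv.sum_comp σ x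
    rw [Finset.sum_congr rfl (fun σ _ => this σ), Finset.sum_const, Finset.card_univ,
      Fintype.card_perm, Fintype.card_fin, nsmul_eq_mul]
  rw [Finset.sum_congr rfl (fun j _ => h1 j), Finset.sum_const, Finset.card_univ,
    Fintype.card_fin, nsmul_eq_mul] at h2
  unfold avg
  field_simp
  linarith

lemma abs_gm_le {α : Fin q → ℂ} (hA : Adm α) {x : Fin q → ℝ} (hx : Sx x) : |gm α x| ≤ 1 := by
  have hf : (0:ℝ) < q.factorial := by positivity
  unfold gm
  rw [abs_div, abs_of_pos hf, div_le_one hf]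
  calc |∑ σ : Equiv.Perm (Fin q), (mon α (fun i => x (σ i))).re|
      ≤ ∑ σ : Equiv.Perm (Fin q), |(mon α (fun i => x (σ i))).re| :=
        Finset.abs_sum_le_sum_abs _ _
    _ ≤ ∑ σ : Equiv.Perm (Fin q), ∑ i, (α i).re * x (σ i) := by
        refine Finset.sum_le_sum (fun σ _ => ?_)
        exact (Complex.abs_re_le_norm _).trans (norm_mon_le hA.pos hA.sum (fun i => hx.1 (σ i)))
    _ = ∑ i, (α i).re * (q.factorial * avg x) := by
        rw [Finset.sum_comm]
        refine Finset.sum_congr rfl (fun i _ => ?_)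
        rw [← Finset.mul_sum, sum_perm_apply]
    _ = q.factorial := by
        rw [← Finset.sum_mul, ← Complex.re_sum, hA.sum, hx.2]
        simp

end Vale.Agent.P154.Mu
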