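import Vale.Agent.P154.GW
import Vale.Agent.P154.MuMul
import Vale.Agent.P154.MuConv

/-!
# P154: expectations over Galton–Watson trees, `q` spins
-/

namespace Vale.Agent.P154.Mu

open Finset Filter Topology
open scoped ENNReal

variable {q : ℕ}

lemma tsum_pi_prod_fam {X : Type} : ∀ (k : ℕ) (f : Fin k → X → ℝ≥0∞),
    ∑' t : Fin k → X, ∏ j, f j (t j) = ∏ j, ∑' x, f j x := by
  intro k
  induction k with
  | zero => intro f; simp [tsum_fintype]
  | succ k ih =>
    intro f
    rw [tsum_pi_cons]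
    simp only [Fin.prod_univ_succ, Fin.cons_zero, Fin.cons_succ, ENNReal.tsum_mul_left,
      ih (fun j => f j.succ), ENNReal.tsum_mul_right]

open Classical in
/-- the law of the truncated tree -/
lemma gw_trunc {p : ℕ → ℝ≥0∞} (hp : ∑' k, p k = 1) : ∀ {n : ℕ} (t : GTree n),
    ∑' T : GTree (n + 1), (if trunc T = t then gwWeight p T else 0) = gwWeight p t := by
  intro n
  induction n with
  | zero =>
    intro t
    cases t
    have : ∀ T : GTree 1, (if trunc T = GTree.leaf then gwWeight p T else 0) = gwWeight p T :=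
      fun T => if_pos rfl
    rw [tsum_congr this, tsum_gwWeight hp]
    rfl
  | succ n ih =>
    intro t
    cases t with
    | node k s =>
      rw [tsum_gtree_succ, tsum_eq_single k]
      · have e : ∀ t' : Fin k → GTree (n + 1),
            (if trunc (GTree.node k t') = GTree.node k s then gwWeight p (GTree.node k t')
              else 0) = p k * ∏ j, (if trunc (t' j) = s j then gwWeight p (t' j) else 0) := by
          intro t'
          by_cases h : ∀ j, trunc (t' j) = s j
          · have h1 : trunc (GTree.node k t') = GTree.node k s := by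
              change GTree.node k (fun j => trunc (t' j)) = _
              congr 1
              funext j
              exact h j
            rw [if_pos h1]
            change p k * ∏ j : Fin k, gwWeight p (t' j) = _
            congr 1
            exact Finset.prod_congr rfl (fun j _ => (if_pos (h j)).symm)
          · have h1 : ¬ trunc (GTree.node k t') = GTree.node k s := by
              intro h2
              apply h
              change GTree.node k (fun j => trunc (t' j)) = _ at h2
              injection h2 with _ _ h3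
              intro j
              exact congrFun h3 j
            rw [if_neg h1]
            push Not at h
            obtain ⟨j, hj⟩ := h
            rw [Finset.prod_eq_zero (Finset.mem_univ j) (if_neg hj), mul_zero]
        rw [tsum_congr e, ENNReal.tsum_mul_left, tsum_pi_prod_fam k
          (fun j x => if trunc x = s j then gwWeight p x else 0)]
        change _ = p k * ∏ j : Fin k, gwWeight p (s j)
        congr 1
        exact Finset.prod_congr rfl (fun j _ => ih (s j))
      · intro k' hk'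
        rw [ENNReal.tsum_eq_zero]
        intro t'
        rw [if_neg]
        intro h2
        change GTree.node k' (fun j => trunc (t' j)) = _ at h2
        injection h2 with _ h3
        exact hk' h3

lemma tsum_trunc {p : ℕ → ℝ≥0∞} (hp : ∑' k, p k = 1) {n : ℕ} (h : GTree n → ℝ≥0∞) :
    ∑' T : GTree (n + 1), gwWeight p T * h (trunc T) = ∑' t : GTree n, gwWeight p t * h t := by
  classical
  have e1 : ∀ t : GTree n, gwWeight p t * h t =
      ∑' T : GTree (n + 1), (if trunc T = t then gwWeight p T else 0) * h t := by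
    intro t
    rw [ENNReal.tsum_mul_right, gw_trunc hp]
  rw [tsum_congr e1, ENNReal.tsum_comm]
  refine tsum_congr (fun T => ?_)
  rw [tsum_eq_single (trunc T)]
  · rw [if_pos rfl]
  · intro t ht
    rw [if_neg (Ne.symm ht), zero_mul]

lemma gwWeight_ne_top {p : ℕ → ℝ≥0∞} (hp : ∑' k, p k = 1) {n : ℕ} (t : GTree n) :
    gwWeight p t ≠ ⊤ := by
  have h := ENNReal.le_tsum (f := fun t : GTree n => gwWeight p t) t
  rw [tsum_gwWeight hp] at h
  exact ne_top_of_le_ne_top ENNReal.one_ne_top h

/-- real weight of a tree -/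
noncomputable def wt (p : ℕ → ℝ≥0∞) {n : ℕ} (t : GTree n) : ℝ := (gwWeight p t).toReal

lemma wt_nonneg (p : ℕ → ℝ≥0∞) {n : ℕ} (t : GTree n) : 0 ≤ wt p t := ENNReal.toReal_nonneg

lemma summable_wt {p : ℕ → ℝ≥0∞} (hp : ∑' k, p k = 1) (n : ℕ) :
    Summable (fun t : GTree n => wt p t) := by
  apply ENNReal.summable_toReal
  rw [tsum_gwWeight hp]
  exact ENNReal.one_ne_top

lemma tsum_wt {p : ℕ → ℝ≥0∞} (hp : ∑' k, p k = 1) (n : ℕ) :
    ∑' t : GTree n, wt p t = 1 := by
  unfold wt
  rw [← ENNReal.tsum_toReal_eq (fun t => gwWeight_ne_top hp t), tsum_gwWeight hp]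
  simp

lemma summable_wt_mul {p : ℕ → ℝ≥0∞} (hp : ∑' k, p k = 1) {n : ℕ} {f : GTree n → ℝ} {B : ℝ}
    (hf : ∀ t, |f t| ≤ B) : Summable (fun t : GTree n => wt p t * f t) := by
  refine Summable.of_norm_bounded ((summable_wt hp n).mul_right B) (fun t => ?_)
  rw [norm_mul, Real.norm_of_nonneg (wt_nonneg p t)]
  exact mul_le_mul_of_nonneg_left (hf t) (wt_nonneg p t)

lemma toReal_tsum {p : ℕ → ℝ≥0∞} (hp : ∑' k, p k = 1) {n : ℕ} {f : GTree n → ℝ}
    (hf : ∀ t, 0 ≤ f t) :
    (∑' t : GTree n, gwWeight p t * ENNReal.ofReal (f t)).toReal = ∑' t, wt p t * f t := by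
  rw [ENNReal.tsum_toReal_eq]
  · refine tsum_congr (fun t => ?_)
    rw [ENNReal.toReal_mul, ENNReal.toReal_ofReal (hf t)]
    rfl
  · intro t
    exact ENNReal.mul_ne_top (gwWeight_ne_top hp t) ENNReal.ofReal_ne_top

lemma tsum_trunc_real {p : ℕ → ℝ≥0∞} (hp : ∑' k, p k = 1) {n : ℕ} {f : GTree n → ℝ} {B : ℝ}
    (hf : ∀ t, |f t| ≤ B) :
    ∑' T : GTree (n + 1), wt p T * f (trunc T) = ∑' t : GTree n, wt p t * f t := by
  have hg : ∀ t, 0 ≤ f t + B := fun t => by linarith [(abs_le.mp (hf t)).1]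
  have h1 := tsum_trunc hp (fun t : GTree n => ENNReal.ofReal (f t + B))
  have h2 := congrArg ENNReal.toReal h1
  rw [toReal_tsum hp (f := fun T : GTree (n + 1) => f (trunc T) + B) (fun T => hg _),
    toReal_tsum hp hg] at h2
  simp only [mul_add] at h2
  rw [(summable_wt_mul hp (f := fun T : GTree (n + 1) => f (trunc T))
      (fun T => hf _)).tsum_add ((summable_wt hp (n + 1)).mul_right B),
    (summable_wt_mul hp hf).tsum_add ((summable_wt hp n).mul_right B),
    tsum_mul_right, tsum_mul_right, tsum_wt hp, tsum_wt hp] at h2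
  linarith

/-- expectation over tree and message -/
noncomputable def EN (p : ℕ → ℝ≥0∞) (lam : ℝ) (F : (Fin q → ℝ) → ℝ) (n : ℕ) : ℝ :=
  ∑' t : GTree n, wt p t * EF F lam t

section
variable {p : ℕ → ℝ≥0∞} {lam : ℝ}

lemma EN_const (hq : 0 < q) (hl : LamOK q lam) (hp : ∑' k, p k = 1) (B : ℝ) (n : ℕ) :
    EN p lam (fun _ : Fin q → ℝ => B) n = B := by
  unfold EN
  simp only [EF_const hq hl, tsum_mul_right, tsum_wt hp, one_mul]

lemma EN_mono (hq : 0 < q) (hl : LamOK q lam) (hp : ∑' k, p k = 1) {F G : (Fin q → ℝ) → ℝ}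
    {B : ℝ} (hF : ∀ x, Sx x → |F x| ≤ B) (hG : ∀ x, Sx x → |G x| ≤ B)
    (h : ∀ x, Sx x → F x ≤ G x) (n : ℕ) : EN p lam F n ≤ EN p lam G n :=
  Summable.tsum_le_tsum (fun t => mul_le_mul_of_nonneg_left (EF_mono hq h hl t) (wt_nonneg p t))
    (summable_wt_mul hp (fun t => EF_abs_le hq hF hl t))
    (summable_wt_mul hp (fun t => EF_abs_le hq hG hl t))

lemma EN_add (hq : 0 < q) (hl : LamOK q lam) (hp : ∑' k, p k = 1) {F G : (Fin q → ℝ) → ℝ}
    {B B' : ℝ} (hF : ∀ x, Sx x → |F x| ≤ B) (hG : ∀ x, Sx x → |G x| ≤ B') (n : ℕ) :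
    EN p lam (fun x => F x + G x) n = EN p lam F n + EN p lam G n := by
  unfold EN
  simp only [EF_add, mul_add]
  exact (summable_wt_mul hp (fun t => EF_abs_le hq hF hl t)).tsum_add
    (summable_wt_mul hp (fun t => EF_abs_le hq hG hl t))

lemma EN_const_mul (F : (Fin q → ℝ) → ℝ) (a : ℝ) (n : ℕ) :
    EN p lam (fun x => a * F x) n = a * EN p lam F n := by
  unfold EN
  rw [← tsum_mul_left]
  refine tsum_congr (fun t => ?_)
  rw [EF_const_mul]; ring

lemma EN_congr (hq : 0 < q) (hl : LamOK q lam) {F G : (Fin q → ℝ) → ℝ}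
    (h : ∀ x, Sx x → F x = G x) (n : ℕ) : EN p lam F n = EN p lam G n :=
  tsum_congr (fun t => by rw [EF_congr hq h hl t])

lemma EN_abs_le (hq : 0 < q) (hl : LamOK q lam) (hp : ∑' k, p k = 1) {F : (Fin q → ℝ) → ℝ}
    {B : ℝ} (hF : ∀ x, Sx x → |F x| ≤ B) (n : ℕ) : |EN p lam F n| ≤ B := by
  have hB : ∀ x : Fin q → ℝ, Sx x → |B| ≤ |B| := fun _ _ => le_rfl
  have hF' : ∀ x, Sx x → |F x| ≤ |B| := fun x hx => (hF x hx).trans (le_abs_self B)
  rw [abs_le]
  constructor
  · have h := EN_mono (p := p) hq hl hp (F := fun _ => -B) (G := F) (B := |B|)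
      (fun _ _ => by rw [abs_neg]) hF' (fun x hx => (abs_le.mp (hF x hx)).1) n
    rwa [EN_const hq hl hp] at h
  · have h := EN_mono (p := p) hq hl hp (F := F) (G := fun _ => B) (B := |B|) hF'
      (fun _ _ => le_rfl) (fun x hx => (abs_le.mp (hF x hx)).2) n
    rwa [EN_const hq hl hp] at h

/-- convex functionals decrease along the generations -/
theorem EN_antitone (hq : 0 < q) (hl : LamOK q lam) (hp : ∑' k, p k = 1)
    {F : (Fin q → ℝ) → ℝ} (hF : ConvexOn ℝ (SxSet q) F) {B : ℝ} (hB : ∀ x, Sx x → |F x| ≤ B) :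
    Antitone (EN p lam F) := by
  refine antitone_nat_of_succ_le (fun n => ?_)
  have h1 : EN p lam F (n + 1) ≤ ∑' T : GTree (n + 1), wt p T * EF F lam (trunc T) :=
    Summable.tsum_le_tsum
      (fun T => mul_le_mul_of_nonneg_left (EF_trunc hq hl hF T) (wt_nonneg p T))
      (summable_wt_mul hp (fun t => EF_abs_le hq hB hl t))
      (summable_wt_mul hp (fun T => EF_abs_le hq hB hl (trunc T)))
  rw [tsum_trunc_real hp (f := fun t : GTree n => EF F lam t)
    (fun t => EF_abs_le hq hB hl t)] at h1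
  exact h1

lemma tsum_pi_real {X : Type} {a : X → ℝ} (ha : Summable (fun x => ‖a x‖)) : ∀ k : ℕ,
    Summable (fun t : Fin k → X => ‖∏ j, a (t j)‖) ∧
    ∑' t : Fin k → X, ∏ j, a (t j) = (∑' x, a x) ^ k := by
  intro k
  induction k with
  | zero =>
    refine ⟨(hasSum_fintype _).summable, ?_⟩
    simp [tsum_fintype]
  | succ k ih =>
    obtain ⟨h1, h2⟩ := ih
    have e : ∀ z : X × (Fin k → X), ∏ j, a ((Fin.consEquiv (fun _ : Fin (k + 1) => X)) z j) =
        a z.1 * ∏ j, a (z.2 j) := by
      intro z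
      rw [Fin.prod_univ_succ]
      rfl
    constructor
    · rw [← (Fin.consEquiv (fun _ : Fin (k + 1) => X)).summable_iff]
      have h3 := ha.mul_norm h1
      refine h3.congr (fun z => ?_)
      simp only [Function.comp]
      rw [e z]
    · rw [← (Fin.consEquiv (fun _ : Fin (k + 1) => X)).tsum_eq (fun t => ∏ j, a (t j)),
        tsum_congr e, ← tsum_mul_tsum_of_summable_norm ha h1, h2, pow_succ, mul_comm]

/-- probability generating function -/
noncomputable def pgf (p : ℕ → ℝ≥0∞) (y : ℝ) : ℝ := ∑' k, (p k).toReal * y ^ k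

/-- the recursion for multiplicative functionals -/
theorem EN_gm_succ {α : Fin q → ℂ} (hA : Adm α) (hl : LamOK q lam) (hp : ∑' k, p k = 1)
    (n : ℕ) :
    EN p lam (gm α) (n + 1) = pgf p (EN p lam (fun x => gm α (ch lam x)) n) := by
  have hq := hA.q_pos
  have hb1 : ∀ x, Sx x → |gm α x| ≤ 1 := fun x hx => abs_gm_le hA hx
  have hb2 : ∀ x : Fin q → ℝ, Sx x → |gm α (ch lam x)| ≤ 1 :=
    fun x hx => abs_gm_le hA (ch_Sx hq hl hx)
  have hs := summable_wt_mul hp (n := n + 1) (fun t => EF_abs_le hq hb1 hl t)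
  set a : GTree n → ℝ := fun t => wt p t * EF (fun x => gm α (ch lam x)) lam t with ha
  have hsa : Summable (fun t => ‖a t‖) :=
    (summable_wt_mul hp (fun t => EF_abs_le hq hb2 hl t)).norm
  unfold EN
  rw [← Equiv.tsum_eq (gtreeEquiv n) (fun T => wt p T * EF (gm α) lam T)]
  have hs' := (Equiv.summable_iff (gtreeEquiv n)).mpr hs
  rw [Summable.tsum_sigma (f := fun c => wt p (gtreeEquiv n c) * EF (gm α) lam (gtreeEquiv n c))
    hs']
  unfold pgf
  refine tsum_congr (fun k => ?_)
  have e : ∀ t : Fin k → GTree n,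
      wt p (gtreeEquiv n ⟨k, t⟩) * EF (gm α) lam (gtreeEquiv n ⟨k, t⟩) =
      (p k).toReal * ∏ j, a (t j) := by
    intro t
    change wt p (GTree.node k t) * EF (gm α) lam (GTree.node k t) = _
    rw [EF_gm_node hA hl]
    have : wt p (GTree.node k t) = (p k).toReal * ∏ j, wt p (t j) := by
      unfold wt
      change (p k * ∏ j : Fin k, gwWeight p (t j)).toReal = _
      rw [ENNReal.toReal_mul, ENNReal.toReal_prod]
    rw [this, ha, Finset.prod_mul_distrib]
    ring
  rw [tsum_congr e, tsum_mul_left, (tsum_pi_real hsa k).2]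

end

end Vale.Agent.P154.Mu
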