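import Vale.Agent.P154.MuFin
import Vale.Agent.P154.KS

/-!
# P154: the (classical) Kesten–Stigum direction on Galton–Watson trees
-/

namespace Vale.Agent.P154.Mu

open Finset Filter Topology
open scoped ENNReal

variable {q : ℕ} {lam : ℝ}

/-- number of leaves at depth `n` -/
noncomputable def Zt : {n : ℕ} → GTree n → ℝ
  | _, GTree.leaf => 1
  | _, GTree.node _ t => ∑ j, Zt (t j)

lemma Zt_nonneg {n : ℕ} (t : GTree n) : 0 ≤ Zt t := by
  induction t with
  | leaf => exact zero_le_one
  | node k t ih => exact Finset.sum_nonneg (fun j _ => ih j)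

lemma sum_fun_cons_dep (k : ℕ) {X : Fin (k + 1) → Type} [∀ j, Fintype (X j)]
    (f : ((j : Fin (k + 1)) → X j) → ℝ) :
    ∑ c, f c = ∑ x : X 0, ∑ c' : (j : Fin k) → X j.succ, f (Fin.cons x c') := by
  rw [← Fintype.sum_prod_type']
  exact (Fintype.sum_equiv (Fin.consEquiv X) _ _ (fun _ => rfl)).symm

/-- moments of a sum of independent statistics -/
lemma prod_moments : ∀ (k : ℕ) {X : Fin k → Type} [∀ j, Fintype (X j)] (μ F : (j : Fin k) → X j → ℝ),
    (∀ j, ∑ x, μ j x = 1) →
    (∑ c : (j : Fin k) → X j, ∏ j, μ j (c j) = 1) ∧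
    (∑ c : (j : Fin k) → X j, (∏ j, μ j (c j)) * ∑ j, F j (c j) = ∑ j, ∑ x, μ j x * F j x) ∧
    (∑ c : (j : Fin k) → X j, (∏ j, μ j (c j)) * (∑ j, F j (c j)) ^ 2 =
      ∑ j, ∑ x, μ j x * F j x ^ 2 + (∑ j, ∑ x, μ j x * F j x) ^ 2 -
        ∑ j, (∑ x, μ j x * F j x) ^ 2) := by
  intro k
  induction k with
  | zero => intro X _ μ F _; simp
  | succ k ih =>
    intro X _ μ F hμ
    obtain ⟨i0, i1, i2⟩ := ih (fun j => μ j.succ) (fun j => F j.succ) (fun j => hμ j.succ)
    refine ⟨?_, ?_, ?_⟩
    · rw [sum_fun_cons_dep]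
      simp only [Fin.prod_univ_succ, Fin.cons_zero, Fin.cons_succ]
      simp only [← Finset.mul_sum, i0, mul_one, hμ]
    · rw [sum_fun_cons_dep]
      simp only [Fin.prod_univ_succ, Fin.sum_univ_succ, Fin.cons_zero, Fin.cons_succ]
      have e : ∀ x : X 0, ∑ c' : (j : Fin k) → X j.succ,
          μ 0 x * (∏ j, μ j.succ (c' j)) * (F 0 x + ∑ j, F j.succ (c' j)) =
          μ 0 x * F 0 x + μ 0 x * ∑ j : Fin k, ∑ x, μ j.succ x * F j.succ x := by
        intro x
        rw [← i1, Finset.mul_sum]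
        have e1 : ∀ c' : (j : Fin k) → X j.succ,
            μ 0 x * (∏ j, μ j.succ (c' j)) * (F 0 x + ∑ j, F j.succ (c' j)) =
            μ 0 x * F 0 x * (∏ j, μ j.succ (c' j)) +
              μ 0 x * ((∏ j, μ j.succ (c' j)) * ∑ j, F j.succ (c' j)) := fun c' => by ring
        rw [Finset.sum_congr rfl (fun c' _ => e1 c'), Finset.sum_add_distrib, ← Finset.mul_sum, i0,
          mul_one]
      rw [Finset.sum_congr rfl (fun x _ => e x), Finset.sum_add_distrib, ← Finset.sum_mul, hμ,
        one_mul]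
    · rw [sum_fun_cons_dep]
      simp only [Fin.prod_univ_succ, Fin.sum_univ_succ, Fin.cons_zero, Fin.cons_succ]
      set A := ∑ j : Fin k, ∑ x, μ j.succ x * F j.succ x with hA
      set B := ∑ j : Fin k, ∑ x, μ j.succ x * F j.succ x ^ 2 with hB
      set D := ∑ j : Fin k, (∑ x, μ j.succ x * F j.succ x) ^ 2 with hD
      have e : ∀ x : X 0, ∑ c' : (j : Fin k) → X j.succ,
          μ 0 x * (∏ j, μ j.succ (c' j)) * (F 0 x + ∑ j, F j.succ (c' j)) ^ 2 =
          μ 0 x * F 0 x ^ 2 + μ 0 x * F 0 x * (2 * A) + μ 0 x * (B + A ^ 2 - D) := by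
        intro x
        rw [← i2]
        have e1 : ∀ c' : (j : Fin k) → X j.succ,
            μ 0 x * (∏ j, μ j.succ (c' j)) * (F 0 x + ∑ j, F j.succ (c' j)) ^ 2 =
            μ 0 x * F 0 x ^ 2 * (∏ j, μ j.succ (c' j)) +
              μ 0 x * F 0 x * 2 * ((∏ j, μ j.succ (c' j)) * ∑ j, F j.succ (c' j)) +
              μ 0 x * ((∏ j, μ j.succ (c' j)) * (∑ j, F j.succ (c' j)) ^ 2) := fun c' => by ring
        rw [Finset.sum_congr rfl (fun c' _ => e1 c'), Finset.sum_add_distrib,
          Finset.sum_add_distrib, ← Finset.mul_sum, ← Finset.mul_sum, ← Finset.mul_sum, i0, i1,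
          mul_one]
        ring
      rw [Finset.sum_congr rfl (fun x _ => e x), Finset.sum_add_distrib, Finset.sum_add_distrib,
        ← Finset.sum_mul, ← Finset.sum_mul, hμ]
      ring

lemma lik_mass_t (hq : 0 < q) (hl : LamOK q lam) {n : ℕ} (t : GTree n) (k : Fin q) :
    ∑ c, lik q lam t k c = 1 := (SE.lv hq hl t).sum_one k

lemma lik_nonneg_t (hq : 0 < q) (hl : LamOK q lam) {n : ℕ} (t : GTree n) (k : Fin q)
    (c : LeafConf q t) : 0 ≤ lik q lam t k c := (SE.lv hq hl t).nonneg c k

lemma mu_mass_t (hq : 0 < q) (hl : LamOK q lam) {n : ℕ} (t : GTree n) (k : Fin q) :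
    ∑ x, mu lam t k x = 1 := by
  unfold mu
  rw [Finset.sum_comm]
  have : ∀ s, ∑ x, potts q lam k s * lik q lam t s x = potts q lam k s := by
    intro s; rw [← Finset.mul_sum, lik_mass_t hq hl, mul_one]
  rw [Finset.sum_congr rfl (fun s _ => this s), potts_row hq]

lemma mu_exp_t {n : ℕ} (t : GTree n) (k : Fin q) (F : LeafConf q t → ℝ) :
    ∑ x, mu lam t k x * F x = ∑ s, potts q lam k s * ∑ x, lik q lam t s x * F x := by
  unfold mu
  simp only [Finset.sum_mul, Finset.mul_sum]
  rw [Finset.sum_comm]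
  exact Finset.sum_congr rfl (fun s _ => Finset.sum_congr rfl (fun x _ => by ring))

lemma first_moment_t (hq : 0 < q) (hl : LamOK q lam) (i : Fin q) {n : ℕ} (t : GTree n) :
    ∀ k : Fin q, ∑ c, lik q lam t k c * stat i t c = lam ^ n * Zt t * cen i k := by
  induction t with
  | leaf =>
    intro k
    change ∑ c : Fin q, Pi.single (M := fun _ : Fin q => ℝ) c 1 k *
      ((if c = i then 1 else 0) - 1 / (q : ℝ)) = _
    simp [Pi.single_apply, cen, Zt]
  | @node n m t ih =>
    intro k
    have e := (prod_moments m (fun j => mu lam (t j) k) (fun j => stat i (t j))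
      (fun j => mu_mass_t hq hl (t j) k)).2.1
    refine Eq.trans e ?_
    have h1 : ∀ j, ∑ x, mu lam (t j) k x * stat i (t j) x =
        lam ^ (n + 1) * Zt (t j) * cen i k := by
      intro j
      rw [mu_exp_t]
      have : ∀ s, potts q lam k s * ∑ x, lik q lam (t j) s x * stat i (t j) x =
          lam ^ n * Zt (t j) * (potts q lam k s * cen i s) := by
        intro s; rw [ih]; ring
      rw [Finset.sum_congr rfl (fun s _ => this s), ← Finset.mul_sum, potts_cen hq]
      ring
    rw [Finset.sum_congr rfl (fun j _ => h1 j), ← Finset.sum_mul, ← Finset.mul_sum]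
    rfl

/-- second moment, summed over the root spin -/
noncomputable def S2 (q : ℕ) (lam : ℝ) (i : Fin q) {n : ℕ} (t : GTree n) : ℝ :=
  ∑ k : Fin q, ∑ c, lik q lam t k c * stat i t c ^ 2

lemma S2_nonneg (hq : 0 < q) (hl : LamOK q lam) (i : Fin q) {n : ℕ} (t : GTree n) :
    0 ≤ S2 q lam i t :=
  Finset.sum_nonneg (fun k _ => Finset.sum_nonneg (fun c _ =>
    mul_nonneg (lik_nonneg_t hq hl t k c) (sq_nonneg _)))

lemma S2_leaf (i : Fin q) : S2 q lam i GTree.leaf = ∑ k, cen i k ^ 2 := by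
  refine Finset.sum_congr rfl (fun k _ => ?_)
  change ∑ c : Fin q, Pi.single (M := fun _ : Fin q => ℝ) c 1 k *
      ((if c = i then 1 else 0) - 1 / (q : ℝ)) ^ 2 = _
  simp [Pi.single_apply, cen]

lemma S2_node (hq : 0 < q) (hl : LamOK q lam) (i : Fin q) {n m : ℕ} (t : Fin m → GTree n) :
    S2 q lam i (GTree.node m t) = ∑ j, S2 q lam i (t j) +
      (lam ^ (n + 1)) ^ 2 * (∑ k, cen i k ^ 2) * ((∑ j, Zt (t j)) ^ 2 - ∑ j, Zt (t j) ^ 2) := by
  have h0 : ∀ k : Fin q, ∑ c, lik q lam (GTree.node m t) k c * stat i (GTree.node m t) c ^ 2 =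
      ∑ j, ∑ s, potts q lam k s * ∑ x, lik q lam (t j) s x * stat i (t j) x ^ 2 +
      (lam ^ (n + 1)) ^ 2 * cen i k ^ 2 * ((∑ j, Zt (t j)) ^ 2 - ∑ j, Zt (t j) ^ 2) := by
    intro k
    have e := (prod_moments m (fun j => mu lam (t j) k) (fun j => stat i (t j))
      (fun j => mu_mass_t hq hl (t j) k)).2.2
    refine Eq.trans e ?_
    have h1 : ∀ j, ∑ x, mu lam (t j) k x * stat i (t j) x =
        lam ^ (n + 1) * Zt (t j) * cen i k := by
      intro j
      rw [mu_exp_t]
      have : ∀ s, potts q lam k s * ∑ x, lik q lam (t j) s x * stat i (t j) x =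
          lam ^ n * Zt (t j) * (potts q lam k s * cen i s) := by
        intro s; rw [first_moment_t hq hl]; ring
      rw [Finset.sum_congr rfl (fun s _ => this s), ← Finset.mul_sum, potts_cen hq]
      ring
    have h2 : ∀ j, ∑ x, mu lam (t j) k x * stat i (t j) x ^ 2 =
        ∑ s, potts q lam k s * ∑ x, lik q lam (t j) s x * stat i (t j) x ^ 2 := by
      intro j
      exact mu_exp_t (t j) k (fun x => stat i (t j) x ^ 2)
    simp only [h1, h2]
    rw [← Finset.sum_mul, ← Finset.mul_sum]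
    have h3 : ∑ j, (lam ^ (n + 1) * Zt (t j) * cen i k) ^ 2 =
        (lam ^ (n + 1)) ^ 2 * cen i k ^ 2 * ∑ j, Zt (t j) ^ 2 := by
      rw [Finset.mul_sum]
      exact Finset.sum_congr rfl (fun j _ => by ring)
    rw [h3]
    ring
  unfold S2
  rw [Finset.sum_congr rfl (fun k _ => h0 k), Finset.sum_add_distrib, Finset.sum_comm]
  congr 1
  · refine Finset.sum_congr rfl (fun j _ => ?_)
    rw [Finset.sum_comm]
    refine Finset.sum_congr rfl (fun s _ => ?_)
    rw [← Finset.sum_mul, potts_col hq, one_mul]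
  · rw [← Finset.sum_mul, ← Finset.mul_sum]

/-- the advantage dominates the correlation with the statistic -/
lemma corr_le_t (hq : 0 < q) (hl : LamOK q lam) (i : Fin q) {n : ℕ} (t : GTree n)
    (h : LeafConf q t → ℝ) :
    (∑ c, h c * (jointProb q lam t i c - leafProb q lam t c / q)) ^ 2 ≤
      (∑ c, leafProb q lam t c * h c ^ 2) * (2 * advantage q lam t) := by
  have hq' : (0 : ℝ) < q := by exact_mod_cast hq
  have hJ : ∀ k c, 0 ≤ jointProb q lam t k c := by
    intro k c
    rw [jointProb_eq]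
    have := lik_nonneg_t hq hl t k c
    positivity
  have hL : ∀ c, 0 ≤ leafProb q lam t c := fun c => Finset.sum_nonneg (fun k _ => hJ k c)
  have hJL : ∀ k c, jointProb q lam t k c ≤ leafProb q lam t c := fun k c =>
    Finset.single_le_sum (f := fun k => jointProb q lam t k c) (fun k _ => hJ k c)
      (Finset.mem_univ k)
  have cs := Finset.sum_sq_le_sum_mul_sum_of_sq_le_mul (Finset.univ)
    (r := fun c => h c * (jointProb q lam t i c - leafProb q lam t c / q))
    (f := fun c => leafProb q lam t c * h c ^ 2)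
    (g := fun c => leafProb q lam t c *
      (jointProb q lam t i c / leafProb q lam t c - 1 / (q : ℝ)) ^ 2)
    (fun c _ => mul_nonneg (hL c) (sq_nonneg _)) (fun c _ => mul_nonneg (hL c) (sq_nonneg _))
    (by
      intro c _
      rcases (hL c).eq_or_lt with h0 | h0
      · have : jointProb q lam t i c = 0 :=
          le_antisymm ((hJL i c).trans h0.symm.le) (hJ i c)
        simp [← h0, this]
      · apply le_of_eq
        field_simp)
  refine cs.trans ?_
  apply mul_le_mul_of_nonneg_left _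
    (Finset.sum_nonneg (fun c _ => mul_nonneg (hL c) (sq_nonneg _)))
  unfold advantage
  rw [Finset.mul_sum]
  refine Finset.sum_le_sum (fun c _ => ?_)
  rcases (hL c).eq_or_lt with h0 | h0
  · simp [← h0]
  · have hx0 : 0 ≤ jointProb q lam t i c / leafProb q lam t c :=
      div_nonneg (hJ i c) (hL c)
    have hx1 : jointProb q lam t i c / leafProb q lam t c ≤ 1 :=
      (div_le_one h0).mpr (hJL i c)
    have hq1 : 0 ≤ 1 / (q : ℝ) := by positivity
    have hq2 : 1 / (q : ℝ) ≤ 1 := by
      rw [div_le_one hq']; exact_mod_cast hq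
    have habs : |jointProb q lam t i c / leafProb q lam t c - 1 / (q : ℝ)| ≤ 1 :=
      abs_le.mpr ⟨by linarith, by linarith⟩
    have hsq : (jointProb q lam t i c / leafProb q lam t c - 1 / (q : ℝ)) ^ 2 ≤
        |jointProb q lam t i c / leafProb q lam t c - 1 / (q : ℝ)| := by
      rw [← sq_abs]
      nlinarith [abs_nonneg (jointProb q lam t i c / leafProb q lam t c
        - 1 / (q : ℝ))]
    have hs := Finset.single_le_sum
      (f := fun k => |jointProb q lam t k c / leafProb q lam t c - 1 / (q : ℝ)|)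
      (fun k _ => abs_nonneg _) (Finset.mem_univ i)
    have := mul_le_mul_of_nonneg_left (hsq.trans hs) h0.le
    calc _ ≤ _ := this
      _ = _ := by ring

/-- quenched lower bound -/
lemma corr_t (hq : 0 < q) (hl : LamOK q lam) (i : Fin q) {n : ℕ} (t : GTree n) :
    (1 / (q : ℝ) * (1 - 1 / (q : ℝ)) * (lam ^ n * Zt t)) ^ 2 ≤
      (1 / q * S2 q lam i t) * (2 * advantage q lam t) := by
  have hci : cen i i = 1 - 1 / (q : ℝ) := by unfold cen; simp
  have hc := corr_le_t hq hl i t (stat i t)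
  have e1 : ∑ c, stat i t c * (jointProb q lam t i c - leafProb q lam t c / q) =
      1 / (q : ℝ) * (1 - 1 / (q : ℝ)) * (lam ^ n * Zt t) := by
    have h1 : ∀ c, stat i t c *
        (jointProb q lam t i c - leafProb q lam t c / q) =
        1 / q * (lik q lam t i c * stat i t c) -
        1 / q * (1 / q * ∑ k, lik q lam t k c * stat i t c) := by
      intro c
      unfold leafProb
      simp only [jointProb_eq]
      rw [← Finset.sum_mul, ← Finset.mul_sum]
      ring
    rw [Finset.sum_congr rfl (fun c _ => h1 c), Finset.sum_sub_distrib, ← Finset.mul_sum,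
      first_moment_t hq hl, ← Finset.mul_sum, ← Finset.mul_sum, Finset.sum_comm]
    have h2 : ∀ k, ∑ c, lik q lam t k c * stat i t c = lam ^ n * Zt t * cen i k :=
      fun k => first_moment_t hq hl i t k
    rw [Finset.sum_congr rfl (fun k _ => h2 k), ← Finset.mul_sum, cen_sum hq, hci]
    ring
  have e2 : ∑ c, leafProb q lam t c * stat i t c ^ 2 = 1 / q * S2 q lam i t := by
    unfold S2
    rw [Finset.sum_comm, Finset.mul_sum]
    refine Finset.sum_congr rfl (fun c _ => ?_)
    unfold leafProb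
    simp only [jointProb_eq]
    rw [Finset.sum_mul, Finset.mul_sum]
    exact Finset.sum_congr rfl (fun k _ => by ring)
  rw [e1, e2] at hc
  exact hc

end Vale.Agent.P154.Mu
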