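import Vale.Agent.P154.MuGW

/-!
# P154: convergence of the expectations of all continuous functionals
-/

namespace Vale.Agent.P154.Mu

open Finset Filter Topology
open scoped ENNReal

variable {q : ℕ} {p : ℕ → ℝ≥0∞} {lam : ℝ}

lemma continuous_avg : Continuous (avg (q := q)) := by
  unfold avg
  exact (continuous_finsetSum _ (fun i _ => continuous_apply i)).div_const _

lemma Sx_le {x : Fin q → ℝ} (hq : 0 < q) (hx : Sx x) (i : Fin q) : x i ≤ q := by
  have hq' : (0:ℝ) < q := by positivity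
  have h1 := hx.2
  unfold avg at h1
  rw [div_eq_one_iff_eq hq'.ne'] at h1
  rw [← h1]
  exact Finset.single_le_sum (fun j _ => hx.1 j) (Finset.mem_univ i)

lemma isCompact_SxSet (hq : 0 < q) : IsCompact (SxSet q) := by
  have hsub : SxSet q ⊆ Set.Icc (fun _ => (0:ℝ)) (fun _ => (q:ℝ)) := by
    intro x hx
    exact ⟨fun i => hx.1 i, fun i => Sx_le hq hx i⟩
  have hclosed : IsClosed (SxSet q) := by
    have e : SxSet q = (⋂ i, {x : Fin q → ℝ | 0 ≤ x i}) ∩ {x | avg x = 1} := by
      ext x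
      simp only [SxSet, Sx, Set.mem_inter_iff, Set.mem_iInter]
      rfl
    rw [e]
    refine IsClosed.inter (isClosed_iInter (fun i => ?_)) ?_
    · exact isClosed_le continuous_const (continuous_apply i)
    · exact isClosed_eq continuous_avg continuous_const
  exact isCompact_Icc.of_isClosed_subset hclosed hsub

lemma convex_SxSet : Convex ℝ (SxSet q) := by
  intro x hx y hy a b ha hb hab
  refine ⟨fun i => ?_, ?_⟩
  · have := hx.1 i
    have := hy.1 i
    simp only [Pi.add_apply, Pi.smul_apply, smul_eq_mul]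
    positivity
  · have e : (a • x + b • y) = fun i => a * x i + b * y i := by
      funext i; simp
    rw [e, avg_add (fun i => a * x i) (fun i => b * y i), avg_smul, avg_smul, hx.2, hy.2]
    linarith

/-- a continuous function on the simplex is bounded there -/
lemma exists_bound (hq : 0 < q) {F : (Fin q → ℝ) → ℝ} (hF : ContinuousOn F (SxSet q)) :
    ∃ B, ∀ x, Sx x → |F x| ≤ B := by
  obtain ⟨B, hB⟩ := (isCompact_SxSet hq).exists_bound_of_continuousOn hF
  exact ⟨B, fun x hx => hB x hx⟩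

/-- extension by zero -/
noncomputable def ext0 (φ : C(SxSet q, ℝ)) : (Fin q → ℝ) → ℝ := by
  classical
  exact fun x => if h : x ∈ SxSet q then φ ⟨x, h⟩ else 0

lemma ext0_apply (φ : C(SxSet q, ℝ)) {x : Fin q → ℝ} (hx : Sx x) : ext0 φ x = φ ⟨x, hx⟩ := by
  unfold ext0
  exact dif_pos hx

lemma conv_of_convex (hq : 0 < q) (hl : LamOK q lam) (hp : ∑' k, p k = 1)
    {F : (Fin q → ℝ) → ℝ} (hF : ConvexOn ℝ (SxSet q) F) {B : ℝ} (hB : ∀ x, Sx x → |F x| ≤ B) :
    ∃ L, Tendsto (EN p lam F) atTop (𝓝 L) :=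
  ⟨_, tendsto_atTop_ciInf (EN_antitone hq hl hp hF hB) ⟨-B, by
    rintro _ ⟨n, rfl⟩
    exact (abs_le.mp (EN_abs_le hq hl hp hB n)).1⟩⟩

/-- exponentials as continuous functions on the simplex -/
noncomputable def expU (u : Fin q → ℝ) : C(SxSet q, ℝ) :=
  ⟨fun x => Real.exp (∑ i, u i * x.1 i), by
    refine Real.continuous_exp.comp (continuous_finsetSum _ (fun i _ => ?_))
    exact continuous_const.mul ((continuous_apply i).comp continuous_subtype_val)⟩

lemma expU_mul (u v : Fin q → ℝ) : expU (q := q) u * expU v = expU (u + v) := by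
  ext x
  change Real.exp _ * Real.exp _ = Real.exp _
  rw [← Real.exp_add, ← Finset.sum_add_distrib]
  congr 1
  exact Finset.sum_congr rfl (fun i _ => by simp only [Pi.add_apply]; ring)

lemma convexOn_exp_lin (u : Fin q → ℝ) :
    ConvexOn ℝ (SxSet q) (fun x => Real.exp (∑ i, u i * x i)) := by
  let g : (Fin q → ℝ) →ₗ[ℝ] ℝ := ∑ i, u i • LinearMap.proj (R := ℝ) (φ := fun _ : Fin q => ℝ) i
  have hlin : (fun x : Fin q → ℝ => Real.exp (∑ i, u i * x i)) = Real.exp ∘ g := by
    funext x
    simp [g]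
  rw [hlin]
  have h := (convexOn_exp).comp_linearMap g
  exact h.subset (fun x _ => trivial) convex_SxSet

/-- the span of the exponentials -/
noncomputable def expAlg (q : ℕ) : Subalgebra ℝ C(SxSet q, ℝ) :=
  (Submodule.span ℝ (Set.range (expU (q := q)))).toSubalgebra
    (by
      refine Submodule.subset_span ⟨0, ?_⟩
      ext x
      change Real.exp (∑ i, (0 : Fin q → ℝ) i * x.1 i) = 1
      simp)
    (by
      intro f g hf hg
      have h1 := Submodule.mul_mem_mul hf hg
      rw [Submodule.span_mul_span] at h1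
      refine Submodule.span_mono ?_ h1
      rintro _ ⟨_, ⟨u, rfl⟩, _, ⟨v, rfl⟩, rfl⟩
      exact ⟨u + v, (expU_mul u v).symm⟩)

lemma expAlg_sep (q : ℕ) : (expAlg q).SeparatesPoints := by
  intro x y hxy
  have : ∃ i, x.1 i ≠ y.1 i := by
    by_contra h
    push Not at h
    exact hxy (Subtype.ext (funext h))
  obtain ⟨i, hi⟩ := this
  refine ⟨expU (Pi.single i 1), ⟨expU (Pi.single i 1),
    Submodule.subset_span ⟨Pi.single i 1, rfl⟩, rfl⟩, ?_⟩
  change Real.exp _ ≠ Real.exp _
  intro h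
  apply hi
  have h1 := Real.exp_injective h
  simpa [Pi.single_apply] using h1

/-- **convergence for every continuous functional** -/
theorem EN_tendsto (hq : 0 < q) (hl : LamOK q lam) (hp : ∑' k, p k = 1)
    {F : (Fin q → ℝ) → ℝ} (hF : ContinuousOn F (SxSet q)) :
    ∃ L, Tendsto (EN p lam F) atTop (𝓝 L) := by
  have : CompactSpace (SxSet q) := isCompact_iff_compactSpace.mp (isCompact_SxSet hq)
  -- linearity and continuity of `φ ↦ EN (ext0 φ) n`
  have hbd : ∀ φ : C(SxSet q, ℝ), ∀ x, Sx x → |ext0 φ x| ≤ ‖φ‖ := by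
    intro φ x hx
    rw [ext0_apply φ hx]
    exact φ.norm_coe_le_norm ⟨x, hx⟩
  have hadd : ∀ (φ ψ : C(SxSet q, ℝ)) n,
      EN p lam (ext0 (φ + ψ)) n = EN p lam (ext0 φ) n + EN p lam (ext0 ψ) n := by
    intro φ ψ n
    rw [← EN_add hq hl hp (hbd φ) (hbd ψ)]
    refine EN_congr hq hl (fun x hx => ?_) n
    rw [ext0_apply _ hx, ext0_apply _ hx, ext0_apply _ hx]
    rfl
  have hsm : ∀ (a : ℝ) (φ : C(SxSet q, ℝ)) n,
      EN p lam (ext0 (a • φ)) n = a * EN p lam (ext0 φ) n := by
    intro a φ n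
    rw [← EN_const_mul]
    refine EN_congr hq hl (fun x hx => ?_) n
    rw [ext0_apply _ hx, ext0_apply _ hx]
    rfl
  -- convergence on the span
  have hspan : ∀ φ ∈ Submodule.span ℝ (Set.range (expU (q := q))),
      ∃ L, Tendsto (EN p lam (ext0 φ)) atTop (𝓝 L) := by
    intro φ hφ
    induction hφ using Submodule.span_induction with
    | mem φ h =>
      obtain ⟨u, rfl⟩ := h
      have hcont : ContinuousOn (fun x : Fin q → ℝ => Real.exp (∑ i, u i * x i)) (SxSet q) := by
        apply Continuous.continuousOn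
        refine Real.continuous_exp.comp (continuous_finsetSum _ (fun i _ => ?_))
        exact continuous_const.mul (continuous_apply i)
      obtain ⟨B, hB⟩ := exists_bound hq hcont
      obtain ⟨L, hL⟩ := conv_of_convex hq hl hp (convexOn_exp_lin u) hB
      refine ⟨L, hL.congr (fun n => ?_)⟩
      refine EN_congr hq hl (fun x hx => ?_) n
      rw [ext0_apply _ hx]
      rfl
    | zero =>
      refine ⟨0, ?_⟩
      have : EN p lam (ext0 (0 : C(SxSet q, ℝ))) = fun _ => 0 := by
        funext n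
        have h := hsm 0 0 n
        rw [zero_smul, zero_mul] at h
        exact h
      rw [this]
      exact tendsto_const_nhds
    | add φ ψ _ _ h1 h2 =>
      obtain ⟨L1, h1⟩ := h1
      obtain ⟨L2, h2⟩ := h2
      refine ⟨L1 + L2, (h1.add h2).congr (fun n => (hadd φ ψ n).symm)⟩
    | smul a φ _ h1 =>
      obtain ⟨L1, h1⟩ := h1
      exact ⟨a * L1, (h1.const_mul a).congr (fun n => (hsm a φ n).symm)⟩
  -- the given function
  let φ : C(SxSet q, ℝ) := ⟨fun x => F x.1, continuousOn_iff_continuous_domRestrict.mp hF⟩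
  have hφ : ∀ n, EN p lam (ext0 φ) n = EN p lam F n := fun n =>
    EN_congr hq hl (fun x hx => by rw [ext0_apply _ hx]; rfl) n
  have hdense := ContinuousMap.subalgebra_topologicalClosure_eq_top_of_separatesPoints
    (expAlg q) (expAlg_sep q)
  have hmem : φ ∈ (expAlg q).topologicalClosure := by rw [hdense]; trivial
  have hmem' : φ ∈ closure ((expAlg q : Set C(SxSet q, ℝ))) := hmem
  apply cauchySeq_tendsto_of_complete
  rw [Metric.cauchySeq_iff']
  intro ε hε
  rw [Metric.mem_closure_iff] at hmem'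
  obtain ⟨ψ, hψ, hd⟩ := hmem' (ε / 3) (by positivity)
  obtain ⟨L, hL⟩ := hspan ψ hψ
  have hc := hL.cauchySeq
  rw [Metric.cauchySeq_iff'] at hc
  obtain ⟨N, hN⟩ := hc (ε / 3) (by positivity)
  refine ⟨N, fun n hn => ?_⟩
  have hclose : ∀ m, |EN p lam F m - EN p lam (ext0 ψ) m| ≤ dist φ ψ := by
    intro m
    have h1 : EN p lam F m = EN p lam (ext0 ψ) m + EN p lam (ext0 (φ - ψ)) m := by
      rw [← hadd, add_sub_cancel, hφ]
    rw [h1, add_sub_cancel_left, dist_eq_norm]
    exact EN_abs_le hq hl hp (hbd (φ - ψ)) m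
  have h1 := hclose n
  have h2 := hclose N
  have h3 := hN n hn
  rw [Real.dist_eq] at h3 ⊢
  have h4 : EN p lam F n - EN p lam F N =
      (EN p lam F n - EN p lam (ext0 ψ) n) + (EN p lam (ext0 ψ) n - EN p lam (ext0 ψ) N) -
        (EN p lam F N - EN p lam (ext0 ψ) N) := by ring
  rw [h4]
  have h5 := abs_sub ((EN p lam F n - EN p lam (ext0 ψ) n) +
    (EN p lam (ext0 ψ) n - EN p lam (ext0 ψ) N)) (EN p lam F N - EN p lam (ext0 ψ) N)
  have h6 := abs_add_le (EN p lam F n - EN p lam (ext0 ψ) n)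
    (EN p lam (ext0 ψ) n - EN p lam (ext0 ψ) N)
  linarith

end Vale.Agent.P154.Mu
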