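import Vale.Agent.P154.MuLim

/-!
# P154: nonreconstruction from one-point certificates (multiplicative functionals)
-/

namespace Vale.Agent.P154.Mu

open Finset Filter Topology
open scoped ENNReal

variable {q : ℕ} {p : ℕ → ℝ≥0∞} {lam : ℝ}

/-- square deviation -/
noncomputable def sqd (x : Fin q → ℝ) : ℝ := ∑ i, (x i - 1) ^ 2

/-- `1 - G(1 - s)` with the generating function `G` of the offspring law -/
noncomputable def Fp (p : ℕ → ℝ≥0∞) (s : ℝ) : ℝ := 1 - pgf p (1 - s)

/-- a certificate for the values `m i` of the reference functionals -/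
def CertAt (p : ℕ → ℝ≥0∞) (lam : ℝ) {R : ℕ} (αR : Fin R → Fin q → ℂ) (m : Fin R → ℝ) : Prop :=
  ∃ (N : ℕ) (α : Fin N → Fin q → ℂ) (ρ ic sl S : Fin N → ℝ) (r μ : Fin R → ℝ) (c : ℝ), 0 < c ∧
    (∀ j, Adm (α j)) ∧ (∀ j, 0 ≤ ρ j) ∧
    (∀ j x, Sx x → 1 - gm (α j) (ch lam x) ≤ S j) ∧
    (∀ j s, 0 ≤ s → s ≤ S j → Fp p s ≤ ic j + sl j * s) ∧
    ∀ x, Sx x → c ≤
      ∑ j, ρ j * ((1 - gm (α j) x) - ic j - sl j * (1 - gm (α j) (ch lam x))) +
      ∑ i, (- r i * ((1 - gm (αR i) x) - Fp p (m i)) +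
        μ i * ((1 - gm (αR i) (ch lam x)) - m i))

lemma continuous_sqd : Continuous (sqd (q := q)) := by
  unfold sqd
  exact continuous_finsetSum _ (fun i _ => ((continuous_apply i).sub continuous_const).pow 2)

lemma sqd_nonneg (x : Fin q → ℝ) : 0 ≤ sqd x := Finset.sum_nonneg (fun i _ => sq_nonneg _)

lemma continuousOn_pgf (hp : ∑' k, p k = 1) : ContinuousOn (pgf p) (Set.Icc (-1) 1) := by
  unfold pgf
  have hs : Summable (fun k => (p k).toReal) := by
    apply ENNReal.summable_toReal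
    rw [hp]
    exact ENNReal.one_ne_top
  refine continuousOn_tsum (fun k => ?_) hs (fun k x hx => ?_)
  · exact (continuous_const.mul (continuous_pow k)).continuousOn
  · rw [norm_mul, Real.norm_of_nonneg ENNReal.toReal_nonneg]
    have h1 : ‖x ^ k‖ ≤ 1 := by
      rw [norm_pow]
      exact pow_le_one₀ (norm_nonneg _) (abs_le.mpr hx)
    calc (p k).toReal * ‖x ^ k‖ ≤ (p k).toReal * 1 :=
          mul_le_mul_of_nonneg_left h1 ENNReal.toReal_nonneg
      _ = _ := mul_one _

/-- the limits of a multiplicative functional -/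
lemma gm_limits {α : Fin q → ℂ} (hA : Adm α) (hl : LamOK q lam) (hp : ∑' k, p k = 1) :
    ∃ b, b ∈ Set.Icc (-1 : ℝ) 1 ∧
      Tendsto (EN p lam (fun x => gm α (ch lam x))) atTop (𝓝 b) ∧
      Tendsto (EN p lam (gm α)) atTop (𝓝 (pgf p b)) := by
  have hq := hA.q_pos
  have hc1 : ContinuousOn (fun x : Fin q → ℝ => gm α (ch lam x)) (SxSet q) :=
    ((continuous_gm hA.pos).comp (continuous_ch lam)).continuousOn
  obtain ⟨b, hb⟩ := EN_tendsto hq hl hp hc1
  have hbn : ∀ n, EN p lam (fun x => gm α (ch lam x)) n ∈ Set.Icc (-1 : ℝ) 1 := by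
    intro n
    have h := EN_abs_le hq hl hp (fun x hx => abs_gm_le hA (ch_Sx hq hl hx)) n
    exact abs_le.mp h
  have hbI : b ∈ Set.Icc (-1 : ℝ) 1 := isClosed_Icc.mem_of_tendsto hb (Eventually.of_forall hbn)
  refine ⟨b, hbI, hb, ?_⟩
  rw [← tendsto_add_atTop_iff_nat 1]
  have h1 : Tendsto (fun n => pgf p (EN p lam (fun x => gm α (ch lam x)) n)) atTop
      (𝓝 (pgf p b)) := by
    have h2 := (continuousOn_pgf hp) b hbI
    exact h2.tendsto.comp (tendsto_nhdsWithin_iff.mpr ⟨hb, Eventually.of_forall hbn⟩)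
  refine h1.congr (fun n => ?_)
  rw [EN_gm_succ hA hl hp]

lemma EN_add_c (hq : 0 < q) (hl : LamOK q lam) (hp : ∑' k, p k = 1) {F G : (Fin q → ℝ) → ℝ}
    (hF : Continuous F) (hG : Continuous G) (n : ℕ) :
    EN p lam (fun x => F x + G x) n = EN p lam F n + EN p lam G n := by
  obtain ⟨B, hB⟩ := exists_bound hq hF.continuousOn
  obtain ⟨B', hB'⟩ := exists_bound hq hG.continuousOn
  exact EN_add hq hl hp hB hB' n

lemma EN_sum_c (hq : 0 < q) (hl : LamOK q lam) (hp : ∑' k, p k = 1) {ι : Type} (s : Finset ι)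
    {F : ι → (Fin q → ℝ) → ℝ} (hF : ∀ j, Continuous (F j)) (n : ℕ) :
    EN p lam (fun x => ∑ j ∈ s, F j x) n = ∑ j ∈ s, EN p lam (F j) n := by
  classical
  induction s using Finset.induction_on with
  | empty => simp only [Finset.sum_empty]; exact EN_const hq hl hp 0 n
  | insert j s hj ih =>
    simp only [Finset.sum_insert hj]
    rw [EN_add_c hq hl hp (hF j) (continuous_finsetSum _ (fun i _ => hF i)), ih]

lemma EN_affine (hq : 0 < q) (hl : LamOK q lam) (hp : ∑' k, p k = 1) {F G : (Fin q → ℝ) → ℝ}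
    (hF : Continuous F) (hG : Continuous G) (a b e : ℝ) (n : ℕ) :
    EN p lam (fun x => a * F x + (b * G x + e)) n = a * EN p lam F n + (b * EN p lam G n + e) := by
  rw [EN_add_c hq hl hp (F := fun x => a * F x) (G := fun x => b * G x + e)
    (continuous_const.mul hF) ((continuous_const.mul hG).add continuous_const), EN_const_mul,
    EN_add_c hq hl hp (F := fun x => b * G x) (G := fun _ => e) (continuous_const.mul hG)
    continuous_const, EN_const_mul, EN_const hq hl hp]

lemma EN_mono_c (hq : 0 < q) (hl : LamOK q lam) (hp : ∑' k, p k = 1) {F G : (Fin q → ℝ) → ℝ}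
    (hF : Continuous F) (hG : Continuous G) (h : ∀ x, Sx x → F x ≤ G x) (n : ℕ) :
    EN p lam F n ≤ EN p lam G n := by
  obtain ⟨B, hB⟩ := exists_bound hq hF.continuousOn
  obtain ⟨B', hB'⟩ := exists_bound hq hG.continuousOn
  exact EN_mono hq hl hp (B := max B B') (fun x hx => (hB x hx).trans (le_max_left _ _))
    (fun x hx => (hB' x hx).trans (le_max_right _ _)) h n

/-- **the certificate theorem** -/
theorem EN_sqd_tendsto (hq : 0 < q) (hl : LamOK q lam) (hp : ∑' k, p k = 1) {R : ℕ}
    (αR : Fin R → Fin q → ℂ) (hA : ∀ i, Adm (αR i)) (M : Fin R → ℝ)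
    (hM : ∀ i x, Sx x → 1 - gm (αR i) (ch lam x) ≤ M i) {c0 : ℝ} (hc0 : 0 < c0)
    (hlow : ∀ i x, Sx x → c0 * sqd x ≤ 1 - gm (αR i) (ch lam x))
    (cert : ∀ m : Fin R → ℝ, (∀ i, 0 < m i ∧ m i ≤ M i) → CertAt p lam αR m) :
    Tendsto (EN p lam (sqd (q := q))) atTop (𝓝 0) := by
  obtain ⟨S, hS⟩ := EN_tendsto (p := p) hq hl hp (continuous_sqd (q := q)).continuousOn
  have hS0 : 0 ≤ S := by
    refine ge_of_tendsto' hS (fun n => ?_)
    have h := EN_mono_c (p := p) hq hl hp (F := fun _ : Fin q → ℝ => (0:ℝ)) (G := sqd)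
      continuous_const continuous_sqd (fun x _ => sqd_nonneg x) n
    rwa [EN_const hq hl hp] at h
  rcases hS0.eq_or_lt with hz | hpos
  · rwa [← hz] at hS
  exfalso
  choose b hbI hb ha using fun i => gm_limits (hA i) hl hp
  have hcont1 : ∀ {α : Fin q → ℂ}, Adm α → Continuous (gm α) := fun h => continuous_gm h.pos
  have hcont2 : ∀ {α : Fin q → ℂ}, Adm α → Continuous (fun x => gm α (ch lam x)) :=
    fun h => (continuous_gm h.pos).comp (continuous_ch lam)
  have hone : ∀ {F : (Fin q → ℝ) → ℝ}, Continuous F → ∀ n,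
      EN p lam (fun x => 1 - F x) n = 1 - EN p lam F n := by
    intro F hF n
    have h := EN_affine hq hl hp (F := F) (G := fun _ => (0:ℝ)) hF continuous_const (-1) 0 1 n
    have e : (fun x => -1 * F x + (0 * (0:ℝ) + 1)) = fun x => 1 - F x := by funext x; ring
    rw [e] at h
    rw [h]; ring
  have hm : ∀ i, 0 < 1 - b i ∧ 1 - b i ≤ M i := by
    intro i
    have h1 : Tendsto (fun n => EN p lam (fun x => 1 - gm (αR i) (ch lam x)) n) atTop
        (𝓝 (1 - b i)) := by
      simp only [hone (hcont2 (hA i))]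
      exact tendsto_const_nhds.sub (hb i)
    constructor
    · have h2 : c0 * S ≤ 1 - b i := by
        refine le_of_tendsto_of_tendsto' (hS.const_mul c0) h1 (fun n => ?_)
        rw [← EN_const_mul]
        exact EN_mono_c hq hl hp (continuous_const.mul continuous_sqd)
          (continuous_const.sub (hcont2 (hA i))) (fun x hx => hlow i x hx) n
      have : 0 < c0 * S := mul_pos hc0 hpos
      linarith
    · refine le_of_tendsto' h1 (fun n => ?_)
      have h3 := EN_mono_c (p := p) hq hl hp (F := fun x => 1 - gm (αR i) (ch lam x))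
        (G := fun _ => M i) (continuous_const.sub (hcont2 (hA i))) continuous_const
        (fun x hx => hM i x hx) n
      rwa [EN_const hq hl hp] at h3
  obtain ⟨N, α, ρ, ic, sl, SS, r, μ, c, hc, hAα, hρ, hSS, htan, hcert⟩ :=
    cert (fun i => 1 - b i) hm
  choose b' hbI' hb' ha' using fun j => gm_limits (hAα j) hl hp
  -- expectation of the certificate
  have hE : ∀ n, c ≤
      ∑ j, (-ρ j * EN p lam (gm (α j)) n + (ρ j * sl j * EN p lam (fun x => gm (α j) (ch lam x)) n
        + ρ j * (1 - ic j - sl j))) +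
      ∑ i, (r i * EN p lam (gm (αR i)) n + (-μ i * EN p lam (fun x => gm (αR i) (ch lam x)) n
        + (-r i * (1 - Fp p (1 - b i)) + μ i * (1 - (1 - b i))))) := by
    intro n
    have e1 : ∀ j, Continuous (fun x => -ρ j * gm (α j) x + (ρ j * sl j * gm (α j) (ch lam x)
        + ρ j * (1 - ic j - sl j))) := fun j =>
      (continuous_const.mul (hcont1 (hAα j))).add
        ((continuous_const.mul (hcont2 (hAα j))).add continuous_const)
    have e2 : ∀ i, Continuous (fun x => r i * gm (αR i) x + (-μ i * gm (αR i) (ch lam x)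
        + (-r i * (1 - Fp p (1 - b i)) + μ i * (1 - (1 - b i))))) := fun i =>
      (continuous_const.mul (hcont1 (hA i))).add
        ((continuous_const.mul (hcont2 (hA i))).add continuous_const)
    have h1 := EN_mono_c (p := p) hq hl hp (F := fun _ => c) (G := fun x =>
      ∑ j, (-ρ j * gm (α j) x + (ρ j * sl j * gm (α j) (ch lam x) + ρ j * (1 - ic j - sl j))) +
      ∑ i, (r i * gm (αR i) x + (-μ i * gm (αR i) (ch lam x)
        + (-r i * (1 - Fp p (1 - b i)) + μ i * (1 - (1 - b i))))))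
      continuous_const ((continuous_finsetSum _ (fun j _ => e1 j)).add
        (continuous_finsetSum _ (fun i _ => e2 i))) (fun x hx => by
        refine (hcert x hx).trans (le_of_eq ?_)
        congr 1
        · exact Finset.sum_congr rfl (fun j _ => by ring)
        · exact Finset.sum_congr rfl (fun i _ => by ring)) n
    rw [EN_const hq hl hp] at h1
    refine h1.trans (le_of_eq ?_)
    rw [EN_add_c hq hl hp (continuous_finsetSum _ (fun j _ => e1 j))
      (continuous_finsetSum _ (fun i _ => e2 i)), EN_sum_c hq hl hp univ e1,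
      EN_sum_c hq hl hp univ e2]
    congr 1
    · exact Finset.sum_congr rfl (fun j _ =>
        EN_affine hq hl hp (hcont1 (hAα j)) (hcont2 (hAα j)) _ _ _ n)
    · exact Finset.sum_congr rfl (fun i _ =>
        EN_affine hq hl hp (hcont1 (hA i)) (hcont2 (hA i)) _ _ _ n)
  have hlim : Tendsto (fun n =>
      ∑ j, (-ρ j * EN p lam (gm (α j)) n + (ρ j * sl j * EN p lam (fun x => gm (α j) (ch lam x)) n
        + ρ j * (1 - ic j - sl j))) +
      ∑ i, (r i * EN p lam (gm (αR i)) n + (-μ i * EN p lam (fun x => gm (αR i) (ch lam x)) n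
        + (-r i * (1 - Fp p (1 - b i)) + μ i * (1 - (1 - b i)))))) atTop
      (𝓝 (∑ j, (-ρ j * pgf p (b' j) + (ρ j * sl j * b' j + ρ j * (1 - ic j - sl j))) +
        ∑ i, (r i * pgf p (b i) + (-μ i * b i
        + (-r i * (1 - Fp p (1 - b i)) + μ i * (1 - (1 - b i))))))) := by
    refine Tendsto.add (tendsto_finsetSum _ (fun j _ => ?_)) (tendsto_finsetSum _ (fun i _ => ?_))
    · exact ((ha' j).const_mul _).add (((hb' j).const_mul _).add tendsto_const_nhds)
    · exact ((ha i).const_mul _).add (((hb i).const_mul _).add tendsto_const_nhds)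
  have hfin := ge_of_tendsto' hlim hE
  have hz1 : ∑ i, (r i * pgf p (b i) + (-μ i * b i
        + (-r i * (1 - Fp p (1 - b i)) + μ i * (1 - (1 - b i))))) = 0 := by
    refine Finset.sum_eq_zero (fun i _ => ?_)
    unfold Fp
    rw [sub_sub_cancel]
    ring_nf
  have hz2 : ∑ j, (-ρ j * pgf p (b' j) + (ρ j * sl j * b' j + ρ j * (1 - ic j - sl j))) ≤ 0 := by
    refine Finset.sum_nonpos (fun j _ => ?_)
    have hs1 : 0 ≤ 1 - b' j := by linarith [(hbI' j).2]
    have hs2 : 1 - b' j ≤ SS j := by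
      have h1 : Tendsto (fun n => EN p lam (fun x => 1 - gm (α j) (ch lam x)) n) atTop
          (𝓝 (1 - b' j)) := by
        simp only [hone (hcont2 (hAα j))]
        exact tendsto_const_nhds.sub (hb' j)
      refine le_of_tendsto' h1 (fun n => ?_)
      have h3 := EN_mono_c (p := p) hq hl hp (F := fun x => 1 - gm (α j) (ch lam x))
        (G := fun _ => SS j) (continuous_const.sub (hcont2 (hAα j))) continuous_const
        (fun x hx => hSS j x hx) n
      rwa [EN_const hq hl hp] at h3
    have ht := htan j (1 - b' j) hs1 hs2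
    unfold Fp at ht
    rw [sub_sub_cancel] at ht
    have h4 := mul_le_mul_of_nonneg_left ht (hρ j)
    nlinarith
  linarith

end Vale.Agent.P154.Mu
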