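import Vale.Agent.P154.MuMonoL

/-!
# P154: monotonicity in the offspring law
-/

namespace Vale.Agent.P154.Mu

open Finset Filter Topology
open scoped ENNReal

variable {q : ℕ} {p p' : ℕ → ℝ≥0∞} {lam : ℝ}

/-- sublinear and bounded by a multiple of the average -/
structure SublB (h : (Fin q → ℝ) → ℝ) (C : ℝ) : Prop where
  sub : Subl h
  bd : ∀ v : Fin q → ℝ, (∀ i, 0 ≤ v i) → |h v| ≤ C * avg v

/-- adding a subtree -/
noncomputable def UU (p : ℕ → ℝ≥0∞) (lam : ℝ) (n : ℕ) (h : (Fin q → ℝ) → ℝ) (v : Fin q → ℝ) : ℝ :=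
  ∑' t : GTree n, wt p t * ∑ c, h (fun i => v i * cl lam (lv lam t c) i)

/-- the homogeneous functional -/
noncomputable def AA (p : ℕ → ℝ≥0∞) (lam : ℝ) (n : ℕ) (h : (Fin q → ℝ) → ℝ) : ℝ :=
  ∑' t : GTree n, wt p t * ∑ c, h (lv lam t c)

lemma SublB.C_nonneg (hq : 0 < q) {h : (Fin q → ℝ) → ℝ} {C : ℝ} (hh : SublB h C) : 0 ≤ C := by
  have h1 := (abs_nonneg _).trans (hh.bd (fun _ => 1) (fun _ => zero_le_one))
  have h2 : avg (fun _ : Fin q => (1:ℝ)) = 1 := by
    unfold avg
    have : (q : ℝ) ≠ 0 := by positivity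
    rw [Finset.sum_const, Finset.card_univ, Fintype.card_fin, nsmul_eq_mul, mul_one, div_self this]
  rwa [h2, mul_one] at h1

lemma sum_avg_mul {Ω : Type} [Fintype Ω] {L : Ω → Fin q → ℝ} (hL : SE L) (v : Fin q → ℝ) :
    ∑ c, avg (fun i => v i * L c i) = avg v := by
  unfold avg
  rw [← Finset.sum_div, Finset.sum_comm]
  congr 1
  refine Finset.sum_congr rfl (fun i _ => ?_)
  rw [← Finset.mul_sum, hL.sum_one, mul_one]

lemma UU_term_bd (hq : 0 < q) (hl : LamOK q lam) {h : (Fin q → ℝ) → ℝ} {C : ℝ} (hh : SublB h C)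
    {v : Fin q → ℝ} (hv : ∀ i, 0 ≤ v i) {n : ℕ} (t : GTree n) :
    |∑ c, h (fun i => v i * cl lam (lv lam t c) i)| ≤ C * avg v := by
  have hL := (SE.lv hq hl t).cl hq hl
  refine (Finset.abs_sum_le_sum_abs _ _).trans ?_
  rw [← sum_avg_mul hL v, Finset.mul_sum]
  exact Finset.sum_le_sum (fun c _ => hh.bd _ (fun i => mul_nonneg (hv i) (hL.nonneg c i)))

lemma AA_term_bd (hq : 0 < q) (hl : LamOK q lam) {h : (Fin q → ℝ) → ℝ} {C : ℝ} (hh : SublB h C)
    {n : ℕ} (t : GTree n) : |∑ c, h (lv lam t c)| ≤ C := by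
  have hL := SE.lv hq hl t
  refine (Finset.abs_sum_le_sum_abs _ _).trans ?_
  calc ∑ c, |h (lv lam t c)| ≤ ∑ c, C * avg (lv lam t c) :=
        Finset.sum_le_sum (fun c _ => hh.bd _ (hL.nonneg c))
    _ = C := by rw [← Finset.mul_sum, sum_avg hq hL, mul_one]

lemma SublB.UU (hq : 0 < q) (hl : LamOK q lam) (hp : ∑' k, p k = 1) {h : (Fin q → ℝ) → ℝ} {C : ℝ}
    (hh : SublB h C) (n : ℕ) : SublB (UU p lam n h) C := by
  have hs : ∀ v : Fin q → ℝ, (∀ i, 0 ≤ v i) → Summable (fun t : GTree n =>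
      wt p t * ∑ c, h (fun i => v i * cl lam (lv lam t c) i)) := fun v hv =>
    summable_wt_mul hp (fun t => UU_term_bd hq hl hh hv t)
  refine ⟨⟨fun v w hv hw => ?_, fun a v ha hv => ?_⟩, fun v hv => ?_⟩
  · unfold Mu.UU
    rw [← (hs v hv).tsum_add (hs w hw)]
    refine (hs _ (fun i => add_nonneg (hv i) (hw i))).tsum_le_tsum (fun t => ?_)
      ((hs v hv).add (hs w hw))
    rw [← mul_add, ← Finset.sum_add_distrib]
    refine mul_le_mul_of_nonneg_left (Finset.sum_le_sum (fun c _ => ?_)) (wt_nonneg p t)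
    have hL := ((SE.lv hq hl t).cl hq hl).nonneg c
    have h1 := hh.sub.add (fun i => v i * cl lam (lv lam t c) i)
      (fun i => w i * cl lam (lv lam t c) i) (fun i => mul_nonneg (hv i) (hL i))
      (fun i => mul_nonneg (hw i) (hL i))
    have e : (fun i => (v i + w i) * cl lam (lv lam t c) i) =
        fun i => v i * cl lam (lv lam t c) i + w i * cl lam (lv lam t c) i := by
      funext i; ring
    rw [e]
    exact h1
  · unfold Mu.UU
    rw [← tsum_mul_left]
    refine tsum_congr (fun t => ?_)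
    have e : ∑ c, h (fun i => a * v i * cl lam (lv lam t c) i) =
        a * ∑ c, h (fun i => v i * cl lam (lv lam t c) i) := by
      rw [Finset.mul_sum]
      refine Finset.sum_congr rfl (fun c _ => ?_)
      have hL := ((SE.lv hq hl t).cl hq hl).nonneg c
      rw [← hh.sub.smul a (fun i => v i * cl lam (lv lam t c) i) ha
        (fun i => mul_nonneg (hv i) (hL i))]
      congr 1
      funext i; ring
    rw [e]; ring
  · unfold Mu.UU
    have h1 : |∑' t : GTree n, wt p t * ∑ c, h (fun i => v i * cl lam (lv lam t c) i)| ≤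
        ∑' t : GTree n, wt p t * (C * avg v) := by
      have h2 := norm_tsum_le_tsum_norm (hs v hv).norm
      refine h2.trans ?_
      refine (hs v hv).norm.tsum_le_tsum (fun t => ?_) ((summable_wt hp n).mul_right _)
      rw [norm_mul, Real.norm_of_nonneg (wt_nonneg p t)]
      exact mul_le_mul_of_nonneg_left (UU_term_bd hq hl hh hv t) (wt_nonneg p t)
    rwa [tsum_mul_right, tsum_wt hp, one_mul] at h1

/-- adding a subtree increases the functional -/
lemma le_UU (hq : 0 < q) (hl : LamOK q lam) (hp : ∑' k, p k = 1) {h : (Fin q → ℝ) → ℝ} {C : ℝ}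
    (hh : SublB h C) (n : ℕ) {v : Fin q → ℝ} (hv : ∀ i, 0 ≤ v i) : h v ≤ UU p lam n h v := by
  have h1 : ∀ t : GTree n, h v ≤ ∑ c, h (fun i => v i * cl lam (lv lam t c) i) := by
    intro t
    have hL := (SE.lv hq hl t).cl hq hl
    have h2 := hh.sub.sum_le univ (fun _ => (1:ℝ)) (fun c i => v i * cl lam (lv lam t c) i)
      (fun _ _ => zero_le_one) (fun c _ i => mul_nonneg (hv i) (hL.nonneg c i))
    have e : (fun i => ∑ c, (1:ℝ) * (v i * cl lam (lv lam t c) i)) = v := by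
      funext i
      simp only [one_mul]
      rw [← Finset.mul_sum]
      have := hL.sum_one i
      rw [this, mul_one]
    rw [e] at h2
    simpa using h2
  have h3 : h v = ∑' t : GTree n, wt p t * h v := by
    rw [tsum_mul_right, tsum_wt hp, one_mul]
  rw [h3]
  unfold UU
  refine ((summable_wt hp n).mul_right _).tsum_le_tsum (fun t => ?_)
    (summable_wt_mul hp (fun t => UU_term_bd hq hl hh hv t))
  exact mul_le_mul_of_nonneg_left (h1 t) (wt_nonneg p t)

lemma UU_mono (hq : 0 < q) (hl : LamOK q lam) (hp : ∑' k, p k = 1) {h g : (Fin q → ℝ) → ℝ}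
    {C C' : ℝ} (hh : SublB h C) (hg : SublB g C') (hle : ∀ v, (∀ i, 0 ≤ v i) → h v ≤ g v)
    (n : ℕ) {v : Fin q → ℝ} (hv : ∀ i, 0 ≤ v i) : UU p lam n h v ≤ UU p lam n g v := by
  unfold UU
  refine (summable_wt_mul hp (fun t => UU_term_bd hq hl hh hv t)).tsum_le_tsum (fun t => ?_)
    (summable_wt_mul hp (fun t => UU_term_bd hq hl hg hv t))
  refine mul_le_mul_of_nonneg_left (Finset.sum_le_sum (fun c _ => ?_)) (wt_nonneg p t)
  exact hle _ (fun i => mul_nonneg (hv i) (((SE.lv hq hl t).cl hq hl).nonneg c i))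

/-- `k` subtrees -/
lemma sublB_iter (hq : 0 < q) (hl : LamOK q lam) (hp : ∑' k, p k = 1) {h : (Fin q → ℝ) → ℝ}
    {C : ℝ} (hh : SublB h C) (n : ℕ) : ∀ k, SublB ((UU p lam n)^[k] h) C := by
  intro k
  induction k with
  | zero => exact hh
  | succ k ih =>
    rw [Function.iterate_succ_apply']
    exact ih.UU hq hl hp n

/-- the contribution of given subtrees -/
noncomputable def TT (lam : ℝ) {n k : ℕ} (h : (Fin q → ℝ) → ℝ) (v : Fin q → ℝ)
    (t : Fin k → GTree n) : ℝ :=
  ∑ c : (j : Fin k) → LeafConf q (t j), h (fun i => v i * ∏ j, cl lam (lv lam (t j) (c j)) i)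

lemma TT_bd (hq : 0 < q) (hl : LamOK q lam) {h : (Fin q → ℝ) → ℝ} {C : ℝ} (hh : SublB h C)
    {v : Fin q → ℝ} (hv : ∀ i, 0 ≤ v i) {n k : ℕ} (t : Fin k → GTree n) :
    |TT lam h v t| ≤ C * avg v := by
  have hL := SE.pi (fun j => (SE.lv hq hl (t j)).cl hq hl)
  unfold TT
  refine (Finset.abs_sum_le_sum_abs _ _).trans ?_
  rw [← sum_avg_mul hL v, Finset.mul_sum]
  exact Finset.sum_le_sum (fun c _ => hh.bd _ (fun i => mul_nonneg (hv i) (hL.nonneg c i)))

lemma TT_cons (lam : ℝ) {n k : ℕ} (h : (Fin q → ℝ) → ℝ) (v : Fin q → ℝ) (t0 : GTree n)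
    (t : Fin k → GTree n) :
    TT lam h v (Fin.cons t0 t : Fin (k + 1) → GTree n) =
      ∑ c0, TT lam h (fun i => v i * cl lam (lv lam t0 c0) i) t := by
  unfold TT
  have e := Equiv.sum_comp (Fin.consEquiv (fun j : Fin (k + 1) =>
    LeafConf q ((Fin.cons t0 t : Fin (k + 1) → GTree n) j)))
    (fun c => h (fun i => v i * ∏ j, cl lam
      (lv lam ((Fin.cons t0 t : Fin (k + 1) → GTree n) j) (c j)) i))
  rw [← e, Fintype.sum_prod_type]
  refine Finset.sum_congr rfl (fun c0 _ => Finset.sum_congr rfl (fun c _ => ?_))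
  congr 1
  funext i
  rw [Fin.prod_univ_succ, mul_assoc]
  rfl

lemma summable_TT (hq : 0 < q) (hl : LamOK q lam) (hp : ∑' k, p k = 1) {h : (Fin q → ℝ) → ℝ}
    {C : ℝ} (hh : SublB h C) {v : Fin q → ℝ} (hv : ∀ i, 0 ≤ v i) (n k : ℕ) :
    Summable (fun t : Fin k → GTree n => (∏ j, wt p (t j)) * TT lam h v t) := by
  have h1 := (tsum_pi_real (a := fun t : GTree n => wt p t) (summable_wt hp n).norm k).1
  refine Summable.of_norm_bounded (h1.mul_right (C * avg v)) (fun t => ?_)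
  rw [norm_mul]
  exact mul_le_mul_of_nonneg_left (TT_bd hq hl hh hv t) (norm_nonneg _)

/-- the expectation with `k` children -/
lemma iter_eq (hq : 0 < q) (hl : LamOK q lam) (hp : ∑' k, p k = 1) (n : ℕ) (k : ℕ)
    {h : (Fin q → ℝ) → ℝ} {C : ℝ} (hh : SublB h C) : ∀ v : Fin q → ℝ, (∀ i, 0 ≤ v i) →
    (UU p lam n)^[k] h v = ∑' t : Fin k → GTree n, (∏ j, wt p (t j)) * TT lam h v t := by
  induction k with
  | zero =>
    intro v _
    rw [tsum_fintype]
    simp [TT]
  | succ k ih =>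
    intro v hv
    rw [Function.iterate_succ_apply']
    have hs := summable_TT hq hl hp hh hv n (k + 1)
    rw [← (Fin.consEquiv (fun _ : Fin (k + 1) => GTree n)).tsum_eq
      (fun t => (∏ j, wt p (t j)) * TT lam h v t)]
    have hs' := (Equiv.summable_iff (Fin.consEquiv (fun _ : Fin (k + 1) => GTree n))).mpr hs
    rw [Summable.tsum_prod (f := fun z : GTree n × (Fin k → GTree n) =>
      (∏ j, wt p (Fin.consEquiv (fun _ : Fin (k + 1) => GTree n) z j)) *
        TT lam h v (Fin.consEquiv (fun _ : Fin (k + 1) => GTree n) z)) hs']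
    unfold UU
    refine tsum_congr (fun t0 => ?_)
    have hL0 := (SE.lv hq hl t0).cl hq hl
    have e1 : ∀ t : Fin k → GTree n,
        (∏ j, wt p (Fin.consEquiv (fun _ : Fin (k + 1) => GTree n) (t0, t) j)) *
        TT lam h v (Fin.consEquiv (fun _ : Fin (k + 1) => GTree n) (t0, t)) =
        wt p t0 * ∑ c0, ((∏ j, wt p (t j)) *
          TT lam h (fun i => v i * cl lam (lv lam t0 c0) i) t) := by
      intro t
      change (∏ j, wt p ((Fin.cons t0 t : Fin (k + 1) → GTree n) j)) *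
        TT lam h v (Fin.cons t0 t : Fin (k + 1) → GTree n) = _
      rw [TT_cons, Fin.prod_univ_succ, ← Finset.mul_sum]
      simp only [Fin.cons_zero, Fin.cons_succ]
      ring
    rw [tsum_congr e1, tsum_mul_left]
    congr 1
    rw [Summable.tsum_finsetSum (fun c0 _ => summable_TT hq hl hp hh
      (fun i => mul_nonneg (hv i) (hL0.nonneg c0 i)) n k)]
    exact Finset.sum_congr rfl (fun c0 _ => ih _ (fun i => mul_nonneg (hv i) (hL0.nonneg c0 i)))

/-- the recursion for homogeneous functionals -/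
lemma AA_succ (hq : 0 < q) (hl : LamOK q lam) (hp : ∑' k, p k = 1) (n : ℕ)
    {h : (Fin q → ℝ) → ℝ} {C : ℝ} (hh : SublB h C) :
    AA p lam (n + 1) h = ∑' k, (p k).toReal * (UU p lam n)^[k] h (fun _ => 1) := by
  have hs := summable_wt_mul hp (n := n + 1) (fun t => AA_term_bd hq hl hh t)
  unfold AA
  rw [← Equiv.tsum_eq (gtreeEquiv n) (fun T => wt p T * ∑ c, h (lv lam T c))]
  have hs' := (Equiv.summable_iff (gtreeEquiv n)).mpr hs
  rw [Summable.tsum_sigma (f := fun c => wt p (gtreeEquiv n c) *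
    ∑ c', h (lv lam (gtreeEquiv n c) c')) hs']
  refine tsum_congr (fun k => ?_)
  rw [iter_eq hq hl hp n k hh _ (fun _ => zero_le_one), ← tsum_mul_left]
  refine tsum_congr (fun t => ?_)
  change wt p (GTree.node k t) * ∑ c, h (lv lam (GTree.node k t) c) = _
  have e1 : wt p (GTree.node k t) = (p k).toReal * ∏ j, wt p (t j) := by
    unfold wt
    change (p k * ∏ j : Fin k, gwWeight p (t j)).toReal = _
    rw [ENNReal.toReal_mul, ENNReal.toReal_prod]
  have e2 : ∑ c, h (lv lam (GTree.node k t) c) = TT lam h (fun _ => 1) t := by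
    unfold TT
    simp only [one_mul]
    exact Finset.sum_congr rfl (fun c _ => congrArg h (lv_node lam t c))
  rw [e1, e2, mul_assoc]

/-- stochastic domination of offspring laws -/
def Dom (p p' : ℕ → ℝ≥0∞) : Prop :=
  ∀ (f : ℕ → ℝ) (B : ℝ), Monotone f → (∀ k, |f k| ≤ B) →
    ∑' k, (p k).toReal * f k ≤ ∑' k, (p' k).toReal * f k

lemma iter_mono_laws (hq : 0 < q) (hl : LamOK q lam) (hp : ∑' k, p k = 1) (hp' : ∑' k, p' k = 1)
    {n : ℕ} (ih : ∀ (h : (Fin q → ℝ) → ℝ) (C : ℝ), SublB h C → AA p lam n h ≤ AA p' lam n h) :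
    ∀ (k : ℕ) {h : (Fin q → ℝ) → ℝ} {C : ℝ}, SublB h C → ∀ v : Fin q → ℝ, (∀ i, 0 ≤ v i) →
    (UU p lam n)^[k] h v ≤ (UU p' lam n)^[k] h v := by
  have hU : ∀ {h : (Fin q → ℝ) → ℝ} {C : ℝ}, SublB h C → ∀ v : Fin q → ℝ, (∀ i, 0 ≤ v i) →
      UU p lam n h v ≤ UU p' lam n h v := by
    intro h C hh v hv
    have hbnd : ∃ V : ℝ, 0 ≤ V ∧ ∀ i, v i ≤ V :=
      ⟨∑ i, v i, Finset.sum_nonneg (fun i _ => hv i), fun i =>
        Finset.single_le_sum (fun j _ => hv j) (Finset.mem_univ i)⟩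
    obtain ⟨V, hV0, hV⟩ := hbnd
    have h1 : SublB (fun w => h (fun i => v i * cl lam w i)) (C * V) := by
      refine ⟨(hh.sub.mul hv).cl hq hl, fun w hw => ?_⟩
      have hcl := cl_nonneg hq hl hw
      refine (hh.bd _ (fun i => mul_nonneg (hv i) (hcl i))).trans ?_
      rw [mul_assoc]
      refine mul_le_mul_of_nonneg_left ?_ (hh.C_nonneg hq)
      rw [← avg_cl hq lam w, ← avg_smul]
      unfold avg
      refine div_le_div_of_nonneg_right (Finset.sum_le_sum (fun i _ => ?_)) (Nat.cast_nonneg q)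
      exact mul_le_mul_of_nonneg_right (hV i) (hcl i)
    exact ih _ _ h1
  intro k
  induction k with
  | zero => intro h C _ v _; exact le_rfl
  | succ k ihk =>
    intro h C hh v hv
    rw [Function.iterate_succ_apply', Function.iterate_succ_apply']
    refine (hU (sublB_iter hq hl hp hh n k) v hv).trans ?_
    exact UU_mono hq hl hp' (sublB_iter hq hl hp hh n k) (sublB_iter hq hl hp' hh n k)
      (fun w hw => ihk hh w hw) n hv

theorem AA_mono (hq : 0 < q) (hl : LamOK q lam) (hp : ∑' k, p k = 1) (hp' : ∑' k, p' k = 1)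
    (hD : Dom p p') : ∀ (n : ℕ) (h : (Fin q → ℝ) → ℝ) (C : ℝ), SublB h C →
    AA p lam n h ≤ AA p' lam n h := by
  intro n
  induction n with
  | zero =>
    intro h C _
    have : AA p lam 0 h = AA p' lam 0 h := by
      unfold AA
      refine tsum_congr (fun t => ?_)
      cases t
      rfl
    exact this.le
  | succ n ih =>
    intro h C hh
    rw [AA_succ hq hl hp n hh, AA_succ hq hl hp' n hh]
    have hb : ∀ {r : ℕ → ℝ≥0∞}, ∑' k, r k = 1 → ∀ k,
        |(UU r lam n)^[k] h (fun _ => 1)| ≤ C * avg (fun _ : Fin q => (1:ℝ)) := fun hr k =>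
      (sublB_iter hq hl hr hh n k).bd _ (fun _ => zero_le_one)
    have hsum : ∀ {r : ℕ → ℝ≥0∞}, ∑' k, r k = 1 → Summable (fun k => (r k).toReal) := fun hr =>
      ENNReal.summable_toReal (by rw [hr]; exact ENNReal.one_ne_top)
    have hS : ∀ {r r' : ℕ → ℝ≥0∞}, ∑' k, r k = 1 → ∑' k, r' k = 1 →
        Summable (fun k => (r k).toReal * (UU r' lam n)^[k] h (fun _ => 1)) := by
      intro r r' hr hr'
      refine Summable.of_norm_bounded ((hsum hr).mul_right (C * avg (fun _ : Fin q => (1:ℝ))))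
        (fun k => ?_)
      rw [norm_mul, Real.norm_of_nonneg ENNReal.toReal_nonneg]
      exact mul_le_mul_of_nonneg_left (hb hr' k) ENNReal.toReal_nonneg
    have h1 : ∑' k, (p k).toReal * (UU p lam n)^[k] h (fun _ => 1) ≤
        ∑' k, (p k).toReal * (UU p' lam n)^[k] h (fun _ => 1) :=
      (hS hp hp).tsum_le_tsum (fun k => mul_le_mul_of_nonneg_left
        (iter_mono_laws hq hl hp hp' ih k hh _ (fun _ => zero_le_one)) ENNReal.toReal_nonneg)
        (hS hp hp')
    refine h1.trans (hD _ _ ?_ (hb hp'))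
    refine monotone_nat_of_le_succ (fun k => ?_)
    rw [Function.iterate_succ_apply']
    exact le_UU hq hl hp' (sublB_iter hq hl hp' hh n k) n (fun _ => zero_le_one)

/-- monotonicity in the offspring law -/
theorem aGW_mono_law (hq : 0 < q) (hl : LamOK q lam) (hp : ∑' k, p k = 1) (hp' : ∑' k, p' k = 1)
    (hD : Dom p p') (n : ℕ) : aGW q p lam n ≤ aGW q p' lam n := by
  obtain ⟨B, hB⟩ := exists_bound hq (continuous_adv (q := q)).continuousOn
  have hh : SublB (hm (fun x : Fin q → ℝ => (1 / (2 * q)) * ∑ i, |x i - 1|)) B := by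
    refine ⟨subl_hm hq convexOn_adv, fun v hv => ?_⟩
    have h0 := avg_nonneg hv
    unfold hm
    rcases h0.eq_or_lt with h | h
    · rw [← h]; simp
    · rw [abs_mul, abs_of_pos h, mul_comm]
      exact mul_le_mul_of_nonneg_right (hB _ (nm_Sx hq hv h)) h.le
  rw [aGW_eq_EN hq hl hp, aGW_eq_EN hq hl hp']
  exact ENNReal.ofReal_le_ofReal (AA_mono hq hl hp hp' hD n _ B hh)

lemma dom_dirac {d d' : ℕ} (h : d ≤ d') : Dom (dirac d) (dirac d') := by
  intro f B hf _
  have e : ∀ d : ℕ, ∑' k, (dirac d k).toReal * f k = f d := by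
    intro d
    unfold dirac
    rw [tsum_eq_single d]
    · simp
    · intro k hk; simp [hk]
  rw [e, e]
  exact hf h

end Vale.Agent.P154.Mu
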