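import Vale.Agent.P154.MuFin

/-!
# P154: explicit formulas for three spins
-/

namespace Vale.Agent.P154.Mu

open Finset

lemma sum_perm3 {β : Type} (F : (Fin 3 → β) → ℝ) (x : Fin 3 → β) :
    ∑ σ : Equiv.Perm (Fin 3), F (fun i => x (σ i)) =
      F ![x 0, x 1, x 2] + F ![x 1, x 0, x 2] + F ![x 2, x 1, x 0] + F ![x 0, x 2, x 1] +
      F ![x 1, x 2, x 0] + F ![x 2, x 0, x 1] := by
  rw [show (univ : Finset (Equiv.Perm (Fin 3))) = {1, Equiv.swap 0 1, Equiv.swap 0 2,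
    Equiv.swap 1 2, Equiv.swap 0 1 * Equiv.swap 1 2, Equiv.swap 1 2 * Equiv.swap 0 1} from by
    decide]
  rw [Finset.sum_insert (by decide), Finset.sum_insert (by decide), Finset.sum_insert (by decide),
    Finset.sum_insert (by decide), Finset.sum_insert (by decide), Finset.sum_singleton]
  have e1 : (fun i => x ((1 : Equiv.Perm (Fin 3)) i)) = ![x 0, x 1, x 2] := by
    funext i; fin_cases i <;> rfl
  have e2 : (fun i => x ((Equiv.swap 0 1 : Equiv.Perm (Fin 3)) i)) = ![x 1, x 0, x 2] := by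
    funext i; fin_cases i <;> rfl
  have e3 : (fun i => x ((Equiv.swap 0 2 : Equiv.Perm (Fin 3)) i)) = ![x 2, x 1, x 0] := by
    funext i; fin_cases i <;> rfl
  have e4 : (fun i => x ((Equiv.swap 1 2 : Equiv.Perm (Fin 3)) i)) = ![x 0, x 2, x 1] := by
    funext i; fin_cases i <;> rfl
  have e5 : (fun i => x ((Equiv.swap 0 1 * Equiv.swap 1 2 : Equiv.Perm (Fin 3)) i)) =
      ![x 1, x 2, x 0] := by
    funext i; fin_cases i <;> rfl
  have e6 : (fun i => x ((Equiv.swap 1 2 * Equiv.swap 0 1 : Equiv.Perm (Fin 3)) i)) =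
      ![x 2, x 0, x 1] := by
    funext i; fin_cases i <;> rfl
  rw [e1, e2, e3, e4, e5, e6]
  ring

/-! ### Real exponents -/

/-- symmetrised real monomial -/
noncomputable def gR (a b c : ℝ) (x : Fin 3 → ℝ) : ℝ :=
  (x 0 ^ a * x 1 ^ b * x 2 ^ c + x 1 ^ a * x 0 ^ b * x 2 ^ c + x 2 ^ a * x 1 ^ b * x 0 ^ c +
    x 0 ^ a * x 2 ^ b * x 1 ^ c + x 1 ^ a * x 2 ^ b * x 0 ^ c + x 2 ^ a * x 0 ^ b * x 1 ^ c) / 6

/-- real exponents -/
noncomputable def alR (a b c : ℝ) : Fin 3 → ℂ := ![(a : ℂ), (b : ℂ), (c : ℂ)]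

lemma adm_alR {a b c : ℝ} (ha : 0 ≤ a) (hb : 0 ≤ b) (hc : 0 ≤ c) (hs : a + b + c = 1) :
    Adm (alR a b c) := by
  refine ⟨?_, ?_, ⟨1, ?_⟩⟩
  · intro i
    fin_cases i
    · rcases ha.eq_or_lt with h | h
      · left; simp [alR, ← h]
      · right; simpa [alR] using h
    · rcases hb.eq_or_lt with h | h
      · left; simp [alR, ← h]
      · right; simpa [alR] using h
    · rcases hc.eq_or_lt with h | h
      · left; simp [alR, ← h]
      · right; simpa [alR] using h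
  · rw [Fin.sum_univ_three]
    simp only [alR, Matrix.cons_val_zero, Matrix.cons_val_one, Matrix.cons_val]
    exact_mod_cast hs
  · intro i
    fin_cases i <;> simp [alR]

lemma mon_alR {a b c : ℝ} {u v w : ℝ} (hu : 0 ≤ u) (hv : 0 ≤ v) (hw : 0 ≤ w) :
    (mon (alR a b c) ![u, v, w]).re = u ^ a * v ^ b * w ^ c := by
  unfold mon
  rw [Fin.prod_univ_three]
  simp only [alR, Matrix.cons_val_zero, Matrix.cons_val_one, Matrix.cons_val]
  rw [← Complex.ofReal_cpow hu, ← Complex.ofReal_cpow hv, ← Complex.ofReal_cpow hw,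
    ← Complex.ofReal_mul, ← Complex.ofReal_mul, Complex.ofReal_re]

lemma gm_alR (a b c : ℝ) {x : Fin 3 → ℝ} (hx : ∀ i, 0 ≤ x i) :
    gm (alR a b c) x = gR a b c x := by
  unfold gm gR
  rw [sum_perm3 (fun y => (mon (alR a b c) y).re) x]
  have h0 := hx 0
  have h1 := hx 1
  have h2 := hx 2
  rw [mon_alR h0 h1 h2, mon_alR h1 h0 h2, mon_alR h2 h1 h0, mon_alR h0 h2 h1, mon_alR h1 h2 h0,
    mon_alR h2 h0 h1]
  norm_num [Nat.factorial]

/-! ### The complex family `(a + i t, a - i t, 1 - 2 a)` -/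

/-- one term -/
noncomputable def gT1 (a t u v w : ℝ) : ℝ :=
  w ^ (1 - 2 * a) * ((u * v) ^ a * Real.cos (t * (Real.log u - Real.log v)))

/-- the real functional of the exponents `(a + i t, a - i t, 1 - 2 a)` -/
noncomputable def gT (a t : ℝ) (x : Fin 3 → ℝ) : ℝ :=
  (gT1 a t (x 1) (x 2) (x 0) + gT1 a t (x 2) (x 0) (x 1) + gT1 a t (x 0) (x 1) (x 2)) / 3

/-- complex exponents -/
noncomputable def alT (a t : ℝ) : Fin 3 → ℂ :=
  ![(a : ℂ) + t * Complex.I, (a : ℂ) - t * Complex.I, 1 - 2 * (a : ℂ)]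

lemma adm_alT {a : ℝ} (ha : 0 < a) (ha' : a ≤ 1 / 2) (t : ℝ) : Adm (alT a t) := by
  refine ⟨?_, ?_, ⟨Equiv.swap 0 1, ?_⟩⟩
  · intro i
    fin_cases i
    · right; simpa [alT] using ha
    · right; simpa [alT] using ha
    · rcases ha'.eq_or_lt with h | h
      · left; simp [alT, h]
      · right
        simp only [alT, Matrix.cons_val, Fin.reduceFinMk, Complex.sub_re, Complex.one_re,
          Complex.mul_re, Complex.re_ofNat, Complex.ofReal_re, Complex.im_ofNat, Complex.ofReal_im]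
        linarith
  · rw [Fin.sum_univ_three]
    simp only [alT, Matrix.cons_val_zero, Matrix.cons_val_one, Matrix.cons_val]
    ring
  · intro i
    fin_cases i
    · simp [alT, sub_eq_add_neg]
    · simp [alT, sub_eq_add_neg]
    · have : (Equiv.swap (0 : Fin 3) 1) 2 = 2 := by decide
      simp [alT, this]
      exact Or.inl (map_ofNat _ 2)

lemma mon_alT {a t : ℝ} (ha : 0 < a) {u v w : ℝ} (hu : 0 ≤ u) (hv : 0 ≤ v) (hw : 0 ≤ w) :
    (mon (alT a t) ![u, v, w]).re = gT1 a t u v w := by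
  unfold mon gT1
  rw [Fin.prod_univ_three]
  simp only [alT, Matrix.cons_val_zero, Matrix.cons_val_one, Matrix.cons_val]
  have hw' : (w : ℂ) ^ (1 - 2 * (a : ℂ)) = ((w ^ (1 - 2 * a) : ℝ) : ℂ) := by
    rw [Complex.ofReal_cpow hw]
    push_cast
    rfl
  rw [hw', Complex.mul_re, Complex.ofReal_re, Complex.ofReal_im, mul_zero, sub_zero, mul_comm]
  congr 1
  have hne : ∀ s : ℝ, (a : ℂ) + s * Complex.I ≠ 0 := by
    intro s h
    have := congrArg Complex.re h
    simp at this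
    exact ha.ne' this
  have hne1 := hne t
  have hne2 : (a : ℂ) - t * Complex.I ≠ 0 := by
    have := hne (-t)
    push_cast at this
    rwa [neg_mul, ← sub_eq_add_neg] at this
  rcases hu.eq_or_lt with h | hu'
  · rw [← h, zero_mul, Real.zero_rpow ha.ne', Complex.ofReal_zero, Complex.zero_cpow hne1]
    simp
  rcases hv.eq_or_lt with h | hv'
  · rw [← h, mul_zero, Real.zero_rpow ha.ne', Complex.ofReal_zero, Complex.zero_cpow hne2]
    simp
  have hu0 : (u : ℂ) ≠ 0 := by exact_mod_cast hu'.ne'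
  have hv0 : (v : ℂ) ≠ 0 := by exact_mod_cast hv'.ne'
  rw [Complex.cpow_def_of_ne_zero hu0, Complex.cpow_def_of_ne_zero hv0, ← Complex.exp_add,
    ← Complex.ofReal_log hu, ← Complex.ofReal_log hv]
  have e : ((Real.log u : ℝ) : ℂ) * ((a : ℂ) + t * Complex.I) +
      ((Real.log v : ℝ) : ℂ) * ((a : ℂ) - t * Complex.I) =
      ((a * (Real.log u + Real.log v) : ℝ) : ℂ) +
        ((t * (Real.log u - Real.log v) : ℝ) : ℂ) * Complex.I := by
    push_cast
    ring
  rw [e, Complex.exp_add, ← Complex.ofReal_exp, Complex.re_ofReal_mul,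
    Complex.exp_ofReal_mul_I_re]
  congr 1
  rw [Real.mul_rpow hu hv, Real.rpow_def_of_pos hu', Real.rpow_def_of_pos hv', ← Real.exp_add]
  congr 1
  ring

lemma gT1_symm (a t u v w : ℝ) : gT1 a t v u w = gT1 a t u v w := by
  unfold gT1
  rw [mul_comm v u, ← Real.cos_neg]
  congr 3
  ring

lemma gm_alT {a : ℝ} (ha : 0 < a) (t : ℝ) {x : Fin 3 → ℝ} (hx : ∀ i, 0 ≤ x i) :
    gm (alT a t) x = gT a t x := by
  unfold gm gT
  rw [sum_perm3 (fun y => (mon (alT a t) y).re) x]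
  have h0 := hx 0
  have h1 := hx 1
  have h2 := hx 2
  rw [mon_alT ha h0 h1 h2, mon_alT ha h1 h0 h2, mon_alT ha h2 h1 h0, mon_alT ha h0 h2 h1,
    mon_alT ha h1 h2 h0, mon_alT ha h2 h0 h1, gT1_symm a t (x 0) (x 1) (x 2),
    gT1_symm a t (x 1) (x 2) (x 0), gT1_symm a t (x 2) (x 0) (x 1)]
  norm_num [Nat.factorial]
  ring

/-! ### Comparison with the notation of `Basic.lean` -/

lemma avg_eq_mean (v : Fin 3 → ℝ) : avg v = mean v := by
  unfold avg mean
  rw [Fin.sum_univ_three]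
  norm_num

lemma Sx_iff (x : Fin 3 → ℝ) : Sx x ↔ Simp x := by
  unfold Sx Simp
  rw [avg_eq_mean]

lemma ch_eq_chan (lam : ℝ) (x : Fin 3 → ℝ) : ch lam x = chan lam x := rfl

lemma sqd_eq_sq (x : Fin 3 → ℝ) : sqd x = 3 * sq x := by
  unfold sqd sq
  rw [Fin.sum_univ_three]
  ring

end Vale.Agent.P154.Mu
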