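import Mathlib

/-!
# Definitions for the behaviour of the symmetrised characters near the uniform distribution

Normalised coordinates: a probability vector on three states is `x / 3` with `x 0 + x 1 + x 2 = 3`,
and `y k = x k - 1`.
-/

namespace Vale.Agent.P154.Near

open Finset

/-- The symmetrised character with exponents `(a + i t, a - i t, 1 - 2 a)`, in normalised
coordinates (average of `x` equal to `1`). -/
noncomputable def gE (a t : ℝ) (x : Fin 3 → ℝ) : ℝ :=
  (1 / 3) * ∑ k : Fin 3, (x k) ^ (1 - 2 * a) *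
    ((x (k + 1) * x (k + 2)) ^ a *
      Real.cos (t * (Real.log (x (k + 1)) - Real.log (x (k + 2)))))

/-- second power sum -/
def P2 (y : Fin 3 → ℝ) : ℝ := y 0 ^ 2 + y 1 ^ 2 + y 2 ^ 2

/-- third power sum -/
def P3 (y : Fin 3 → ℝ) : ℝ := y 0 ^ 3 + y 1 ^ 3 + y 2 ^ 3

end Vale.Agent.P154.Near
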