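import Vale.Agent.P154.NearTaylor

/-!
# Graded expansions to sixth order and their products
-/

namespace Vale.Agent.P154.Near

open Finset

/-- Cauchy product -/
noncomputable def conv {R : Type} [Semiring R] (F G : ℕ → R) (m : ℕ) : R :=
  ∑ a ∈ range (m + 1), F a * G (m - a)

/-- expansion up to order six -/
structure GX (f : ℂ) (F : ℕ → ℂ) (n : ℕ → ℝ) (K r : ℝ) : Prop where
  part : ∀ m, m < 7 → ‖F m‖ ≤ n m * r ^ m
  err : ‖f - ∑ m ∈ range 7, F m‖ ≤ K * r ^ 7

lemma GX.mono {f : ℂ} {F : ℕ → ℂ} {n n' : ℕ → ℝ} {K K' r : ℝ} (h : GX f F n K r) (hr : 0 ≤ r)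
    (hn : ∀ m, m < 7 → n m ≤ n' m) (hK : K ≤ K') : GX f F n' K' r :=
  ⟨fun m hm => (h.part m hm).trans (mul_le_mul_of_nonneg_right (hn m hm) (by positivity)),
    h.err.trans (mul_le_mul_of_nonneg_right hK (by positivity))⟩

/-- the terms of total degree at least seven -/
noncomputable def tail (n n' : ℕ → ℝ) (ρ : ℝ) : ℝ :=
  ∑ a ∈ range 7, ∑ b ∈ range 7, if 7 ≤ a + b then n a * n' b * ρ ^ (a + b - 7) else 0

lemma prod_sub_conv (F G : ℕ → ℂ) :
    (∑ m ∈ range 7, F m) * (∑ m ∈ range 7, G m) - ∑ m ∈ range 7, conv F G m =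
      ∑ a ∈ range 7, ∑ b ∈ range 7, if 7 ≤ a + b then F a * G b else 0 := by
  simp [Finset.sum_range_succ, conv]
  ring

lemma GX.mul {f g : ℂ} {F G : ℕ → ℂ} {n n' : ℕ → ℝ} {K K' r ρ K'' : ℝ} (hf : GX f F n K r)
    (hg : GX g G n' K' r) (hr : 0 ≤ r) (hrρ : r ≤ ρ) (hn : ∀ m, 0 ≤ n m) (hn' : ∀ m, 0 ≤ n' m)
    (hK : 0 ≤ K) (hK' : 0 ≤ K')
    (h : tail n n' ρ + K * (∑ m ∈ range 7, n' m * ρ ^ m) + K' * (∑ m ∈ range 7, n m * ρ ^ m) +
      K * K' * ρ ^ 7 ≤ K'') : GX (f * g) (conv F G) (conv n n') K'' r := by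
  have hρ : 0 ≤ ρ := hr.trans hrρ
  constructor
  · intro m hm
    unfold conv
    rw [Finset.sum_mul]
    refine (norm_sum_le _ _).trans (Finset.sum_le_sum (fun a ha => ?_))
    rw [Finset.mem_range] at ha
    have h1 := hf.part a (by omega)
    have h2 := hg.part (m - a) (by omega)
    rw [norm_mul]
    calc ‖F a‖ * ‖G (m - a)‖ ≤ (n a * r ^ a) * (n' (m - a) * r ^ (m - a)) :=
          mul_le_mul h1 h2 (norm_nonneg _) (mul_nonneg (hn a) (by positivity))
      _ = n a * n' (m - a) * r ^ m := by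
          have : r ^ m = r ^ a * r ^ (m - a) := by rw [← pow_add]; congr 1; omega
          rw [this]; ring
  · set SF := ∑ m ∈ range 7, F m with hSF
    set SG := ∑ m ∈ range 7, G m with hSG
    have e : f * g - ∑ m ∈ range 7, conv F G m =
        (SF * SG - ∑ m ∈ range 7, conv F G m) + (f - SF) * SG + (g - SG) * SF +
          (f - SF) * (g - SG) := by ring
    have hSFn : ‖SF‖ ≤ ∑ m ∈ range 7, n m * ρ ^ m := by
      refine (norm_sum_le _ _).trans (Finset.sum_le_sum (fun m hm => ?_))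
      refine (hf.part m (Finset.mem_range.mp hm)).trans ?_
      exact mul_le_mul_of_nonneg_left (pow_le_pow_left₀ hr hrρ m) (hn m)
    have hSGn : ‖SG‖ ≤ ∑ m ∈ range 7, n' m * ρ ^ m := by
      refine (norm_sum_le _ _).trans (Finset.sum_le_sum (fun m hm => ?_))
      refine (hg.part m (Finset.mem_range.mp hm)).trans ?_
      exact mul_le_mul_of_nonneg_left (pow_le_pow_left₀ hr hrρ m) (hn' m)
    have htail : ‖SF * SG - ∑ m ∈ range 7, conv F G m‖ ≤ tail n n' ρ * r ^ 7 := by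
      rw [hSF, hSG, prod_sub_conv]
      unfold tail
      rw [Finset.sum_mul]
      refine (norm_sum_le _ _).trans (Finset.sum_le_sum (fun a ha => ?_))
      rw [Finset.sum_mul]
      refine (norm_sum_le _ _).trans (Finset.sum_le_sum (fun b hb => ?_))
      rw [Finset.mem_range] at ha hb
      by_cases hab : 7 ≤ a + b
      · rw [if_pos hab, if_pos hab, norm_mul]
        have h1 := hf.part a ha
        have h2 := hg.part b hb
        calc ‖F a‖ * ‖G b‖ ≤ (n a * r ^ a) * (n' b * r ^ b) :=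
              mul_le_mul h1 h2 (norm_nonneg _) (mul_nonneg (hn a) (by positivity))
          _ = n a * n' b * r ^ (a + b - 7) * r ^ 7 := by
              have : r ^ (a + b - 7) * r ^ 7 = r ^ a * r ^ b := by
                rw [← pow_add, ← pow_add]; congr 1; omega
              rw [mul_assoc (n a * n' b), this]; ring
          _ ≤ n a * n' b * ρ ^ (a + b - 7) * r ^ 7 := by
              apply mul_le_mul_of_nonneg_right _ (by positivity)
              exact mul_le_mul_of_nonneg_left (pow_le_pow_left₀ hr hrρ _)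
                (mul_nonneg (hn a) (hn' b))
      · rw [if_neg hab, if_neg hab]; simp
    have h1 := hf.err
    have h2 := hg.err
    have hr7 : r ^ 7 ≤ ρ ^ 7 := pow_le_pow_left₀ hr hrρ 7
    have hr70 : 0 ≤ r ^ 7 := by positivity
    rw [e]
    calc ‖(SF * SG - ∑ m ∈ range 7, conv F G m) + (f - SF) * SG + (g - SG) * SF +
          (f - SF) * (g - SG)‖
        ≤ ‖SF * SG - ∑ m ∈ range 7, conv F G m‖ + ‖f - SF‖ * ‖SG‖ + ‖g - SG‖ * ‖SF‖ +
          ‖f - SF‖ * ‖g - SG‖ := by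
          refine (norm_add_le _ _).trans ?_
          rw [norm_mul (f - SF) (g - SG)]
          refine add_le_add ((norm_add_le _ _).trans ?_) le_rfl
          rw [norm_mul (g - SG) SF]
          refine add_le_add ((norm_add_le _ _).trans ?_) le_rfl
          rw [norm_mul (f - SF) SG]
      _ ≤ tail n n' ρ * r ^ 7 + (K * r ^ 7) * (∑ m ∈ range 7, n' m * ρ ^ m) +
          (K' * r ^ 7) * (∑ m ∈ range 7, n m * ρ ^ m) + (K * r ^ 7) * (K' * ρ ^ 7) := by
          refine add_le_add (add_le_add (add_le_add htail ?_) ?_) ?_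
          · exact mul_le_mul h1 hSGn (norm_nonneg _) (by positivity)
          · exact mul_le_mul h2 hSFn (norm_nonneg _) (by positivity)
          · exact mul_le_mul h1 (h2.trans (mul_le_mul_of_nonneg_left hr7 hK')) (norm_nonneg _)
              (by positivity)
      _ = (tail n n' ρ + K * (∑ m ∈ range 7, n' m * ρ ^ m) + K' * (∑ m ∈ range 7, n m * ρ ^ m) +
          K * K' * ρ ^ 7) * r ^ 7 := by ring
      _ ≤ K'' * r ^ 7 := mul_le_mul_of_nonneg_right h hr70

/-- the expansion of a power -/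
lemma GX.cpow {al : ℂ} (h0 : 0 ≤ al.re) (h1 : al.re ≤ 1) {y r : ℝ} (hr : r ≤ 3 / 20)
    (hy : |y| ≤ r) {n : ℕ → ℝ} {K : ℝ} (hn : ∀ m, m < 7 → ‖cb al m‖ ≤ n m)
    (hK : ‖cb al 7‖ * (20 / 17) ^ 7 ≤ K) :
    GX (((1 + y : ℝ) : ℂ) ^ al) (fun m => cb al m * (y : ℂ) ^ m) n K r := by
  have hr0 : 0 ≤ r := (abs_nonneg y).trans hy
  constructor
  · intro m hm
    rw [norm_mul, norm_pow, Complex.norm_real, Real.norm_eq_abs]
    exact mul_le_mul (hn m hm) (pow_le_pow_left₀ (abs_nonneg _) hy m) (by positivity)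
      ((norm_nonneg _).trans (hn m hm))
  · have h2 := trem_bound 7 al (by push_cast; linarith) (y := y) (r := 3 / 20) (by norm_num)
      (hy.trans hr)
    unfold trem at h2
    refine h2.trans ?_
    have h3 : (1 - 3 / 20 : ℝ) ^ (al.re - (7 : ℕ)) ≤ (20 / 17) ^ 7 := by
      have e : (20 / 17 : ℝ) ^ 7 = (1 - 3 / 20 : ℝ) ^ (-(7 : ℕ) : ℝ) := by
        rw [Real.rpow_neg (by norm_num), Real.rpow_natCast]
        norm_num
      rw [e]
      apply Real.rpow_le_rpow_of_exponent_ge (by norm_num) (by norm_num)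
      linarith
    have h4 : |y| ^ 7 ≤ r ^ 7 := pow_le_pow_left₀ (abs_nonneg _) hy 7
    calc ‖cb al 7‖ * |y| ^ 7 * (1 - 3 / 20 : ℝ) ^ (al.re - (7 : ℕ))
        ≤ ‖cb al 7‖ * r ^ 7 * (20 / 17) ^ 7 := by
          apply mul_le_mul _ h3 (by positivity) (by positivity)
          exact mul_le_mul_of_nonneg_left h4 (norm_nonneg _)
      _ = (‖cb al 7‖ * (20 / 17) ^ 7) * r ^ 7 := by ring
      _ ≤ K * r ^ 7 := mul_le_mul_of_nonneg_right hK (by positivity)

lemma norm_le_of_sq {A B n : ℝ} (hn : 0 ≤ n) (h : A ^ 2 + B ^ 2 ≤ n ^ 2) :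
    ‖(A : ℂ) + (B : ℂ) * Complex.I‖ ≤ n := by
  rw [Complex.norm_add_mul_I]
  calc √(A ^ 2 + B ^ 2) ≤ √(n ^ 2) := Real.sqrt_le_sqrt h
    _ = n := Real.sqrt_sq hn

lemma cb_conj (al : ℂ) (n : ℕ) :
    cb ((starRingEnd ℂ) al) n = (starRingEnd ℂ) (cb al n) := by
  unfold cb
  rw [map_prod]
  refine Finset.prod_congr rfl (fun j _ => ?_)
  simp

end Vale.Agent.P154.Near
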