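import Vale.Agent.P154.NearDefs
import Vale.Agent.P154.NearGX
import Vale.Agent.P154.MuThree

/-!
# Sixth order expansions of the two characters near the uniform distribution
-/

namespace Vale.Agent.P154.Near

open Finset

noncomputable def AR : ℕ → ℝ
  | 0 => 1
  | 1 => 1/3
  | 2 => -43/225
  | 3 => 233/2025
  | 4 => -23651/303750
  | 5 => 10351/182250
  | 6 => -22334666/512578125
  | 7 => 53292328/1537734375
  | _ => 0

noncomputable def BR : ℕ → ℝ
  | 0 => 0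
  | 1 => 2/5
  | 2 => -1/15
  | 3 => 13/1125
  | 4 => 77/20250
  | 5 => -68477/7593750
  | 6 => 123019/11390625
  | 7 => -201518557/17940234375
  | _ => 0

noncomputable def nR : ℕ → ℝ
  | 0 => 1
  | 1 => 52069/100000
  | 2 => 20241/100000
  | 3 => 2313/20000
  | 4 => 1949/25000
  | 5 => 5751/100000
  | 6 => 449/10000
  | 7 => 911/25000
  | _ => 0

noncomputable def AC : ℕ → ℝ
  | 0 => 1
  | 1 => 1/2
  | 2 => -29/200
  | 3 => 29/400
  | 4 => -10759/240000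
  | 5 => 4959/160000
  | 6 => -16531189/720000000
  | 7 => 5134189/288000000
  | _ => 0

noncomputable def BC : ℕ → ℝ
  | 0 => 0
  | 1 => 1/5
  | 2 => 0
  | 3 => -29/3000
  | 4 => 29/3000
  | 5 => -51359/6000000
  | 6 => 7453/1000000
  | 7 => -164100589/25200000000
  | _ => 0

noncomputable def nC : ℕ → ℝ
  | 0 => 1
  | 1 => 13463/25000
  | 2 => 14501/100000
  | 3 => 1463/20000
  | 4 => 2293/50000
  | 5 => 201/6250
  | 6 => 1207/50000
  | 7 => 949/50000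
  | _ => 0

noncomputable def eR : ℕ → ℝ
  | 0 => 1
  | 1 => 1/3
  | 2 => -1/9
  | 3 => 5/81
  | 4 => -10/243
  | 5 => 22/729
  | 6 => -154/6561
  | 7 => 374/19683
  | _ => 0

noncomputable def nRR : ℕ → ℝ
  | 0 => 1
  | 1 => 52069/50000
  | 2 => 33797/50000
  | 3 => 44209/100000
  | 4 => 31733/100000
  | 5 => 24303/100000
  | 6 => 19463/100000
  | _ => 0


lemma cb_step {ar ai A B A' B' : ℝ} {n : ℕ}
    (h : cb ((ar : ℂ) + (ai : ℂ) * Complex.I) n = (A : ℂ) + (B : ℂ) * Complex.I)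
    (hA : A' * (n + 1) = A * (ar - n) - B * ai) (hB : B' * (n + 1) = A * ai + B * (ar - n)) :
    cb ((ar : ℂ) + (ai : ℂ) * Complex.I) (n + 1) = (A' : ℂ) + (B' : ℂ) * Complex.I := by
  have hn : ((n : ℂ) + 1) ≠ 0 := by exact_mod_cast Nat.succ_ne_zero n
  have hA' : (A' : ℂ) * (n + 1) = A * (ar - n) - B * ai := by exact_mod_cast congrArg Complex.ofReal hA
  have hB' : (B' : ℂ) * (n + 1) = A * ai + B * (ar - n) := by exact_mod_cast congrArg Complex.ofReal hB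
  have hI : Complex.I * Complex.I = -1 := Complex.I_mul_I
  rw [cb_succ, h, mul_div_assoc', div_eq_iff hn]
  linear_combination (-1 : ℂ) * hA' - Complex.I * hB' + (B : ℂ) * ai * hI

lemma cb_R : ∀ m, m < 8 → cb (((1 / 3 : ℝ) : ℂ) + ((2 / 5 : ℝ) : ℂ) * Complex.I) m =
    (AR m : ℂ) + (BR m : ℂ) * Complex.I := by
  have h0 : cb (((1 / 3 : ℝ) : ℂ) + ((2 / 5 : ℝ) : ℂ) * Complex.I) 0 =
      ((1 : ℝ) : ℂ) + ((0 : ℝ) : ℂ) * Complex.I := by simp [cb]
  have h1 := cb_step (A' := AR 1) (B' := BR 1) h0 (by norm_num [AR]) (by norm_num [BR])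
  have h2 := cb_step (A' := AR 2) (B' := BR 2) h1 (by norm_num [AR, BR]) (by norm_num [AR, BR])
  have h3 := cb_step (A' := AR 3) (B' := BR 3) h2 (by norm_num [AR, BR]) (by norm_num [AR, BR])
  have h4 := cb_step (A' := AR 4) (B' := BR 4) h3 (by norm_num [AR, BR]) (by norm_num [AR, BR])
  have h5 := cb_step (A' := AR 5) (B' := BR 5) h4 (by norm_num [AR, BR]) (by norm_num [AR, BR])
  have h6 := cb_step (A' := AR 6) (B' := BR 6) h5 (by norm_num [AR, BR]) (by norm_num [AR, BR])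
  have h7 := cb_step (A' := AR 7) (B' := BR 7) h6 (by norm_num [AR, BR]) (by norm_num [AR, BR])
  intro m hm
  interval_cases m
  · rw [h0]; simp [AR, BR]
  · exact h1
  · exact h2
  · exact h3
  · exact h4
  · exact h5
  · exact h6
  · exact h7

lemma cb_C : ∀ m, m < 8 → cb (((1 / 2 : ℝ) : ℂ) + ((1 / 5 : ℝ) : ℂ) * Complex.I) m =
    (AC m : ℂ) + (BC m : ℂ) * Complex.I := by
  have h0 : cb (((1 / 2 : ℝ) : ℂ) + ((1 / 5 : ℝ) : ℂ) * Complex.I) 0 =
      ((1 : ℝ) : ℂ) + ((0 : ℝ) : ℂ) * Complex.I := by simp [cb]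
  have h1 := cb_step (A' := AC 1) (B' := BC 1) h0 (by norm_num [AC]) (by norm_num [BC])
  have h2 := cb_step (A' := AC 2) (B' := BC 2) h1 (by norm_num [AC, BC]) (by norm_num [AC, BC])
  have h3 := cb_step (A' := AC 3) (B' := BC 3) h2 (by norm_num [AC, BC]) (by norm_num [AC, BC])
  have h4 := cb_step (A' := AC 4) (B' := BC 4) h3 (by norm_num [AC, BC]) (by norm_num [AC, BC])
  have h5 := cb_step (A' := AC 5) (B' := BC 5) h4 (by norm_num [AC, BC]) (by norm_num [AC, BC])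
  have h6 := cb_step (A' := AC 6) (B' := BC 6) h5 (by norm_num [AC, BC]) (by norm_num [AC, BC])
  have h7 := cb_step (A' := AC 7) (B' := BC 7) h6 (by norm_num [AC, BC]) (by norm_num [AC, BC])
  intro m hm
  interval_cases m
  · rw [h0]; simp [AC, BC]
  · exact h1
  · exact h2
  · exact h3
  · exact h4
  · exact h5
  · exact h6
  · exact h7

lemma cb_e : ∀ m, m < 8 → cb (((1 / 3 : ℝ) : ℂ) + ((0 : ℝ) : ℂ) * Complex.I) m =
    (eR m : ℂ) + ((0 : ℝ) : ℂ) * Complex.I := by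
  have h0 : cb (((1 / 3 : ℝ) : ℂ) + ((0 : ℝ) : ℂ) * Complex.I) 0 =
      ((1 : ℝ) : ℂ) + ((0 : ℝ) : ℂ) * Complex.I := by simp [cb]
  have h1 := cb_step (A' := eR 1) (B' := 0) h0 (by norm_num [eR]) (by norm_num [eR])
  have h2 := cb_step (A' := eR 2) (B' := 0) h1 (by norm_num [eR]) (by norm_num [eR])
  have h3 := cb_step (A' := eR 3) (B' := 0) h2 (by norm_num [eR]) (by norm_num [eR])
  have h4 := cb_step (A' := eR 4) (B' := 0) h3 (by norm_num [eR]) (by norm_num [eR])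
  have h5 := cb_step (A' := eR 5) (B' := 0) h4 (by norm_num [eR]) (by norm_num [eR])
  have h6 := cb_step (A' := eR 6) (B' := 0) h5 (by norm_num [eR]) (by norm_num [eR])
  have h7 := cb_step (A' := eR 7) (B' := 0) h6 (by norm_num [eR]) (by norm_num [eR])
  intro m hm
  interval_cases m
  · rw [h0]; simp [eR]
  · exact h1
  · exact h2
  · exact h3
  · exact h4
  · exact h5
  · exact h6
  · exact h7

lemma norm_cb_R (m : ℕ) (hm : m < 8) :
    ‖cb (((1 / 3 : ℝ) : ℂ) + ((2 / 5 : ℝ) : ℂ) * Complex.I) m‖ ≤ nR m := by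
  rw [cb_R m hm]
  interval_cases m <;> exact norm_le_of_sq (by norm_num [nR]) (by norm_num [AR, BR, nR])

lemma norm_cb_C (m : ℕ) (hm : m < 8) :
    ‖cb (((1 / 2 : ℝ) : ℂ) + ((1 / 5 : ℝ) : ℂ) * Complex.I) m‖ ≤ nC m := by
  rw [cb_C m hm]
  interval_cases m <;> exact norm_le_of_sq (by norm_num [nC]) (by norm_num [AC, BC, nC])

lemma norm_cb_e (m : ℕ) (hm : m < 8) :
    ‖cb (((1 / 3 : ℝ) : ℂ) + ((0 : ℝ) : ℂ) * Complex.I) m‖ ≤ |eR m| := by
  rw [cb_e m hm]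
  refine norm_le_of_sq (abs_nonneg _) ?_
  rw [sq_abs]; simp

lemma nR_nonneg (m : ℕ) : 0 ≤ nR m := by
  rcases lt_or_ge m 8 with h | h
  · interval_cases m <;> norm_num [nR]
  · obtain ⟨k, rfl⟩ := Nat.exists_eq_add_of_le h
    rw [show 8 + k = k + 8 by ring]
    exact le_of_eq rfl

lemma nC_nonneg (m : ℕ) : 0 ≤ nC m := by
  rcases lt_or_ge m 8 with h | h
  · interval_cases m <;> norm_num [nC]
  · obtain ⟨k, rfl⟩ := Nat.exists_eq_add_of_le h
    rw [show 8 + k = k + 8 by ring]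
    exact le_of_eq rfl

lemma nRR_nonneg (m : ℕ) : 0 ≤ nRR m := by
  rcases lt_or_ge m 7 with h | h
  · interval_cases m <;> norm_num [nRR]
  · obtain ⟨k, rfl⟩ := Nat.exists_eq_add_of_le h
    rw [show 7 + k = k + 7 by ring]
    exact le_of_eq rfl

lemma conj_al (a t : ℝ) : (starRingEnd ℂ) ((a : ℂ) + (t : ℂ) * Complex.I) =
    (a : ℂ) - (t : ℂ) * Complex.I := by
  simp [sub_eq_add_neg]

/-- expansion of a product of two factors -/
lemma GX2_R {u v r : ℝ} (hr : r ≤ 3 / 20) (hu : |u| ≤ r) (hv : |v| ≤ r) :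
    GX ((((1 + u : ℝ) : ℂ) ^ (((1 / 3 : ℝ) : ℂ) + ((2 / 5 : ℝ) : ℂ) * Complex.I)) *
        (((1 + v : ℝ) : ℂ) ^ (((1 / 3 : ℝ) : ℂ) - ((2 / 5 : ℝ) : ℂ) * Complex.I)))
      (conv (fun m => cb (((1 / 3 : ℝ) : ℂ) + ((2 / 5 : ℝ) : ℂ) * Complex.I) m * (u : ℂ) ^ m)
        (fun m => cb (((1 / 3 : ℝ) : ℂ) - ((2 / 5 : ℝ) : ℂ) * Complex.I) m * (v : ℂ) ^ m))
      nRR (34043 / 100000) r := by
  have hr0 : 0 ≤ r := (abs_nonneg u).trans hu
  have h1 := GX.cpow (al := ((1 / 3 : ℝ) : ℂ) + ((2 / 5 : ℝ) : ℂ) * Complex.I)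
    (by simp) (by norm_num) hr hu (n := nR) (K := 1421 / 12500)
    (fun m hm => norm_cb_R m (by omega)) (by
      have := norm_cb_R 7 (by norm_num)
      calc _ ≤ nR 7 * (20 / 17) ^ 7 := mul_le_mul_of_nonneg_right this (by positivity)
        _ ≤ _ := by norm_num [nR])
  have h2 := GX.cpow (al := ((1 / 3 : ℝ) : ℂ) - ((2 / 5 : ℝ) : ℂ) * Complex.I)
    (by simp) (by norm_num) hr hv (n := nR) (K := 1421 / 12500)
    (fun m hm => by
      rw [← conj_al, cb_conj, RCLike.norm_conj]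
      exact norm_cb_R m (by omega)) (by
      rw [← conj_al, cb_conj, RCLike.norm_conj]
      have := norm_cb_R 7 (by norm_num)
      calc _ ≤ nR 7 * (20 / 17) ^ 7 := mul_le_mul_of_nonneg_right this (by positivity)
        _ ≤ _ := by norm_num [nR])
  have h3 := h1.mul h2 hr0 hr nR_nonneg nR_nonneg (by norm_num) (by norm_num)
    (K'' := 34043 / 100000) (by
      simp only [tail, Finset.sum_range_succ, Finset.sum_range_zero]
      norm_num [nR])
  refine h3.mono hr0 (fun m hm => ?_) le_rfl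
  interval_cases m <;> simp only [conv, Finset.sum_range_succ, Finset.sum_range_zero] <;>
    norm_num [nR, nRR]

/-- expansion of a product of two factors -/
lemma GX2_C {u v r : ℝ} (hr : r ≤ 3 / 20) (hu : |u| ≤ r) (hv : |v| ≤ r) :
    GX ((((1 + u : ℝ) : ℂ) ^ (((1 / 2 : ℝ) : ℂ) + ((1 / 5 : ℝ) : ℂ) * Complex.I)) *
        (((1 + v : ℝ) : ℂ) ^ (((1 / 2 : ℝ) : ℂ) - ((1 / 5 : ℝ) : ℂ) * Complex.I)))
      (conv (fun m => cb (((1 / 2 : ℝ) : ℂ) + ((1 / 5 : ℝ) : ℂ) * Complex.I) m * (u : ℂ) ^ m)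
        (fun m => cb (((1 / 2 : ℝ) : ℂ) - ((1 / 5 : ℝ) : ℂ) * Complex.I) m * (v : ℂ) ^ m))
      (conv nC nC) (9 / 50) r := by
  have hr0 : 0 ≤ r := (abs_nonneg u).trans hu
  have h1 := GX.cpow (al := ((1 / 2 : ℝ) : ℂ) + ((1 / 5 : ℝ) : ℂ) * Complex.I)
    (by simp) (by norm_num) hr hu (n := nC) (K := 5921 / 100000)
    (fun m hm => norm_cb_C m (by omega)) (by
      have := norm_cb_C 7 (by norm_num)
      calc _ ≤ nC 7 * (20 / 17) ^ 7 := mul_le_mul_of_nonneg_right this (by positivity)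
        _ ≤ _ := by norm_num [nC])
  have h2 := GX.cpow (al := ((1 / 2 : ℝ) : ℂ) - ((1 / 5 : ℝ) : ℂ) * Complex.I)
    (by simp) (by norm_num) hr hv (n := nC) (K := 5921 / 100000)
    (fun m hm => by
      rw [← conj_al, cb_conj, RCLike.norm_conj]
      exact norm_cb_C m (by omega)) (by
      rw [← conj_al, cb_conj, RCLike.norm_conj]
      have := norm_cb_C 7 (by norm_num)
      calc _ ≤ nC 7 * (20 / 17) ^ 7 := mul_le_mul_of_nonneg_right this (by positivity)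
        _ ≤ _ := by norm_num [nC])
  exact h1.mul h2 hr0 hr nC_nonneg nC_nonneg (by norm_num) (by norm_num)
    (K'' := 9 / 50) (by
      simp only [tail, Finset.sum_range_succ, Finset.sum_range_zero]
      norm_num [nC])

/-- expansion of the three factors -/
lemma GX3_R {u v w r : ℝ} (hr : r ≤ 3 / 20) (hu : |u| ≤ r) (hv : |v| ≤ r) (hw : |w| ≤ r) :
    ‖((((1 + u : ℝ) : ℂ) ^ (((1 / 3 : ℝ) : ℂ) + ((2 / 5 : ℝ) : ℂ) * Complex.I)) *
        (((1 + v : ℝ) : ℂ) ^ (((1 / 3 : ℝ) : ℂ) - ((2 / 5 : ℝ) : ℂ) * Complex.I))) *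
        (((1 + w : ℝ) : ℂ) ^ (((1 / 3 : ℝ) : ℂ) + ((0 : ℝ) : ℂ) * Complex.I)) -
      ∑ m ∈ range 7, conv (conv
        (fun m => cb (((1 / 3 : ℝ) : ℂ) + ((2 / 5 : ℝ) : ℂ) * Complex.I) m * (u : ℂ) ^ m)
        (fun m => cb (((1 / 3 : ℝ) : ℂ) - ((2 / 5 : ℝ) : ℂ) * Complex.I) m * (v : ℂ) ^ m))
        (fun m => cb (((1 / 3 : ℝ) : ℂ) + ((0 : ℝ) : ℂ) * Complex.I) m * (w : ℂ) ^ m) m‖ ≤
      2 / 3 * r ^ 7 := by
  have hr0 : 0 ≤ r := (abs_nonneg u).trans hu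
  have h1 := GX.cpow (al := ((1 / 3 : ℝ) : ℂ) + ((0 : ℝ) : ℂ) * Complex.I)
    (by simp) (by norm_num) hr hw (n := fun m => |eR m|) (K := 741 / 12500)
    (fun m hm => norm_cb_e m (by omega)) (by
      have := norm_cb_e 7 (by norm_num)
      calc _ ≤ |eR 7| * (20 / 17) ^ 7 := mul_le_mul_of_nonneg_right this (by positivity)
        _ ≤ _ := by norm_num [eR])
  have h3 := (GX2_R hr hu hv).mul h1 hr0 hr nRR_nonneg (fun m => abs_nonneg _) (by norm_num)
    (by norm_num) (K'' := 2 / 3) (by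
      simp only [tail, Finset.sum_range_succ, Finset.sum_range_zero]
      norm_num [nRR, eR, abs_div, abs_neg])
  exact h3.err

end Vale.Agent.P154.Near
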