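import Vale.Agent.P154.NearNum

/-!
# Sixth order expansions of the two characters near the uniform distribution
-/

namespace Vale.Agent.P154.Near

open Finset

lemma conv_congr {R : Type} [Semiring R] {F F' G G' : ℕ → R} {m : ℕ} (hF : ∀ a, a ≤ m → F a = F' a)
    (hG : ∀ a, a ≤ m → G a = G' a) : conv F G m = conv F' G' m := by
  unfold conv
  refine Finset.sum_congr rfl (fun a ha => ?_)
  rw [Finset.mem_range] at ha
  rw [hF a (by omega), hG (m - a) (by omega)]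

lemma re_conv2 (A B : ℕ → ℝ) (u v : ℝ) (m : ℕ) :
    (conv (fun a => ((A a : ℂ) + (B a : ℂ) * Complex.I) * (u : ℂ) ^ a)
      (fun a => ((A a : ℂ) - (B a : ℂ) * Complex.I) * (v : ℂ) ^ a) m).re =
    ∑ a ∈ range (m + 1), (A a * A (m - a) + B a * B (m - a)) * (u ^ a * v ^ (m - a)) := by
  unfold conv
  rw [Complex.re_sum]
  refine Finset.sum_congr rfl (fun a _ => ?_)
  have e : ((A a : ℂ) + (B a : ℂ) * Complex.I) * (u : ℂ) ^ a *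
      (((A (m - a) : ℂ) - (B (m - a) : ℂ) * Complex.I) * (v : ℂ) ^ (m - a)) =
      (((A a * A (m - a) + B a * B (m - a)) * (u ^ a * v ^ (m - a)) : ℝ) : ℂ) +
      (((B a * A (m - a) - A a * B (m - a)) * (u ^ a * v ^ (m - a)) : ℝ) : ℂ) * Complex.I := by
    have hI : Complex.I * Complex.I = -1 := Complex.I_mul_I
    push_cast
    linear_combination (-(B a : ℂ) * B (m - a) * u ^ a * v ^ (m - a)) * hI
  rw [e, Complex.add_re, Complex.ofReal_re, Complex.re_ofReal_mul, Complex.I_re, mul_zero, add_zero]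

lemma re_conv3 (F : ℕ → ℂ) (e : ℕ → ℝ) (w : ℝ) (m : ℕ) :
    (conv F (fun a => ((e a : ℂ) + ((0 : ℝ) : ℂ) * Complex.I) * (w : ℂ) ^ a) m).re =
    ∑ s ∈ range (m + 1), (F s).re * (e (m - s) * w ^ (m - s)) := by
  unfold conv
  rw [Complex.re_sum]
  refine Finset.sum_congr rfl (fun s _ => ?_)
  change (F s * (((e (m - s) : ℂ) + ((0 : ℝ) : ℂ) * Complex.I) * (w : ℂ) ^ (m - s))).re = _
  have h : (((e (m - s) : ℂ) + ((0 : ℝ) : ℂ) * Complex.I) * (w : ℂ) ^ (m - s)) =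
      ((e (m - s) * w ^ (m - s) : ℝ) : ℂ) := by push_cast; ring
  rw [h, Complex.re_mul_ofReal]

/-- real graded parts -/
noncomputable def TR (m : ℕ) (u v w : ℝ) : ℝ :=
  ∑ s ∈ range (m + 1), (∑ a ∈ range (s + 1),
    (AR a * AR (s - a) + BR a * BR (s - a)) * (u ^ a * v ^ (s - a))) * (eR (m - s) * w ^ (m - s))

/-- real graded parts -/
noncomputable def TC (m : ℕ) (u v : ℝ) : ℝ :=
  ∑ a ∈ range (m + 1), (AC a * AC (m - a) + BC a * BC (m - a)) * (u ^ a * v ^ (m - a))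

lemma gT1_R {u v w r : ℝ} (hr : r ≤ 3 / 20) (hu : |u| ≤ r) (hv : |v| ≤ r) (hw : |w| ≤ r) :
    |Mu.gT1 (1 / 3) (2 / 5) (1 + u) (1 + v) (1 + w) - ∑ m ∈ range 7, TR m u v w| ≤
      2 / 3 * r ^ 7 := by
  have h := GX3_R hr hu hv hw
  have hu0 : 0 ≤ 1 + u := by linarith [(abs_le.mp hu).1]
  have hv0 : 0 ≤ 1 + v := by linarith [(abs_le.mp hv).1]
  have hw0 : 0 ≤ 1 + w := by linarith [(abs_le.mp hw).1]
  have h1 := Mu.mon_alT (a := 1 / 3) (t := 2 / 5) (by norm_num) hu0 hv0 hw0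
  have h2 : Mu.mon (Mu.alT (1 / 3) (2 / 5)) ![1 + u, 1 + v, 1 + w] =
      ((((1 + u : ℝ) : ℂ) ^ (((1 / 3 : ℝ) : ℂ) + ((2 / 5 : ℝ) : ℂ) * Complex.I)) *
        (((1 + v : ℝ) : ℂ) ^ (((1 / 3 : ℝ) : ℂ) - ((2 / 5 : ℝ) : ℂ) * Complex.I))) *
        (((1 + w : ℝ) : ℂ) ^ (((1 / 3 : ℝ) : ℂ) + ((0 : ℝ) : ℂ) * Complex.I)) := by
    unfold Mu.mon
    rw [Fin.prod_univ_three]
    simp only [Mu.alT, Matrix.cons_val_zero, Matrix.cons_val_one, Matrix.cons_val]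
    congr 2
    push_cast
    ring
  rw [← h1, h2]
  have h3 : (∑ m ∈ range 7, conv (conv
        (fun m => cb (((1 / 3 : ℝ) : ℂ) + ((2 / 5 : ℝ) : ℂ) * Complex.I) m * (u : ℂ) ^ m)
        (fun m => cb (((1 / 3 : ℝ) : ℂ) - ((2 / 5 : ℝ) : ℂ) * Complex.I) m * (v : ℂ) ^ m))
        (fun m => cb (((1 / 3 : ℝ) : ℂ) + ((0 : ℝ) : ℂ) * Complex.I) m * (w : ℂ) ^ m) m).re =
      ∑ m ∈ range 7, TR m u v w := by
    rw [Complex.re_sum]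
    refine Finset.sum_congr rfl (fun m hm => ?_)
    rw [Finset.mem_range] at hm
    rw [conv_congr (F' := conv (fun a => ((AR a : ℂ) + (BR a : ℂ) * Complex.I) * (u : ℂ) ^ a)
      (fun a => ((AR a : ℂ) - (BR a : ℂ) * Complex.I) * (v : ℂ) ^ a))
      (G' := fun a => ((eR a : ℂ) + ((0 : ℝ) : ℂ) * Complex.I) * (w : ℂ) ^ a)
      (fun s hs => conv_congr (fun a ha => by rw [cb_R a (by omega)]) (fun a ha => by
        rw [← conj_al, cb_conj, cb_R a (by omega), conj_al]))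
      (fun a ha => by rw [cb_e a (by omega)]), re_conv3]
    unfold TR
    exact Finset.sum_congr rfl (fun s _ => by rw [re_conv2])
  rw [← h3, ← Complex.sub_re]
  exact (Complex.abs_re_le_norm _).trans h

lemma gT1_C {u v w r : ℝ} (hr : r ≤ 3 / 20) (hu : |u| ≤ r) (hv : |v| ≤ r) (hw : |w| ≤ r) :
    |Mu.gT1 (1 / 2) (1 / 5) (1 + u) (1 + v) (1 + w) - ∑ m ∈ range 7, TC m u v| ≤
      9 / 50 * r ^ 7 := by
  have h := (GX2_C hr hu hv).err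
  have hu0 : 0 ≤ 1 + u := by linarith [(abs_le.mp hu).1]
  have hv0 : 0 ≤ 1 + v := by linarith [(abs_le.mp hv).1]
  have hw0 : 0 ≤ 1 + w := by linarith [(abs_le.mp hw).1]
  have h1 := Mu.mon_alT (a := 1 / 2) (t := 1 / 5) (by norm_num) hu0 hv0 hw0
  have h2 : Mu.mon (Mu.alT (1 / 2) (1 / 5)) ![1 + u, 1 + v, 1 + w] =
      ((((1 + u : ℝ) : ℂ) ^ (((1 / 2 : ℝ) : ℂ) + ((1 / 5 : ℝ) : ℂ) * Complex.I)) *
        (((1 + v : ℝ) : ℂ) ^ (((1 / 2 : ℝ) : ℂ) - ((1 / 5 : ℝ) : ℂ) * Complex.I))) := by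
    unfold Mu.mon
    rw [Fin.prod_univ_three]
    simp only [Mu.alT, Matrix.cons_val_zero, Matrix.cons_val_one, Matrix.cons_val]
    have : (1 - 2 * ((1 / 2 : ℝ) : ℂ)) = 0 := by push_cast; ring
    rw [this, Complex.cpow_zero, mul_one]
  rw [← h1, h2]
  have h3 : (∑ m ∈ range 7, conv
        (fun m => cb (((1 / 2 : ℝ) : ℂ) + ((1 / 5 : ℝ) : ℂ) * Complex.I) m * (u : ℂ) ^ m)
        (fun m => cb (((1 / 2 : ℝ) : ℂ) - ((1 / 5 : ℝ) : ℂ) * Complex.I) m * (v : ℂ) ^ m) m).re =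
      ∑ m ∈ range 7, TC m u v := by
    rw [Complex.re_sum]
    refine Finset.sum_congr rfl (fun m hm => ?_)
    rw [Finset.mem_range] at hm
    rw [conv_congr (F' := (fun a => ((AC a : ℂ) + (BC a : ℂ) * Complex.I) * (u : ℂ) ^ a))
      (G' := (fun a => ((AC a : ℂ) - (BC a : ℂ) * Complex.I) * (v : ℂ) ^ a))
      (fun a ha => by rw [cb_C a (by omega)]) (fun a ha => by
        rw [← conj_al, cb_conj, cb_C a (by omega), conj_al]), re_conv2]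
    rfl
  rw [← h3, ← Complex.sub_re]
  exact (Complex.abs_re_le_norm _).trans h

lemma gE_eq (a t : ℝ) (x : Fin 3 → ℝ) : gE a t x =
    (Mu.gT1 a t (x 1) (x 2) (x 0) + Mu.gT1 a t (x 2) (x 0) (x 1) + Mu.gT1 a t (x 0) (x 1) (x 2)) / 3 := by
  unfold gE Mu.gT1
  rw [Fin.sum_univ_three]
  have e1 : ((0 : Fin 3) + 1) = 1 := rfl
  have e2 : ((0 : Fin 3) + 2) = 2 := rfl
  have e3 : ((1 : Fin 3) + 1) = 2 := rfl
  have e4 : ((1 : Fin 3) + 2) = 0 := rfl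
  have e5 : ((2 : Fin 3) + 1) = 0 := rfl
  have e6 : ((2 : Fin 3) + 2) = 1 := rfl
  rw [e1, e2, e3, e4, e5, e6]
  ring

/-- relation with the notation of `MuThree` -/
lemma gE_eq_gT (a t : ℝ) (x : Fin 3 → ℝ) : gE a t x = Mu.gT a t x := gE_eq a t x

lemma gE_eq_gm {a : ℝ} (ha : 0 < a) (t : ℝ) {x : Fin 3 → ℝ} (hx : ∀ i, 0 ≤ x i) :
    gE a t x = Mu.gm (Mu.alT a t) x := by
  rw [gE_eq_gT, Mu.gm_alT ha t hx]

/-! values of the coefficient sequences -/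

lemma rcAR0 : AR 0 = 1 := rfl
lemma rcAR1 : AR 1 = 1/3 := rfl
lemma rcAR2 : AR 2 = -43/225 := rfl
lemma rcAR3 : AR 3 = 233/2025 := rfl
lemma rcAR4 : AR 4 = -23651/303750 := rfl
lemma rcAR5 : AR 5 = 10351/182250 := rfl
lemma rcAR6 : AR 6 = -22334666/512578125 := rfl
lemma rcBR0 : BR 0 = 0 := rfl
lemma rcBR1 : BR 1 = 2/5 := rfl
lemma rcBR2 : BR 2 = -1/15 := rfl
lemma rcBR3 : BR 3 = 13/1125 := rfl
lemma rcBR4 : BR 4 = 77/20250 := rfl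
lemma rcBR5 : BR 5 = -68477/7593750 := rfl
lemma rcBR6 : BR 6 = 123019/11390625 := rfl
lemma rceR0 : eR 0 = 1 := rfl
lemma rceR1 : eR 1 = 1/3 := rfl
lemma rceR2 : eR 2 = -1/9 := rfl
lemma rceR3 : eR 3 = 5/81 := rfl
lemma rceR4 : eR 4 = -10/243 := rfl
lemma rceR5 : eR 5 = 22/729 := rfl
lemma rceR6 : eR 6 = -154/6561 := rfl
lemma rcAC0 : AC 0 = 1 := rfl
lemma rcAC1 : AC 1 = 1/2 := rfl
lemma rcAC2 : AC 2 = -29/200 := rfl
lemma rcAC3 : AC 3 = 29/400 := rfl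
lemma rcAC4 : AC 4 = -10759/240000 := rfl
lemma rcAC5 : AC 5 = 4959/160000 := rfl
lemma rcAC6 : AC 6 = -16531189/720000000 := rfl
lemma rcBC0 : BC 0 = 0 := rfl
lemma rcBC1 : BC 1 = 1/5 := rfl
lemma rcBC2 : BC 2 = 0 := rfl
lemma rcBC3 : BC 3 = -29/3000 := rfl
lemma rcBC4 : BC 4 = 29/3000 := rfl
lemma rcBC5 : BC 5 = -51359/6000000 := rfl
lemma rcBC6 : BC 6 = 7453/1000000 := rfl

lemma polyR0 (a b c : ℝ) : TR 0 b c a + TR 0 c a b + TR 0 a b c = 3 := by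
  simp [TR, Finset.sum_range_succ, 
    rcAR0, rcAR1, rcAR2, rcAR3, rcAR4, rcAR5, rcAR6,
    rcBR0, rcBR1, rcBR2, rcBR3, rcBR4, rcBR5, rcBR6,
    rceR0, rceR1, rceR2, rceR3, rceR4, rceR5, rceR6]; norm_num

lemma polyR1 (b c : ℝ) : TR 1 b c (-b - c) + TR 1 c (-b - c) b + TR 1 (-b - c) b c = 0 := by
  simp only [TR, Finset.sum_range_succ, Finset.sum_range_zero, Nat.reduceSub, Nat.reduceAdd,
    Nat.sub_zero, Nat.sub_self, 
    rcAR0, rcAR1, rcAR2, rcAR3, rcAR4, rcAR5, rcAR6,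
    rcBR0, rcBR1, rcBR2, rcBR3, rcBR4, rcBR5, rcBR6,
    rceR0, rceR1, rceR2, rceR3, rceR4, rceR5, rceR6]; ring

lemma polyR2 (b c : ℝ) : TR 2 b c (-b - c) + TR 2 c (-b - c) b + TR 2 (-b - c) b c =
    3 * (-(37 / 150) * ((-b - c) ^ 2 + b ^ 2 + c ^ 2)) := by
  simp only [TR, Finset.sum_range_succ, Finset.sum_range_zero, Nat.reduceSub, Nat.reduceAdd,
    Nat.sub_zero, Nat.sub_self, 
    rcAR0, rcAR1, rcAR2, rcAR3, rcAR4, rcAR5, rcAR6,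
    rcBR0, rcBR1, rcBR2, rcBR3, rcBR4, rcBR5, rcBR6,
    rceR0, rceR1, rceR2, rceR3, rceR4, rceR5, rceR6]; ring

lemma polyR3 (b c : ℝ) : TR 3 b c (-b - c) + TR 3 c (-b - c) b + TR 3 (-b - c) b c =
    3 * (43 / 225 * ((-b - c) ^ 3 + b ^ 3 + c ^ 3)) := by
  simp only [TR, Finset.sum_range_succ, Finset.sum_range_zero, Nat.reduceSub, Nat.reduceAdd,
    Nat.sub_zero, Nat.sub_self, 
    rcAR0, rcAR1, rcAR2, rcAR3, rcAR4, rcAR5, rcAR6,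
    rcBR0, rcBR1, rcBR2, rcBR3, rcBR4, rcBR5, rcBR6,
    rceR0, rceR1, rceR2, rceR3, rceR4, rceR5, rceR6]; ring

lemma polyR4 (b c : ℝ) : TR 4 b c (-b - c) + TR 4 c (-b - c) b + TR 4 (-b - c) b c =
    3 * (-(241 / 5625) * ((-b - c) ^ 2 + b ^ 2 + c ^ 2) ^ 2) := by
  simp only [TR, Finset.sum_range_succ, Finset.sum_range_zero, Nat.reduceSub, Nat.reduceAdd,
    Nat.sub_zero, Nat.sub_self, 
    rcAR0, rcAR1, rcAR2, rcAR3, rcAR4, rcAR5, rcAR6,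
    rcBR0, rcBR1, rcBR2, rcBR3, rcBR4, rcBR5, rcBR6,
    rceR0, rceR1, rceR2, rceR3, rceR4, rceR5, rceR6]; ring

lemma polyR5 (b c : ℝ) : TR 5 b c (-b - c) + TR 5 c (-b - c) b + TR 5 (-b - c) b c =
    3 * (1967 / 33750 * (((-b - c) ^ 2 + b ^ 2 + c ^ 2) * ((-b - c) ^ 3 + b ^ 3 + c ^ 3))) := by
  simp only [TR, Finset.sum_range_succ, Finset.sum_range_zero, Nat.reduceSub, Nat.reduceAdd,
    Nat.sub_zero, Nat.sub_self, 
    rcAR0, rcAR1, rcAR2, rcAR3, rcAR4, rcAR5, rcAR6,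
    rcBR0, rcBR1, rcBR2, rcBR3, rcBR4, rcBR5, rcBR6,
    rceR0, rceR1, rceR2, rceR3, rceR4, rceR5, rceR6]; ring

lemma polyR6 (b c : ℝ) : TR 6 b c (-b - c) + TR 6 c (-b - c) b + TR 6 (-b - c) b c =
    3 * (-(580417 / 50625000) * ((-b - c) ^ 2 + b ^ 2 + c ^ 2) ^ 3 -
      242659 / 12656250 * ((-b - c) ^ 3 + b ^ 3 + c ^ 3) ^ 2) := by
  simp only [TR, Finset.sum_range_succ, Finset.sum_range_zero, Nat.reduceSub, Nat.reduceAdd,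
    Nat.sub_zero, Nat.sub_self, 
    rcAR0, rcAR1, rcAR2, rcAR3, rcAR4, rcAR5, rcAR6,
    rcBR0, rcBR1, rcBR2, rcBR3, rcBR4, rcBR5, rcBR6,
    rceR0, rceR1, rceR2, rceR3, rceR4, rceR5, rceR6]; ring

lemma polyC0 (a b c : ℝ) : TC 0 b c + TC 0 c a + TC 0 a b = 3 := by
  simp [TC, Finset.sum_range_succ, 
    rcAC0, rcAC1, rcAC2, rcAC3, rcAC4, rcAC5, rcAC6,
    rcBC0, rcBC1, rcBC2, rcBC3, rcBC4, rcBC5, rcBC6]; norm_num

lemma polyC1 (b c : ℝ) : TC 1 b c + TC 1 c (-b - c) + TC 1 (-b - c) b = 0 := by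
  simp only [TC, Finset.sum_range_succ, Finset.sum_range_zero, Nat.reduceSub, Nat.reduceAdd,
    Nat.sub_zero, Nat.sub_self, 
    rcAC0, rcAC1, rcAC2, rcAC3, rcAC4, rcAC5, rcAC6,
    rcBC0, rcBC1, rcBC2, rcBC3, rcBC4, rcBC5, rcBC6]; ring

lemma polyC2 (b c : ℝ) : TC 2 b c + TC 2 c (-b - c) + TC 2 (-b - c) b =
    3 * (-(29 / 200) * ((-b - c) ^ 2 + b ^ 2 + c ^ 2)) := by
  simp only [TC, Finset.sum_range_succ, Finset.sum_range_zero, Nat.reduceSub, Nat.reduceAdd,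
    Nat.sub_zero, Nat.sub_self, 
    rcAC0, rcAC1, rcAC2, rcAC3, rcAC4, rcAC5, rcAC6,
    rcBC0, rcBC1, rcBC2, rcBC3, rcBC4, rcBC5, rcBC6]; ring

lemma polyC3 (b c : ℝ) : TC 3 b c + TC 3 c (-b - c) + TC 3 (-b - c) b =
    3 * (29 / 400 * ((-b - c) ^ 3 + b ^ 3 + c ^ 3)) := by
  simp only [TC, Finset.sum_range_succ, Finset.sum_range_zero, Nat.reduceSub, Nat.reduceAdd,
    Nat.sub_zero, Nat.sub_self, 
    rcAC0, rcAC1, rcAC2, rcAC3, rcAC4, rcAC5, rcAC6,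
    rcBC0, rcBC1, rcBC2, rcBC3, rcBC4, rcBC5, rcBC6]; ring

lemma polyC4 (b c : ℝ) : TC 4 b c + TC 4 c (-b - c) + TC 4 (-b - c) b =
    3 * (-(9077 / 480000) * ((-b - c) ^ 2 + b ^ 2 + c ^ 2) ^ 2) := by
  simp only [TC, Finset.sum_range_succ, Finset.sum_range_zero, Nat.reduceSub, Nat.reduceAdd,
    Nat.sub_zero, Nat.sub_self, 
    rcAC0, rcAC1, rcAC2, rcAC3, rcAC4, rcAC5, rcAC6,
    rcBC0, rcBC1, rcBC2, rcBC3, rcBC4, rcBC5, rcBC6]; ring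

lemma polyC5 (b c : ℝ) : TC 5 b c + TC 5 c (-b - c) + TC 5 (-b - c) b =
    3 * (21431 / 960000 * (((-b - c) ^ 2 + b ^ 2 + c ^ 2) * ((-b - c) ^ 3 + b ^ 3 + c ^ 3))) := by
  simp only [TC, Finset.sum_range_succ, Finset.sum_range_zero, Nat.reduceSub, Nat.reduceAdd,
    Nat.sub_zero, Nat.sub_self, 
    rcAC0, rcAC1, rcAC2, rcAC3, rcAC4, rcAC5, rcAC6,
    rcBC0, rcBC1, rcBC2, rcBC3, rcBC4, rcBC5, rcBC6]; ring

lemma polyC6 (b c : ℝ) : TC 6 b c + TC 6 c (-b - c) + TC 6 (-b - c) b =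
    3 * (-(13411079 / 2880000000) * ((-b - c) ^ 2 + b ^ 2 + c ^ 2) ^ 3 -
      540937 / 80000000 * ((-b - c) ^ 3 + b ^ 3 + c ^ 3) ^ 2) := by
  simp only [TC, Finset.sum_range_succ, Finset.sum_range_zero, Nat.reduceSub, Nat.reduceAdd,
    Nat.sub_zero, Nat.sub_self, 
    rcAC0, rcAC1, rcAC2, rcAC3, rcAC4, rcAC5, rcAC6,
    rcBC0, rcBC1, rcBC2, rcBC3, rcBC4, rcBC5, rcBC6]; ring

theorem nearR {y : Fin 3 → ℝ} (h0 : y 0 + y 1 + y 2 = 0) {r : ℝ} (hr : r ≤ 3 / 20)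
    (hy : ∀ k, |y k| ≤ r) :
    |1 - gE (1 / 3) (2 / 5) (fun k => 1 + y k) - (37 / 150 * P2 y - 43 / 225 * P3 y
      + 241 / 5625 * P2 y ^ 2 - 1967 / 33750 * (P2 y * P3 y) + 580417 / 50625000 * P2 y ^ 3
      + 242659 / 12656250 * P3 y ^ 2)| ≤ 2 / 3 * r ^ 7 := by
  have hy0 : y 0 = -y 1 - y 2 := by linarith
  have h1 := gT1_R hr (hy 1) (hy 2) (hy 0)
  have h2 := gT1_R hr (hy 2) (hy 0) (hy 1)
  have h3 := gT1_R hr (hy 0) (hy 1) (hy 2)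
  rw [gE_eq]
  have e : 1 - (Mu.gT1 (1 / 3) (2 / 5) (1 + y 1) (1 + y 2) (1 + y 0) +
      Mu.gT1 (1 / 3) (2 / 5) (1 + y 2) (1 + y 0) (1 + y 1) +
      Mu.gT1 (1 / 3) (2 / 5) (1 + y 0) (1 + y 1) (1 + y 2)) / 3 -
      (37 / 150 * P2 y - 43 / 225 * P3 y
      + 241 / 5625 * P2 y ^ 2 - 1967 / 33750 * (P2 y * P3 y) + 580417 / 50625000 * P2 y ^ 3
      + 242659 / 12656250 * P3 y ^ 2) =
      -((Mu.gT1 (1 / 3) (2 / 5) (1 + y 1) (1 + y 2) (1 + y 0) -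
          ∑ m ∈ range 7, TR m (y 1) (y 2) (y 0)) +
        (Mu.gT1 (1 / 3) (2 / 5) (1 + y 2) (1 + y 0) (1 + y 1) -
          ∑ m ∈ range 7, TR m (y 2) (y 0) (y 1)) +
        (Mu.gT1 (1 / 3) (2 / 5) (1 + y 0) (1 + y 1) (1 + y 2) -
          ∑ m ∈ range 7, TR m (y 0) (y 1) (y 2))) / 3 := by
    have p0 := polyR0 (y 0) (y 1) (y 2)
    have p1 := polyR1 (y 1) (y 2)
    have p2 := polyR2 (y 1) (y 2)
    have p3 := polyR3 (y 1) (y 2)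
    have p4 := polyR4 (y 1) (y 2)
    have p5 := polyR5 (y 1) (y 2)
    have p6 := polyR6 (y 1) (y 2)
    rw [← hy0] at p1 p2 p3 p4 p5 p6
    simp only [Finset.sum_range_succ, Finset.sum_range_zero]
    unfold P2 P3
    linarith
  rw [e, abs_div, abs_neg]
  have h4 := abs_add_three (Mu.gT1 (1 / 3) (2 / 5) (1 + y 1) (1 + y 2) (1 + y 0) -
          ∑ m ∈ range 7, TR m (y 1) (y 2) (y 0))
        (Mu.gT1 (1 / 3) (2 / 5) (1 + y 2) (1 + y 0) (1 + y 1) -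
          ∑ m ∈ range 7, TR m (y 2) (y 0) (y 1))
        (Mu.gT1 (1 / 3) (2 / 5) (1 + y 0) (1 + y 1) (1 + y 2) -
          ∑ m ∈ range 7, TR m (y 0) (y 1) (y 2))
  rw [abs_of_pos (by norm_num : (0:ℝ) < 3), div_le_iff₀ (by norm_num)]
  linarith

theorem nearC {y : Fin 3 → ℝ} (h0 : y 0 + y 1 + y 2 = 0) {r : ℝ} (hr : r ≤ 3 / 20)
    (hy : ∀ k, |y k| ≤ r) :
    |1 - gE (1 / 2) (1 / 5) (fun k => 1 + y k) - (29 / 200 * P2 y - 29 / 400 * P3 y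
      + 9077 / 480000 * P2 y ^ 2 - 21431 / 960000 * (P2 y * P3 y) + 13411079 / 2880000000 * P2 y ^ 3
      + 540937 / 80000000 * P3 y ^ 2)| ≤ 9 / 50 * r ^ 7 := by
  have hy0 : y 0 = -y 1 - y 2 := by linarith
  have h1 := gT1_C hr (hy 1) (hy 2) (hy 0)
  have h2 := gT1_C hr (hy 2) (hy 0) (hy 1)
  have h3 := gT1_C hr (hy 0) (hy 1) (hy 2)
  rw [gE_eq]
  have e : 1 - (Mu.gT1 (1 / 2) (1 / 5) (1 + y 1) (1 + y 2) (1 + y 0) +
      Mu.gT1 (1 / 2) (1 / 5) (1 + y 2) (1 + y 0) (1 + y 1) +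
      Mu.gT1 (1 / 2) (1 / 5) (1 + y 0) (1 + y 1) (1 + y 2)) / 3 -
      (29 / 200 * P2 y - 29 / 400 * P3 y
      + 9077 / 480000 * P2 y ^ 2 - 21431 / 960000 * (P2 y * P3 y) + 13411079 / 2880000000 * P2 y ^ 3
      + 540937 / 80000000 * P3 y ^ 2) =
      -((Mu.gT1 (1 / 2) (1 / 5) (1 + y 1) (1 + y 2) (1 + y 0) -
          ∑ m ∈ range 7, TC m (y 1) (y 2)) +
        (Mu.gT1 (1 / 2) (1 / 5) (1 + y 2) (1 + y 0) (1 + y 1) -
          ∑ m ∈ range 7, TC m (y 2) (y 0)) +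
        (Mu.gT1 (1 / 2) (1 / 5) (1 + y 0) (1 + y 1) (1 + y 2) -
          ∑ m ∈ range 7, TC m (y 0) (y 1))) / 3 := by
    have p0 := polyC0 (y 0) (y 1) (y 2)
    have p1 := polyC1 (y 1) (y 2)
    have p2 := polyC2 (y 1) (y 2)
    have p3 := polyC3 (y 1) (y 2)
    have p4 := polyC4 (y 1) (y 2)
    have p5 := polyC5 (y 1) (y 2)
    have p6 := polyC6 (y 1) (y 2)
    rw [← hy0] at p1 p2 p3 p4 p5 p6
    simp only [Finset.sum_range_succ, Finset.sum_range_zero]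
    unfold P2 P3
    linarith
  rw [e, abs_div, abs_neg]
  have h4 := abs_add_three (Mu.gT1 (1 / 2) (1 / 5) (1 + y 1) (1 + y 2) (1 + y 0) -
          ∑ m ∈ range 7, TC m (y 1) (y 2))
        (Mu.gT1 (1 / 2) (1 / 5) (1 + y 2) (1 + y 0) (1 + y 1) -
          ∑ m ∈ range 7, TC m (y 2) (y 0))
        (Mu.gT1 (1 / 2) (1 / 5) (1 + y 0) (1 + y 1) (1 + y 2) -
          ∑ m ∈ range 7, TC m (y 0) (y 1))
  rw [abs_of_pos (by norm_num : (0:ℝ) < 3), div_le_iff₀ (by norm_num)]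
  linarith

end Vale.Agent.P154.Near
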