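import Mathlib

/-!
# Taylor expansion of complex powers with explicit remainder
-/

namespace Vale.Agent.P154.Near

open Finset

/-- generalised binomial coefficient -/
noncomputable def cb (al : ℂ) (n : ℕ) : ℂ := ∏ j ∈ range n, (al - j) / (j + 1)

/-- Taylor remainder -/
noncomputable def trem (al : ℂ) (n : ℕ) (y : ℝ) : ℂ :=
  ((1 + y : ℝ) : ℂ) ^ al - ∑ k ∈ range n, cb al k * (y : ℂ) ^ k

lemma cb_succ (al : ℂ) (n : ℕ) : cb al (n + 1) = cb al n * ((al - n) / (n + 1)) :=
  Finset.prod_range_succ _ _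

lemma cb_shift (al : ℂ) (n : ℕ) : cb al (n + 1) * ((n : ℂ) + 1) = al * cb (al - 1) n := by
  induction n with
  | zero => simp [cb]
  | succ n ih =>
    rw [cb_succ al (n + 1), cb_succ (al - 1) n]
    have h1 : ((n : ℂ) + 1) ≠ 0 := by exact_mod_cast Nat.succ_ne_zero n
    have h2 : (((n + 1 : ℕ) : ℂ) + 1) ≠ 0 := by exact_mod_cast Nat.succ_ne_zero (n + 1)
    have h3 : al * (cb (al - 1) n * ((al - 1 - n) / (n + 1))) =
        cb al (n + 1) * (al - 1 - n) := by
      rw [← mul_assoc, ← ih]
      field_simp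
    rw [h3, mul_assoc, div_mul_cancel₀ _ h2]
    push_cast
    ring

lemma trem_deriv (al : ℂ) (n : ℕ) (y : ℝ) {s : ℝ} (hs : 0 < 1 + s * y) :
    HasDerivAt (fun s : ℝ => trem al (n + 1) (s * y)) (y * (al * trem (al - 1) n (s * y))) s := by
  have h1 : HasDerivAt (fun z : ℂ => 1 + z * (y : ℂ)) (y : ℂ) (s : ℂ) := by
    have := ((hasDerivAt_id (s : ℂ)).mul_const (y : ℂ)).const_add 1
    simpa using this
  have hsl : (1 + (s : ℂ) * (y : ℂ)) ∈ Complex.slitPlane := by
    rw [← Complex.ofReal_mul, ← Complex.ofReal_one, ← Complex.ofReal_add]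
    exact Complex.ofReal_mem_slitPlane.mpr hs
  have h2 := h1.cpow_const (c := al) hsl
  have h3 : ∀ k : ℕ, HasDerivAt (fun z : ℂ => cb al k * (z * (y : ℂ)) ^ k)
      (cb al k * (k * ((s : ℂ) * y) ^ (k - 1) * y)) (s : ℂ) := by
    intro k
    have h4 : HasDerivAt (fun z : ℂ => z * (y : ℂ)) (y : ℂ) (s : ℂ) := by
      have := (hasDerivAt_id (s : ℂ)).mul_const (y : ℂ)
      simpa using this
    exact (h4.pow k).const_mul (cb al k)
  have h5 := HasDerivAt.fun_sum (u := range (n + 1)) (fun k _ => h3 k)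
  have h6 := (h2.sub h5).comp_ofReal
  have e2 : al * (1 + (s : ℂ) * y) ^ (al - 1) * y -
      ∑ k ∈ range (n + 1), cb al k * (k * ((s : ℂ) * y) ^ (k - 1) * y) =
      y * (al * trem (al - 1) n (s * y)) := by
    unfold trem
    rw [Finset.sum_range_succ']
    simp only [Nat.cast_zero, zero_mul, mul_zero, add_zero, Nat.add_sub_cancel]
    have e3 : ∀ k ∈ range n, cb al (k + 1) * (((k + 1 : ℕ) : ℂ) * ((s : ℂ) * y) ^ k * y) =
        y * (al * (cb (al - 1) k * (((s * y : ℝ) : ℂ)) ^ k)) := by
      intro k _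
      have h := cb_shift al k
      push_cast
      calc cb al (k + 1) * (((k : ℂ) + 1) * ((s : ℂ) * y) ^ k * y)
          = (cb al (k + 1) * ((k : ℂ) + 1)) * (((s : ℂ) * y) ^ k * y) := by ring
        _ = (al * cb (al - 1) k) * (((s : ℂ) * y) ^ k * y) := by rw [h]
        _ = _ := by ring
    rw [Finset.sum_congr rfl e3, ← Finset.mul_sum, ← Finset.mul_sum]
    push_cast
    ring
  rw [e2] at h6
  refine h6.congr_of_eventuallyEq (Filter.Eventually.of_forall (fun z => ?_))
  unfold trem
  simp only [Pi.sub_apply]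
  push_cast
  rfl

lemma trem_bound : ∀ (n : ℕ) (al : ℂ), al.re ≤ n → ∀ {y r : ℝ}, r < 1 → |y| ≤ r →
    ‖trem al n y‖ ≤ ‖cb al n‖ * |y| ^ n * (1 - r) ^ (al.re - n) := by
  intro n
  induction n with
  | zero =>
    intro al hal y r hr hy
    have h1 : 0 < 1 - r := by linarith
    have h2 : 1 - r ≤ 1 + y := by linarith [(abs_le.mp hy).1]
    unfold trem cb
    simp only [range_zero, sum_empty, sub_zero, prod_empty, norm_one, pow_zero, mul_one, one_mul,
      Nat.cast_zero]
    rw [Complex.norm_cpow_eq_rpow_re_of_pos (h1.trans_le h2)]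
    exact Real.rpow_le_rpow_of_nonpos h1 h2 (by simpa using hal)
  | succ n ih =>
    intro al hal y r hr hy
    have hr0 : 0 ≤ r := (abs_nonneg y).trans hy
    have h1 : 0 < 1 - r := by linarith
    set C : ℝ := ‖cb al (n + 1)‖ * |y| ^ (n + 1) * (1 - r) ^ (al.re - (n + 1 : ℕ)) with hC
    have hpos : ∀ s : ℝ, 0 ≤ s → s ≤ 1 → 0 < 1 + s * y := by
      intro s h0 h1'
      have : |s * y| ≤ r := by
        rw [abs_mul, abs_of_nonneg h0]
        calc s * |y| ≤ 1 * |y| := mul_le_mul_of_nonneg_right h1' (abs_nonneg _)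
          _ ≤ r := by rw [one_mul]; exact hy
      linarith [(abs_le.mp this).1]
    have key := image_norm_le_of_norm_deriv_right_le_deriv_boundary
      (f := fun s : ℝ => trem al (n + 1) (s * y))
      (f' := fun s : ℝ => y * (al * trem (al - 1) n (s * y))) (a := 0) (b := 1)
      (fun s hs => (trem_deriv al n y (hpos s hs.1 hs.2)).continuousAt.continuousWithinAt)
      (fun s hs => (trem_deriv al n y (hpos s hs.1 hs.2.le)).hasDerivWithinAt)
      (B := fun s => C * s ^ (n + 1)) (B' := fun s => C * ((n + 1 : ℕ) * s ^ n))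
      (by
        simp only [zero_mul]
        have : trem al (n + 1) 0 = 0 := by
          unfold trem
          rw [Finset.sum_range_succ']
          simp [cb]
        rw [this]; simp)
      (fun s => by
        have := (hasDerivAt_pow (n + 1) s).const_mul C
        simpa using this)
      (fun s hs => by
        have hsy : |s * y| ≤ r := by
          rw [abs_mul, abs_of_nonneg hs.1]
          calc s * |y| ≤ 1 * |y| := mul_le_mul_of_nonneg_right hs.2.le (abs_nonneg _)
            _ ≤ r := by rw [one_mul]; exact hy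
        have h2 := ih (al - 1) (by
          simp only [Complex.sub_re, Complex.one_re]
          push_cast at hal
          linarith) hr hsy
        have hsh := congrArg norm (cb_shift al n)
        rw [norm_mul, norm_mul] at hsh
        have hn1 : ‖(n : ℂ) + 1‖ = (n : ℝ) + 1 := by
          have : ((n : ℂ) + 1) = (((n : ℝ) + 1 : ℝ) : ℂ) := by push_cast; rfl
          rw [this, Complex.norm_real, Real.norm_of_nonneg (by positivity)]
        rw [hn1] at hsh
        rw [norm_mul, norm_mul, Complex.norm_real, Real.norm_eq_abs]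
        have e1 : (al - 1).re - (n : ℝ) = al.re - ((n + 1 : ℕ) : ℝ) := by
          simp only [Complex.sub_re, Complex.one_re]
          push_cast; ring
        rw [e1] at h2
        have hnn : 0 ≤ |y| * ‖al‖ := by positivity
        have h3 := mul_le_mul_of_nonneg_left h2 hnn
        calc |y| * (‖al‖ * ‖trem (al - 1) n (s * y)‖)
            = |y| * ‖al‖ * ‖trem (al - 1) n (s * y)‖ := by ring
          _ ≤ |y| * ‖al‖ * (‖cb (al - 1) n‖ * |s * y| ^ n * (1 - r) ^ (al.re - ((n + 1 : ℕ) : ℝ))) :=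
              h3
          _ = |y| * (‖al‖ * ‖cb (al - 1) n‖) * |s * y| ^ n *
              (1 - r) ^ (al.re - ((n + 1 : ℕ) : ℝ)) := by ring
          _ = C * ((n + 1 : ℕ) * s ^ n) := by
              rw [← hsh, hC, abs_mul, abs_of_nonneg hs.1]
              push_cast
              ring)
    have h4 := key (x := 1) ⟨zero_le_one, le_rfl⟩
    simpa using h4

/-- Taylor expansion of complex powers with explicit remainder. -/
theorem cpow_taylor (al : ℂ) (_h0 : 0 ≤ al.re) (h1 : al.re ≤ 1) {y r : ℝ} (hr : r < 1)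
    (hy : |y| ≤ r) (n : ℕ) (hn : 1 ≤ n) :
    ‖((1 + y : ℝ) : ℂ) ^ al - ∑ k ∈ Finset.range n,
      (∏ j ∈ Finset.range k, (al - j) / (j + 1)) * (y : ℂ) ^ k‖
      ≤ ‖∏ j ∈ Finset.range n, (al - j) / (j + 1)‖ * |y| ^ n * (1 - r) ^ (al.re - n) := by
  refine trem_bound n al ?_ hr hy
  have : (1 : ℝ) ≤ n := by exact_mod_cast hn
  linarith

end Vale.Agent.P154.Near
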