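import Vale.Agent.P154.PkSem

/-!
# Packed forms: closure under the operations (task PK-A)
-/

namespace Vale.Agent.P154.Pk

open Polynomial

variable {s t : ℝ}

theorem DegLe.mono {k l : ℕ} {f : BP} (h : DegLe k f) (hkl : k ≤ l) : DegLe l f :=
  fun j => (h j).trans hkl

theorem DegLe.add {k : ℕ} {f g : BP} (hf : DegLe k f) (hg : DegLe k g) : DegLe k (f + g) := by
  intro j
  rw [coeff_add]
  exact (natDegree_add_le _ _).trans (max_le (hf j) (hg j))

theorem DegLe.mul {k l : ℕ} {f g : BP} (hf : DegLe k f) (hg : DegLe l g) :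
    DegLe (k + l) (f * g) := by
  intro j
  rw [coeff_mul]
  refine natDegree_sum_le_of_forall_le _ _ ?_
  intro p _
  exact natDegree_mul_le.trans (add_le_add (hf p.1) (hg p.2))

theorem DegLe.nsmul {k : ℕ} {f : BP} (m : ℕ) (hf : DegLe k f) : DegLe k (m • f) := by
  intro j
  rw [coeff_smul]
  exact (natDegree_smul_le _ _).trans (hf j)

theorem DegLe.cst (p : ℕ) : DegLe 0 (C (C p) : BP) := by
  intro j
  rw [coeff_C]
  split_ifs
  · simp
  · simp

theorem abs_eval₂_le (hs : |s| ≤ 1) (a : Polynomial ℕ) :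
    |Polynomial.eval₂ (Nat.castRingHom ℝ) s a| ≤ ((Polynomial.eval 1 a : ℕ) : ℝ) := by
  induction a using Polynomial.induction_on' with
  | add p q hp hq =>
    rw [eval₂_add, eval_add, Nat.cast_add]
    exact (abs_add_le _ _).trans (add_le_add hp hq)
  | monomial n a =>
    rw [eval₂_monomial, eval_monomial, abs_mul, abs_pow, one_pow, mul_one]
    have h1 : |(Nat.castRingHom ℝ) a| = (a : ℝ) := by
      simp
    rw [h1]
    have h2 : |s| ^ n ≤ 1 := pow_le_one₀ (abs_nonneg _) hs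
    nlinarith [Nat.cast_nonneg (α := ℝ) a]

theorem abs_evR_le (hs : |s| ≤ 1) (ht : |t| ≤ 1) (f : BP) :
    |evR s t f| ≤ ((evN 1 1 f : ℕ) : ℝ) := by
  induction f using Polynomial.induction_on' with
  | add p q hp hq =>
    rw [map_add, map_add, Nat.cast_add]
    exact (abs_add_le _ _).trans (add_le_add hp hq)
  | monomial n a =>
    have h1 : evR s t (monomial n a) = Polynomial.eval₂ (Nat.castRingHom ℝ) s a * t ^ n := by
      simp [evR]
    have h2 : evN 1 1 (monomial n a) = Polynomial.eval 1 a := by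
      simp [evN]
    rw [h1, h2, abs_mul, abs_pow]
    have h3 : |t| ^ n ≤ 1 := pow_le_one₀ (abs_nonneg _) ht
    have h4 := abs_eval₂_le hs a
    have h5 : (0 : ℝ) ≤ |t| ^ n := pow_nonneg (abs_nonneg _) _
    calc |Polynomial.eval₂ (Nat.castRingHom ℝ) s a| * |t| ^ n
        ≤ |Polynomial.eval₂ (Nat.castRingHom ℝ) s a| * 1 :=
          mul_le_mul_of_nonneg_left h3 (abs_nonneg _)
      _ ≤ _ := by rw [mul_one]; exact h4

theorem HH.mono {k l : ℕ} {F : Pk} {x : ℝ} (h : HH s t k F x) (hkl : k ≤ l) : HH s t l F x := by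
  obtain ⟨f, g, h1, h2, h3, h4, h5, h6⟩ := h
  exact ⟨f, g, h1, h2, h3, h4.mono hkl, h5.mono hkl, h6⟩

theorem HH.add {k : ℕ} {F G : Pk} {x y : ℝ} (hF : HH s t k F x) (hG : HH s t k G y) :
    HH s t k (F.add G) (x + y) := by
  obtain ⟨f, g, h1, h2, h3, h4, h5, h6⟩ := hF
  obtain ⟨f', g', h1', h2', h3', h4', h5', h6'⟩ := hG
  refine ⟨f + f', g + g', ?_, ?_, ?_, h4.add h4', h5.add h5', ?_⟩
  · rw [map_add, ← h1, ← h1']; rfl
  · rw [map_add, ← h2, ← h2']; rfl
  · rw [map_add, map_add]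
    have : (F.add G).N = F.N + G.N := rfl
    rw [this]
    omega
  · rw [map_add, map_add]
    have : (F.add G).e = F.e + G.e := rfl
    rw [this, Nat.cast_add]
    rw [abs_le] at h6 h6' ⊢
    constructor <;> linarith [h6.1, h6.2, h6'.1, h6'.2]

theorem HH.neg {k : ℕ} {F : Pk} {x : ℝ} (hF : HH s t k F x) : HH s t k F.neg (-x) := by
  obtain ⟨f, g, h1, h2, h3, h4, h5, h6⟩ := hF
  refine ⟨g, f, h2, h1, ?_, h5, h4, ?_⟩
  · have : F.neg.N = F.N := rfl
    rw [this]
    omega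
  · have : F.neg.e = F.e := rfl
    rw [this]
    rw [abs_le] at h6 ⊢
    constructor <;> linarith [h6.1, h6.2]

theorem HH.mul (hs : |s| ≤ 1) (ht : |t| ≤ 1) {k l : ℕ} {F G : Pk} {x y : ℝ}
    (hF : HH s t k F x) (hG : HH s t l G y) : HH s t (k + l) (F.mul G) (x * y) := by
  obtain ⟨f, g, h1, h2, h3, h4, h5, h6⟩ := hF
  obtain ⟨f', g', h1', h2', h3', h4', h5', h6'⟩ := hG
  refine ⟨f * f' + g * g', f * g' + g * f', ?_, ?_, ?_, (h4.mul h4').add (h5.mul h5'),
    (h4.mul h5').add (h5.mul h4'), ?_⟩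
  · rw [map_add, map_mul, map_mul, ← h1, ← h1', ← h2, ← h2']; rfl
  · rw [map_add, map_mul, map_mul, ← h1, ← h1', ← h2, ← h2']; rfl
  · rw [map_add, map_add, map_mul, map_mul, map_mul, map_mul]
    have : (F.mul G).N = F.N * G.N := rfl
    rw [this]
    calc evN 1 1 f * evN 1 1 f' + evN 1 1 g * evN 1 1 g' +
          (evN 1 1 f * evN 1 1 g' + evN 1 1 g * evN 1 1 f')
        = (evN 1 1 f + evN 1 1 g) * (evN 1 1 f' + evN 1 1 g') := by ring
      _ ≤ F.N * G.N := Nat.mul_le_mul h3 h3'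
  · rw [map_add, map_add, map_mul, map_mul, map_mul, map_mul]
    have he : (F.mul G).e = F.e * (G.N + G.e) + G.e * F.N := rfl
    rw [he]
    push_cast
    have hf := abs_evR_le hs ht f
    have hg := abs_evR_le hs ht g
    have hf' := abs_evR_le hs ht f'
    have hg' := abs_evR_le hs ht g'
    have hN : ((evN 1 1 f : ℕ) : ℝ) + ((evN 1 1 g : ℕ) : ℝ) ≤ (F.N : ℝ) := by
      exact_mod_cast h3
    have hN' : ((evN 1 1 f' : ℕ) : ℝ) + ((evN 1 1 g' : ℕ) : ℝ) ≤ (G.N : ℝ) := by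
      exact_mod_cast h3'
    set P := evR s t f - evR s t g with hP
    set Q := evR s t f' - evR s t g' with hQ
    have hPN : |P| ≤ F.N := by
      refine (abs_sub _ _).trans ?_
      linarith
    have hQN : |Q| ≤ G.N := by
      refine (abs_sub _ _).trans ?_
      linarith
    have hy : |y| ≤ G.N + G.e := by
      have : y = Q + (y - Q) := by ring
      rw [this]
      refine (abs_add_le _ _).trans ?_
      linarith
    have e1 : x * y - (evR s t f * evR s t f' + evR s t g * evR s t g' -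
        (evR s t f * evR s t g' + evR s t g * evR s t f')) = (x - P) * y + P * (y - Q) := by
      rw [hP, hQ]
      ring
    rw [e1]
    refine (abs_add_le _ _).trans ?_
    rw [abs_mul, abs_mul]
    have a1 : |x - P| * |y| ≤ F.e * (G.N + G.e) :=
      mul_le_mul h6 hy (abs_nonneg _) (Nat.cast_nonneg _)
    have a2 : |P| * |y - Q| ≤ F.N * G.e :=
      mul_le_mul hPN h6' (abs_nonneg _) (Nat.cast_nonneg _)
    linarith

theorem HH.sc {k : ℕ} {F : Pk} {x : ℝ} (m : ℕ) (hF : HH s t k F x) :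
    HH s t k (Pk.sc m F) (m * x) := by
  obtain ⟨f, g, h1, h2, h3, h4, h5, h6⟩ := hF
  refine ⟨m • f, m • g, ?_, ?_, ?_, h4.nsmul m, h5.nsmul m, ?_⟩
  · rw [map_nsmul, ← h1, smul_eq_mul]; rfl
  · rw [map_nsmul, ← h2, smul_eq_mul]; rfl
  · rw [map_nsmul, map_nsmul, smul_eq_mul, smul_eq_mul, ← mul_add]
    exact Nat.mul_le_mul_left m h3
  · rw [map_nsmul, map_nsmul, nsmul_eq_mul, nsmul_eq_mul]
    have : (Pk.sc m F).e = m * F.e := rfl
    rw [this, Nat.cast_mul]
    have e1 : (m : ℝ) * x - (m * evR s t f - m * evR s t g) =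
        m * (x - (evR s t f - evR s t g)) := by ring
    rw [e1, abs_mul, Nat.abs_cast]
    exact mul_le_mul_of_nonneg_left h6 (Nat.cast_nonneg _)

theorem HH.sm {k : ℕ} {F : Pk} {x : ℝ} (m : Sg) (hF : HH s t k F x) :
    HH s t k (sm m F) (((m.p : ℝ) - m.n) * x) := by
  obtain ⟨f, g, h1, h2, h3, h4, h5, h6⟩ := hF
  refine ⟨m.p • f + m.n • g, m.p • g + m.n • f, ?_, ?_, ?_, (h4.nsmul _).add (h5.nsmul _),
    (h5.nsmul _).add (h4.nsmul _), ?_⟩
  · rw [map_add, map_nsmul, map_nsmul, ← h1, ← h2, smul_eq_mul, smul_eq_mul]; rfl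
  · rw [map_add, map_nsmul, map_nsmul, ← h1, ← h2, smul_eq_mul, smul_eq_mul]; rfl
  · rw [map_add, map_add, map_nsmul, map_nsmul, map_nsmul, map_nsmul]
    simp only [smul_eq_mul]
    have : (Pk.sm m F).N = (m.p + m.n) * F.N := rfl
    rw [this]
    calc m.p * evN 1 1 f + m.n * evN 1 1 g + (m.p * evN 1 1 g + m.n * evN 1 1 f)
        = (m.p + m.n) * (evN 1 1 f + evN 1 1 g) := by ring
      _ ≤ _ := Nat.mul_le_mul_left _ h3
  · rw [map_add, map_add, map_nsmul, map_nsmul, map_nsmul, map_nsmul]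
    simp only [nsmul_eq_mul]
    have : (Pk.sm m F).e = (m.p + m.n) * F.e := rfl
    rw [this, Nat.cast_mul, Nat.cast_add]
    have e1 : ((m.p : ℝ) - m.n) * x - (m.p * evR s t f + m.n * evR s t g -
        (m.p * evR s t g + m.n * evR s t f)) =
        ((m.p : ℝ) - m.n) * (x - (evR s t f - evR s t g)) := by ring
    rw [e1, abs_mul]
    refine mul_le_mul ?_ h6 (abs_nonneg _) (by positivity)
    refine (abs_sub _ _).trans ?_
    rw [Nat.abs_cast, Nat.abs_cast]

theorem HH.cst (p n e : ℕ) {x : ℝ} (h : |x - ((p : ℝ) - n)| ≤ e) : HH s t 0 (cst p n e) x := by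
  refine ⟨C (C p), C (C n), ?_, ?_, ?_, DegLe.cst p, DegLe.cst n, ?_⟩
  · have : evN BX BY (C (C p)) = p := by simp [evN]
    rw [this]
    rfl
  · have : evN BX BY (C (C n)) = n := by simp [evN]
    rw [this]
    rfl
  · have h1 : evN 1 1 (C (C p)) = p := by simp [evN]
    have h2 : evN 1 1 (C (C n)) = n := by simp [evN]
    rw [h1, h2]
    exact le_refl _
  · have h1 : evR s t (C (C p)) = (p : ℝ) := by simp [evR]
    have h2 : evR s t (C (C n)) = (n : ℝ) := by simp [evR]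
    rw [h1, h2]
    exact h

/-- enlarging the error -/
theorem HH.err {k : ℕ} {F : Pk} {x y : ℝ} {e : ℕ} (hF : HH s t k F x) (h : |y - x| + F.e ≤ e) :
    HH s t k ⟨F.p, F.n, F.N, e⟩ y := by
  obtain ⟨f, g, h1, h2, h3, h4, h5, h6⟩ := hF
  refine ⟨f, g, h1, h2, h3, h4, h5, ?_⟩
  have e1 : y - (evR s t f - evR s t g) = (y - x) + (x - (evR s t f - evR s t g)) := by ring
  rw [e1]
  refine (abs_add_le _ _).trans ?_
  show |y - x| + |x - (evR s t f - evR s t g)| ≤ (e : ℝ)
  linarith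

/-- the polynomial of an affine form -/
noncomputable def affP (c a b : ℕ) : BP := C (C c) + C (C a * X) + C (C b) * X

theorem evN_affP (x y c a b : ℕ) : evN x y (affP c a b) = c + a * x + b * y := by
  simp [evN, affP]

theorem evR_affP (c a b : ℕ) : evR s t (affP c a b) = (c : ℝ) + a * s + b * t := by
  simp [evR, affP]

theorem degLe_affP (c a b : ℕ) : DegLe 1 (affP c a b) := by
  intro j
  have h0 : (affP c a b).coeff j =
      (if j = 0 then C c else 0) + (if j = 0 then C a * X else 0) +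
        (if j = 1 then C b else 0) := by
    unfold affP
    rw [coeff_add, coeff_add, coeff_C, coeff_C, coeff_C_mul, coeff_X]
    congr 1
    by_cases h : j = 1
    · simp [h]
    · rw [if_neg h, if_neg (fun h' => h h'.symm), mul_zero]
  rw [h0]
  refine (natDegree_add_le _ _).trans (max_le ((natDegree_add_le _ _).trans (max_le ?_ ?_)) ?_)
  · split_ifs <;> simp
  · split_ifs
    · exact (natDegree_C_mul_le _ _).trans natDegree_X_le
    · simp
  · split_ifs <;> simp

/-- affine forms -/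
theorem HH.aff {c1 a1 b1 c2 a2 b2 N e : ℕ} {x : ℝ}
    (hN : c1 + a1 + b1 + (c2 + a2 + b2) ≤ N)
    (h : |x - (((c1 : ℝ) - c2) + ((a1 : ℝ) - a2) * s + ((b1 : ℝ) - b2) * t)| ≤ e) :
    HH s t 1 ⟨aff c1 a1 b1, aff c2 a2 b2, N, e⟩ x := by
  refine ⟨affP c1 a1 b1, affP c2 a2 b2, ?_, ?_, ?_, degLe_affP _ _ _, degLe_affP _ _ _, ?_⟩
  · rw [evN_affP, Nat.add_assoc]; rfl
  · rw [evN_affP, Nat.add_assoc]; rfl
  · rw [evN_affP, evN_affP]
    simpa using hN
  · rw [evR_affP, evR_affP]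
    show |_| ≤ (e : ℝ)
    refine le_trans (le_of_eq ?_) h
    congr 1
    ring

end Vale.Agent.P154.Pk
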