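import Vale.Agent.P154.PkSem

/-!
# Packed forms: extraction of the digits, positivity (task PK-B)
-/

namespace Vale.Agent.P154.Pk

open Polynomial

theorem pkb_digit (B : ℕ) : ∀ (m : ℕ) (P : Polynomial ℕ), (∀ i, P.coeff i < B) →
    P.eval B / B ^ m % B = P.coeff m := by
  intro m
  induction m with
  | zero =>
    intro P hP
    have h := congrArg (fun Q : Polynomial ℕ => Q.eval B) (Polynomial.divX_mul_X_add P)
    simp only [eval_add, eval_mul, eval_X, eval_C] at h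
    rw [← h, pow_zero, Nat.div_one, Nat.mul_comm, Nat.mul_add_mod]
    exact Nat.mod_eq_of_lt (hP 0)
  | succ m ih =>
    intro P hP
    have h := congrArg (fun Q : Polynomial ℕ => Q.eval B) (Polynomial.divX_mul_X_add P)
    simp only [eval_add, eval_mul, eval_X, eval_C] at h
    have hB : 0 < B := lt_of_le_of_lt (Nat.zero_le _) (hP 0)
    have h2 : P.eval B / B = P.divX.eval B := by
      rw [← h, Nat.mul_comm, Nat.mul_add_div hB, Nat.div_eq_of_lt (hP 0), Nat.add_zero]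
    rw [pow_succ', ← Nat.div_div_eq_div_mul, h2, ih P.divX, coeff_divX]
    intro i
    rw [coeff_divX]
    exact hP _

theorem pkb_evN {f : BP} (hf : DegLe 9 f) {J : ℕ} (hJ : f.natDegree < J) (X Y : ℕ) :
    evN X Y f = ∑ j ∈ Finset.range J, (∑ i ∈ Finset.range 10, (f.coeff j).coeff i * X ^ i) * Y ^ j := by
  have h1 : evN X Y f = f.eval₂ (Polynomial.evalRingHom X) Y := by
    simp only [evN, RingHom.comp_apply, Polynomial.coe_evalRingHom, Polynomial.coe_mapRingHom]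
    rw [Polynomial.eval_map]
  rw [h1, Polynomial.eval₂_eq_sum_range' _ hJ]
  refine Finset.sum_congr rfl fun j _ => ?_
  rw [Polynomial.coe_evalRingHom, Polynomial.eval_eq_sum_range' (lt_of_le_of_lt (hf j) (by norm_num : 9 < 10))]

theorem pkb_evR {f : BP} (hf : DegLe 9 f) {J : ℕ} (hJ : f.natDegree < J) (s t : ℝ) :
    evR s t f = ∑ j ∈ Finset.range J,
      (∑ i ∈ Finset.range 10, ((f.coeff j).coeff i : ℝ) * s ^ i) * t ^ j := by
  have h1 : evR s t f = f.eval₂ (Polynomial.eval₂RingHom (Nat.castRingHom ℝ) s) t := rfl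
  rw [h1, Polynomial.eval₂_eq_sum_range' _ hJ]
  refine Finset.sum_congr rfl fun j _ => ?_
  rw [Polynomial.coe_eval₂RingHom,
    Polynomial.eval₂_eq_sum_range' _ (lt_of_le_of_lt (hf j) (by norm_num : 9 < 10))]
  rfl

/-- univariate version -/
noncomputable def pkbU (f : BP) (J : ℕ) : Polynomial ℕ :=
  ∑ j ∈ Finset.range J, f.coeff j * X ^ (10 * j)

theorem pkbU_coeff {f : BP} (hf : DegLe 9 f) {J : ℕ} (hJ : f.natDegree < J) {i j : ℕ}
    (hi : i < 10) : (pkbU f J).coeff (i + 10 * j) = (f.coeff j).coeff i := by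
  unfold pkbU
  rw [Polynomial.finsetSum_coeff]
  by_cases hj : j < J
  · rw [Finset.sum_eq_single j]
    · rw [Polynomial.coeff_mul_X_pow]
    · intro k _ hk
      rw [Polynomial.coeff_mul_X_pow']
      split_ifs with h
      · apply Polynomial.coeff_eq_zero_of_natDegree_lt
        refine lt_of_le_of_lt (hf k) ?_
        omega
      · rfl
    · intro h
      exact absurd (Finset.mem_range.mpr hj) h
  · rw [Polynomial.coeff_eq_zero_of_natDegree_lt (lt_of_lt_of_le hJ (not_lt.mp hj)), coeff_zero]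
    refine Finset.sum_eq_zero fun k hk => ?_
    rw [Finset.mem_range] at hk
    rw [Polynomial.coeff_mul_X_pow']
    split_ifs with h
    · apply Polynomial.coeff_eq_zero_of_natDegree_lt
      refine lt_of_le_of_lt (hf k) ?_
      omega
    · rfl

theorem pkbU_eval {f : BP} (hf : DegLe 9 f) {J : ℕ} (hJ : f.natDegree < J) (X : ℕ) :
    (pkbU f J).eval X = evN X (X ^ 10) f := by
  rw [pkb_evN hf hJ]
  unfold pkbU
  rw [Polynomial.eval_finsetSum]
  refine Finset.sum_congr rfl fun j _ => ?_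
  rw [eval_mul, eval_pow, eval_X,
    Polynomial.eval_eq_sum_range' (lt_of_le_of_lt (hf j) (by norm_num : 9 < 10)), ← pow_mul]

theorem pkb_coeff_le {f : BP} (hf : DegLe 9 f) {J : ℕ} (hJ : f.natDegree < J) (m : ℕ) :
    (pkbU f J).coeff m ≤ evN 1 1 f := by
  have h := pkbU_eval hf hJ 1
  rw [one_pow] at h
  rw [← h, Polynomial.eval_eq_sum_range]
  by_cases hm : m ∈ Finset.range ((pkbU f J).natDegree + 1)
  · have := Finset.single_le_sum (f := fun i => (pkbU f J).coeff i * 1 ^ i)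
      (fun i _ => Nat.zero_le _) hm
    simpa using this
  · rw [Finset.mem_range, not_lt] at hm
    rw [Polynomial.coeff_eq_zero_of_natDegree_lt (by omega)]
    exact Nat.zero_le _

theorem pkb_BY : BY = BX ^ 10 := by
  rewrite [BY.eq_1, BX.eq_1]
  rewrite [show (6000 : ℕ) = 600 * 10 from rfl]
  generalize (600 : ℕ) = a
  exact pow_mul 2 a 10

theorem pkb_dg {f : BP} (hf : DegLe 9 f) {i j : ℕ} (hi : i < 10) (hN : evN 1 1 f < BX) :
    dg (evN BX BY f) (i + 10 * j) = (f.coeff j).coeff i := by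
  have hJ : f.natDegree < f.natDegree + 1 := Nat.lt_succ_self _
  rw [pkb_BY, ← pkbU_eval hf hJ, ← pkbU_coeff hf hJ hi]
  rw [← pkb_digit BX (i + 10 * j) (pkbU f (f.natDegree + 1))
    (fun m => lt_of_le_of_lt (pkb_coeff_le hf hJ m) hN)]
  have e : (2 : ℕ) ^ (600 * (i + 10 * j)) = BX ^ (i + 10 * j) := by
    rewrite [BX.eq_1]
    generalize (600 : ℕ) = a
    exact pow_mul 2 a _
  have e2 : ∀ y m : ℕ, dg y m = y >>> (600 * m) % BX := fun _ _ => rfl
  rw [e2, Nat.shiftRight_eq_div_pow, e]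

theorem pkb_ad (x y : ℕ) : ((ad x y : ℕ) : ℝ) = |(x : ℝ) - y| := by
  show (((x - y) + (y - x) : ℕ) : ℝ) = _
  rcases le_total x y with h | h
  · rw [Nat.sub_eq_zero_of_le h, zero_add, Nat.cast_sub h, abs_sub_comm, abs_of_nonneg]
    have : (x : ℝ) ≤ y := by exact_mod_cast h
    linarith
  · rw [Nat.sub_eq_zero_of_le h, add_zero, Nat.cast_sub h, abs_of_nonneg]
    have : (y : ℝ) ≤ x := by exact_mod_cast h
    linarith

theorem pkb_term {s t : ℝ} (hs : |s| ≤ 1) (ht : |t| ≤ 1) (c : ℝ) (i j : ℕ) :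
    -|c| ≤ c * s ^ i * t ^ j := by
  have h : |c * s ^ i * t ^ j| ≤ |c| := by
    rw [abs_mul, abs_mul, abs_pow, abs_pow, mul_assoc]
    calc |c| * (|s| ^ i * |t| ^ j) ≤ |c| * (1 * 1) := by
          gcongr
          · exact pow_le_one₀ (abs_nonneg _) hs
          · exact pow_le_one₀ (abs_nonneg _) ht
      _ = |c| := by ring
  exact (abs_le.mp h).1

theorem pkb_sq {s : ℝ} (hs : |s| ≤ 1) (p n : ℕ) :
    -((n - p : ℕ) : ℝ) ≤ ((p : ℝ) - n) * s ^ 2 := by
  have h0 : 0 ≤ s ^ 2 := sq_nonneg s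
  have h1 : s ^ 2 ≤ 1 := by
    rw [← sq_abs]; exact pow_le_one₀ (abs_nonneg _) hs
  rcases le_total p n with h | h
  · rw [Nat.cast_sub h]
    have : (p : ℝ) ≤ n := by exact_mod_cast h
    nlinarith
  · rw [Nat.sub_eq_zero_of_le h]
    have : (n : ℝ) ≤ p := by exact_mod_cast h
    have := mul_nonneg (sub_nonneg.mpr this) h0
    simpa using this

theorem pkb_fin {s t : ℝ} (hs : |s| ≤ 1) (ht : |t| ≤ 1) {x V W : ℝ}
    (N e p0 n0 p1 n1 p2 n2 p3 n3 p10 n10 p11 n11 p12 n12 p20 n20 p21 n21 p30 n30 : ℕ)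
    (h : n0 + (ad p1 n1 + ad p10 n10) + (ad p11 n11 + ad p3 n3 + (ad p12 n12 +
      (ad p21 n21 + ad p30 n30))) + (n2 - p2 + (n20 - p20)) + e +
      (N - (p0 + n0 + (p1 + n1) + (p2 + n2 + (p3 + n3)) +
        (p10 + n10 + (p11 + n11) + (p12 + n12 + (p20 + n20)) + (p21 + n21 + (p30 + n30))))) ≤
      p0 - 1) (hp1 : 1 ≤ p0)
    (hW : W + (((p0 : ℝ) + n0) + (((p1 : ℝ) + n1) + (((p2 : ℝ) + n2) + (((p3 : ℝ) + n3) +
      (((p10 : ℝ) + n10) + (((p11 : ℝ) + n11) + (((p12 : ℝ) + n12) + (((p20 : ℝ) + n20) +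
      (((p21 : ℝ) + n21) + ((p30 : ℝ) + n30)))))))))) ≤ N) (hV : -W ≤ V)
    (hx : |x - (V + ((p0 : ℝ) - n0 + (((p1 : ℝ) - n1) * s + (((p2 : ℝ) - n2) * s ^ 2 +
      (((p3 : ℝ) - n3) * s ^ 3 + (((p10 : ℝ) - n10) * t + (((p11 : ℝ) - n11) * s * t +
      (((p12 : ℝ) - n12) * s ^ 2 * t + (((p20 : ℝ) - n20) * t ^ 2 +
      (((p21 : ℝ) - n21) * s * t ^ 2 + ((p30 : ℝ) - n30) * t ^ 3))))))))))| ≤ e) : 0 < x := by
  have h1 := pkb_term hs ht ((p1 : ℝ) - n1) 1 0
  have h3 := pkb_term hs ht ((p3 : ℝ) - n3) 3 0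
  have h10 := pkb_term hs ht ((p10 : ℝ) - n10) 0 1
  have h11 := pkb_term hs ht ((p11 : ℝ) - n11) 1 1
  have h12 := pkb_term hs ht ((p12 : ℝ) - n12) 2 1
  have h21 := pkb_term hs ht ((p21 : ℝ) - n21) 1 2
  have h30 := pkb_term hs ht ((p30 : ℝ) - n30) 0 3
  have h2 := pkb_sq hs p2 n2
  have h20 := pkb_sq ht p20 n20
  rw [← pkb_ad] at h1 h3 h10 h11 h12 h21 h30
  simp only [pow_zero, pow_one, mul_one] at h1 h3 h10 h11 h12 h21 h30
  generalize ad p1 n1 = d1 at *
  generalize ad p3 n3 = d3 at *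
  generalize ad p10 n10 = d10 at *
  generalize ad p11 n11 = d11 at *
  generalize ad p12 n12 = d12 at *
  generalize ad p21 n21 = d21 at *
  generalize ad p30 n30 = d30 at *
  generalize n2 - p2 = d2 at *
  generalize n20 - p20 = d20 at *
  have hT : ∃ T : ℕ, N ≤ T + (p0 + n0 + (p1 + n1) + (p2 + n2 + (p3 + n3)) +
        (p10 + n10 + (p11 + n11) + (p12 + n12 + (p20 + n20)) + (p21 + n21 + (p30 + n30)))) ∧
      n0 + (d1 + d10) + (d11 + d3 + (d12 + (d21 + d30))) + (d2 + d20) + e + T + 1 ≤ p0 :=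
    ⟨N - (p0 + n0 + (p1 + n1) + (p2 + n2 + (p3 + n3)) +
        (p10 + n10 + (p11 + n11) + (p12 + n12 + (p20 + n20)) + (p21 + n21 + (p30 + n30)))),
      by omega, by omega⟩
  obtain ⟨T, hT1, hT2⟩ := hT
  have hT1r : (N : ℝ) ≤ T + (p0 + n0 + (p1 + n1) + (p2 + n2 + (p3 + n3)) +
        (p10 + n10 + (p11 + n11) + (p12 + n12 + (p20 + n20)) + (p21 + n21 + (p30 + n30)))) := by
    exact_mod_cast hT1
  have hT2r : (n0 : ℝ) + (d1 + d10) + (d11 + d3 + (d12 + (d21 + d30))) + (d2 + d20) + e + T + 1 ≤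
      p0 := by
    exact_mod_cast hT2
  have hx1 := (abs_le.mp hx).1
  linarith

theorem posOK_sound {s t : ℝ} (hs : |s| ≤ 1) (ht : |t| ≤ 1) {F : Pk} {x : ℝ}
    (h : posOK F = true) (hF : HH s t 9 F x) : 0 < x := by
  obtain ⟨f, g, hp, hn, hN, hdf, hdg, hx⟩ := hF
  unfold posOK at h
  rw [Bool.and_eq_true] at h
  obtain ⟨hB, h⟩ := h
  have hB' : F.N + 1 ≤ BX := by simpa using hB
  have hfB : evN 1 1 f < BX := by omega
  have hgB : evN 1 1 g < BX := by omega
  set J : ℕ := max 4 (max (f.natDegree + 1) (g.natDegree + 1)) with hJ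
  have hJ4 : 4 ≤ J := le_max_left _ _
  have hfJ : f.natDegree < J :=
    lt_of_lt_of_le (Nat.lt_succ_self _) ((le_max_left _ _).trans (le_max_right _ _))
  have hgJ : g.natDegree < J :=
    lt_of_lt_of_le (Nat.lt_succ_self _) ((le_max_right _ _).trans (le_max_right _ _))
  -- digits
  have df : ∀ i j : ℕ, i < 10 → dg F.p (i + 10 * j) = (f.coeff j).coeff i := by
    intro i j hi; rw [hp]; exact pkb_dg hdf hi hfB
  have dgg : ∀ i j : ℕ, i < 10 → dg F.n (i + 10 * j) = (g.coeff j).coeff i := by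
    intro i j hi; rw [hn]; exact pkb_dg hdg hi hgB
  have f0 := df 0 0 (by norm_num)
  have f1 := df 1 0 (by norm_num)
  have f2 := df 2 0 (by norm_num)
  have f3 := df 3 0 (by norm_num)
  have f10 := df 0 1 (by norm_num)
  have f11 := df 1 1 (by norm_num)
  have f12 := df 2 1 (by norm_num)
  have f20 := df 0 2 (by norm_num)
  have f21 := df 1 2 (by norm_num)
  have f30 := df 0 3 (by norm_num)
  have g0 := dgg 0 0 (by norm_num)
  have g1 := dgg 1 0 (by norm_num)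
  have g2 := dgg 2 0 (by norm_num)
  have g3 := dgg 3 0 (by norm_num)
  have g10 := dgg 0 1 (by norm_num)
  have g11 := dgg 1 1 (by norm_num)
  have g12 := dgg 2 1 (by norm_num)
  have g20 := dgg 0 2 (by norm_num)
  have g21 := dgg 1 2 (by norm_num)
  have g30 := dgg 0 3 (by norm_num)
  simp only [Nat.mul_zero, Nat.mul_one, Nat.zero_add, Nat.add_zero, Nat.reduceMul,
    Nat.reduceAdd] at f0 f1 f2 f3 f10 f11 f12 f20 f21 f30 g0 g1 g2 g3 g10 g11 g12 g20 g21 g30
  rw [f0, f1, f2, f3, f10, f11, f12, f20, f21, f30, g0, g1, g2, g3, g10, g11, g12, g20, g21,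
    g30] at h
  unfold posOK2 at h
  rw [Bool.and_eq_true] at h
  obtain ⟨h, hp1⟩ := h
  simp only [Nat.ble_eq, Nat.add_eq, Nat.sub_eq] at h hp1
  -- sums
  set R := Finset.range 10 ×ˢ Finset.range J with hR
  set a : ℕ × ℕ → ℝ := fun p => (((f.coeff p.2).coeff p.1 : ℕ) : ℝ) with ha
  set b : ℕ × ℕ → ℝ := fun p => (((g.coeff p.2).coeff p.1 : ℕ) : ℝ) with hb
  have eVf : evR s t f = ∑ p ∈ R, a p * s ^ p.1 * t ^ p.2 := by
    rw [pkb_evR hdf hfJ, hR, Finset.sum_product_right]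
    refine Finset.sum_congr rfl fun j _ => ?_
    rw [Finset.sum_mul]
  have eVg : evR s t g = ∑ p ∈ R, b p * s ^ p.1 * t ^ p.2 := by
    rw [pkb_evR hdg hgJ, hR, Finset.sum_product_right]
    refine Finset.sum_congr rfl fun j _ => ?_
    rw [Finset.sum_mul]
  have eNf : ((evN 1 1 f : ℕ) : ℝ) = ∑ p ∈ R, a p := by
    rw [pkb_evN hdf hfJ, hR, Finset.sum_product_right]
    push_cast
    refine Finset.sum_congr rfl fun j _ => ?_
    simp [ha]
  have eNg : ((evN 1 1 g : ℕ) : ℝ) = ∑ p ∈ R, b p := by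
    rw [pkb_evN hdg hgJ, hR, Finset.sum_product_right]
    push_cast
    refine Finset.sum_congr rfl fun j _ => ?_
    simp [hb]
  have hNr : ∑ p ∈ R, (a p + b p) ≤ (F.N : ℝ) := by
    rw [Finset.sum_add_distrib, ← eNf, ← eNg]
    exact_mod_cast hN
  set S : Finset (ℕ × ℕ) := {(0, 0), (1, 0), (2, 0), (3, 0), (0, 1), (1, 1), (2, 1), (0, 2),
    (1, 2), (0, 3)} with hS
  have hSR : S ⊆ R := by
    intro p hpS
    rw [hR, Finset.mem_product, Finset.mem_range, Finset.mem_range]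
    simp only [hS, Finset.mem_insert, Finset.mem_singleton] at hpS
    rcases hpS with rfl | rfl | rfl | rfl | rfl | rfl | rfl | rfl | rfl | rfl <;>
      exact ⟨by norm_num, by dsimp only; omega⟩
  have hsum : ∀ q : ℕ × ℕ → ℝ, ∑ p ∈ S, q p = q (0, 0) + (q (1, 0) + (q (2, 0) + (q (3, 0) +
      (q (0, 1) + (q (1, 1) + (q (2, 1) + (q (0, 2) + (q (1, 2) + q (0, 3))))))))) := by
    intro q
    rw [hS]
    repeat rw [Finset.sum_insert (by decide)]
    rw [Finset.sum_singleton]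
  have hV : evR s t f - evR s t g = ∑ p ∈ R \ S, (a p - b p) * s ^ p.1 * t ^ p.2 +
      ∑ p ∈ S, (a p - b p) * s ^ p.1 * t ^ p.2 := by
    rw [Finset.sum_sdiff hSR, eVf, eVg, ← Finset.sum_sub_distrib]
    refine Finset.sum_congr rfl fun p _ => ?_
    ring
  have htail : -(∑ p ∈ R \ S, (a p + b p)) ≤ ∑ p ∈ R \ S, (a p - b p) * s ^ p.1 * t ^ p.2 := by
    rw [← Finset.sum_neg_distrib]
    refine Finset.sum_le_sum fun p _ => ?_
    refine le_trans ?_ (pkb_term hs ht (a p - b p) p.1 p.2)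
    have h1 : 0 ≤ a p := Nat.cast_nonneg _
    have h2 : 0 ≤ b p := Nat.cast_nonneg _
    have h3 : |a p - b p| ≤ a p + b p := by
      rw [abs_le]; constructor <;> linarith
    linarith
  have hsp := Finset.sum_sdiff (f := fun p => a p + b p) hSR
  rw [hsum] at hsp
  rw [hV, hsum] at hx
  simp only [ha, hb, pow_zero, pow_one, mul_one] at hsp hx
  simp only [ha, hb] at htail hNr
  rw [← hsp] at hNr
  exact pkb_fin hs ht F.N F.e _ _ _ _ _ _ _ _ _ _ _ _ _ _ _ _ _ _ _ _ h hp1 hNr htail hx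

end Vale.Agent.P154.Pk
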