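import Vale.Agent.P154.PkSem

/-!
# Verification of the tables of an exponent (task PK-C)
-/

namespace Vale.Agent.P154.Pk

/-- real part -/
def Cx.zr (z : Cx) : ℤ := (z.a : ℤ) - z.b
/-- imaginary part -/
def Cx.zi (z : Cx) : ℤ := (z.c : ℤ) - z.d

/-- `x ^ 2 + y ^ 2 ≤ d ^ 2` -/
def nle (x y d : ℤ) : Bool := decide (x * x + y * y ≤ d * d)

/-- Gaussian integer with a denominator -/
structure Ev where
  x : ℤ
  y : ℤ
  e : ℤ

/-- Horner step -/
def horStep (p q n k : ℤ) (h : Ev) : Ev :=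
  ⟨60 * (k + 1) * n * h.e - ((p - 60 * k) * h.x - q * h.y), -((p - 60 * k) * h.y + q * h.x),
    60 * (k + 1) * n * h.e⟩

/-- Horner scheme -/
def hor (p q n : ℤ) : Ev :=
  horStep p q n 0 (horStep p q n 1 (horStep p q n 2 (horStep p q n 3 (horStep p q n 4
    (horStep p q n 5 (horStep p q n 6 (horStep p q n 7 (horStep p q n 8 ⟨1, 0, 1⟩))))))))

/-- multiplication by `60 (al - k)` -/
def gm (p q k : ℤ) (h : Ev) : Ev :=
  ⟨(p - 60 * k) * h.x - q * h.y, (p - 60 * k) * h.y + q * h.x, h.e⟩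

/-- check of the constants -/
def chkC (x : Ex) (g2 g3 g4 : Ev) : Bool :=
  nle (60 * x.c1.zr - 4294967296 * x.pr) (60 * x.c1.zi - 4294967296 * x.pi) 60 &&
  (nle (7200 * x.c2.zr - 4294967296 * g2.x) (7200 * x.c2.zi - 4294967296 * g2.y) 7200 &&
  (nle (1296000 * x.c3.zr - 4294967296 * g3.x) (1296000 * x.c3.zi - 4294967296 * g3.y) 1296000 &&
  nle (4294967296 * g4.x) (4294967296 * g4.y) (311040000 * x.g4)))

/-- check of the tenth coefficient -/
def chkT (h : Ev) : Bool := nle h.x h.y (16 * (60 ^ 10 * 3628800))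

/-- check of a step of the table `A` -/
def stA2 (h : Ev) (u v : Cx) : Bool :=
  nle (v.zr * h.e - (u.zr * h.x - u.zi * h.y)) (v.zi * h.e - (u.zr * h.y + u.zi * h.x)) (6 * h.e)

/-- check of a step of the table `A` -/
def stA (x : Ex) (i : ℕ) : Bool :=
  stA2 (hor x.pr x.pi (64 - (i : ℤ))) (x.A.get i) (x.A.get (i + 1))

/-- check of a step of the table `B` -/
def stB2 (w u v : Cx) : Bool :=
  nle (v.zr * 17592186044416 - (u.zr * w.zr - u.zi * w.zi))
    (v.zi * 17592186044416 - (u.zr * w.zi + u.zi * w.zr)) (6 * 17592186044416)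

/-- check of a step of the table `B` -/
def stB (x : Ex) (i : ℕ) : Bool := stB2 (x.A.get 32) (x.B.get i) (x.B.get (i + 1))

/-- check of an entry `2 ^ 44` -/
def ch0 (z : Cx) : Bool := decide (z.zr = 17592186044416) && decide (z.zi = 0)

/-- all the products `60 ^ k al (al - 1) ... ` -/
def gk (x : Ex) : ℕ → Ev
  | 0 => ⟨1, 0, 1⟩
  | k + 1 => gm x.pr x.pi k (gk x k)

/-- the executable check of an exponent (integers, run once per exponent by
`decide +kernel`) -/
def exChk (x : Ex) : Bool :=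
  Nat.ble 15 x.pr && (Nat.ble x.pr 60 && (chkC x (gk x 2) (gk x 3) (gk x 4) &&
    (chkT (gk x 10) && (ch0 (x.A.get 0) && (ch0 (x.B.get 0) &&
      ((List.range 32).all (stA x) && (List.range 63).all (stB x)))))))

/-! ### semantics -/

open Complex

/-- value of a Gaussian integer -/
noncomputable def Ev.v (h : Ev) : ℂ := (h.x : ℂ) + (h.y : ℂ) * I

lemma nle_norm {x y d : ℤ} (h : nle x y d = true) (hd : 0 ≤ d) :
    ‖(x : ℂ) + (y : ℂ) * I‖ ≤ (d : ℝ) := by
  have h1 : x * x + y * y ≤ d * d := of_decide_eq_true h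
  have h2 : ((x : ℝ) * x + y * y) ≤ (d : ℝ) * d := by exact_mod_cast h1
  have hd' : (0 : ℝ) ≤ d := by exact_mod_cast hd
  have h3 : ‖(x : ℂ) + (y : ℂ) * I‖ ^ 2 = (x : ℝ) * x + y * y := by
    have := Complex.normSq_add_mul_I (x : ℝ) (y : ℝ)
    rw [← Complex.normSq_eq_norm_sq]
    push_cast at this
    rw [this]
    ring
  refine abs_le_of_sq_le_sq' ?_ hd' |>.2
  rw [h3]
  nlinarith

lemma cx_val (z : Cx) : z.val = (z.zr : ℂ) + (z.zi : ℂ) * I := by
  simp [Cx.val, Cx.zr, Cx.zi]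

lemma al_eqC (x : Ex) : 60 * x.al = (x.pr : ℂ) + (x.pi : ℂ) * I := by
  unfold Ex.al
  ring

lemma al_re (x : Ex) : x.al.re = x.pr / 60 := by
  have h : x.al = (((x.pr : ℝ) / 60 : ℝ) : ℂ) + (((x.pi : ℝ) / 60 : ℝ) : ℂ) * I := by
    unfold Ex.al
    push_cast
    ring
  rw [h]
  simp

lemma gm_v (x : Ex) (k : ℤ) (h : Ev) : (gm x.pr x.pi k h).v = 60 * (x.al - k) * h.v := by
  have h1 := al_eqC x
  have h2 : 60 * (x.al - (k : ℂ)) = (x.pr : ℂ) + (x.pi : ℂ) * I - 60 * k := by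
    rw [← h1]; ring
  rw [h2]
  simp only [Ev.v, gm]
  push_cast
  linear_combination (-(x.pi : ℂ) * h.y) * I_sq

lemma gk_v (x : Ex) (k : ℕ) : (gk x k).v = 60 ^ k * ∏ j ∈ Finset.range k, (x.al - j) := by
  induction k with
  | zero => simp [gk, Ev.v]
  | succ k ih =>
    rw [gk, gm_v, ih, Finset.prod_range_succ]
    push_cast
    ring

lemma horStep_v (x : Ex) (n k : ℤ) (h : Ev) : (horStep x.pr x.pi n k h).v =
    60 * (k + 1) * n * h.e - 60 * (x.al - k) * h.v := by
  have h1 := al_eqC x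
  have h2 : 60 * (x.al - (k : ℂ)) = (x.pr : ℂ) + (x.pi : ℂ) * I - 60 * k := by
    rw [← h1]; ring
  rw [h2]
  simp only [Ev.v, horStep]
  push_cast
  linear_combination ((x.pi : ℂ) * h.y) * I_sq

lemma horStep_s (x : Ex) {n k : ℤ} (hn : n ≠ 0) (hk : 0 ≤ k) {h : Ev} {S : ℂ}
    (hS : h.v = h.e * S) :
    (horStep x.pr x.pi n k h).v = (horStep x.pr x.pi n k h).e *
      (1 + (x.al - k) / (k + 1) * (-1 / n) * S) := by
  rw [horStep_v, hS]
  have hk' : ((k : ℂ) + 1) ≠ 0 := by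
    have : (k + 1 : ℤ) ≠ 0 := by omega
    exact_mod_cast this
  have hn' : (n : ℂ) ≠ 0 := by exact_mod_cast hn
  simp only [horStep]
  push_cast
  field_simp
  ring

lemma hor_e_pos (p q : ℤ) {n : ℤ} (hn : 0 < n) : 0 < (hor p q n).e := by
  simp only [hor, horStep]
  positivity

lemma hor_v (x : Ex) {n : ℤ} (hn : 0 < n) : (hor x.pr x.pi n).v = (hor x.pr x.pi n).e *
    ∑ k ∈ Finset.range 10, (∏ j ∈ Finset.range k, (x.al - j) / (j + 1)) * ((-1 / (n : ℝ) : ℝ) : ℂ) ^ k := by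
  have hn0 : n ≠ 0 := hn.ne'
  have h9 : (⟨1, 0, 1⟩ : Ev).v = ((⟨1, 0, 1⟩ : Ev).e : ℂ) * 1 := by simp [Ev.v]
  have h8 := horStep_s x hn0 (k := 8) (by norm_num) h9
  have h7 := horStep_s x hn0 (k := 7) (by norm_num) h8
  have h6 := horStep_s x hn0 (k := 6) (by norm_num) h7
  have h5 := horStep_s x hn0 (k := 5) (by norm_num) h6
  have h4 := horStep_s x hn0 (k := 4) (by norm_num) h5
  have h3 := horStep_s x hn0 (k := 3) (by norm_num) h4
  have h2 := horStep_s x hn0 (k := 2) (by norm_num) h3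
  have h1 := horStep_s x hn0 (k := 1) (by norm_num) h2
  have h0 := horStep_s x hn0 (k := 0) (by norm_num) h1
  unfold hor
  rw [h0]
  congr 1
  have hy : (((-1 / (n : ℝ)) : ℝ) : ℂ) = -1 / (n : ℂ) := by push_cast; ring
  rw [hy]
  generalize (-1 / (n : ℂ)) = y
  simp only [Finset.sum_range_succ, Finset.prod_range_succ, Finset.sum_range_zero,
    Finset.prod_range_zero]
  push_cast
  ring

/-- the approximate value of `(1 - 1/n) ^ al` -/
lemma hor_close (x : Ex) (h15 : 15 ≤ x.pr) (h60 : x.pr ≤ 60)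
    (hT : chkT (gk x 10) = true) {n : ℤ} (hn : 33 ≤ n) :
    ‖(((1 - 1 / (n : ℝ)) : ℝ) : ℂ) ^ x.al - (hor x.pr x.pi n).v / (hor x.pr x.pi n).e‖ ≤
      1 / 2 ^ 46 := by
  have hn0 : 0 < n := by omega
  have he : ((hor x.pr x.pi n).e : ℂ) ≠ 0 := by
    have := hor_e_pos x.pr x.pi hn0
    exact_mod_cast this.ne'
  have hnR : (33 : ℝ) ≤ n := by exact_mod_cast hn
  have hnpos : (0 : ℝ) < n := by linarith
  have hre : x.al.re = x.pr / 60 := al_re x
  have hre0 : 0 ≤ x.al.re := by rw [hre]; positivity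
  have hre1 : x.al.re ≤ 1 := by
    rw [hre, div_le_one (by norm_num)]
    exact_mod_cast h60
  rw [hor_v x hn0, mul_div_cancel_left₀ _ he]
  have hr : (1 / (n : ℝ)) < 1 := by
    rw [div_lt_one hnpos]; linarith
  have hy : |(-1 / (n : ℝ))| ≤ 1 / n := by
    rw [abs_div, abs_neg, abs_one, abs_of_pos hnpos]
  have key := Near.cpow_taylor x.al hre0 hre1 hr hy 10 (by norm_num)
  have e1 : (1 + -1 / (n : ℝ)) = 1 - 1 / n := by ring
  rw [e1] at key
  refine key.trans ?_
  -- the coefficient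
  have hc : ‖∏ j ∈ Finset.range 10, (x.al - j) / ((j : ℂ) + 1)‖ ≤ 16 := by
    have hg := gk_v x 10
    have hn1 := nle_norm hT (by norm_num)
    have hn2 : ‖(gk x 10).v‖ ≤ 16 * (60 ^ 10 * 3628800) := by
      refine hn1.trans (le_of_eq ?_)
      norm_num
    have hp : (gk x 10).v = (60 ^ 10 * 3628800 : ℂ) *
        ∏ j ∈ Finset.range 10, (x.al - j) / ((j : ℂ) + 1) := by
      rw [hg]
      simp only [Finset.prod_range_succ, Finset.prod_range_zero]
      push_cast
      ring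
    rw [hp, norm_mul] at hn2
    have h3 : ‖(60 ^ 10 * 3628800 : ℂ)‖ = 60 ^ 10 * 3628800 := by
      have : (60 ^ 10 * 3628800 : ℂ) = ((60 ^ 10 * 3628800 : ℝ) : ℂ) := by push_cast; ring
      rw [this, Complex.norm_real, Real.norm_of_nonneg (by positivity)]
    rw [h3] at hn2
    have hpos : (0 : ℝ) < 60 ^ 10 * 3628800 := by positivity
    nlinarith [hn2]
  have hy2 : |(-1 / (n : ℝ))| ^ 10 = (1 / (n : ℝ)) ^ 10 := by
    rw [abs_div, abs_neg, abs_one, abs_of_pos hnpos]
  rw [hy2]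
  have hb : 0 < 1 - 1 / (n : ℝ) := by linarith
  have hrp : (1 - 1 / (n : ℝ)) ^ (x.al.re - (10 : ℕ)) ≤ ((1 - 1 / (n : ℝ)) ^ 10)⁻¹ := by
    have h1 : (1 - 1 / (n : ℝ)) ^ (x.al.re - (10 : ℕ)) ≤ (1 - 1 / (n : ℝ)) ^ (-((10 : ℕ) : ℝ)) := by
      apply Real.rpow_le_rpow_of_exponent_ge hb
      · have : 0 < 1 / (n : ℝ) := by positivity
        linarith
      · linarith
    rw [Real.rpow_neg hb.le, Real.rpow_natCast] at h1
    exact h1
  have hfin : (1 / (n : ℝ)) ^ 10 * ((1 - 1 / (n : ℝ)) ^ 10)⁻¹ ≤ 1 / 2 ^ 50 := by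
    have h1 : (1 / (n : ℝ)) ^ 10 * ((1 - 1 / (n : ℝ)) ^ 10)⁻¹ = (1 / ((n : ℝ) - 1)) ^ 10 := by
      have hn1 : (n : ℝ) - 1 ≠ 0 := by linarith
      have : 1 - 1 / (n : ℝ) = (n - 1) / n := by field_simp
      rw [this]
      field_simp
    rw [h1]
    have h2 : 1 / ((n : ℝ) - 1) ≤ 1 / 32 := by
      apply one_div_le_one_div_of_le (by norm_num); linarith
    calc (1 / ((n : ℝ) - 1)) ^ 10 ≤ (1 / 32) ^ 10 := by
          apply pow_le_pow_left₀ _ h2
          apply div_nonneg zero_le_one; linarith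
      _ = 1 / 2 ^ 50 := by norm_num
  calc ‖∏ j ∈ Finset.range 10, (x.al - j) / ((j : ℂ) + 1)‖ * (1 / (n : ℝ)) ^ 10 *
        (1 - 1 / (n : ℝ)) ^ (x.al.re - (10 : ℕ))
      ≤ 16 * (1 / (n : ℝ)) ^ 10 * ((1 - 1 / (n : ℝ)) ^ 10)⁻¹ := by
        apply mul_le_mul _ hrp (Real.rpow_nonneg hb.le _) (by positivity)
        exact mul_le_mul_of_nonneg_right hc (by positivity)
    _ = 16 * ((1 / (n : ℝ)) ^ 10 * ((1 - 1 / (n : ℝ)) ^ 10)⁻¹) := by ring
    _ ≤ 16 * (1 / 2 ^ 50) := by gcongr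
    _ = 1 / 2 ^ 46 := by norm_num

lemma cpow_norm_le (x : Ex) {t : ℝ} (h0 : 0 < t) (h1 : t ≤ 1) : ‖((t : ℝ) : ℂ) ^ x.al‖ ≤ 1 := by
  rw [Complex.norm_cpow_eq_rpow_re_of_pos h0, al_re]
  exact Real.rpow_le_one h0.le h1 (by positivity)

/-- exact value of an entry of the table `A` -/
noncomputable def zA (x : Ex) (i : ℕ) : ℂ := 2 ^ 44 * (((((64 : ℝ) - i) / 64 : ℝ)) : ℂ) ^ x.al

/-- exact value of an entry of the table `B` -/
noncomputable def zB (x : Ex) (j : ℕ) : ℂ := 2 ^ 44 * (((1 / 2 ^ j : ℝ)) : ℂ) ^ x.al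

lemma norm_p44 : ‖(2 ^ 44 : ℂ)‖ = 2 ^ 44 := by
  rw [norm_pow]; norm_num

lemma A_err (x : Ex) (h15 : 15 ≤ x.pr) (h60 : x.pr ≤ 60) (hT : chkT (gk x 10) = true)
    (h0 : ch0 (x.A.get 0) = true) (hA : (List.range 32).all (stA x) = true) :
    ∀ i : ℕ, i ≤ 32 → ‖(x.A.get i).val - zA x i‖ ≤ 7 * i := by
  intro i
  induction i with
  | zero =>
    intro _
    have h1 := (Bool.and_eq_true _ _).mp h0
    have h2 : (x.A.get 0).zr = 17592186044416 := of_decide_eq_true h1.1
    have h3 : (x.A.get 0).zi = 0 := of_decide_eq_true h1.2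
    rw [cx_val, h2, h3, zA]
    norm_num
  | succ i ih =>
    intro hi
    have ih' := ih (by omega)
    have hst : stA x i = true := by
      rw [List.all_eq_true] at hA
      exact hA i (List.mem_range.mpr (by omega))
    set n : ℤ := 64 - (i : ℤ) with hn
    have hn33 : 33 ≤ n := by omega
    have hn0 : 0 < n := by omega
    have hnR : (n : ℝ) = 64 - i := by rw [hn]; push_cast; ring
    have hnR33 : (33 : ℝ) ≤ n := by exact_mod_cast hn33
    have hE := hor_e_pos x.pr x.pi hn0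
    set h := hor x.pr x.pi n with hh
    have hER : (0 : ℝ) < h.e := by exact_mod_cast hE
    have hEC : (h.e : ℂ) ≠ 0 := by exact_mod_cast hE.ne'
    set u := x.A.get i with hu
    set v := x.A.get (i + 1) with hv
    have h1 := nle_norm hst (by positivity)
    have h2 : ‖v.val * h.e - u.val * h.v‖ ≤ 6 * h.e := by
      refine le_trans (le_of_eq ?_) (h1.trans (le_of_eq (by push_cast; ring)))
      congr 1
      rw [cx_val, cx_val, Ev.v]
      push_cast
      linear_combination (-(u.zi : ℂ) * h.y) * I_sq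
    have h3 : ‖v.val - u.val * (h.v / h.e)‖ ≤ 6 := by
      have : v.val * h.e - u.val * h.v = (v.val - u.val * (h.v / h.e)) * h.e := by
        field_simp
      rw [this, norm_mul] at h2
      have h4 : ‖(h.e : ℂ)‖ = h.e := by
        rw [Complex.norm_intCast, abs_of_pos hER]
      rw [h4] at h2
      exact le_of_mul_le_mul_right h2 hER
    set τ : ℂ := (((1 - 1 / (n : ℝ)) : ℝ) : ℂ) ^ x.al with hτ
    have hcl : ‖τ - h.v / h.e‖ ≤ 1 / 2 ^ 46 := hor_close x h15 h60 hT hn33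
    have hpos1 : 0 < 1 - 1 / (n : ℝ) := by
      have : 1 / (n : ℝ) ≤ 1 / 33 := one_div_le_one_div_of_le (by norm_num) hnR33
      linarith
    have hτ1 : ‖τ‖ ≤ 1 := by
      apply cpow_norm_le x hpos1
      have : 0 ≤ 1 / (n : ℝ) := by positivity
      linarith
    have hz : zA x (i + 1) = zA x i * τ := by
      rw [zA, zA, mul_assoc, hτ, ← Complex.mul_cpow_ofReal_nonneg (by rw [← hnR]; positivity) hpos1.le]
      congr 2
      rw [← Complex.ofReal_mul]
      congr 1
      rw [← hnR]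
      have hnne : (n : ℝ) ≠ 0 := by positivity
      push_cast
      field_simp
      rw [hnR]; ring
    have hzn : ‖zA x i‖ ≤ 2 ^ 44 := by
      rw [zA, norm_mul, norm_p44]
      have : ‖(((((64 : ℝ) - i) / 64 : ℝ)) : ℂ) ^ x.al‖ ≤ 1 := by
        apply cpow_norm_le x
        · rw [← hnR]; positivity
        · rw [div_le_one (by norm_num)]
          have : (0 : ℝ) ≤ i := by positivity
          linarith
      nlinarith
    have hun : ‖u.val‖ ≤ 2 ^ 44 + 7 * i := by
      calc ‖u.val‖ = ‖(u.val - zA x i) + zA x i‖ := by congr 1; ring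
        _ ≤ ‖u.val - zA x i‖ + ‖zA x i‖ := norm_add_le _ _
        _ ≤ 2 ^ 44 + 7 * i := by linarith
    have hid : v.val - zA x (i + 1) = (v.val - u.val * (h.v / h.e)) + (u.val - zA x i) * τ
        - u.val * (τ - h.v / h.e) := by
      rw [hz]; ring
    have hi31 : (i : ℝ) ≤ 31 := by
      have : i ≤ 31 := by omega
      exact_mod_cast this
    rw [hid]
    calc ‖(v.val - u.val * (h.v / h.e)) + (u.val - zA x i) * τ - u.val * (τ - h.v / h.e)‖
        ≤ ‖(v.val - u.val * (h.v / h.e)) + (u.val - zA x i) * τ‖ + ‖u.val * (τ - h.v / h.e)‖ :=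
          norm_sub_le _ _
      _ ≤ ‖v.val - u.val * (h.v / h.e)‖ + ‖(u.val - zA x i) * τ‖ + ‖u.val * (τ - h.v / h.e)‖ := by
          gcongr; exact norm_add_le _ _
      _ ≤ 6 + 7 * i * 1 + (2 ^ 44 + 7 * i) * (1 / 2 ^ 46) := by
          rw [norm_mul, norm_mul]
          gcongr
      _ ≤ 7 * ((i + 1 : ℕ) : ℝ) := by
          push_cast
          have : (2 ^ 44 + 7 * (i : ℝ)) * (1 / 2 ^ 46) ≤ 1 := by
            rw [mul_one_div, div_le_one (by norm_num)]
            linarith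
          linarith

lemma half_pow_le (x : Ex) (h15 : 15 ≤ x.pr) : ‖(((1 / 2 : ℝ)) : ℂ) ^ x.al‖ ≤ 0.85 := by
  rw [Complex.norm_cpow_eq_rpow_re_of_pos (by norm_num), al_re]
  have h15R : (15 : ℝ) ≤ x.pr := by exact_mod_cast h15
  calc (1 / 2 : ℝ) ^ ((x.pr : ℝ) / 60) ≤ (1 / 2 : ℝ) ^ ((1 : ℝ) / 4) := by
        apply Real.rpow_le_rpow_of_exponent_ge (by norm_num) (by norm_num)
        linarith
    _ ≤ ((0.85 : ℝ) ^ (4 : ℝ)) ^ ((1 : ℝ) / 4) := by
        apply Real.rpow_le_rpow (by norm_num) _ (by norm_num)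
        have : (0.85 : ℝ) ^ (4 : ℝ) = 0.85 ^ (4 : ℕ) := by
          rw [← Real.rpow_natCast]; norm_num
        rw [this]; norm_num
    _ = 0.85 := by
        rw [← Real.rpow_mul (by norm_num)]; norm_num

lemma B_err (x : Ex) (h15 : 15 ≤ x.pr) (hA32 : ‖(x.A.get 32).val - zA x 32‖ ≤ 224)
    (h0 : ch0 (x.B.get 0) = true) (hB : (List.range 63).all (stB x) = true) :
    ∀ j : ℕ, j ≤ 63 → ‖(x.B.get j).val - zB x j‖ ≤ 1600 := by
  intro j
  induction j with
  | zero =>
    intro _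
    have h1 := (Bool.and_eq_true _ _).mp h0
    have h2 : (x.B.get 0).zr = 17592186044416 := of_decide_eq_true h1.1
    have h3 : (x.B.get 0).zi = 0 := of_decide_eq_true h1.2
    rw [cx_val, h2, h3, zB]
    norm_num
  | succ j ih =>
    intro hj
    have ih' := ih (by omega)
    have hst : stB x j = true := by
      rw [List.all_eq_true] at hB
      exact hB j (List.mem_range.mpr (by omega))
    set w := x.A.get 32 with hw
    set u := x.B.get j with hu
    set v := x.B.get (j + 1) with hv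
    have h1 := nle_norm hst (by norm_num)
    have h2 : ‖v.val * 2 ^ 44 - u.val * w.val‖ ≤ 6 * 2 ^ 44 := by
      refine le_trans (le_of_eq ?_) (h1.trans (le_of_eq (by norm_num)))
      congr 1
      rw [cx_val, cx_val, cx_val]
      push_cast
      linear_combination (-(u.zi : ℂ) * w.zi) * I_sq
    have h3 : ‖v.val - u.val * (w.val / 2 ^ 44)‖ ≤ 6 := by
      have : v.val * 2 ^ 44 - u.val * w.val = (v.val - u.val * (w.val / 2 ^ 44)) * 2 ^ 44 := by
        field_simp
      rw [this, norm_mul, norm_p44] at h2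
      exact le_of_mul_le_mul_right h2 (by norm_num)
    set σ : ℂ := (((1 / 2 : ℝ)) : ℂ) ^ x.al with hσ
    have hσ1 : ‖σ‖ ≤ 0.85 := half_pow_le x h15
    have hzA : zA x 32 = 2 ^ 44 * σ := by
      rw [zA, hσ]; norm_num
    rw [hzA] at hA32
    have h4 : ‖w.val / 2 ^ 44 - σ‖ ≤ 224 / 2 ^ 44 := by
      have : w.val - 2 ^ 44 * σ = (w.val / 2 ^ 44 - σ) * 2 ^ 44 := by
        field_simp
      rw [this, norm_mul, norm_p44] at hA32
      rwa [le_div_iff₀ (by norm_num)]
    have hz : zB x (j + 1) = zB x j * σ := by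
      rw [zB, zB, mul_assoc, hσ, ← Complex.mul_cpow_ofReal_nonneg (by positivity) (by norm_num)]
      congr 2
      rw [← Complex.ofReal_mul]
      congr 1
      rw [pow_succ]
      field_simp
    have hzn : ‖zB x j‖ ≤ 2 ^ 44 := by
      rw [zB, norm_mul, norm_p44]
      have : ‖(((1 / 2 ^ j : ℝ)) : ℂ) ^ x.al‖ ≤ 1 := by
        apply cpow_norm_le x
        · positivity
        · rw [div_le_one (by positivity)]
          exact one_le_pow₀ (by norm_num)
      nlinarith
    have hun : ‖u.val‖ ≤ 2 ^ 44 + 1600 := by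
      calc ‖u.val‖ = ‖(u.val - zB x j) + zB x j‖ := by congr 1; ring
        _ ≤ ‖u.val - zB x j‖ + ‖zB x j‖ := norm_add_le _ _
        _ ≤ 2 ^ 44 + 1600 := by linarith
    have hid : v.val - zB x (j + 1) = (v.val - u.val * (w.val / 2 ^ 44)) + (u.val - zB x j) * σ
        + u.val * (w.val / 2 ^ 44 - σ) := by
      rw [hz]; ring
    rw [hid]
    calc ‖(v.val - u.val * (w.val / 2 ^ 44)) + (u.val - zB x j) * σ + u.val * (w.val / 2 ^ 44 - σ)‖
        ≤ ‖(v.val - u.val * (w.val / 2 ^ 44)) + (u.val - zB x j) * σ‖ +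
          ‖u.val * (w.val / 2 ^ 44 - σ)‖ := norm_add_le _ _
      _ ≤ ‖v.val - u.val * (w.val / 2 ^ 44)‖ + ‖(u.val - zB x j) * σ‖ +
          ‖u.val * (w.val / 2 ^ 44 - σ)‖ := by
          gcongr; exact norm_add_le _ _
      _ ≤ 6 + 1600 * 0.85 + (2 ^ 44 + 1600) * (224 / 2 ^ 44) := by
          rw [norm_mul, norm_mul]
          gcongr
      _ ≤ 1600 := by norm_num

theorem exChk_sound {x : Ex} (h : exChk x = true) : ExOK x := by
  unfold exChk at h
  simp only [Bool.and_eq_true] at h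
  obtain ⟨h15, h60, hC, hT, hA0, hB0, hA, hB⟩ := h
  have h15' : 15 ≤ x.pr := Nat.le_of_ble_eq_true h15
  have h60' : x.pr ≤ 60 := Nat.le_of_ble_eq_true h60
  unfold chkC at hC
  simp only [Bool.and_eq_true] at hC
  obtain ⟨c1, c2, c3, c4⟩ := hC
  have hAe := A_err x h15' h60' hT hA0 hA
  have hBe := B_err x h15' (by simpa using (hAe 32 le_rfl).trans (by norm_num)) hB0 hB
  have ha := al_eqC x
  refine ⟨h15', h60', ?_, ?_, ?_, ?_, ?_, ?_⟩
  · have h1 := nle_norm c1 (by norm_num)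
    have h2 : ‖(60 : ℂ) * (x.c1.val - 2 ^ 32 * x.al)‖ ≤ 60 := by
      refine le_trans (le_of_eq ?_) (h1.trans (le_of_eq (by norm_num)))
      congr 1
      rw [cx_val]
      push_cast
      linear_combination (-(2 ^ 32 : ℂ)) * ha
    rw [norm_mul] at h2
    norm_num at h2
    norm_num
    linarith
  · have h1 := nle_norm c2 (by norm_num)
    have hg := gk_v x 2
    simp only [Finset.prod_range_succ, Finset.prod_range_zero] at hg
    push_cast at hg
    have h2 : ‖(7200 : ℂ) * (x.c2.val - 2 ^ 32 * (x.al * (x.al - 1) / 2))‖ ≤ 7200 := by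
      refine le_trans (le_of_eq ?_) (h1.trans (le_of_eq (by norm_num)))
      congr 1
      rw [cx_val]
      simp only [Ev.v] at hg
      push_cast
      linear_combination ((2 ^ 32 : ℂ)) * hg
    rw [norm_mul] at h2
    norm_num at h2
    norm_num
    linarith
  · have h1 := nle_norm c3 (by norm_num)
    have hg := gk_v x 3
    simp only [Finset.prod_range_succ, Finset.prod_range_zero] at hg
    push_cast at hg
    have h2 : ‖(1296000 : ℂ) * (x.c3.val - 2 ^ 32 * (x.al * (x.al - 1) * (x.al - 2) / 6))‖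
        ≤ 1296000 := by
      refine le_trans (le_of_eq ?_) (h1.trans (le_of_eq (by norm_num)))
      congr 1
      rw [cx_val]
      simp only [Ev.v] at hg
      push_cast
      linear_combination ((2 ^ 32 : ℂ)) * hg
    rw [norm_mul] at h2
    norm_num at h2
    norm_num
    linarith
  · have h1 := nle_norm c4 (by positivity)
    have hg := gk_v x 4
    simp only [Finset.prod_range_succ, Finset.prod_range_zero] at hg
    push_cast at hg
    have h2 : ‖(311040000 : ℂ) * (2 ^ 32 * (x.al * (x.al - 1) * (x.al - 2) * (x.al - 3) / 24))‖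
        ≤ 311040000 * x.g4 := by
      refine le_trans (le_of_eq ?_) (h1.trans (le_of_eq (by push_cast; ring)))
      congr 1
      simp only [Ev.v] at hg
      push_cast
      linear_combination (-(2 ^ 32 : ℂ)) * hg
    rw [norm_mul, norm_mul] at h2
    norm_num at h2
    norm_num
    linarith
  · intro n hn32 hn64
    have h1 := hAe (64 - n) (by omega)
    have h2 : zA x (64 - n) = 2 ^ 44 * (((n : ℝ) / 64 : ℝ) : ℂ) ^ x.al := by
      rw [zA]
      congr 3
      push_cast [Nat.cast_sub hn64]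
      ring
    rw [h2] at h1
    refine h1.trans ?_
    have : ((64 - n : ℕ) : ℝ) ≤ 32 := by
      have : 64 - n ≤ 32 := by omega
      exact_mod_cast this
    linarith
  · intro j hj
    exact (hBe j (by omega)).trans (by norm_num)

end Vale.Agent.P154.Pk
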