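import Vale.Agent.P154.PkG0
import Vale.Agent.P154.DA4
import Vale.Agent.P154.DA5
import Vale.Agent.P154.DA6
import Vale.Agent.P154.DA7
import Vale.Agent.P154.DA8

/-!
# The channels `lam = -1/√d`, `4 ≤ d ≤ 8`
-/

namespace Vale.Agent.P154.Pk

theorem chOK_of {d L : ℕ} (h4 : 4 ≤ d) (hL1 : 1 ≤ L) (ha : (L - 1) ^ 2 * d ≤ 2 ^ 120)
    (hb : 2 ^ 120 ≤ (L + 1) ^ 2 * d) (hL : 2 * L ≤ S60) : ChOK ⟨true, L⟩ (-(1 / √(d : ℝ))) := by
  have hd : (4 : ℝ) ≤ d := by exact_mod_cast h4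
  have hs0 : 0 < √(d : ℝ) := Real.sqrt_pos.mpr (by linarith)
  have hs2 : √(d : ℝ) ^ 2 = d := Real.sq_sqrt (by linarith)
  have h2 : 2 ≤ √(d : ℝ) := Real.le_sqrt_of_sq_le (by linarith)
  have hi : 1 / √(d : ℝ) ≤ 1 / 2 := by
    apply one_div_le_one_div_of_le (by norm_num) h2
  have hi0 : 0 < 1 / √(d : ℝ) := by positivity
  refine ⟨by linarith, by linarith, ?_, fun _ => hL, ?_⟩
  · have : 2 * L ≤ S60 := hL
    show L ≤ S60
    omega
  · simp only [if_true]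
    have hbr : ((2 : ℝ) ^ 60) ^ 2 ≤ (((L : ℝ) + 1) * √(d : ℝ)) ^ 2 := by
      rw [mul_pow, hs2]
      have : ((2 ^ 120 : ℕ) : ℝ) ≤ (((L + 1) ^ 2 * d : ℕ) : ℝ) := by exact_mod_cast hb
      push_cast at this
      refine le_trans ?_ this
      norm_num
    have har : (((L : ℝ) - 1) * √(d : ℝ)) ^ 2 ≤ ((2 : ℝ) ^ 60) ^ 2 := by
      rw [mul_pow, hs2]
      have : (((L - 1) ^ 2 * d : ℕ) : ℝ) ≤ ((2 ^ 120 : ℕ) : ℝ) := by exact_mod_cast ha
      push_cast [Nat.cast_sub hL1] at this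
      refine le_trans this ?_
      norm_num
    have hLr : (1 : ℝ) ≤ L := by exact_mod_cast hL1
    have hb' : (2 : ℝ) ^ 60 ≤ ((L : ℝ) + 1) * √(d : ℝ) :=
      (abs_le_of_sq_le_sq' hbr (by positivity)).2
    have ha' : ((L : ℝ) - 1) * √(d : ℝ) ≤ (2 : ℝ) ^ 60 :=
      (abs_le_of_sq_le_sq' har (by positivity)).2
    have e1 : (2 : ℝ) ^ 60 / √(d : ℝ) ≤ (L : ℝ) + 1 := by rwa [div_le_iff₀ hs0]
    have e2 : (L : ℝ) - 1 ≤ (2 : ℝ) ^ 60 / √(d : ℝ) := by rwa [le_div_iff₀ hs0]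
    have e3 : (2 : ℝ) ^ 60 * -(1 / √(d : ℝ)) = -((2 : ℝ) ^ 60 / √(d : ℝ)) := by ring
    rw [e3, abs_le]
    constructor <;> linarith

end Vale.Agent.P154.Pk

namespace Vale.Agent.P154.Dat

open Pk

theorem A4.chOK : ChOK A4.ch (-(1 / √((4 : ℕ) : ℝ))) :=
  chOK_of (by norm_num) (by norm_num) (by norm_num) (by norm_num) (by unfold S60; norm_num)

theorem A5.chOK : ChOK A5.ch (-(1 / √((5 : ℕ) : ℝ))) :=
  chOK_of (by norm_num) (by norm_num) (by norm_num) (by norm_num) (by unfold S60; norm_num)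

theorem A6.chOK : ChOK A6.ch (-(1 / √((6 : ℕ) : ℝ))) :=
  chOK_of (by norm_num) (by norm_num) (by norm_num) (by norm_num) (by unfold S60; norm_num)

theorem A7.chOK : ChOK A7.ch (-(1 / √((7 : ℕ) : ℝ))) :=
  chOK_of (by norm_num) (by norm_num) (by norm_num) (by norm_num) (by unfold S60; norm_num)

theorem A8.chOK : ChOK A8.ch (-(1 / √((8 : ℕ) : ℝ))) :=
  chOK_of (by norm_num) (by norm_num) (by norm_num) (by norm_num) (by unfold S60; norm_num)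

end Vale.Agent.P154.Dat
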