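import Vale.Agent.P154.PkA

/-!
# Data of a coordinate (task PK-D)
-/

namespace Vale.Agent.P154.Pk

namespace CoAux

theorem T_eq : (T : ℝ) = 2 ^ 32 := by norm_num [T]

theorem qt_bounds (x : ℕ) {c : ℕ} (hc : 0 < c) :
    (qt x c : ℝ) ≤ 2 ^ 32 * x / c ∧ 2 ^ 32 * (x : ℝ) / c < qt x c + 1 := by
  have hc' : (0 : ℝ) < c := by exact_mod_cast hc
  have e : qt x c = (x * T) / c := rfl
  rw [e]
  constructor
  · refine (Nat.cast_div_le).trans ?_
    push_cast
    rw [T_eq, mul_comm]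
  · rw [div_lt_iff₀ hc']
    have h := Nat.lt_mul_div_succ (x * T) hc
    have h2 : ((x * T : ℕ) : ℝ) < ((c * ((x * T) / c + 1) : ℕ) : ℝ) := by exact_mod_cast h
    push_cast at h2
    rw [T_eq] at h2
    linarith

theorem rat_bound {M : ℕ} (hM : M < T) : 2 ^ 32 * ((M : ℝ) / 2 ^ 32 / (1 - M / 2 ^ 32)) ≤ rat M := by
  have hMT : (M : ℝ) < 2 ^ 32 := by
    rw [← T_eq]
    exact_mod_cast hM
  have e : rat M = (M * T) / (T - M) + 1 := rfl
  have hpos : 0 < T - M := Nat.sub_pos_of_lt hM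
  have h := Nat.lt_mul_div_succ (M * T) hpos
  have h2 : ((M * T : ℕ) : ℝ) < (((T - M) * ((M * T) / (T - M) + 1) : ℕ) : ℝ) := by
    exact_mod_cast h
  rw [← e] at h2
  push_cast [Nat.cast_sub hM.le] at h2
  rw [T_eq] at h2
  have h3 : (0 : ℝ) < 2 ^ 32 - M := by linarith
  have h4 : 2 ^ 32 * ((M : ℝ) / 2 ^ 32 / (1 - M / 2 ^ 32)) = (M * 2 ^ 32) / (2 ^ 32 - M) := by
    have h5 : (1 - (M : ℝ) / 2 ^ 32) = (2 ^ 32 - M) / 2 ^ 32 := by field_simp
    rw [h5]
    field_simp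
  rw [h4, div_le_iff₀ h3]
  linarith

theorem abs_mul_le {x y B : ℝ} (hx : |x| ≤ B) (hy : |y| ≤ 1) : |x * y| ≤ B := by
  rw [abs_mul]
  calc |x| * |y| ≤ |x| * 1 := mul_le_mul_of_nonneg_left hy (abs_nonneg _)
    _ ≤ B := by rw [mul_one]; exact hx

/-- real form of the expansion of `ε` -/
theorem ep_core {s t : ℝ} (hs : |s| ≤ 1) (ht : |t| ≤ 1) {F : Af} {X : ℝ} (h : AfH s t F X)
    {C : ℕ} (hC : 0 < C) :
    |2 ^ 32 * (2 ^ 60 * X / C - 1) - (((qt (F.v - C) C : ℝ) - qt (C - F.v) C) +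
      ((qt F.ap C : ℝ) - qt F.an C) * s + ((qt F.bp C : ℝ) - qt F.bn C) * t)| ≤
      ((qt F.e C + 6 : ℕ) : ℝ) := by
  have hC' : (0 : ℝ) < C := by exact_mod_cast hC
  set δ : ℝ := 2 ^ 60 * X - ((F.v : ℝ) + ((F.ap : ℝ) - F.an) * s + ((F.bp : ℝ) - F.bn) * t) with hδ
  have hδe : |δ| ≤ F.e := h
  have h1 : 2 ^ 32 * (2 ^ 60 * X / C - 1) = 2 ^ 32 * ((F.v : ℝ) - C) / C +
      (2 ^ 32 * (F.ap : ℝ) / C - 2 ^ 32 * (F.an : ℝ) / C) * s +
      (2 ^ 32 * (F.bp : ℝ) / C - 2 ^ 32 * (F.bn : ℝ) / C) * t + 2 ^ 32 * δ / C := by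
    rw [hδ]
    field_simp
    ring
  have hv : |2 ^ 32 * ((F.v : ℝ) - C) / C - ((qt (F.v - C) C : ℝ) - qt (C - F.v) C)| ≤ 1 := by
    obtain ⟨p1, p2⟩ := qt_bounds (F.v - C) hC
    obtain ⟨q1, q2⟩ := qt_bounds (C - F.v) hC
    have e1 : 2 ^ 32 * ((F.v : ℝ) - C) / C =
        2 ^ 32 * ((F.v - C : ℕ) : ℝ) / C - 2 ^ 32 * ((C - F.v : ℕ) : ℝ) / C := by
      rcases le_total F.v C with hle | hle
      · rw [Nat.sub_eq_zero_of_le hle, Nat.cast_sub hle]
        push_cast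
        ring
      · rw [Nat.sub_eq_zero_of_le hle, Nat.cast_sub hle]
        push_cast
        ring
    rw [e1, abs_le]
    constructor <;> linarith
  have ha : |(2 ^ 32 * (F.ap : ℝ) / C - 2 ^ 32 * (F.an : ℝ) / C) -
      ((qt F.ap C : ℝ) - qt F.an C)| ≤ 1 := by
    obtain ⟨p1, p2⟩ := qt_bounds F.ap hC
    obtain ⟨q1, q2⟩ := qt_bounds F.an hC
    rw [abs_le]
    constructor <;> linarith
  have hb : |(2 ^ 32 * (F.bp : ℝ) / C - 2 ^ 32 * (F.bn : ℝ) / C) -
      ((qt F.bp C : ℝ) - qt F.bn C)| ≤ 1 := by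
    obtain ⟨p1, p2⟩ := qt_bounds F.bp hC
    obtain ⟨q1, q2⟩ := qt_bounds F.bn hC
    rw [abs_le]
    constructor <;> linarith
  have he : |2 ^ 32 * δ / C| ≤ (qt F.e C : ℝ) + 1 := by
    obtain ⟨p1, p2⟩ := qt_bounds F.e hC
    rw [abs_div, abs_mul, abs_of_pos hC', abs_of_pos (by positivity : (0 : ℝ) < 2 ^ 32)]
    refine le_trans ?_ p2.le
    gcongr
  have ha' := abs_mul_le ha hs
  have hb' := abs_mul_le hb ht
  push_cast
  rw [h1]
  have e2 : 2 ^ 32 * ((F.v : ℝ) - C) / C +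
      (2 ^ 32 * (F.ap : ℝ) / C - 2 ^ 32 * (F.an : ℝ) / C) * s +
      (2 ^ 32 * (F.bp : ℝ) / C - 2 ^ 32 * (F.bn : ℝ) / C) * t + 2 ^ 32 * δ / C -
      (((qt (F.v - C) C : ℝ) - qt (C - F.v) C) + ((qt F.ap C : ℝ) - qt F.an C) * s +
        ((qt F.bp C : ℝ) - qt F.bn C) * t) =
      (2 ^ 32 * ((F.v : ℝ) - C) / C - ((qt (F.v - C) C : ℝ) - qt (C - F.v) C)) +
      ((2 ^ 32 * (F.ap : ℝ) / C - 2 ^ 32 * (F.an : ℝ) / C) - ((qt F.ap C : ℝ) - qt F.an C)) * s +
      ((2 ^ 32 * (F.bp : ℝ) / C - 2 ^ 32 * (F.bn : ℝ) / C) - ((qt F.bp C : ℝ) - qt F.bn C)) * t +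
      2 ^ 32 * δ / C := by ring
  rw [e2]
  rw [abs_le] at hv ha' hb' he ⊢
  constructor <;> linarith [hv.1, hv.2, ha'.1, ha'.2, hb'.1, hb'.2, he.1, he.2]

theorem mkEp_HH {s t : ℝ} (hs : |s| ≤ 1) (ht : |t| ≤ 1) {F : Af} {X : ℝ} (h : AfH s t F X)
    {C : ℕ} (hC : 0 < C) : HH s t 1 (mkEp F C) (2 ^ 32 * (2 ^ 60 * X / C - 1)) := by
  refine HH.aff ?_ (ep_core hs ht h hC)
  show qt (F.v - C) C + qt F.ap C + qt F.bp C + (qt (C - F.v) C + qt F.an C + qt F.bn C) ≤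
    (qt (F.v - C) C + qt (C - F.v) C) + ((qt F.ap C + qt F.an C) + (qt F.bp C + qt F.bn C))
  omega

theorem mkEp_abs {s t : ℝ} (hs : |s| ≤ 1) (ht : |t| ≤ 1) {F : Af} {X : ℝ} (h : AfH s t F X)
    {C : ℕ} (hC : 0 < C) :
    |2 ^ 32 * (2 ^ 60 * X / C - 1)| ≤ (((mkEp F C).N + (mkEp F C).e : ℕ) : ℝ) := by
  have h1 := ep_core hs ht h hC
  have hN : (mkEp F C).N = (qt (F.v - C) C + qt (C - F.v) C) +
      ((qt F.ap C + qt F.an C) + (qt F.bp C + qt F.bn C)) := rfl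
  have hE : (mkEp F C).e = qt F.e C + 6 := rfl
  rw [hN, hE]
  push_cast at h1 ⊢
  have hsub : ∀ a b : ℕ, |(a : ℝ) - b| ≤ a + b := by
    intro a b
    have ha : (0 : ℝ) ≤ a := Nat.cast_nonneg a
    have hb : (0 : ℝ) ≤ b := Nat.cast_nonneg b
    rw [abs_le]
    constructor <;> linarith
  have hv := hsub (qt (F.v - C) C) (qt (C - F.v) C)
  have ha := abs_mul_le (hsub (qt F.ap C) (qt F.an C)) hs
  have hb := abs_mul_le (hsub (qt F.bp C) (qt F.bn C)) ht
  rw [abs_le] at h1 hv ha hb ⊢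
  constructor <;> linarith [hv.1, hv.2, ha.1, ha.2, hb.1, hb.2, h1.1, h1.2]

/-- the total mass of the form of `ε` is smaller than one -/
theorem mkEp_lt {F : Af} {C : ℕ} (hC : 0 < C) (h1 : 64 * ((F.v - C) + (C - F.v)) ≤ F.v)
    (h2 : 63 * F.v ≤ 64 * C) (h3 : 4 * F.rad ≤ 3 * F.v) :
    (mkEp F C).N + (mkEp F C).e < T := by
  have hC' : (0 : ℝ) < C := by exact_mod_cast hC
  have hN : (mkEp F C).N = (qt (F.v - C) C + qt (C - F.v) C) +
      ((qt F.ap C + qt F.an C) + (qt F.bp C + qt F.bn C)) := rfl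
  have hE : (mkEp F C).e = qt F.e C + 6 := rfl
  have hR : F.rad = ((F.ap + F.an) + (F.bp + F.bn)) + F.e := rfl
  have h1' : 64 * (((F.v - C : ℕ) : ℝ) + ((C - F.v : ℕ) : ℝ)) ≤ F.v := by exact_mod_cast h1
  have h2' : 63 * (F.v : ℝ) ≤ 64 * C := by exact_mod_cast h2
  have h3' : 4 * ((((F.ap : ℝ) + F.an) + (F.bp + F.bn)) + F.e) ≤ 3 * F.v := by
    rw [hR] at h3
    exact_mod_cast h3
  have b1 := (qt_bounds (F.v - C) hC).1
  have b2 := (qt_bounds (C - F.v) hC).1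
  have b3 := (qt_bounds F.ap hC).1
  have b4 := (qt_bounds F.an hC).1
  have b5 := (qt_bounds F.bp hC).1
  have b6 := (qt_bounds F.bn hC).1
  have b7 := (qt_bounds F.e hC).1
  have hsum : 2 ^ 32 * ((F.v - C : ℕ) : ℝ) / C + 2 ^ 32 * ((C - F.v : ℕ) : ℝ) / C +
      2 ^ 32 * (F.ap : ℝ) / C + 2 ^ 32 * (F.an : ℝ) / C + 2 ^ 32 * (F.bp : ℝ) / C +
      2 ^ 32 * (F.bn : ℝ) / C + 2 ^ 32 * (F.e : ℝ) / C ≤ 2 ^ 32 * (7 / 9) := by
    have e1 : 2 ^ 32 * ((F.v - C : ℕ) : ℝ) / C + 2 ^ 32 * ((C - F.v : ℕ) : ℝ) / C +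
      2 ^ 32 * (F.ap : ℝ) / C + 2 ^ 32 * (F.an : ℝ) / C + 2 ^ 32 * (F.bp : ℝ) / C +
      2 ^ 32 * (F.bn : ℝ) / C + 2 ^ 32 * (F.e : ℝ) / C =
      2 ^ 32 * ((((F.v - C : ℕ) : ℝ) + ((C - F.v : ℕ) : ℝ) +
        ((((F.ap : ℝ) + F.an) + (F.bp + F.bn)) + F.e)) / C) := by ring
    rw [e1]
    refine mul_le_mul_of_nonneg_left ?_ (by positivity)
    rw [div_le_iff₀ hC']
    linarith
  have hfin : (((mkEp F C).N + (mkEp F C).e : ℕ) : ℝ) < ((T : ℕ) : ℝ) := by
    rw [hN, hE, T_eq]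
    push_cast
    have : (2 : ℝ) ^ 32 * (7 / 9) + 6 < 2 ^ 32 := by norm_num
    linarith
  exact_mod_cast hfin

end CoAux

open CoAux in
theorem mkCo_sound {s t : ℝ} (hs : |s| ≤ 1) (ht : |t| ≤ 1) {F : Af} {X : ℝ} (h : AfH s t F X)
    (h0 : 0 ≤ X) (h1 : X ≤ 3 / 4) : CoOK s t (mkCo F) X := by
  unfold mkCo
  cases hb : (Nat.ble (Nat.mul 4 F.rad) (Nat.mul 3 F.v) &&
      (Nat.ble 128 F.v && Nat.blt F.v S60)) with
  | true =>
    rw [cond_true]
    rw [Bool.and_eq_true, Bool.and_eq_true] at hb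
    obtain ⟨hb1, hb2, hb3⟩ := hb
    have hr : 4 * F.rad ≤ 3 * F.v := Nat.le_of_ble_eq_true hb1
    have hv1 : 128 ≤ F.v := Nat.le_of_ble_eq_true hb2
    have hv2 : F.v < 2 ^ 60 := by
      have : F.v < S60 := Nat.le_of_ble_eq_true hb3
      have e : S60 = 2 ^ 60 := by norm_num [S60]
      rwa [e] at this
    have hv0 : F.v ≠ 0 := by omega
    have hk1 := Nat.log2_self_le hv0
    have hk2 := @Nat.lt_log2_self F.v
    generalize hk : Nat.log2 F.v = k at hk1 hk2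
    have hk7 : 7 ≤ k := by
      by_contra hlt
      have : 2 ^ (k + 1) ≤ 2 ^ 7 := Nat.pow_le_pow_right (by norm_num) (by omega)
      omega
    have hk59 : k ≤ 59 := by
      by_contra hlt
      have : 2 ^ 60 ≤ 2 ^ k := Nat.pow_le_pow_right (by norm_num) (by omega)
      omega
    obtain ⟨m, rfl⟩ : ∃ m, k = m + 6 := ⟨k - 6, by omega⟩
    set P := 2 ^ m with hP
    have hPpos : 0 < P := by positivity
    have e6 : 2 ^ (m + 6) = 64 * P := by rw [pow_add, hP]; ring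
    have e7 : 2 ^ (m + 6 + 1) = 128 * P := by rw [pow_add, pow_add, hP]; ring
    rw [e6] at hk1
    rw [e7] at hk2
    have hmant : mant F.v (m + 6) = (F.v + P) / (2 * P) := by
      show (F.v + 2 ^ (m + 6 - 6)) / 2 ^ (m + 6 - 5) = _
      have a1 : m + 6 - 6 = m := by omega
      have a2 : m + 6 - 5 = m + 1 := by omega
      rw [a1, a2, pow_succ, mul_comm (2 ^ m) 2]
    generalize hn : mant F.v (m + 6) = n at hmant ⊢
    have hn1 : n * (2 * P) ≤ F.v + P := by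
      rw [hmant]
      exact Nat.div_mul_le_self _ _
    have hn2 : F.v + P < (n + 1) * (2 * P) := by
      have := Nat.lt_mul_div_succ (F.v + P) (show 0 < 2 * P by omega)
      rw [← hmant] at this
      linarith
    have hn32 : 32 ≤ n := by
      by_contra hlt
      have : (n + 1) * (2 * P) ≤ 32 * (2 * P) := Nat.mul_le_mul_right _ (by omega)
      omega
    have hn64 : n ≤ 64 := by
      by_contra hlt
      have : 65 * (2 * P) ≤ n * (2 * P) := Nat.mul_le_mul_right _ (by omega)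
      omega
    set C := n * (2 * P) with hC
    have hCeq : Nat.mul n (Nat.pow 2 (Nat.sub (m + 6) 5)) = C := by
      show n * 2 ^ (m + 6 - 5) = C
      have a2 : m + 6 - 5 = m + 1 := by omega
      rw [a2, pow_succ, mul_comm (2 ^ m) 2]
    have hCn : (n + 1) * (2 * P) = C + 2 * P := by rw [hC]; ring
    rw [hCn] at hn2
    have hCpos : 0 < C := by omega
    have hA : 64 * ((F.v - C) + (C - F.v)) ≤ F.v := by omega
    have hB : 63 * F.v ≤ 64 * C := by omega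
    have hM := mkEp_lt hCpos hA hB hr
    have hHH := mkEp_HH hs ht h hCpos
    have habs := mkEp_abs hs ht h hCpos
    have hC' : (0 : ℝ) < C := by exact_mod_cast hCpos
    have hc0 : ((n : ℝ) / 64) / 2 ^ (59 - (m + 6)) = C / 2 ^ 60 := by
      have e1 : (2 : ℝ) ^ (59 - (m + 6)) * 2 ^ m = 2 ^ 53 := by
        rw [← pow_add]
        congr 1
        omega
      have e2 : (C : ℝ) = n * (2 * 2 ^ m) := by
        rw [hC, hP]
        push_cast
        ring
      rw [e2, div_div, div_eq_div_iff (by positivity) (by positivity)]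
      have e3 : (64 : ℝ) * 2 ^ (59 - (m + 6)) * (2 * 2 ^ m) =
          128 * (2 ^ (59 - (m + 6)) * 2 ^ m) := by ring
      calc (n : ℝ) * (2 : ℝ) ^ 60 = (n : ℝ) * (128 * (2 : ℝ) ^ 53) := by norm_num
        _ = (n : ℝ) * ((64 : ℝ) * 2 ^ (59 - (m + 6)) * (2 * 2 ^ m)) := by rw [e3, e1]
        _ = (n : ℝ) * (2 * 2 ^ m) * (64 * 2 ^ (59 - (m + 6))) := by ring
    show CoOK s t (mkCo1 F (m + 6) n) X
    have hmk : mkCo1 F (m + 6) n = mkCo2 n (59 - (m + 6)) (mkEp F C) := by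
      show mkCo2 n (Nat.sub 59 (m + 6)) (mkEp F (Nat.mul n (Nat.pow 2 (Nat.sub (m + 6) 5)))) = _
      rw [hCeq]
      rfl
    rw [hmk]
    refine ⟨hn32, hn64, ?_, ?_, ?_⟩
    · show 59 - (m + 6) < 64
      omega
    · intro _
      set M := (mkEp F C).N + (mkEp F C).e with hMdef
      have hMT : (M : ℝ) < 2 ^ 32 := by
        rw [← T_eq]
        exact_mod_cast hM
      refine ⟨2 ^ 60 * X / C - 1, (M : ℝ) / 2 ^ 32, ?_, ?_, ?_, hHH, ?_, ?_, ?_⟩
      · show X = (((n : ℝ) / 64) / 2 ^ (59 - (m + 6))) * (1 + (2 ^ 60 * X / C - 1))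
        rw [hc0]
        field_simp
        ring
      · rw [le_div_iff₀ (by positivity)]
        rw [abs_mul, abs_of_pos (by positivity : (0 : ℝ) < 2 ^ 32)] at habs
        linarith
      · rw [div_lt_one (by positivity)]
        exact hMT
      · have h2 := HH.mul hs ht hHH hHH
        have e : (2 : ℝ) ^ 64 * (2 ^ 60 * X / C - 1) ^ 2 =
            2 ^ 32 * (2 ^ 60 * X / C - 1) * (2 ^ 32 * (2 ^ 60 * X / C - 1)) := by ring
        rw [e]
        exact h2
      · have h2 := HH.mul hs ht (HH.mul hs ht hHH hHH) hHH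
        have e : (2 : ℝ) ^ 96 * (2 ^ 60 * X / C - 1) ^ 3 =
            2 ^ 32 * (2 ^ 60 * X / C - 1) * (2 ^ 32 * (2 ^ 60 * X / C - 1)) *
              (2 ^ 32 * (2 ^ 60 * X / C - 1)) := by ring
        rw [e]
        exact h2
      · have h2 := rat_bound hM
        have h3 : (0 : ℝ) ≤ 2 ^ 32 * ((M : ℝ) / 2 ^ 32 / (1 - M / 2 ^ 32)) := by
          have : (0 : ℝ) ≤ 1 - M / 2 ^ 32 := by
            rw [sub_nonneg, div_le_one (by positivity)]
            exact hMT.le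
          positivity
        have h4 : (((mkCo2 n (59 - (m + 6)) (mkEp F C)).m4 : ℕ) : ℝ) = (rat M : ℝ) ^ 4 := by
          show ((p4 (rat M) : ℕ) : ℝ) = (rat M : ℝ) ^ 4
          have : p4 (rat M) = (rat M * rat M) * (rat M * rat M) := rfl
          rw [this]
          push_cast
          ring
        rw [h4]
        calc (2 : ℝ) ^ 128 * ((M : ℝ) / 2 ^ 32 / (1 - M / 2 ^ 32)) ^ 4
            = (2 ^ 32 * ((M : ℝ) / 2 ^ 32 / (1 - M / 2 ^ 32))) ^ 4 := by ring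
          _ ≤ (rat M : ℝ) ^ 4 := pow_le_pow_left₀ h3 h2 4
    · intro hcon
      exact absurd hcon (by simp [mkCo2])
  | false =>
    rw [cond_false]
    have hrad : F.rad = ((F.ap + F.an) + (F.bp + F.bn)) + F.e := rfl
    have hX : 2 ^ 60 * X ≤ ((F.v + F.rad : ℕ) : ℝ) := by
      have h2 : |2 ^ 60 * X - ((F.v : ℝ) + ((F.ap : ℝ) - F.an) * s + ((F.bp : ℝ) - F.bn) * t)| ≤
        (F.e : ℝ) := h
      have hsub : ∀ a b : ℕ, |(a : ℝ) - b| ≤ a + b := by
        intro a b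
        have ha : (0 : ℝ) ≤ a := Nat.cast_nonneg a
        have hb : (0 : ℝ) ≤ b := Nat.cast_nonneg b
        rw [abs_le]
        constructor <;> linarith
      have ha := abs_mul_le (hsub F.ap F.an) hs
      have hb := abs_mul_le (hsub F.bp F.bn) ht
      rw [abs_le] at h2 ha hb
      rw [hrad]
      push_cast
      linarith [h2.1, h2.2, ha.1, ha.2, hb.1, hb.2]
    have hh : Nat.add (Nat.add F.v F.rad) 128 = F.v + F.rad + 128 := rfl
    rw [hh]
    set H := F.v + F.rad + 128 with hH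
    have hXH : 2 ^ 60 * X ≤ (H : ℝ) := by
      refine hX.trans ?_
      rw [hH]
      push_cast
      linarith
    have hH0 : H ≠ 0 := by omega
    have hk1 := Nat.log2_self_le hH0
    have hk2 := @Nat.lt_log2_self H
    generalize hk : Nat.log2 H = k at hk1 hk2 ⊢
    unfold mkCo0
    cases hc : Nat.ble 60 k with
    | true =>
      rw [cond_true]
      refine ⟨by norm_num, by norm_num, by norm_num, ?_, ?_⟩
      · intro hcon
        exact absurd hcon (by simp)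
      · intro _
        refine ⟨h0, ?_⟩
        show X ≤ (((64 : ℕ) : ℝ) / 64) / 2 ^ 0
        norm_num
        linarith
    | false =>
      rw [cond_false]
      have hk60 : k < 60 := by
        by_contra hcon
        have : Nat.ble 60 k = true := Nat.ble_eq_true_of_le (not_lt.1 hcon)
        rw [hc] at this
        exact absurd this (by simp)
      have hk7 : 7 ≤ k := by
        by_contra hlt
        have : 2 ^ (k + 1) ≤ 2 ^ 7 := Nat.pow_le_pow_right (by norm_num) (by omega)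
        omega
      obtain ⟨m, rfl⟩ : ∃ m, k = m + 5 := ⟨k - 5, by omega⟩
      set P := 2 ^ m with hP
      have hPpos : 0 < P := by positivity
      have e5 : 2 ^ (m + 5) = 32 * P := by rw [pow_add, hP]; ring
      have e6 : 2 ^ (m + 5 + 1) = 64 * P := by rw [pow_add, pow_add, hP]; ring
      rw [e5] at hk1
      rw [e6] at hk2
      have hdiv : Nat.div H (Nat.pow 2 (Nat.sub (m + 5) 5)) = H / P := by
        show H / 2 ^ (m + 5 - 5) = _
        have a1 : m + 5 - 5 = m := by omega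
        rw [a1]
      rw [hdiv]
      generalize hn : H / P = n
      have hn1 : n * P ≤ H := by
        rw [← hn]
        exact Nat.div_mul_le_self _ _
      have hn2 : H < (n + 1) * P := by
        have := Nat.lt_mul_div_succ H hPpos
        rw [hn] at this
        linarith
      have hn32 : 32 ≤ n + 1 := by
        by_contra hlt
        have : (n + 1) * P ≤ 32 * P := Nat.mul_le_mul_right _ (by omega)
        omega
      have hn64 : n + 1 ≤ 64 := by
        by_contra hlt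
        have : 64 * P ≤ n * P := Nat.mul_le_mul_right _ (by omega)
        omega
      refine ⟨hn32, hn64, ?_, ?_, ?_⟩
      · show 59 - (m + 5) < 64
        omega
      · intro hcon
        exact absurd hcon (by simp)
      · intro _
        refine ⟨h0, ?_⟩
        show X ≤ (((n + 1 : ℕ) : ℝ) / 64) / 2 ^ (59 - (m + 5))
        have e1 : (2 : ℝ) ^ (59 - (m + 5)) * 2 ^ m = 2 ^ 54 := by
          rw [← pow_add]
          congr 1
          omega
        rw [div_div, le_div_iff₀ (by positivity)]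
        have hn2' : (H : ℝ) ≤ ((n + 1 : ℕ) : ℝ) * 2 ^ m := by
          have : ((H : ℕ) : ℝ) ≤ (((n + 1) * P : ℕ) : ℝ) := by exact_mod_cast hn2.le
          rw [hP] at this
          push_cast at this ⊢
          exact this
        have hpm : (0 : ℝ) < 2 ^ m := by positivity
        have e4 : X * (64 * 2 ^ (59 - (m + 5))) * 2 ^ m = 2 ^ 60 * X := by
          calc X * (64 * 2 ^ (59 - (m + 5))) * 2 ^ m
              = X * 64 * (2 ^ (59 - (m + 5)) * 2 ^ m) := by ring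
            _ = X * 64 * 2 ^ 54 := by rw [e1]
            _ = 2 ^ 60 * X := by ring
        have e5' : X * (64 * 2 ^ (59 - (m + 5))) * 2 ^ m ≤ ((n + 1 : ℕ) : ℝ) * 2 ^ m := by
          rw [e4]
          exact hXH.trans hn2'
        exact le_of_mul_le_mul_right e5' hpm

end Vale.Agent.P154.Pk
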