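import Vale.Agent.P154.PkG0

/-!
# Symmetry of the functions (task PK-G2)
-/

namespace Vale.Agent.P154.Pk

open Near

/-- a symmetric function of three variables is invariant under permutations -/
theorem symm_perm (G : ℝ → ℝ → ℝ → ℝ) (h1 : ∀ u v w, G u v w = G v u w)
    (h2 : ∀ u v w, G u v w = G u w v) (σ : Equiv.Perm (Fin 3)) (x : Fin 3 → ℝ) :
    G (x (σ 0)) (x (σ 1)) (x (σ 2)) = G (x 0) (x 1) (x 2) := by
  have key : ∀ a b c : Fin 3, a ≠ b → a ≠ c → b ≠ c →
      G (x a) (x b) (x c) = G (x 0) (x 1) (x 2) := by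
    intro a b c hab hac hbc
    fin_cases a <;> fin_cases b <;> fin_cases c <;>
      first
      | exact absurd rfl hab
      | exact absurd rfl hac
      | exact absurd rfl hbc
      | rfl
      | exact h2 _ _ _
      | exact h1 _ _ _
      | exact (h2 _ _ _).trans (h1 _ _ _)
      | exact (h1 _ _ _).trans (h2 _ _ _)
      | exact (h1 _ _ _).trans ((h2 _ _ _).trans (h1 _ _ _))
  exact key _ _ _ (fun h => by simpa using σ.injective h) (fun h => by simpa using σ.injective h)
    (fun h => by simpa using σ.injective h)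

/-- one term of `gE` -/
noncomputable def hE (a t u v w : ℝ) : ℝ :=
  u ^ (1 - 2 * a) * ((v * w) ^ a * Real.cos (t * (Real.log v - Real.log w)))

theorem hE_symm (a t u v w : ℝ) : hE a t u v w = hE a t u w v := by
  unfold hE
  rw [mul_comm v w, ← Real.cos_neg (t * (Real.log v - Real.log w))]
  congr 3
  ring

theorem gE_eq_hE (a t : ℝ) (x : Fin 3 → ℝ) :
    gE a t x = (1 / 3) * (hE a t (x 0) (x 1) (x 2) + hE a t (x 1) (x 2) (x 0) +
      hE a t (x 2) (x 0) (x 1)) := by
  unfold gE
  rw [Fin.sum_univ_three]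
  rfl

theorem gE_perm (a t : ℝ) (σ : Equiv.Perm (Fin 3)) (x : Fin 3 → ℝ) :
    gE a t (x ∘ σ) = gE a t x := by
  rw [gE_eq_hE, gE_eq_hE]
  refine symm_perm (fun u v w => (1 / 3) * (hE a t u v w + hE a t v w u + hE a t w u v))
    ?_ ?_ σ x
  · intro u v w
    rw [hE_symm a t u v w, hE_symm a t v w u, hE_symm a t w u v]
    ring
  · intro u v w
    rw [hE_symm a t u v w, hE_symm a t v w u, hE_symm a t w u v]
    ring

theorem GF.fn_perm {g : GF} (hg : GFOK g) (σ : Equiv.Perm (Fin 3)) {x : Fin 3 → ℝ}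
    (hx : ∀ i, 0 ≤ x i) : g.fn (x ∘ σ) = g.fn x := by
  have _ := hg
  have _ := hx
  cases g with
  | half z => exact gE_perm _ _ σ x
  | gen z w => exact gE_perm _ _ σ x
  | pol k =>
    have hs : P2 (fun i => (x ∘ σ) i - 1) = P2 (fun i => x i - 1) := by
      unfold P2
      refine symm_perm (fun u v w => (u - 1) ^ 2 + (v - 1) ^ 2 + (w - 1) ^ 2) ?_ ?_ σ x
      · intro u v w
        ring
      · intro u v w
        ring
    have ht : ((x ∘ σ) 0 - 1) * ((x ∘ σ) 1 - 1) * ((x ∘ σ) 2 - 1) =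
        (x 0 - 1) * (x 1 - 1) * (x 2 - 1) := by
      refine symm_perm (fun u v w => (u - 1) * (v - 1) * (w - 1)) ?_ ?_ σ x
      · intro u v w
        ring
      · intro u v w
        ring
    rcases k with _ | _ | _ | _ | _ | k
    · exact hs
    · exact ht
    · exact congrArg (fun s : ℝ => s ^ 2) hs
    · exact congrArg₂ (fun s t : ℝ => s * t) hs ht
    · exact congrArg (fun s : ℝ => s ^ 3) hs
    · exact congrArg (fun t : ℝ => t ^ 2) ht

end Vale.Agent.P154.Pk
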