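import Vale.Agent.P154.PkG1
import Vale.Agent.P154.PkG2
import Vale.Agent.P154.PkCov

/-!
# Soundness of the recursive check (task PK-G, helper12)
-/

namespace Vale.Agent.P154.Pk

open Near

/-- `X` lies in the cell -/
def InC (c : Cell) (X : Fin 3 → ℝ) : Prop :=
  |2 ^ 60 * X 1 - (c.c2 : ℝ)| ≤ (c.r2 : ℝ) ∧ |2 ^ 60 * X 2 - (c.c3 : ℝ)| ≤ (c.r3 : ℝ)

/-- the sorted points with sum `3/4` -/
structure Srt (X : Fin 3 → ℝ) : Prop where
  sum : X 0 + X 1 + X 2 = 3 / 4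
  h01 : X 1 ≤ X 0
  h12 : X 2 ≤ X 1
  h2 : 0 ≤ X 2

theorem S34_val : ((S34 : ℕ) : ℝ) = 2 ^ 60 * (3 / 4) := by norm_num [S34]
theorem S14_val : ((S14 : ℕ) : ℝ) = 2 ^ 58 := by norm_num [S14]

theorem exists_st {c : Cell} {X : Fin 3 → ℝ} (hX : Srt X) (hc : InC c X)
    (hs : Nat.ble (Nat.add c.c2 c.c3) S34 = true) :
    ∃ s t : ℝ, |s| ≤ 1 ∧ |t| ≤ 1 ∧ AfH s t (X1 c) (X 0) ∧ AfH s t (X2 c) (X 1) ∧
      AfH s t (X3 c) (X 2) := by
  have aux : ∀ (z : ℝ) (r : ℕ), |z| ≤ r → ∃ s : ℝ, |s| ≤ 1 ∧ z = r * s := by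
    intro z r h
    rcases Nat.eq_zero_or_pos r with h0 | h0
    · subst h0
      refine ⟨0, by norm_num, ?_⟩
      have : |z| ≤ 0 := by simpa using h
      simpa using this
    · have hr : (0 : ℝ) < r := by exact_mod_cast h0
      refine ⟨z / r, ?_, by field_simp⟩
      rw [abs_div, abs_of_pos hr]
      exact (div_le_one hr).2 h
  obtain ⟨s, hs1, hs2⟩ := aux _ _ hc.1
  obtain ⟨t, ht1, ht2⟩ := aux _ _ hc.2
  have hle : c.c2 + c.c3 ≤ S34 := Nat.le_of_ble_eq_true hs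
  refine ⟨s, t, hs1, ht1, ?_, ?_, ?_⟩
  · have e : (((X1 c).v : ℕ) : ℝ) = 2 ^ 60 * (3 / 4) - c.c2 - c.c3 := by
      have : (X1 c).v + c.c2 + c.c3 = S34 := by
        show (S34 - c.c2 - c.c3) + c.c2 + c.c3 = S34
        omega
      have h2 : (((X1 c).v : ℕ) : ℝ) + c.c2 + c.c3 = S34 := by exact_mod_cast this
      rw [S34_val] at h2
      linarith
    unfold AfH
    rw [e]
    have : 2 ^ 60 * X 0 - (2 ^ 60 * (3 / 4) - c.c2 - c.c3 + (((X1 c).ap : ℝ) - (X1 c).an) * s +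
        (((X1 c).bp : ℝ) - (X1 c).bn) * t) = 0 := by
      show 2 ^ 60 * X 0 - (2 ^ 60 * (3 / 4) - (c.c2 : ℝ) - c.c3 + (((0 : ℕ) : ℝ) - (c.r2 : ℝ)) * s +
        (((0 : ℕ) : ℝ) - (c.r3 : ℝ)) * t) = 0
      have := hX.sum
      push_cast
      linear_combination (2 ^ 60) * this - hs2 - ht2
    rw [this]
    simp [X1]
  · unfold AfH
    have : 2 ^ 60 * X 1 - (((X2 c).v : ℝ) + (((X2 c).ap : ℝ) - (X2 c).an) * s +
        (((X2 c).bp : ℝ) - (X2 c).bn) * t) = 0 := by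
      show 2 ^ 60 * X 1 - ((c.c2 : ℝ) + ((c.r2 : ℝ) - ((0 : ℕ) : ℝ)) * s +
        (((0 : ℕ) : ℝ) - ((0 : ℕ) : ℝ)) * t) = 0
      push_cast
      linear_combination hs2
    rw [this]
    simp [X2]
  · unfold AfH
    have : 2 ^ 60 * X 2 - (((X3 c).v : ℝ) + (((X3 c).ap : ℝ) - (X3 c).an) * s +
        (((X3 c).bp : ℝ) - (X3 c).bn) * t) = 0 := by
      show 2 ^ 60 * X 2 - ((c.c3 : ℝ) + (((0 : ℕ) : ℝ) - ((0 : ℕ) : ℝ)) * s +
        ((c.r3 : ℝ) - ((0 : ℕ) : ℝ)) * t) = 0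
      push_cast
      linear_combination ht2
    rw [this]
    simp [X3]

theorem comb_sound {s t : ℝ} {P : Pt} {x : Fin 3 → ℝ}
    (hterm : ∀ g, GFOK g → ∀ k : Sg,
      HH s t 9 (term g k (qF g P)) (2 ^ 516 * (6 * ((k.p : ℝ) - k.n) * g.fn x))) :
    ∀ (gs : List GF) (ks : List Sg) (acc : Pk) (a : ℝ), (∀ g ∈ gs, GFOK g) → HH s t 9 acc a →
      HH s t 9 (comb gs ks (forms gs P) acc) (a + 2 ^ 516 * (6 * lc gs ks x)) := by
  intro gs
  induction gs with
  | nil =>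
    intro ks acc a _ h
    have : comb [] ks (forms [] P) acc = acc := by
      simp [comb]
    rw [this]
    simpa [lc] using h
  | cons g gs ih =>
    intro ks acc a hg h
    cases ks with
    | nil =>
      have : comb (g :: gs) [] (forms (g :: gs) P) acc = acc := by
        simp [comb]
      rw [this]
      simpa [lc] using h
    | cons k ks =>
      have e : comb (g :: gs) (k :: ks) (forms (g :: gs) P) acc =
          comb gs ks (forms gs P) (acc.add (term g k (qF g P))) := rfl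
      rw [e]
      have h1 := ih ks _ _ (fun g' hg' => hg g' (List.mem_cons_of_mem _ hg'))
        (h.add (hterm g (hg g List.mem_cons_self) k))
      have e2 : a + 2 ^ 516 * (6 * ((k.p : ℝ) - k.n) * g.fn x) + 2 ^ 516 * (6 * lc gs ks x) =
          a + 2 ^ 516 * (6 * lc (g :: gs) (k :: ks) x) := by
        unfold lc
        rw [List.zipWith_cons_cons, List.sum_cons]
        unfold Sg.val
        ring
      rw [← e2]
      exact h1

/-- the image of a coordinate under the channel -/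
noncomputable def yc (lam X : ℝ) : ℝ := lam * X + (1 - lam) / 4

theorem yc_nonneg {ch : Ch} {lam : ℝ} (hch : ChOK ch lam) {X : ℝ} (h0 : 0 ≤ X) (h1 : X ≤ 3 / 4) :
    0 ≤ yc lam X := by
  obtain ⟨hl, hl1, -⟩ := hch
  unfold yc
  rcases le_or_gt 0 lam with h | h
  · have := mul_nonneg h h0
    linarith
  · nlinarith

theorem yc_sum {lam : ℝ} {X : Fin 3 → ℝ} (h : X 0 + X 1 + X 2 = 3 / 4) :
    yc lam (X 0) + yc lam (X 1) + yc lam (X 2) = 3 / 4 := by
  unfold yc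
  linear_combination lam * h

/-- the normalised point -/
def nrm (X : Fin 3 → ℝ) : Fin 3 → ℝ := ![4 * X 0, 4 * X 1, 4 * X 2]

theorem chn_nrm (lam : ℝ) (X : Fin 3 → ℝ) :
    chn lam (nrm X) = ![4 * yc lam (X 0), 4 * yc lam (X 1), 4 * yc lam (X 2)] := by
  funext i
  fin_cases i <;> simp [chn, nrm, yc] <;> ring

theorem posOK_row {ch : Ch} {lam : ℝ} (hch : ChOK ch lam) {gs : List GF}
    (hgs : ∀ g ∈ gs, GFOK g) {c : Cell} {X : Fin 3 → ℝ} (hX : Srt X) (hc : InC c X)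
    (hs : Nat.ble (Nat.add c.c2 c.c3) S34 = true) {r : Row}
    (h : posOK (comb gs r.cy (forms gs (mkPt (yF ch (X1 c)) (yF ch (X2 c)) (yF ch (X3 c))))
      (comb gs r.cx (forms gs (mkPt (X1 c) (X2 c) (X3 c)))
        (cst (Nat.mul (Nat.mul 6 r.c.p) P516) (Nat.mul (Nat.mul 6 r.c.n) P516) 0))) = true) :
    0 < r.fn gs lam (nrm X) := by
  obtain ⟨s, t, hs1, ht1, a1, a2, a3⟩ := exists_st hX hc hs
  have hle : c.c2 + c.c3 ≤ S34 := Nat.le_of_ble_eq_true hs
  have g0 : 0 ≤ X 0 := hX.h2.trans (hX.h12.trans hX.h01)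
  have g1 : 0 ≤ X 1 := hX.h2.trans hX.h12
  have g2 : 0 ≤ X 2 := hX.h2
  have hsum := hX.sum
  have l0 : X 0 ≤ 3 / 4 := by linarith
  have l1 : X 1 ≤ 3 / 4 := by linarith
  have l2 : X 2 ≤ 3 / 4 := by linarith
  have v1 : (X1 c).v ≤ S34 := by
    show S34 - c.c2 - c.c3 ≤ S34
    omega
  have v2 : (X2 c).v ≤ S34 := by
    show c.c2 ≤ S34
    omega
  have v3 : (X3 c).v ≤ S34 := by
    show c.c3 ≤ S34
    omega
  have b1 := yF_sound hch hs1 ht1 a1 rfl v1 g0 l0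
  have b2 := yF_sound hch hs1 ht1 a2 rfl v2 g1 l1
  have b3 := yF_sound hch hs1 ht1 a3 rfl v3 g2 l2
  have y0 := yc_nonneg hch g0 l0
  have y1 := yc_nonneg hch g1 l1
  have y2 := yc_nonneg hch g2 l2
  have ysum := yc_sum (lam := lam) hsum
  have m0 : yc lam (X 0) ≤ 3 / 4 := by linarith
  have m1 : yc lam (X 1) ≤ 3 / 4 := by linarith
  have m2 : yc lam (X 2) ≤ 3 / 4 := by linarith
  have t1 : ∀ g, GFOK g → ∀ k : Sg, HH s t 9 (term g k (qF g (mkPt (X1 c) (X2 c) (X3 c))))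
      (2 ^ 516 * (6 * ((k.p : ℝ) - k.n) * g.fn (nrm X))) := fun g hg k =>
    term_sound hs1 ht1 hg a1 a2 a3 g0 g1 g2 hsum (mkCo_sound hs1 ht1 a1 g0 l0)
      (mkCo_sound hs1 ht1 a2 g1 l1) (mkCo_sound hs1 ht1 a3 g2 l2) k
  have t2 : ∀ g, GFOK g → ∀ k : Sg,
      HH s t 9 (term g k (qF g (mkPt (yF ch (X1 c)) (yF ch (X2 c)) (yF ch (X3 c)))))
      (2 ^ 516 * (6 * ((k.p : ℝ) - k.n) * g.fn (chn lam (nrm X)))) := fun g hg k => by
    rw [chn_nrm]
    exact term_sound hs1 ht1 hg b1 b2 b3 y0 y1 y2 ysum (mkCo_sound hs1 ht1 b1 y0 m0)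
      (mkCo_sound hs1 ht1 b2 y1 m1) (mkCo_sound hs1 ht1 b3 y2 m2) k
  have h516 : ((P516 : ℕ) : ℝ) = 2 ^ 516 := cast_pow2 516
  have h0 : HH s t 9 (cst (Nat.mul (Nat.mul 6 r.c.p) P516) (Nat.mul (Nat.mul 6 r.c.n) P516) 0)
      (2 ^ 516 * (6 * r.c.val)) := by
    refine (HH.cst _ _ 0 ?_).mono (by norm_num)
    have : (2 : ℝ) ^ 516 * (6 * r.c.val) - (((Nat.mul (Nat.mul 6 r.c.p) P516 : ℕ) : ℝ) -
        ((Nat.mul (Nat.mul 6 r.c.n) P516 : ℕ) : ℝ)) = 0 := by
      have e1 : ((Nat.mul (Nat.mul 6 r.c.p) P516 : ℕ) : ℝ) = 6 * r.c.p * 2 ^ 516 := by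
        rw [← h516]
        show (((6 * r.c.p) * P516 : ℕ) : ℝ) = _
        push_cast
        ring
      have e2 : ((Nat.mul (Nat.mul 6 r.c.n) P516 : ℕ) : ℝ) = 6 * r.c.n * 2 ^ 516 := by
        rw [← h516]
        show (((6 * r.c.n) * P516 : ℕ) : ℝ) = _
        push_cast
        ring
      rw [e1, e2]
      unfold Sg.val
      ring
    rw [this]
    simp
  have h1 := comb_sound t1 gs r.cx _ _ hgs h0
  have h2 := comb_sound t2 gs r.cy _ _ hgs h1
  have h3 := posOK_sound hs1 ht1 h h2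
  have h4 : (2 : ℝ) ^ 516 * (6 * r.c.val) + 2 ^ 516 * (6 * lc gs r.cx (nrm X)) +
      2 ^ 516 * (6 * lc gs r.cy (chn lam (nrm X))) = 2 ^ 516 * 6 * r.fn gs lam (nrm X) := by
    unfold Row.fn
    ring
  rw [h4] at h3
  exact (mul_pos_iff_of_pos_left (by positivity)).1 h3

theorem ad_le {a b r z : ℕ} (h : Nat.ble (Nat.add (ad a b) r) z = true) :
    |(a : ℝ) - b| + r ≤ z := by
  have h1 : ad a b + r ≤ z := Nat.le_of_ble_eq_true h
  rw [← pkb_ad]
  exact_mod_cast h1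

theorem inzone_sound {c : Cell} {X : Fin 3 → ℝ} (hX : Srt X) (hc : InC c X) {z : ℕ}
    (h : inzone z c = true) : ∀ i, |nrm X i - 1| ≤ (z : ℝ) / 2 ^ 58 := by
  unfold inzone at h
  rw [Bool.and_eq_true, Bool.and_eq_true] at h
  obtain ⟨h1, h2, h3⟩ := h
  have k1 := ad_le h1
  have k2 := ad_le h2
  have k3 : |((c.c2 : ℝ) + c.c3) - 2 * (S14 : ℕ)| + ((c.r2 : ℝ) + c.r3) ≤ z := by
    have h3' : ad (Nat.add c.c2 c.c3) (Nat.mul 2 S14) + (c.r2 + c.r3) ≤ z :=
      Nat.le_of_ble_eq_true h3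
    have e := pkb_ad (Nat.add c.c2 c.c3) (Nat.mul 2 S14)
    have h3'' : ((ad (Nat.add c.c2 c.c3) (Nat.mul 2 S14) : ℕ) : ℝ) + ((c.r2 : ℝ) + c.r3) ≤ z := by
      exact_mod_cast h3'
    rw [e] at h3''
    have e1 : ((Nat.add c.c2 c.c3 : ℕ) : ℝ) = (c.c2 : ℝ) + c.c3 := by
      show ((c.c2 + c.c3 : ℕ) : ℝ) = _
      push_cast
      ring
    have e2 : ((Nat.mul 2 S14 : ℕ) : ℝ) = 2 * ((S14 : ℕ) : ℝ) := by
      show ((2 * S14 : ℕ) : ℝ) = _
      push_cast
      ring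
    rw [e1, e2] at h3''
    exact h3''
  rw [S14_val] at k1 k2 k3
  have hs := hX.sum
  obtain ⟨i1, i2⟩ := hc
  have key : ∀ w : ℝ, |2 ^ 60 * w - 2 ^ 58| ≤ (z : ℝ) → |4 * w - 1| ≤ (z : ℝ) / 2 ^ 58 := by
    intro w hw
    rw [le_div_iff₀ (by positivity)]
    have e : |4 * w - 1| * 2 ^ 58 = |2 ^ 60 * w - 2 ^ 58| := by
      rw [← abs_of_pos (show (0 : ℝ) < 2 ^ 58 by positivity), ← abs_mul,
        abs_of_pos (show (0 : ℝ) < 2 ^ 58 by positivity)]
      congr 1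
      ring
    rw [e]
    exact hw
  intro i
  fin_cases i
  · refine key (X 0) ?_
    have e : 2 ^ 60 * X 0 - 2 ^ 58 = -(2 ^ 60 * X 1 - (c.c2 : ℝ)) - (2 ^ 60 * X 2 - (c.c3 : ℝ)) -
        ((c.c2 : ℝ) + c.c3 - 2 * 2 ^ 58) := by
      linear_combination (2 ^ 60) * hs
    rw [e]
    have a1 := abs_le.1 i1
    have a2 := abs_le.1 i2
    have a3 := abs_le.1 (le_refl (|(c.c2 : ℝ) + c.c3 - 2 * 2 ^ 58|))
    rw [abs_le]
    constructor <;> linarith [a1.1, a1.2, a2.1, a2.2, a3.1, a3.2]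
  · refine key (X 1) ?_
    have a1 := abs_le.1 i1
    have a3 := abs_le.1 (le_refl (|(c.c2 : ℝ) - 2 ^ 58|))
    rw [abs_le]
    constructor <;> linarith [a1.1, a1.2, a3.1, a3.2]
  · refine key (X 2) ?_
    have a1 := abs_le.1 i2
    have a3 := abs_le.1 (le_refl (|(c.c3 : ℝ) - 2 ^ 58|))
    rw [abs_le]
    constructor <;> linarith [a1.1, a1.2, a3.1, a3.2]

theorem capout_sound {c : Cell} {X : Fin 3 → ℝ} (hX : Srt X) (hc : InC c X)
    (h : capout c = true) : 4 / 3 < nrm X 0 := by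
  unfold capout at h
  have h1 : Nat.add (Nat.add c.c2 c.c3) (Nat.add (Nat.add c.r2 c.r3) S13) < S34 :=
    Nat.lt_of_not_le (by
      intro h2
      have := Nat.ble_eq_true_of_le h2
      unfold Nat.blt at h
      have h4 : Nat.add (Nat.add c.c2 c.c3) (Nat.add (Nat.add c.r2 c.r3) S13) + 1 ≤ S34 :=
        Nat.le_of_ble_eq_true h
      omega)
  have h2 : (c.c2 : ℝ) + c.c3 + (c.r2 + c.r3 + S13) < S34 := by
    have : ((c.c2 + c.c3 + (c.r2 + c.r3 + S13) : ℕ) : ℝ) < S34 := by exact_mod_cast h1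
    push_cast at this
    exact this
  have h13 : (2 : ℝ) ^ 60 / 3 ≤ ((S13 : ℕ) : ℝ) := by norm_num [S13]
  rw [S34_val] at h2
  have hs := hX.sum
  obtain ⟨i1, i2⟩ := hc
  have a1 := abs_le.1 i1
  have a2 := abs_le.1 i2
  show 4 / 3 < 4 * X 0
  have : (2 : ℝ) ^ 60 * (1 / 3) < 2 ^ 60 * X 0 := by
    have e : X 0 = 3 / 4 - X 1 - X 2 := by linarith
    rw [e]
    linarith [a1.1, a1.2, a2.1, a2.2]
  have := lt_of_mul_lt_mul_left this (by positivity)
  linarith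

theorem outside_sound {c : Cell} {X : Fin 3 → ℝ} (hX : Srt X) (hc : InC c X) :
    outside c = false := by
  cases h : outside c
  · rfl
  exfalso
  unfold outside at h
  rw [Bool.or_eq_true] at h
  obtain ⟨i1, i2⟩ := hc
  have a1 := abs_le.1 i1
  have a2 := abs_le.1 i2
  have hs := hX.sum
  have h01 := hX.h01
  have h12 := hX.h12
  rcases h with h | h
  · have h1 : c.c2 + c.r2 + c.r3 + 1 ≤ c.c3 := Nat.le_of_ble_eq_true h
    have h2 : (c.c2 : ℝ) + c.r2 + c.r3 + 1 ≤ c.c3 := by exact_mod_cast h1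
    linarith [a1.1, a1.2, a2.1, a2.2]
  · have h1 : S34 + c.r3 + 2 * c.r2 + 1 ≤ 2 * c.c2 + c.c3 := Nat.le_of_ble_eq_true h
    have h2 : ((S34 : ℕ) : ℝ) + c.r3 + 2 * c.r2 + 1 ≤ 2 * c.c2 + c.c3 := by exact_mod_cast h1
    rw [S34_val] at h2
    have e : X 0 = 3 / 4 - X 1 - X 2 := by linarith
    rw [e] at h01
    linarith [a1.1, a1.2, a2.1, a2.2]

/-- the exceptions of a row -/
def Exc (r : Row) (x : Fin 3 → ℝ) : Prop :=
  (r.zf = true → ¬ ∀ i, |x i - 1| ≤ (r.z : ℝ) / 2 ^ 58) ∧ (r.cap = true → ∀ i, x i ≤ 4 / 3)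

theorem rowOK_sound {ch : Ch} {lam : ℝ} (hch : ChOK ch lam) {gs : List GF}
    (hgs : ∀ g ∈ gs, GFOK g) {c : Cell} {X : Fin 3 → ℝ} (hX : Srt X) (hc : InC c X)
    (hs : Nat.ble (Nat.add c.c2 c.c3) S34 = true) {r : Row}
    (h : rowOK gs (forms gs (mkPt (X1 c) (X2 c) (X3 c)))
      (forms gs (mkPt (yF ch (X1 c)) (yF ch (X2 c)) (yF ch (X3 c)))) c r = true)
    (he : Exc r (nrm X)) : 0 < r.fn gs lam (nrm X) := by
  unfold rowOK at h
  rw [Bool.or_eq_true, Bool.or_eq_true, Bool.and_eq_true, Bool.and_eq_true] at h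
  rcases h with ⟨h1, h2⟩ | ⟨h1, h2⟩ | h
  · exact absurd (inzone_sound hX hc h2) (he.1 h1)
  · have := capout_sound hX hc h2
    have h3 := he.2 h1 0
    linarith
  · exact posOK_row hch hgs hX hc hs h

theorem half_cast {r : ℕ} (h : Nat.beq (Nat.mod r 2) 0 = true) :
    ((Nat.div r 2 : ℕ) : ℝ) = r / 2 := by
  have h1 : r % 2 = 0 := Nat.eq_of_beq_eq_true h
  have h2 : 2 * (r / 2) = r := by omega
  have h3 : (2 : ℝ) * ((r / 2 : ℕ) : ℝ) = r := by exact_mod_cast h2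
  show ((r / 2 : ℕ) : ℝ) = r / 2
  linarith

theorem spl2 {c : Cell} {X : Fin 3 → ℝ} (hc : InC c X)
    (h : (Nat.beq (Nat.mod c.r2 2) 0 && Nat.ble c.r2 c.c2) = true) :
    InC c.a2 X ∨ InC c.b2 X := by
  rw [Bool.and_eq_true] at h
  have e1 := half_cast h.1
  have h2 : c.r2 ≤ c.c2 := Nat.le_of_ble_eq_true h.2
  obtain ⟨i1, i2⟩ := hc
  have a1 := abs_le.1 i1
  rcases le_total (2 ^ 60 * X 1) (c.c2 : ℝ) with hh | hh
  · left
    refine ⟨?_, i2⟩
    have e2 : ((c.a2.c2 : ℕ) : ℝ) = c.c2 - c.r2 / 2 := by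
      have : c.a2.c2 + Nat.div c.r2 2 = c.c2 := by
        show (c.c2 - c.r2 / 2) + c.r2 / 2 = c.c2
        omega
      have h3 : ((c.a2.c2 : ℕ) : ℝ) + ((Nat.div c.r2 2 : ℕ) : ℝ) = c.c2 := by exact_mod_cast this
      rw [e1] at h3
      linarith
    have e3 : ((c.a2.r2 : ℕ) : ℝ) = c.r2 / 2 := e1
    rw [e2, e3, abs_le]
    constructor <;> linarith [a1.1, a1.2]
  · right
    refine ⟨?_, i2⟩
    have e2 : ((c.b2.c2 : ℕ) : ℝ) = c.c2 + c.r2 / 2 := by
      show ((c.c2 + Nat.div c.r2 2 : ℕ) : ℝ) = _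
      rw [Nat.cast_add, e1]
    have e3 : ((c.b2.r2 : ℕ) : ℝ) = c.r2 / 2 := e1
    rw [e2, e3, abs_le]
    constructor <;> linarith [a1.1, a1.2]

theorem spl3 {c : Cell} {X : Fin 3 → ℝ} (hc : InC c X)
    (h : (Nat.beq (Nat.mod c.r3 2) 0 && Nat.ble c.r3 c.c3) = true) :
    InC c.a3 X ∨ InC c.b3 X := by
  rw [Bool.and_eq_true] at h
  have e1 := half_cast h.1
  have h2 : c.r3 ≤ c.c3 := Nat.le_of_ble_eq_true h.2
  obtain ⟨i1, i2⟩ := hc
  have a1 := abs_le.1 i2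
  rcases le_total (2 ^ 60 * X 2) (c.c3 : ℝ) with hh | hh
  · left
    refine ⟨i1, ?_⟩
    have e2 : ((c.a3.c3 : ℕ) : ℝ) = c.c3 - c.r3 / 2 := by
      have : c.a3.c3 + Nat.div c.r3 2 = c.c3 := by
        show (c.c3 - c.r3 / 2) + c.r3 / 2 = c.c3
        omega
      have h3 : ((c.a3.c3 : ℕ) : ℝ) + ((Nat.div c.r3 2 : ℕ) : ℝ) = c.c3 := by exact_mod_cast this
      rw [e1] at h3
      linarith
    have e3 : ((c.a3.r3 : ℕ) : ℝ) = c.r3 / 2 := e1
    rw [e2, e3, abs_le]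
    constructor <;> linarith [a1.1, a1.2]
  · right
    refine ⟨i1, ?_⟩
    have e2 : ((c.b3.c3 : ℕ) : ℝ) = c.c3 + c.r3 / 2 := by
      show ((c.c3 + Nat.div c.r3 2 : ℕ) : ℝ) = _
      rw [Nat.cast_add, e1]
    have e3 : ((c.b3.r3 : ℕ) : ℝ) = c.r3 / 2 := e1
    rw [e2, e3, abs_le]
    constructor <;> linarith [a1.1, a1.2]

theorem run_cell {ch : Ch} {lam : ℝ} (hch : ChOK ch lam) {gs : List GF}
    (hgs : ∀ g ∈ gs, GFOK g) {X : Fin 3 → ℝ} (hX : Srt X) :
    ∀ (n : ℕ) (c : Cell) (rows : List Row), run ch gs n c rows = true → InC c X →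
      ∀ r ∈ rows, Exc r (nrm X) → 0 < r.fn gs lam (nrm X) := by
  intro n
  induction n with
  | zero =>
    intro c rows h _ r hr _
    cases rows with
    | nil => cases hr
    | cons a l => simp [run] at h
  | succ n ih =>
    intro c rows h hc r hr he
    rw [run, outside_sound hX hc, Bool.false_or, Bool.and_eq_true] at h
    obtain ⟨hs, h⟩ := h
    by_cases hok : rowOK gs (forms gs (mkPt (X1 c) (X2 c) (X3 c)))
      (forms gs (mkPt (yF ch (X1 c)) (yF ch (X2 c)) (yF ch (X3 c)))) c r = true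
    · exact rowOK_sound hch hgs hX hc hs hok he
    · have hmem : r ∈ rest ch gs c rows := by
        unfold rest
        rw [List.mem_filter]
        refine ⟨hr, ?_⟩
        simpa using hok
      cases hrest : rest ch gs c rows with
      | nil => rw [hrest] at hmem; cases hmem
      | cons r' rs =>
        rw [hrest] at h hmem
        simp only [Bool.and_eq_true] at h
        obtain ⟨h1, h2⟩ := h
        unfold spl at h1
        cases hsp : split2 c with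
        | true =>
          rw [hsp] at h1 h2
          rw [cond_true] at h1 h2
          rw [Bool.and_eq_true] at h2
          rcases spl2 hc h1 with h3 | h3
          · exact ih _ _ h2.1 h3 r hmem he
          · exact ih _ _ h2.2 h3 r hmem he
        | false =>
          rw [hsp] at h1 h2
          rw [cond_false] at h1 h2
          rw [Bool.and_eq_true] at h2
          rcases spl3 hc h1 with h3 | h3
          · exact ih _ _ h2.1 h3 r hmem he
          · exact ih _ _ h2.2 h3 r hmem he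

theorem coverC_sound {L : List Cell} {X : Fin 3 → ℝ} (hX : Srt X) :
    ∀ (n : ℕ) (c : Cell), coverC L n c = true → InC c X → ∃ c' ∈ L, InC c' X := by
  intro n
  induction n with
  | zero =>
    intro c h hc
    exact ⟨c, of_decide_eq_true h, hc⟩
  | succ n ih =>
    intro c h hc
    rw [coverC, outside_sound hX hc, Bool.false_or, Bool.or_eq_true, Bool.and_eq_true] at h
    rcases h with h | ⟨h1, h2⟩
    · exact ⟨c, of_decide_eq_true h, hc⟩
    · unfold spl at h1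
      cases hsp : split2 c with
      | true =>
        rw [hsp] at h1 h2
        rw [cond_true] at h1 h2
        rw [Bool.and_eq_true] at h2
        rcases spl2 hc h1 with h3 | h3
        · exact ih _ h2.1 h3
        · exact ih _ h2.2 h3
      | false =>
        rw [hsp] at h1 h2
        rw [cond_false] at h1 h2
        rw [Bool.and_eq_true] at h2
        rcases spl3 hc h1 with h3 | h3
        · exact ih _ h2.1 h3
        · exact ih _ h2.2 h3

theorem in_cell0 {X : Fin 3 → ℝ} (hX : Srt X) :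
    InC ⟨216172782113783808, 216172782113783808, 144115188075855872, 144115188075855872⟩ X := by
  have hs := hX.sum
  have h01 := hX.h01
  have h12 := hX.h12
  have h2 := hX.h2
  constructor
  · show |2 ^ 60 * X 1 - ((216172782113783808 : ℕ) : ℝ)| ≤ ((216172782113783808 : ℕ) : ℝ)
    push_cast
    rw [abs_le]
    constructor <;> linarith
  · show |2 ^ 60 * X 2 - ((144115188075855872 : ℕ) : ℝ)| ≤ ((144115188075855872 : ℕ) : ℝ)
    push_cast
    rw [abs_le]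
    constructor <;> linarith

theorem lc_perm {gs : List GF} (hgs : ∀ g ∈ gs, GFOK g) (ks : List Sg)
    (σ : Equiv.Perm (Fin 3)) {x : Fin 3 → ℝ} (hx : ∀ i, 0 ≤ x i) :
    lc gs ks (x ∘ σ) = lc gs ks x := by
  unfold lc
  congr 1
  induction gs generalizing ks with
  | nil => simp
  | cons g gs ih =>
    cases ks with
    | nil => simp
    | cons k ks =>
      rw [List.zipWith_cons_cons, List.zipWith_cons_cons,
        ih (fun g' hg' => hgs g' (List.mem_cons_of_mem _ hg')) ks,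
        GF.fn_perm (hgs g List.mem_cons_self) σ hx]

theorem sum_perm (σ : Equiv.Perm (Fin 3)) (x : Fin 3 → ℝ) :
    (x ∘ σ) 0 + (x ∘ σ) 1 + (x ∘ σ) 2 = x 0 + x 1 + x 2 := by
  have h1 : ∑ i, (x ∘ σ) i = ∑ i, x i := Equiv.sum_comp σ x
  rw [Fin.sum_univ_three, Fin.sum_univ_three] at h1
  exact h1

/-- reduction to sorted points -/
theorem sorted_red {lam : ℝ} {ch : Ch} (hch : ChOK ch lam) {gs : List GF}
    (hgs : ∀ g ∈ gs, GFOK g) {r : Row}
    (H : ∀ X, Srt X → Exc r (nrm X) → 0 < r.fn gs lam (nrm X)) {x : Fin 3 → ℝ}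
    (hx : ∀ i, 0 ≤ x i) (hsum : x 0 + x 1 + x 2 = 3) (he : Exc r x) : 0 < r.fn gs lam x := by
  set σ := Tuple.sort (fun i => - x i) with hσ
  have hm : Monotone ((fun i => - x i) ∘ σ) := Tuple.monotone_sort _
  set X : Fin 3 → ℝ := fun i => x (σ i) / 4 with hX
  have e : nrm X = x ∘ σ := by
    funext i
    fin_cases i <;> simp [nrm, X] <;> ring
  have hS : Srt X := by
    have h1 := sum_perm σ x
    simp only [Function.comp] at h1
    have h01 : - x (σ 0) ≤ - x (σ 1) := hm (show (0 : Fin 3) ≤ 1 by decide)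
    have h12 : - x (σ 1) ≤ - x (σ 2) := hm (show (1 : Fin 3) ≤ 2 by decide)
    refine ⟨?_, ?_, ?_, ?_⟩
    · show x (σ 0) / 4 + x (σ 1) / 4 + x (σ 2) / 4 = 3 / 4
      linarith
    · show x (σ 1) / 4 ≤ x (σ 0) / 4
      linarith
    · show x (σ 2) / 4 ≤ x (σ 1) / 4
      linarith
    · show 0 ≤ x (σ 2) / 4
      have := hx (σ 2)
      linarith
  have he' : Exc r (nrm X) := by
    rw [e]
    refine ⟨fun hz h => he.1 hz fun i => ?_, fun hc i => he.2 hc (σ i)⟩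
    have := h (σ.symm i)
    simpa using this
  have h := H X hS he'
  rw [e] at h
  have e2 : chn lam (x ∘ σ) = chn lam x ∘ σ := rfl
  have hy : ∀ i, 0 ≤ chn lam x i := by
    intro i
    have hi : x i ≤ 3 := by
      have h0 := hx 0
      have h1 := hx 1
      have h2 := hx 2
      fin_cases i <;> simp <;> linarith
    have := yc_nonneg hch (X := x i / 4) (by linarith [hx i]) (by linarith)
    unfold yc at this
    unfold chn
    linarith
  unfold Row.fn at h ⊢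
  rw [lc_perm hgs _ σ hx, e2, lc_perm hgs _ σ hy] at h
  exact h

theorem run_sound {ch : Ch} {lam : ℝ} (hch : ChOK ch lam) {gs : List GF} (hgs : ∀ g ∈ gs, GFOK g)
    {n : ℕ} {rows : List Row}
    (h : run ch gs n ⟨216172782113783808, 216172782113783808, 144115188075855872, 144115188075855872⟩
      rows = true) {r : Row} (hr : r ∈ rows) {x : Fin 3 → ℝ} (hx : ∀ i, 0 ≤ x i)
    (hsum : x 0 + x 1 + x 2 = 3)
    (hz : r.zf = true → ¬ ∀ i, |x i - 1| ≤ (r.z : ℝ) / 2 ^ 58)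
    (hc : r.cap = true → ∀ i, x i ≤ 4 / 3) : 0 < r.fn gs lam x :=
  sorted_red hch hgs (fun _ hX he => run_cell hch hgs hX n _ rows h (in_cell0 hX) r hr he) hx hsum
    ⟨hz, hc⟩

/-- version with a list of cells covering the domain -/
theorem run_sound_list {ch : Ch} {lam : ℝ} (hch : ChOK ch lam) {gs : List GF}
    (hgs : ∀ g ∈ gs, GFOK g) {L : List Cell} {n0 : ℕ}
    (hcov : coverC L n0
      ⟨216172782113783808, 216172782113783808, 144115188075855872, 144115188075855872⟩ = true)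
    {rows : List Row} (h : ∀ c ∈ L, ∃ n, run ch gs n c rows = true) {r : Row} (hr : r ∈ rows)
    {x : Fin 3 → ℝ} (hx : ∀ i, 0 ≤ x i) (hsum : x 0 + x 1 + x 2 = 3)
    (hz : r.zf = true → ¬ ∀ i, |x i - 1| ≤ (r.z : ℝ) / 2 ^ 58)
    (hc : r.cap = true → ∀ i, x i ≤ 4 / 3) : 0 < r.fn gs lam x := by
  refine sorted_red hch hgs (fun X hX he => ?_) hx hsum ⟨hz, hc⟩
  obtain ⟨c, hcL, hcX⟩ := coverC_sound hX n0 _ hcov (in_cell0 hX)
  obtain ⟨n, hn⟩ := h c hcL
  exact run_cell hch hgs hX n c rows hn hcX r hr he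

end Vale.Agent.P154.Pk
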