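import Vale.Agent.P154.PkB
import Vale.Agent.P154.PkD
import Vale.Agent.P154.PkF

/-!
# Soundness of the recursive check: definitions (helper12)
-/

namespace Vale.Agent.P154.Pk

open Near

/-- the channel acting on normalised coordinates -/
noncomputable def chn (lam : ℝ) (x : Fin 3 → ℝ) : Fin 3 → ℝ := fun i => lam * x i + (1 - lam)

/-- the channel data approximate `lam` -/
def ChOK (ch : Ch) (lam : ℝ) : Prop :=
  -(1 / 2) ≤ lam ∧ lam ≤ 1 ∧ ch.L ≤ S60 ∧ (ch.neg = true → 2 * ch.L ≤ S60) ∧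
    |2 ^ 60 * lam - (if ch.neg then -(ch.L : ℝ) else ch.L)| ≤ 1

/-- integer value -/
def Sg.val (k : Sg) : ℝ := (k.p : ℝ) - k.n

theorem Sg.val_force : True := by
  have h0 := @Sg.val.eq_1
  trivial

/-- linear combination -/
noncomputable def lc (gs : List GF) (ks : List Sg) (x : Fin 3 → ℝ) : ℝ :=
  (List.zipWith (fun g k => Sg.val k * GF.fn g x) gs ks).sum

/-- left side of a row -/
noncomputable def Row.fn (r : Row) (gs : List GF) (lam : ℝ) (x : Fin 3 → ℝ) : ℝ :=
  r.c.val + lc gs r.cx x + lc gs r.cy (chn lam x)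

end Vale.Agent.P154.Pk
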