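import Vale.Agent.P154.PkG0

/-!
# Soundness of the channel step (task PK-G1)
-/

namespace Vale.Agent.P154.Pk

theorem fl_div (n : ℕ) : ∃ r : ℝ, 0 ≤ r ∧ r ≤ 1 ∧ ((n / S60 : ℕ) : ℝ) = (n : ℝ) / 2 ^ 60 - r := by
  have hS : ((S60 : ℕ) : ℝ) = 2 ^ 60 := by unfold S60; norm_num
  have hpos : 0 < S60 := by unfold S60; norm_num
  refine ⟨(n : ℝ) / 2 ^ 60 - ((n / S60 : ℕ) : ℝ), ?_, ?_, by ring⟩
  · have := Nat.cast_div_le (α := ℝ) (m := n) (n := S60)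
    rw [hS] at this
    linarith
  · have h1 : n < S60 * (n / S60 + 1) := Nat.lt_mul_div_succ n hpos
    have h2 : (n : ℝ) < 2 ^ 60 * (((n / S60 : ℕ) : ℝ) + 1) := by
      rw [← hS]
      exact_mod_cast h1
    have h3 : (n : ℝ) / 2 ^ 60 ≤ ((n / S60 : ℕ) : ℝ) + 1 := by
      rw [div_le_iff₀ (by positivity)]
      linarith
    linarith

theorem fl_four (n : ℕ) : ∃ r : ℝ, 0 ≤ r ∧ r ≤ 1 ∧ ((n / 4 : ℕ) : ℝ) = (n : ℝ) / 4 - r := by
  refine ⟨(n : ℝ) / 4 - ((n / 4 : ℕ) : ℝ), ?_, ?_, by ring⟩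
  · have := Nat.cast_div_le (α := ℝ) (m := n) (n := 4)
    push_cast at this
    linarith
  · have h1 : n < 4 * (n / 4 + 1) := Nat.lt_mul_div_succ n (by norm_num)
    have h2 : (n : ℝ) < 4 * (((n / 4 : ℕ) : ℝ) + 1) := by exact_mod_cast h1
    linarith

theorem prod_bd {a b s : ℝ} (ha0 : 0 ≤ a) (ha1 : a ≤ 1) (hb0 : 0 ≤ b) (hb1 : b ≤ 1) (hs : |s| ≤ 1) :
    |(a - b) * s| ≤ 1 := by
  rw [abs_mul]
  have : |a - b| ≤ 1 := abs_le.2 ⟨by linarith, by linarith⟩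
  exact mul_le_one₀ this (abs_nonneg _) hs

theorem yF_sound {ch : Ch} {lam : ℝ} (hch : ChOK ch lam) {s t : ℝ} (hs : |s| ≤ 1) (ht : |t| ≤ 1)
    {F : Af} {X : ℝ} (h : AfH s t F X) (he : F.e = 0) (hv : F.v ≤ S34) (h0 : 0 ≤ X)
    (h1 : X ≤ 3 / 4) : AfH s t (yF ch F) (lam * X + (1 - lam) / 4) := by
  obtain ⟨-, -, hL, hneg, hlam⟩ := hch
  have hS : ((S60 : ℕ) : ℝ) = 2 ^ 60 := by unfold S60; norm_num
  unfold AfH at h ⊢
  rw [he] at h
  have hX : 2 ^ 60 * X = (F.v : ℝ) + ((F.ap : ℝ) - F.an) * s + ((F.bp : ℝ) - F.bn) * t := by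
    have := abs_nonpos_iff.1 (by simpa using h : |2 ^ 60 * X - ((F.v : ℝ) + ((F.ap : ℝ) - F.an) * s +
      ((F.bp : ℝ) - F.bn) * t)| ≤ 0)
    linarith
  have hX4 : |X - 1 / 4| ≤ 1 := abs_le.2 ⟨by linarith, by linarith⟩
  obtain ⟨r1, r10, r11, e1⟩ := fl_div (ch.L * F.v)
  obtain ⟨r2, r20, r21, e2⟩ := fl_div (ch.L * F.ap)
  obtain ⟨r3, r30, r31, e3⟩ := fl_div (ch.L * F.an)
  obtain ⟨r4, r40, r41, e4⟩ := fl_div (ch.L * F.bp)
  obtain ⟨r5, r50, r51, e5⟩ := fl_div (ch.L * F.bn)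
  push_cast at e1 e2 e3 e4 e5
  have b1 := prod_bd r20 r21 r30 r31 hs
  have b2 := prod_bd r40 r41 r50 r51 ht
  have b1' := abs_le.1 b1
  have b2' := abs_le.1 b2
  rcases Bool.eq_false_or_eq_true ch.neg with hn | hn
  · -- negative
    have hL2 := hneg hn
    rw [if_pos hn] at hlam
    have hy : yF ch F = ⟨(S60 + ch.L) / 4 - ch.L * F.v / S60,
     ch.L * F.an / S60, ch.L * F.ap / S60, ch.L * F.bn / S60, ch.L * F.bp / S60, 8⟩ := by
      unfold yF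
      rw [hn]
      rfl
    rw [hy]
    dsimp only
    obtain ⟨r6, r60, r61, e6⟩ := fl_four (S60 + ch.L)
    push_cast at e6
    rw [hS] at e6
    have hle : ch.L * F.v / S60 ≤ (S60 + ch.L) / 4 := by
      calc ch.L * F.v / S60 ≤ ch.L * S34 / S60 := Nat.div_le_div_right (Nat.mul_le_mul_left _ hv)
        _ = (ch.L * 3) * S14 / (4 * S14) := by
            have a1 : S34 = 3 * S14 := by unfold S34 S14; norm_num
            have a2 : S60 = 4 * S14 := by unfold S60 S14; norm_num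
            rw [a1, a2, mul_assoc]
        _ = (ch.L * 3) / 4 := Nat.mul_div_mul_right _ _ (by unfold S14; norm_num)
        _ ≤ (S60 + ch.L) / 4 := Nat.div_le_div_right (by omega)
    rw [Nat.cast_sub hle, e1, e2, e3, e4, e5, e6]
    set δ : ℝ := 2 ^ 60 * lam - -(ch.L : ℝ) with hδ
    have hδX : |δ * (X - 1 / 4)| ≤ 1 := by
      rw [abs_mul]
      exact mul_le_one₀ hlam (abs_nonneg _) hX4
    have hδX' := abs_le.1 hδX
    have key : 2 ^ 60 * (lam * X + (1 - lam) / 4) - (((2 ^ 60 + (ch.L : ℝ)) / 4 - r6 -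
        ((ch.L : ℝ) * F.v / 2 ^ 60 - r1)) +
        ((ch.L : ℝ) * F.an / 2 ^ 60 - r3 - ((ch.L : ℝ) * F.ap / 2 ^ 60 - r2)) * s +
        ((ch.L : ℝ) * F.bn / 2 ^ 60 - r5 - ((ch.L : ℝ) * F.bp / 2 ^ 60 - r4)) * t) =
        δ * (X - 1 / 4) + r6 - r1 - (r2 - r3) * s - (r4 - r5) * t := by
      rw [hδ]
      have hX' : X = ((F.v : ℝ) + ((F.ap : ℝ) - F.an) * s + ((F.bp : ℝ) - F.bn) * t) / 2 ^ 60 := by
        rw [eq_div_iff (by positivity)]
        linarith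
      rw [hX']
      ring
    rw [key]
    norm_num
    exact abs_le.2 ⟨by linarith, by linarith⟩
  · rw [if_neg (by rw [hn]; exact Bool.false_ne_true)] at hlam
    have hy : yF ch F = ⟨(S60 - ch.L) / 4 + ch.L * F.v / S60,
     ch.L * F.ap / S60, ch.L * F.an / S60, ch.L * F.bp / S60, ch.L * F.bn / S60, 8⟩ := by
      unfold yF
      rw [hn]
      rfl
    rw [hy]
    dsimp only
    obtain ⟨r6, r60, r61, e6⟩ := fl_four (S60 - ch.L)
    rw [Nat.cast_sub hL, hS] at e6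
    rw [Nat.cast_add, e1, e2, e3, e4, e5, e6]
    set δ : ℝ := 2 ^ 60 * lam - (ch.L : ℝ) with hδ
    have hδX : |δ * (X - 1 / 4)| ≤ 1 := by
      rw [abs_mul]
      exact mul_le_one₀ hlam (abs_nonneg _) hX4
    have hδX' := abs_le.1 hδX
    have key : 2 ^ 60 * (lam * X + (1 - lam) / 4) - (((2 ^ 60 - (ch.L : ℝ)) / 4 - r6 +
        ((ch.L : ℝ) * F.v / 2 ^ 60 - r1)) +
        ((ch.L : ℝ) * F.ap / 2 ^ 60 - r2 - ((ch.L : ℝ) * F.an / 2 ^ 60 - r3)) * s +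
        ((ch.L : ℝ) * F.bp / 2 ^ 60 - r4 - ((ch.L : ℝ) * F.bn / 2 ^ 60 - r5)) * t) =
        δ * (X - 1 / 4) + r6 + r1 + (r2 - r3) * s + (r4 - r5) * t := by
      rw [hδ]
      have hX' : X = ((F.v : ℝ) + ((F.ap : ℝ) - F.an) * s + ((F.bp : ℝ) - F.bn) * t) / 2 ^ 60 := by
        rw [eq_div_iff (by positivity)]
        linarith
      rw [hX']
      ring
    rw [key]
    norm_num
    exact abs_le.2 ⟨by linarith, by linarith⟩

end Vale.Agent.P154.Pk
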