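import Vale.Agent.P154.UniFin

/-!
# Certificates on an interval of values of `m` (task PK-H)
-/

namespace Vale.Agent.P154.Pk

open Near Mu Uni Finset

/-- tangent inequality for powers -/
theorem tangent_pow {u v : ℝ} (hu : 0 ≤ u) (hv : 0 ≤ v) (n : ℕ) :
    v ^ (n + 1) + ((n : ℝ) + 1) * v ^ n * (u - v) ≤ u ^ (n + 1) := by
  induction n with
  | zero => simp
  | succ n ih =>
    have h1 := mul_le_mul_of_nonneg_left ih hu
    have h2 : 0 ≤ v ^ n * (((n : ℝ) + 1) * (u - v) ^ 2) := by positivity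
    push_cast
    have e : v ^ (n + 1 + 1) + ((n : ℝ) + 1 + 1) * v ^ (n + 1) * (u - v) +
        v ^ n * (((n : ℝ) + 1) * (u - v) ^ 2) =
        u * (v ^ (n + 1) + ((n : ℝ) + 1) * v ^ n * (u - v)) := by ring
    have e2 : u ^ (n + 1 + 1) = u * u ^ (n + 1) := by ring
    rw [e2]
    linarith

/-- second order lower bound -/
theorem second_pow {a b c : ℝ} (hc : 0 ≤ c) (hca : c ≤ a) (hcb : c ≤ b) (n : ℕ) :
    b ^ (n + 2) + ((n : ℝ) + 2) * b ^ (n + 1) * (a - b) +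
      (1 / 2) * ((n : ℝ) + 2) * ((n : ℝ) + 1) * c ^ n * (a - b) ^ 2 ≤ a ^ (n + 2) := by
  have ha : 0 ≤ a := hc.trans hca
  have hb : 0 ≤ b := hc.trans hcb
  induction n with
  | zero =>
    refine le_of_eq ?_
    push_cast
    ring
  | succ n ih =>
    have h1 := mul_le_mul_of_nonneg_left ih ha
    have e2 : a ^ (n + 1 + 2) = a * a ^ (n + 2) := by ring
    rw [e2]
    refine le_trans ?_ h1
    have h3 : c ^ (n + 1) ≤ b ^ (n + 1) := pow_le_pow_left₀ hc hcb _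
    have h4 : c ^ (n + 1) ≤ c ^ n * a := by
      rw [pow_succ]
      exact mul_le_mul_of_nonneg_left hca (pow_nonneg hc n)
    have hn : (0 : ℝ) ≤ n := Nat.cast_nonneg n
    have h5 : 0 ≤ (((n : ℝ) + 2) * (b ^ (n + 1) - c ^ (n + 1)) +
        (1 / 2) * ((n : ℝ) + 2) * ((n : ℝ) + 1) * (c ^ n * a - c ^ (n + 1))) * (a - b) ^ 2 := by
      have : 0 ≤ b ^ (n + 1) - c ^ (n + 1) := sub_nonneg.2 h3
      have : 0 ≤ c ^ n * a - c ^ (n + 1) := sub_nonneg.2 h4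
      positivity
    push_cast
    have e3 : a * (b ^ (n + 2) + ((n : ℝ) + 2) * b ^ (n + 1) * (a - b) +
        (1 / 2) * ((n : ℝ) + 2) * ((n : ℝ) + 1) * c ^ n * (a - b) ^ 2) -
        (b ^ (n + 1 + 2) + ((n : ℝ) + 1 + 2) * b ^ (n + 1 + 1) * (a - b) +
          (1 / 2) * ((n : ℝ) + 1 + 2) * ((n : ℝ) + 1 + 1) * c ^ (n + 1) * (a - b) ^ 2) =
        (((n : ℝ) + 2) * (b ^ (n + 1) - c ^ (n + 1)) +
        (1 / 2) * ((n : ℝ) + 2) * ((n : ℝ) + 1) * (c ^ n * a - c ^ (n + 1))) * (a - b) ^ 2 := by ring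
    linarith

theorem chord_pow {u0 u1 th : ℝ} (h1 : 0 ≤ u1) (h01 : u1 ≤ u0) (ht0 : 0 ≤ th) (ht1 : th ≤ 1) (n : ℕ) :
    (1 / 2) * th * (1 - th) * (u0 - u1) ^ 2 * (((n : ℝ) + 2) * ((n : ℝ) + 1)) * u1 ^ n ≤
      (1 - th) * u0 ^ (n + 2) + th * u1 ^ (n + 2) - ((1 - th) * u0 + th * u1) ^ (n + 2) := by
  set b := (1 - th) * u0 + th * u1 with hb
  have hb1 : u1 ≤ b := by
    rw [hb]
    nlinarith
  have a0 := mul_le_mul_of_nonneg_left (second_pow h1 h01 hb1 n) (sub_nonneg.2 ht1)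
  have a1 := mul_le_mul_of_nonneg_left (second_pow h1 le_rfl hb1 n) ht0
  have e : (1 - th) * (b ^ (n + 2) + ((n : ℝ) + 2) * b ^ (n + 1) * (u0 - b) +
      (1 / 2) * ((n : ℝ) + 2) * ((n : ℝ) + 1) * u1 ^ n * (u0 - b) ^ 2) +
      th * (b ^ (n + 2) + ((n : ℝ) + 2) * b ^ (n + 1) * (u1 - b) +
      (1 / 2) * ((n : ℝ) + 2) * ((n : ℝ) + 1) * u1 ^ n * (u1 - b) ^ 2) =
      b ^ (n + 2) + (1 / 2) * th * (1 - th) * (u0 - u1) ^ 2 * (((n : ℝ) + 2) * ((n : ℝ) + 1)) * u1 ^ n := by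
    have e1 : (1 - th) * (u0 - b) + th * (u1 - b) = 0 := by rw [hb]; ring
    have e2 : (1 - th) * (u0 - b) ^ 2 + th * (u1 - b) ^ 2 = th * (1 - th) * (u0 - u1) ^ 2 := by
      rw [hb]; ring
    calc _ = b ^ (n + 2) + ((n : ℝ) + 2) * b ^ (n + 1) * ((1 - th) * (u0 - b) + th * (u1 - b)) +
        (1 / 2) * ((n : ℝ) + 2) * ((n : ℝ) + 1) * u1 ^ n *
          ((1 - th) * (u0 - b) ^ 2 + th * (u1 - b) ^ 2) := by ring
      _ = _ := by rw [e1, e2]; ring
  linarith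

theorem chan_nonneg {lam : ℝ} (hl : -(1 / 2) ≤ lam) (hl1 : lam ≤ 1) {x : Fin 3 → ℝ} (hx : Simp x)
    (i : Fin 3) : 0 ≤ chan lam x i := by
  have hle : x i ≤ 3 := by
    have h := Sx_le (q := 3) (by norm_num) ((Sx_iff x).mpr hx) i
    exact_mod_cast h
  have h0 := hx.1 i
  unfold chan
  rcases le_total 0 lam with h | h
  · nlinarith
  · nlinarith

theorem cert_interval {d : ℕ} (hd : 2 ≤ d) {lam : ℝ} (hl : -(1 / 2) ≤ lam) (hl1 : lam ≤ 1)
    {N : ℕ} (A t rho ic sl sg : Fin N → ℝ) (hA : ∀ j, 0 < A j) (hA1 : ∀ j, A j ≤ 1 / 2)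
    (hrho : ∀ j, 0 < rho j) (hsg : ∀ j, 0 ≤ sg j) (hsg1 : ∀ j, sg j ≤ 1)
    (hic : ∀ j, rho j * (1 - (1 - sg j) ^ (d - 1) * (1 + ((d : ℝ) - 1) * sg j)) ≤ ic j)
    (hsl : ∀ j, rho j * (1 + ((d : ℝ) - 1) * (1 - sg j) ^ d) ≤ ic j + sl j)
    {R m0 m1 mu0 mu1 : ℝ} (hR : 0 ≤ R) (hm0 : 0 ≤ m0) (h01 : m0 < m1) (hm1 : m1 ≤ 1)
    (gap : 0 ≤ 2 * (mu1 - mu0) + R * (d * (d - 1)) * (1 - m1) ^ (d - 2) * (m1 - m0))
    (hpos : ∀ j x, Simp x → 0 ≤ gE (A j) (t j) (chan lam x)) {c : ℝ} (hc : 0 < c)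
    (h0 : ∀ x, Simp x → c ≤ ∑ j, (rho j * (1 - gE (A j) (t j) x) - ic j -
      sl j * (1 - gE (A j) (t j) (chan lam x))) -
      R * (phiR x - (1 - (1 - m0) ^ d)) + mu0 * (phiR (chan lam x) - m0))
    (h1 : ∀ x, Simp x → c ≤ ∑ j, (rho j * (1 - gE (A j) (t j) x) - ic j -
      sl j * (1 - gE (A j) (t j) (chan lam x))) -
      R * (phiR x - (1 - (1 - m1) ^ d)) + mu1 * (phiR (chan lam x) - m1))
    {m : ℝ} (hm : m0 ≤ m) (hm' : m ≤ m1) :
    CertAt (dirac d) lam (fun _ : Fin 1 => alT (1 / 3) (2 / 5)) (fun _ => m) := by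
  obtain ⟨e, rfl⟩ : ∃ e, d = e + 2 := ⟨d - 2, by omega⟩
  set th : ℝ := (m - m0) / (m1 - m0) with hth
  have hd0 : 0 < m1 - m0 := sub_pos.2 h01
  have hth0 : 0 ≤ th := div_nonneg (by linarith) hd0.le
  have hth1 : th ≤ 1 := (div_le_one hd0).2 (by linarith)
  have hmth : m = (1 - th) * m0 + th * m1 := by
    have : th * (m1 - m0) = m - m0 := div_mul_cancel₀ _ hd0.ne'
    linarith
  refine ⟨N, fun j => alT (A j) (t j), rho, fun j => ic j / rho j, fun j => sl j / rho j,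
    fun _ => 1, fun _ => R, fun _ => (1 - th) * mu0 + th * mu1, c, hc,
    fun j => adm_alT (hA j) (hA1 j) _, fun j => (hrho j).le, ?_, ?_, ?_⟩
  · intro j x hx
    have hx' := (Sx_iff x).mp hx
    have h2 := hpos j x hx'
    rw [gE_eq_gm (hA j) _ (chan_nonneg hl hl1 hx')] at h2
    rw [ch_eq_chan]
    linarith
  · intro j s hs0 hs1
    rw [Fp_dirac]
    have hr := hrho j
    have h2 := tangent_pow (u := 1 - s) (v := 1 - sg j) (by linarith) (by linarith [hsg1 j]) (e + 1)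
    have h3 := hic j
    have h4 := hsl j
    push_cast at h2 h3 h4
    have h5 : rho j * (1 - (1 - s) ^ (e + 2)) ≤ ic j + sl j * s := by
      have h6 : rho j * (1 - (1 - s) ^ (e + 1 + 1)) ≤ rho j * (1 - ((1 - sg j) ^ (e + 1 + 1) +
          ((e : ℝ) + 1 + 1) * (1 - sg j) ^ (e + 1) * (1 - s - (1 - sg j)))) :=
        mul_le_mul_of_nonneg_left (by linarith) hr.le
      have h7 := mul_le_mul_of_nonneg_left h3 (by linarith : 0 ≤ 1 - s)
      have h8 := mul_le_mul_of_nonneg_left h4 hs0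
      have e2 : rho j * (1 - ((1 - sg j) ^ (e + 1 + 1) +
          ((e : ℝ) + 1 + 1) * (1 - sg j) ^ (e + 1) * (1 - s - (1 - sg j)))) =
          (1 - s) * (rho j * (1 - (1 - sg j) ^ (e + 1) * (1 + ((e : ℝ) + 2 - 1) * sg j))) +
          s * (rho j * (1 + ((e : ℝ) + 2 - 1) * (1 - sg j) ^ (e + 2))) := by ring
      rw [e2] at h6
      calc rho j * (1 - (1 - s) ^ (e + 2)) ≤ _ := h6
        _ ≤ (1 - s) * ic j + s * (ic j + sl j) := add_le_add h7 h8
        _ = _ := by ring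
    show 1 - (1 - s) ^ (e + 2) ≤ ic j / rho j + sl j / rho j * s
    rw [div_mul_eq_mul_div, ← add_div, le_div_iff₀ hr]
    linarith
  · intro x hx
    have hx' := (Sx_iff x).mp hx
    have hz := chan_nonneg hl hl1 hx'
    simp only [Finset.univ_unique, Finset.sum_singleton, Fin.default_eq_zero]
    rw [ch_eq_chan, one_sub_gm_R hz, one_sub_gm_R hx'.1, Fp_dirac]
    have hsum : ∑ j, rho j * ((1 - gm (alT (A j) (t j)) x) - ic j / rho j -
        sl j / rho j * (1 - gm (alT (A j) (t j)) (chan lam x))) =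
        ∑ j, (rho j * (1 - gE (A j) (t j) x) - ic j - sl j * (1 - gE (A j) (t j) (chan lam x))) := by
      refine Finset.sum_congr rfl fun j _ => ?_
      rw [gE_eq_gm (hA j) _ hz, gE_eq_gm (hA j) _ hx'.1]
      have hr := (hrho j).ne'
      field_simp
    rw [hsum]
    have g0 := mul_le_mul_of_nonneg_left (h0 x hx') (sub_nonneg.2 hth1)
    have g1 := mul_le_mul_of_nonneg_left (h1 x hx') hth0
    have hch := chord_pow (u0 := 1 - m0) (u1 := 1 - m1) (by linarith) (by linarith) hth0 hth1 e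
    have em : (1 - th) * (1 - m0) + th * (1 - m1) = 1 - m := by rw [hmth]; ring
    rw [em] at hch
    have hgap := mul_le_mul_of_nonneg_left gap
      (by
        have : 0 ≤ 1 - th := sub_nonneg.2 hth1
        positivity : 0 ≤ (1 / 2) * th * (1 - th) * (m1 - m0))
    have hRch := mul_le_mul_of_nonneg_left hch hR
    have e3 : e + 2 - 2 = e := rfl
    rw [e3] at hgap
    push_cast at hgap
    generalize (∑ j, (rho j * (1 - gE (A j) (t j) x) - ic j -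
      sl j * (1 - gE (A j) (t j) (chan lam x)))) = B at *
    generalize phiR x = p at *
    generalize phiR (chan lam x) = q at *
    have hmain : 0 ≤ R * ((1 - th) * (1 - m0) ^ (e + 2) + th * (1 - m1) ^ (e + 2) - (1 - m) ^ (e + 2)) +
        th * (1 - th) * (mu1 - mu0) * (m1 - m0) := by
      refine le_trans ?_ (add_le_add_left hRch _)
      refine le_trans (le_of_eq (mul_zero _).symm) (hgap.trans (le_of_eq ?_))
      ring
    rw [hmth] at hmain ⊢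
    linarith
end Vale.Agent.P154.Pk
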