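import Vale.Agent.P154.PkH

/-!
# Certificates on an interval of values of `m` for `d = 4` (task PK-H4)

For `d = 4` the tangent lines are valid on the whole line, so the functionals need not be
nonnegative.
-/

namespace Vale.Agent.P154.Pk

open Near Mu Uni

theorem tangent4 (s g : ℝ) :
    1 - (1 - s) ^ 4 ≤ 1 - (1 - g) ^ 3 * (1 + 3 * g) + 4 * (1 - g) ^ 3 * s := by
  have h : 0 ≤ (g - s) ^ 2 * ((2 - s - g) ^ 2 + 2 * (1 - g) ^ 2) := by positivity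
  nlinarith [h]

theorem one_sub_gm_le_two {lam : ℝ} (hl : -(1 / 2) ≤ lam) (hl1 : lam ≤ 1) {a : ℝ} (t : ℝ)
    (ha : 0 < a) (ha' : a ≤ 1 / 2) {x : Fin 3 → ℝ} (hx : Sx x) :
    1 - gm (alT a t) (ch lam x) ≤ 2 := by
  have h1 : Sx (ch lam x) := by
    rw [Sx_iff]
    have hx' := (Sx_iff x).mp hx
    refine ⟨fun i => chan_nonneg hl hl1 hx' i, ?_⟩
    have hm := hx'.2
    unfold mean at hm ⊢
    rw [ch_eq_chan]
    unfold chan
    have h0 : x 0 = 3 - x 1 - x 2 := by linarith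
    rw [h0]
    ring
  have h2 := abs_gm_le (adm_alT ha ha' t) h1
  have h3 := (abs_le.1 h2).1
  linarith

theorem tangent_cond {rho ic sl g s : ℝ} (hrho : 0 < rho)
    (hic : rho * (1 - (1 - g) ^ 3 * (1 + 3 * g)) ≤ ic) (hsl : rho * (4 * (1 - g) ^ 3) ≤ sl)
    (hs : 0 ≤ s) : Fp (dirac 4) s ≤ ic / rho + sl / rho * s := by
  rw [Fp_dirac, div_mul_eq_mul_div, ← add_div, le_div_iff₀ hrho]
  have h1 := mul_le_mul_of_nonneg_left (tangent4 s g) hrho.le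
  have h2 := mul_le_mul_of_nonneg_right hsl hs
  nlinarith

theorem sum_rewrite {lam : ℝ} {N : ℕ} (A t rho ic sl : Fin N → ℝ) (hA : ∀ j, 0 < A j)
    (hrho : ∀ j, 0 < rho j) {x : Fin 3 → ℝ} (hx : ∀ i, 0 ≤ x i) (hz : ∀ i, 0 ≤ chan lam x i) :
    ∑ j, rho j * ((1 - gm (alT (A j) (t j)) x) - ic j / rho j -
        sl j / rho j * (1 - gm (alT (A j) (t j)) (chan lam x))) =
        ∑ j, (rho j * (1 - gE (A j) (t j) x) - ic j - sl j * (1 - gE (A j) (t j) (chan lam x))) := by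
  refine Finset.sum_congr rfl fun j _ => ?_
  rw [gE_eq_gm (hA j) _ hz, gE_eq_gm (hA j) _ hx]
  have hr := (hrho j).ne'
  field_simp

theorem cert_interval4 {lam : ℝ} (hl : -(1 / 2) ≤ lam) (hl1 : lam ≤ 1)
    {N : ℕ} (A t rho ic sl sg : Fin N → ℝ) (hA : ∀ j, 0 < A j) (hA1 : ∀ j, A j ≤ 1 / 2)
    (hrho : ∀ j, 0 < rho j) (hsg : ∀ j, 0 ≤ sg j) (hsg1 : ∀ j, sg j ≤ 1)
    (hic : ∀ j, rho j * (1 - (1 - sg j) ^ 3 * (1 + 3 * sg j)) ≤ ic j)
    (hsl : ∀ j, rho j * (4 * (1 - sg j) ^ 3) ≤ sl j)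
    {R m0 m1 mu0 mu1 : ℝ} (hR : 0 ≤ R) (hm0 : 0 ≤ m0) (h01 : m0 < m1) (hm1 : m1 ≤ 1)
    (gap : 0 ≤ 2 * (mu1 - mu0) + R * 12 * (1 - m1) ^ 2 * (m1 - m0)) {c : ℝ} (hc : 0 < c)
    (h0 : ∀ x, Simp x → c ≤ ∑ j, (rho j * (1 - gE (A j) (t j) x) - ic j -
      sl j * (1 - gE (A j) (t j) (chan lam x))) -
      R * (phiR x - (1 - (1 - m0) ^ 4)) + mu0 * (phiR (chan lam x) - m0))
    (h1 : ∀ x, Simp x → c ≤ ∑ j, (rho j * (1 - gE (A j) (t j) x) - ic j -
      sl j * (1 - gE (A j) (t j) (chan lam x))) -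
      R * (phiR x - (1 - (1 - m1) ^ 4)) + mu1 * (phiR (chan lam x) - m1))
    {m : ℝ} (hm : m0 ≤ m) (hm' : m ≤ m1) :
    CertAt (dirac 4) lam (fun _ : Fin 1 => alT (1 / 3) (2 / 5)) (fun _ => m) := by
  set th : ℝ := (m - m0) / (m1 - m0) with hth
  have hd0 : 0 < m1 - m0 := sub_pos.2 h01
  have hth0 : 0 ≤ th := div_nonneg (by linarith) hd0.le
  have hth1 : th ≤ 1 := (div_le_one hd0).2 (by linarith)
  have hmth : m = (1 - th) * m0 + th * m1 := by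
    have : th * (m1 - m0) = m - m0 := div_mul_cancel₀ _ hd0.ne'
    linarith
  refine ⟨N, fun j => alT (A j) (t j), rho, fun j => ic j / rho j, fun j => sl j / rho j,
    fun _ => 2, fun _ => R, fun _ => (1 - th) * mu0 + th * mu1, c, hc,
    fun j => adm_alT (hA j) (hA1 j) _, fun j => (hrho j).le,
    fun j x hx => one_sub_gm_le_two hl hl1 _ (hA j) (hA1 j) hx,
    fun j s hs0 _ => tangent_cond (hrho j) (hic j) (hsl j) hs0, ?_⟩
  intro x hx
  have hx' := (Sx_iff x).mp hx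
  have hz := chan_nonneg hl hl1 hx'
  simp only [Finset.univ_unique, Finset.sum_singleton, Fin.default_eq_zero]
  rw [ch_eq_chan, one_sub_gm_R hz, one_sub_gm_R hx'.1, Fp_dirac,
    sum_rewrite A t rho ic sl hA hrho hx'.1 hz]
  have g0 := mul_le_mul_of_nonneg_left (h0 x hx') (sub_nonneg.2 hth1)
  have g1 := mul_le_mul_of_nonneg_left (h1 x hx') hth0
  have hch := chord_pow (u0 := 1 - m0) (u1 := 1 - m1) (by linarith) (by linarith) hth0 hth1 2
  have em : (1 - th) * (1 - m0) + th * (1 - m1) = 1 - m := by rw [hmth]; ring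
  have e4 : (2 + 2 : ℕ) = 4 := rfl
  rw [em, e4] at hch
  have hgap := mul_le_mul_of_nonneg_left gap
    (by
      have : 0 ≤ 1 - th := sub_nonneg.2 hth1
      positivity : 0 ≤ (1 / 2) * th * (1 - th) * (m1 - m0))
  have hRch := mul_le_mul_of_nonneg_left hch hR
  generalize (∑ j, (rho j * (1 - gE (A j) (t j) x) - ic j -
    sl j * (1 - gE (A j) (t j) (chan lam x)))) = B at *
  generalize phiR x = p at *
  generalize phiR (chan lam x) = q at *
  have hmain : 0 ≤ R * ((1 - th) * (1 - m0) ^ 4 + th * (1 - m1) ^ 4 - (1 - m) ^ 4) +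
      th * (1 - th) * (mu1 - mu0) * (m1 - m0) := by
    refine le_trans ?_ (add_le_add_left hRch _)
    refine le_trans (le_of_eq (mul_zero _).symm) (hgap.trans (le_of_eq ?_))
    push_cast
    ring
  rw [hmth] at hmain ⊢
  linarith

/-- beyond `m = 1` -/
theorem cert_top4 {lam : ℝ} (hl : -(1 / 2) ≤ lam) (hl1 : lam ≤ 1)
    {N : ℕ} (A t rho ic sl sg : Fin N → ℝ) (hA : ∀ j, 0 < A j) (hA1 : ∀ j, A j ≤ 1 / 2)
    (hrho : ∀ j, 0 < rho j) (hsg : ∀ j, 0 ≤ sg j) (hsg1 : ∀ j, sg j ≤ 1)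
    (hic : ∀ j, rho j * (1 - (1 - sg j) ^ 3 * (1 + 3 * sg j)) ≤ ic j)
    (hsl : ∀ j, rho j * (4 * (1 - sg j) ^ 3) ≤ sl j)
    {R mu : ℝ} (hR : 0 ≤ R) (hR1 : R ≤ 1) (hmu : mu ≤ 0)
    (h1 : ∀ x, Simp x → 1 / 50000 ≤ ∑ j, (rho j * (1 - gE (A j) (t j) x) - ic j -
      sl j * (1 - gE (A j) (t j) (chan lam x))) -
      R * (phiR x - 1) + mu * (phiR (chan lam x) - 1))
    {m : ℝ} (hm : 1 ≤ m) (hm' : m ≤ 21 / 20) :
    CertAt (dirac 4) lam (fun _ : Fin 1 => alT (1 / 3) (2 / 5)) (fun _ => m) := by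
  refine ⟨N, fun j => alT (A j) (t j), rho, fun j => ic j / rho j, fun j => sl j / rho j,
    fun _ => 2, fun _ => R, fun _ => mu, 1 / 50000 - 1 / 160000, by norm_num,
    fun j => adm_alT (hA j) (hA1 j) _, fun j => (hrho j).le,
    fun j x hx => one_sub_gm_le_two hl hl1 _ (hA j) (hA1 j) hx,
    fun j s hs0 _ => tangent_cond (hrho j) (hic j) (hsl j) hs0, ?_⟩
  intro x hx
  have hx' := (Sx_iff x).mp hx
  have hz := chan_nonneg hl hl1 hx'
  simp only [Finset.univ_unique, Finset.sum_singleton, Fin.default_eq_zero]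
  rw [ch_eq_chan, one_sub_gm_R hz, one_sub_gm_R hx'.1, Fp_dirac,
    sum_rewrite A t rho ic sl hA hrho hx'.1 hz]
  have g1 := h1 x hx'
  generalize (∑ j, (rho j * (1 - gE (A j) (t j) x) - ic j -
    sl j * (1 - gE (A j) (t j) (chan lam x)))) = B at *
  generalize phiR x = p at *
  generalize phiR (chan lam x) = q at *
  have h4 : (1 - m) ^ 4 ≤ 1 / 160000 := by
    have : (1 - m) ^ 4 = (m - 1) ^ 4 := by ring
    rw [this]
    calc (m - 1) ^ 4 ≤ (1 / 20) ^ 4 := pow_le_pow_left₀ (by linarith) (by linarith) 4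
      _ = 1 / 160000 := by norm_num
  have h5 : R * (1 - m) ^ 4 ≤ 1 / 160000 := by
    calc R * (1 - m) ^ 4 ≤ 1 * (1 / 160000) :=
          mul_le_mul hR1 h4 (by positivity) (by norm_num)
      _ = _ := by norm_num
  have h6 : 0 ≤ -mu * (m - 1) := mul_nonneg (by linarith) (by linarith)
  nlinarith

end Vale.Agent.P154.Pk
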