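import Vale.Agent.P154.UniFin

/-!
# Certificates for small `m`, `4 ≤ d ≤ 8` (task PK-N)
-/

namespace Vale.Agent.P154.Pk

open Near Mu Uni

/-- the linear part of the certificate -/
noncomputable def Psi (d : ℕ) (lam : ℝ) (x : Fin 3 → ℝ) : ℝ :=
  688 / 261 * phiC x - phiR x - d * (688 / 261 * phiC (chan lam x) - phiR (chan lam x))

/-- coefficient: `2 C₂ ρ κ - 3 C₃ ρ κ² m₁` with `m₁ = 1 / 768` -/
noncomputable def aC (d : ℕ) : ℝ :=
  (d : ℝ) * (d - 1) * (172 / 111) - (d : ℝ) * (d - 1) * (d - 2) / 2 * (1247 / 1369) / 768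

theorem pkn_up : ∀ (n : ℕ) (s : ℝ), 0 ≤ s → s ≤ 1 →
    (1 - s) ^ n ≤ 1 - n * s + n * (n - 1) / 2 * s ^ 2 := by
  intro n s h0 h1
  induction n with
  | zero => simp
  | succ n ih =>
    have hn : (0 : ℝ) ≤ n * (n - 1) := by
      rcases Nat.eq_zero_or_pos n with h | h
      · simp [h]
      · have : (1 : ℝ) ≤ n := by exact_mod_cast h
        exact mul_nonneg (by linarith) (by linarith)
    have h := mul_le_mul_of_nonneg_left ih (sub_nonneg.mpr h1)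
    rw [pow_succ']
    push_cast
    have h3 : 0 ≤ n * (n - 1) * s ^ 3 := mul_nonneg hn (by positivity)
    nlinarith [h, h3]

theorem pkn_low : ∀ (n : ℕ) (s : ℝ), 0 ≤ s → s ≤ 1 →
    1 - n * s + n * (n - 1) / 2 * s ^ 2 - n * (n - 1) * (n - 2) / 6 * s ^ 3 ≤ (1 - s) ^ n := by
  intro n s h0 h1
  induction n with
  | zero => simp
  | succ n ih =>
    have hn : (0 : ℝ) ≤ n * (n - 1) * (n - 2) := by
      rcases Nat.lt_or_ge n 2 with h | h
      · interval_cases n <;> norm_num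
      · have : (2 : ℝ) ≤ n := by exact_mod_cast h
        exact mul_nonneg (mul_nonneg (by linarith) (by linarith)) (by linarith)
    have h := mul_le_mul_of_nonneg_left ih (sub_nonneg.mpr h1)
    rw [pow_succ' (1 - s) n]
    push_cast
    have h3 : 0 ≤ n * (n - 1) * (n - 2) * s ^ 4 := mul_nonneg hn (by positivity)
    have e : (1 - s) * (1 - n * s + n * (n - 1) / 2 * s ^ 2 - n * (n - 1) * (n - 2) / 6 * s ^ 3) =
        1 - (n + 1) * s + (n + 1) * (n + 1 - 1) / 2 * s ^ 2 -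
          (n + 1) * (n + 1 - 1) * (n + 1 - 2) / 6 * s ^ 3 + n * (n - 1) * (n - 2) * s ^ 4 / 6 := by
      ring
    linarith

/-- the tangent line inequality -/
theorem pkn_tan (d : ℕ) {a x : ℝ} (ha : 0 < a) (hx : 0 ≤ x) :
    a ^ d + d * a ^ (d - 1) * (x - a) ≤ x ^ d := by
  rcases Nat.eq_zero_or_pos d with h | h
  · simp [h]
  have hb : -2 ≤ x / a - 1 := by
    have : 0 ≤ x / a := div_nonneg hx ha.le
    linarith
  have h1 := one_add_mul_le_pow hb d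
  have h2 := mul_le_mul_of_nonneg_left h1 (pow_nonneg ha.le d)
  rw [← mul_pow] at h2
  have e1 : a * (1 + (x / a - 1)) = x := by field_simp; ring
  rw [e1] at h2
  refine le_trans (le_of_eq ?_) h2
  obtain ⟨n, rfl⟩ : ∃ n, d = n + 1 := ⟨d - 1, by omega⟩
  rw [Nat.add_sub_cancel, pow_succ]
  field_simp

theorem pkn_ic {d : ℕ} (hd : 4 ≤ d) (hd' : d ≤ 8) {s : ℝ} (h0 : 0 ≤ s) (h1 : s ≤ 1 / 100) :
    1 - (1 - s) ^ d - s * (d * (1 - s) ^ (d - 1)) ≤ (d : ℝ) * (d - 1) / 2 * s ^ 2 := by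
  obtain ⟨n, rfl⟩ : ∃ n, d = n + 1 := ⟨d - 1, by omega⟩
  rw [Nat.add_sub_cancel, pow_succ]
  push_cast
  have hn3 : (3 : ℝ) ≤ n := by exact_mod_cast (by omega : 3 ≤ n)
  have hn7 : (n : ℝ) ≤ 7 := by exact_mod_cast (by omega : n ≤ 7)
  have hl := pkn_low n s h0 (by linarith)
  have hp : (0 : ℝ) ≤ 1 + n * s := by positivity
  have h := mul_le_mul_of_nonneg_right hl hp
  have hb : 0 ≤ 2 * (n : ℝ) + 2 - n * (n - 2) * s := by
    have : n * (n - 2) * s ≤ 7 * 5 * (1 / 100) := by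
      apply mul_le_mul _ h1 h0 (by norm_num)
      exact mul_le_mul hn7 (by linarith) (by linarith) (by norm_num)
    linarith
  have h3 : 0 ≤ s ^ 3 * (n * (n - 1)) * (2 * (n : ℝ) + 2 - n * (n - 2) * s) := by
    apply mul_nonneg _ hb
    exact mul_nonneg (by positivity) (mul_nonneg (by linarith) (by linarith))
  nlinarith [h, h3]

theorem pkn_final {D m u : ℝ} (hD4 : 4 ≤ D) :
    m ^ 2 / 10 ≤ 41 / 10000 * u ^ 2 - m * (D - 1) * (25 / 1000 * u) +
      m ^ 2 * ((D - 1) / 2 * (122 / 1369 * D - (D - 2) * (1247 / 1369) * (37 / 8000))) := by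
  have h1 : 0 ≤ (D - 1) / 2 * (122 / 1369 * D - (D - 2) * (1247 / 1369) * (37 / 8000)) - 1 / 10 -
      (25 / 1000 * (D - 1)) ^ 2 / (164 / 10000) := by
    nlinarith
  have h2 := mul_nonneg (sq_nonneg m) h1
  have h3 := sq_nonneg (u - (25 / 1000 * (D - 1)) / (82 / 10000) * m)
  nlinarith [h2, h3]

theorem pkn_k {D k : ℝ} (hD4 : 4 ≤ D) (hDk : D * k = 1) : 0 < k ∧ k ≤ 1 / 4 := by
  have hD0 : 0 < D := by linarith
  have hk : k = 1 / D := by field_simp; linarith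
  rw [hk]
  exact ⟨by positivity, one_div_le_one_div_of_le (by norm_num) hD4⟩

theorem pkn_lk {l k : ℝ} (hl0 : 0 ≤ l) (hl : l ≤ 1 / 2) (hk0 : 0 ≤ k) (hk : k ≤ 1 / 4) :
    0 ≤ l * k ∧ l * k ≤ 1 / 8 ∧ l * k * k ≤ 1 / 32 ∧ k ^ 2 ≤ 1 / 16 := by
  have h1 : l * k ≤ 1 / 2 * (1 / 4) := mul_le_mul hl hk hk0 (by norm_num)
  have h0 : 0 ≤ l * k := mul_nonneg hl0 hk0
  have h2 : l * k * k ≤ 1 / 2 * (1 / 4) * (1 / 4) := mul_le_mul h1 hk hk0 (by norm_num)
  have h3 : k ^ 2 ≤ (1 / 4) ^ 2 := pow_le_pow_left₀ hk0 hk 2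
  refine ⟨h0, by linarith, by linarith, by linarith⟩

theorem pkn_u {u : ℝ} (hu0 : 0 ≤ u) (hu : u ≤ 1 / 32) :
    u ^ 2 ≤ u / 32 ∧ u ^ 3 ≤ u / 1024 ∧ u ^ 3 ≤ u ^ 2 / 32 := by
  have h1 : u ^ 2 ≤ u / 32 := by nlinarith
  have h2 : u ^ 3 ≤ u ^ 2 / 32 := by
    calc u ^ 3 = u ^ 2 * u := by ring
      _ ≤ u ^ 2 * (1 / 32) := mul_le_mul_of_nonneg_left hu (sq_nonneg u)
      _ = _ := by ring
  exact ⟨h1, by linarith, h2⟩

theorem pkn_err {D l k ε e c : ℝ} (hD0 : 0 ≤ D) (hDk : D * k = 1) (hlk : l * k * k ≤ 1 / 32)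
    (hε0 : 0 ≤ ε) (hc : 0 ≤ c) (he : |e| ≤ c * (l * k ^ 3 * ε)) : |D * e| ≤ c * (1 / 32 * ε) := by
  rw [abs_mul, abs_of_nonneg hD0]
  have h := mul_le_mul_of_nonneg_left he hD0
  have e1 : D * (c * (l * k ^ 3 * ε)) = c * (l * k * k * ε) := by
    calc D * (c * (l * k ^ 3 * ε)) = (D * k) * (c * (l * k * k * ε)) := by ring
      _ = _ := by rw [hDk]; ring
  have h2 : l * k * k * ε ≤ 1 / 32 * ε := mul_le_mul_of_nonneg_right hlk hε0
  have h3 := mul_le_mul_of_nonneg_left h2 hc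
  linarith

/-- last step: from the three bounds to the conclusion -/
theorem pkn_asm {D m u P RY CY : ℝ} (hD4 : 4 ≤ D) (hm : 0 ≤ m)
    (hPsi : 41 / 10000 * u ^ 2 ≤ P) (hK2 : D * RY - 172 / 111 * (D * CY) ≤ 25 / 1000 * u)
    (hCu' : D * CY ≤ 37 / 8000) :
    m ^ 2 / 10 ≤ P - m * (D * (D - 1)) * RY +
      m * (D * (D - 1)) * (172 / 111) * CY + m ^ 2 * (D * (D - 1) / 2) * (122 / 1369) -
      D * (D - 1) * (D - 2) / 2 * (1247 / 1369) * m ^ 2 * CY := by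
  have hf := pkn_final (m := m) (u := u) hD4
  have h5 : m * (D - 1) * (D * RY - 172 / 111 * (D * CY)) ≤ m * (D - 1) * (25 / 1000 * u) :=
    mul_le_mul_of_nonneg_left hK2 (mul_nonneg hm (by linarith))
  have h6 : m ^ 2 * ((D - 1) / 2 * (D - 2) * (1247 / 1369)) * (D * CY) ≤
      m ^ 2 * ((D - 1) / 2 * (D - 2) * (1247 / 1369)) * (37 / 8000) := by
    apply mul_le_mul_of_nonneg_left hCu'
    apply mul_nonneg (sq_nonneg m)
    apply mul_nonneg _ (by norm_num)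
    exact mul_nonneg (by linarith) (by linarith)
  have e5 : m * (D - 1) * (D * RY - 172 / 111 * (D * CY)) =
      m * (D * (D - 1)) * RY - m * (D * (D - 1)) * (172 / 111) * CY := by ring
  have e6 : m ^ 2 * ((D - 1) / 2 * (D - 2) * (1247 / 1369)) * (D * CY) =
      D * (D - 1) * (D - 2) / 2 * (1247 / 1369) * m ^ 2 * CY := by ring
  rw [e5] at h5
  rw [e6] at h6
  have e7 : m ^ 2 * ((D - 1) / 2 * (122 / 1369 * D - (D - 2) * (1247 / 1369) * (37 / 8000))) =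
      m ^ 2 * (D * (D - 1) / 2) * (122 / 1369) -
      m ^ 2 * ((D - 1) / 2 * (D - 2) * (1247 / 1369)) * (37 / 8000) := by ring
  rw [e7] at hf
  linarith

/-- linear arithmetic in the monomials: `a = u²`, `b = u w`, `c = u³`, `e = w²`, `f = l w`,
`g = k u²`, `h = l k u w`, `i = k² u³`, `j = k² w²` -/
theorem pkn_lin {u w a b c e f g h i j ε e1 e2 E3 E4 : ℝ} (hu0 : 0 ≤ u) (hu : u ≤ 1 / 32)
    (ha0 : 0 ≤ a) (ha : a ≤ u / 32) (hb1 : -(73 / 1000 * a) ≤ b) (hb2 : b ≤ 73 / 1000 * a)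
    (hc0 : 0 ≤ c) (hc : c ≤ a / 32) (he0 : 0 ≤ e) (he : e ≤ a / 192)
    (hf1 : -(73 / 2000 * u) ≤ f) (hf2 : f ≤ 73 / 2000 * u) (hg0 : 0 ≤ g) (hg : g ≤ 1 / 4 * a)
    (hh1 : -(1 / 8 * (73 / 1000 * a)) ≤ h) (hh2 : h ≤ 1 / 8 * (73 / 1000 * a))
    (hi0 : 0 ≤ i) (hi : i ≤ 1 / 16 * c) (hj0 : 0 ≤ j) (hj : j ≤ 1 / 16 * e)
    (hε0 : 0 ≤ ε) (hε : 1152 * ε ≤ a) (h11 : -(2 / 3 * ε) ≤ e1) (h12 : e1 ≤ 2 / 3 * ε)
    (h21 : -(9 / 50 * ε) ≤ e2) (h22 : e2 ≤ 9 / 50 * ε)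
    (h31 : -(2 / 3 * (1 / 32 * ε)) ≤ E3) (h32 : E3 ≤ 2 / 3 * (1 / 32 * ε))
    (h41 : -(9 / 50 * (1 / 32 * ε)) ≤ E4) (h42 : E4 ≤ 9 / 50 * (1 / 32 * ε)) :
    41 / 10000 * a ≤ 688 / 261 * (29 / 200 * u - 29 / 400 * w + 9077 / 480000 * a -
        21431 / 960000 * b + 13411079 / 2880000000 * c + 540937 / 80000000 * e + e2) -
      (37 / 150 * u - 43 / 225 * w + 241 / 5625 * a - 1967 / 33750 * b +
      580417 / 50625000 * c + 242659 / 12656250 * e + e1) -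
      (688 / 261 * (29 / 200 * u + 29 / 400 * f + 9077 / 480000 * g +
      21431 / 960000 * h + 13411079 / 2880000000 * i + 540937 / 80000000 * j + E4) -
      (37 / 150 * u + 43 / 225 * f + 241 / 5625 * g +
      1967 / 33750 * h + 580417 / 50625000 * i + 242659 / 12656250 * j + E3)) ∧
    (37 / 150 * u + 43 / 225 * f + 241 / 5625 * g +
      1967 / 33750 * h + 580417 / 50625000 * i + 242659 / 12656250 * j + E3) -
      172 / 111 * (29 / 200 * u + 29 / 400 * f + 9077 / 480000 * g +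
      21431 / 960000 * h + 13411079 / 2880000000 * i + 540937 / 80000000 * j + E4) ≤
      25 / 1000 * u ∧
    (29 / 200 * u + 29 / 400 * f + 9077 / 480000 * g +
      21431 / 960000 * h + 13411079 / 2880000000 * i + 540937 / 80000000 * j + E4) ≤
      37 / 8000 := by
  refine ⟨by linarith, by linarith, by linarith⟩

/-- the quantities in the zone: bounds for the monomials -/
theorem pkn_zone {D l k u w ε e1 e2 e3 e4 m RX CX RY CY : ℝ} (hD4 : 4 ≤ D)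
    (hDk : D * k = 1) (hl0 : 0 ≤ l) (hl : l ≤ 1 / 2) (hu0 : 0 ≤ u) (hu : u ≤ 1 / 32)
    (hw : |w| ≤ 73 / 1000 * u) (hw2 : w ^ 2 ≤ u ^ 2 / 192) (hε0 : 0 ≤ ε) (hε : 1152 * ε ≤ u ^ 2)
    (he1 : |e1| ≤ 2 / 3 * ε) (he2 : |e2| ≤ 9 / 50 * ε) (he3 : |e3| ≤ 2 / 3 * (l * k ^ 3 * ε))
    (he4 : |e4| ≤ 9 / 50 * (l * k ^ 3 * ε)) (hm : 0 ≤ m)
    (hRX : RX = 37 / 150 * u - 43 / 225 * w + 241 / 5625 * u ^ 2 - 1967 / 33750 * (u * w) +
      580417 / 50625000 * u ^ 3 + 242659 / 12656250 * w ^ 2 + e1)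
    (hCX : CX = 29 / 200 * u - 29 / 400 * w + 9077 / 480000 * u ^ 2 - 21431 / 960000 * (u * w) +
      13411079 / 2880000000 * u ^ 3 + 540937 / 80000000 * w ^ 2 + e2)
    (hRY : RY = 37 / 150 * (k * u) + 43 / 225 * (l * k * w) + 241 / 5625 * (k * u) ^ 2 +
      1967 / 33750 * (k * u * (l * k * w)) + 580417 / 50625000 * (k * u) ^ 3 +
      242659 / 12656250 * (k ^ 3 * w ^ 2) + e3)
    (hCY : CY = 29 / 200 * (k * u) + 29 / 400 * (l * k * w) + 9077 / 480000 * (k * u) ^ 2 +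
      21431 / 960000 * (k * u * (l * k * w)) + 13411079 / 2880000000 * (k * u) ^ 3 +
      540937 / 80000000 * (k ^ 3 * w ^ 2) + e4) :
    m ^ 2 / 10 ≤ 688 / 261 * CX - RX - D * (688 / 261 * CY - RY) - m * (D * (D - 1)) * RY +
      m * (D * (D - 1)) * (172 / 111) * CY + m ^ 2 * (D * (D - 1) / 2) * (122 / 1369) -
      D * (D - 1) * (D - 2) / 2 * (1247 / 1369) * m ^ 2 * CY := by
  have hD0 : 0 ≤ D := by linarith
  obtain ⟨hk0, hk4⟩ := pkn_k hD4 hDk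
  obtain ⟨hlk0, hlk, hlkk, hk2⟩ := pkn_lk hl0 hl hk0.le hk4
  obtain ⟨hu2, _, hu32⟩ := pkn_u hu0 hu
  have hu20 : 0 ≤ u ^ 2 := sq_nonneg u
  have hu30 : 0 ≤ u ^ 3 := pow_nonneg hu0 3
  have hw20 : 0 ≤ w ^ 2 := sq_nonneg w
  have huw : |u * w| ≤ 73 / 1000 * u ^ 2 := by
    rw [abs_mul, abs_of_nonneg hu0]
    calc u * |w| ≤ u * (73 / 1000 * u) := mul_le_mul_of_nonneg_left hw hu0
      _ = _ := by ring
  have hlw : |l * w| ≤ 73 / 2000 * u := by
    rw [abs_mul, abs_of_nonneg hl0]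
    calc l * |w| ≤ 1 / 2 * (73 / 1000 * u) := mul_le_mul hl hw (abs_nonneg _) (by norm_num)
      _ = _ := by ring
  have hlkuw : |l * k * (u * w)| ≤ 1 / 8 * (73 / 1000 * u ^ 2) := by
    rw [abs_mul, abs_of_nonneg hlk0]
    exact mul_le_mul hlk huw (abs_nonneg _) (by norm_num)
  have hDe3 := pkn_err hD0 hDk hlkk hε0 (by norm_num) he3
  have hDe4 := pkn_err hD0 hDk hlkk hε0 (by norm_num) he4
  have hDR : D * RY = 37 / 150 * u + 43 / 225 * (l * w) + 241 / 5625 * (k * u ^ 2) +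
      1967 / 33750 * (l * k * (u * w)) + 580417 / 50625000 * (k ^ 2 * u ^ 3) +
      242659 / 12656250 * (k ^ 2 * w ^ 2) + D * e3 := by
    rw [hRY]
    calc _ = (D * k) * (37 / 150 * u + 43 / 225 * (l * w) + 241 / 5625 * (k * u ^ 2) +
      1967 / 33750 * (l * k * (u * w)) + 580417 / 50625000 * (k ^ 2 * u ^ 3) +
      242659 / 12656250 * (k ^ 2 * w ^ 2)) + D * e3 := by ring
      _ = _ := by rw [hDk]; ring
  have hDC : D * CY = 29 / 200 * u + 29 / 400 * (l * w) + 9077 / 480000 * (k * u ^ 2) +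
      21431 / 960000 * (l * k * (u * w)) + 13411079 / 2880000000 * (k ^ 2 * u ^ 3) +
      540937 / 80000000 * (k ^ 2 * w ^ 2) + D * e4 := by
    rw [hCY]
    calc _ = (D * k) * (29 / 200 * u + 29 / 400 * (l * w) + 9077 / 480000 * (k * u ^ 2) +
      21431 / 960000 * (l * k * (u * w)) + 13411079 / 2880000000 * (k ^ 2 * u ^ 3) +
      540937 / 80000000 * (k ^ 2 * w ^ 2)) + D * e4 := by ring
      _ = _ := by rw [hDk]; ring
  obtain ⟨r1, r2, r3⟩ := pkn_lin (w := w) hu0 hu hu20 hu2 (abs_le.mp huw).1 (abs_le.mp huw).2 hu30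
    hu32 hw20 hw2 (abs_le.mp hlw).1 (abs_le.mp hlw).2 (mul_nonneg hk0.le hu20)
    (mul_le_mul_of_nonneg_right hk4 hu20) (abs_le.mp hlkuw).1 (abs_le.mp hlkuw).2
    (mul_nonneg (sq_nonneg k) hu30) (mul_le_mul_of_nonneg_right hk2 hu30)
    (mul_nonneg (sq_nonneg k) hw20) (mul_le_mul_of_nonneg_right hk2 hw20) hε0 hε
    (abs_le.mp he1).1 (abs_le.mp he1).2 (abs_le.mp he2).1 (abs_le.mp he2).2
    (abs_le.mp hDe3).1 (abs_le.mp hDe3).2 (abs_le.mp hDe4).1 (abs_le.mp hDe4).2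
  rw [← hDR, ← hDC] at r2
  rw [← hDC] at r3
  rw [← hDR, ← hDC, ← hCX, ← hRX] at r1
  refine pkn_asm hD4 hm ?_ r2 r3
  have e : 688 / 261 * CX - RX - D * (688 / 261 * CY - RY) =
      688 / 261 * CX - RX - (688 / 261 * (D * CY) - D * RY) := by ring
  rw [e]
  exact r1

theorem pkn_geom {y : Fin 3 → ℝ} (h0 : y 0 + y 1 + y 2 = 0) (hy : ∀ k, |y k| ≤ 1 / 8) :
    ∃ r : ℝ, 0 ≤ r ∧ r ≤ 1 / 8 ∧ (∀ k, |y k| ≤ r) ∧ r ^ 2 ≤ 2 / 3 * P2 y ∧ P2 y ≤ 1 / 32 ∧
      P3 y ^ 2 ≤ P2 y ^ 3 / 6 := by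
  have hb : ∀ k, (y k) ^ 2 ≤ 2 / 3 * P2 y := by
    have h2 : y 2 = -y 0 - y 1 := by linarith
    intro k
    unfold P2
    fin_cases k
    · simp only [Fin.zero_eta, Fin.isValue]
      rw [h2]; nlinarith [sq_nonneg (y 0 + 2 * y 1)]
    · simp only [Fin.mk_one, Fin.isValue]
      rw [h2]; nlinarith [sq_nonneg (y 1 + 2 * y 0)]
    · simp only [Fin.reduceFinMk, Fin.isValue]
      rw [h2]; nlinarith [sq_nonneg (y 0 - y 1)]
  refine ⟨max |y 0| (max |y 1| |y 2|), le_max_of_le_left (abs_nonneg _),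
    max_le (hy 0) (max_le (hy 1) (hy 2)), ?_, ?_, ?_, ?_⟩
  · intro k
    fin_cases k
    · exact le_max_left _ _
    · exact (le_max_left _ _).trans (le_max_right _ _)
    · exact (le_max_right _ _).trans (le_max_right _ _)
  · rcases max_choice |y 0| (max |y 1| |y 2|) with h | h
    · rw [h, sq_abs]; exact hb 0
    · rw [h]
      rcases max_choice |y 1| |y 2| with h' | h'
      · rw [h', sq_abs]; exact hb 1
      · rw [h', sq_abs]; exact hb 2
  · have a0 := abs_le.mp (hy 0)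
    have a1 := abs_le.mp (hy 1)
    have a2 := abs_le.mp (hy 2)
    unfold P2
    generalize y 0 = a at *
    generalize y 1 = b at *
    generalize y 2 = c at *
    have hc : c = -a - b := by linarith
    subst hc
    rcases le_total 0 a with ha | ha <;> rcases le_total 0 b with hb' | hb'
    · nlinarith [mul_nonneg ha hb']
    · rcases le_total 0 (-a - b) with h | h
      · nlinarith [mul_nonneg ha h]
      · nlinarith [mul_nonneg (neg_nonneg.mpr hb') (neg_nonneg.mpr h)]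
    · rcases le_total 0 (-a - b) with h | h
      · nlinarith [mul_nonneg hb' h]
      · nlinarith [mul_nonneg (neg_nonneg.mpr ha) (neg_nonneg.mpr h)]
    · nlinarith [mul_nonneg (neg_nonneg.mpr ha) (neg_nonneg.mpr hb')]
  · have h2 : y 2 = -y 0 - y 1 := by linarith
    unfold P2 P3
    rw [h2]
    have e : (y 0 ^ 2 + y 1 ^ 2 + (-y 0 - y 1) ^ 2) ^ 3 / 6 -
        (y 0 ^ 3 + y 1 ^ 3 + (-y 0 - y 1) ^ 3) ^ 2 =
        ((y 0 - y 1) * (2 * y 0 + y 1) * (y 0 + 2 * y 1)) ^ 2 / 3 := by ring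
    have := sq_nonneg ((y 0 - y 1) * (2 * y 0 + y 1) * (y 0 + 2 * y 1))
    linarith

/-- the certificate inequality in the zone -/
theorem pkn_inzone {d : ℕ} (hd : 4 ≤ d) {lam : ℝ} (hl : lam < 0)
    (hdl : (d : ℝ) * lam ^ 2 = 1) {x : Fin 3 → ℝ} (hx : mean x = 1)
    (hzone : ∀ i, |x i - 1| ≤ 1 / 8) {m : ℝ} (hm : 0 ≤ m) :
    m ^ 2 / 10 ≤ Psi d lam x - m * ((d : ℝ) * (d - 1)) * phiR (chan lam x) +
      m * ((d : ℝ) * (d - 1)) * (172 / 111) * phiC (chan lam x) +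
      m ^ 2 * ((d : ℝ) * (d - 1) / 2) * (122 / 1369) -
      (d : ℝ) * (d - 1) * (d - 2) / 2 * (1247 / 1369) * m ^ 2 * phiC (chan lam x) := by
  have hD4 : (4 : ℝ) ≤ d := by exact_mod_cast hd
  set y : Fin 3 → ℝ := fun k => x k - 1 with hy
  have h0 : y 0 + y 1 + y 2 = 0 := by
    unfold mean at hx
    simp only [hy]
    linarith
  obtain ⟨r, hr0, hr8, hyr, hr2, hu, hw⟩ := pkn_geom h0 hzone
  have hu0 : 0 ≤ P2 y := by unfold P2; positivity
  have hl0 : 0 ≤ -lam := by linarith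
  have hl2 : -lam ≤ 1 / 2 := by
    have h4 : lam ^ 2 ≤ 1 / 4 := (pkn_k hD4 hdl).2
    nlinarith
  have hlr : -lam * r ≤ 1 / 2 * (1 / 8) := mul_le_mul hl2 hr8 hr0 (by norm_num)
  have h0' : (fun k => lam * y k) 0 + (fun k => lam * y k) 1 + (fun k => lam * y k) 2 = 0 := by
    simp only
    rw [← mul_add, ← mul_add, h0, mul_zero]
  have hyr' : ∀ k, |(fun k => lam * y k) k| ≤ -lam * r := by
    intro k
    simp only
    rw [abs_mul, abs_of_neg hl]
    exact mul_le_mul_of_nonneg_left (hyr k) hl0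
  have n1 := nearR h0 (by linarith : r ≤ 3 / 20) hyr
  have n2 := nearC h0 (by linarith : r ≤ 3 / 20) hyr
  have n3 := nearR h0' (by linarith : -lam * r ≤ 3 / 20) hyr'
  have n4 := nearC h0' (by linarith : -lam * r ≤ 3 / 20) hyr'
  have ex : (fun k => 1 + y k) = x := by funext k; simp [hy]
  have ec : (fun k => 1 + (fun k => lam * y k) k) = chan lam x := by
    funext k; simp only [hy, chan]; ring
  have eP2 : P2 (fun k => lam * y k) = lam ^ 2 * P2 y := by unfold P2; ring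
  have eP3 : P3 (fun k => lam * y k) = lam ^ 3 * P3 y := by unfold P3; ring
  rw [ex] at n1 n2
  rw [ec, eP2, eP3] at n3 n4
  have e7 : (-lam * r) ^ 7 = -lam * (lam ^ 2) ^ 3 * r ^ 7 := by ring
  rw [e7] at n3 n4
  have hw2 : P3 y ^ 2 ≤ P2 y ^ 2 / 192 := by
    obtain ⟨_, _, h⟩ := pkn_u hu0 hu
    linarith
  have hwa : |P3 y| ≤ 73 / 1000 * P2 y := by
    apply abs_le_of_sq_le_sq _ (by positivity)
    rw [mul_pow]
    have := sq_nonneg (P2 y)
    linarith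
  have hε0 : 0 ≤ r ^ 7 := pow_nonneg hr0 7
  have hε : 1152 * r ^ 7 ≤ P2 y ^ 2 := by
    have h3 : r ^ 3 ≤ (1 / 8) ^ 3 := pow_le_pow_left₀ hr0 hr8 3
    have h4 : (r ^ 2) ^ 2 ≤ (2 / 3 * P2 y) ^ 2 := pow_le_pow_left₀ (sq_nonneg r) hr2 2
    calc 1152 * r ^ 7 = 1152 * (r ^ 3 * (r ^ 2) ^ 2) := by ring
      _ ≤ 1152 * ((1 / 8) ^ 3 * (2 / 3 * P2 y) ^ 2) := by
          apply mul_le_mul_of_nonneg_left _ (by norm_num)
          exact mul_le_mul h3 h4 (by positivity) (by norm_num)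
      _ = _ := by ring
  have hfin := pkn_zone (D := (d : ℝ)) (l := -lam) (k := lam ^ 2) (u := P2 y) (w := P3 y)
    (ε := r ^ 7) (m := m) (RX := phiR x) (CX := phiC x) (RY := phiR (chan lam x))
    (CY := phiC (chan lam x)) hD4 hdl hl0 hl2 hu0 hu hwa hw2 hε0 hε n1 n2 n3 n4 hm
    (by unfold phiR; ring) (by unfold phiC; ring) (by unfold phiR; ring) (by unfold phiC; ring)
  exact hfin

theorem pkn_chan {x : Fin 3 → ℝ} (hx : Simp x) {lam : ℝ} (hl : lam < 0) (hl2 : -1 / 2 ≤ lam) :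
    Simp (chan lam x) := by
  have hle : ∀ i, x i ≤ 3 := fun i => by
    have h := Sx_le (q := 3) (by norm_num) ((Sx_iff x).mpr hx) i
    exact_mod_cast h
  refine ⟨fun i => ?_, ?_⟩
  · have := hle i
    unfold chan
    nlinarith
  · have hm := hx.2
    unfold mean at hm ⊢
    unfold chan
    have : x 0 = 3 - x 1 - x 2 := by linarith
    rw [this]; ring

/-- lower bound of the certificate function -/
theorem pkn_H {d : ℕ} (hd : 4 ≤ d) (hd' : d ≤ 8) {m : ℝ} (hm : 0 < m) (hm' : m ≤ 1 / 768)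
    (CX RX CY RY : ℝ) (hCY : 0 ≤ CY) :
    688 / 261 * CX - RX - d * (688 / 261 * CY - RY) - m * ((d : ℝ) * (d - 1)) * RY +
      m * ((d : ℝ) * (d - 1)) * (172 / 111) * CY +
      m ^ 2 * ((d : ℝ) * (d - 1) / 2) * (122 / 1369) -
      (d : ℝ) * (d - 1) * (d - 2) / 2 * (1247 / 1369) * m ^ 2 * CY ≤
    688 / 261 * (CX - (1 - (1 - 87 / 148 * m) ^ d -
      87 / 148 * m * (d * (1 - 87 / 148 * m) ^ (d - 1))) -
      d * (1 - 87 / 148 * m) ^ (d - 1) * CY) +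
    (-1 * (RX - (1 - (1 - m) ^ d)) + (d - d * (d - 1) * m) * (RY - m)) := by
  have hs0 : 0 ≤ 87 / 148 * m := by positivity
  have hs1 : 87 / 148 * m ≤ 1 / 100 := by linarith
  have h1 := pkn_ic hd hd' hs0 hs1
  have h2 := pkn_up (d - 1) (87 / 148 * m) hs0 (by linarith)
  have hcast : ((d - 1 : ℕ) : ℝ) = (d : ℝ) - 1 := by
    rw [Nat.cast_sub (by omega)]; simp
  rw [hcast] at h2
  have hd0 : (0 : ℝ) ≤ d := Nat.cast_nonneg d
  have h3 := mul_le_mul_of_nonneg_right (mul_le_mul_of_nonneg_left h2 hd0) hCY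
  have h4 := pkn_up d m hm.le (by linarith)
  generalize (1 - 87 / 148 * m) ^ (d - 1) = q1 at *
  generalize (1 - 87 / 148 * m) ^ d = q2 at *
  generalize (1 - m) ^ d = q3 at *
  nlinarith [h1, h3, h4]

theorem small_cert {d : ℕ} (hd : 4 ≤ d) (hd' : d ≤ 8) {lam : ℝ} (hl : lam < 0)
    (hdl : (d : ℝ) * lam ^ 2 = 1) {c : ℝ} (hc : 0 < c)
    (hpos : ∀ x, Simp x → 0 ≤ gE (1 / 2) (1 / 5) (chan lam x))
    (Z0 : ∀ x, Simp x → (¬ ∀ i, |x i - 1| ≤ 1 / 8) → c ≤ Psi d lam x -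
      (d : ℝ) * (d - 1) * (61 / 1369) / (4 * 768 ^ 2))
    (Z1 : ∀ x, Simp x → (¬ ∀ i, |x i - 1| ≤ 1 / 8) → c ≤ Psi d lam x -
      1 / 768 * ((d : ℝ) * (d - 1)) * phiR (chan lam x) + 1 / 768 * aC d * phiC (chan lam x) +
      3 * ((d : ℝ) * (d - 1) * (61 / 1369) / (4 * 768 ^ 2)))
    {m : ℝ} (hm : 0 < m) (hm' : m ≤ 1 / 768) :
    CertAt (dirac d) lam (fun _ : Fin 1 => alT (1 / 3) (2 / 5)) (fun _ => m) := by
  have hD4 : (4 : ℝ) ≤ d := by exact_mod_cast hd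
  have hl2 : -1 / 2 ≤ lam := by
    have h4 : lam ^ 2 ≤ 1 / 4 := (pkn_k hD4 hdl).2
    nlinarith
  refine ⟨1, fun _ => alT (1 / 2) (1 / 5), fun _ => 688 / 261,
    fun _ => 1 - (1 - 87 / 148 * m) ^ d - 87 / 148 * m * (d * (1 - 87 / 148 * m) ^ (d - 1)),
    fun _ => d * (1 - 87 / 148 * m) ^ (d - 1), fun _ => 1, fun _ => 1,
    fun _ => d - d * (d - 1) * m, min c (m ^ 2 / 10), lt_min hc (by positivity),
    fun _ => adm_alT (by norm_num) (by norm_num) _, fun _ => by norm_num, ?_, ?_, ?_⟩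
  · intro _ x hx
    have hx' := (Sx_iff x).mp hx
    rw [ch_eq_chan, one_sub_gm_C (pkn_chan hx' hl hl2).1]
    have := hpos x hx'
    unfold phiC
    linarith
  · intro _ s hs0 hs1
    rw [Fp_dirac]
    have hs : s ≤ 1 := hs1
    have h := pkn_tan d (a := 1 - 87 / 148 * m) (x := 1 - s) (by linarith) (by linarith)
    simp only
    linarith
  · intro x hx
    have hx' := (Sx_iff x).mp hx
    have hz := pkn_chan hx' hl hl2
    simp only [Finset.univ_unique, Finset.sum_singleton, Fin.default_eq_zero]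
    rw [ch_eq_chan, one_sub_gm_C hz.1, one_sub_gm_R hz.1, one_sub_gm_C hx'.1, one_sub_gm_R hx'.1,
      Fp_dirac]
    have hCY : 0 ≤ phiC (chan lam x) := by
      rw [← one_sub_gm_C hz.1]
      have h := abs_le.mp (abs_gm_le (adm_alT (a := 1 / 2) (by norm_num) (by norm_num) (1 / 5))
        ((Sx_iff _).mpr hz))
      linarith [h.2]
    refine le_trans ?_ (pkn_H hd hd' hm hm' (phiC x) (phiR x) (phiC (chan lam x))
      (phiR (chan lam x)) hCY)
    by_cases hzone : ∀ i, |x i - 1| ≤ 1 / 8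
    · exact (min_le_right _ _).trans (pkn_inzone hd hl hdl hx'.2 hzone hm.le)
    · refine (min_le_left _ _).trans ?_
      have z0 := Z0 x hx' hzone
      have z1 := Z1 x hx' hzone
      have hθ0 : 0 ≤ 768 * m := by positivity
      have hθ1 : 0 ≤ 1 - 768 * m := by linarith
      have a0 := mul_le_mul_of_nonneg_left z0 hθ1
      have a1 := mul_le_mul_of_nonneg_left z1 hθ0
      have hB : 0 ≤ (d : ℝ) * (d - 1) * (d - 2) / 2 * (1247 / 1369) * phiC (chan lam x) := by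
        apply mul_nonneg _ hCY
        apply mul_nonneg _ (by norm_num)
        apply div_nonneg _ (by norm_num)
        exact mul_nonneg (mul_nonneg (by linarith) (by linarith)) (by linarith)
      have hB2 : 0 ≤ m * (1 / 768 - m) *
          ((d : ℝ) * (d - 1) * (d - 2) / 2 * (1247 / 1369) * phiC (chan lam x)) :=
        mul_nonneg (mul_nonneg hm.le (by linarith)) hB
      have hm2 : 0 ≤ (m - 1 / 1536) ^ 2 * ((d : ℝ) * (d - 1) / 2) * (122 / 1369) := by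
        apply mul_nonneg _ (by norm_num)
        apply mul_nonneg (sq_nonneg _)
        apply div_nonneg _ (by norm_num)
        exact mul_nonneg (by linarith) (by linarith)
      have eP : Psi d lam x = 688 / 261 * phiC x - phiR x -
        d * (688 / 261 * phiC (chan lam x) - phiR (chan lam x)) := rfl
      rw [← eP]
      unfold aC at a1
      nlinarith [a0, a1, hB2, hm2]

end Vale.Agent.P154.Pk
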