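import Vale.Agent.P154.PkH
import Vale.Agent.P154.PkN
import Vale.Agent.P154.PkG0
import Vale.Agent.P154.PkIDefs

/-!
# From positive rows to nonreconstruction (task PK-I)
-/

namespace Vale.Agent.P154.Pk

open Near Mu Uni Filter Topology

/-- positivity of a row -/
def RowPos (gs : List GF) (lam : ℝ) (r : Row) : Prop :=
  ∀ x : Fin 3 → ℝ, Simp x → (r.zf = true → ¬ ∀ i, |x i - 1| ≤ (r.z : ℝ) / 2 ^ 58) →
    (r.cap = true → ∀ i, x i ≤ 4 / 3) → 0 < r.fn gs lam x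

lemma zip_sum {α β : Type*} (f : α → β → ℝ) : ∀ (N : ℕ) (a : Fin N → α) (b : Fin N → β),
    (List.zipWith f (List.ofFn a) (List.ofFn b)).sum = ∑ j, f (a j) (b j) := by
  intro N
  induction N with
  | zero => intro a b; simp
  | succ n ih =>
    intro a b
    rw [List.ofFn_succ, List.ofFn_succ, List.zipWith_cons_cons, List.sum_cons, ih,
      Fin.sum_univ_succ]

lemma lc_ofFn {N : ℕ} (gR : GF) (g : Fin N → GF) (k0 : Sg) (k : Fin N → Sg) (x : Fin 3 → ℝ) :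
    lc (gR :: List.ofFn g) (k0 :: List.ofFn k) x =
      k0.val * gR.fn x + ∑ j, (k j).val * (g j).fn x := by
  unfold lc
  rw [List.zipWith_cons_cons, List.sum_cons, zip_sum]

lemma div_le_cast (a S : ℕ) : ((a / S : ℕ) : ℝ) ≤ (a : ℝ) / S := Nat.cast_div_le

lemma cast_le_div (a S : ℕ) (hS : 0 < S) : (a : ℝ) / S ≤ ((a / S : ℕ) : ℝ) + 1 := by
  have hS' : (0 : ℝ) < S := by exact_mod_cast hS
  have h2 : a < (a / S + 1) * S := by
    have := Nat.lt_div_mul_add hS (a := a)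
    nlinarith
  rw [div_le_iff₀ hS']
  exact_mod_cast h2.le

lemma U_pos : (0 : ℝ) < (U : ℝ) := by unfold U; norm_num

lemma U_pos' : 0 < U := by unfold U; norm_num

/-- the `j`-th positive term -/
def Ce.q {N : ℕ} (ce : Ce) (h : ce.pos.length = N) (j : Fin N) : Ps := ce.pos.get (j.cast h.symm)

lemma Ce.pos_eq {N : ℕ} (ce : Ce) (h : ce.pos.length = N) : ce.pos = List.ofFn (ce.q h) := by
  subst h
  exact (List.ofFn_get ce.pos).symm

lemma row_ineqK {d N : ℕ} {ce : Ce} (hlen : ce.pos.length = N) {gR : GF} {g : Fin N → GF}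
    {A t : Fin N → ℝ} {lam : ℝ} (hR : ∀ x, gR.fn x = gE (1 / 3) (2 / 5) x)
    (hg : ∀ j x, (g j).fn x = gE (A j) (t j) x) {m : ℕ} (hmU : m ≤ U) {mu : Sg}
    {x : Fin 3 → ℝ} {K : ℝ} (h : K < (ce.row d m mu).fn (gR :: List.ofFn g) lam x) :
    (K + 2) / (U : ℝ) ≤ ∑ j, (((ce.q hlen j).rho : ℝ) / U * (1 - gE (A j) (t j) x) -
        ((ce.q hlen j).ic : ℝ) / U - ((ce.q hlen j).sl : ℝ) / U *
          (1 - gE (A j) (t j) (chan lam x))) -
      (ce.R : ℝ) / U * (phiR x - (1 - (1 - (m : ℝ) / U) ^ d)) +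
      mu.val / U * (phiR (chan lam x) - (m : ℝ) / U) := by
  have hU := U_pos
  unfold Row.fn Ce.row at h
  simp only at h
  rw [ce.pos_eq hlen, List.map_ofFn, List.map_ofFn, lc_ofFn, lc_ofFn, hR, hR] at h
  simp only [hg, Function.comp_apply] at h
  have hchn : chn lam x = chan lam x := rfl
  rw [hchn] at h
  unfold Ce.rowc at h
  simp only [Sg.val] at h
  rw [ce.pos_eq hlen, List.map_ofFn, List.map_ofFn, List.sum_ofFn, List.sum_ofFn] at h
  simp only [Function.comp_apply] at h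
  have f1 := div_le_cast (mu.p * (U - m)) U
  have f2 := cast_le_div (ce.R * (U - m) ^ d) (U ^ d) (by have := U_pos'; positivity)
  have f3 := cast_le_div (mu.n * (U - m)) U U_pos'
  push_cast [Nat.cast_sub hmU] at h f1 f2 f3
  have e1 : (mu.p : ℝ) * ((U : ℝ) - m) / U = mu.p * (1 - m / U) := by field_simp
  have e3 : (mu.n : ℝ) * ((U : ℝ) - m) / U = mu.n * (1 - m / U) := by field_simp
  have e2 : (ce.R : ℝ) * ((U : ℝ) - m) ^ d / U ^ d = ce.R * (1 - m / U) ^ d := by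
    rw [mul_div_assoc, ← div_pow]
    congr 2
    field_simp
  rw [e1] at f1
  rw [e2] at f2
  rw [e3] at f3
  have eS : ∑ j, (((ce.q hlen j).rho : ℝ) / U * (1 - gE (A j) (t j) x) -
        ((ce.q hlen j).ic : ℝ) / U - ((ce.q hlen j).sl : ℝ) / U *
          (1 - gE (A j) (t j) (chan lam x))) =
      (∑ j, ((ce.q hlen j).rho : ℝ) + ∑ j, (0 - ((ce.q hlen j).rho : ℝ)) * gE (A j) (t j) x -
        ∑ j, (((ce.q hlen j).ic : ℝ) + (ce.q hlen j).sl) +
        ∑ j, (((ce.q hlen j).sl : ℝ) - 0) * gE (A j) (t j) (chan lam x)) / U := by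
    rw [← Finset.sum_add_distrib, ← Finset.sum_sub_distrib, ← Finset.sum_add_distrib,
      Finset.sum_div]
    refine Finset.sum_congr rfl (fun j _ => ?_)
    field_simp
    ring
  rw [eS]
  have eG : ∀ a b c e f : ℝ, a / U - (ce.R : ℝ) / U * (b - (1 - c)) + e / U * f =
      (a - ce.R * (b - (1 - c)) + e * f) / U := by
    intro a b c e f; field_simp
  rw [eG, div_le_div_iff_of_pos_right hU]
  unfold phiR
  simp only [Sg.val]
  generalize (∑ j, ((ce.q hlen j).rho : ℝ)) = S1 at *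
  generalize (∑ j, (((ce.q hlen j).ic : ℝ) + (ce.q hlen j).sl)) = S2 at *
  generalize (∑ j, (0 - ((ce.q hlen j).rho : ℝ)) * gE (A j) (t j) x) = S3 at *
  generalize (∑ j, (((ce.q hlen j).sl : ℝ) - 0) * gE (A j) (t j) (chan lam x)) = S4 at *
  generalize gE (1 / 3) (2 / 5) x = gx at *
  generalize gE (1 / 3) (2 / 5) (chan lam x) = gy at *
  nlinarith [h, f1, f2, f3]

lemma row_ineq {d N : ℕ} {ce : Ce} (hlen : ce.pos.length = N) {gR : GF} {g : Fin N → GF}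
    {A t : Fin N → ℝ} {lam : ℝ} (hR : ∀ x, gR.fn x = gE (1 / 3) (2 / 5) x)
    (hg : ∀ j x, (g j).fn x = gE (A j) (t j) x) {m : ℕ} (hmU : m ≤ U) {mu : Sg}
    (hrow : RowPos (gR :: List.ofFn g) lam (ce.row d m mu)) {x : Fin 3 → ℝ} (hx : Simp x) :
    2 / (U : ℝ) ≤ ∑ j, (((ce.q hlen j).rho : ℝ) / U * (1 - gE (A j) (t j) x) -
        ((ce.q hlen j).ic : ℝ) / U - ((ce.q hlen j).sl : ℝ) / U *
          (1 - gE (A j) (t j) (chan lam x))) -
      (ce.R : ℝ) / U * (phiR x - (1 - (1 - (m : ℝ) / U) ^ d)) +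
      mu.val / U * (phiR (chan lam x) - (m : ℝ) / U) := by
  have h := hrow x hx (by simp [Ce.row]) (by simp [Ce.row])
  have := row_ineqK hlen hR hg hmU h
  rwa [zero_add] at this

lemma psOK_facts {d : ℕ} (hd : 2 ≤ d) {q : Ps} (h : psOK d q = true) :
    0 < q.rho ∧ q.sg ≤ U ∧
    (q.rho : ℝ) / U * (1 - (1 - (q.sg : ℝ) / U) ^ (d - 1) * (1 + ((d : ℝ) - 1) * ((q.sg : ℝ) / U)))
      ≤ (q.ic : ℝ) / U ∧
    (q.rho : ℝ) / U * (1 + ((d : ℝ) - 1) * (1 - (q.sg : ℝ) / U) ^ d) ≤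
      (q.ic : ℝ) / U + (q.sl : ℝ) / U := by
  unfold psOK at h
  simp only [Bool.and_eq_true, decide_eq_true_eq] at h
  obtain ⟨⟨⟨h1, h2⟩, h3⟩, h4⟩ := h
  have hU := U_pos
  refine ⟨h1, h2, ?_, ?_⟩
  · have h3' : ((q.rho * U ^ d : ℕ) : ℝ) ≤
        ((q.ic * U ^ d + q.rho * ((U - q.sg) ^ (d - 1) * (U + (d - 1) * q.sg)) : ℕ) : ℝ) := by
      exact_mod_cast h3
    push_cast [Nat.cast_sub h2, Nat.cast_sub (by omega : 1 ≤ d)] at h3'
    have hUd : (0 : ℝ) < (U : ℝ) ^ d := by positivity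
    have e1 : (1 - (q.sg : ℝ) / U) ^ (d - 1) * (1 + ((d : ℝ) - 1) * ((q.sg : ℝ) / U)) =
        (((U : ℝ) - q.sg) ^ (d - 1) * (U + ((d : ℝ) - 1) * q.sg)) / U ^ d := by
      have a1 : 1 - (q.sg : ℝ) / U = (U - q.sg) / U := by field_simp
      have a2 : 1 + ((d : ℝ) - 1) * ((q.sg : ℝ) / U) = (U + ((d : ℝ) - 1) * q.sg) / U := by
        field_simp
      rw [a1, a2, div_pow, div_mul_div_comm]
      congr 1
      rw [← pow_succ]
      congr 1
      omega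
    rw [e1, div_mul_eq_mul_div, div_le_div_iff_of_pos_right hU]
    have e2 : (q.rho : ℝ) * (1 - ((U : ℝ) - q.sg) ^ (d - 1) * (U + ((d : ℝ) - 1) * q.sg) / U ^ d) =
        (q.rho * U ^ d - q.rho * (((U : ℝ) - q.sg) ^ (d - 1) * (U + ((d : ℝ) - 1) * q.sg))) /
          U ^ d := by
      field_simp
    rw [e2, div_le_iff₀ hUd]
    linarith
  · have h4' : ((q.rho * (U ^ d + (d - 1) * (U - q.sg) ^ d) : ℕ) : ℝ) ≤
        (((q.ic + q.sl) * U ^ d : ℕ) : ℝ) := by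
      exact_mod_cast h4
    push_cast [Nat.cast_sub h2, Nat.cast_sub (by omega : 1 ≤ d)] at h4'
    have hUd : (0 : ℝ) < (U : ℝ) ^ d := by positivity
    have a1 : 1 - (q.sg : ℝ) / U = (U - q.sg) / U := by field_simp
    rw [a1, div_pow, ← add_div, div_mul_eq_mul_div, div_le_div_iff_of_pos_right hU]
    have e2 : (q.rho : ℝ) * (1 + ((d : ℝ) - 1) * (((U : ℝ) - q.sg) ^ d / U ^ d)) =
        (q.rho * (U ^ d + ((d : ℝ) - 1) * ((U : ℝ) - q.sg) ^ d)) / U ^ d := by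
      field_simp
    rw [e2, div_le_iff₀ hUd]
    linarith

lemma ceOK_facts {d N : ℕ} (hd : 2 ≤ d) {ce : Ce} (h : ceOK d N ce = true) :
    ce.m0 < ce.m1 ∧ ce.m1 ≤ U ∧ ce.pos.length = N ∧ (∀ q ∈ ce.pos, psOK d q = true) ∧
    0 ≤ 2 * (ce.mu1.val / U - ce.mu0.val / U) + (ce.R : ℝ) / U * (d * (d - 1)) *
      (1 - (ce.m1 : ℝ) / U) ^ (d - 2) * ((ce.m1 : ℝ) / U - (ce.m0 : ℝ) / U) := by
  unfold ceOK at h
  simp only [Bool.and_eq_true, decide_eq_true_eq, List.all_eq_true] at h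
  obtain ⟨⟨⟨⟨h1, h2⟩, h3⟩, h4⟩, h5⟩ := h
  refine ⟨h1, h2, h3, h4, ?_⟩
  have hU := U_pos
  have h5' : ((2 * (ce.mu0.p + ce.mu1.n) * U ^ (d - 1) : ℕ) : ℝ) ≤
      ((2 * (ce.mu1.p + ce.mu0.n) * U ^ (d - 1) +
        ce.R * (d * (d - 1)) * (U - ce.m1) ^ (d - 2) * (ce.m1 - ce.m0) : ℕ) : ℝ) := by
    exact_mod_cast h5
  push_cast [Nat.cast_sub h2, Nat.cast_sub (by omega : 1 ≤ d), Nat.cast_sub h1.le] at h5'
  have hUd : (0 : ℝ) < (U : ℝ) ^ (d - 1) := by positivity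
  have a1 : 1 - (ce.m1 : ℝ) / U = (U - ce.m1) / U := by field_simp
  have e : 2 * (ce.mu1.val / U - ce.mu0.val / U) + (ce.R : ℝ) / U * (d * (d - 1)) *
      (1 - (ce.m1 : ℝ) / U) ^ (d - 2) * ((ce.m1 : ℝ) / U - (ce.m0 : ℝ) / U) =
      (2 * (ce.mu1.val - ce.mu0.val) * U ^ (d - 1) + ce.R * (d * (d - 1)) *
        (U - ce.m1) ^ (d - 2) * (ce.m1 - ce.m0)) / (U * U ^ (d - 1)) := by
    rw [a1, div_pow]
    have hp : (U : ℝ) ^ (d - 1) = U ^ (d - 2) * U := by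
      rw [← pow_succ]; congr 1; omega
    have hUd2 : (U : ℝ) ^ (d - 2) ≠ 0 := by positivity
    have hU0 : (U : ℝ) ≠ 0 := hU.ne'
    rw [hp]
    field_simp
  rw [e]
  apply div_nonneg _ (by positivity)
  unfold Sg.val
  nlinarith

section

variable {d N : ℕ} {gR : GF} {g : Fin N → GF} {A t : Fin N → ℝ} {lam : ℝ}

/-- the certificate at every `m` of an interval -/
lemma cert_of_ce (hd : 2 ≤ d) (hl : -(1 / 2) ≤ lam) (hl1 : lam ≤ 1) {ce : Ce}
    (hce : ceOK d N ce = true)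
    (hR : ∀ x, gR.fn x = gE (1 / 3) (2 / 5) x) (hg : ∀ j x, (g j).fn x = gE (A j) (t j) x)
    (hA : ∀ j, 0 < A j) (hA1 : ∀ j, A j ≤ 1 / 2)
    (hpos : ∀ j x, Simp x → 0 ≤ gE (A j) (t j) (chan lam x))
    (h0 : RowPos (gR :: List.ofFn g) lam (ce.row d ce.m0 ce.mu0))
    (h1 : RowPos (gR :: List.ofFn g) lam (ce.row d ce.m1 ce.mu1))
    {m : ℝ} (hm : (ce.m0 : ℝ) / U ≤ m) (hm' : m ≤ (ce.m1 : ℝ) / U) :
    CertAt (dirac d) lam (fun _ : Fin 1 => alT (1 / 3) (2 / 5)) (fun _ => m) := by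
  obtain ⟨k1, k2, k3, k4, k5⟩ := ceOK_facts hd hce
  have hU := U_pos
  have hq : ∀ j : Fin N, psOK d (ce.q k3 j) = true := fun j => k4 _ (List.get_mem _ _)
  have hm1U : (ce.m1 : ℝ) / U ≤ 1 := by
    rw [div_le_one hU]; exact_mod_cast k2
  refine cert_interval (c := 2 / (U : ℝ)) hd hl hl1 A t (fun j => ((ce.q k3 j).rho : ℝ) / U)
    (fun j => ((ce.q k3 j).ic : ℝ) / U) (fun j => ((ce.q k3 j).sl : ℝ) / U)
    (fun j => ((ce.q k3 j).sg : ℝ) / U) hA hA1 (fun j => ?_) (fun j => by positivity) (fun j => ?_)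
    (fun j => (psOK_facts hd (hq j)).2.2.1) (fun j => (psOK_facts hd (hq j)).2.2.2)
    (R := (ce.R : ℝ) / U) (m0 := (ce.m0 : ℝ) / U) (m1 := (ce.m1 : ℝ) / U)
    (mu0 := ce.mu0.val / U) (mu1 := ce.mu1.val / U) (by positivity) (by positivity) ?_ hm1U k5 hpos
    (by positivity) (fun x hx => ?_) (fun x hx => ?_) hm hm'
  · have h : (0 : ℝ) < (ce.q k3 j).rho := by exact_mod_cast (psOK_facts hd (hq j)).1
    positivity
  · have h : ((ce.q k3 j).sg : ℝ) ≤ U := by exact_mod_cast (psOK_facts hd (hq j)).2.1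
    rw [div_le_one hU]; exact h
  · rw [div_lt_div_iff_of_pos_right hU]; exact_mod_cast k1
  · exact row_ineq k3 hR hg (k1.le.trans k2) h0 hx
  · exact row_ineq k3 hR hg k2 h1 hx

/-- certificates for all `m` of a covered interval -/
theorem certs_of_rows (hd : 2 ≤ d) (hl : -(1 / 2) ≤ lam) (hl1 : lam ≤ 1)
    (hR : ∀ x, gR.fn x = gE (1 / 3) (2 / 5) x) (hg : ∀ j x, (g j).fn x = gE (A j) (t j) x)
    (hA : ∀ j, 0 < A j) (hA1 : ∀ j, A j ≤ 1 / 2)
    (hpos : ∀ j x, Simp x → 0 ≤ gE (A j) (t j) (chan lam x)) (bot : ℕ) :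
    ∀ (ces : List Ce) (top : ℕ), (∀ ce ∈ ces, ceOK d N ce = true) → cover bot top ces = true →
      (∀ r ∈ ces.flatMap (Ce.rows d), RowPos (gR :: List.ofFn g) lam r) →
      ∀ m : ℝ, (bot : ℝ) / U < m → m ≤ (top : ℝ) / U →
        CertAt (dirac d) lam (fun _ : Fin 1 => alT (1 / 3) (2 / 5)) (fun _ => m) := by
  intro ces
  induction ces with
  | nil =>
    intro top _ hc _ m h1 h2
    exfalso
    unfold cover at hc
    have : top ≤ bot := by simpa using hc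
    have hU := U_pos
    have : (top : ℝ) / U ≤ (bot : ℝ) / U := by
      rw [div_le_div_iff_of_pos_right hU]; exact_mod_cast this
    linarith
  | cons ce ces ih =>
    intro top hce hc hrows m h1 h2
    unfold cover at hc
    simp only [Bool.and_eq_true, decide_eq_true_eq] at hc
    obtain ⟨hc1, hc2⟩ := hc
    have hU := U_pos
    rcases le_total ((ce.m0 : ℝ) / U) m with h | h
    · have hm' : m ≤ (ce.m1 : ℝ) / U := by
        refine h2.trans ?_
        rw [div_le_div_iff_of_pos_right hU]; exact_mod_cast hc1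
      refine cert_of_ce hd hl hl1 (hce ce (List.mem_cons_self ..)) hR hg hA hA1 hpos ?_ ?_ h hm'
      · exact hrows _ (by simp [Ce.rows])
      · exact hrows _ (by simp [Ce.rows])
    · exact ih ce.m0 (fun c hc' => hce c (List.mem_cons_of_mem _ hc')) hc2
        (fun r hr => hrows r (by rw [List.flatMap_cons]; exact List.mem_append_right _ hr)) m h1 h

end

end Vale.Agent.P154.Pk
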