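import Vale.Agent.P154.PkI
import Vale.Agent.P154.PkH4

/-!
# From positive rows to nonreconstruction, final theorems (task PK-I)
-/

namespace Vale.Agent.P154.Pk

open Near Mu Uni Filter Topology

/-! ### run B -/

lemma psOK4_facts {q : Ps} (h : psOK4 q = true) :
    0 < q.rho ∧ q.sg ≤ U ∧
    (q.rho : ℝ) / U * (1 - (1 - (q.sg : ℝ) / U) ^ 3 * (1 + 3 * ((q.sg : ℝ) / U)))
      ≤ (q.ic : ℝ) / U ∧
    (q.rho : ℝ) / U * (4 * (1 - (q.sg : ℝ) / U) ^ 3) ≤ (q.sl : ℝ) / U := by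
  unfold psOK4 at h
  simp only [Bool.and_eq_true, decide_eq_true_eq] at h
  obtain ⟨⟨⟨h1, h2⟩, h3⟩, h4⟩ := h
  have hU := U_pos
  have a1 : 1 - (q.sg : ℝ) / U = (U - q.sg) / U := by field_simp
  refine ⟨h1, h2, ?_, ?_⟩
  · have h3' : ((q.rho * U ^ 4 : ℕ) : ℝ) ≤
        ((q.ic * U ^ 4 + q.rho * ((U - q.sg) ^ 3 * (U + 3 * q.sg)) : ℕ) : ℝ) := by
      exact_mod_cast h3
    push_cast [Nat.cast_sub h2] at h3'
    have hU4 : (0 : ℝ) < (U : ℝ) ^ 4 := by positivity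
    have a2 : 1 + 3 * ((q.sg : ℝ) / U) = (U + 3 * q.sg) / U := by field_simp
    rw [a1, a2, div_mul_eq_mul_div, div_le_div_iff_of_pos_right hU]
    have e2 : (q.rho : ℝ) * (1 - (((U : ℝ) - q.sg) / U) ^ 3 * ((U + 3 * q.sg) / U)) =
        (q.rho * U ^ 4 - q.rho * (((U : ℝ) - q.sg) ^ 3 * (U + 3 * q.sg))) / U ^ 4 := by
      field_simp
    rw [e2, div_le_iff₀ hU4]
    linarith
  · have h4' : ((q.rho * (4 * (U - q.sg) ^ 3) : ℕ) : ℝ) ≤ ((q.sl * U ^ 3 : ℕ) : ℝ) := by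
      exact_mod_cast h4
    push_cast [Nat.cast_sub h2] at h4'
    have hU3 : (0 : ℝ) < (U : ℝ) ^ 3 := by positivity
    rw [a1, div_mul_eq_mul_div, div_le_div_iff_of_pos_right hU]
    have e2 : (q.rho : ℝ) * (4 * (((U : ℝ) - q.sg) / U) ^ 3) =
        (q.rho * (4 * ((U : ℝ) - q.sg) ^ 3)) / U ^ 3 := by
      field_simp
    rw [e2, div_le_iff₀ hU3]
    linarith

lemma ceOK4_facts {N : ℕ} {ce : Ce} (h : ceOK4 N ce = true) :
    ce.m0 < ce.m1 ∧ ce.m1 ≤ U ∧ ce.pos.length = N ∧ ce.R ≤ U ∧ (∀ q ∈ ce.pos, psOK4 q = true) ∧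
    0 ≤ 2 * (ce.mu1.val / U - ce.mu0.val / U) + (ce.R : ℝ) / U * 12 *
      (1 - (ce.m1 : ℝ) / U) ^ 2 * ((ce.m1 : ℝ) / U - (ce.m0 : ℝ) / U) := by
  unfold ceOK4 at h
  simp only [Bool.and_eq_true, decide_eq_true_eq, List.all_eq_true] at h
  obtain ⟨⟨⟨⟨⟨h1, h2⟩, h3⟩, hRU⟩, h4⟩, h5⟩ := h
  refine ⟨h1, h2, h3, hRU, h4, ?_⟩
  have hU := U_pos
  have h5' : ((2 * (ce.mu0.p + ce.mu1.n) * U ^ 3 : ℕ) : ℝ) ≤
      ((2 * (ce.mu1.p + ce.mu0.n) * U ^ 3 +
        ce.R * 12 * (U - ce.m1) ^ 2 * (ce.m1 - ce.m0) : ℕ) : ℝ) := by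
    exact_mod_cast h5
  push_cast [Nat.cast_sub h2, Nat.cast_sub h1.le] at h5'
  have a1 : 1 - (ce.m1 : ℝ) / U = (U - ce.m1) / U := by field_simp
  have e : 2 * (ce.mu1.val / U - ce.mu0.val / U) + (ce.R : ℝ) / U * 12 *
      (1 - (ce.m1 : ℝ) / U) ^ 2 * ((ce.m1 : ℝ) / U - (ce.m0 : ℝ) / U) =
      (2 * (ce.mu1.val - ce.mu0.val) * U ^ 3 + ce.R * 12 *
        (U - ce.m1) ^ 2 * (ce.m1 - ce.m0)) / (U ^ 4) := by
    rw [a1, div_pow]
    field_simp
  rw [e]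
  apply div_nonneg _ (by positivity)
  unfold Sg.val
  linarith

section

variable {N : ℕ} {gR : GF} {g : Fin N → GF} {A t : Fin N → ℝ} {lam : ℝ}

/-- the certificate at every `m` of an interval, `d = 4` -/
lemma cert_of_ce4 (hl : -(1 / 2) ≤ lam) (hl1 : lam ≤ 1) {ce : Ce}
    (hce : ceOK4 N ce = true)
    (hR : ∀ x, gR.fn x = gE (1 / 3) (2 / 5) x) (hg : ∀ j x, (g j).fn x = gE (A j) (t j) x)
    (hA : ∀ j, 0 < A j) (hA1 : ∀ j, A j ≤ 1 / 2)
    (h0 : RowPos (gR :: List.ofFn g) lam (ce.row 4 ce.m0 ce.mu0))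
    (h1 : RowPos (gR :: List.ofFn g) lam (ce.row 4 ce.m1 ce.mu1))
    {m : ℝ} (hm : (ce.m0 : ℝ) / U ≤ m) (hm' : m ≤ (ce.m1 : ℝ) / U) :
    CertAt (dirac 4) lam (fun _ : Fin 1 => alT (1 / 3) (2 / 5)) (fun _ => m) := by
  obtain ⟨k1, k2, k3, _, k4, k5⟩ := ceOK4_facts hce
  have hU := U_pos
  have hq : ∀ j : Fin N, psOK4 (ce.q k3 j) = true := fun j => k4 _ (List.get_mem _ _)
  have hm1U : (ce.m1 : ℝ) / U ≤ 1 := by
    rw [div_le_one hU]; exact_mod_cast k2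
  refine cert_interval4 (c := 2 / (U : ℝ)) hl hl1 A t (fun j => ((ce.q k3 j).rho : ℝ) / U)
    (fun j => ((ce.q k3 j).ic : ℝ) / U) (fun j => ((ce.q k3 j).sl : ℝ) / U)
    (fun j => ((ce.q k3 j).sg : ℝ) / U) hA hA1 (fun j => ?_) (fun j => by positivity) (fun j => ?_)
    (fun j => (psOK4_facts (hq j)).2.2.1) (fun j => (psOK4_facts (hq j)).2.2.2)
    (R := (ce.R : ℝ) / U) (m0 := (ce.m0 : ℝ) / U) (m1 := (ce.m1 : ℝ) / U)
    (mu0 := ce.mu0.val / U) (mu1 := ce.mu1.val / U) (by positivity) (by positivity) ?_ hm1U k5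
    (by positivity) (fun x hx => ?_) (fun x hx => ?_) hm hm'
  · have h : (0 : ℝ) < (ce.q k3 j).rho := by exact_mod_cast (psOK4_facts (hq j)).1
    positivity
  · have h : ((ce.q k3 j).sg : ℝ) ≤ U := by exact_mod_cast (psOK4_facts (hq j)).2.1
    rw [div_le_one hU]; exact h
  · rw [div_lt_div_iff_of_pos_right hU]; exact_mod_cast k1
  · exact row_ineq k3 hR hg (k1.le.trans k2) h0 hx
  · exact row_ineq k3 hR hg k2 h1 hx

/-- certificates for all `m` of a covered interval, `d = 4` -/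
theorem certs_of_rows4 (hl : -(1 / 2) ≤ lam) (hl1 : lam ≤ 1)
    (hR : ∀ x, gR.fn x = gE (1 / 3) (2 / 5) x) (hg : ∀ j x, (g j).fn x = gE (A j) (t j) x)
    (hA : ∀ j, 0 < A j) (hA1 : ∀ j, A j ≤ 1 / 2) (bot : ℕ) :
    ∀ (ces : List Ce) (top : ℕ), (∀ ce ∈ ces, ceOK4 N ce = true) → cover bot top ces = true →
      (∀ r ∈ ces.flatMap (Ce.rows 4), RowPos (gR :: List.ofFn g) lam r) →
      ∀ m : ℝ, (bot : ℝ) / U < m → m ≤ (top : ℝ) / U →
        CertAt (dirac 4) lam (fun _ : Fin 1 => alT (1 / 3) (2 / 5)) (fun _ => m) := by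
  intro ces
  induction ces with
  | nil =>
    intro top _ hc _ m h1 h2
    exfalso
    unfold cover at hc
    have : top ≤ bot := by simpa using hc
    have hU := U_pos
    have : (top : ℝ) / U ≤ (bot : ℝ) / U := by
      rw [div_le_div_iff_of_pos_right hU]; exact_mod_cast this
    linarith
  | cons ce ces ih =>
    intro top hce hc hrows m h1 h2
    unfold cover at hc
    simp only [Bool.and_eq_true, decide_eq_true_eq] at hc
    obtain ⟨hc1, hc2⟩ := hc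
    have hU := U_pos
    rcases le_total ((ce.m0 : ℝ) / U) m with h | h
    · have hm' : m ≤ (ce.m1 : ℝ) / U := by
        refine h2.trans ?_
        rw [div_le_div_iff_of_pos_right hU]; exact_mod_cast hc1
      refine cert_of_ce4 hl hl1 (hce ce (List.mem_cons_self ..)) hR hg hA hA1 ?_ ?_ h hm'
      · exact hrows _ (by simp [Ce.rows])
      · exact hrows _ (by simp [Ce.rows])
    · exact ih ce.m0 (fun c hc' => hce c (List.mem_cons_of_mem _ hc')) hc2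
        (fun r hr => hrows r (by rw [List.flatMap_cons]; exact List.mem_append_right _ hr)) m h1 h

/-- the certificate for `1 ≤ m ≤ 1.05` (`d = 4`) -/
lemma cert_above_one (hl : -(1 / 2) ≤ lam) (hl1 : lam ≤ 1) {ce : Ce}
    (hce : ceOK4 N ce = true) (hmu : ce.mu1.p = 0)
    (hR : ∀ x, gR.fn x = gE (1 / 3) (2 / 5) x) (hg : ∀ j x, (g j).fn x = gE (A j) (t j) x)
    (hA : ∀ j, 0 < A j) (hA1 : ∀ j, A j ≤ 1 / 2)
    (h1 : RowPos (gR :: List.ofFn g) lam (ce.rowTop 4))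
    {m : ℝ} (hm : 1 ≤ m) (hm' : m ≤ 21 / 20) :
    CertAt (dirac 4) lam (fun _ : Fin 1 => alT (1 / 3) (2 / 5)) (fun _ => m) := by
  obtain ⟨k1, k2, k3, k0, k4, k5⟩ := ceOK4_facts hce
  have hU := U_pos
  have hq : ∀ j : Fin N, psOK4 (ce.q k3 j) = true := fun j => k4 _ (List.get_mem _ _)
  have hmu' : ce.mu1.val / U ≤ 0 := by
    apply div_nonpos_of_nonpos_of_nonneg _ hU.le
    unfold Sg.val
    rw [hmu]
    push_cast
    have : (0 : ℝ) ≤ ce.mu1.n := Nat.cast_nonneg _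
    linarith
  refine cert_top4 hl hl1 A t (fun j => ((ce.q k3 j).rho : ℝ) / U)
    (fun j => ((ce.q k3 j).ic : ℝ) / U) (fun j => ((ce.q k3 j).sl : ℝ) / U)
    (fun j => ((ce.q k3 j).sg : ℝ) / U) hA hA1 (fun j => ?_) (fun j => by positivity) (fun j => ?_)
    (fun j => (psOK4_facts (hq j)).2.2.1) (fun j => (psOK4_facts (hq j)).2.2.2)
    (R := (ce.R : ℝ) / U) (mu := ce.mu1.val / U) (by positivity) ?_ hmu' (fun x hx => ?_) hm hm'
  · have h : (0 : ℝ) < (ce.q k3 j).rho := by exact_mod_cast (psOK4_facts (hq j)).1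
    positivity
  · have h : ((ce.q k3 j).sg : ℝ) ≤ U := by exact_mod_cast (psOK4_facts (hq j)).2.1
    rw [div_le_one hU]; exact h
  · rw [div_le_one hU]; exact_mod_cast k0
  · have h2 := h1 x hx (by simp [Ce.rowTop]) (by simp [Ce.rowTop])
    have h3 : (100000 : ℝ) < (ce.row 4 U ce.mu1).fn (gR :: List.ofFn g) lam x := by
      unfold Row.fn Ce.rowTop at h2
      unfold Row.fn Ce.row
      simp only at h2 ⊢
      unfold Sg.val at h2 ⊢
      push_cast at h2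
      linarith
    have h4 := row_ineqK k3 hR hg le_rfl h3
    rw [div_self hU.ne'] at h4
    have e3 : (1 - (1:ℝ)) ^ 4 = 0 := by norm_num
    rw [e3, sub_zero] at h4
    refine le_trans ?_ h4
    unfold U
    norm_num

end

/-! ### run A -/

section

variable {gR gC : GF} {lam : ℝ}

lemma lc2 (a b : GF) (k l : Sg) (x : Fin 3 → ℝ) : lc [a, b] [k, l] x = k.val * a.fn x + l.val * b.fn x := by
  unfold lc; simp

lemma lc3 (a b c : GF) (k l m : Sg) (x : Fin 3 → ℝ) :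
    lc [a, b, c] [k, l, m] x = k.val * a.fn x + l.val * b.fn x + m.val * c.fn x := by
  unfold lc; simp; ring

lemma unpad {gP : GF} {r : Row} (h1 : r.cx.length = 2) (h2 : r.cy.length = 2)
    (h : RowPos [gR, gC, gP] lam (pad r)) : RowPos [gR, gC] lam r := by
  intro x hx hz hc
  have h3 := h x hx hz hc
  unfold pad Row.fn at h3
  simp only at h3
  unfold Row.fn
  obtain ⟨a, b, hab⟩ := List.length_eq_two.mp h1
  obtain ⟨k, l, hkl⟩ := List.length_eq_two.mp h2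
  rw [hab, hkl] at h3 ⊢
  have e1 : [a, b] ++ [(⟨0, 0⟩ : Sg)] = [a, b, ⟨0, 0⟩] := rfl
  have e2 : [k, l] ++ [(⟨0, 0⟩ : Sg)] = [k, l, ⟨0, 0⟩] := rfl
  rw [e1, e2, lc3, lc3] at h3
  rw [lc2, lc2]
  have e0 : Sg.val ⟨0, 0⟩ = 0 := by unfold Sg.val; simp
  rw [e0] at h3
  linarith

lemma pos_C (hC : ∀ x, gC.fn x = gE (1 / 2) (1 / 5) x)
    (h : RowPos [gR, gC, GF.pol 0] lam (rowNN 3 1)) {x : Fin 3 → ℝ} (hx : Simp x) :
    0 < gE (1 / 2) (1 / 5) (chan lam x) := by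
  have h3 := h x hx (by simp [rowNN]) (by simp [rowNN])
  have e1 : (rowNN 3 1).cx = [⟨0, 0⟩, ⟨0, 0⟩, ⟨0, 0⟩] := rfl
  have e2 : (rowNN 3 1).cy = [⟨0, 0⟩, ⟨1, 0⟩, ⟨0, 0⟩] := rfl
  have e3 : (rowNN 3 1).c = ⟨0, 0⟩ := rfl
  unfold Row.fn at h3
  rw [e1, e2, e3, lc3, lc3] at h3
  have e0 : Sg.val ⟨0, 0⟩ = 0 := by unfold Sg.val; simp
  have e00 : Sg.val ⟨1, 0⟩ = 1 := by unfold Sg.val; simp
  rw [e0, e00, hC (chn lam x)] at h3
  have hchn : chn lam x = chan lam x := rfl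
  rw [hchn] at h3
  linarith

lemma bound_M (hR : ∀ x, gR.fn x = gE (1 / 3) (2 / 5) x) {Mt : ℕ}
    (h : RowPos [gR, gC, GF.pol 0] lam (rowM Mt)) {x : Fin 3 → ℝ} (hx : Simp x) :
    phiR (chan lam x) ≤ (Mt : ℝ) / U := by
  have hU := U_pos
  have h3 := h x hx (by simp [rowM]) (by simp [rowM])
  unfold rowM Row.fn at h3
  simp only at h3
  rw [lc3, lc3] at h3
  have e0 : Sg.val ⟨0, 0⟩ = 0 := by unfold Sg.val; simp
  have e1 : Sg.val ⟨U, 0⟩ = U := by unfold Sg.val; simp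
  have e2 : Sg.val ⟨Mt - U, U - Mt⟩ = (Mt : ℝ) - U := by
    unfold Sg.val
    simp only
    rcases le_total Mt U with h' | h'
    · rw [Nat.sub_eq_zero_of_le h', Nat.cast_sub h']; push_cast; ring
    · rw [Nat.sub_eq_zero_of_le h', Nat.cast_sub h']; push_cast; ring
  rw [e0, e1, e2, hR (chn lam x)] at h3
  have hchn : chn lam x = chan lam x := rfl
  rw [hchn] at h3
  unfold phiR
  rw [le_div_iff₀ hU]
  linarith

lemma pol0_fn (x : Fin 3 → ℝ) : (GF.pol 0).fn x = P2 (fun i => x i - 1) := rfl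

lemma zone8 {x : Fin 3 → ℝ} : (∀ i, |x i - 1| ≤ ((36028797018963968 : ℕ) : ℝ) / 2 ^ 58) ↔
    ∀ i, |x i - 1| ≤ 1 / 8 := by
  have e : ((36028797018963968 : ℕ) : ℝ) / 2 ^ 58 = 1 / 8 := by norm_num
  rw [e]

/-- arithmetic for `low_zone` -/
lemma low_arith {lam k u w ε G : ℝ} (hl : lam < 0) (hl2 : -lam ≤ 1 / 2) (hk0 : 0 < k)
    (hk4 : k ≤ 1 / 4) (hk8 : 1 / 8 ≤ k) (hu0 : 0 ≤ u) (hu2 : u ^ 2 ≤ u / 32)
    (hwa : |w| ≤ 73 / 1000 * u) (hε0 : 0 ≤ ε) (hε : 1152 * ε ≤ u ^ 2)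
    (n4 : -(2 / 3 * (-lam * k ^ 3 * ε)) ≤ 1 - G - (37 / 150 * (k * u) - 43 / 225 * (lam * k * w)
      + 241 / 5625 * (k * u) ^ 2 - 1967 / 33750 * (k * u * (lam * k * w)) +
      580417 / 50625000 * (k * u) ^ 3 + 242659 / 12656250 * (lam * k * w) ^ 2)) :
    1 / 100 * u ≤ 1 - G := by
  have hl0 : 0 ≤ -lam := by linarith
  have hc : |lam * k * w| ≤ k * (73 / 2000 * u) := by
    rw [abs_mul, abs_mul, abs_of_neg hl, abs_of_pos hk0]
    calc -lam * k * |w| ≤ 1 / 2 * k * (73 / 1000 * u) := by gcongr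
      _ = _ := by ring
  obtain ⟨c1, c2⟩ := abs_le.mp hc
  have b2 : k * u * (lam * k * w) ≤ k * (u / 1000) := by
    have h2 : k * (73 / 2000 * u) ≤ 1 / 4 * (73 / 2000 * u) :=
      mul_le_mul_of_nonneg_right hk4 (by positivity)
    have h1 : u * (1 / 4 * (73 / 2000 * u)) ≤ u / 1000 := by
      have e : u * (1 / 4 * (73 / 2000 * u)) = 73 / 8000 * u ^ 2 := by ring
      rw [e]; linarith
    calc k * u * (lam * k * w) ≤ k * u * (1 / 4 * (73 / 2000 * u)) :=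
          mul_le_mul_of_nonneg_left (by linarith) (by positivity)
      _ = k * (u * (1 / 4 * (73 / 2000 * u))) := by ring
      _ ≤ k * (u / 1000) := mul_le_mul_of_nonneg_left h1 hk0.le
  have b3 : -lam * k ^ 3 * ε ≤ k * (u / 1000) := by
    have hk2 : k ^ 2 ≤ 1 / 16 := (pkn_lk hl0 hl2 hk0.le hk4).2.2.2
    have hk3 : k ^ 3 ≤ k * (1 / 16) := by
      calc k ^ 3 = k * k ^ 2 := by ring
        _ ≤ k * (1 / 16) := mul_le_mul_of_nonneg_left hk2 hk0.le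
    calc -lam * k ^ 3 * ε ≤ 1 / 2 * (k * (1 / 16)) * (u / 36864) := by
          apply mul_le_mul _ (by linarith) hε0 (by positivity)
          exact mul_le_mul hl2 hk3 (by positivity) (by norm_num)
      _ = (k * u) / 1179648 := by ring
      _ ≤ (k * u) / 1000 := by
          have : 0 ≤ k * u := by positivity
          linarith
      _ = k * (u / 1000) := by ring
  have b5 : 0 ≤ (k * u) ^ 2 := sq_nonneg _
  have b6 : 0 ≤ (k * u) ^ 3 := by positivity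
  have b7 : 0 ≤ (lam * k * w) ^ 2 := sq_nonneg _
  have b8 : 1 / 8 * u ≤ k * u := mul_le_mul_of_nonneg_right hk8 hu0
  have e1 : k * (73 / 2000 * u) = 73 / 2000 * (k * u) := by ring
  have e2 : k * (u / 1000) = 1 / 1000 * (k * u) := by ring
  rw [e1] at c1 c2
  rw [e2] at b2 b3
  linarith

/-- lower bound of the reference functional in the zone -/
lemma low_zone {d : ℕ} (hd : 4 ≤ d) (hd' : d ≤ 8) (hl : lam < 0)
    (hdl : (d : ℝ) * lam ^ 2 = 1) {x : Fin 3 → ℝ} (hx : Simp x)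
    (hzone : ∀ i, |x i - 1| ≤ 1 / 8) : 1 / 100 * P2 (fun i => x i - 1) ≤ phiR (chan lam x) := by
  have hD4 : (4 : ℝ) ≤ d := by exact_mod_cast hd
  have hD8 : (d : ℝ) ≤ 8 := by exact_mod_cast hd'
  set y : Fin 3 → ℝ := fun k => x k - 1 with hy
  have h0 : y 0 + y 1 + y 2 = 0 := by
    have := hx.2
    unfold mean at this
    simp only [hy]
    linarith
  obtain ⟨r, hr0, hr8, hyr, hr2, hu, hw⟩ := pkn_geom h0 hzone
  have hu0 : 0 ≤ P2 y := by unfold P2; positivity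
  have hl0 : 0 ≤ -lam := by linarith
  have hl2 : -lam ≤ 1 / 2 := by
    have h4 : lam ^ 2 ≤ 1 / 4 := (pkn_k hD4 hdl).2
    nlinarith
  have hlr : -lam * r ≤ 1 / 2 * (1 / 8) := mul_le_mul hl2 hr8 hr0 (by norm_num)
  have h0' : (fun k => lam * y k) 0 + (fun k => lam * y k) 1 + (fun k => lam * y k) 2 = 0 := by
    simp only
    rw [← mul_add, ← mul_add, h0, mul_zero]
  have hyr' : ∀ k, |(fun k => lam * y k) k| ≤ -lam * r := by
    intro k
    simp only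
    rw [abs_mul, abs_of_neg hl]
    exact mul_le_mul_of_nonneg_left (hyr k) hl0
  have n3 := nearR h0' (by linarith : -lam * r ≤ 3 / 20) hyr'
  have ec : (fun k => 1 + (fun k => lam * y k) k) = chan lam x := by
    funext k; simp only [hy, chan]; ring
  have eP2 : P2 (fun k => lam * y k) = lam ^ 2 * P2 y := by unfold P2; ring
  have eP3 : P3 (fun k => lam * y k) = lam ^ 3 * P3 y := by unfold P3; ring
  rw [ec, eP2, eP3] at n3
  have e7 : (-lam * r) ^ 7 = -lam * (lam ^ 2) ^ 3 * r ^ 7 := by ring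
  rw [e7] at n3
  set k := lam ^ 2 with hk
  have hk0 : 0 < k := (pkn_k hD4 hdl).1
  have hk4 : k ≤ 1 / 4 := (pkn_k hD4 hdl).2
  have hk8 : 1 / 8 ≤ k := by
    by_contra hcon
    push Not at hcon
    have : (d : ℝ) * k < 8 * (1 / 8) := by
      calc (d : ℝ) * k ≤ 8 * k := mul_le_mul_of_nonneg_right hD8 hk0.le
        _ < 8 * (1 / 8) := by linarith
    linarith
  have e3 : lam ^ 3 = lam * k := by rw [hk]; ring
  rw [e3] at n3
  obtain ⟨hu2, hu3, hu32⟩ := pkn_u hu0 hu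
  have hw2 : P3 y ^ 2 ≤ P2 y ^ 2 / 192 := by linarith
  have hwa : |P3 y| ≤ 73 / 1000 * P2 y := by
    apply abs_le_of_sq_le_sq _ (by positivity)
    rw [mul_pow]
    have := sq_nonneg (P2 y)
    linarith
  have hε0 : 0 ≤ r ^ 7 := pow_nonneg hr0 7
  have hε : 1152 * r ^ 7 ≤ P2 y ^ 2 := by
    have h3 : r ^ 3 ≤ (1 / 8) ^ 3 := pow_le_pow_left₀ hr0 hr8 3
    have h4 : (r ^ 2) ^ 2 ≤ (2 / 3 * P2 y) ^ 2 := pow_le_pow_left₀ (sq_nonneg r) hr2 2
    calc 1152 * r ^ 7 = 1152 * (r ^ 3 * (r ^ 2) ^ 2) := by ring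
      _ ≤ 1152 * ((1 / 8) ^ 3 * (2 / 3 * P2 y) ^ 2) := by
          apply mul_le_mul_of_nonneg_left _ (by norm_num)
          exact mul_le_mul h3 h4 (by positivity) (by norm_num)
      _ = _ := by ring
  have n4 := (abs_le.mp n3).1
  have ephi : phiR (chan lam x) = 1 - gE (1 / 3) (2 / 5) (chan lam x) := rfl
  rw [ephi]
  exact low_arith hl hl2 hk0 hk4 hk8 hu0 hu2 hwa hε0 hε n4

/-- lower bound of the reference functional -/
lemma low_all {d : ℕ} (hd : 4 ≤ d) (hd' : d ≤ 8) (hl : lam < 0)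
    (hdl : (d : ℝ) * lam ^ 2 = 1) (hR : ∀ x, gR.fn x = gE (1 / 3) (2 / 5) x)
    (h : RowPos [gR, gC, GF.pol 0] lam rowL) {x : Fin 3 → ℝ} (hx : Simp x) :
    1 / 100 * P2 (fun i => x i - 1) ≤ phiR (chan lam x) := by
  by_cases hz : ∀ i, |x i - 1| ≤ 1 / 8
  · exact low_zone hd hd' hl hdl hx hz
  · have h3 := h x hx (fun _ => by rw [show rowL.z = 36028797018963968 from rfl, zone8]; exact hz)
      (by simp [rowL])
    unfold rowL Row.fn at h3
    simp only at h3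
    rw [lc3, lc3] at h3
    have e0 : Sg.val ⟨0, 0⟩ = 0 := by unfold Sg.val; simp
    have e1 : Sg.val ⟨0, 100⟩ = -100 := by unfold Sg.val; simp
    have e2 : Sg.val ⟨100, 0⟩ = 100 := by unfold Sg.val; simp
    have e4 : Sg.val ⟨0, 1⟩ = -1 := by unfold Sg.val; simp
    rw [e0, e1, e2, e4, hR (chn lam x), pol0_fn] at h3
    have hchn : chn lam x = chan lam x := rfl
    rw [hchn] at h3
    unfold phiR
    linarith

end

end Vale.Agent.P154.Pk
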