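import Vale.Agent.P154.PkI2

/-!
# Nonreconstruction on `d`-ary trees, `4 ≤ d ≤ 8`, from positive rows (task PK-I)
-/

namespace Vale.Agent.P154.Pk

open Near Mu Uni Filter Topology

section

variable {gR gC : GF} {lam : ℝ}

lemma K261_pos : (0 : ℝ) < (K261 : ℝ) := by unfold K261; norm_num

lemma K688_eq : (K688 : ℝ) = 688 / 261 * K261 := by unfold K688 K261; norm_num

lemma K_le : K261 ≤ K688 := by unfold K261 K688; norm_num

/-- the constant of `small_cert` -/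
noncomputable def kc (d : ℕ) : ℝ := (d : ℝ) * (d - 1) * (61 / 1369) / (4 * 768 ^ 2)

lemma Z0_of_row {d K0 : ℕ} (hd : 1 ≤ d) (hK0 : (K261 : ℝ) * kc d ≤ K0) (hR : ∀ x, gR.fn x = gE (1 / 3) (2 / 5) x)
    (hC : ∀ x, gC.fn x = gE (1 / 2) (1 / 5) x)
    (h : RowPos [gR, gC, GF.pol 0] lam (rowZ0 d K0)) {x : Fin 3 → ℝ} (hx : Simp x)
    (hz : ¬ ∀ i, |x i - 1| ≤ 1 / 8) : 1 / (K261 : ℝ) ≤ Psi d lam x - kc d := by
  have hK := K261_pos
  have h3 := h x hx (fun _ => by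
    rw [show (rowZ0 d K0).z = 36028797018963968 from rfl, zone8]; exact hz)
    (by simp [rowZ0])
  unfold rowZ0 Row.fn at h3
  simp only at h3
  rw [lc3, lc3, hR, hR, hC, hC] at h3
  have hchn : chn lam x = chan lam x := rfl
  rw [hchn] at h3
  simp only [Sg.val] at h3
  push_cast [Nat.cast_sub K_le, Nat.cast_sub hd] at h3
  rw [K688_eq] at h3
  unfold Psi phiC phiR
  rw [div_le_iff₀ hK]
  generalize gE (1 / 3) (2 / 5) x = a at *
  generalize gE (1 / 2) (1 / 5) x = b at *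
  generalize gE (1 / 3) (2 / 5) (chan lam x) = a' at *
  generalize gE (1 / 2) (1 / 5) (chan lam x) = b' at *
  generalize kc d = kcd at *
  nlinarith [h3, hK0]

lemma phiC_nonneg' {x : Fin 3 → ℝ} (hx : Simp x) : 0 ≤ phiC x := by
  rw [← one_sub_gm_C hx.1]
  have h := abs_le.mp (abs_gm_le (adm_alT (a := 1 / 2) (by norm_num) (by norm_num) (1 / 5))
    ((Sx_iff _).mpr hx))
  linarith [h.2]

lemma phiR_nonneg' {x : Fin 3 → ℝ} (hx : Simp x) : 0 ≤ phiR x := by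
  rw [← one_sub_gm_R hx.1]
  have h := abs_le.mp (abs_gm_le (adm_alT (a := 1 / 3) (by norm_num) (by norm_num) (2 / 5))
    ((Sx_iff _).mpr hx))
  linarith [h.2]

lemma Z1_of_row {d : ℕ} (hd : 1 ≤ d) {AR AC K1 : ℕ} (hK1 : (K1 : ℝ) ≤ 3 * (K261 * kc d))
    (hAR : (K261 : ℝ) * ((d : ℝ) * (d - 1)) / 768 ≤ AR) (hAC : (AC : ℝ) ≤ K261 * aC d / 768)
    (hl : lam < 0) (hl2 : -1 / 2 ≤ lam)
    (hR : ∀ x, gR.fn x = gE (1 / 3) (2 / 5) x)
    (hC : ∀ x, gC.fn x = gE (1 / 2) (1 / 5) x)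
    (h : RowPos [gR, gC, GF.pol 0] lam (rowZ1 d AR AC K1)) {x : Fin 3 → ℝ} (hx : Simp x)
    (hz : ¬ ∀ i, |x i - 1| ≤ 1 / 8) : 1 / (K261 : ℝ) ≤ Psi d lam x -
      1 / 768 * ((d : ℝ) * (d - 1)) * phiR (chan lam x) + 1 / 768 * aC d * phiC (chan lam x) +
      3 * kc d := by
  have hK := K261_pos
  have h3 := h x hx (fun _ => by
    rw [show (rowZ1 d AR AC K1).z = 36028797018963968 from rfl, zone8]; exact hz)
    (by simp [rowZ1])
  unfold rowZ1 Row.fn at h3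
  simp only at h3
  rw [lc3, lc3, hR, hR, hC, hC] at h3
  have hchn : chn lam x = chan lam x := rfl
  rw [hchn] at h3
  simp only [Sg.val] at h3
  push_cast [Nat.cast_sub K_le, Nat.cast_sub hd] at h3
  rw [K688_eq] at h3
  have p1 := mul_le_mul_of_nonneg_right hAR (phiR_nonneg' (pkn_chan hx hl hl2))
  have p2 := mul_le_mul_of_nonneg_right hAC (phiC_nonneg' (pkn_chan hx hl hl2))
  unfold Psi
  rw [div_le_iff₀ hK]
  have e1 : (Psi d lam x) = Psi d lam x := rfl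
  unfold phiC phiR at *
  generalize gE (1 / 3) (2 / 5) x = a at *
  generalize gE (1 / 2) (1 / 5) x = b at *
  generalize gE (1 / 3) (2 / 5) (chan lam x) = a' at *
  generalize gE (1 / 2) (1 / 5) (chan lam x) = b' at *
  generalize aC d = ac at *
  generalize kc d = kcd at *
  nlinarith [h3, p1, p2, hK1]

/-- rows of the certificates of run A, without padding -/
lemma rowsA_ces {d Mt AR AC K0 K1 : ℕ} {ces : List Ce} (hce : ∀ ce ∈ ces, ceOK d 1 ce = true)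
    (h : ∀ r ∈ rowsA d Mt AR AC K0 K1 ces, RowPos [gR, gC, GF.pol 0] lam r) :
    ∀ r ∈ ces.flatMap (Ce.rows d), RowPos [gR, gC] lam r := by
  intro r hr
  have h1 : RowPos [gR, gC, GF.pol 0] lam (pad r) := by
    apply h
    unfold rowsA
    exact List.mem_append_right _ (List.mem_map_of_mem hr)
  rw [List.mem_flatMap] at hr
  obtain ⟨ce, hce', hr⟩ := hr
  have hlen : ce.pos.length = 1 := by
    have := hce ce hce'
    unfold ceOK at this
    simp only [Bool.and_eq_true, decide_eq_true_eq] at this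
    exact this.1.1.2
  refine unpad ?_ ?_ h1
  · unfold Ce.rows Ce.row at hr
    simp only [List.mem_cons, List.not_mem_nil, or_false] at hr
    rcases hr with rfl | rfl <;> simp [hlen]
  · unfold Ce.rows Ce.row at hr
    simp only [List.mem_cons, List.not_mem_nil, or_false] at hr
    rcases hr with rfl | rfl <;> simp [hlen]

/-- certificates of run A -/
lemma certs_A {d : ℕ} (hd : 4 ≤ d) (hd' : d ≤ 8) (hl : lam < 0) (hl2 : -1 / 2 ≤ lam)
    (hdl : (d : ℝ) * lam ^ 2 = 1)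
    (hR : ∀ x, gR.fn x = gE (1 / 3) (2 / 5) x) (hC : ∀ x, gC.fn x = gE (1 / 2) (1 / 5) x)
    {Mt AR AC K0 K1 bot top : ℕ} {ces : List Ce}
    (hAR : (K261 : ℝ) * ((d : ℝ) * (d - 1)) / 768 ≤ AR) (hAC : (AC : ℝ) ≤ K261 * aC d / 768)
    (hK0 : (K261 : ℝ) * kc d ≤ K0) (hK1 : (K1 : ℝ) ≤ 3 * (K261 * kc d))
    (hce : ∀ ce ∈ ces, ceOK d 1 ce = true) (hcov : cover bot top ces = true)
    (hbot : 768 * bot ≤ U)
    (h : ∀ r ∈ rowsA d Mt AR AC K0 K1 ces, RowPos [gR, gC, GF.pol 0] lam r) {m : ℝ} (hm : 0 < m)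
    (hm' : m ≤ (top : ℝ) / U) :
    CertAt (dirac d) lam (fun _ : Fin 1 => alT (1 / 3) (2 / 5)) (fun _ => m) := by
  have hU := U_pos
  have hspec : ∀ r ∈ special d Mt AR AC K0 K1, RowPos [gR, gC, GF.pol 0] lam r := fun r hr =>
    h r (by unfold rowsA; exact List.mem_append_left _ hr)
  have hNN := hspec (rowNN 3 1) (by simp [special])
  have hposC : ∀ x, Simp x → 0 ≤ gE (1 / 2) (1 / 5) (chan lam x) := fun x hx =>
    (pos_C hC hNN hx).le
  rcases le_or_gt m (1 / 768) with hs | hs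
  · exact small_cert hd hd' hl hdl (c := 1 / (K261 : ℝ)) (by have := K261_pos; positivity) hposC
      (fun x hx hz => Z0_of_row (by omega) hK0 hR hC (hspec _ (by simp [special])) hx hz)
      (fun x hx hz => Z1_of_row (by omega) hK1 hAR hAC hl hl2 hR hC (hspec _ (by simp [special]))
        hx hz)
      hm hs
  · have hbm : (bot : ℝ) / U < m := by
      have : (bot : ℝ) / U ≤ 1 / 768 := by
        rw [div_le_div_iff₀ hU (by norm_num)]
        have : ((768 * bot : ℕ) : ℝ) ≤ U := by exact_mod_cast hbot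
        push_cast at this
        linarith
      linarith
    have e : [gR, gC] = gR :: List.ofFn (fun _ : Fin 1 => gC) := by simp
    have hrows := rowsA_ces hce h
    rw [e] at hrows
    exact certs_of_rows (N := 1) (A := fun _ => 1 / 2) (t := fun _ => 1 / 5) (by omega)
      (by linarith) (by linarith) hR (fun _ x => hC x) (fun _ => by norm_num)
      (fun _ => le_refl _) (fun _ x hx => hposC x hx) bot ces top hce hcov hrows m hbm hm'

lemma lam_facts {d : ℕ} (hd : 4 ≤ d) : -(1 / √(d : ℝ)) < 0 ∧ -1 / 2 ≤ -(1 / √(d : ℝ)) ∧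
    (d : ℝ) * (-(1 / √(d : ℝ))) ^ 2 = 1 := by
  have hd4 : (4 : ℝ) ≤ d := by exact_mod_cast hd
  have hd0 : (0 : ℝ) < d := by linarith
  have hs : 0 < √(d : ℝ) := Real.sqrt_pos.mpr hd0
  have h2 : 2 ≤ √(d : ℝ) := by
    rw [show (2 : ℝ) = √4 by rw [show (4 : ℝ) = 2 ^ 2 by norm_num, Real.sqrt_sq (by norm_num)]]
    exact Real.sqrt_le_sqrt hd4
  refine ⟨?_, ?_, ?_⟩
  · have : 0 < 1 / √(d : ℝ) := by positivity
    linarith
  · have : 1 / √(d : ℝ) ≤ 1 / 2 := one_div_le_one_div_of_le (by norm_num) h2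
    linarith
  · rw [neg_sq, div_pow, Real.sq_sqrt hd0.le]
    field_simp

/-- from certificates to nonreconstruction -/
lemma reg_of_certs {d : ℕ} (hd : 4 ≤ d) (hd' : d ≤ 8) {lam : ℝ} (hl : lam < 0)
    (hl2 : -1 / 2 ≤ lam) (hdl : (d : ℝ) * lam ^ 2 = 1)
    (hR : ∀ x, gR.fn x = gE (1 / 3) (2 / 5) x) {Mt : ℕ}
    (hM : RowPos [gR, gC, GF.pol 0] lam (rowM Mt)) (hL : RowPos [gR, gC, GF.pol 0] lam rowL)
    (hcert : ∀ m : ℝ, 0 < m → m ≤ (Mt : ℝ) / U →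
      CertAt (dirac d) lam (fun _ : Fin 1 => alT (1 / 3) (2 / 5)) (fun _ => m)) :
    Tendsto (aReg 3 d lam) atTop (𝓝 0) := by
  have hlam : LamOK 3 lam := lamOK_three.mpr ⟨by linarith, by linarith⟩
  refine tendsto_reg_of_cert (by norm_num) hlam
    (fun _ : Fin 1 => alT (1 / 3) (2 / 5)) (fun _ => adm_alT (by norm_num) (by norm_num) _)
    (fun _ => (Mt : ℝ) / U) ?_ (c0 := 1 / 100) (by norm_num) ?_ ?_
  · intro _ x hx
    have hx' := (Sx_iff x).mp hx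
    rw [ch_eq_chan, one_sub_gm_R (pkn_chan hx' hl hl2).1]
    exact bound_M hR hM hx'
  · intro _ x hx
    have hx' := (Sx_iff x).mp hx
    rw [ch_eq_chan, one_sub_gm_R (pkn_chan hx' hl hl2).1]
    have h1 := low_all hd hd' hl hdl hR hL hx'
    have e : sqd x = P2 (fun i => x i - 1) := by
      unfold sqd P2
      rw [Fin.sum_univ_three]
    rw [e]
    exact h1
  · intro m hm
    have e : m = fun _ => m 0 := by
      funext i
      rw [Fin.fin_one_eq_zero i]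
    rw [e]
    exact hcert (m 0) (hm 0).1 (hm 0).2

/-- **`5 ≤ d ≤ 8`** (and any `d` between `4` and `8` for which `Mt ≤ U` is possible) -/
theorem reg_of_data {d : ℕ} (hd : 4 ≤ d) (hd' : d ≤ 8)
    (hR : ∀ x, gR.fn x = gE (1 / 3) (2 / 5) x) (hC : ∀ x, gC.fn x = gE (1 / 2) (1 / 5) x)
    {Mt AR AC K0 K1 bot : ℕ} {ces : List Ce}
    (hAR : (K261 : ℝ) * ((d : ℝ) * (d - 1)) / 768 ≤ AR) (hAC : (AC : ℝ) ≤ K261 * aC d / 768)
    (hK0 : (K261 : ℝ) * kc d ≤ K0) (hK1 : (K1 : ℝ) ≤ 3 * (K261 * kc d))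
    (hce : ∀ ce ∈ ces, ceOK d 1 ce = true) (hcov : cover bot Mt ces = true)
    (hbot : 768 * bot ≤ U)
    (h : ∀ r ∈ rowsA d Mt AR AC K0 K1 ces, RowPos [gR, gC, GF.pol 0] (-(1 / √(d : ℝ))) r) :
    Tendsto (aReg 3 d (-(1 / √(d : ℝ)))) atTop (𝓝 0) := by
  obtain ⟨hl, hl2, hdl⟩ := lam_facts hd
  refine reg_of_certs hd hd' hl hl2 hdl hR (Mt := Mt) (h _ ?_) (h _ ?_) (fun m hm hm' =>
    certs_A hd hd' hl hl2 hdl hR hC hAR hAC hK0 hK1 hce hcov hbot h hm hm')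
  · simp [rowsA, special]
  · simp [rowsA, special]

/-- **`d = 4`** -/
theorem reg_of_data4
    (hR : ∀ x, gR.fn x = gE (1 / 3) (2 / 5) x) (hC : ∀ x, gC.fn x = gE (1 / 2) (1 / 5) x)
    {Mt AR AC K0 K1 bot topA : ℕ} {ces : List Ce}
    (hAR : (K261 : ℝ) * (((4 : ℕ) : ℝ) * (((4 : ℕ) : ℝ) - 1)) / 768 ≤ AR)
    (hAC : (AC : ℝ) ≤ K261 * aC 4 / 768)
    (hK0 : (K261 : ℝ) * kc 4 ≤ K0) (hK1 : (K1 : ℝ) ≤ 3 * (K261 * kc 4))
    (hce : ∀ ce ∈ ces, ceOK 4 1 ce = true) (hcov : cover bot topA ces = true)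
    (hbot : 768 * bot ≤ U)
    (h : ∀ r ∈ rowsA 4 Mt AR AC K0 K1 ces, RowPos [gR, gC, GF.pol 0] (-(1 / √((4 : ℕ) : ℝ))) r)
    {N : ℕ} {g : Fin N → GF} {A t : Fin N → ℝ}
    (hg : ∀ j x, (g j).fn x = gE (A j) (t j) x) (hA : ∀ j, 0 < A j) (hA1 : ∀ j, A j ≤ 1 / 2)
    {cesB : List Ce} {c0 : Ce} (hceB : ∀ ce ∈ c0 :: cesB, ceOK4 N ce = true)
    (hcovB : cover topA U (c0 :: cesB) = true) (hmu : c0.mu1.p = 0)
    (hMt : 20 * Mt ≤ 21 * U)
    (hB : ∀ r ∈ rowsB c0 cesB, RowPos (gR :: List.ofFn g) (-(1 / √((4 : ℕ) : ℝ))) r) :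
    Tendsto (aReg 3 4 (-(1 / √((4 : ℕ) : ℝ)))) atTop (𝓝 0) := by
  obtain ⟨hl, hl2, hdl⟩ := lam_facts (le_refl 4)
  have hU := U_pos
  have hl' : -(1 / 2) ≤ -(1 / √((4 : ℕ) : ℝ)) := by linarith
  have hl1 : -(1 / √((4 : ℕ) : ℝ)) ≤ 1 := by linarith
  have hrowsB : ∀ r ∈ (c0 :: cesB).flatMap (Ce.rows 4),
      RowPos (gR :: List.ofFn g) (-(1 / √((4 : ℕ) : ℝ))) r := by
    intro r hr
    exact hB r (by unfold rowsB; exact List.mem_cons_of_mem _ hr)
  refine reg_of_certs (le_refl 4) (by norm_num) hl hl2 hdl hR (Mt := Mt) (h _ ?_) (h _ ?_)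
    (fun m hm hm' => ?_)
  · simp [rowsA, special]
  · simp [rowsA, special]
  rcases le_or_gt m ((topA : ℝ) / U) with h1 | h1
  · exact certs_A (le_refl 4) (by norm_num) hl hl2 hdl hR hC hAR hAC hK0 hK1 hce hcov hbot h hm h1
  rcases le_or_gt m 1 with h2 | h2
  · refine certs_of_rows4 hl' hl1 hR hg hA hA1 topA (c0 :: cesB) U hceB hcovB
      hrowsB m h1 ?_
    rw [div_self hU.ne']; exact h2
  · refine cert_above_one hl' hl1 (hceB c0 (List.mem_cons_self ..)) hmu hR hg hA hA1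
      (hB _ (by simp [rowsB])) h2.le ?_
    refine hm'.trans ?_
    rw [div_le_div_iff₀ hU (by norm_num)]
    have : ((20 * Mt : ℕ) : ℝ) ≤ ((21 * U : ℕ) : ℝ) := by exact_mod_cast hMt
    push_cast at this
    linarith

end

end Vale.Agent.P154.Pk
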