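import Vale.Agent.P154.PkI3
import Vale.Agent.P154.PkEx
import Vale.Agent.P154.PkG

/-!
# Nonreconstruction on `d`-ary trees, `4 ≤ d ≤ 8`, from kernel-checked runs (task PK-I)
-/

namespace Vale.Agent.P154.Dat

open Vale.Agent.P154 Pk Near Mu Uni Filter Topology

lemma sum3' {x : Fin 3 → ℝ} (hx : Simp x) : x 0 + x 1 + x 2 = 3 := by
  have := hx.2
  unfold mean at this
  linarith

/-- positivity of all the rows of a run -/
theorem rowPos_of_runs {ch : Ch} {lam : ℝ} (hch : ChOK ch lam) {gs : List GF}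
    (hgs : ∀ g ∈ gs, GFOK g) {LC : List Cell} {n0 : ℕ} (hcov : coverC LC n0 cell0 = true)
    {rows : List Row} (h : ∀ c ∈ LC, ∃ n, run ch gs n c rows = true) :
    ∀ r ∈ rows, RowPos gs lam r := fun _ hr _ hx hz hc =>
  run_sound_list hch hgs hcov h hr hx.1 (sum3' hx) hz hc

/-- positivity of all the rows of a run (one cell) -/
theorem rowPos_of_run {ch : Ch} {lam : ℝ} (hch : ChOK ch lam) {gs : List GF}
    (hgs : ∀ g ∈ gs, GFOK g) {n : ℕ} {rows : List Row} (h : run ch gs n cell0 rows = true) :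
    ∀ r ∈ rows, RowPos gs lam r := fun _ hr _ hx hz hc =>
  run_sound hch hgs h hr hx.1 (sum3' hx) hz hc

lemma le_of_sq_le_sq'' {a b : ℝ} (h : a ^ 2 ≤ b ^ 2) (hb : 0 ≤ b) : a ≤ b := by
  by_contra hc
  push Not at hc
  nlinarith

/-- the channel `lam = -1 / √d` -/
theorem chOK_of {d : ℕ} (hd : 4 ≤ d) {L : ℕ} (h1 : (L - 1) ^ 2 * d ≤ 2 ^ 120)
    (h2 : 2 ^ 120 ≤ (L + 1) ^ 2 * d) (h3 : 2 * L ≤ S60) (hL : 1 ≤ L) :
    ChOK ⟨true, L⟩ (-(1 / √(d : ℝ))) := by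
  obtain ⟨f1, f2, f3⟩ := lam_facts hd
  have hd0 : (0 : ℝ) < d := by exact_mod_cast (by omega : 0 < d)
  have hs : 0 < √(d : ℝ) := Real.sqrt_pos.mpr hd0
  have hs2 : √(d : ℝ) ^ 2 = d := Real.sq_sqrt hd0.le
  refine ⟨by linarith, by linarith, by simp only; omega, fun _ => h3, ?_⟩
  simp only [if_true]
  set q : ℝ := 2 ^ 60 / √(d : ℝ) with hq
  have hq0 : 0 ≤ q := by positivity
  have hq2 : q ^ 2 * d = 2 ^ 120 := by
    rw [hq, div_pow, hs2, div_mul_cancel₀ _ hd0.ne']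
    norm_num
  have h1' : ((L : ℝ) - 1) ^ 2 * d ≤ 2 ^ 120 := by
    have : (((L - 1) ^ 2 * d : ℕ) : ℝ) ≤ ((2 ^ 120 : ℕ) : ℝ) := by exact_mod_cast h1
    push_cast [Nat.cast_sub hL] at this
    norm_num at this ⊢
    exact this
  have h2' : (2 : ℝ) ^ 120 ≤ ((L : ℝ) + 1) ^ 2 * d := by
    have : ((2 ^ 120 : ℕ) : ℝ) ≤ (((L + 1) ^ 2 * d : ℕ) : ℝ) := by exact_mod_cast h2
    push_cast at this
    norm_num at this ⊢
    exact this
  have a1 : (L : ℝ) - 1 ≤ q := by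
    have : ((L : ℝ) - 1) ^ 2 ≤ q ^ 2 := by
      rw [← hq2] at h1'
      exact le_of_mul_le_mul_right h1' hd0
    exact le_of_sq_le_sq'' this hq0
  have a2 : q ≤ (L : ℝ) + 1 := by
    have : q ^ 2 ≤ ((L : ℝ) + 1) ^ 2 := by
      rw [← hq2] at h2'
      exact le_of_mul_le_mul_right h2' hd0
    exact le_of_sq_le_sq'' this (by positivity)
  have e : (2 : ℝ) ^ 60 * -(1 / √(d : ℝ)) - -(L : ℝ) = L - q := by rw [hq]; ring
  rw [e, abs_le]
  constructor <;> linarith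

theorem GFOK_R : GFOK (GF.gen ex_20_24 ex_20_0) :=
  ⟨ok_20_24, ok_20_0, by decide, by decide, by decide⟩

theorem GFOK_C : GFOK (GF.half ex_30_12) := ⟨ok_30_12, by decide⟩

theorem famA_ok : ∀ g ∈ famA, GFOK g := by
  intro g hg
  simp only [famA, List.mem_cons, List.not_mem_nil, or_false] at hg
  rcases hg with rfl | rfl | rfl
  · exact GFOK_R
  · exact GFOK_C
  · trivial

theorem famB_ok : ∀ g ∈ famB, GFOK g := by
  intro g hg
  simp only [famB, List.mem_cons, List.not_mem_nil, or_false] at hg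
  rcases hg with rfl | rfl | rfl | rfl | rfl | rfl
  · exact GFOK_R
  · exact GFOK_C
  · exact ⟨ok_30_21, by decide⟩
  · exact ⟨ok_15_21, ok_30_0, by decide, by decide, by decide⟩
  · exact ⟨ok_15_30, ok_30_0, by decide, by decide, by decide⟩
  · exact ⟨ok_30_60, by decide⟩

theorem fn_R (x : Fin 3 → ℝ) : (GF.gen ex_20_24 ex_20_0).fn x = gE (1 / 3) (2 / 5) x := by
  have e1 : (ex_20_24.pr : ℝ) / 60 = 1 / 3 := by norm_num [ex_20_24]
  have e2 : (ex_20_24.pi : ℝ) / 60 = 2 / 5 := by norm_num [ex_20_24]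
  rw [GF.fn_gen, e1, e2]

theorem fn_C (x : Fin 3 → ℝ) : (GF.half ex_30_12).fn x = gE (1 / 2) (1 / 5) x := by
  have e2 : (ex_30_12.pi : ℝ) / 60 = 1 / 5 := by norm_num [ex_30_12]
  rw [GF.fn_half, e2]

/-- positive functionals of run B -/
def gB : Fin 5 → GF := ![GF.half ex_30_12, GF.half ex_30_21, GF.gen ex_15_21 ex_30_0,
  GF.gen ex_15_30 ex_30_0, GF.half ex_30_60]

/-- their exponents -/
noncomputable def AB : Fin 5 → ℝ := ![1 / 2, 1 / 2, 1 / 4, 1 / 4, 1 / 2]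

/-- their exponents -/
noncomputable def tB : Fin 5 → ℝ := ![1 / 5, 7 / 20, 7 / 20, 1 / 2, 1]

theorem fn_B (j : Fin 5) (x : Fin 3 → ℝ) : (gB j).fn x = gE (AB j) (tB j) x := by
  have e1 : (ex_30_21.pi : ℝ) / 60 = 7 / 20 := by norm_num [ex_30_21]
  have e2 : (ex_15_21.pr : ℝ) / 60 = 1 / 4 := by norm_num [ex_15_21]
  have e3 : (ex_15_21.pi : ℝ) / 60 = 7 / 20 := by norm_num [ex_15_21]
  have e4 : (ex_15_30.pr : ℝ) / 60 = 1 / 4 := by norm_num [ex_15_30]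
  have e5 : (ex_15_30.pi : ℝ) / 60 = 1 / 2 := by norm_num [ex_15_30]
  have e6 : (ex_30_60.pi : ℝ) / 60 = 1 := by norm_num [ex_30_60]
  fin_cases j
  · exact fn_C x
  · show gE (1 / 2) ((ex_30_21.pi : ℝ) / 60) x = gE (1 / 2) (7 / 20) x
    rw [e1]
  · show gE ((ex_15_21.pr : ℝ) / 60) ((ex_15_21.pi : ℝ) / 60) x = gE (1 / 4) (7 / 20) x
    rw [e2, e3]
  · show gE ((ex_15_30.pr : ℝ) / 60) ((ex_15_30.pi : ℝ) / 60) x = gE (1 / 4) (1 / 2) x
    rw [e4, e5]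
  · show gE (1 / 2) ((ex_30_60.pi : ℝ) / 60) x = gE (1 / 2) 1 x
    rw [e6]

theorem AB_pos (j : Fin 5) : 0 < AB j := by
  fin_cases j <;> norm_num [AB]

theorem AB_le (j : Fin 5) : AB j ≤ 1 / 2 := by
  fin_cases j <;> norm_num [AB]

theorem famB_eq : famB = GF.gen ex_20_24 ex_20_0 :: List.ofFn gB := by
  simp [famB, gB, List.ofFn_succ]

/-- `4 ≤ d ≤ 8`, `Mt ≤ U` -/
theorem reg_of_runs {d : ℕ} (hd : 4 ≤ d) (hd' : d ≤ 8) {ch : Ch}
    (hch : ChOK ch (-(1 / √(d : ℝ))))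
    {Mt AR AC K0 K1 bot : ℕ} {ces : List Ce}
    (hAR : (K261 : ℝ) * ((d : ℝ) * (d - 1)) / 768 ≤ AR) (hAC : (AC : ℝ) ≤ K261 * aC d / 768)
    (hK0 : (K261 : ℝ) * kc d ≤ K0) (hK1 : (K1 : ℝ) ≤ 3 * (K261 * kc d))
    (hce : ces.all (ceOK d 1) = true) (hcov : cover bot Mt ces = true)
    (hbot : 768 * bot ≤ U) {LC : List Cell} {n0 : ℕ} (hcovC : coverC LC n0 cell0 = true)
    (h : ∀ c ∈ LC, ∃ n, run ch famA n c (rowsA d Mt AR AC K0 K1 ces) = true) :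
    Tendsto (aReg 3 d (-(1 / √(d : ℝ)))) atTop (𝓝 0) :=
  reg_of_data hd hd' fn_R fn_C hAR hAC hK0 hK1 (List.all_eq_true.mp hce) hcov hbot
    (rowPos_of_runs hch famA_ok hcovC h)

/-- `d = 4` -/
theorem reg_of_runs4 {ch : Ch} (hch : ChOK ch (-(1 / √((4 : ℕ) : ℝ))))
    {Mt AR AC K0 K1 bot topA : ℕ} {ces : List Ce}
    (hAR : (K261 : ℝ) * (((4 : ℕ) : ℝ) * (((4 : ℕ) : ℝ) - 1)) / 768 ≤ AR)
    (hAC : (AC : ℝ) ≤ K261 * aC 4 / 768)
    (hK0 : (K261 : ℝ) * kc 4 ≤ K0) (hK1 : (K1 : ℝ) ≤ 3 * (K261 * kc 4))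
    (hce : ces.all (ceOK 4 1) = true) (hcov : cover bot topA ces = true)
    (hbot : 768 * bot ≤ U) {LC : List Cell} {n0 : ℕ} (hcovC : coverC LC n0 cell0 = true)
    (h : ∀ c ∈ LC, ∃ n, run ch famA n c (rowsA 4 Mt AR AC K0 K1 ces) = true)
    {cesB : List Ce} {c0 : Ce} (hceB : (c0 :: cesB).all (ceOK4 5) = true)
    (hcovB : cover topA U (c0 :: cesB) = true) (hmu : c0.mu1.p = 0)
    (hMt : 20 * Mt ≤ 21 * U) {LB : List Cell} {nB : ℕ} (hcovCB : coverC LB nB cell0 = true)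
    (hB : ∀ c ∈ LB, ∃ n, run ch famB n c (rowsB c0 cesB) = true) :
    Tendsto (aReg 3 4 (-(1 / √((4 : ℕ) : ℝ)))) atTop (𝓝 0) := by
  have hrB := rowPos_of_runs hch famB_ok hcovCB hB
  rw [famB_eq] at hrB
  exact reg_of_data4 fn_R fn_C hAR hAC hK0 hK1 (List.all_eq_true.mp hce) hcov hbot
    (rowPos_of_runs hch famA_ok hcovC h) fn_B AB_pos AB_le (List.all_eq_true.mp hceB) hcovB hmu hMt
    hrB

end Vale.Agent.P154.Dat
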