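import Vale.Agent.P154.PkDefs
import Vale.Agent.P154.NearRC

/-!
# Packed forms: semantics (definitions)
-/

namespace Vale.Agent.P154.Pk

open Polynomial

/-- polynomials in `t` (outer variable) and `s` (inner variable) with natural coefficients -/
abbrev BP := Polynomial (Polynomial ℕ)

/-- value at natural numbers `s = X`, `t = Y` -/
noncomputable def evN (X Y : ℕ) : BP →+* ℕ :=
  (Polynomial.evalRingHom Y).comp (Polynomial.mapRingHom (Polynomial.evalRingHom X))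

/-- value at real numbers -/
noncomputable def evR (s t : ℝ) : BP →+* ℝ :=
  (Polynomial.eval₂RingHom (Polynomial.eval₂RingHom (Nat.castRingHom ℝ) s) t)

/-- degree in `s` at most `k` -/
def DegLe (k : ℕ) (f : BP) : Prop := ∀ j, (f.coeff j).natDegree ≤ k

/-- `F` is a form of the real number `x` at the point `(s, t)` -/
def HH (s t : ℝ) (k : ℕ) (F : Pk) (x : ℝ) : Prop :=
  ∃ f g : BP, F.p = evN BX BY f ∧ F.n = evN BX BY g ∧ evN 1 1 f + evN 1 1 g ≤ F.N ∧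
    DegLe k f ∧ DegLe k g ∧ |x - (evR s t f - evR s t g)| ≤ (F.e : ℝ)

/-- `F` is an affine form of `X` at `(s, t)` -/
def AfH (s t : ℝ) (F : Af) (X : ℝ) : Prop :=
  |2 ^ 60 * X - ((F.v : ℝ) + ((F.ap : ℝ) - F.an) * s + ((F.bp : ℝ) - F.bn) * t)| ≤ (F.e : ℝ)

/-- base point of a coordinate -/
noncomputable def Co.c0 (c : Co) : ℝ := (c.n / 64) / 2 ^ c.j

/-- validity of the data of a coordinate -/
structure CoOK (s t : ℝ) (c : Co) (X : ℝ) : Prop where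
  n1 : 32 ≤ c.n
  n2 : c.n ≤ 64
  j1 : c.j < 64
  good : c.ok = true → ∃ ε r : ℝ, X = c.c0 * (1 + ε) ∧ |ε| ≤ r ∧ r < 1 ∧
    HH s t 1 c.ep (2 ^ 32 * ε) ∧ HH s t 2 c.e2 (2 ^ 64 * ε ^ 2) ∧ HH s t 3 c.e3 (2 ^ 96 * ε ^ 3) ∧
    2 ^ 128 * (r / (1 - r)) ^ 4 ≤ c.m4
  bad : c.ok = false → 0 ≤ X ∧ X ≤ c.c0

/-- the exponent -/
noncomputable def Ex.al (x : Ex) : ℂ := (x.pr : ℂ) / 60 + (x.pi : ℂ) / 60 * Complex.I

/-- complex value of a constant -/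
noncomputable def Cx.val (z : Cx) : ℂ := ((z.a : ℂ) - z.b) + ((z.c : ℂ) - z.d) * Complex.I

/-- validity of the tables of an exponent -/
structure ExOK (x : Ex) : Prop where
  pos : 15 ≤ x.pr
  le : x.pr ≤ 60
  c1 : ‖x.c1.val - 2 ^ 32 * x.al‖ ≤ 1
  c2 : ‖x.c2.val - 2 ^ 32 * (x.al * (x.al - 1) / 2)‖ ≤ 1
  c3 : ‖x.c3.val - 2 ^ 32 * (x.al * (x.al - 1) * (x.al - 2) / 6)‖ ≤ 1
  g4 : 2 ^ 32 * ‖x.al * (x.al - 1) * (x.al - 2) * (x.al - 3) / 24‖ ≤ x.g4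
  A : ∀ n : ℕ, 32 ≤ n → n ≤ 64 →
    ‖(x.A.get (64 - n)).val - 2 ^ 44 * (((n : ℝ) / 64 : ℝ) : ℂ) ^ x.al‖ ≤ 3000
  B : ∀ j : ℕ, j < 64 → ‖(x.B.get j).val - 2 ^ 44 * ((1 / 2 ^ j : ℝ) : ℂ) ^ x.al‖ ≤ 3000

end Vale.Agent.P154.Pk
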