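import Vale.Agent.P154.UniDone
import Vale.Agent.P154.FinalAsm

/-!
# P154: Poisson trees, three states, `|lam| ≤ 1/3` or `d ≥ 9`
-/

namespace Vale.Agent.P154.Fin3

open Vale.Agent.P154 Mu Filter Topology
open scoped ENNReal

theorem poisson_iff_small {lam : ℝ} (hl : |lam| ≤ 1 / 3) {d : ℝ} (hd : 0 < d) :
    ((∃ L : ℝ≥0∞, 0 < L ∧ Tendsto (aGWTree 3 (poissonLaw d) lam) atTop (𝓝 L)) ↔
        1 < d * lam ^ 2) ∧
      (Tendsto (aGWTree 3 (poissonLaw d) lam) atTop (𝓝 0) ↔ d * lam ^ 2 ≤ 1) := by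
  obtain ⟨h1, h2⟩ := abs_le.mp hl
  refine poisson_iff_of_crit (by linarith) (by linarith) ?_ ?_ hd
  · intro e he hc
    rcases le_total 0 lam with h0 | h0
    · exact tendsto_poisson_of_star he.le h0 (by linarith) hc.le (star_exists lam h0 h2)
    · have hlne : lam ≠ 0 := by
        intro h; rw [h] at hc; norm_num at hc
      have hlneg : lam < 0 := lt_of_le_of_ne h0 hlne
      have h9 : 9 ≤ e := by
        have hl2 : lam ^ 2 ≤ 1 / 9 := by nlinarith
        by_contra hcon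
        push Not at hcon
        have : e * lam ^ 2 < 1 := by
          have h3 : 0 < lam ^ 2 := by positivity
          calc e * lam ^ 2 < 9 * lam ^ 2 := mul_lt_mul_of_pos_right hcon h3
            _ ≤ 1 := by linarith
        linarith
      have hs : 0 < √e := Real.sqrt_pos.mpr he
      have hlam : lam = -(1 / √e) := by
        have h4 : (-lam * √e) ^ 2 = 1 := by
          rw [mul_pow, Real.sq_sqrt he.le, neg_sq]; linarith
        have h5 : 0 ≤ -lam * √e := mul_nonneg (by linarith) hs.le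
        have h6 : -lam * √e = 1 := by nlinarith
        field_simp
        linarith
      rw [hlam]
      exact Uni.crit_poisson h9
  · intro h e he
    subst h
    exact tendsto_poisson_of_star he.le le_rfl (by norm_num) (by norm_num)
      (star_exists 0 le_rfl (by norm_num))

theorem poisson_rec {lam : ℝ} (h0 : -(1 / 2) ≤ lam) (h1 : lam ≤ 1) {d : ℝ} (hd : 0 < d)
    (hth : 1 < d * lam ^ 2) :
    ∃ L : ℝ≥0∞, 0 < L ∧ Tendsto (aGWTree 3 (poissonLaw d) lam) atTop (𝓝 L) := by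
  have hlam : LamOK 3 lam := lamOK_three.mpr ⟨h0, h1⟩
  simp only [aGWTree_eq]
  obtain ⟨c, hc, hcn⟩ := ks_poisson (q := 3) (by norm_num) hlam hd hth
  obtain ⟨L, hL⟩ := aGW_tendsto (q := 3) (p := poissonLaw d) (by norm_num) hlam
    (tsum_poissonLaw hd.le)
  exact ⟨_, (ENNReal.ofReal_pos.mpr hc).trans_le (ge_of_tendsto' hL hcn), hL⟩

theorem gw_star {p : ℕ → ℝ≥0∞} {lam : ℝ} (hp : ∑' k, p k = 1) (h0 : 0 ≤ lam) (h1 : lam ≤ 1 / 3)
    (hm : (∑' k, p k * k) * ENNReal.ofReal (lam ^ 2) ≤ 1) :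
    Tendsto (aGWTree 3 p lam) atTop (𝓝 0) := by
  simp only [aGWTree_eq]
  exact tendsto_of_star hp h0 (by linarith) hm (star_exists lam h0 h1)

theorem poisson_iff {lam : ℝ} (h0 : -(1 / 2) ≤ lam) (h1 : lam ≤ 1) {d : ℝ} (hd : 0 < d)
    (h : |lam| ≤ 1 / 3 ∨ 9 ≤ d) :
    ((∃ L : ℝ≥0∞, 0 < L ∧ Tendsto (aGWTree 3 (poissonLaw d) lam) atTop (𝓝 L)) ↔
        1 < d * lam ^ 2) ∧
      (Tendsto (aGWTree 3 (poissonLaw d) lam) atTop (𝓝 0) ↔ d * lam ^ 2 ≤ 1) := by
  by_cases hl : |lam| ≤ 1 / 3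
  · exact poisson_iff_small hl hd
  · have h9 : 9 ≤ d := by
      rcases h with h | h
      · exact absurd h hl
      · exact h
    push Not at hl
    have hl2 : 1 / 9 < lam ^ 2 := by
      rw [← sq_abs]
      nlinarith
    have hth : 1 < d * lam ^ 2 := by nlinarith
    have hrec := poisson_rec h0 h1 hd hth
    refine ⟨⟨fun _ => hth, fun _ => hrec⟩, ⟨fun hn => ?_, fun hn => ?_⟩⟩
    · exfalso
      obtain ⟨L, hL0, hL⟩ := hrec
      exact hL0.ne' (tendsto_nhds_unique hL hn)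
    · linarith

end Vale.Agent.P154.Fin3
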