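import Vale.Agent.P154.UT
import Vale.Agent.P154.PkC

/-!
# P154: the exponents of the universal inequalities
-/

namespace Vale.Agent.P154.UT

open Vale.Agent.P154.Pk

theorem exOK_20_0 : ExOK ex_20_0 := exChk_sound (by decide +kernel)
theorem exOK_20_24 : ExOK ex_20_24 := exChk_sound (by decide +kernel)
theorem exOK_30_12 : ExOK ex_30_12 := exChk_sound (by decide +kernel)

end Vale.Agent.P154.UT
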