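import Vale.Agent.P154.UT

namespace Vale.Agent.P154.UT

open Vale.Agent.P154.Pk

theorem runU2C : run ch fam 90 ⟨216172782113783808, 216172782113783808, 144115188075855872,
    144115188075855872⟩ [rU2C] = true := by
  decide +kernel

end Vale.Agent.P154.UT
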