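import Vale.Agent.P154.UNear
import Vale.Agent.P154.PkG
import Vale.Agent.P154.UTrunU1
import Vale.Agent.P154.UTrunU2C
import Vale.Agent.P154.UTrunU2R

/-!
# P154: the universal inequalities
-/

namespace Vale.Agent.P154.UT

open Vale.Agent.P154.Pk Vale.Agent.P154.Near Vale.Agent.P154.Uni

lemma chOK : ChOK ch 0 := by
  refine ⟨by norm_num, by norm_num, ?_, ?_, ?_⟩
  · simp [ch]
  · simp [ch]
  · simp [ch]

/-- validity of the three exponents -/
def Exs : Prop := ExOK ex_20_0 ∧ ExOK ex_20_24 ∧ ExOK ex_30_12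

lemma fam_ok (h : Exs) : ∀ g ∈ fam, GFOK g := by
  obtain ⟨h1, h2, h3⟩ := h
  intro g hg
  simp only [fam, List.mem_cons, List.not_mem_nil, or_false] at hg
  rcases hg with rfl | rfl | rfl | rfl | rfl | rfl | rfl | rfl
  · exact ⟨h2, h1, by simp [ex_20_24], by simp [ex_20_24, ex_20_0], by simp [ex_20_0]⟩
  · exact ⟨h3, by simp [ex_30_12]⟩
  all_goals trivial

lemma ev0 : (ex_20_24.pr : ℝ) / 60 = 1 / 3 := by norm_num [ex_20_24]
lemma ev1 : (ex_20_24.pi : ℝ) / 60 = 2 / 5 := by norm_num [ex_20_24]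
lemma ev2 : (ex_30_12.pi : ℝ) / 60 = 1 / 5 := by norm_num [ex_30_12]

lemma P2_eq (x : Fin 3 → ℝ) : P2 (fun i => x i - 1) = 3 * sq x := by
  unfold P2 sq; ring

lemma sum3 {x : Fin 3 → ℝ} (hx : Simp x) : x 0 + x 1 + x 2 = 3 := by
  have := hx.2
  unfold mean at this
  linarith

lemma zone_eq {x : Fin 3 → ℝ} (h : ∀ i, |x i - 1| ≤ ((28823037615171174 : ℕ) : ℝ) / 2 ^ 58) :
    ∀ i, |x i - 1| ≤ 1 / 10 := by
  intro i
  refine (h i).trans ?_
  norm_num

theorem u1 (hE : Exs) : U1 := by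
  intro x hx
  by_cases hz : ∀ i, |x i - 1| ≤ ((28823037615171174 : ℕ) : ℝ) / 2 ^ 58
  · exact nearU1 hx (zone_eq hz)
  · have h := run_sound chOK (fam_ok hE) runU1 (r := rU1) (List.mem_singleton.mpr rfl) hx.1
      (sum3 hx) (fun _ => hz) (by simp [rU1])
    simp only [Row.fn, rU1, lc, fam, List.zipWith, List.sum_cons, List.sum_nil, GF.fn_half,
      GF.fn_gen, GF.fn_pol0, GF.fn_pol1, GF.fn_pol2, GF.fn_pol3, GF.fn_pol4, GF.fn_pol5,
      Sg.val, P2_eq, ev0, ev1, ev2] at h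
    unfold rho phiC phiR
    have e : (x 0 - 1) * (x 1 - 1) * (x 2 - 1) = cu x := rfl
    rw [e] at h
    push_cast at h
    linarith

theorem u2C (hE : Exs) : U2C := by
  intro x hx hc
  by_cases hz : ∀ i, |x i - 1| ≤ ((28823037615171174 : ℕ) : ℝ) / 2 ^ 58
  · exact nearU2C hx (zone_eq hz)
  · have h := run_sound chOK (fam_ok hE) runU2C (r := rU2C) (List.mem_singleton.mpr rfl) hx.1
      (sum3 hx) (fun _ => hz) (fun _ => hc)
    simp only [Row.fn, rU2C, lc, fam, List.zipWith, List.sum_cons, List.sum_nil, GF.fn_half,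
      GF.fn_gen, GF.fn_pol0, GF.fn_pol1, GF.fn_pol2, GF.fn_pol3, GF.fn_pol4, GF.fn_pol5,
      Sg.val, P2_eq, ev0, ev1, ev2] at h
    unfold rho phiC
    have e : (x 0 - 1) * (x 1 - 1) * (x 2 - 1) = cu x := rfl
    rw [e] at h
    push_cast at h
    linarith

theorem u2R (hE : Exs) : U2R := by
  intro x hx hc
  by_cases hz : ∀ i, |x i - 1| ≤ ((28823037615171174 : ℕ) : ℝ) / 2 ^ 58
  · exact nearU2R hx (zone_eq hz)
  · have h := run_sound chOK (fam_ok hE) runU2R (r := rU2R) (List.mem_singleton.mpr rfl) hx.1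
      (sum3 hx) (fun _ => hz) (fun _ => hc)
    simp only [Row.fn, rU2R, lc, fam, List.zipWith, List.sum_cons, List.sum_nil, GF.fn_half,
      GF.fn_gen, GF.fn_pol0, GF.fn_pol1, GF.fn_pol2, GF.fn_pol3, GF.fn_pol4, GF.fn_pol5,
      Sg.val, P2_eq, ev0, ev1, ev2] at h
    unfold phiR
    have e : (x 0 - 1) * (x 1 - 1) * (x 2 - 1) = cu x := rfl
    rw [e] at h
    push_cast at h
    linarith

end Vale.Agent.P154.UT
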