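import Vale.Agent.P154.UniMain
import Vale.Agent.P154.UProof
import Vale.Agent.P154.UEx

/-!
# P154: nonreconstruction for three spins at `lam = -1 / √d`, `d ≥ 9`
-/

namespace Vale.Agent.P154.Uni

open Filter Topology Vale.Agent.P154.Mu Vale.Agent.P154.UT

/-- the three exponents are valid -/
theorem exs : Exs := ⟨exOK_20_0, exOK_20_24, exOK_30_12⟩

/-- `d`-ary trees, `d ≥ 9` -/
theorem crit_reg {d : ℕ} (hd : 9 ≤ d) : Tendsto (aReg 3 d (-(1 / √d))) atTop (𝓝 0) :=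
  reg_uni (u1 exs) (u2C exs) (u2R exs) hd

/-- Poisson trees, `d ≥ 9` -/
theorem crit_poisson {d : ℝ} (hd : 9 ≤ d) :
    Tendsto (aGW 3 (poissonLaw d) (-(1 / √d))) atTop (𝓝 0) :=
  poisson_uni (u1 exs) (u2C exs) (u2R exs) hd

end Vale.Agent.P154.Uni
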