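import Vale.Agent.P154.PkFin
import Vale.Agent.P154.UniDone
import Vale.Agent.P154.FinalAsm
namespace Vale.Agent.P154.Fin3
open Vale.Agent.P154 Mu Filter Topology

theorem crit_all (d : ℕ) (hd : 4 ≤ d) : Tendsto (aReg 3 d (-(1 / √(d : ℝ)))) atTop (𝓝 0) := by
  rcases le_or_gt 9 d with h9 | h9
  · exact Uni.crit_reg h9
  · interval_cases d
    · exact Pk.crit4
    · exact Pk.crit5
    · exact Pk.crit6
    · exact Pk.crit7
    · exact Pk.crit8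

theorem reg_iff {d : ℕ} (hd : 2 ≤ d) {lam : ℝ} (h0 : -(1 / 2) ≤ lam) (h1 : lam ≤ 1) :
    ((∃ L, 0 < L ∧ Tendsto (aTree 3 d lam) atTop (𝓝 L)) ↔ 1 < (d : ℝ) * lam ^ 2) ∧
      (Tendsto (aTree 3 d lam) atTop (𝓝 0) ↔ (d : ℝ) * lam ^ 2 ≤ 1) :=
  reg_iff_of_crit crit_all hd h0 h1

end Vale.Agent.P154.Fin3
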