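import Vale.Agent.P154.Defs

/-!
# The same quantities with `Fintype` sums
-/

namespace Vale.Agent.P154

open Finset
open scoped ENNReal

instance instFintypeConf (q : ℕ) : {n : ℕ} → (t : GTree n) → Fintype (Conf q t)
  | _, GTree.leaf => inferInstanceAs (Fintype (Fin q))
  | _, GTree.node k t =>
    have : ∀ j : Fin k, Fintype (Conf q (t j)) := fun j => instFintypeConf q (t j)
    inferInstanceAs (Fintype (Fin q × ((j : Fin k) → Conf q (t j))))

instance instFintypeLeafConf (q : ℕ) : {n : ℕ} → (t : GTree n) → Fintype (LeafConf q t)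
  | _, GTree.leaf => inferInstanceAs (Fintype (Fin q))
  | _, GTree.node k t =>
    have : ∀ j : Fin k, Fintype (LeafConf q (t j)) := fun j => instFintypeLeafConf q (t j)
    inferInstanceAs (Fintype ((j : Fin k) → LeafConf q (t j)))

open Classical in
/-- `Pr(σ_ρ = i, σ_{L_n} = c)`; the root spin is uniform. -/
noncomputable def jointProb (q : ℕ) (lam : ℝ) {n : ℕ} (t : GTree n) (i : Fin q)
    (c : LeafConf q t) : ℝ :=
  ∑ σ : Conf q t, if rootSpin t σ = i ∧ leafSpins t σ = c then
    1 / (q : ℝ) * condProb lam t σ else 0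

/-- `Pr(σ_{L_n} = c)`. -/
noncomputable def leafProb (q : ℕ) (lam : ℝ) {n : ℕ} (t : GTree n) (c : LeafConf q t) : ℝ :=
  ∑ i, jointProb q lam t i c

/-- `E[ (1/2) ∑_i |Pr(σ_ρ = i | σ_{L_n}) - 1/q| ]` for a fixed tree. -/
noncomputable def advantage (q : ℕ) (lam : ℝ) {n : ℕ} (t : GTree n) : ℝ :=
  ∑ c : LeafConf q t, leafProb q lam t c *
    (1 / 2 * ∑ i, |jointProb q lam t i c / leafProb q lam t c - 1 / (q : ℝ)|)

/-- The sequence `a_n` of the Potts broadcast model on the `d`-ary tree. -/
noncomputable def aReg (q d : ℕ) (lam : ℝ) (n : ℕ) : ℝ := advantage q lam (reg d n)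

/-- The sequence `a_n` of the Potts broadcast model on the Galton–Watson tree with offspring law
`p`: expectation over the tree and the spins. -/
noncomputable def aGW (q : ℕ) (p : ℕ → ℝ≥0∞) (lam : ℝ) (n : ℕ) : ℝ≥0∞ :=
  ∑' t : GTree n, gwWeight p t * ENNReal.ofReal (advantage q lam t)

theorem jointPr_eq (q : ℕ) (lam : ℝ) {n : ℕ} (t : GTree n) (i : Fin q) (c : LeafConf q t) :
    jointPr q lam t i c = jointProb q lam t i c := by
  unfold jointPr jointProb
  exact finsum_eq_sum_of_fintype _

theorem leafPr_eq (q : ℕ) (lam : ℝ) {n : ℕ} (t : GTree n) (c : LeafConf q t) :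
    leafPr q lam t c = leafProb q lam t c := by
  unfold leafPr leafProb
  exact Finset.sum_congr rfl (fun i _ => jointPr_eq q lam t i c)

theorem advPr_eq (q : ℕ) (lam : ℝ) {n : ℕ} (t : GTree n) :
    advPr q lam t = advantage q lam t := by
  unfold advPr advantage
  rw [finsum_eq_sum_of_fintype]
  refine Finset.sum_congr rfl (fun c _ => ?_)
  rw [leafPr_eq]
  simp only [jointPr_eq]

theorem aTree_eq (q d : ℕ) (lam : ℝ) : aTree q d lam = aReg q d lam :=
  funext fun n => advPr_eq q lam (reg d n)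

theorem aGWTree_eq (q : ℕ) (p : ℕ → ℝ≥0∞) (lam : ℝ) : aGWTree q p lam = aGW q p lam := by
  funext n
  unfold aGWTree aGW
  simp only [advPr_eq]

end Vale.Agent.P154
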