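import Vale.Agent.P154.Ens

/-! # P154: the tree recursion -/

namespace Vale.Agent.P154

open Finset Filter Topology

/-- likelihood vector of a leaf configuration -/
noncomputable def lv (lam : ℝ) {n : ℕ} (t : GTree n) (c : LeafConf 3 t) : Fin 3 → ℝ :=
  fun i => lik 3 lam t i c

lemma potts_sum (lam : ℝ) (i : Fin 3) (v : Fin 3 → ℝ) :
    ∑ s, potts 3 lam i s * v s = chanL lam v i := by
  unfold potts chanL mean
  rw [Fin.sum_univ_three]
  fin_cases i <;> simp <;> ring

lemma lv_node (lam : ℝ) {n k : ℕ} (t : Fin k → GTree n) (c : (j : Fin k) → LeafConf 3 (t j)) :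
    lv lam (GTree.node k t) c = fun i => ∏ j, chanL lam (lv lam (t j) (c j)) i := by
  funext i
  change ∏ j : Fin k, ∑ s, potts 3 lam i s * lik 3 lam (t j) s (c j) = _
  refine Finset.prod_congr rfl (fun j _ => ?_)
  exact potts_sum lam i (fun s => lik 3 lam (t j) s (c j))

lemma ens_lv {lam : ℝ} (h0 : 0 ≤ lam) (h1 : lam ≤ 1) {n : ℕ} (t : GTree n) : Ens (lv lam t) := by
  induction t with
  | leaf =>
    have key : Ens (fun (c : Fin 3) (i : Fin 3) => Pi.single (M := fun _ : Fin 3 => ℝ) c 1 i) := by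
      refine ⟨?_, ?_, ?_⟩
      · intro c i
        by_cases h : i = c
        · subst h; simp
        · simp [h]
      · intro i
        rw [Finset.sum_eq_single i]
        · simp
        · intro b _ hb
          simp [Ne.symm hb]
        · simp
      · intro φ g
        rw [← Equiv.sum_comp (Equiv.subRight g)
          (fun c => φ (fun i => Pi.single (M := fun _ : Fin 3 => ℝ) c 1 i))]
        refine Finset.sum_congr rfl (fun c _ => ?_)
        congr 1
        funext i
        unfold rot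
        by_cases h : i + g = c
        · have h' : i = c - g := by rw [← h]; simp
          simp [h, h']
        · have h' : ¬ i = c - g := by
            intro h''
            apply h
            rw [h'']; simp
          simp [h, h']
    exact key
  | @node n k t ih =>
    have h := ens_pi k (fun j => (ih j).chanL h0 h1)
    have e : (fun (c : (j : Fin k) → LeafConf 3 (t j)) => lv lam (GTree.node k t) c) =
        fun c i => ∏ j, chanL lam (lv lam (t j) (c j)) i := by
      funext c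
      exact lv_node lam t c
    rw [← e] at h
    exact h

/-- expectation of a functional of the message -/
noncomputable def EF (F : (Fin 3 → ℝ) → ℝ) (lam : ℝ) {n : ℕ} (t : GTree n) : ℝ :=
  ∑ c, hom F (lv lam t c)

lemma EF_node (F : (Fin 3 → ℝ) → ℝ) (lam : ℝ) {n k : ℕ} (t : Fin k → GTree n) :
    EF F lam (GTree.node k t) = ∑ c : (j : Fin k) → LeafConf 3 (t j),
      hom F (fun i => ∏ j, chanL lam (lv lam (t j) (c j)) i) := by
  unfold EF
  exact Finset.sum_congr rfl (fun c _ => congrArg (hom F) (lv_node lam t c))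

lemma hom_nonneg {F : (Fin 3 → ℝ) → ℝ} (hF : ∀ x, Simp x → 0 ≤ F x) {v : Fin 3 → ℝ}
    (hv : ∀ i, 0 ≤ v i) : 0 ≤ hom F v := by
  have h := mean_nonneg hv
  unfold hom
  rcases h.eq_or_lt with h0 | hpos
  · rw [← h0]; simp
  · exact mul_nonneg h (hF _ (nrm_simp hv hpos))

lemma hom_mono {F G : (Fin 3 → ℝ) → ℝ} (hF : ∀ x, Simp x → F x ≤ G x) {v : Fin 3 → ℝ}
    (hv : ∀ i, 0 ≤ v i) : hom F v ≤ hom G v := by
  have h := mean_nonneg hv
  unfold hom
  rcases h.eq_or_lt with h0 | hpos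
  · rw [← h0]; simp
  · exact mul_le_mul_of_nonneg_left (hF _ (nrm_simp hv hpos)) h

lemma EF_nonneg {F : (Fin 3 → ℝ) → ℝ} (hF : ∀ x, Simp x → 0 ≤ F x) {lam : ℝ} (h0 : 0 ≤ lam)
    (h1 : lam ≤ 1) {n : ℕ} (t : GTree n) : 0 ≤ EF F lam t :=
  Finset.sum_nonneg (fun c _ => hom_nonneg hF ((ens_lv h0 h1 t).nonneg c))

lemma EF_mono {F G : (Fin 3 → ℝ) → ℝ} (hF : ∀ x, Simp x → F x ≤ G x) {lam : ℝ} (h0 : 0 ≤ lam)
    (h1 : lam ≤ 1) {n : ℕ} (t : GTree n) : EF F lam t ≤ EF G lam t :=
  Finset.sum_le_sum (fun c _ => hom_mono hF ((ens_lv h0 h1 t).nonneg c))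

/-- the reduction of the advantage to the message -/
lemma advantage_eq (lam : ℝ) {n : ℕ} (t : GTree n) :
    advantage 3 lam t = EF (fun x => (1 / 6) * ∑ i, |x i - 1|) lam t := by
  unfold advantage EF
  refine Finset.sum_congr rfl (fun c _ => ?_)
  have hl : leafProb 3 lam t c = mean (lv lam t c) := by
    unfold leafProb mean lv
    simp only [jointProb_eq]
    rw [Fin.sum_univ_three]
    push_cast
    ring
  rw [hl]
  unfold hom
  congr 1
  by_cases hm : mean (lv lam t c) = 0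
  · rw [hm]
    simp only [div_zero, nrm, hm, jointProb_eq]
    rw [Fin.sum_univ_three, Fin.sum_univ_three]
    norm_num
  · have h1 : ∀ i, jointProb 3 lam t i c / mean (lv lam t c) - 1 / ((3 : ℕ) : ℝ) =
        (1 / 3) * (nrm (lv lam t c) i - 1) := by
      intro i
      rw [jointProb_eq]
      unfold nrm lv
      push_cast
      field_simp
    simp only [h1, abs_mul, ← Finset.mul_sum]
    rw [abs_of_pos (by norm_num : (0:ℝ) < 1 / 3)]
    ring

lemma sq_nonneg' (x : Fin 3 → ℝ) : 0 ≤ sq x := by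
  unfold sq; positivity

lemma adv_pt (x : Fin 3 → ℝ) : (1 / 6) * ∑ i, |x i - 1| ≤ 1 / 2 * √(sq x) := by
  have h1 : (∑ i, |x i - 1|) ^ 2 ≤ 9 * sq x := by
    rw [Fin.sum_univ_three]
    unfold sq
    have h0 := sq_abs (x 0 - 1)
    have h1 := sq_abs (x 1 - 1)
    have h2 := sq_abs (x 2 - 1)
    nlinarith [sq_nonneg (|x 0 - 1| - |x 1 - 1|), sq_nonneg (|x 0 - 1| - |x 2 - 1|),
      sq_nonneg (|x 1 - 1| - |x 2 - 1|)]
  have h2 : ∑ i, |x i - 1| ≤ √(9 * sq x) := Real.le_sqrt_of_sq_le h1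
  have h3 : √(9 * sq x) = 3 * √(sq x) := by
    rw [Real.sqrt_mul (by norm_num)]
    congr 1
    rw [show (9:ℝ) = 3 ^ 2 by norm_num, Real.sqrt_sq (by norm_num)]
  rw [h3] at h2
  linarith

/-- Jensen -/
lemma EF_sq_le {F : (Fin 3 → ℝ) → ℝ} {lam : ℝ} (h0 : 0 ≤ lam)
    (h1 : lam ≤ 1) {n : ℕ} (t : GTree n) : EF F lam t ^ 2 ≤ EF (fun x => F x ^ 2) lam t := by
  have hE := ens_lv h0 h1 t
  have hs := sum_mean hE
  unfold EF hom
  have h := Finset.sum_mul_sq_le_sq_mul_sq Finset.univ (fun c => √(mean (lv lam t c)))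
    (fun c => √(mean (lv lam t c)) * F (nrm (lv lam t c)))
  have e1 : ∀ c, √(mean (lv lam t c)) * (√(mean (lv lam t c)) * F (nrm (lv lam t c))) =
      mean (lv lam t c) * F (nrm (lv lam t c)) := by
    intro c
    rw [← mul_assoc, Real.mul_self_sqrt (mean_nonneg (hE.nonneg c))]
  have e2 : ∀ c, (√(mean (lv lam t c))) ^ 2 = mean (lv lam t c) := by
    intro c
    rw [Real.sq_sqrt (mean_nonneg (hE.nonneg c))]
  have e3 : ∀ c, (√(mean (lv lam t c)) * F (nrm (lv lam t c))) ^ 2 =
      mean (lv lam t c) * F (nrm (lv lam t c)) ^ 2 := by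
    intro c
    rw [mul_pow, Real.sq_sqrt (mean_nonneg (hE.nonneg c))]
  simp only [e1, e2, e3, hs, one_mul] at h
  exact h

lemma advantage_nonneg {lam : ℝ} (h0 : 0 ≤ lam) (h1 : lam ≤ 1) {n : ℕ} (t : GTree n) :
    0 ≤ advantage 3 lam t := by
  rw [advantage_eq]
  exact EF_nonneg (fun x _ => by positivity) h0 h1 t

/-- `4 a² ≤ E s` -/
lemma advantage_sq_le {lam : ℝ} (h0 : 0 ≤ lam) (h1 : lam ≤ 1) {n : ℕ} (t : GTree n) :
    4 * advantage 3 lam t ^ 2 ≤ EF sq lam t := by
  have e1 : advantage 3 lam t ≤ EF (fun x => 1 / 2 * √(sq x)) lam t := by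
    rw [advantage_eq]
    exact EF_mono (fun x _ => adv_pt x) h0 h1 t
  have e2 := EF_sq_le (F := fun x => 1 / 2 * √(sq x)) h0 h1 t
  have e3 : EF (fun x => (1 / 2 * √(sq x)) ^ 2) lam t = 1 / 4 * EF sq lam t := by
    unfold EF hom
    rw [Finset.mul_sum]
    refine Finset.sum_congr rfl (fun c _ => ?_)
    simp only
    rw [mul_pow, Real.sq_sqrt (sq_nonneg' _)]
    ring
  rw [e3] at e2
  have e4 := advantage_nonneg h0 h1 t
  nlinarith [pow_le_pow_left₀ e4 e1 2]

lemma EF_sub_mul (lam : ℝ) (A B : (Fin 3 → ℝ) → ℝ) (r η : ℝ) {n : ℕ} (t : GTree n) :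
    EF (fun x => r * (A x - η * B x)) lam t = r * (EF A lam t - η * EF B lam t) := by
  unfold EF hom
  rw [Finset.mul_sum, ← Finset.sum_sub_distrib, Finset.mul_sum]
  refine Finset.sum_congr rfl (fun c _ => ?_)
  ring

/-- the combination induction for a chain -/
theorem chain_combine {d : ℕ} {lam : ℝ} (h0 : 0 ≤ lam) (h1 : lam ≤ 1) (C : Chain d lam)
    {n : ℕ} (t : GTree n) (k : ℕ) (hk : 2 ≤ k) (hkd : k ≤ d) :
    EF (Fn (C.b k) (C.g k) (C.e k)) lam (GTree.node k (fun _ => t)) ≤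
      k * (lam ^ 2 * EF (Fn (C.b d) (C.g d) (C.e d)) lam t) -
        (k - 1) * (lam ^ 2 * C.eta * EF (fun x => sq x ^ 2) lam t) := by
  have hE := ens_lv h0 h1 t
  have hG := EF_sub_mul lam (Fn (C.b d) (C.g d) (C.e d)) (fun x => sq x ^ 2) (lam ^ 2) C.eta t
  induction k, hk using Nat.le_induction with
  | base =>
    rw [EF_node]
    have hb := combine_base (F' := Fn (C.b 2) (C.g 2) (C.e 2))
      (G' := fun x => lam ^ 2 * Fn (C.b d) (C.g d) (C.e d) x)
      (G := fun x => lam ^ 2 * (Fn (C.b d) (C.g d) (C.e d) x - C.eta * sq x ^ 2)) h0 h1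
      (fun x' x hx' hx => C.base x x' hx hx') hE hE
    have e1 : ∑ c : (j : Fin 2) → LeafConf 3 t, hom (Fn (C.b 2) (C.g 2) (C.e 2))
        (fun i => ∏ j, chanL lam (lv lam t (c j)) i) =
        ∑ c, ∑ c', hom (Fn (C.b 2) (C.g 2) (C.e 2))
          (fun i => chanL lam (lv lam t c) i * chanL lam (lv lam t c') i) := by
      rw [← Equiv.sum_comp (finTwoArrowEquiv (LeafConf 3 t)).symm, Fintype.sum_prod_type]
      refine Finset.sum_congr rfl (fun c _ => Finset.sum_congr rfl (fun c' _ => ?_))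
      congr 1
      funext i
      rw [Fin.prod_univ_two]
      rfl
    have e2 : ∑ c, hom (fun x => lam ^ 2 * Fn (C.b d) (C.g d) (C.e d) x) (lv lam t c) =
        lam ^ 2 * EF (Fn (C.b d) (C.g d) (C.e d)) lam t := by
      unfold EF hom
      rw [Finset.mul_sum]
      exact Finset.sum_congr rfl (fun c _ => by ring)
    have e3 : ∑ c', hom (fun x => lam ^ 2 * (Fn (C.b d) (C.g d) (C.e d) x - C.eta * sq x ^ 2))
        (lv lam t c') = lam ^ 2 * (EF (Fn (C.b d) (C.g d) (C.e d)) lam t -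
          C.eta * EF (fun x => sq x ^ 2) lam t) := hG
    rw [e1]
    rw [e2, e3] at hb
    push_cast
    linarith
  | succ k hk ih =>
    have ih' := ih (by omega)
    rw [EF_node] at ih' ⊢
    have hV : Ens (fun (c : Fin k → LeafConf 3 t) i => ∏ j, chanL lam (lv lam t (c j)) i) :=
      ens_pi k (fun _ => hE.chanL h0 h1)
    have hb := combine_step (F' := Fn (C.b (k + 1)) (C.g (k + 1)) (C.e (k + 1)))
      (F := Fn (C.b k) (C.g k) (C.e k))
      (G := fun x => lam ^ 2 * (Fn (C.b d) (C.g d) (C.e d) x - C.eta * sq x ^ 2)) h0 h1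
      (fun z x hz hx => C.step k hk (by omega) z x hz hx) hV hE
    have e1 : ∑ c : (j : Fin (k + 1)) → LeafConf 3 t,
        hom (Fn (C.b (k + 1)) (C.g (k + 1)) (C.e (k + 1)))
        (fun i => ∏ j, chanL lam (lv lam t (c j)) i) =
        ∑ c : Fin k → LeafConf 3 t, ∑ c', hom (Fn (C.b (k + 1)) (C.g (k + 1)) (C.e (k + 1)))
          (fun i => (∏ j, chanL lam (lv lam t (c j)) i) * chanL lam (lv lam t c') i) := by
      rw [← Equiv.sum_comp (Fin.consEquiv (fun _ : Fin (k + 1) => LeafConf 3 t)),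
        Fintype.sum_prod_type, Finset.sum_comm]
      refine Finset.sum_congr rfl (fun c _ => Finset.sum_congr rfl (fun c' _ => ?_))
      congr 1
      funext i
      rw [Fin.prod_univ_succ, mul_comm]
      rfl
    have e3 : ∑ c', hom (fun x => lam ^ 2 * (Fn (C.b d) (C.g d) (C.e d) x - C.eta * sq x ^ 2))
        (lv lam t c') = lam ^ 2 * (EF (Fn (C.b d) (C.g d) (C.e d)) lam t -
          C.eta * EF (fun x => sq x ^ 2) lam t) := hG
    rw [e1]
    rw [e3] at hb
    push_cast
    linarith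

theorem tendsto_of_chain {d : ℕ} {lam : ℝ} (hd : 2 ≤ d) (h0 : 0 ≤ lam) (h1 : lam ≤ 1)
    (h2 : d * lam ^ 2 ≤ 1) (C : Chain d lam) : Tendsto (aReg 3 d lam) atTop (𝓝 0) := by
  set Φ : ℕ → ℝ := fun n => EF (Fn (C.b d) (C.g d) (C.e d)) lam (reg d n) with hΦ
  set E2 : ℕ → ℝ := fun n => EF (fun x => sq x ^ 2) lam (reg d n) with hE2
  set e1 : ℕ → ℝ := fun n => EF sq lam (reg d n) with he1
  have hrec : ∀ n, Φ (n + 1) ≤ d * lam ^ 2 * Φ n - (d - 1) * lam ^ 2 * C.eta * E2 n := by
    intro n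
    have := chain_combine h0 h1 C (reg d n) d hd le_rfl
    have e : reg d (n + 1) = GTree.node d (fun _ => reg d n) := rfl
    rw [hΦ, hE2]
    simp only
    rw [e]
    linarith
  have he1Φ : ∀ n, e1 n ≤ Φ n := fun n => EF_mono C.lower h0 h1 _
  have he1nn : ∀ n, 0 ≤ e1 n := fun n => EF_nonneg (fun x _ => sq_nonneg' x) h0 h1 _
  have hΦnn : ∀ n, 0 ≤ Φ n := fun n => (he1nn n).trans (he1Φ n)
  have hE2nn : ∀ n, e1 n ^ 2 ≤ E2 n := fun n => EF_sq_le h0 h1 _
  have hE2nn' : ∀ n, 0 ≤ E2 n := fun n => (sq_nonneg _).trans (hE2nn n)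
  have hd' : (2:ℝ) ≤ d := by exact_mod_cast hd
  -- `e1` tends to zero
  have he1lim : Tendsto e1 atTop (𝓝 0) := by
    rcases h0.eq_or_lt with hl | hl
    · rw [← tendsto_add_atTop_iff_nat 1]
      have : ∀ n, e1 (n + 1) = 0 := by
        intro n
        have h3 := hrec n
        have hl2 : lam ^ 2 = 0 := by rw [← hl]; norm_num
        rw [hl2] at h3
        simp only [mul_zero, zero_mul, sub_zero] at h3
        exact le_antisymm ((he1Φ _).trans h3) (he1nn _)
      simp only [this]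
      exact tendsto_const_nhds
    · set c := (d - 1) * lam ^ 2 * C.eta with hc
      have hcpos : 0 < c := by
        have := C.eta_pos
        have : (0:ℝ) < d - 1 := by linarith
        positivity
      have hdec : ∀ n, c * E2 n ≤ Φ n - Φ (n + 1) := by
        intro n
        have h3 := hrec n
        have h4 : d * lam ^ 2 * Φ n ≤ Φ n := by
          have := mul_le_mul_of_nonneg_right h2 (hΦnn n)
          linarith
        linarith
      have hanti : Antitone Φ := by
        apply antitone_nat_of_succ_le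
        intro n
        have := hdec n
        have := mul_nonneg hcpos.le (hE2nn' n)
        linarith
      have hlim := tendsto_atTop_ciInf hanti ⟨0, by rintro _ ⟨n, rfl⟩; exact hΦnn n⟩
      have hlim2 := hlim.sub (hlim.comp (tendsto_add_atTop_nat 1))
      rw [sub_self] at hlim2
      have hE2lim : Tendsto (fun n => c * E2 n) atTop (𝓝 0) :=
        squeeze_zero (fun n => mul_nonneg hcpos.le (hE2nn' n)) hdec hlim2
      have hE2lim' : Tendsto E2 atTop (𝓝 0) := by
        have := hE2lim.const_mul c⁻¹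
        simp only [mul_zero] at this
        refine this.congr (fun n => ?_)
        field_simp
      have hsq : Tendsto (fun n => e1 n ^ 2) atTop (𝓝 0) :=
        squeeze_zero (fun n => sq_nonneg _) hE2nn hE2lim'
      have h5 := hsq.sqrt
      rw [Real.sqrt_zero] at h5
      refine h5.congr (fun n => ?_)
      exact Real.sqrt_sq (he1nn n)
  have hb : ∀ n, 4 * aReg 3 d lam n ^ 2 ≤ e1 n := fun n => advantage_sq_le h0 h1 _
  have hann : ∀ n, 0 ≤ aReg 3 d lam n := fun n => advantage_nonneg h0 h1 _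
  have hsq : Tendsto (fun n => 4 * aReg 3 d lam n ^ 2) atTop (𝓝 0) :=
    squeeze_zero (fun n => by positivity) hb he1lim
  have h5 := (hsq.const_mul (1 / 4)).sqrt
  rw [mul_zero, Real.sqrt_zero] at h5
  refine h5.congr (fun n => ?_)
  have : 1 / 4 * (4 * aReg 3 d lam n ^ 2) = aReg 3 d lam n ^ 2 := by ring
  rw [this, Real.sqrt_sq (hann n)]

end Vale.Agent.P154
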