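import Vale.Agent.P154.UniFin

/-!
# P154: the universal inequalities near the uniform distribution
-/

namespace Vale.Agent.P154.Uni

open Vale.Agent.P154.Near

lemma near_bounds {x : Fin 3 → ℝ} (hx : Simp x) (h : ∀ i, |x i - 1| ≤ 1 / 10) :
    ∃ r : ℝ, r ≤ 3 / 20 ∧ (∀ k, |x k - 1| ≤ r) ∧ 0 ≤ sq x ∧ sq x ≤ 1 / 150 ∧
      |cu x| ≤ sq x / 17 ∧ r ^ 7 ≤ sq x ^ 2 / 250 := by
  obtain ⟨hs0, _, hts, _⟩ := dom_sq_cu hx
  obtain ⟨_, hm⟩ := hx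
  unfold mean at hm
  obtain ⟨j, hj⟩ : ∃ j : Fin 3, ∀ i, |x i - 1| ≤ |x j - 1| := by
    obtain ⟨j, _, hj⟩ := Finset.exists_max_image Finset.univ (fun i : Fin 3 => |x i - 1|)
      ⟨0, Finset.mem_univ _⟩
    exact ⟨j, fun i => hj i (Finset.mem_univ _)⟩
  set r := |x j - 1| with hr
  have hr0 : 0 ≤ r := abs_nonneg _
  have hr1 : r ≤ 1 / 10 := h j
  have hr2 : r ^ 2 = (x j - 1) ^ 2 := by rw [hr, sq_abs]
  have hs : sq x = ((x 0 - 1)^2 + (x 1 - 1)^2 + (x 2 - 1)^2) / 3 := rfl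
  have hc' : x 2 - 1 = -(x 0 - 1) - (x 1 - 1) := by linarith
  have key1 : r ^ 2 ≤ 2 * sq x := by
    rw [hr2, hs, hc']
    fin_cases j
    · simp only [Fin.zero_eta]
      nlinarith [sq_nonneg ((x 0 - 1) + 2 * (x 1 - 1))]
    · simp only [Fin.mk_one]
      nlinarith [sq_nonneg ((x 1 - 1) + 2 * (x 0 - 1))]
    · simp only [Fin.reduceFinMk]
      rw [hc']
      nlinarith [sq_nonneg ((x 0 - 1) - (x 1 - 1))]
  have key2 : 3 / 2 * sq x ≤ r ^ 2 := by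
    obtain ⟨a1, a2⟩ := abs_le.mp (hj 0)
    obtain ⟨b1, b2⟩ := abs_le.mp (hj 1)
    obtain ⟨c1, c2⟩ := abs_le.mp (hj 2)
    rw [hc'] at c1 c2
    rw [hs, hc']
    generalize x 0 - 1 = a at *
    generalize x 1 - 1 = b at *
    rcases le_total 0 a with ha | ha <;> rcases le_total 0 b with hb | hb
    · nlinarith [mul_nonneg (sub_nonneg.mpr c2) (sub_nonneg.mpr c1), mul_nonneg ha hb]
    · rcases le_total 0 (a + b) with hab | hab
      · nlinarith [mul_nonneg ha (neg_nonneg.mpr hb), mul_nonneg hab (neg_nonneg.mpr hb),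
          mul_nonneg (sub_nonneg.mpr a2) (by linarith : 0 ≤ r + a)]
      · nlinarith [mul_nonneg ha (neg_nonneg.mpr hb), mul_nonneg (neg_nonneg.mpr hab) ha,
          mul_nonneg (by linarith : 0 ≤ r + b) (by linarith : 0 ≤ r - b)]
    · rcases le_total 0 (a + b) with hab | hab
      · nlinarith [mul_nonneg hb (neg_nonneg.mpr ha), mul_nonneg hab (neg_nonneg.mpr ha),
          mul_nonneg (sub_nonneg.mpr b2) (by linarith : 0 ≤ r + b)]
      · nlinarith [mul_nonneg hb (neg_nonneg.mpr ha), mul_nonneg (neg_nonneg.mpr hab) hb,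
          mul_nonneg (by linarith : 0 ≤ r + a) (by linarith : 0 ≤ r - a)]
    · nlinarith [mul_nonneg (sub_nonneg.mpr c2) (sub_nonneg.mpr c1),
        mul_nonneg (neg_nonneg.mpr ha) (neg_nonneg.mpr hb)]
  have hrr : r ^ 2 ≤ 1 / 100 := by nlinarith
  refine ⟨r, by linarith, hj, hs0, by linarith, ?_, ?_⟩
  · apply abs_le_of_sq_le_sq _ (by linarith)
    have : sq x ^ 3 ≤ sq x ^ 2 * (1 / 150) := by
      have e : sq x ^ 3 = sq x ^ 2 * sq x := by ring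
      rw [e]
      exact mul_le_mul_of_nonneg_left (by linarith) (sq_nonneg _)
    nlinarith [sq_nonneg (sq x)]
  · have h4 : r ^ 4 ≤ (2 * sq x) ^ 2 := by
      have e : r ^ 4 = (r ^ 2) ^ 2 := by ring
      rw [e]
      exact pow_le_pow_left₀ (sq_nonneg _) key1 2
    have h3 : r ^ 3 ≤ (1 / 10) ^ 3 := pow_le_pow_left₀ hr0 hr1 3
    calc r ^ 7 = r ^ 3 * r ^ 4 := by ring
      _ ≤ (1 / 10) ^ 3 * (2 * sq x) ^ 2 :=
        mul_le_mul h3 h4 (by positivity) (by norm_num)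
      _ = sq x ^ 2 / 250 := by ring

lemma P23 {x : Fin 3 → ℝ} (hx : Simp x) : P2 (fun k => x k - 1) = 3 * sq x ∧
    P3 (fun k => x k - 1) = 3 * cu x ∧ (x 0 - 1) + (x 1 - 1) + (x 2 - 1) = 0 := by
  obtain ⟨_, hm⟩ := hx
  unfold mean at hm
  refine ⟨by unfold P2 sq; ring, ?_, by linarith⟩
  have e : x 2 = 3 - x 0 - x 1 := by linarith
  unfold P3 cu
  simp only
  rw [e]
  ring

lemma near_exp {x : Fin 3 → ℝ} (hx : Simp x) (h : ∀ i, |x i - 1| ≤ 1 / 10) :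
    0 ≤ sq x ∧ sq x ≤ 1 / 150 ∧ |cu x| ≤ sq x / 17 ∧
    |phiR x - (37 / 50 * sq x - 43 / 75 * cu x + 241 / 625 * sq x ^ 2 -
      1967 / 3750 * (sq x * cu x) + 580417 / 1875000 * sq x ^ 3 +
      242659 / 1406250 * cu x ^ 2)| ≤ 1 / 375 * sq x ^ 2 ∧
    |phiC x - (87 / 200 * sq x - 87 / 400 * cu x + 27231 / 160000 * sq x ^ 2 -
      64293 / 320000 * (sq x * cu x) + 13411079 * 3 / 320000000 * sq x ^ 3 +
      4868433 / 80000000 * cu x ^ 2)| ≤ 9 / 12500 * sq x ^ 2 := by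
  obtain ⟨r, hr, hk, hs0, hs1, ht, hr7⟩ := near_bounds hx h
  obtain ⟨e2, e3, e0⟩ := P23 hx
  have hfun : (fun k => 1 + (x k - 1)) = x := by funext k; ring
  have hR := nearR (y := fun k => x k - 1) e0 hr hk
  have hC := nearC (y := fun k => x k - 1) e0 hr hk
  rw [hfun, e2, e3] at hR hC
  refine ⟨hs0, hs1, ht, ?_, ?_⟩
  · have e : phiR x - (37 / 50 * sq x - 43 / 75 * cu x + 241 / 625 * sq x ^ 2 -
      1967 / 3750 * (sq x * cu x) + 580417 / 1875000 * sq x ^ 3 +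
      242659 / 1406250 * cu x ^ 2) = 1 - gE (1 / 3) (2 / 5) x - (37 / 150 * (3 * sq x) -
      43 / 225 * (3 * cu x) + 241 / 5625 * (3 * sq x) ^ 2 - 1967 / 33750 * ((3 * sq x) * (3 * cu x))
      + 580417 / 50625000 * (3 * sq x) ^ 3 + 242659 / 12656250 * (3 * cu x) ^ 2) := by
      unfold phiR; ring
    rw [e]
    refine hR.trans ?_
    linarith
  · have e : phiC x - (87 / 200 * sq x - 87 / 400 * cu x + 27231 / 160000 * sq x ^ 2 -
      64293 / 320000 * (sq x * cu x) + 13411079 * 3 / 320000000 * sq x ^ 3 +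
      4868433 / 80000000 * cu x ^ 2) = 1 - gE (1 / 2) (1 / 5) x - (29 / 200 * (3 * sq x) -
      29 / 400 * (3 * cu x) + 9077 / 480000 * (3 * sq x) ^ 2 -
      21431 / 960000 * ((3 * sq x) * (3 * cu x)) + 13411079 / 2880000000 * (3 * sq x) ^ 3
      + 540937 / 80000000 * (3 * cu x) ^ 2) := by
      unfold phiC; ring
    rw [e]
    refine hC.trans ?_
    linarith

lemma st_bounds {s t : ℝ} (hs0 : 0 ≤ s) (hs1 : s ≤ 1 / 150) (ht : |t| ≤ s / 17) :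
    |s * t| ≤ s ^ 2 / 17 ∧ t ^ 2 ≤ s ^ 2 / 289 ∧ 0 ≤ s ^ 3 ∧ s ^ 3 ≤ s ^ 2 / 150 ∧ 0 ≤ t ^ 2 := by
  obtain ⟨h1, h2⟩ := abs_le.mp ht
  refine ⟨?_, ?_, by positivity, ?_, sq_nonneg _⟩
  · rw [abs_mul, abs_of_nonneg hs0]
    have := mul_le_mul_of_nonneg_left ht hs0
    linarith
  · nlinarith
  · have e : s ^ 3 = s ^ 2 * s := by ring
    rw [e]
    have := mul_le_mul_of_nonneg_left hs1 (sq_nonneg s)
    linarith

theorem nearU1 {x : Fin 3 → ℝ} (hx : Simp x) (h : ∀ i, |x i - 1| ≤ 1 / 10) :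
    61 / 150 * sq x + 109 / 2000 * sq x ^ 2 + 9 / 400 * (sq x * cu x) ≤
      rho * phiC x - phiR x := by
  obtain ⟨hs0, hs1, ht, hR, hC⟩ := near_exp hx h
  obtain ⟨h1, h2, h3, h4, h5⟩ := st_bounds hs0 hs1 ht
  obtain ⟨h11, h12⟩ := abs_le.mp h1
  obtain ⟨hR1, hR2⟩ := abs_le.mp hR
  obtain ⟨hC1, hC2⟩ := abs_le.mp hC
  have := sq_nonneg (sq x)
  unfold rho
  linarith

theorem nearU2C {x : Fin 3 → ℝ} (hx : Simp x) (h : ∀ i, |x i - 1| ≤ 1 / 10) :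
    rho * phiC x ≤ 86 / 75 * sq x - 43 / 75 * cu x + 907 / 2000 * sq x ^ 2 -
    273 / 500 * (sq x * cu x) + 633 / 1000 * sq x ^ 3 + 211 / 500 * cu x ^ 2 := by
  obtain ⟨hs0, hs1, ht, hR, hC⟩ := near_exp hx h
  obtain ⟨h1, h2, h3, h4, h5⟩ := st_bounds hs0 hs1 ht
  obtain ⟨h11, h12⟩ := abs_le.mp h1
  obtain ⟨hC1, hC2⟩ := abs_le.mp hC
  have := sq_nonneg (sq x)
  unfold rho
  linarith

theorem nearU2R {x : Fin 3 → ℝ} (hx : Simp x) (h : ∀ i, |x i - 1| ≤ 1 / 10) :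
    37 / 50 * sq x - 43 / 75 * cu x + 179 / 500 * sq x ^ 2 -
    541 / 1000 * (sq x * cu x) + 31 / 50 * sq x ^ 3 + 2 / 5 * cu x ^ 2 ≤ phiR x := by
  obtain ⟨hs0, hs1, ht, hR, hC⟩ := near_exp hx h
  obtain ⟨h1, h2, h3, h4, h5⟩ := st_bounds hs0 hs1 ht
  obtain ⟨h11, h12⟩ := abs_le.mp h1
  obtain ⟨hR1, hR2⟩ := abs_le.mp hR
  have := sq_nonneg (sq x)
  linarith

end Vale.Agent.P154.Uni
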