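import Vale.Agent.P154.MuThree
import Vale.Agent.P154.NearRC

/-!
# P154: universal inequalities for negative `lam` and the reduction to a numerical problem

`phiC`, `phiR`: the functionals; `U1`, `U2C`, `U2R`: three inequalities on the simplex (proved
elsewhere); `Good G Y l b`: the numerical problem in the parameters `l = -lam`, `b = d m`.
-/

namespace Vale.Agent.P154.Uni

open Vale.Agent.P154.Near Vale.Agent.P154.Mu

/-- the test functional -/
noncomputable def phiC (x : Fin 3 → ℝ) : ℝ := 1 - gE (1 / 2) (1 / 5) x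

/-- the reference functional -/
noncomputable def phiR (x : Fin 3 → ℝ) : ℝ := 1 - gE (1 / 3) (2 / 5) x

/-- the multiplier -/
noncomputable def rho : ℝ := 688 / 261

/-- first universal inequality -/
def U1 : Prop := ∀ x : Fin 3 → ℝ, Simp x →
  61 / 150 * sq x + 109 / 2000 * sq x ^ 2 + 9 / 400 * (sq x * cu x) ≤ rho * phiC x - phiR x

/-- second universal inequality, test functional -/
def U2C : Prop := ∀ x : Fin 3 → ℝ, Simp x → (∀ i, x i ≤ 4 / 3) →
  rho * phiC x ≤ 86 / 75 * sq x - 43 / 75 * cu x + 907 / 2000 * sq x ^ 2 -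
    273 / 500 * (sq x * cu x) + 633 / 1000 * sq x ^ 3 + 211 / 500 * cu x ^ 2

/-- second universal inequality, reference functional -/
def U2R : Prop := ∀ x : Fin 3 → ℝ, Simp x → (∀ i, x i ≤ 4 / 3) →
  37 / 50 * sq x - 43 / 75 * cu x + 179 / 500 * sq x ^ 2 -
    541 / 1000 * (sq x * cu x) + 31 / 50 * sq x ^ 3 + 2 / 5 * cu x ^ 2 ≤ phiR x

/-- the polynomial part of the certificate -/
noncomputable def P1 (l q mu s t : ℝ) : ℝ :=
  (61 / 150 - 86 / 75 * q + 37 / 50 * mu) * s - 43 / 75 * l * (q - mu) * t +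
  (109 / 2000 - l ^ 2 * (907 / 2000 * q - 179 / 500 * mu)) * s ^ 2 +
  (9 / 400 - l ^ 3 * (273 / 500 * q - 541 / 1000 * mu)) * (s * t) -
  l ^ 4 * (633 / 1000 * q - 31 / 50 * mu) * s ^ 3 - l ^ 4 * (211 / 500 * q - 2 / 5 * mu) * t ^ 2

/-- the range of `(sq x, cu x)` on the simplex -/
def Dom (s t : ℝ) : Prop := 0 ≤ s ∧ s ≤ 2 ∧ t ^ 2 ≤ s ^ 3 / 2 ∧ 3 / 2 * s - 1 ≤ t

/-- the largest value of `d * phiR (ch (-l) x)` -/
noncomputable def bmax (l : ℝ) : ℝ :=
  37 / 25 + 86 / 75 * l + 399 / 250 * l ^ 2 + 1137 / 500 * l ^ 3 + 844 / 125 * l ^ 4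

/-- the numerical problem: `G` is the generating function in the variable `y = d s`
(`(1 - y / d) ^ d` or `exp (- y)`), `Y` the range on which the linear minorant is needed -/
def Good (G : ℝ → ℝ) (Y l b : ℝ) : Prop := ∃ q A mu c : ℝ, 0 < c ∧ 0 ≤ mu ∧ mu ≤ q ∧ q ≤ 1 ∧
  (∀ y, 0 ≤ y → y ≤ Y → q * (A - y) ≤ G y) ∧
  ∀ s t, Dom s t → c ≤ -rho * (1 - q * A) + 1 - G b - mu * b + P1 l q mu s t

end Vale.Agent.P154.Uni
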