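import Vale.Agent.P154.Uni0

/-!
# P154: reduction of the two-variable inequality to three one-variable polynomials
-/

namespace Vale.Agent.P154.Uni

lemma concave_bd {a b c T1 T2 t : ℝ} (hc : 0 ≤ c) (ht1 : T1 ≤ t) (ht2 : t ≤ T2)
    (h1 : 0 ≤ a + b * T1 - c * T1 ^ 2) (h2 : 0 ≤ a + b * T2 - c * T2 ^ 2) :
    0 ≤ a + b * t - c * t ^ 2 := by
  rcases (ht1.trans ht2).eq_or_lt with h | h
  · have : t = T1 := le_antisymm (by rw [h]; exact ht2) ht1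
    rw [this]; exact h1
  · have hpos : 0 < T2 - T1 := by linarith
    have e : (a + b * t - c * t ^ 2) * (T2 - T1) =
        (a + b * T1 - c * T1 ^ 2) * (T2 - t) + (a + b * T2 - c * T2 ^ 2) * (t - T1) +
          c * ((t - T1) * (T2 - t) * (T2 - T1)) := by ring
    have h3 : 0 ≤ (a + b * t - c * t ^ 2) * (T2 - T1) := by
      rw [e]
      have := mul_nonneg h1 (sub_nonneg.mpr ht2)
      have := mul_nonneg h2 (sub_nonneg.mpr ht1)
      have := mul_nonneg hc (mul_nonneg (mul_nonneg (sub_nonneg.mpr ht1) (sub_nonneg.mpr ht2))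
        hpos.le)
      linarith
    exact nonneg_of_mul_nonneg_left h3 hpos

/-- the polynomial on the branch `t = 2 r ^ 3` -/
noncomputable def plusP (K l q mu r : ℝ) : ℝ :=
  K + 2 * (61 / 150 - 86 / 75 * q + 37 / 50 * mu) * r ^ 2 - 2 * (43 / 75 * l * (q - mu)) * r ^ 3 +
  4 * (109 / 2000 - l ^ 2 * (907 / 2000 * q - 179 / 500 * mu)) * r ^ 4 +
  4 * (9 / 400 - l ^ 3 * (273 / 500 * q - 541 / 1000 * mu)) * r ^ 5 -
  l ^ 4 * (8 * (633 / 1000 * q - 31 / 50 * mu) + 4 * (211 / 500 * q - 2 / 5 * mu)) * r ^ 6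

/-- the polynomial on the branch `t = - 2 r ^ 3` -/
noncomputable def minusP (K l1 l2 q mu r : ℝ) : ℝ :=
  K + 2 * (61 / 150 - 86 / 75 * q + 37 / 50 * mu) * r ^ 2 + 2 * (43 / 75 * l1 * (q - mu)) * r ^ 3 +
  4 * (109 / 2000 - l2 ^ 2 * (907 / 2000 * q - 179 / 500 * mu)) * r ^ 4 -
  4 * (9 / 400 - l1 ^ 3 * (273 / 500 * q - 541 / 1000 * mu)) * r ^ 5 -
  l2 ^ 4 * (8 * (633 / 1000 * q - 31 / 50 * mu) + 4 * (211 / 500 * q - 2 / 5 * mu)) * r ^ 6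

/-- the polynomial on the branch `t = 0` -/
noncomputable def zeroP (K l q mu s : ℝ) : ℝ :=
  K + (61 / 150 - 86 / 75 * q + 37 / 50 * mu) * s +
  (109 / 2000 - l ^ 2 * (907 / 2000 * q - 179 / 500 * mu)) * s ^ 2 -
  l ^ 4 * (633 / 1000 * q - 31 / 50 * mu) * s ^ 3

lemma P1_plus (K l l2 q mu r : ℝ) : K + P1 l q mu (2 * r ^ 2) (2 * r ^ 3) = plusP K l2 q mu r +
    86 / 75 * ((l2 - l) * (q - mu) * r ^ 3) +
    4 * ((l2 ^ 2 - l ^ 2) * (907 / 2000 * q - 179 / 500 * mu) * r ^ 4) +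
    4 * ((l2 ^ 3 - l ^ 3) * (273 / 500 * q - 541 / 1000 * mu) * r ^ 5) +
    (l2 ^ 4 - l ^ 4) * (8 * (633 / 1000 * q - 31 / 50 * mu) + 4 * (211 / 500 * q - 2 / 5 * mu)) *
      r ^ 6 := by
  unfold P1 plusP
  ring

lemma P1_minus (K l l1 l2 q mu r : ℝ) : K + P1 l q mu (2 * r ^ 2) (-(2 * r ^ 3)) =
    minusP K l1 l2 q mu r +
    86 / 75 * ((l - l1) * (q - mu) * r ^ 3) +
    4 * ((l2 ^ 2 - l ^ 2) * (907 / 2000 * q - 179 / 500 * mu) * r ^ 4) +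
    4 * ((l ^ 3 - l1 ^ 3) * (273 / 500 * q - 541 / 1000 * mu) * r ^ 5) +
    (l2 ^ 4 - l ^ 4) * (8 * (633 / 1000 * q - 31 / 50 * mu) + 4 * (211 / 500 * q - 2 / 5 * mu)) *
      r ^ 6 := by
  unfold P1 minusP
  ring

lemma P1_zero (K l l2 q mu s : ℝ) : K + P1 l q mu s 0 = zeroP K l2 q mu s +
    (l2 ^ 2 - l ^ 2) * (907 / 2000 * q - 179 / 500 * mu) * s ^ 2 +
    (l2 ^ 4 - l ^ 4) * (633 / 1000 * q - 31 / 50 * mu) * s ^ 3 := by
  unfold P1 zeroP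
  ring

lemma P1_t (K l q mu s t : ℝ) : K + P1 l q mu s t =
    (K + (61 / 150 - 86 / 75 * q + 37 / 50 * mu) * s +
      (109 / 2000 - l ^ 2 * (907 / 2000 * q - 179 / 500 * mu)) * s ^ 2 -
      l ^ 4 * (633 / 1000 * q - 31 / 50 * mu) * s ^ 3) +
      (-(43 / 75 * l * (q - mu)) + (9 / 400 - l ^ 3 * (273 / 500 * q - 541 / 1000 * mu)) * s) * t -
      l ^ 4 * (211 / 500 * q - 2 / 5 * mu) * t ^ 2 := by
  unfold P1
  ring

theorem P1_lower {l l1 l2 q mu K : ℝ} (hl1 : 0 ≤ l1) (h1 : l1 ≤ l) (h2 : l ≤ l2) (h0 : 0 ≤ mu)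
    (hmq : mu ≤ q) (hp : ∀ r, 0 ≤ r → r ≤ 1 → 0 ≤ plusP K l2 q mu r)
    (hm : ∀ r, 0 ≤ r → r ≤ 3 / 5 → 0 ≤ minusP K l1 l2 q mu r)
    (hz : ∀ s, 0 ≤ s → s ≤ 2 → 0 ≤ zeroP K l2 q mu s) :
    ∀ s t, Dom s t → 0 ≤ K + P1 l q mu s t := by
  intro s t ⟨hs0, hs2, hts, hts2⟩
  have hl : 0 ≤ l := hl1.trans h1
  obtain ⟨r, hr0, hr⟩ : ∃ r : ℝ, 0 ≤ r ∧ s = 2 * r ^ 2 := by
    refine ⟨Real.sqrt (s / 2), Real.sqrt_nonneg _, ?_⟩
    rw [Real.sq_sqrt (by linarith)]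
    ring
  have hr1 : r ≤ 1 := by
    by_contra h
    push Not at h
    nlinarith
  have hr3 : 0 ≤ r ^ 3 := pow_nonneg hr0 3
  have htle : |t| ≤ 2 * r ^ 3 := by
    apply abs_le_of_sq_le_sq _ (by linarith)
    rw [hr] at hts
    calc t ^ 2 ≤ (2 * r ^ 2) ^ 3 / 2 := hts
      _ = (2 * r ^ 3) ^ 2 := by ring
  obtain ⟨ht1, ht2⟩ := abs_le.mp htle
  have hA2 : 0 ≤ 907 / 2000 * q - 179 / 500 * mu := by linarith
  have hA3 : 0 ≤ 273 / 500 * q - 541 / 1000 * mu := by linarith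
  have hA4 : 0 ≤ 633 / 1000 * q - 31 / 50 * mu := by linarith
  have hA5 : 0 ≤ 211 / 500 * q - 2 / 5 * mu := by linarith
  have hX : 0 ≤ q - mu := by linarith
  have hc : 0 ≤ l ^ 4 * (211 / 500 * q - 2 / 5 * mu) := mul_nonneg (pow_nonneg hl 4) hA5
  have hd1 : 0 ≤ l2 - l := by linarith
  have hd2 : 0 ≤ l2 ^ 2 - l ^ 2 := sub_nonneg.mpr (pow_le_pow_left₀ hl h2 2)
  have hd3 : 0 ≤ l2 ^ 3 - l ^ 3 := sub_nonneg.mpr (pow_le_pow_left₀ hl h2 3)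
  have hd4 : 0 ≤ l2 ^ 4 - l ^ 4 := sub_nonneg.mpr (pow_le_pow_left₀ hl h2 4)
  have he1 : 0 ≤ l - l1 := by linarith
  have he3 : 0 ≤ l ^ 3 - l1 ^ 3 := sub_nonneg.mpr (pow_le_pow_left₀ hl1 h1 3)
  have hA : 0 ≤ 8 * (633 / 1000 * q - 31 / 50 * mu) + 4 * (211 / 500 * q - 2 / 5 * mu) := by
    linarith
  have key2 : 0 ≤ K + P1 l q mu s (2 * r ^ 3) := by
    rw [hr, P1_plus K l l2 q mu r]
    have h := hp r hr0 hr1
    have f1 := mul_nonneg (mul_nonneg hd1 hX) hr3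
    have f2 := mul_nonneg (mul_nonneg hd2 hA2) (pow_nonneg hr0 4)
    have f3 := mul_nonneg (mul_nonneg hd3 hA3) (pow_nonneg hr0 5)
    have f4 := mul_nonneg (mul_nonneg hd4 hA) (pow_nonneg hr0 6)
    linarith
  rw [P1_t]
  rw [P1_t] at key2
  rcases le_total (2 / 3) s with h | h
  · have ht0 : 0 ≤ t := by linarith
    have keyz : 0 ≤ K + P1 l q mu s 0 := by
      rw [P1_zero K l l2 q mu s]
      have h := hz s hs0 hs2
      have f2 := mul_nonneg (mul_nonneg hd2 hA2) (pow_nonneg hs0 2)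
      have f4 := mul_nonneg (mul_nonneg hd4 hA4) (pow_nonneg hs0 3)
      linarith
    rw [P1_t] at keyz
    exact concave_bd hc ht0 ht2 keyz key2
  · have hr35 : r ≤ 3 / 5 := by
      by_contra h'
      push Not at h'
      nlinarith
    have keym : 0 ≤ K + P1 l q mu s (-(2 * r ^ 3)) := by
      rw [hr, P1_minus K l l1 l2 q mu r]
      have h := hm r hr0 hr35
      have f1 := mul_nonneg (mul_nonneg he1 hX) hr3
      have f2 := mul_nonneg (mul_nonneg hd2 hA2) (pow_nonneg hr0 4)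
      have f3 := mul_nonneg (mul_nonneg he3 hA3) (pow_nonneg hr0 5)
      have f4 := mul_nonneg (mul_nonneg hd4 hA) (pow_nonneg hr0 6)
      linarith
    rw [P1_t] at keym
    exact concave_bd hc ht1 ht2 keym key2

end Vale.Agent.P154.Uni
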