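import Mathlib

/-!
# P154: a checker for positivity of one-variable integer polynomials on intervals

Homogeneous polynomials in two nonnegative variables `α`, `β` are lists `[h_0, ..., h_n]`
standing for `∑ h_j α ^ (n - j) β ^ j`.
-/

namespace Vale.Agent.P154.Uni

/-- value of a homogeneous polynomial -/
noncomputable def ev2 : List Int → ℝ → ℝ → ℝ
  | [], _, _ => 0
  | (h :: l), a, b => (h : ℝ) * a ^ l.length + b * ev2 l a b

/-- value of a one-variable polynomial (coefficients of increasing degree) -/
noncomputable def ev1 : List Int → ℝ → ℝ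
  | [], _ => 0
  | (h :: l), x => (h : ℝ) + x * ev1 l x

/-- sum of two coefficient lists -/
def addL : List Int → List Int → List Int
  | (a :: l), (b :: m) => (a + b) :: addL l m
  | _, _ => []

/-- scalar multiple -/
def smL (k : Int) : List Int → List Int
  | [] => []
  | (a :: l) => (k * a) :: smL k l

/-- append zero -/
def apz : List Int → List Int
  | [] => [0]
  | (a :: l) => a :: apz l

/-- multiplication by `u α + v β` -/
def mulLin (u v : Int) (l : List Int) : List Int := addL (apz (smL u l)) (0 :: smL v l)

/-- `(Dn (α + β)) ^ k` -/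
def pw (dn : Int) : Nat → List Int
  | 0 => [1]
  | (k + 1) => mulLin dn dn (pw dn k)

/-- substitution `x = (u α + v β) / (dn (α + β))`, multiplied by `(dn (α + β)) ^ n` -/
def comp (dn u v : Int) : List Int → List Int
  | [] => []
  | [c] => [c]
  | (c :: l) => addL (smL c (pw dn l.length)) (mulLin u v (comp dn u v l))

/-- all coefficients are nonnegative -/
def allNN : List Int → Bool
  | [] => true
  | (a :: l) => decide (0 ≤ a) && allNN l

/-- positivity on `[u / dn, R / dn]` with the given break points -/
def posB (dn : Int) (c : List Int) : Int → List Int → Int → Bool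
  | u, [], R => decide (R ≤ u) 
  | u, (v :: l), R => decide (u < v) && allNN (comp dn u v c) && posB dn c v l R

lemma length_addL : ∀ (l m : List Int), l.length = m.length → (addL l m).length = l.length
  | [], [], _ => rfl
  | (a :: l), (b :: m), h => by
    simp only [addL, List.length_cons, Nat.add_right_cancel_iff] at h ⊢
    exact length_addL l m h
  | [], (_ :: _), h => by simp at h
  | (_ :: _), [], h => by simp at h

lemma ev2_addL (a b : ℝ) : ∀ (l m : List Int), l.length = m.length →
    ev2 (addL l m) a b = ev2 l a b + ev2 m a b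
  | [], [], _ => by simp [addL, ev2]
  | (x :: l), (y :: m), h => by
    have h' : l.length = m.length := by simpa using h
    simp only [addL, ev2]
    rw [ev2_addL a b l m h', length_addL l m h', ← h']
    push_cast
    ring
  | [], (_ :: _), h => by simp at h
  | (_ :: _), [], h => by simp at h

lemma length_smL (k : Int) : ∀ l : List Int, (smL k l).length = l.length
  | [] => rfl
  | (a :: l) => by simp [smL, length_smL k l]

lemma ev2_smL (k : Int) (a b : ℝ) : ∀ l : List Int, ev2 (smL k l) a b = k * ev2 l a b
  | [] => by simp [smL, ev2]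
  | (x :: l) => by
    simp only [smL, ev2, length_smL]
    rw [ev2_smL k a b l]
    push_cast
    ring

lemma length_apz : ∀ l : List Int, (apz l).length = l.length + 1
  | [] => rfl
  | (a :: l) => by simp [apz, length_apz l]

lemma ev2_apz (a b : ℝ) : ∀ l : List Int, ev2 (apz l) a b = a * ev2 l a b
  | [] => by simp [apz, ev2]
  | (x :: l) => by
    simp only [apz, ev2, length_apz]
    rw [ev2_apz a b l]
    ring

lemma length_mulLin (u v : Int) (l : List Int) : (mulLin u v l).length = l.length + 1 := by
  unfold mulLin
  rw [length_addL _ _ (by simp [length_apz, length_smL])]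
  simp [length_apz, length_smL]

lemma ev2_mulLin (u v : Int) (l : List Int) (a b : ℝ) :
    ev2 (mulLin u v l) a b = (u * a + v * b) * ev2 l a b := by
  unfold mulLin
  rw [ev2_addL a b _ _ (by simp [length_apz, length_smL]), ev2_apz, ev2_smL]
  simp only [ev2, length_smL, ev2_smL]
  push_cast
  ring

lemma length_pw (dn : Int) : ∀ k, (pw dn k).length = k + 1
  | 0 => rfl
  | (k + 1) => by
    rw [pw, length_mulLin, length_pw dn k]

lemma ev2_pw (dn : Int) (a b : ℝ) : ∀ k, ev2 (pw dn k) a b = (dn * (a + b)) ^ k
  | 0 => by simp [pw, ev2]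
  | (k + 1) => by
    rw [pw, ev2_mulLin, ev2_pw dn a b k]
    ring

lemma length_comp (dn u v : Int) : ∀ l : List Int, (comp dn u v l).length = l.length
  | [] => rfl
  | [c] => rfl
  | (c :: d :: l) => by
    rw [comp, length_addL]
    · simp [length_smL, length_pw]
    · rw [length_smL, length_pw, length_mulLin, length_comp dn u v (d :: l)]
    · simp

/-- `ev2 (comp c) = (dn (a + b)) ^ (deg c) * ev1 c x` if `dn (a + b) x = u a + v b` -/
lemma ev2_comp (dn u v : Int) {a b x : ℝ} (hx : dn * (a + b) * x = u * a + v * b) :
    ∀ l : List Int, ev2 (comp dn u v l) a b = (dn * (a + b)) ^ (l.length - 1) * ev1 l x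
  | [] => by simp [comp, ev2, ev1]
  | [c] => by simp [comp, ev2, ev1]
  | (c :: d :: l) => by
    rw [comp, ev2_addL, ev2_smL, ev2_pw, ev2_mulLin, ev2_comp dn u v hx (d :: l), ← hx]
    · simp only [List.length_cons, Nat.add_sub_cancel, ev1]
      ring
    · rw [length_smL, length_pw, length_mulLin, length_comp dn u v (d :: l)]
    · simp

lemma ev2_nonneg {a b : ℝ} (ha : 0 ≤ a) (hb : 0 ≤ b) : ∀ l : List Int, allNN l = true →
    0 ≤ ev2 l a b
  | [], _ => le_refl _
  | (x :: l), h => by
    simp only [allNN, Bool.and_eq_true, decide_eq_true_eq] at h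
    simp only [ev2]
    have h1 : (0 : ℝ) ≤ x := by exact_mod_cast h.1
    have := ev2_nonneg ha hb l h.2
    positivity

/-- **soundness of the positivity checker** -/
theorem posB_sound {dn : Int} (hdn : 0 < dn) (c : List Int) : ∀ (l : List Int) (u R : Int),
    posB dn c u l R = true → ∀ x : ℝ, (u : ℝ) < dn * x → dn * x ≤ R → 0 ≤ ev1 c x
  | [], u, R, h, x, hx1, hx2 => by
    simp only [posB, decide_eq_true_eq] at h
    exfalso
    have : (R : ℝ) ≤ u := by exact_mod_cast h
    linarith
  | (v :: l), u, R, h, x, hx1, hx2 => by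
    simp only [posB, Bool.and_eq_true, decide_eq_true_eq] at h
    obtain ⟨⟨huv, hnn⟩, hrec⟩ := h
    rcases le_or_gt (dn * x) (v : ℝ) with hv | hv
    · have huv' : (u : ℝ) < v := by exact_mod_cast huv
      have ha : 0 ≤ (v : ℝ) - dn * x := by linarith
      have hb : 0 ≤ dn * x - (u : ℝ) := by linarith
      have hx : (dn : ℝ) * (((v : ℝ) - dn * x) + (dn * x - (u : ℝ))) * x =
          u * ((v : ℝ) - dn * x) + v * (dn * x - (u : ℝ)) := by ring
      have h1 := ev2_nonneg ha hb _ hnn
      rw [ev2_comp dn u v hx c] at h1
      have hdn' : (0 : ℝ) < dn := by exact_mod_cast hdn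
      have hpos : (0 : ℝ) < (dn * (((v : ℝ) - dn * x) + (dn * x - (u : ℝ)))) ^ (c.length - 1) := by
        apply pow_pos
        apply mul_pos hdn'
        linarith
      exact nonneg_of_mul_nonneg_right h1 hpos
    · exact posB_sound hdn c l v R hrec x hv hx2

/-- starting at zero -/
theorem posB_zero {dn : Int} (hdn : 0 < dn) (c : List Int) (l : List Int) {R : Int}
    (h : posB dn c 0 l R = true) (h0 : 0 ≤ ev1 c 0) {x : ℝ} (hx : 0 ≤ x) (hx2 : dn * x ≤ R) :
    0 ≤ ev1 c x := by
  rcases hx.eq_or_lt with e | e
  · rw [← e]; exact h0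
  · refine posB_sound hdn c l 0 R h x ?_ hx2
    have hdn' : (0 : ℝ) < dn := by exact_mod_cast hdn
    push_cast
    exact mul_pos hdn' e

end Vale.Agent.P154.Uni
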