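import Vale.Agent.P154.Uni1
import Vale.Agent.P154.Uni2

/-!
# P154: the interval certificates
-/

namespace Vale.Agent.P154.Uni

/-- one interval of the parameter `b`; all numbers in units of `1 / S` -/
structure Itv where
  b1 : Int
  b2 : Int
  q : Int
  mu : Int
  a : Int
  k : Int
  g1 : Int
  g2 : Int
  bp : List Int
  bm : List Int
  bz : List Int

/-- `6000 S^5` times the coefficients of `plusP` -/
def plusL (S k l q mu : Int) : List Int :=
  [k * 6000 * S ^ 4, 0, 2 * (2440 * S ^ 5 - 6880 * q * S ^ 4 + 4440 * mu * S ^ 4),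
    -(2 * (3440 * l * (q - mu) * S ^ 3)),
    4 * (327 * S ^ 5 - l ^ 2 * (2721 * q - 2148 * mu) * S ^ 2),
    4 * (135 * S ^ 5 - l ^ 3 * (3276 * q - 3246 * mu) * S),
    -(l ^ 4 * (8 * (3798 * q - 3720 * mu) + 4 * (2532 * q - 2400 * mu)))]

/-- `6000 S^5` times the coefficients of `minusP` -/
def minusL (S k l1 l2 q mu : Int) : List Int :=
  [k * 6000 * S ^ 4, 0, 2 * (2440 * S ^ 5 - 6880 * q * S ^ 4 + 4440 * mu * S ^ 4),
    (2 * (3440 * l1 * (q - mu) * S ^ 3)),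
    4 * (327 * S ^ 5 - l2 ^ 2 * (2721 * q - 2148 * mu) * S ^ 2),
    -(4 * (135 * S ^ 5 - l1 ^ 3 * (3276 * q - 3246 * mu) * S)),
    -(l2 ^ 4 * (8 * (3798 * q - 3720 * mu) + 4 * (2532 * q - 2400 * mu)))]

/-- `6000 S^5` times the coefficients of `zeroP` -/
def zeroL (S k l q mu : Int) : List Int :=
  [k * 6000 * S ^ 4, 2440 * S ^ 5 - 6880 * q * S ^ 4 + 4440 * mu * S ^ 4,
    327 * S ^ 5 - l ^ 2 * (2721 * q - 2148 * mu) * S ^ 2,
    -(l ^ 4 * (3798 * q - 3720 * mu))]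

lemma ev1_plusL {S : Int} (hS : 0 < S) (k l q mu : Int) (r : ℝ) : ev1 (plusL S k l q mu) r =
    6000 * (S : ℝ) ^ 5 * plusP (k / S) (l / S) (q / S) (mu / S) r := by
  have h : (S : ℝ) ≠ 0 := by exact_mod_cast hS.ne'
  simp only [plusL, ev1, plusP]
  push_cast
  field_simp
  ring

lemma ev1_minusL {S : Int} (hS : 0 < S) (k l1 l2 q mu : Int) (r : ℝ) :
    ev1 (minusL S k l1 l2 q mu) r =
    6000 * (S : ℝ) ^ 5 * minusP (k / S) (l1 / S) (l2 / S) (q / S) (mu / S) r := by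
  have h : (S : ℝ) ≠ 0 := by exact_mod_cast hS.ne'
  simp only [minusL, ev1, minusP]
  push_cast
  field_simp
  ring

lemma ev1_zeroL {S : Int} (hS : 0 < S) (k l q mu : Int) (s : ℝ) : ev1 (zeroL S k l q mu) s =
    6000 * (S : ℝ) ^ 5 * zeroP (k / S) (l / S) (q / S) (mu / S) s := by
  have h : (S : ℝ) ≠ 0 := by exact_mod_cast hS.ne'
  simp only [zeroL, ev1, zeroP]
  push_cast
  field_simp
  ring

/-- the check of the three polynomials -/
def chkP (S l1 l2 : Int) (I : Itv) : Bool :=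
  posB 1000 (plusL S (I.k - 1) l2 I.q I.mu) 0 I.bp 1000 &&
  posB 1000 (minusL S (I.k - 1) l1 l2 I.q I.mu) 0 I.bm 600 &&
  posB 1000 (zeroL S (I.k - 1) l2 I.q I.mu) 0 I.bz 2000

/-- the check of the constant at one end point -/
def chkK (S n b g : Int) (I : Itv) : Bool :=
  decide (261 * S * n * I.k ≤ -688 * (S ^ 2 * n - I.q * (S * n + I.a * n - I.a)) +
    261 * S * n * (S - g) - 261 * n * I.mu * b)

/-- the check of the slope -/
def chkLine (S : Int) (n : Nat) (I : Itv) : Bool :=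
  decide (I.q * (S * n) ^ (n - 1) ≤ S * (S * n - I.a) ^ (n - 1))

/-- check of `exp (-b) ≤ g` -/
def chkExp (S : Int) (N : Nat) (b g : Int) : Bool :=
  decide (S * (S * N) ^ N ≤ g * (S * N + b) ^ N)

/-- the check of a reference value: `(1 - b / n) ^ n ≤ g` or `exp (-b) ≤ g` -/
def chkRef (S : Int) (ref : Option Nat) (b g : Int) : Bool :=
  match ref with
  | some n => decide (b ≤ S * n) && decide (S * (S * n - b) ^ n ≤ g * (S * n) ^ n)
  | none => chkExp S 1024 b g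

/-- the complete check of one interval -/
def chkI (S : Int) (n : Nat) (ref : Option Nat) (l1 l2 : Int) (I : Itv) : Bool :=
  decide (0 < I.b1) && decide (I.b1 ≤ I.b2) && decide (0 ≤ I.mu) && decide (I.mu ≤ I.q) &&
  decide (I.q ≤ S) && decide (0 ≤ I.a) && decide (I.a ≤ (n - 1) * S) && decide (1 < I.k) &&
  chkP S l1 l2 I && chkK S n I.b1 I.g1 I && chkK S n I.b2 I.g2 I && chkLine S n I &&
  chkRef S ref I.b1 I.g1 && chkRef S ref I.b2 I.g2

/-- the check of a group -/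
def chkG (S : Int) (n : Nat) (ref : Option Nat) (l1 l2 : Int) : Int → List Itv → Int → Bool
  | u, [], R => decide (R ≤ u)
  | u, (I :: l), R => decide (I.b1 ≤ u) && chkI S n ref l1 l2 I && chkG S n ref l1 l2 I.b2 l R

/-- Bernoulli: the tangent of `(1 - y / n) ^ n` -/
lemma line_pow {n : ℕ} (hn : 1 ≤ n) {a y : ℝ} (ha : a < n) (hy2 : y ≤ n) :
    (1 - a / n) ^ (n - 1) * ((1 + a - a / n) - y) ≤ (1 - y / n) ^ n := by
  have hn0 : (0 : ℝ) < n := by exact_mod_cast hn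
  set u := 1 - a / n with hu
  set v := 1 - y / n with hv
  have hu0 : 0 < u := by
    rw [hu, sub_pos, div_lt_one hn0]; exact ha
  have hv0 : 0 ≤ v := by
    rw [hv, sub_nonneg, div_le_one hn0]; exact hy2
  have h1 : 1 + (n : ℝ) * ((v - u) / u) ≤ (1 + (v - u) / u) ^ n := by
    apply one_add_mul_le_pow
    rw [le_div_iff₀ hu0]
    linarith
  have h2 : 1 + (v - u) / u = v / u := by field_simp; ring
  rw [h2, div_pow] at h1
  have hun : 0 < u ^ n := pow_pos hu0 n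
  rw [le_div_iff₀ hun] at h1
  refine le_trans (le_of_eq ?_) h1
  have e1 : u ^ n = u ^ (n - 1) * u := by
    rw [← pow_succ, Nat.sub_add_cancel hn]
  rw [e1]
  have e2 : (n : ℝ) * (v - u) = a - y := by
    rw [hv, hu]; field_simp; ring
  have e3 : (1 + (n : ℝ) * ((v - u) / u)) * (u ^ (n - 1) * u) =
      u ^ (n - 1) * (u + n * (v - u)) := by
    field_simp
  rw [e3, e2, hu]
  ring

lemma posB_scaled {S : Int} (hS : 0 < S) {c : List Int} {bl : List Int} {R : Int} {f : ℝ → ℝ}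
    (h : posB 1000 c 0 bl R = true) (he : ∀ r, ev1 c r = 6000 * (S : ℝ) ^ 5 * f r)
    (h0 : 0 ≤ f 0) {x : ℝ} (hx : 0 ≤ x) (hx2 : 1000 * x ≤ R) : 0 ≤ f x := by
  have hS' : (0 : ℝ) < S := by exact_mod_cast hS
  have h1 := posB_zero (by norm_num) c bl h (by rw [he]; positivity) hx (by push_cast; exact hx2)
  rw [he] at h1
  exact nonneg_of_mul_nonneg_right h1 (by positivity)

lemma chkP_sound {S : Int} (hS : 0 < S) {l1 l2 : Int} {I : Itv} (hk : 1 < I.k)
    (h0 : 0 ≤ I.mu) (hmq : I.mu ≤ I.q) (h : chkP S l1 l2 I = true) {l : ℝ}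
    (hl10 : 0 ≤ l1) (hl1 : (l1 / S : ℝ) ≤ l) (hl2 : l ≤ l2 / S) :
    ∀ s t, Dom s t → 0 ≤ ((I.k - 1 : Int) / S : ℝ) + P1 l (I.q / S) (I.mu / S) s t := by
  simp only [chkP, Bool.and_eq_true] at h
  obtain ⟨⟨hp, hm⟩, hz⟩ := h
  have hS' : (0 : ℝ) < S := by exact_mod_cast hS
  have hk' : (0 : ℝ) ≤ ((I.k - 1 : Int) / S : ℝ) := by
    apply div_nonneg _ hS'.le
    exact_mod_cast (by omega : (0 : Int) ≤ I.k - 1)
  refine P1_lower (l1 := l1 / S) (l2 := l2 / S) (div_nonneg (by exact_mod_cast hl10) hS'.le)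
    hl1 hl2 (div_nonneg (by exact_mod_cast h0) hS'.le) ?_ ?_ ?_ ?_
  · exact div_le_div_of_nonneg_right (by exact_mod_cast hmq) hS'.le
  · intro r hr hr1
    refine posB_scaled hS hp (f := plusP ((I.k - 1 : Int) / S : ℝ) (l2 / S) (I.q / S) (I.mu / S))
      (fun r => ev1_plusL hS _ _ _ _ r) ?_ hr (by push_cast; linarith)
    simpa [plusP] using hk'
  · intro r hr hr1
    refine posB_scaled hS hm
      (f := minusP ((I.k - 1 : Int) / S : ℝ) (l1 / S) (l2 / S) (I.q / S) (I.mu / S))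
      (fun r => ev1_minusL hS _ _ _ _ _ r) ?_ hr (by push_cast; linarith)
    simpa [minusP] using hk'
  · intro r hr hr1
    refine posB_scaled hS hz (f := zeroP ((I.k - 1 : Int) / S : ℝ) (l2 / S) (I.q / S) (I.mu / S))
      (fun r => ev1_zeroL hS _ _ _ _ r) ?_ hr (by push_cast; linarith)
    simpa [zeroP] using hk'

lemma chkK_sound {S : Int} (hS : 0 < S) {n : ℕ} (hn : 1 ≤ n) {b g : Int} {I : Itv}
    (h : chkK S n b g I = true) : ((I.k : ℝ) / S) ≤
      -rho * (1 - I.q / S * (1 + I.a / S - I.a / S / n)) + 1 - g / S - I.mu / S * (b / S) := by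
  simp only [chkK, decide_eq_true_eq] at h
  have hS' : (0 : ℝ) < S := by exact_mod_cast hS
  have hn' : (0 : ℝ) < n := by exact_mod_cast hn
  have h' : (261 * S * n * I.k : ℝ) ≤ -688 * (S ^ 2 * n - I.q * (S * n + I.a * n - I.a)) +
    261 * S * n * (S - g) - 261 * n * I.mu * b := by exact_mod_cast h
  have hpos : (0 : ℝ) < 261 * S ^ 2 * n := by positivity
  have e : (261 * S ^ 2 * n) * (-rho * (1 - I.q / S * (1 + I.a / S - I.a / S / n)) + 1 - g / S -
      I.mu / S * (b / S) - (I.k : ℝ) / S) = -688 * (S ^ 2 * n - I.q * (S * n + I.a * n - I.a)) +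
    261 * S * n * (S - g) - 261 * n * I.mu * b - 261 * S * n * I.k := by
    unfold rho
    field_simp
    ring
  have h2 : 0 ≤ (261 * (S : ℝ) ^ 2 * n) *
      (-rho * (1 - I.q / S * (1 + I.a / S - I.a / S / n)) + 1 - g / S -
      I.mu / S * (b / S) - (I.k : ℝ) / S) := by
    rw [e]; linarith
  have := nonneg_of_mul_nonneg_right h2 hpos
  linarith

lemma chkLine_sound {S : Int} (hS : 0 < S) {n : ℕ} (hn : 1 ≤ n) {I : Itv}
    (h : chkLine S n I = true) : ((I.q : ℝ) / S) ≤ (1 - I.a / S / n) ^ (n - 1) := by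
  simp only [chkLine, decide_eq_true_eq] at h
  have hS' : (0 : ℝ) < S := by exact_mod_cast hS
  have hn' : (0 : ℝ) < n := by exact_mod_cast hn
  have h' : (I.q * (S * n) ^ (n - 1) : ℝ) ≤ S * (S * n - I.a) ^ (n - 1) := by exact_mod_cast h
  have e : (1 - (I.a : ℝ) / S / n) = (S * n - I.a) / (S * n) := by field_simp
  rw [e, div_pow, div_le_div_iff₀ hS' (by positivity)]
  linarith

/-- the reference function -/
noncomputable def refF (ref : Option ℕ) (b : ℝ) : ℝ :=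
  match ref with
  | some n => (1 - b / n) ^ n
  | none => Real.exp (-b)

lemma chkExp_sound {S : Int} (hS : 0 < S) {N : ℕ} (hN : 0 < N) {b g : Int}
    (hb : 0 < b) (h : chkExp S N b g = true) : Real.exp (-(b / S)) ≤ g / S := by
  have hS' : (0 : ℝ) < S := by exact_mod_cast hS
  have hb' : (0 : ℝ) < b := by exact_mod_cast hb
  have hN' : (0 : ℝ) < N := by exact_mod_cast hN
  simp only [chkExp, decide_eq_true_eq] at h
  have h' : (S * (S * N) ^ N : ℝ) ≤ g * (S * N + b) ^ N := by exact_mod_cast h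
  have h1 : (1 + (b : ℝ) / S / N) ^ N ≤ Real.exp (b / S) := by
    have h2 : 1 + (b : ℝ) / S / N ≤ Real.exp ((b : ℝ) / S / N) := by
      have := Real.add_one_le_exp ((b : ℝ) / S / N)
      linarith
    calc (1 + (b : ℝ) / S / N) ^ N ≤ (Real.exp ((b : ℝ) / S / N)) ^ N :=
          pow_le_pow_left₀ (by positivity) h2 N
      _ = Real.exp (b / S) := by
          rw [← Real.exp_nat_mul]
          congr 1
          field_simp
  have e : (1 + (b : ℝ) / S / N) = (S * N + b) / (S * N) := by field_simp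
  rw [e, div_pow] at h1
  rw [Real.exp_neg]
  have hp : (0 : ℝ) < (S * N + b) ^ N / (S * N) ^ N := by positivity
  calc (Real.exp (b / S))⁻¹ ≤ ((S * N + b) ^ N / (S * N) ^ N : ℝ)⁻¹ :=
        inv_anti₀ hp h1
    _ = (S * N : ℝ) ^ N / (S * N + b) ^ N := by rw [inv_div]
    _ ≤ g / S := by
        rw [div_le_div_iff₀ (by positivity) hS']
        linarith

lemma chkRef_sound {S : Int} (hS : 0 < S) {ref : Option ℕ} (hr : ref ≠ some 0) {b g : Int}
    (hb : 0 < b) (h : chkRef S ref b g = true) : refF ref (b / S) ≤ g / S := by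
  have hS' : (0 : ℝ) < S := by exact_mod_cast hS
  have hb' : (0 : ℝ) < b := by exact_mod_cast hb
  cases ref with
  | some n =>
    have hn' : (0 : ℝ) < n := by
      have : n ≠ 0 := fun h => hr (by rw [h])
      exact_mod_cast Nat.pos_of_ne_zero this
    simp only [chkRef, Bool.and_eq_true, decide_eq_true_eq] at h
    have h' : (S * (S * n - b) ^ n : ℝ) ≤ g * (S * n) ^ n := by exact_mod_cast h.2
    simp only [refF]
    have e : (1 - (b : ℝ) / S / n) = (S * n - b) / (S * n) := by field_simp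
    rw [e, div_pow, div_le_div_iff₀ (by positivity) hS']
    linarith
  | none => exact chkExp_sound hS (by norm_num) hb h

/-- the hypotheses on the generating function `G` -/
structure GHyp (G : ℝ → ℝ) (Y : ℝ) (n : ℕ) (ref : Option ℕ) : Prop where
  nonneg : ∀ y : ℝ, 0 ≤ y → y ≤ Y → 0 ≤ G y
  conv : ConvexOn ℝ (Set.Icc 0 Y) G
  line : ∀ y : ℝ, 0 ≤ y → y ≤ n → (1 - y / n) ^ n ≤ G y
  ref : ∀ b : ℝ, 0 ≤ b → b ≤ 5 / 2 → G b ≤ refF ref b

theorem itv_sound {S : Int} (hS : 0 < S) {n : ℕ} (hn : 1 ≤ n) {ref : Option ℕ}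
    (hr : ref ≠ some 0) {l1 l2 : Int} {I : Itv} (h : chkI S n ref l1 l2 I = true)
    (hI : (I.b2 : ℝ) / S ≤ 5 / 2) {G : ℝ → ℝ} {Y : ℝ}
    (hG : GHyp G Y n ref) (hY : 5 / 2 ≤ Y) {l b : ℝ} (hl10 : 0 ≤ l1) (hl1 : (l1 / S : ℝ) ≤ l)
    (hl2 : l ≤ l2 / S) (hb1 : (I.b1 / S : ℝ) ≤ b) (hb2 : b ≤ I.b2 / S) : Good G Y l b := by
  simp only [chkI, Bool.and_eq_true, decide_eq_true_eq] at h
  obtain ⟨⟨⟨⟨⟨⟨⟨⟨⟨⟨⟨⟨⟨c1, c2⟩, c3⟩, c4⟩, c5⟩, c6⟩, c7⟩, c8⟩, cP⟩, cK1⟩, cK2⟩, cL⟩, cR1⟩, cR2⟩ := h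
  have hS' : (0 : ℝ) < S := by exact_mod_cast hS
  have hn' : (0 : ℝ) < n := by exact_mod_cast hn
  have hn1 : (1 : ℝ) ≤ n := by exact_mod_cast hn
  have hb10 : (0 : ℝ) < I.b1 / S := div_pos (by exact_mod_cast c1) hS'
  have hb12 : (I.b1 / S : ℝ) ≤ I.b2 / S := div_le_div_of_nonneg_right (by exact_mod_cast c2) hS'.le
  have hmu0 : (0 : ℝ) ≤ I.mu / S := div_nonneg (by exact_mod_cast c3) hS'.le
  have hmq : (I.mu / S : ℝ) ≤ I.q / S := div_le_div_of_nonneg_right (by exact_mod_cast c4) hS'.le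
  have hq1 : (I.q / S : ℝ) ≤ 1 := by rw [div_le_one hS']; exact_mod_cast c5
  have ha0 : (0 : ℝ) ≤ I.a / S := div_nonneg (by exact_mod_cast c6) hS'.le
  have han : (I.a / S : ℝ) ≤ n - 1 := by
    rw [div_le_iff₀ hS']
    exact_mod_cast c7
  refine ⟨I.q / S, 1 + I.a / S - I.a / S / n, I.mu / S, 1 / S, by positivity, hmu0, hmq, hq1, ?_,
    ?_⟩
  · intro y hy0 hyY
    have hq0 : (0 : ℝ) ≤ I.q / S := hmu0.trans hmq
    rcases le_total (1 + I.a / S - I.a / S / n : ℝ) y with hA | hA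
    · have : (I.q / S : ℝ) * (1 + I.a / S - I.a / S / n - y) ≤ 0 :=
        mul_nonpos_of_nonneg_of_nonpos hq0 (by linarith)
      exact this.trans (hG.nonneg y hy0 hyY)
    · have hyn : y ≤ n := by
        refine hA.trans ?_
        have : (I.a / S : ℝ) / n ≥ 0 := by positivity
        linarith
      have hl := chkLine_sound hS hn cL
      have h3 := line_pow hn (a := I.a / S) (y := y) (by linarith) hyn
      calc (I.q / S : ℝ) * (1 + I.a / S - I.a / S / n - y) ≤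
          (1 - I.a / S / n) ^ (n - 1) * (1 + I.a / S - I.a / S / n - y) :=
            mul_le_mul_of_nonneg_right hl (by linarith)
        _ ≤ (1 - y / n) ^ n := h3
        _ ≤ G y := hG.line y hy0 hyn
  · intro s t hst
    have h1 := chkP_sound hS c8 c3 c4 cP hl10 hl1 hl2 s t hst
    have hK1 := chkK_sound hS hn cK1
    have hK2 := chkK_sound hS hn cK2
    have hR1 : G (I.b1 / S) ≤ I.g1 / S :=
      (hG.ref _ hb10.le (hb12.trans hI)).trans (chkRef_sound hS hr c1 cR1)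
    have hR2 : G (I.b2 / S) ≤ I.g2 / S :=
      (hG.ref _ (hb10.le.trans hb12) hI).trans (chkRef_sound hS hr (by omega) cR2)
    have hconv : ConvexOn ℝ (Set.Icc 0 Y) (fun b => G b + I.mu / S * b) := by
      refine hG.conv.add ?_
      have := (convexOn_id (convex_Icc (0 : ℝ) Y)).smul hmu0
      simpa [smul_eq_mul] using this
    have hmax := hconv.le_max_of_mem_Icc (x := (I.b1 / S : ℝ)) (y := (I.b2 / S : ℝ)) (z := b)
      ⟨hb10.le, hb12.trans (hI.trans hY)⟩ ⟨hb10.le.trans hb12, hI.trans hY⟩ ⟨hb1, hb2⟩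
    have hkk : ((I.k - 1 : Int) / S : ℝ) = I.k / S - 1 / S := by push_cast; ring
    rw [hkk] at h1
    have hfin : (I.k / S : ℝ) ≤ -rho * (1 - I.q / S * (1 + I.a / S - I.a / S / n)) + 1 -
        (G b + I.mu / S * b) := by
      rcases le_max_iff.mp hmax with h | h
      · linarith
      · linarith
    linarith

theorem grp_sound {S : Int} (hS : 0 < S) {n : ℕ} (hn : 1 ≤ n) {ref : Option ℕ}
    (hr : ref ≠ some 0) {l1 l2 : Int} {G : ℝ → ℝ} {Y : ℝ}
    (hG : GHyp G Y n ref) (hY : 5 / 2 ≤ Y) {l : ℝ} (hl10 : 0 ≤ l1) (hl1 : (l1 / S : ℝ) ≤ l)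
    (hl2 : l ≤ l2 / S) : ∀ (L : List Itv) (u R : Int), chkG S n ref l1 l2 u L R = true →
    (∀ I ∈ L, (I.b2 : ℝ) / S ≤ 5 / 2) →
    ∀ b : ℝ, (u / S : ℝ) < b → b ≤ R / S → Good G Y l b
  | [], u, R, h, _, b, hb1, hb2 => by
    simp only [chkG, decide_eq_true_eq] at h
    exfalso
    have hS' : (0 : ℝ) < S := by exact_mod_cast hS
    have : (R / S : ℝ) ≤ u / S := div_le_div_of_nonneg_right (by exact_mod_cast h) hS'.le
    linarith
  | (I :: L), u, R, h, hb, b, hb1, hb2 => by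
    simp only [chkG, Bool.and_eq_true, decide_eq_true_eq] at h
    obtain ⟨⟨h1, h2⟩, h3⟩ := h
    have hS' : (0 : ℝ) < S := by exact_mod_cast hS
    rcases le_or_gt b (I.b2 / S : ℝ) with hle | hgt
    · refine itv_sound hS hn hr h2 (hb I (List.mem_cons_self)) hG hY hl10 hl1 hl2 ?_ hle
      refine le_trans ?_ hb1.le
      exact div_le_div_of_nonneg_right (by exact_mod_cast h1) hS'.le
    · exact grp_sound hS hn hr hG hY hl10 hl1 hl2 L I.b2 R h3
        (fun J hJ => hb J (List.mem_cons_of_mem _ hJ)) b hgt hb2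

end Vale.Agent.P154.Uni
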