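import Vale.Agent.P154.Uni3

/-!
# P154: small values of the parameter `b`
-/

namespace Vale.Agent.P154.Uni

lemma pow_cubic {y : ℝ} (h0 : 0 ≤ y) (h1 : y ≤ 1) (m : ℕ) :
    1 - m * y + m * (m - 1) / 2 * y ^ 2 - m * (m - 1) * (m - 2) / 6 * y ^ 3 ≤ (1 - y) ^ m := by
  induction m with
  | zero => simp
  | succ m ih =>
    have h2 := mul_le_mul_of_nonneg_right ih (sub_nonneg.mpr h1)
    rw [← pow_succ] at h2
    refine le_trans ?_ h2
    have h3 : (0 : ℝ) ≤ m * (m - 1) * (m - 2) := by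
      rcases m with _ | _ | m
      · simp
      · simp
      · push_cast
        have : (0 : ℝ) ≤ m := Nat.cast_nonneg m
        have e : ((m : ℝ) + 1 + 1) * (m + 1 + 1 - 1) * (m + 1 + 1 - 2) = (m + 2) * (m + 1) * m := by
          ring
        rw [e]
        positivity
    have h4 : 0 ≤ (m : ℝ) * (m - 1) * (m - 2) / 6 * y ^ 4 := by positivity
    push_cast
    nlinarith [h4]

lemma pow_quad {y : ℝ} (h0 : 0 ≤ y) (h1 : y ≤ 1) (m : ℕ) :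
    (1 - y) ^ m ≤ 1 - m * y + m * (m - 1) / 2 * y ^ 2 := by
  induction m with
  | zero => simp
  | succ m ih =>
    have h2 := mul_le_mul_of_nonneg_right ih (sub_nonneg.mpr h1)
    rw [← pow_succ] at h2
    refine le_trans h2 ?_
    have h3 : (0 : ℝ) ≤ m * (m - 1) := by
      rcases m with _ | m
      · simp
      · push_cast
        have : (0 : ℝ) ≤ m := Nat.cast_nonneg m
        have e : ((m : ℝ) + 1) * (m + 1 - 1) = (m + 1) * m := by ring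
        rw [e]
        positivity
    have h4 : 0 ≤ (m : ℝ) * (m - 1) / 2 * y ^ 3 := by positivity
    push_cast
    nlinarith [h4]

/-- slope bound for the tangent -/
lemma slope_bd {m : ℕ} (hm : 1 ≤ m) {t om t0 : ℝ} (h0 : 0 ≤ t) (h1 : t ≤ t0) (h2 : t0 ≤ 1)
    (hom : om ≤ (m - 1) / (2 * m) - t0 / 6) : 1 - t + om * t ^ 2 ≤ (1 - t / m) ^ m := by
  have hm0 : (0 : ℝ) < m := by exact_mod_cast hm
  have hm1 : (1 : ℝ) ≤ m := by exact_mod_cast hm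
  have hy0 : 0 ≤ t / m := by positivity
  have hy1 : t / m ≤ 1 := by rw [div_le_one hm0]; linarith
  refine le_trans ?_ (pow_cubic hy0 hy1 m)
  have e : 1 - m * (t / m) + m * (m - 1) / 2 * (t / m) ^ 2 - m * (m - 1) * (m - 2) / 6 * (t / m) ^ 3
      = 1 - t + (m - 1) / (2 * m) * t ^ 2 - (m - 1) * (m - 2) / (6 * (m : ℝ) ^ 2) * t ^ 3 := by
    field_simp
  rw [e]
  have h3 : ((m : ℝ) - 1) * (m - 2) / (6 * (m : ℝ) ^ 2) ≤ 1 / 6 := by
    rw [div_le_div_iff₀ (by positivity) (by norm_num)]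
    nlinarith
  have h4 : ((m : ℝ) - 1) * (m - 2) / (6 * (m : ℝ) ^ 2) * t ^ 3 ≤ t0 / 6 * t ^ 2 := by
    have h5 : ((m : ℝ) - 1) * (m - 2) / (6 * (m : ℝ) ^ 2) * t ^ 3 ≤ 1 / 6 * t ^ 3 :=
      mul_le_mul_of_nonneg_right h3 (by positivity)
    have h6 : t ^ 3 ≤ t0 * t ^ 2 := by
      have : t ^ 3 = t * t ^ 2 := by ring
      rw [this]
      exact mul_le_mul_of_nonneg_right h1 (by positivity)
    linarith
  have h7 : om * t ^ 2 ≤ ((m - 1) / (2 * m) - t0 / 6) * t ^ 2 :=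
    mul_le_mul_of_nonneg_right hom (by positivity)
  linarith

/-- the quadratic-form argument -/
lemma quad_key {k be ga k4 r0 b0 b r : ℝ} (hk : 0 < k) (hbe : 0 ≤ be) (hga : 0 ≤ ga)
    (hr00 : 0 < r0) (h1 : (be + ga * r0) ^ 2 ≤ 4 * k * (k4 - 9 / 100 * r0))
    (h2 : (be + ga) * b0 ≤ (k4 - 9 / 100) * r0 ^ 2) (hk4 : 9 / 100 ≤ k4) (hb : 0 < b) (hbb : b ≤ b0)
    (hr : 0 ≤ r) (hr1 : r ≤ 1) :
    0 ≤ k * b ^ 2 - (be + ga * r) * (b * r ^ 2) + (k4 - 9 / 100 * r) * r ^ 4 := by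
  rcases le_total r r0 with h | h
  · have e1 : (be + ga * r) * (b * r ^ 2) ≤ (be + ga * r0) * (b * r ^ 2) :=
      mul_le_mul_of_nonneg_right (by nlinarith) (by positivity)
    have e2 : (k4 - 9 / 100 * r0) * r ^ 4 ≤ (k4 - 9 / 100 * r) * r ^ 4 :=
      mul_le_mul_of_nonneg_right (by linarith) (by positivity)
    have e3 : 0 ≤ 4 * k * (k * b ^ 2 - (be + ga * r0) * (b * r ^ 2) +
        (k4 - 9 / 100 * r0) * r ^ 4) := by
      have e4 : 4 * k * (k * b ^ 2 - (be + ga * r0) * (b * r ^ 2) + (k4 - 9 / 100 * r0) * r ^ 4) =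
          (2 * k * b - (be + ga * r0) * r ^ 2) ^ 2 +
            (4 * k * (k4 - 9 / 100 * r0) - (be + ga * r0) ^ 2) * r ^ 4 := by ring
      rw [e4]
      have := mul_nonneg (sub_nonneg.mpr h1) (by positivity : (0 : ℝ) ≤ r ^ 4)
      positivity
    have e5 := nonneg_of_mul_nonneg_right e3 (by positivity)
    linarith
  · have e1 : (be + ga * r) * (b * r ^ 2) ≤ (be + ga) * b0 * r ^ 2 := by
      have f1 : be + ga * r ≤ be + ga := by nlinarith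
      have f2 : b * r ^ 2 ≤ b0 * r ^ 2 := mul_le_mul_of_nonneg_right hbb (by positivity)
      calc (be + ga * r) * (b * r ^ 2) ≤ (be + ga) * (b0 * r ^ 2) :=
            mul_le_mul f1 f2 (by positivity) (by positivity)
        _ = _ := by ring
    have e2 : (be + ga) * b0 * r ^ 2 ≤ (k4 - 9 / 100) * r0 ^ 2 * r ^ 2 :=
      mul_le_mul_of_nonneg_right h2 (by positivity)
    have e3 : (k4 - 9 / 100) * r0 ^ 2 * r ^ 2 ≤ (k4 - 9 / 100) * r ^ 2 * r ^ 2 := by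
      have : r0 ^ 2 ≤ r ^ 2 := pow_le_pow_left₀ hr00.le h 2
      exact mul_le_mul_of_nonneg_right (mul_le_mul_of_nonneg_left this (by linarith))
        (by positivity)
    have e4 : (k4 - 9 / 100) * r ^ 2 * r ^ 2 ≤ (k4 - 9 / 100 * r) * r ^ 4 := by
      have : (k4 - 9 / 100) * r ^ 2 * r ^ 2 = (k4 - 9 / 100) * r ^ 4 := by ring
      rw [this]
      exact mul_le_mul_of_nonneg_right (by linarith) (by positivity)
    have : 0 ≤ k * b ^ 2 := by positivity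
    linarith

lemma br_plus {K cs X a2 a3 A r be ga k4 b : ℝ} (hr : 0 ≤ r) (hr1 : r ≤ 1)
    (hkey : 0 ≤ K - (be + ga * r) * (b * r ^ 2) + (k4 - 9 / 100 * r) * r ^ 4)
    (hcs : -(be * b) ≤ 2 * cs) (hX : 2 * X ≤ ga * b) (ha3 : a3 ≤ 9 / 400) (hA : 0 ≤ A)
    (hk4 : k4 ≤ 4 * (109 / 2000 - a2) - A) :
    0 ≤ K + 2 * cs * r ^ 2 - 2 * X * r ^ 3 + 4 * (109 / 2000 - a2) * r ^ 4 +
      4 * (9 / 400 - a3) * r ^ 5 - A * r ^ 6 := by
  have r46 : r ^ 6 ≤ r ^ 4 := pow_le_pow_of_le_one hr hr1 (by norm_num)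
  have f1 := mul_le_mul_of_nonneg_right hcs (pow_nonneg hr 2)
  have f2 := mul_le_mul_of_nonneg_right hX (pow_nonneg hr 3)
  have f3 := mul_nonneg (by linarith : 0 ≤ 4 * (9 / 400 - a3)) (pow_nonneg hr 5)
  have f4 := mul_le_mul_of_nonneg_left r46 hA
  have f5 := mul_le_mul_of_nonneg_right hk4 (pow_nonneg hr 4)
  have f6 := pow_nonneg hr 5
  have f7 : (k4 - 9 / 100 * r) * r ^ 4 = k4 * r ^ 4 - 9 / 100 * r ^ 5 := by ring
  have f8 : (be + ga * r) * (b * r ^ 2) = be * b * r ^ 2 + ga * b * r ^ 3 := by ring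
  have f9 : (4 * (109 / 2000 - a2) - A) * r ^ 4 = 4 * (109 / 2000 - a2) * r ^ 4 - A * r ^ 4 := by
    ring
  have f10 : -(be * b) * r ^ 2 = -(be * b * r ^ 2) := by ring
  rw [f7, f8] at hkey
  rw [f9] at f5
  rw [f10] at f1
  linarith only [hkey, f1, f2, f3, f4, f5, f6]

lemma br_minus {K cs X a2 a3 A r be ga k4 b : ℝ} (hr : 0 ≤ r) (hr1 : r ≤ 1)
    (hkey : 0 ≤ K - (be + ga * r) * (b * r ^ 2) + (k4 - 9 / 100 * r) * r ^ 4)
    (hcs : -(be * b) ≤ 2 * cs) (hX : 0 ≤ X) (hgb : 0 ≤ ga * b) (ha3 : 0 ≤ a3) (hA : 0 ≤ A)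
    (hk4 : k4 ≤ 4 * (109 / 2000 - a2) - A) :
    0 ≤ K + 2 * cs * r ^ 2 + 2 * X * r ^ 3 + 4 * (109 / 2000 - a2) * r ^ 4 -
      4 * (9 / 400 - a3) * r ^ 5 - A * r ^ 6 := by
  have r46 : r ^ 6 ≤ r ^ 4 := pow_le_pow_of_le_one hr hr1 (by norm_num)
  have f1 := mul_le_mul_of_nonneg_right hcs (pow_nonneg hr 2)
  have f2 := mul_nonneg hX (pow_nonneg hr 3)
  have f2' := mul_nonneg hgb (pow_nonneg hr 3)
  have f3 := mul_nonneg ha3 (pow_nonneg hr 5)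
  have f4 := mul_le_mul_of_nonneg_left r46 hA
  have f5 := mul_le_mul_of_nonneg_right hk4 (pow_nonneg hr 4)
  have f7 : (k4 - 9 / 100 * r) * r ^ 4 = k4 * r ^ 4 - 9 / 100 * r ^ 5 := by ring
  have f8 : (be + ga * r) * (b * r ^ 2) = be * b * r ^ 2 + ga * b * r ^ 3 := by ring
  have f9 : (4 * (109 / 2000 - a2) - A) * r ^ 4 = 4 * (109 / 2000 - a2) * r ^ 4 - A * r ^ 4 := by
    ring
  have f10 : -(be * b) * r ^ 2 = -(be * b * r ^ 2) := by ring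
  have f11 : 4 * (9 / 400 - a3) * r ^ 5 = 9 / 100 * r ^ 5 - 4 * (a3 * r ^ 5) := by ring
  rw [f7, f8] at hkey
  rw [f9] at f5
  rw [f10] at f1
  rw [f11]
  linarith only [hkey, f1, f2, f2', f3, f4, f5]

lemma br_zero {K cs a2 A r be ga k4 b : ℝ} (hr : 0 ≤ r) (hr1 : r ≤ 1)
    (hkey : 0 ≤ K - (be + ga * r) * (b * r ^ 2) + (k4 - 9 / 100 * r) * r ^ 4)
    (hcs : -(be * b) ≤ 2 * cs) (hgb : 0 ≤ ga * b) (hA : 0 ≤ A)
    (hk4 : k4 ≤ 4 * (109 / 2000 - a2) - A) :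
    0 ≤ K + 2 * cs * r ^ 2 + 4 * (109 / 2000 - a2) * r ^ 4 - A * r ^ 6 := by
  have r46 : r ^ 6 ≤ r ^ 4 := pow_le_pow_of_le_one hr hr1 (by norm_num)
  have f1 := mul_le_mul_of_nonneg_right hcs (pow_nonneg hr 2)
  have f2' := mul_nonneg hgb (pow_nonneg hr 3)
  have f4 := mul_le_mul_of_nonneg_left r46 hA
  have f5 := mul_le_mul_of_nonneg_right hk4 (pow_nonneg hr 4)
  have f6 := pow_nonneg hr 5
  have f7 : (k4 - 9 / 100 * r) * r ^ 4 = k4 * r ^ 4 - 9 / 100 * r ^ 5 := by ring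
  have f8 : (be + ga * r) * (b * r ^ 2) = be * b * r ^ 2 + ga * b * r ^ 3 := by ring
  have f9 : (4 * (109 / 2000 - a2) - A) * r ^ 4 = 4 * (109 / 2000 - a2) * r ^ 4 - A * r ^ 4 := by
    ring
  have f10 : -(be * b) * r ^ 2 = -(be * b * r ^ 2) := by ring
  rw [f7, f8] at hkey
  rw [f9] at f5
  rw [f10] at f1
  linarith only [hkey, f1, f2', f4, f5, f6]

lemma exists_r {s : ℝ} (hs : 0 ≤ s) (hs2 : s ≤ 2) : ∃ r : ℝ, 0 ≤ r ∧ r ≤ 1 ∧ s = 2 * r ^ 2 := by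
  have h : Real.sqrt (s / 2) ^ 2 = s / 2 := Real.sq_sqrt (by linarith)
  refine ⟨Real.sqrt (s / 2), Real.sqrt_nonneg _, ?_, by rw [h]; ring⟩
  rw [Real.sqrt_le_iff]
  exact ⟨zero_le_one, by linarith⟩

/-- the three polynomials for small `b` -/
lemma small_poly {l l2 q mu eb c2 c4 c5 be ga k k4 r0 b0 b : ℝ} (hl0 : 0 ≤ l) (hl2 : l ≤ l2)
    (hl3 : l2 ≤ 1 / 3) (heb : eb ≤ 1 / 100) (hmu0 : 0 ≤ mu) (hmq : mu ≤ q)
    (hq1 : q ≤ 1) (hmub : 1 - eb ≤ mu)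
    (hc2 : 191 / 2000 + 179 / 500 * eb ≤ c2) (hc4 : 13 / 1000 + 31 / 50 * eb ≤ c4)
    (hc5 : 11 / 500 + 2 / 5 * eb ≤ c5)
    (hb : 0 < b) (hbb : b ≤ b0) (hk0 : 0 < k) (hbe0 : 0 ≤ be) (hga0 : 0 ≤ ga) (hr0 : 0 < r0)
    (hk4 : k4 ≤ 4 * (109 / 2000 - l2 ^ 2 * c2) - l2 ^ 4 * (8 * c4 + 4 * c5))
    (hk4' : 9 / 100 ≤ k4)
    (h1 : (be + ga * r0) ^ 2 ≤ 4 * k * (k4 - 9 / 100 * r0))
    (h2 : (be + ga) * b0 ≤ (k4 - 9 / 100) * r0 ^ 2)
    (hcs : -(be * b) ≤ 2 * (61 / 150 - 86 / 75 * q + 37 / 50 * mu))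
    (hlX : 86 / 75 * l * (q - mu) ≤ ga * b) :
    ∀ s t, Dom s t → 0 ≤ k * b ^ 2 + P1 l q mu s t := by
  have hX0 : 0 ≤ q - mu := by linarith
  have hA2 : 907 / 2000 * q - 179 / 500 * mu ≤ c2 := by linarith
  have hA3 : 273 / 500 * q - 541 / 1000 * mu ≤ 1 / 100 + 1 / 100 := by linarith
  have hA4 : 633 / 1000 * q - 31 / 50 * mu ≤ c4 := by linarith
  have hA5 : 211 / 500 * q - 2 / 5 * mu ≤ c5 := by linarith
  have hA2' : 0 ≤ 907 / 2000 * q - 179 / 500 * mu := by linarith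
  have hA3' : 0 ≤ 273 / 500 * q - 541 / 1000 * mu := by linarith
  have hA4' : 0 ≤ 633 / 1000 * q - 31 / 50 * mu := by linarith
  have hA5' : 0 ≤ 211 / 500 * q - 2 / 5 * mu := by linarith
  have hl2' : l ^ 2 ≤ l2 ^ 2 := pow_le_pow_left₀ hl0 hl2 2
  have hl3' : l ^ 3 ≤ (1 / 3) ^ 3 := pow_le_pow_left₀ hl0 (hl2.trans hl3) 3
  have hl4' : l ^ 4 ≤ l2 ^ 4 := pow_le_pow_left₀ hl0 hl2 4
  have hl20 : 0 ≤ l2 := hl0.trans hl2
  have hl2n : 0 ≤ l2 ^ 2 := pow_nonneg hl20 2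
  have hl4n : 0 ≤ l2 ^ 4 := pow_nonneg hl20 4
  have hln : 0 ≤ l ^ 4 := pow_nonneg hl0 4
  have g2 : l ^ 2 * (907 / 2000 * q - 179 / 500 * mu) ≤ l2 ^ 2 * c2 :=
    mul_le_mul hl2' hA2 hA2' hl2n
  have g3 : l ^ 3 * (273 / 500 * q - 541 / 1000 * mu) ≤ 9 / 400 := by
    calc l ^ 3 * (273 / 500 * q - 541 / 1000 * mu) ≤ (1 / 3) ^ 3 * (1 / 100 + 1 / 100) :=
          mul_le_mul hl3' hA3 hA3' (by norm_num)
      _ ≤ 9 / 400 := by norm_num
  have g3' : 0 ≤ l ^ 3 * (273 / 500 * q - 541 / 1000 * mu) := mul_nonneg (pow_nonneg hl0 3) hA3'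
  have g4 : l ^ 4 * (8 * (633 / 1000 * q - 31 / 50 * mu) + 4 * (211 / 500 * q - 2 / 5 * mu)) ≤
      l2 ^ 4 * (8 * c4 + 4 * c5) :=
    mul_le_mul hl4' (by linarith) (by linarith) hl4n
  have g4n : 0 ≤ l ^ 4 * (8 * (633 / 1000 * q - 31 / 50 * mu) +
      4 * (211 / 500 * q - 2 / 5 * mu)) := mul_nonneg hln (by linarith)
  have g5 : l ^ 4 * (8 * (633 / 1000 * q - 31 / 50 * mu)) ≤ l2 ^ 4 * (8 * c4 + 4 * c5) := by
    refine le_trans ?_ g4
    exact mul_le_mul_of_nonneg_left (by linarith) hln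
  have g5n : 0 ≤ l ^ 4 * (8 * (633 / 1000 * q - 31 / 50 * mu)) := mul_nonneg hln (by linarith)
  have hlX0 : 0 ≤ 43 / 75 * l * (q - mu) := mul_nonneg (by linarith) hX0
  have hlX1 : 2 * (43 / 75 * l * (q - mu)) ≤ ga * b := by linarith
  have hgab : 0 ≤ ga * b := mul_nonneg hga0 hb.le
  refine P1_lower (l := l) (l1 := l) (l2 := l) (q := q) (mu := mu) (K := k * b ^ 2)
      hl0 le_rfl le_rfl hmu0 hmq ?_ ?_ ?_
  · intro r hr hr1
    exact br_plus hr hr1 (quad_key hk0 hbe0 hga0 hr0 h1 h2 hk4' hb hbb hr hr1) hcs hlX1 g3 g4n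
      (by linarith)
  · intro r hr hr35
    have hr1 : r ≤ 1 := by linarith
    exact br_minus hr hr1 (quad_key hk0 hbe0 hga0 hr0 h1 h2 hk4' hb hbb hr hr1) hcs hlX0 hgab g3'
      g4n (by linarith)
  · intro s hs hs2
    obtain ⟨r, hr, hr1, hrs⟩ := exists_r hs hs2
    have h := br_zero (a2 := l ^ 2 * (907 / 2000 * q - 179 / 500 * mu))
      (A := l ^ 4 * (8 * (633 / 1000 * q - 31 / 50 * mu))) hr hr1
      (quad_key hk0 hbe0 hga0 hr0 h1 h2 hk4' hb hbb hr hr1) hcs hgab g5n (by linarith)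
    refine le_trans h (le_of_eq ?_)
    unfold zeroP
    rw [hrs]
    ring

/-- the linear minorant for small `b` -/
lemma small_line {G : ℝ → ℝ} {Y : ℝ} {m : ℕ} (hm : 1 ≤ m)
    (hGn : ∀ y : ℝ, 0 ≤ y → y ≤ Y → 0 ≤ G y)
    (hGl : ∀ y : ℝ, 0 ≤ y → y ≤ (m + 1 : ℕ) → (1 - y / (m + 1 : ℕ)) ^ (m + 1) ≤ G y)
    {t q : ℝ} (ht : t ≤ 1 / 2) (hq0 : 0 ≤ q) (hslope : q ≤ (1 - t / m) ^ m) :
    ∀ y, 0 ≤ y → y ≤ Y → q * (1 + t - y) ≤ G y := by
  intro y hy0 hyY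
  have hm0 : (0 : ℝ) < m := by exact_mod_cast hm
  rcases le_total (1 + t) y with hA | hA
  · have : q * (1 + t - y) ≤ 0 := mul_nonpos_of_nonneg_of_nonpos hq0 (by linarith)
    exact this.trans (hGn y hy0 hyY)
  · have hm1 : (1 : ℝ) ≤ m := by exact_mod_cast hm
    have hyn : y ≤ ((m + 1 : ℕ) : ℝ) := by
      push_cast
      linarith
    have ha : t * (m + 1) / m < ((m + 1 : ℕ) : ℝ) := by
      rw [div_lt_iff₀ hm0]
      push_cast
      nlinarith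
    have h3 := line_pow (n := m + 1) (by omega) ha hyn
    have e1 : (1 : ℝ) - t * (m + 1) / m / ((m + 1 : ℕ) : ℝ) = 1 - t / m := by
      push_cast
      field_simp
    have e2 : (1 : ℝ) + t * (m + 1) / m - t * (m + 1) / m / ((m + 1 : ℕ) : ℝ) = 1 + t := by
      push_cast
      field_simp
      ring
    rw [e2, e1, Nat.add_sub_cancel] at h3
    calc q * (1 + t - y) ≤ (1 - t / m) ^ m * (1 + t - y) :=
          mul_le_mul_of_nonneg_right hslope (by linarith)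
      _ ≤ _ := h3
      _ ≤ G y := hGl y hy0 hyn

theorem small_b {G : ℝ → ℝ} {Y : ℝ} {m : ℕ} (hm : 1 ≤ m)
    (hGn : ∀ y : ℝ, 0 ≤ y → y ≤ Y → 0 ≤ G y)
    (hGl : ∀ y : ℝ, 0 ≤ y → y ≤ (m + 1 : ℕ) → (1 - y / (m + 1 : ℕ)) ^ (m + 1) ≤ G y)
    {l l2 ka om et nu b0 be ga x k k4 r0 c2 c4 c5 : ℝ} (hl0 : 0 ≤ l) (hl2 : l ≤ l2)
    (hl3 : l2 ≤ 1 / 3)
    (hka : 0 < ka) (hke : ka ≤ et) (heb : et * b0 ≤ 1 / 100)
    (hom0 : 0 ≤ om) (hom : om ≤ (m - 1) / (2 * m) - ka * b0 / 6)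
    (href : ∀ b, 0 < b → b ≤ b0 → G b ≤ 1 - b + nu * b ^ 2)
    (hk0 : 0 < k) (hk : k < et - nu - rho * ka ^ 2 * (1 - om))
    (hbe0 : 0 ≤ be) (hbe : 37 / 25 * et - 172 / 75 * ka * (1 - om * ka * b0) ≤ be)
    (hx : et - ka + om * ka ^ 2 * b0 ≤ x) (hga : 86 / 75 * l2 * x ≤ ga)
    (hc2 : 191 / 2000 + 179 / 500 * (et * b0) ≤ c2) (hc4 : 13 / 1000 + 31 / 50 * (et * b0) ≤ c4)
    (hc5 : 11 / 500 + 2 / 5 * (et * b0) ≤ c5)
    (hk4 : k4 ≤ 4 * (109 / 2000 - l2 ^ 2 * c2) - l2 ^ 4 * (8 * c4 + 4 * c5))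
    (hk4' : 9 / 100 ≤ k4) (hr0 : 0 < r0)
    (h1 : (be + ga * r0) ^ 2 ≤ 4 * k * (k4 - 9 / 100 * r0))
    (h2 : (be + ga) * b0 ≤ (k4 - 9 / 100) * r0 ^ 2) {b : ℝ} (hb : 0 < b) (hbb : b ≤ b0) :
    Good G Y l b := by
  have hm0 : (0 : ℝ) < m := by exact_mod_cast hm
  have hb0 : 0 < b0 := hb.trans_le hbb
  have het : 0 < et := hka.trans_le hke
  have hkab : ka * b ≤ ka * b0 := mul_le_mul_of_nonneg_left hbb hka.le
  have hetb : et * b ≤ et * b0 := mul_le_mul_of_nonneg_left hbb het.le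
  have hkeb : ka * b0 ≤ et * b0 := mul_le_mul_of_nonneg_right hke hb0.le
  have hkb00 : 0 ≤ ka * b0 := mul_nonneg hka.le hb0.le
  have hom1 : om ≤ 1 / 2 := by
    refine hom.trans ?_
    have : ((m : ℝ) - 1) / (2 * m) ≤ 1 / 2 := by
      rw [div_le_div_iff₀ (by positivity) (by norm_num)]; linarith
    linarith
  obtain ⟨q, hq⟩ : ∃ q : ℝ, q = 1 - ka * b + om * (ka * b) ^ 2 := ⟨_, rfl⟩
  obtain ⟨mu, hmu⟩ : ∃ mu : ℝ, mu = 1 - et * b := ⟨_, rfl⟩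
  have hkb0 : 0 ≤ ka * b := mul_nonneg hka.le hb.le
  have hbn : 0 ≤ b := hb.le
  have hqle : q ≤ 1 := by
    rw [hq]
    have h3 : om * (ka * b) ^ 2 ≤ 1 * (ka * b) := by
      have : om * (ka * b) ^ 2 = (om * (ka * b)) * (ka * b) := by ring
      rw [this]
      apply mul_le_mul_of_nonneg_right _ hkb0
      nlinarith
    linarith
  have hX : q - mu = (et - ka) * b + om * (ka * b) ^ 2 := by rw [hq, hmu]; ring
  have hX0 : 0 ≤ q - mu := by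
    rw [hX]
    have h3 : 0 ≤ (et - ka) * b := mul_nonneg (by linarith) hb.le
    have h4 : 0 ≤ om * (ka * b) ^ 2 := mul_nonneg hom0 (sq_nonneg _)
    linarith
  have hmu0 : 0 ≤ mu := by rw [hmu]; linarith
  have hmub : 1 - et * b0 ≤ mu := by rw [hmu]; linarith
  have hq0 : 0 ≤ q := by linarith
  have hslope : q ≤ (1 - ka * b / m) ^ m := by
    rw [hq]
    exact slope_bd hm hkb0 hkab (by linarith) hom
  have hcs : -(be * b) ≤ 2 * (61 / 150 - 86 / 75 * q + 37 / 50 * mu) := by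
    have e : 2 * (61 / 150 - 86 / 75 * q + 37 / 50 * mu) =
        -((37 / 25 * et - 172 / 75 * ka * (1 - om * ka * b)) * b) := by
      rw [hq, hmu]; ring
    rw [e, neg_le_neg_iff]
    have h3 : 37 / 25 * et - 172 / 75 * ka * (1 - om * ka * b) ≤ be := by
      refine le_trans ?_ hbe
      have h4 : om * ka * b ≤ om * ka * b0 :=
        mul_le_mul_of_nonneg_left hbb (mul_nonneg hom0 hka.le)
      have h5 : 0 ≤ ka * (om * ka * b0 - om * ka * b) := mul_nonneg hka.le (by linarith)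
      linarith
    exact mul_le_mul_of_nonneg_right h3 hb.le
  have hXx : q - mu ≤ x * b := by
    rw [hX]
    have h3 : om * (ka * b) ^ 2 ≤ om * ka ^ 2 * b0 * b := by
      have : om * (ka * b) ^ 2 = om * ka ^ 2 * b * b := by ring
      rw [this]
      exact mul_le_mul_of_nonneg_right
        (mul_le_mul_of_nonneg_left hbb (mul_nonneg hom0 (sq_nonneg _))) hb.le
    have h4 : (et - ka + om * ka ^ 2 * b0) * b ≤ x * b := mul_le_mul_of_nonneg_right hx hb.le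
    linarith
  have hx0 : 0 ≤ x := by
    refine le_trans ?_ hx
    have h3 : 0 ≤ et - ka := by linarith
    have h4 : 0 ≤ om * ka ^ 2 * b0 := mul_nonneg (mul_nonneg hom0 (sq_nonneg _)) hb0.le
    linarith
  have hl20 : 0 ≤ l2 := hl0.trans hl2
  have hlX : 86 / 75 * l * (q - mu) ≤ ga * b := by
    calc 86 / 75 * l * (q - mu) ≤ 86 / 75 * l2 * (x * b) :=
          mul_le_mul (by linarith) hXx hX0 (by linarith)
      _ = 86 / 75 * l2 * x * b := by ring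
      _ ≤ ga * b := mul_le_mul_of_nonneg_right hga hb.le
  have hga0 : 0 ≤ ga := by
    refine le_trans ?_ hga
    exact mul_nonneg (by linarith) hx0
  have hpoly := small_poly hl0 hl2 hl3 heb hmu0 (by linarith) hqle hmub
    hc2 hc4 hc5 hb hbb hk0 hbe0 hga0 hr0 hk4 hk4' h1 h2 hcs hlX
  refine ⟨q, 1 + ka * b, mu, (et - nu - rho * ka ^ 2 * (1 - om) - k) * b ^ 2, ?_, hmu0,
    by linarith, hqle, small_line hm hGn hGl (by linarith) hq0 hslope, ?_⟩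
  · exact mul_pos (by linarith) (pow_pos hb 2)
  · intro s t hst
    have key := hpoly s t hst
    have hG := href b hb hbb
    have hK0 : (et - nu - rho * ka ^ 2 * (1 - om)) * b ^ 2 ≤
        -rho * (1 - q * (1 + ka * b)) + 1 - G b - mu * b := by
      have e : -rho * (1 - q * (1 + ka * b)) + 1 - (1 - b + nu * b ^ 2) - mu * b =
          (et - nu - rho * ka ^ 2 * (1 - om)) * b ^ 2 + rho * om * (ka * b) ^ 3 := by
        rw [hq, hmu]; ring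
      have h3 : 0 ≤ rho * om * (ka * b) ^ 3 := by
        have h4 : (0 : ℝ) ≤ rho := by unfold rho; norm_num
        exact mul_nonneg (mul_nonneg h4 hom0) (pow_nonneg hkb0 3)
      linarith
    have e : (et - nu - rho * ka ^ 2 * (1 - om) - k) * b ^ 2 =
        (et - nu - rho * ka ^ 2 * (1 - om)) * b ^ 2 - k * b ^ 2 := by ring
    rw [e]
    linarith

end Vale.Agent.P154.Uni
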