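import Vale.Agent.P154.Uni4

/-!
# P154: generating functions, small `b` for the groups, and the group theorem
-/

namespace Vale.Agent.P154.Uni

/-- scale -/
def SS : Int := 1000000000

/-- the complete check of a group -/
def chkAll (n : Nat) (ref : Option Nat) (l1 l2 : Int) (L : List Itv) (R : Int) : Bool :=
  chkG SS n ref l1 l2 5000000 L R && L.all (fun I => decide (2 * I.b2 ≤ 5 * SS)) &&
  decide (2220 * SS ^ 4 + 1720 * l2 * SS ^ 3 + 2394 * l2 ^ 2 * SS ^ 2 + 3411 * l2 ^ 3 * SS +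
    10128 * l2 ^ 4 ≤ 1500 * R * SS ^ 3) && decide (0 ≤ l1)

lemma SS_pos : 0 < SS := by decide

theorem grp_final {n : ℕ} (hn : 1 ≤ n) {ref : Option ℕ} (hr : ref ≠ some 0) {l1 l2 : Int}
    {L : List Itv} {R : Int} (h : chkAll n ref l1 l2 L R = true) {G : ℝ → ℝ} {Y : ℝ}
    (hG : GHyp G Y n ref) (hY : 5 / 2 ≤ Y) {l : ℝ} (hl1 : (l1 / 1000000000 : ℝ) ≤ l)
    (hl2 : l ≤ l2 / 1000000000)
    (hsmall : ∀ b : ℝ, 0 < b → b ≤ 1 / 200 → Good G Y l b) :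
    ∀ b : ℝ, 0 < b → b ≤ bmax l → Good G Y l b := by
  simp only [chkAll, Bool.and_eq_true, List.all_eq_true, decide_eq_true_eq] at h
  obtain ⟨⟨⟨h1, h2⟩, h3⟩, h4⟩ := h
  have hSS : (SS : ℝ) = 1000000000 := by norm_num [SS]
  intro b hb hbm
  rcases le_or_gt b (1 / 200) with hle | hgt
  · exact hsmall b hb hle
  · have hl0 : 0 ≤ l := le_trans (by
      apply div_nonneg _ (by norm_num); exact_mod_cast h4) hl1
    have hl20 : (0 : ℝ) ≤ l2 / 1000000000 := hl0.trans hl2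
    refine grp_sound SS_pos hn hr hG hY h4 (l := l) (by rw [hSS]; exact hl1)
      (by rw [hSS]; exact hl2) L 5000000 R h1 ?_ b ?_ ?_
    · intro I hI
      have h5 := h2 I hI
      have h6 : (2 * I.b2 : ℝ) ≤ 5 * SS := by exact_mod_cast h5
      rw [hSS] at h6 ⊢
      rw [div_le_div_iff₀ (by norm_num) (by norm_num)]
      linarith
    · rw [hSS]
      push_cast
      linarith
    · refine hbm.trans ?_
      have h6 : (2220 * SS ^ 4 + 1720 * l2 * SS ^ 3 + 2394 * l2 ^ 2 * SS ^ 2 +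
        3411 * l2 ^ 3 * SS + 10128 * l2 ^ 4 : ℝ) ≤ 1500 * R * SS ^ 3 := by exact_mod_cast h3
      rw [hSS] at h6 ⊢
      have h7 : bmax l ≤ bmax (l2 / 1000000000) := by
        unfold bmax
        have e2 := pow_le_pow_left₀ hl0 hl2 2
        have e3 := pow_le_pow_left₀ hl0 hl2 3
        have e4 := pow_le_pow_left₀ hl0 hl2 4
        linarith
      refine h7.trans ?_
      unfold bmax
      rw [le_div_iff₀ (by norm_num)]
      have e : (37 / 25 + 86 / 75 * (l2 / 1000000000 : ℝ) + 399 / 250 * (l2 / 1000000000) ^ 2 +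
        1137 / 500 * (l2 / 1000000000) ^ 3 + 844 / 125 * (l2 / 1000000000) ^ 4) * 1000000000 =
        (2220 * 1000000000 ^ 4 + 1720 * l2 * 1000000000 ^ 3 + 2394 * l2 ^ 2 * 1000000000 ^ 2 +
        3411 * l2 ^ 3 * 1000000000 + 10128 * l2 ^ 4 : ℝ) / (1500 * 1000000000 ^ 3) := by ring
      rw [e, div_le_iff₀ (by norm_num)]
      linarith

/-! ### Monotonicity of `(1 - y / n) ^ n` -/

lemma pow_mono_succ {n : ℕ} (hn : 1 ≤ n) {y : ℝ} (h0 : 0 ≤ y) (hy : y ≤ n) :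
    (1 - y / n) ^ n ≤ (1 - y / (n + 1 : ℕ)) ^ (n + 1) := by
  have hn0 : (0 : ℝ) < n := by exact_mod_cast hn
  have hn1 : (0 : ℝ) < ((n + 1 : ℕ) : ℝ) := by positivity
  rcases eq_or_lt_of_le hy with h | h
  · have e : (1 - y / n : ℝ) = 0 := by rw [h, div_self hn0.ne', sub_self]
    rw [e, zero_pow (by omega)]
    apply pow_nonneg
    rw [sub_nonneg, div_le_one hn1]
    push_cast
    linarith
  · have hu : 0 < 1 - y / n := by rw [sub_pos, div_lt_one hn0]; exact h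
    set u : ℝ := 1 - y / n with hu'
    have hy' : y = n * (1 - u) := by rw [hu']; field_simp; ring
    have e : (1 - y / ((n + 1 : ℕ) : ℝ)) = u * (1 + (1 - u) / (u * (n + 1 : ℕ))) := by
      rw [hy']
      push_cast
      field_simp
      ring
    rw [e, mul_pow]
    have hu1 : u ≤ 1 := by rw [hu']; have := div_nonneg h0 hn0.le; linarith
    have h2 : 1 + ((n + 1 : ℕ) : ℝ) * ((1 - u) / (u * (n + 1 : ℕ))) ≤
        (1 + (1 - u) / (u * (n + 1 : ℕ))) ^ (n + 1) := by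
      apply one_add_mul_le_pow
      have : 0 ≤ (1 - u) / (u * (n + 1 : ℕ)) :=
        div_nonneg (by linarith) (mul_nonneg hu.le hn1.le)
      linarith
    have e2 : 1 + ((n + 1 : ℕ) : ℝ) * ((1 - u) / (u * (n + 1 : ℕ))) = 1 / u := by
      field_simp
      ring
    rw [e2] at h2
    calc u ^ n = u ^ (n + 1) * (1 / u) := by rw [pow_succ]; field_simp
      _ ≤ _ := mul_le_mul_of_nonneg_left h2 (pow_nonneg hu.le _)

lemma pow_mono_n {n d : ℕ} (hn : 1 ≤ n) (hnd : n ≤ d) {y : ℝ} (h0 : 0 ≤ y) (hy : y ≤ n) :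
    (1 - y / n) ^ n ≤ (1 - y / d) ^ d := by
  induction d, hnd using Nat.le_induction with
  | base => exact le_rfl
  | succ d hd ih =>
    refine ih.trans (pow_mono_succ (hn.trans hd) h0 (hy.trans ?_))
    exact_mod_cast hd

lemma conv_reg {d : ℕ} (hd : 1 ≤ d) :
    ConvexOn ℝ (Set.Icc (0 : ℝ) d) (fun y => (1 - y / d) ^ d) := by
  have hd0 : (0 : ℝ) < d := by exact_mod_cast hd
  have h1 : ConvexOn ℝ (Set.Icc (0 : ℝ) d) (fun y : ℝ => 1 - y / d) := by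
    refine ⟨convex_Icc _ _, fun x _ y _ a b _ _ hab => le_of_eq ?_⟩
    simp only [smul_eq_mul]
    have : b = 1 - a := by linarith
    rw [this]
    field_simp
    ring
  have h2 := h1.pow (fun x hx => by
    rw [sub_nonneg, div_le_one hd0]; exact hx.2) d
  exact h2

lemma conv_exp (Y : ℝ) : ConvexOn ℝ (Set.Icc (0 : ℝ) Y) (fun y => Real.exp (-y)) := by
  refine ⟨convex_Icc _ _, fun x _ y _ a b ha hb hab => ?_⟩
  have h := convexOn_exp.2 (Set.mem_univ (-x)) (Set.mem_univ (-y)) ha hb hab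
  simp only [smul_eq_mul] at h ⊢
  have e : -(a * x + b * y) = a * -x + b * -y := by ring
  rw [e]
  exact h

lemma ghyp_reg_some {n d d' : ℕ} (hn : 3 ≤ n) (hnd : n ≤ d) (hdd : d ≤ d') :
    GHyp (fun y => (1 - y / d) ^ d) d n (some d') where
  nonneg := fun y _ h1 => by
    have hd0 : (0 : ℝ) < d := by exact_mod_cast (by omega : 0 < d)
    apply pow_nonneg
    rw [sub_nonneg, div_le_one hd0]
    exact h1
  conv := conv_reg (by omega)
  line := fun y h0 h1 => pow_mono_n (by omega) hnd h0 h1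
  ref := fun b h0 h1 => by
    simp only [refF]
    refine pow_mono_n (by omega) hdd h0 (h1.trans ?_)
    have : (3 : ℝ) ≤ d := by exact_mod_cast hn.trans hnd
    linarith

lemma ghyp_reg_none {n d : ℕ} (hn : 3 ≤ n) (hnd : n ≤ d) :
    GHyp (fun y => (1 - y / d) ^ d) d n none where
  nonneg := fun y _ h1 => by
    have hd0 : (0 : ℝ) < d := by exact_mod_cast (by omega : 0 < d)
    apply pow_nonneg
    rw [sub_nonneg, div_le_one hd0]
    exact h1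
  conv := conv_reg (by omega)
  line := fun y h0 h1 => pow_mono_n (by omega) hnd h0 h1
  ref := fun b h0 h1 => by
    simp only [refF]
    apply Real.one_sub_div_pow_le_exp_neg
    have : (3 : ℝ) ≤ d := by exact_mod_cast hn.trans hnd
    linarith

lemma ghyp_exp {n : ℕ} (Y : ℝ) : GHyp (fun y => Real.exp (-y)) Y n none where
  nonneg := fun y _ _ => (Real.exp_pos _).le
  conv := conv_exp Y
  line := fun y _ h1 => Real.one_sub_div_pow_le_exp_neg h1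
  ref := fun b _ _ => le_rfl

/-! ### Small `b` -/

lemma ref_reg {d : ℕ} (hd : 1 ≤ d) {nu : ℝ} (hnu : ((d : ℝ) - 1) / (2 * d) ≤ nu) :
    ∀ b : ℝ, 0 < b → b ≤ 1 / 200 → (1 - b / d) ^ d ≤ 1 - b + nu * b ^ 2 := by
  intro b hb hb2
  have hd0 : (0 : ℝ) < d := by exact_mod_cast hd
  have hd1 : (1 : ℝ) ≤ d := by exact_mod_cast hd
  have h := pow_quad (y := b / d) (by positivity) (by rw [div_le_one hd0]; linarith) d
  refine h.trans ?_
  have e : 1 - (d : ℝ) * (b / d) + d * (d - 1) / 2 * (b / d) ^ 2 =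
      1 - b + (d - 1) / (2 * d) * b ^ 2 := by
    field_simp
  rw [e]
  have := mul_le_mul_of_nonneg_right hnu (sq_nonneg b)
  linarith

lemma ref_exp : ∀ b : ℝ, 0 < b → b ≤ 1 / 200 → Real.exp (-b) ≤ 1 - b + 1 / 2 * b ^ 2 := by
  intro b hb _
  have h1 := Real.quadratic_le_exp_of_nonneg hb.le
  rw [Real.exp_neg]
  have h2 : 0 < 1 + b + b ^ 2 / 2 := by positivity
  refine (inv_anti₀ h2 h1).trans ?_
  rw [inv_eq_one_div, div_le_iff₀ h2]
  have : 0 ≤ b ^ 4 := by positivity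
  nlinarith

lemma ref_reg' {d : ℕ} (hd : 1 ≤ d) :
    ∀ b : ℝ, 0 < b → b ≤ 1 / 200 → (1 - b / d) ^ d ≤ 1 - b + 1 / 2 * b ^ 2 := by
  apply ref_reg hd
  have hd1 : (1 : ℝ) ≤ d := by exact_mod_cast hd
  rw [div_le_div_iff₀ (by positivity) (by norm_num)]
  linarith

section
variable {G : ℝ → ℝ} {Y l : ℝ}

lemma small_910 (hGn : ∀ y : ℝ, 0 ≤ y → y ≤ Y → 0 ≤ G y)
    (hGl : ∀ y : ℝ, 0 ≤ y → y ≤ (9 : ℕ) → (1 - y / (9 : ℕ)) ^ 9 ≤ G y)
    (href : ∀ b : ℝ, 0 < b → b ≤ 1 / 200 → G b ≤ 1 - b + 9 / 20 * b ^ 2)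
    (hl0 : 0 ≤ l) (hl : l ≤ 1 / 3) :
    ∀ b : ℝ, 0 < b → b ≤ 1 / 200 → Good G Y l b := by
  intro b hb hb2
  refine small_b (m := 8) (by norm_num) hGn hGl (l2 := 1 / 3) (ka := 129 / 250)
    (om := 43707 / 100000) (et := 9101 / 10000) (nu := 9 / 20) (b0 := 1 / 200)
    (be := 16493 / 100000) (ga := 7543 / 50000) (x := 39469 / 100000) (k := 6499 / 100000)
    (k4 := 17209 / 100000) (r0 := 7 / 50) (c2 := 9713 / 100000) (c4 := 1583 / 100000)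
    (c5 := 2383 / 100000) hl0 hl le_rfl ?_ ?_ ?_ ?_ ?_ href ?_ ?_ ?_ ?_ ?_ ?_ ?_ ?_ ?_ ?_ ?_ ?_
    ?_ ?_ hb hb2 <;> norm_num [rho]

lemma small_1012 (hGn : ∀ y : ℝ, 0 ≤ y → y ≤ Y → 0 ≤ G y)
    (hGl : ∀ y : ℝ, 0 ≤ y → y ≤ (10 : ℕ) → (1 - y / (10 : ℕ)) ^ 10 ≤ G y)
    (href : ∀ b : ℝ, 0 < b → b ≤ 1 / 200 → G b ≤ 1 - b + 11 / 24 * b ^ 2)
    (hl0 : 0 ≤ l) (hl : l ≤ 31622777 / 100000000) :
    ∀ b : ℝ, 0 < b → b ≤ 1 / 200 → Good G Y l b := by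
  intro b hb hb2
  refine small_b (m := 9) (by norm_num) hGn hGl (l2 := 31622777 / 100000000) (ka := 261 / 500)
    (om := 111 / 250) (et := 9327 / 10000) (nu := 11 / 24) (b0 := 1 / 200)
    (be := 18467 / 100000) (ga := 2983 / 20000) (x := 41131 / 100000) (k := 7499 / 100000)
    (k4 := 1769 / 10000) (r0 := 7 / 50) (c2 := 9717 / 100000) (c4 := 159 / 10000)
    (c5 := 2387 / 100000) hl0 hl (by norm_num) ?_ ?_ ?_ ?_ ?_ href ?_ ?_ ?_ ?_ ?_ ?_ ?_ ?_ ?_ ?_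
    ?_ ?_ ?_ ?_ hb hb2 <;> norm_num [rho]

lemma small_1319 (hGn : ∀ y : ℝ, 0 ≤ y → y ≤ Y → 0 ≤ G y)
    (hGl : ∀ y : ℝ, 0 ≤ y → y ≤ (13 : ℕ) → (1 - y / (13 : ℕ)) ^ 13 ≤ G y)
    (href : ∀ b : ℝ, 0 < b → b ≤ 1 / 200 → G b ≤ 1 - b + 9 / 19 * b ^ 2)
    (hl0 : 0 ≤ l) (hl : l ≤ 27735010 / 100000000) :
    ∀ b : ℝ, 0 < b → b ≤ 1 / 200 → Good G Y l b := by
  intro b hb hb2
  refine small_b (m := 12) (by norm_num) hGn hGl (l2 := 27735010 / 100000000) (ka := 267 / 500)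
    (om := 11447 / 25000) (et := 4781 / 5000) (nu := 9 / 19) (b0 := 1 / 200)
    (be := 4801 / 25000) (ga := 13449 / 100000) (x := 21143 / 50000) (k := 7499 / 100000)
    (k4 := 4669 / 25000) (r0 := 13 / 100) (c2 := 4861 / 50000) (c4 := 1597 / 100000)
    (c5 := 299 / 12500) hl0 hl (by norm_num) ?_ ?_ ?_ ?_ ?_ href ?_ ?_ ?_ ?_ ?_ ?_ ?_ ?_ ?_ ?_
    ?_ ?_ ?_ ?_ hb hb2 <;> norm_num [rho]

lemma small_20 (hGn : ∀ y : ℝ, 0 ≤ y → y ≤ Y → 0 ≤ G y)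
    (hGl : ∀ y : ℝ, 0 ≤ y → y ≤ (20 : ℕ) → (1 - y / (20 : ℕ)) ^ 20 ≤ G y)
    (href : ∀ b : ℝ, 0 < b → b ≤ 1 / 200 → G b ≤ 1 - b + 1 / 2 * b ^ 2)
    (hl0 : 0 ≤ l) (hl : l ≤ 2236068 / 10000000) :
    ∀ b : ℝ, 0 < b → b ≤ 1 / 200 → Good G Y l b := by
  intro b hb hb2
  refine small_b (m := 19) (by norm_num) hGn hGl (l2 := 2236068 / 10000000) (ka := 277 / 500)
    (om := 23661 / 50000) (et := 632 / 625) (nu := 1 / 2) (b0 := 1 / 200)
    (be := 11387 / 50000) (ga := 5871 / 50000) (x := 45793 / 100000) (k := 8499 / 100000)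
    (k4 := 19797 / 100000) (r0 := 13 / 100) (c2 := 2433 / 25000) (c4 := 807 / 50000)
    (c5 := 2403 / 100000) hl0 hl (by norm_num) ?_ ?_ ?_ ?_ ?_ href ?_ ?_ ?_ ?_ ?_ ?_ ?_ ?_ ?_ ?_
    ?_ ?_ ?_ ?_ hb hb2 <;> norm_num [rho]

lemma small_100 (hGn : ∀ y : ℝ, 0 ≤ y → y ≤ Y → 0 ≤ G y)
    (hGl : ∀ y : ℝ, 0 ≤ y → y ≤ (100 : ℕ) → (1 - y / (100 : ℕ)) ^ 100 ≤ G y)
    (href : ∀ b : ℝ, 0 < b → b ≤ 1 / 200 → G b ≤ 1 - b + 1 / 2 * b ^ 2)
    (hl0 : 0 ≤ l) (hl : l ≤ 1 / 3) :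
    ∀ b : ℝ, 0 < b → b ≤ 1 / 200 → Good G Y l b := by
  intro b hb hb2
  refine small_b (m := 99) (by norm_num) hGn hGl (l2 := 1 / 3) (ka := 287 / 500)
    (om := 49447 / 100000) (et := 9941 / 10000) (nu := 1 / 2) (b0 := 1 / 200)
    (be := 15677 / 100000) (ga := 16089 / 100000) (x := 10523 / 25000) (k := 5499 / 100000)
    (k4 := 17199 / 100000) (r0 := 7 / 50) (c2 := 304 / 3125) (c4 := 1609 / 100000)
    (c5 := 2399 / 100000) hl0 hl le_rfl ?_ ?_ ?_ ?_ ?_ href ?_ ?_ ?_ ?_ ?_ ?_ ?_ ?_ ?_ ?_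
    ?_ ?_ ?_ ?_ hb hb2 <;> norm_num [rho]

end

end Vale.Agent.P154.Uni
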