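import Vale.Agent.P154.UniD.R1
import Vale.Agent.P154.UniD.R2
import Vale.Agent.P154.UniD.R3
import Vale.Agent.P154.UniD.R4
import Vale.Agent.P154.UniD.R5
import Vale.Agent.P154.UniD.R6
import Vale.Agent.P154.UniD.R7
import Vale.Agent.P154.UniD.R8
import Vale.Agent.P154.UniD.T1
import Vale.Agent.P154.UniD.T2
import Vale.Agent.P154.UniD.T3
import Vale.Agent.P154.UniD.Q1
import Vale.Agent.P154.UniD.Q2
import Vale.Agent.P154.UniD.Q3
import Vale.Agent.P154.UniD.Q4
import Vale.Agent.P154.UniD.Q5
import Vale.Agent.P154.UniD.Q6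
import Vale.Agent.P154.UniD.Q7
import Vale.Agent.P154.UniD.Q8
import Vale.Agent.P154.UniD.Q9

/-!
# P154: the numerical problem is solved for all `d ≥ 9`
-/

namespace Vale.Agent.P154.Uni

lemma sq_bounds {d : ℝ} (hd : 0 < d) {u v : ℝ} (hu : 0 ≤ u) (hv : 0 ≤ v) (h1 : u ^ 2 * d ≤ 1)
    (h2 : 1 ≤ v ^ 2 * d) : u ≤ 1 / Real.sqrt d ∧ 1 / Real.sqrt d ≤ v := by
  have hs : 0 < Real.sqrt d := Real.sqrt_pos.mpr hd
  have hs2 : Real.sqrt d ^ 2 = d := Real.sq_sqrt hd.le
  constructor
  · rw [le_div_iff₀ hs]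
    apply le_of_sq_le_sq _ zero_le_one
    rw [mul_pow, hs2]
    linarith
  · rw [div_le_iff₀ hs]
    apply le_of_sq_le_sq _ (by positivity)
    rw [mul_pow, hs2]
    linarith

section
variable {d : ℕ}

lemma good_R (n d' : ℕ) (hn : 9 ≤ n) (h1 : n ≤ d) (h2 : d ≤ d') {l1 l2 : Int} {L : List Itv}
    {R : Int} (h : chkAll n (some d') l1 l2 L R = true)
    (hl1 : 0 ≤ l1) (hl2 : 0 ≤ l2) (h3 : l1 ^ 2 * d' ≤ 1000000000 ^ 2)
    (h4 : 1000000000 ^ 2 ≤ l2 ^ 2 * n)
    (hsmall : ∀ b : ℝ, 0 < b → b ≤ 1 / 200 →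
      Good (fun y => (1 - y / d) ^ d) d (1 / Real.sqrt d) b) :
    ∀ b : ℝ, 0 < b → b ≤ bmax (1 / Real.sqrt d) →
      Good (fun y => (1 - y / d) ^ d) d (1 / Real.sqrt d) b := by
  have hd9 : (9 : ℝ) ≤ d := by exact_mod_cast hn.trans h1
  have hd1 : (n : ℝ) ≤ d := by exact_mod_cast h1
  have hd2 : (d : ℝ) ≤ d' := by exact_mod_cast h2
  have h3' : (l1 : ℝ) ^ 2 * d' ≤ 1000000000 ^ 2 := by exact_mod_cast h3
  have h4' : (1000000000 : ℝ) ^ 2 ≤ (l2 : ℝ) ^ 2 * n := by exact_mod_cast h4
  have hl1' : (0 : ℝ) ≤ l1 := by exact_mod_cast hl1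
  have hl2' : (0 : ℝ) ≤ l2 := by exact_mod_cast hl2
  obtain ⟨g1, g2⟩ := sq_bounds (d := (d : ℝ)) (by linarith) (u := l1 / 1000000000)
    (v := l2 / 1000000000) (by positivity) (by positivity) (by
      have : (l1 : ℝ) ^ 2 * d ≤ l1 ^ 2 * d' := mul_le_mul_of_nonneg_left hd2 (sq_nonneg _)
      rw [div_pow, div_mul_eq_mul_div, div_le_one (by positivity)]
      linarith) (by
      have : (l2 : ℝ) ^ 2 * n ≤ l2 ^ 2 * d := mul_le_mul_of_nonneg_left hd1 (sq_nonneg _)
      rw [div_pow, div_mul_eq_mul_div, one_le_div (by positivity)]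
      linarith)
  exact grp_final (by omega) (by intro h; injection h; omega) h
    (ghyp_reg_some (by omega) h1 h2) (by linarith) g1 g2 hsmall

lemma small_reg (hd : 9 ≤ d) : ∀ b : ℝ, 0 < b → b ≤ 1 / 200 →
    Good (fun y => (1 - y / d) ^ d) d (1 / Real.sqrt d) b := by
  have hd9 : (9 : ℝ) ≤ d := by exact_mod_cast hd
  have hl0 : 0 ≤ 1 / Real.sqrt (d : ℝ) := by positivity
  have hGn : ∀ y : ℝ, 0 ≤ y → y ≤ d → 0 ≤ (1 - y / d) ^ d := by
    intro y _ h1
    apply pow_nonneg
    rw [sub_nonneg, div_le_one (by linarith)]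
    exact h1
  have hl : ∀ v : ℝ, 0 ≤ v → 1 ≤ v ^ 2 * d → 1 / Real.sqrt (d : ℝ) ≤ v := fun v h1 h2 =>
    (sq_bounds (u := 0) (by linarith) le_rfl h1 (by norm_num) h2).2
  rcases le_or_gt d 10 with h | h
  · refine small_910 hGn (fun y h0 h1 => pow_mono_n (by norm_num) hd h0 h1)
      (ref_reg (by omega) ?_) hl0 (hl _ (by norm_num) (by linarith))
    have h' : (d : ℝ) ≤ 10 := by exact_mod_cast h
    rw [div_le_div_iff₀ (by positivity) (by norm_num)]
    linarith
  rcases le_or_gt d 12 with h2 | h2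
  · have h10 : (10 : ℝ) ≤ d := by exact_mod_cast h.le
    refine small_1012 hGn (fun y h0 h1 => pow_mono_n (by norm_num) h.le h0 h1)
      (ref_reg (by omega) ?_) hl0 (hl _ (by norm_num) (by norm_num; linarith))
    have h' : (d : ℝ) ≤ 12 := by exact_mod_cast h2
    rw [div_le_div_iff₀ (by positivity) (by norm_num)]
    linarith
  rcases le_or_gt d 19 with h3 | h3
  · have h13 : (13 : ℝ) ≤ d := by exact_mod_cast h2
    refine small_1319 hGn (fun y h0 h1 => pow_mono_n (by norm_num) h2 h0 h1)
      (ref_reg (by omega) ?_) hl0 (hl _ (by norm_num) (by norm_num; linarith))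
    have h' : (d : ℝ) ≤ 19 := by exact_mod_cast h3
    rw [div_le_div_iff₀ (by positivity) (by norm_num)]
    linarith
  · have h20 : (20 : ℝ) ≤ d := by exact_mod_cast h3
    exact small_20 hGn (fun y h0 h1 => pow_mono_n (by norm_num) h3 h0 h1)
      (ref_reg' (by omega)) hl0 (hl _ (by norm_num) (by norm_num; linarith))

theorem good_reg (hd : 9 ≤ d) : ∀ b : ℝ, 0 < b → b ≤ bmax (1 / Real.sqrt d) →
    Good (fun y => (1 - y / d) ^ d) d (1 / Real.sqrt d) b := by
  have hs := small_reg hd
  have hd9 : (9 : ℝ) ≤ d := by exact_mod_cast hd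
  rcases le_or_gt d 9 with h | h
  · exact good_R 9 9 (by norm_num) hd h chkR1 (by norm_num) (by norm_num) (by norm_num)
      (by norm_num) hs
  rcases le_or_gt d 10 with h2 | h2
  · exact good_R 10 10 (by norm_num) h h2 chkR2 (by norm_num) (by norm_num) (by norm_num)
      (by norm_num) hs
  rcases le_or_gt d 12 with h3 | h3
  · exact good_R 11 12 (by norm_num) h2 h3 chkR3 (by norm_num) (by norm_num) (by norm_num)
      (by norm_num) hs
  rcases le_or_gt d 15 with h4 | h4
  · exact good_R 13 15 (by norm_num) h3 h4 chkR4 (by norm_num) (by norm_num) (by norm_num)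
      (by norm_num) hs
  rcases le_or_gt d 19 with h5 | h5
  · exact good_R 16 19 (by norm_num) h4 h5 chkR5 (by norm_num) (by norm_num) (by norm_num)
      (by norm_num) hs
  rcases le_or_gt d 25 with h6 | h6
  · exact good_R 20 25 (by norm_num) h5 h6 chkR6 (by norm_num) (by norm_num) (by norm_num)
      (by norm_num) hs
  rcases le_or_gt d 34 with h7 | h7
  · exact good_R 26 34 (by norm_num) h6 h7 chkR7 (by norm_num) (by norm_num) (by norm_num)
      (by norm_num) hs
  rcases le_or_gt d 49 with h8 | h8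
  · exact good_R 35 49 (by norm_num) h7 h8 chkR8 (by norm_num) (by norm_num) (by norm_num)
      (by norm_num) hs
  · have h50 : 50 ≤ d := h8
    have hd50 : (50 : ℝ) ≤ d := by exact_mod_cast h50
    have hl0 : 0 ≤ 1 / Real.sqrt (d : ℝ) := by positivity
    have hlt : 1 / Real.sqrt (d : ℝ) ≤ 141500000 / 1000000000 :=
      (sq_bounds (d := (d : ℝ)) (u := 0) (v := 141500000 / 1000000000) (by linarith) le_rfl
        (by norm_num) (by norm_num) (by norm_num; linarith)).2
    have hG : GHyp (fun y => (1 - y / d) ^ d) d 50 none := ghyp_reg_none (by norm_num) h50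
    rcases le_total (1 / Real.sqrt (d : ℝ)) (60000000 / 1000000000) with g | g
    · exact grp_final (by norm_num) (by simp) chkT1 hG (by linarith)
        (by push_cast; linarith) (by push_cast; linarith) hs
    rcases le_total (1 / Real.sqrt (d : ℝ)) (110000000 / 1000000000) with g2 | g2
    · exact grp_final (by norm_num) (by simp) chkT2 hG (by linarith)
        (by push_cast; linarith) (by push_cast; linarith) hs
    · exact grp_final (by norm_num) (by simp) chkT3 hG (by linarith)
        (by push_cast; linarith) (by push_cast; linarith) hs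

end

/-- Poisson case -/
theorem good_poisson {d : ℝ} (hd : 9 ≤ d) : ∀ b : ℝ, 0 < b → b ≤ bmax (1 / Real.sqrt d) →
    Good (fun y => Real.exp (-y)) d (1 / Real.sqrt d) b := by
  have hl0 : 0 ≤ 1 / Real.sqrt d := by positivity
  have hl3 : 1 / Real.sqrt d ≤ 1 / 3 :=
    (sq_bounds (d := d) (u := 0) (v := 1 / 3) (by linarith) le_rfl
        (by norm_num) (by norm_num) (by linarith)).2
  have hG : ∀ n : ℕ, GHyp (fun y => Real.exp (-y)) d n none := fun n => ghyp_exp d
  have hs : ∀ b : ℝ, 0 < b → b ≤ 1 / 200 →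
      Good (fun y => Real.exp (-y)) d (1 / Real.sqrt d) b :=
    small_100 (hG 100).nonneg (hG 100).line ref_exp hl0 hl3
  set l := 1 / Real.sqrt d with hl
  rcases le_total l (60000000 / 1000000000) with g | g
  · exact grp_final (by norm_num) (by simp) chkQ1 (hG 1024) (by linarith)
      (by push_cast; linarith) (by push_cast; linarith) hs
  rcases le_total l (100000000 / 1000000000) with g | g
  · exact grp_final (by norm_num) (by simp) chkQ2 (hG 1024) (by linarith)
      (by push_cast; linarith) (by push_cast; linarith) hs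
  rcases le_total l (140000000 / 1000000000) with g | g
  · exact grp_final (by norm_num) (by simp) chkQ3 (hG 1024) (by linarith)
      (by push_cast; linarith) (by push_cast; linarith) hs
  rcases le_total l (180000000 / 1000000000) with g | g
  · exact grp_final (by norm_num) (by simp) chkQ4 (hG 1024) (by linarith)
      (by push_cast; linarith) (by push_cast; linarith) hs
  rcases le_total l (220000000 / 1000000000) with g | g
  · exact grp_final (by norm_num) (by simp) chkQ5 (hG 1024) (by linarith)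
      (by push_cast; linarith) (by push_cast; linarith) hs
  rcases le_total l (250000000 / 1000000000) with g | g
  · exact grp_final (by norm_num) (by simp) chkQ6 (hG 1024) (by linarith)
      (by push_cast; linarith) (by push_cast; linarith) hs
  rcases le_total l (280000000 / 1000000000) with g | g
  · exact grp_final (by norm_num) (by simp) chkQ7 (hG 1024) (by linarith)
      (by push_cast; linarith) (by push_cast; linarith) hs
  rcases le_total l (310000000 / 1000000000) with g | g
  · exact grp_final (by norm_num) (by simp) chkQ8 (hG 1024) (by linarith)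
      (by push_cast; linarith) (by push_cast; linarith) hs
  · exact grp_final (by norm_num) (by simp) chkQ9 (hG 1024) (by linarith)
      (by push_cast; linarith) (by push_cast; linarith) hs

end Vale.Agent.P154.Uni
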