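import Vale.Agent.P154.Uni0
import Vale.Agent.P154.Asm

/-!
# P154: from the universal inequalities to nonreconstruction (negative `lam`, `d ≥ 9`)
-/

namespace Vale.Agent.P154.Uni

open Vale.Agent.P154.Near Vale.Agent.P154.Mu Filter Topology

lemma dom_sq_cu {x : Fin 3 → ℝ} (hx : Simp x) : Dom (sq x) (cu x) := by
  have h1 := cu_sq_le hx.2
  refine ⟨sq_nonneg'' x, sq_le_two hx, by linarith, ?_⟩
  have hm := hx.2
  unfold mean at hm
  have hp : 0 ≤ x 0 * x 1 * x 2 := mul_nonneg (mul_nonneg (hx.1 0) (hx.1 1)) (hx.1 2)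
  have h0 : x 0 = 3 - x 1 - x 2 := by linarith
  have e : x 0 * x 1 * x 2 = 1 - 3 / 2 * sq x + cu x := by
    unfold sq cu
    rw [h0]; ring
  linarith

lemma simp_chan_neg {x : Fin 3 → ℝ} (hx : Simp x) {l : ℝ} (hl0 : 0 ≤ l) (hl : l ≤ 1 / 3) :
    Simp (chan (-l) x) ∧ ∀ i, chan (-l) x i ≤ 4 / 3 := by
  have hle : ∀ i, x i ≤ 3 := fun i => by
    have h := Sx_le (q := 3) (by norm_num) ((Sx_iff x).mpr hx) i
    exact_mod_cast h
  refine ⟨⟨fun i => ?_, ?_⟩, fun i => ?_⟩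
  · have := hle i
    unfold chan
    nlinarith
  · have hm := hx.2
    unfold mean at hm ⊢
    unfold chan
    have : x 0 = 3 - x 1 - x 2 := by linarith
    rw [this]; ring
  · have := hx.1 i
    unfold chan
    nlinarith

lemma sq_chan_neg (l : ℝ) (x : Fin 3 → ℝ) : sq (chan (-l) x) = l ^ 2 * sq x := by
  rw [sq_chan]; ring

lemma cu_chan_neg (l : ℝ) (x : Fin 3 → ℝ) : cu (chan (-l) x) = -(l ^ 3 * cu x) := by
  rw [cu_chan]; ring

lemma core (h1 : U1) (hC : U2C) (hR : U2R) {x : Fin 3 → ℝ} (hx : Simp x) {l D q mu : ℝ}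
    (hl0 : 0 < l) (hl : l ≤ 1 / 3) (hD : D * l ^ 2 = 1) (hq : 0 ≤ q) (hmu : 0 ≤ mu) :
    P1 l q mu (sq x) (cu x) ≤ rho * phiC x - q * D * (rho * phiC (chan (-l) x)) - phiR x +
      mu * D * phiR (chan (-l) x) := by
  obtain ⟨hz, hz4⟩ := simp_chan_neg hx hl0.le hl
  have a1 := h1 x hx
  have a2 := hC _ hz hz4
  have a3 := hR _ hz hz4
  rw [sq_chan_neg, cu_chan_neg] at a2 a3
  have hDp : 0 < D := by
    by_contra h
    push Not at h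
    have : D * l ^ 2 ≤ 0 := mul_nonpos_of_nonpos_of_nonneg h (sq_nonneg l)
    linarith
  set s := sq x
  set t := cu x
  have b2 := mul_le_mul_of_nonneg_left a2 (mul_nonneg hq hDp.le)
  have b3 := mul_le_mul_of_nonneg_left a3 (mul_nonneg hmu hDp.le)
  have e2 : q * D * (86 / 75 * (l ^ 2 * s) - 43 / 75 * -(l ^ 3 * t) + 907 / 2000 * (l ^ 2 * s) ^ 2 -
      273 / 500 * (l ^ 2 * s * -(l ^ 3 * t)) + 633 / 1000 * (l ^ 2 * s) ^ 3 +
      211 / 500 * (-(l ^ 3 * t)) ^ 2) =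
      q * (86 / 75 * s + 43 / 75 * l * t + 907 / 2000 * l ^ 2 * s ^ 2 +
        273 / 500 * l ^ 3 * (s * t) + 633 / 1000 * l ^ 4 * s ^ 3 + 211 / 500 * l ^ 4 * t ^ 2) := by
    calc _ = q * (D * l ^ 2) * (86 / 75 * s + 43 / 75 * l * t + 907 / 2000 * l ^ 2 * s ^ 2 +
        273 / 500 * l ^ 3 * (s * t) + 633 / 1000 * l ^ 4 * s ^ 3 + 211 / 500 * l ^ 4 * t ^ 2) := by
          ring
      _ = _ := by rw [hD]; ring
  have e3 : mu * D * (37 / 50 * (l ^ 2 * s) - 43 / 75 * -(l ^ 3 * t) + 179 / 500 * (l ^ 2 * s) ^ 2 -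
      541 / 1000 * (l ^ 2 * s * -(l ^ 3 * t)) + 31 / 50 * (l ^ 2 * s) ^ 3 +
      2 / 5 * (-(l ^ 3 * t)) ^ 2) =
      mu * (37 / 50 * s + 43 / 75 * l * t + 179 / 500 * l ^ 2 * s ^ 2 +
        541 / 1000 * l ^ 3 * (s * t) + 31 / 50 * l ^ 4 * s ^ 3 + 2 / 5 * l ^ 4 * t ^ 2) := by
    calc _ = mu * (D * l ^ 2) * (37 / 50 * s + 43 / 75 * l * t + 179 / 500 * l ^ 2 * s ^ 2 +
        541 / 1000 * l ^ 3 * (s * t) + 31 / 50 * l ^ 4 * s ^ 3 + 2 / 5 * l ^ 4 * t ^ 2) := by ring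
      _ = _ := by rw [hD]; ring
  rw [e2] at b2
  rw [e3] at b3
  unfold P1
  linarith

lemma bounds_aux {x : Fin 3 → ℝ} (hx : Simp x) : 0 ≤ sq x ∧ sq x ≤ 2 ∧ |cu x| ≤ sq x :=
  ⟨sq_nonneg'' x, sq_le_two hx, abs_cu_le hx⟩

lemma phiR_le (h1 : U1) (hC : U2C) {x : Fin 3 → ℝ} (hx : Simp x) {l : ℝ} (hl0 : 0 < l)
    (hl : l ≤ 1 / 3) : phiR (chan (-l) x) ≤ l ^ 2 * bmax l := by
  obtain ⟨hz, hz4⟩ := simp_chan_neg hx hl0.le hl
  have a1 := h1 _ hz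
  have a2 := hC _ hz hz4
  rw [sq_chan_neg, cu_chan_neg] at a1 a2
  obtain ⟨hs0, hs2, hts⟩ := bounds_aux hx
  have ht := abs_le.mp hts
  unfold bmax
  generalize sq x = s at *
  generalize cu x = t at *
  have hl2 : 0 < l ^ 2 := by positivity
  have hl3 : 0 < l ^ 3 := by positivity
  have hl4 : 0 < l ^ 4 := by positivity
  have hl5 : 0 < l ^ 5 := by positivity
  have hl6 : 0 < l ^ 6 := by positivity
  have ht2 : t ≤ 2 := by linarith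
  have c1 : l ^ 2 * s ≤ l ^ 2 * 2 := mul_le_mul_of_nonneg_left hs2 hl2.le
  have c2 : l ^ 3 * t ≤ l ^ 3 * 2 := mul_le_mul_of_nonneg_left ht2 hl3.le
  have c3 : l ^ 4 * s ^ 2 ≤ l ^ 4 * 4 := mul_le_mul_of_nonneg_left (by nlinarith) hl4.le
  have c4 : l ^ 5 * (s * t) ≤ l ^ 5 * 4 := mul_le_mul_of_nonneg_left (by nlinarith) hl5.le
  have c5 : l ^ 6 * s ^ 3 ≤ l ^ 6 * 8 := by
    apply mul_le_mul_of_nonneg_left _ hl6.le
    calc s ^ 3 ≤ 2 ^ 3 := pow_le_pow_left₀ hs0 hs2 3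
      _ = 8 := by norm_num
  have c6 : l ^ 6 * t ^ 2 ≤ l ^ 6 * 4 := mul_le_mul_of_nonneg_left (by nlinarith) hl6.le
  nlinarith

lemma phiR_ge (hR : U2R) {x : Fin 3 → ℝ} (hx : Simp x) {l : ℝ} (hl0 : 0 < l)
    (hl : l ≤ 1 / 3) : l ^ 2 / 6 * sqd x ≤ phiR (chan (-l) x) := by
  obtain ⟨hz, hz4⟩ := simp_chan_neg hx hl0.le hl
  have a3 := hR _ hz hz4
  rw [sq_chan_neg, cu_chan_neg] at a3
  rw [sqd_eq_sq]
  obtain ⟨hs0, hs2, hts⟩ := bounds_aux hx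
  have ht := abs_le.mp hts
  generalize sq x = s at *
  generalize cu x = t at *
  have hl2 : 0 < l ^ 2 := by positivity
  have d1 : -(l ^ 3 * t) ≤ l ^ 2 * s / 3 := by
    have : -(l ^ 3 * t) ≤ l ^ 3 * s := by
      have := mul_le_mul_of_nonneg_left ht.1 (by positivity : (0:ℝ) ≤ l ^ 3)
      linarith
    have h2 : l ^ 3 * s ≤ l ^ 2 * s / 3 := by
      have : l * (l ^ 2 * s) ≤ 1 / 3 * (l ^ 2 * s) :=
        mul_le_mul_of_nonneg_right hl (by positivity)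
      calc l ^ 3 * s = l * (l ^ 2 * s) := by ring
        _ ≤ _ := by linarith
    linarith
  have d2 : -(l ^ 5 * (s * t)) ≤ 2 / 27 * (l ^ 2 * s) := by
    have h3 : -(s * t) ≤ 2 * s := by nlinarith
    have h4 : l ^ 3 ≤ 1 / 27 := by
      calc l ^ 3 ≤ (1 / 3) ^ 3 := pow_le_pow_left₀ hl0.le hl 3
        _ = 1 / 27 := by norm_num
    have h5 : l ^ 3 * (l ^ 2 * (2 * s)) ≤ 1 / 27 * (l ^ 2 * (2 * s)) :=
      mul_le_mul_of_nonneg_right h4 (by positivity)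
    have h6 := mul_le_mul_of_nonneg_left h3 (by positivity : (0:ℝ) ≤ l ^ 5)
    calc -(l ^ 5 * (s * t)) = l ^ 5 * -(s * t) := by ring
      _ ≤ l ^ 5 * (2 * s) := h6
      _ = l ^ 3 * (l ^ 2 * (2 * s)) := by ring
      _ ≤ 1 / 27 * (l ^ 2 * (2 * s)) := h5
      _ = _ := by ring
  have p1 : 0 ≤ (l ^ 2 * s) ^ 2 := sq_nonneg _
  have p2 : 0 ≤ (l ^ 2 * s) ^ 3 := by positivity
  have p3 : 0 ≤ (-(l ^ 3 * t)) ^ 2 := sq_nonneg _
  have e1 : l ^ 2 * s * -(l ^ 3 * t) = -(l ^ 5 * (s * t)) := by ring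
  rw [e1] at a3
  have hls : 0 ≤ l ^ 2 * s := by positivity
  nlinarith

lemma phiC_le_one (hC : U2C) {x : Fin 3 → ℝ} (hx : Simp x) {l : ℝ} (hl0 : 0 < l)
    (hl : l ≤ 1 / 3) : phiC (chan (-l) x) ≤ 1 := by
  obtain ⟨hz, hz4⟩ := simp_chan_neg hx hl0.le hl
  have a2 := hC _ hz hz4
  rw [sq_chan_neg, cu_chan_neg] at a2
  obtain ⟨hs0, hs2, hts⟩ := bounds_aux hx
  have ht := abs_le.mp hts
  generalize sq x = s at *
  generalize cu x = t at *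
  have hA : 0 ≤ l ^ 2 * s ∧ l ^ 2 * s ≤ 2 / 9 := by
    constructor
    · positivity
    · have h2 : l ^ 2 ≤ 1 / 9 := by nlinarith
      calc l ^ 2 * s ≤ 1 / 9 * 2 := mul_le_mul h2 hs2 hs0 (by norm_num)
        _ = _ := by norm_num
  have hl3 : l ^ 3 ≤ 1 / 27 := by
    calc l ^ 3 ≤ (1 / 3) ^ 3 := pow_le_pow_left₀ hl0.le hl 3
      _ = 1 / 27 := by norm_num
  have hB : |l ^ 3 * t| ≤ 2 / 27 := by
    rw [abs_mul, abs_of_pos (by positivity : 0 < l ^ 3)]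
    calc l ^ 3 * |t| ≤ 1 / 27 * 2 := mul_le_mul hl3 (hts.trans hs2) (abs_nonneg _) (by norm_num)
      _ = _ := by norm_num
  obtain ⟨hB1, hB2⟩ := abs_le.mp hB
  generalize l ^ 2 * s = u at *
  generalize l ^ 3 * t = v at *
  have hu2 : u ^ 2 ≤ 1 := by nlinarith [hA.1, hA.2]
  have hu3 : u ^ 3 ≤ 1 := by
    calc u ^ 3 ≤ (2 / 9) ^ 3 := pow_le_pow_left₀ hA.1 hA.2 3
      _ ≤ 1 := by norm_num
  have hv2 : (-v) ^ 2 ≤ 1 := by nlinarith
  have huv : -(u * -v) ≤ 1 := by nlinarith [hA.1, hA.2]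
  unfold rho at a2
  nlinarith [hA.1, hA.2]

lemma one_sub_gm_C {x : Fin 3 → ℝ} (hx : ∀ i, 0 ≤ x i) :
    1 - gm (alT (1 / 2) (1 / 5)) x = phiC x := by
  unfold phiC
  rw [gE_eq_gm (by norm_num) _ hx]

lemma one_sub_gm_R {x : Fin 3 → ℝ} (hx : ∀ i, 0 ≤ x i) :
    1 - gm (alT (1 / 3) (2 / 5)) x = phiR x := by
  unfold phiR
  rw [gE_eq_gm (by norm_num) _ hx]

lemma lamOK_neg {l : ℝ} (hl0 : 0 < l) (hl : l ≤ 1 / 3) : LamOK 3 (-l) :=
  lamOK_three.mpr ⟨by linarith, by linarith⟩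

open scoped ENNReal in
/-- the certificate from `Good` -/
lemma cert_of_good (h1 : U1) (hC : U2C) (hR : U2R) {p : ℕ → ℝ≥0∞} {G : ℝ → ℝ} {D l : ℝ}
    (hl0 : 0 < l) (hl : l ≤ 1 / 3) (hD : D * l ^ 2 = 1)
    (hG : ∀ s, 0 ≤ s → s ≤ 1 → Fp p s = 1 - G (D * s))
    (hGb : ∀ s, 0 < s → s ≤ l ^ 2 * bmax l → Fp p s = 1 - G (D * s))
    (h : ∀ b, 0 < b → b ≤ bmax l → Good G D l b) (m : Fin 1 → ℝ)
    (hm : ∀ i, 0 < m i ∧ m i ≤ l ^ 2 * bmax l) :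
    CertAt p (-l) (fun _ : Fin 1 => alT (1 / 3) (2 / 5)) m := by
  have hDp : 0 < D := by
    by_contra h'
    push Not at h'
    have : D * l ^ 2 ≤ 0 := mul_nonpos_of_nonpos_of_nonneg h' (sq_nonneg l)
    linarith
  obtain ⟨hm0, hm1⟩ := hm 0
  have hb : D * m 0 ≤ bmax l := by
    calc D * m 0 ≤ D * (l ^ 2 * bmax l) := mul_le_mul_of_nonneg_left hm1 hDp.le
      _ = (D * l ^ 2) * bmax l := by ring
      _ = bmax l := by rw [hD, one_mul]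
  obtain ⟨q, A, mu, c, hc, hmu0, hmuq, hq1, htan, hmain⟩ := h (D * m 0) (by positivity) hb
  have hq0 : 0 ≤ q := hmu0.trans hmuq
  refine ⟨1, fun _ => alT (1 / 2) (1 / 5), fun _ => rho, fun _ => 1 - q * A, fun _ => q * D,
    fun _ => 1, fun _ => 1, fun _ => mu * D, c, hc, fun _ => adm_alT (by norm_num) (by norm_num) _,
    fun _ => by unfold rho; norm_num, ?_, ?_, ?_⟩
  · intro _ x hx
    have hx' := (Sx_iff x).mp hx
    rw [ch_eq_chan, one_sub_gm_C (simp_chan_neg hx' hl0.le hl).1.1]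
    exact phiC_le_one hC hx' hl0 hl
  · intro _ s hs0 hs1
    rw [hG s hs0 hs1]
    have h2 := htan (D * s) (by positivity) (by
      calc D * s ≤ D * 1 := mul_le_mul_of_nonneg_left hs1 hDp.le
        _ = D := mul_one D)
    linarith
  · intro x hx
    have hx' := (Sx_iff x).mp hx
    have hz := (simp_chan_neg hx' hl0.le hl).1.1
    simp only [Finset.univ_unique, Finset.sum_singleton, Fin.default_eq_zero]
    rw [ch_eq_chan, one_sub_gm_C hz, one_sub_gm_R hz, one_sub_gm_C hx'.1, one_sub_gm_R hx'.1,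
      hGb (m 0) hm0 hm1]
    have h3 := core h1 hC hR hx' hl0 hl hD hq0 hmu0
    have h4 := hmain (sq x) (cu x) (dom_sq_cu hx')
    linarith

lemma l_facts {d : ℝ} (hd : 9 ≤ d) : 0 < 1 / √d ∧ 1 / √d ≤ 1 / 3 ∧ d * (1 / √d) ^ 2 = 1 := by
  have hd0 : 0 < d := by linarith
  have hs : 0 < √d := Real.sqrt_pos.mpr hd0
  have h3 : 3 ≤ √d := by
    rw [show (3:ℝ) = √9 by rw [show (9:ℝ) = 3 ^ 2 by norm_num, Real.sqrt_sq (by norm_num)]]
    exact Real.sqrt_le_sqrt hd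
  refine ⟨by positivity, one_div_le_one_div_of_le (by norm_num) h3, ?_⟩
  rw [div_pow, Real.sq_sqrt hd0.le]
  field_simp

theorem reg_of_good (h1 : U1) (hC : U2C) (hR : U2R) {d : ℕ} (hd : 9 ≤ d)
    (h : ∀ b, 0 < b → b ≤ bmax (1 / √d) → Good (fun y => (1 - y / d) ^ d) d (1 / √d) b) :
    Tendsto (aReg 3 d (-(1 / √d))) atTop (𝓝 0) := by
  have hd' : (9:ℝ) ≤ d := by exact_mod_cast hd
  have hd0 : (0:ℝ) < d := by linarith
  obtain ⟨hl0, hl, hD⟩ := l_facts hd'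
  have hF : ∀ s : ℝ, Fp (dirac d) s = 1 - (fun y : ℝ => (1 - y / d) ^ d) (d * s) := by
    intro s
    rw [Fp_dirac]
    simp only
    congr 3
    field_simp
  refine tendsto_reg_of_cert (by norm_num) (lamOK_neg hl0 hl)
    (fun _ : Fin 1 => alT (1 / 3) (2 / 5)) (fun _ => adm_alT (by norm_num) (by norm_num) _)
    (fun _ => (1 / √d) ^ 2 * bmax (1 / √d)) ?_ (c0 := (1 / √d) ^ 2 / 6) (by positivity) ?_ ?_
  · intro _ x hx
    have hx' := (Sx_iff x).mp hx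
    rw [ch_eq_chan, one_sub_gm_R (simp_chan_neg hx' hl0.le hl).1.1]
    exact phiR_le h1 hC hx' hl0 hl
  · intro _ x hx
    have hx' := (Sx_iff x).mp hx
    rw [ch_eq_chan, one_sub_gm_R (simp_chan_neg hx' hl0.le hl).1.1]
    exact phiR_ge hR hx' hl0 hl
  · intro m hm
    exact cert_of_good h1 hC hR hl0 hl hD (fun s _ _ => hF s) (fun s _ _ => hF s) h m hm

theorem poisson_of_good (h1 : U1) (hC : U2C) (hR : U2R) {d : ℝ} (hd : 9 ≤ d)
    (h : ∀ b, 0 < b → b ≤ bmax (1 / √d) → Good (fun y => Real.exp (-y)) d (1 / √d) b) :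
    Tendsto (aGW 3 (poissonLaw d) (-(1 / √d))) atTop (𝓝 0) := by
  have hd0 : (0:ℝ) < d := by linarith
  obtain ⟨hl0, hl, hD⟩ := l_facts hd
  have hF : ∀ s : ℝ, Fp (poissonLaw d) s = 1 - (fun y : ℝ => Real.exp (-y)) (d * s) := by
    intro s
    rw [Fp_poisson hd0.le]
  refine tendsto_of_cert (by norm_num) (lamOK_neg hl0 hl) (tsum_poissonLaw hd0.le)
    (fun _ : Fin 1 => alT (1 / 3) (2 / 5)) (fun _ => adm_alT (by norm_num) (by norm_num) _)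
    (fun _ => (1 / √d) ^ 2 * bmax (1 / √d)) ?_ (c0 := (1 / √d) ^ 2 / 6) (by positivity) ?_ ?_
  · intro _ x hx
    have hx' := (Sx_iff x).mp hx
    rw [ch_eq_chan, one_sub_gm_R (simp_chan_neg hx' hl0.le hl).1.1]
    exact phiR_le h1 hC hx' hl0 hl
  · intro _ x hx
    have hx' := (Sx_iff x).mp hx
    rw [ch_eq_chan, one_sub_gm_R (simp_chan_neg hx' hl0.le hl).1.1]
    exact phiR_ge hR hx' hl0 hl
  · intro m hm
    exact cert_of_good h1 hC hR hl0 hl hD (fun s _ _ => hF s) (fun s _ _ => hF s) h m hm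

end Vale.Agent.P154.Uni
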