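import Vale.Agent.P154.Uni6
import Vale.Agent.P154.UniFin

/-!
# P154: nonreconstruction for three spins at `lam = -1 / √d`, `d ≥ 9`, from `U1`, `U2C`, `U2R`
-/

namespace Vale.Agent.P154.Uni

open Filter Topology Vale.Agent.P154.Mu

/-- `d`-ary trees -/
theorem reg_uni (h1 : U1) (hC : U2C) (hR : U2R) {d : ℕ} (hd : 9 ≤ d) :
    Tendsto (aReg 3 d (-(1 / √d))) atTop (𝓝 0) :=
  reg_of_good h1 hC hR hd (good_reg hd)

/-- Poisson trees -/
theorem poisson_uni (h1 : U1) (hC : U2C) (hR : U2R) {d : ℝ} (hd : 9 ≤ d) :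
    Tendsto (aGW 3 (poissonLaw d) (-(1 / √d))) atTop (𝓝 0) :=
  poisson_of_good h1 hC hR hd (good_poisson hd)

end Vale.Agent.P154.Uni
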